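import Crest.Prelude.Def_AsymptoticConvexity

/-! Obstruction to asymptotically uniformly convex renormings: trees with separated, almost
finite-codimensional steps inside a bounded set.  Also the pigeonhole lemma producing such steps
from upper `ℓ₂` estimates on sequences of siblings. -/

set_option autoImplicit false

namespace Crest.Agent.Lib.AUCTree

open Crest.AnalysisR

section generic

variable {X : Type*} [NormedAddCommGroup X] [NormedSpace ℝ X]

/-- One step of growth of an asymptotically uniformly convex norm. -/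
lemma growth_step (N : X → ℝ) (hadd : ∀ x y, N (x + y) ≤ N x + N y)
    (hsmul : ∀ (a : ℝ) (x : X), N (a • x) = |a| * N x) {x y : X} {t₀ c : ℝ}
    (hr0 : 0 < N x) (ht0 : 0 < t₀) (hc0 : 0 ≤ c) (hy : t₀ * N x ≤ N y)
    (hc : c ≤ N ((1 / N x) • x + t₀ • ((1 / N y) • y)) - 1) :
    N x * (1 + c) ≤ N (x + y) := by
  set r := N x with hr
  have hs0 : 0 < N y := lt_of_lt_of_le (mul_pos ht0 hr0) hy
  set s := N y with hs
  set lam := t₀ * r / s with hlam
  have hlam0 : 0 < lam := by positivity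
  have hlam1 : lam ≤ 1 := by rw [hlam, div_le_one hs0]; exact hy
  have e : (1 / r) • x + t₀ • ((1 / s) • y) = (1 - lam) • ((1 / r) • x) + lam • ((1 / r) • (x + y)) := by
    have h1 : lam * (1 / r) = t₀ * (1 / s) := by
      rw [hlam]; field_simp
    have h2 : (1 - lam) * (1 / r) + lam * (1 / r) = 1 / r := by ring
    have h3 : (1 - lam) • ((1 / r) • x) + lam • ((1 / r) • (x + y))
        = ((1 - lam) * (1 / r) + lam * (1 / r)) • x + (lam * (1 / r)) • y := by
      simp only [smul_add, smul_smul, add_smul]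
      abel
    rw [h3, h2, h1, smul_smul]
  have hbound : N ((1 / r) • x + t₀ • ((1 / s) • y)) ≤ (1 - lam) + lam * (N (x + y) / r) := by
    rw [e]
    refine (hadd _ _).trans ?_
    rw [hsmul, hsmul, hsmul, hsmul, abs_of_nonneg (by linarith : (0:ℝ) ≤ 1 - lam),
      abs_of_pos hlam0, abs_of_pos (by positivity : (0:ℝ) < 1 / r)]
    apply le_of_eq
    rw [← hr]
    field_simp
  have h3 : c ≤ lam * (N (x + y) / r - 1) := by
    have : N ((1 / r) • x + t₀ • ((1 / s) • y)) - 1 ≤ lam * (N (x + y) / r - 1) := by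
      nlinarith
    linarith
  have h4 : c ≤ N (x + y) / r - 1 := by
    have h5 : 0 ≤ lam * (N (x + y) / r - 1) := hc0.trans h3
    have h6 : 0 ≤ N (x + y) / r - 1 := nonneg_of_mul_nonneg_right h5 hlam0
    nlinarith
  have h7 : 1 + c ≤ N (x + y) / r := by linarith
  calc r * (1 + c) ≤ r * (N (x + y) / r) := mul_le_mul_of_nonneg_left h7 hr0.le
    _ = N (x + y) := by field_simp

/-- The tree obstruction in generic form. -/
theorem no_auc_generic (Cof : Set X → Prop) (hCof : ∀ F, Cof F → ∀ y ∈ F, ∀ a : ℝ, a • y ∈ F)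
    (N : X → ℝ) (hadd : ∀ x y, N (x + y) ≤ N x + N y)
    (hsmul : ∀ (a : ℝ) (x : X), N (a • x) = |a| * N x)
    (a b : ℝ) (ha : 0 < a) (hab : ∀ x : X, a * ‖x‖ ≤ N x ∧ N x ≤ b * ‖x‖)
    (hAUC : ∀ t : ℝ, 0 < t → ∃ c : ℝ, 0 < c ∧ ∀ x : X, N x = 1 → ∃ F : Set X, Cof F ∧
      ∀ y ∈ F, N y = 1 → c ≤ N (x + t • y) - 1)
    (M δ ρ : ℝ) (hδ : 0 < δ) (hρ : 0 < ρ)
    (htree : ∀ J : ℕ, ∃ P : ℕ → Set X, (∃ x₀ ∈ P 0, ρ ≤ ‖x₀‖) ∧ (∀ j, ∀ x ∈ P j, ‖x‖ ≤ M) ∧
      ∀ j < J, ∀ x ∈ P j, ∀ F : Set X, Cof F → ∀ ε : ℝ, 0 < ε →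
        ∃ z ∈ P (j + 1), δ ≤ ‖z - x‖ ∧ ∃ y ∈ F, ‖(z - x) - y‖ < ε) : False := by
  obtain ⟨P0, ⟨x00, hx00, hx00ρ⟩, hP0M, -⟩ := htree 0
  have hM : 0 < M := lt_of_lt_of_le hρ (hx00ρ.trans (hP0M 0 x00 hx00))
  have hb : 0 < b := by
    have h1 := (hab x00).1
    have h2 := (hab x00).2
    have h3 : 0 < ‖x00‖ := lt_of_lt_of_le hρ hx00ρ
    have h4 : a * ‖x00‖ ≤ b * ‖x00‖ := h1.trans h2
    have h5 : a ≤ b := le_of_mul_le_mul_right h4 h3
    linarith
  have hneg : ∀ u : X, N (-u) = N u := by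
    intro u
    have := hsmul (-1) u
    simpa using this
  set t₀ := a * δ / (2 * b * M) with ht₀
  have ht0 : 0 < t₀ := by positivity
  obtain ⟨c, hc0, hc⟩ := hAUC t₀ ht0
  obtain ⟨J, hJ⟩ := pow_unbounded_of_one_lt (b * M / (a * ρ)) (by linarith : (1:ℝ) < 1 + c / 2)
  obtain ⟨P, ⟨x₀, hx₀, hx₀ρ⟩, hPM, hstep⟩ := htree J
  have hclaim : ∀ j, j ≤ J → ∃ x ∈ P j, a * ρ * (1 + c / 2) ^ j ≤ N x := by
    intro j
    induction j with
    | zero =>
      intro _
      refine ⟨x₀, hx₀, ?_⟩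
      have := (hab x₀).1
      have h2 : a * ρ ≤ a * ‖x₀‖ := mul_le_mul_of_nonneg_left hx₀ρ ha.le
      simpa using h2.trans this
    | succ j ih =>
      intro hj
      obtain ⟨x, hx, hxN⟩ := ih (by omega)
      have hpos : 0 < a * ρ * (1 + c / 2) ^ j := by positivity
      have hr0 : 0 < N x := lt_of_lt_of_le hpos hxN
      set r := N x with hr
      have hxhat : N ((1 / r) • x) = 1 := by
        rw [hsmul, abs_of_pos (by positivity), ← hr]; field_simp
      obtain ⟨F, hF, hFy⟩ := hc _ hxhat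
      set ε := min (a * δ / (2 * b)) (r * c / (2 * b)) with hε
      have hε0 : 0 < ε := lt_min (by positivity) (by positivity)
      obtain ⟨z, hz, hzδ, y, hy, hzy⟩ := hstep j (by omega) x hx F hF ε hε0
      have hε1 : b * ε ≤ a * δ / 2 := by
        have : ε ≤ a * δ / (2 * b) := min_le_left _ _
        calc b * ε ≤ b * (a * δ / (2 * b)) := mul_le_mul_of_nonneg_left this hb.le
          _ = _ := by field_simp
      have hε2 : b * ε ≤ r * c / 2 := by
        have : ε ≤ r * c / (2 * b) := min_le_right _ _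
        calc b * ε ≤ b * (r * c / (2 * b)) := mul_le_mul_of_nonneg_left this hb.le
          _ = _ := by field_simp
      have hNe : N ((z - x) - y) ≤ b * ε := by
        refine (hab _).2.trans ?_
        exact mul_le_mul_of_nonneg_left hzy.le hb.le
      have hNzx : a * δ ≤ N (z - x) := by
        refine le_trans ?_ (hab _).1
        exact mul_le_mul_of_nonneg_left hzδ ha.le
      have hNy : a * δ / 2 ≤ N y := by
        have h1 : N (z - x) ≤ N ((z - x) - y) + N y := by
          have := hadd ((z - x) - y) y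
          simpa using this
        linarith
      have hNy0 : 0 < N y := lt_of_lt_of_le (by positivity) hNy
      have hrM : r ≤ b * M := by
        refine (hab x).2.trans ?_
        exact mul_le_mul_of_nonneg_left (hPM j x hx) hb.le
      have ht : t₀ * r ≤ N y := by
        refine le_trans ?_ hNy
        calc t₀ * r ≤ t₀ * (b * M) := mul_le_mul_of_nonneg_left hrM ht0.le
          _ = a * δ / 2 := by rw [ht₀]; field_simp
      have hyhat : (1 / N y) • y ∈ F := hCof F hF y hy _
      have hyhat1 : N ((1 / N y) • y) = 1 := by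
        rw [hsmul, abs_of_pos (by positivity)]; field_simp
      have hgrow := growth_step N hadd hsmul hr0 ht0 hc0.le ht (by
        rw [← hr]; exact hFy _ hyhat hyhat1)
      refine ⟨z, hz, ?_⟩
      have h1 : N (x + y) ≤ N z + N ((z - x) - y) := by
        have e : x + y = z + (-((z - x) - y)) := by abel
        calc N (x + y) = N (z + (-((z - x) - y))) := by rw [e]
          _ ≤ N z + N (-((z - x) - y)) := hadd _ _
          _ = _ := by rw [hneg]
      have h2 : r * (1 + c / 2) ≤ N z := by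
        rw [← hr] at hgrow
        nlinarith
      calc a * ρ * (1 + c / 2) ^ (j + 1) = (a * ρ * (1 + c / 2) ^ j) * (1 + c / 2) := by ring
        _ ≤ r * (1 + c / 2) := mul_le_mul_of_nonneg_right hxN (by positivity)
        _ ≤ N z := h2
  obtain ⟨x, hx, hxN⟩ := hclaim J le_rfl
  have h1 : N x ≤ b * M := (hab x).2.trans (mul_le_mul_of_nonneg_left (hPM J x hx) hb.le)
  have h2 : b * M / (a * ρ) < (1 + c / 2) ^ J := hJ
  have hapos : 0 < a * ρ := by positivity
  rw [div_lt_iff₀ hapos] at h2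
  nlinarith

/-- Sequences with an upper `ℓ₂` estimate come arbitrarily close to every closed subspace of finite
codimension. -/
theorem exists_near_of_l2 (S : Submodule ℝ X) (hS : IsClosed (S : Set X))
    (hfin : FiniteDimensional ℝ (X ⧸ S)) (y : ℕ → X) (C : ℝ)
    (hC : ∀ A : Finset ℕ, ‖∑ n ∈ A, y n‖ ≤ C * Real.sqrt A.card) (ε : ℝ) (hε : 0 < ε) :
    ∃ n, ∃ z ∈ S, ‖y n - z‖ < ε := by
  by_contra hcon
  push Not at hcon
  haveI : IsClosed (S : Set X) := hS
  haveI : ProperSpace (X ⧸ S) := FiniteDimensional.proper_real _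
  let π : X → X ⧸ S := fun x => Submodule.Quotient.mk x
  have hπ_add : ∀ A : Finset ℕ, ∑ n ∈ A, π (y n) = π (∑ n ∈ A, y n) := by
    intro A
    simp only [π]
    rw [← Submodule.mkQ_apply, map_sum]
    rfl
  have hlow : ∀ n, ε ≤ ‖π (y n)‖ := by
    intro n
    by_contra hlt
    push Not at hlt
    obtain ⟨m, hm, hm'⟩ := Submodule.Quotient.norm_mk_lt (π (y n)) (sub_pos.mpr hlt)
    have hzmem : y n - m ∈ S := by
      have : Submodule.Quotient.mk (y n) = (Submodule.Quotient.mk m : X ⧸ S) := hm.symm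
      exact (Submodule.Quotient.eq S).mp this
    have := hcon n (y n - m) hzmem
    have e : y n - (y n - m) = m := by abel
    rw [e] at this
    linarith
  have hbdd : ∀ n, ‖π (y n)‖ ≤ C := by
    intro n
    have h1 := hC {n}
    simp only [Finset.sum_singleton, Finset.card_singleton, Nat.cast_one, Real.sqrt_one,
      mul_one] at h1
    exact (Submodule.Quotient.norm_mk_le S _).trans h1
  obtain ⟨q, -, φ, hφ, hlim⟩ := tendsto_subseq_of_bounded (s := Metric.closedBall (0 : X ⧸ S) C)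
    (x := fun n => π (y n)) Metric.isBounded_closedBall
    (fun n => by simpa using hbdd n)
  have hqlow : ε ≤ ‖q‖ := by
    have h1 : Filter.Tendsto (fun i => ‖π (y (φ i))‖) Filter.atTop (nhds ‖q‖) := hlim.norm
    exact ge_of_tendsto' h1 fun i => hlow _
  obtain ⟨N₀, hN₀⟩ := (Metric.tendsto_atTop.mp hlim) (ε / 3) (by positivity)
  have hC0 : 0 ≤ C := by
    have := (norm_nonneg _).trans (hbdd 0)
    exact this
  -- choose the number of terms
  obtain ⟨k, hk⟩ := exists_nat_gt ((3 * C / ε) ^ 2)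
  have hk0 : 0 < k := by
    have : (0:ℝ) ≤ (3 * C / ε) ^ 2 := by positivity
    have h2 : (0:ℝ) < k := lt_of_le_of_lt this hk
    exact_mod_cast h2
  set A : Finset ℕ := (Finset.range k).image fun i => φ (N₀ + i) with hA
  have hcard : A.card = k := by
    rw [hA, Finset.card_image_of_injective, Finset.card_range]
    intro i j hij
    have := hφ.injective hij
    omega
  have hsum_eq : ∑ n ∈ A, π (y n) = ∑ i ∈ Finset.range k, π (y (φ (N₀ + i))) := by
    rw [hA, Finset.sum_image]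
    intro i _ j _ hij
    have := hφ.injective hij
    omega
  have h1 : ‖(∑ i ∈ Finset.range k, π (y (φ (N₀ + i)))) - (k : ℝ) • q‖ ≤ k * (ε / 3) := by
    have e : (∑ i ∈ Finset.range k, π (y (φ (N₀ + i)))) - (k : ℝ) • q
        = ∑ i ∈ Finset.range k, (π (y (φ (N₀ + i))) - q) := by
      rw [Finset.sum_sub_distrib]
      simp [Finset.sum_const, Finset.card_range, Nat.cast_smul_eq_nsmul]
    rw [e]
    refine (norm_sum_le _ _).trans ?_
    calc ∑ i ∈ Finset.range k, ‖π (y (φ (N₀ + i))) - q‖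
        ≤ ∑ _i ∈ Finset.range k, (ε / 3) := by
          refine Finset.sum_le_sum fun i _ => ?_
          have := hN₀ (N₀ + i) (by omega)
          rw [dist_eq_norm] at this
          exact this.le
      _ = _ := by simp
  have h2 : ‖∑ n ∈ A, π (y n)‖ ≤ C * Real.sqrt k := by
    rw [hπ_add, ← hcard]
    exact (Submodule.Quotient.norm_mk_le S _).trans (hC A)
  rw [hsum_eq] at h2
  have hk' : (0:ℝ) < k := by exact_mod_cast hk0
  have h3 : (k : ℝ) * ε - k * (ε / 3) ≤ C * Real.sqrt k := by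
    have h4 : ‖(k : ℝ) • q‖ ≤ ‖(∑ i ∈ Finset.range k, π (y (φ (N₀ + i)))) - (k : ℝ) • q‖
        + ‖∑ i ∈ Finset.range k, π (y (φ (N₀ + i)))‖ := by
      have := norm_sub_le (∑ i ∈ Finset.range k, π (y (φ (N₀ + i))))
        ((∑ i ∈ Finset.range k, π (y (φ (N₀ + i)))) - (k : ℝ) • q)
      simp only [sub_sub_cancel] at this
      linarith
    rw [norm_smul, Real.norm_of_nonneg hk'.le] at h4
    have h5 : (k : ℝ) * ε ≤ k * ‖q‖ := mul_le_mul_of_nonneg_left hqlow hk'.le
    linarith
  have hsq : Real.sqrt k * Real.sqrt k = k := Real.mul_self_sqrt hk'.le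
  have hsqpos : 0 < Real.sqrt k := Real.sqrt_pos.mpr hk'
  have h6 : (2 / 3) * ε * Real.sqrt k ≤ C := by
    have h7 : (2 / 3) * ε * Real.sqrt k * Real.sqrt k ≤ C * Real.sqrt k := by
      have : (2 / 3) * ε * Real.sqrt k * Real.sqrt k = (2 / 3) * ε * k := by
        rw [mul_assoc, hsq]
      rw [this]
      linarith
    exact le_of_mul_le_mul_right h7 hsqpos
  have h8 : 3 * C / ε < Real.sqrt k := by
    apply Real.lt_sqrt_of_sq_lt
    exact hk
  have h9 : 3 * C < ε * Real.sqrt k := by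
    rw [div_lt_iff₀ hε] at h8
    linarith
  nlinarith

end generic

section banach

variable (E : RealBanach)

lemma isCof_smul_mem {F : Set E.X} (hF : E.IsCof F) (y : E.X) (hy : y ∈ F) (a : ℝ) :
    letI := E.normed; letI := E.space
    a • y ∈ F := by
  letI := E.normed
  letI := E.space
  obtain ⟨S, rfl, -, -⟩ := hF
  exact S.smul_mem a hy

/-- Tree obstruction for a `RealBanach` record. -/
theorem no_equiv_auc (M δ ρ : ℝ) (hδ : 0 < δ) (hρ : 0 < ρ)
    (htree : letI := E.normed; letI := E.space;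
      ∀ J : ℕ, ∃ P : ℕ → Set E.X, (∃ x₀ ∈ P 0, ρ ≤ ‖x₀‖) ∧ (∀ j, ∀ x ∈ P j, ‖x‖ ≤ M) ∧
      ∀ j < J, ∀ x ∈ P j, ∀ F : Set E.X, E.IsCof F → ∀ ε : ℝ, 0 < ε →
        ∃ z ∈ P (j + 1), δ ≤ ‖z - x‖ ∧ ∃ y ∈ F, ‖(z - x) - y‖ < ε)
    (N : E.X → ℝ) (hN : E.IsEquivNorm N) : ¬ E.IsAUC N := by
  letI := E.normed
  letI := E.space
  intro hAUC
  obtain ⟨hadd, hsmul, a, b, ha, hab⟩ := hN
  exact no_auc_generic (X := E.X) E.IsCof (fun F hF y hy a => isCof_smul_mem E hF y hy a) N hadd hsmul
    a b ha hab hAUC M δ ρ hδ hρ htree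

/-- Common kernels of finitely many continuous functionals are closed of finite codimension. -/
theorem isCof_forall_ker {ι : Type*} [Finite ι] :
    letI := E.normed; letI := E.space
    ∀ φ : ι → StrongDual ℝ E.X, E.IsCof {y | ∀ i, φ i y = 0} := by
  letI := E.normed
  letI := E.space
  intro φ
  let Φ : E.X →L[ℝ] (ι → ℝ) := ContinuousLinearMap.pi φ
  have hS : {y : E.X | ∀ i, φ i y = 0} = ((LinearMap.ker Φ.toLinearMap : Submodule ℝ E.X) : Set E.X) := by
    ext y
    simp only [Set.mem_setOf_eq, SetLike.mem_coe, LinearMap.mem_ker]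
    constructor
    · intro h
      funext i
      exact h i
    · intro h i
      exact congrFun h i
  refine ⟨LinearMap.ker Φ.toLinearMap, hS.symm, ?_, ?_⟩
  · rw [hS]
    exact Φ.isClosed_ker
  · haveI : Fintype ι := Fintype.ofFinite ι
    exact (Φ.toLinearMap.quotKerEquivRange.symm).finiteDimensional

/-- Upper `ℓ₂` estimates give almost finite-codimensional elements. -/
theorem exists_near_cof (y : ℕ → E.X) (C : ℝ)
    (hC : letI := E.normed; ∀ A : Finset ℕ, ‖∑ n ∈ A, y n‖ ≤ C * Real.sqrt A.card)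
    (F : Set E.X) (hF : E.IsCof F) (ε : ℝ) (hε : 0 < ε) :
    letI := E.normed
    ∃ n, ∃ z ∈ F, ‖y n - z‖ < ε := by
  letI := E.normed
  letI := E.space
  obtain ⟨S, rfl, hcl, hfin⟩ := hF
  exact exists_near_of_l2 S hcl hfin y C hC ε hε

/-- If a sequence bounded away from zero has an upper `ℓ₂` estimate, the space is
infinite-dimensional. -/
theorem not_finiteDimensional_of_l2 (y : ℕ → E.X) (C δ : ℝ) (hδ : 0 < δ)
    (hC : letI := E.normed; ∀ A : Finset ℕ, ‖∑ n ∈ A, y n‖ ≤ C * Real.sqrt A.card)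
    (hlow : letI := E.normed; ∀ n, δ ≤ ‖y n‖) :
    letI := E.normed; letI := E.space
    ¬ FiniteDimensional ℝ E.X := by
  letI := E.normed
  letI := E.space
  intro hfin
  have hcof : E.IsCof ((⊥ : Submodule ℝ E.X) : Set E.X) := by
    refine ⟨⊥, rfl, ?_, inferInstance⟩
    simp
  obtain ⟨n, z, hz, hn⟩ := exists_near_cof E y C hC _ hcof δ hδ
  have hz0 : z = 0 := by simpa using hz
  rw [hz0, sub_zero] at hn
  exact absurd (hlow n) (not_le.mpr hn)

end banach

end Crest.Agent.Lib.AUCTree
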