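import Mathlib

/-! Abstract facts on `ℓ₂`-sums of normed spaces: reflexivity, separability and the key inequality. -/

set_option autoImplicit false

namespace Crest.Agent.Lib.LpSum

open scoped ENNReal

section hilbert

/-- Hilbert spaces are reflexive. -/
theorem hilbert_reflexive (H : Type*) [NormedAddCommGroup H] [InnerProductSpace ℝ H]
    [CompleteSpace H] : Function.Surjective (NormedSpace.inclusionInDoubleDual ℝ H) := by
  intro Φ
  let Ψ : StrongDual ℝ H := LinearMap.mkContinuous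
    { toFun := fun y => Φ (InnerProductSpace.toDual ℝ H y)
      map_add' := by
        intro a b
        rw [map_add, map_add]
      map_smul' := by
        intro c a
        simp only [RingHom.id_apply, smul_eq_mul]
        have : InnerProductSpace.toDual ℝ H (c • a) = c • InnerProductSpace.toDual ℝ H a := by
          rw [map_smulₛₗ]
          simp
        rw [this, map_smul, smul_eq_mul] }
    ‖Φ‖
    (by
      intro y
      simp only [LinearMap.coe_mk, AddHom.coe_mk]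
      refine (Φ.le_opNorm _).trans ?_
      rw [LinearIsometryEquiv.norm_map])
  refine ⟨(InnerProductSpace.toDual ℝ H).symm Ψ, ?_⟩
  ext ψ
  rw [NormedSpace.dual_def]
  set y := (InnerProductSpace.toDual ℝ H).symm ψ with hy
  have hψ : ψ = InnerProductSpace.toDual ℝ H y := by rw [hy]; simp
  have h1 := InnerProductSpace.toDual_symm_apply (𝕜 := ℝ) (E := H) (x := y) (y := Ψ)
  rw [hψ, InnerProductSpace.toDual_apply_apply, real_inner_comm, h1]
  rfl

/-- Reflexivity transfers along isomorphisms. -/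
theorem reflexive_of_equiv {X Y : Type*} [NormedAddCommGroup X] [NormedSpace ℝ X]
    [NormedAddCommGroup Y] [NormedSpace ℝ Y] (e : X ≃L[ℝ] Y)
    (hY : Function.Surjective (NormedSpace.inclusionInDoubleDual ℝ Y)) :
    Function.Surjective (NormedSpace.inclusionInDoubleDual ℝ X) := by
  intro Φ
  let pull : StrongDual ℝ Y →L[ℝ] StrongDual ℝ X :=
    (ContinuousLinearMap.compL ℝ X Y ℝ).flip (e : X →L[ℝ] Y)
  obtain ⟨c, hc⟩ := hY (Φ.comp pull)
  refine ⟨e.symm c, ?_⟩
  ext φ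
  rw [NormedSpace.dual_def]
  have h1 := congrArg (fun F => F (φ.comp (e.symm : Y →L[ℝ] X))) hc
  simp only [NormedSpace.dual_def, ContinuousLinearMap.comp_apply] at h1
  have h2 : pull (φ.comp (e.symm : Y →L[ℝ] X)) = φ := by
    ext x
    simp [pull]
  rw [h2] at h1
  exact h1

end hilbert

variable {T : ℕ → Type*} [∀ h, NormedAddCommGroup (T h)] [∀ h, NormedSpace ℝ (T h)]

lemma two_pos' : 0 < (2 : ℝ≥0∞).toReal := by norm_num

lemma sum_sq_le (z : lp T 2) (s : Finset ℕ) : ∑ h ∈ s, ‖z h‖ ^ 2 ≤ ‖z‖ ^ 2 := by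
  have := lp.sum_rpow_le_norm_rpow (p := 2) two_pos' z s
  simpa using this

lemma hasSum_sq (z : lp T 2) : HasSum (fun h => ‖z h‖ ^ 2) (‖z‖ ^ 2) := by
  have := lp.hasSum_norm (p := 2) two_pos' z
  simpa using this

lemma weighted_le (z : lp T 2) (s : Finset ℕ) (c : ℕ → ℝ) (hc : ∑ h ∈ s, c h ^ 2 ≤ 1) :
    ∑ h ∈ s, c h * ‖z h‖ ≤ ‖z‖ := by
  refine (Real.sum_mul_le_sqrt_mul_sqrt s c fun h => ‖z h‖).trans ?_
  have h1 : Real.sqrt (∑ h ∈ s, c h ^ 2) ≤ 1 := by
    apply Real.sqrt_le_iff.mpr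
    exact ⟨zero_le_one, by simpa using hc⟩
  have h2 : Real.sqrt (∑ h ∈ s, ‖z h‖ ^ 2) ≤ ‖z‖ := by
    apply Real.sqrt_le_iff.mpr
    exact ⟨norm_nonneg _, sum_sq_le z s⟩
  calc Real.sqrt (∑ h ∈ s, c h ^ 2) * Real.sqrt (∑ h ∈ s, ‖z h‖ ^ 2)
      ≤ 1 * ‖z‖ := mul_le_mul h1 h2 (Real.sqrt_nonneg _) zero_le_one
    _ = ‖z‖ := one_mul _

lemma norm_apply_le (z : lp T 2) (h : ℕ) : ‖z h‖ ≤ ‖z‖ :=
  lp.norm_apply_le_norm (by norm_num) z h

/-- Evaluation at a block. -/
noncomputable abbrev P (h : ℕ) : lp T 2 →L[ℝ] T h := lp.evalCLM ℝ T 2 h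

/-- Inclusion of a block. -/
noncomputable abbrev J (h : ℕ) : T h →L[ℝ] lp T 2 := lp.singleContinuousLinearMap ℝ T 2 h

lemma P_apply (h : ℕ) (z : lp T 2) : P h z = z h := rfl

lemma J_apply (h : ℕ) (a : T h) : J h a = lp.single 2 h a := rfl

lemma norm_J (h : ℕ) (a : T h) : ‖J (T := T) h a‖ = ‖a‖ :=
  lp.norm_single (by norm_num) h a

lemma hasSum_J (z : lp T 2) : HasSum (fun h => J h (z h)) z :=
  lp.hasSum_single (by norm_num) z

/-- The `ℓ₂`-sum of reflexive spaces is reflexive. -/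
theorem lp_reflexive (hT : ∀ h, Function.Surjective (NormedSpace.inclusionInDoubleDual ℝ (T h))) :
    Function.Surjective (NormedSpace.inclusionInDoubleDual ℝ (lp T 2)) := by
  classical
  intro Φ
  let pull : ∀ h, StrongDual ℝ (T h) →L[ℝ] StrongDual ℝ (lp T 2) := fun h =>
    (ContinuousLinearMap.compL ℝ (lp T 2) (T h) ℝ).flip (P h)
  have hpull : ∀ h (φ : StrongDual ℝ (T h)) (y : lp T 2), pull h φ y = φ (y h) := fun h φ y => rfl
  choose x hx using fun h => hT h (Φ.comp (pull h))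
  have hx' : ∀ h (φ : StrongDual ℝ (T h)), φ (x h) = Φ (pull h φ) := by
    intro h φ
    have := congrArg (fun F => F φ) (hx h)
    simpa [NormedSpace.dual_def] using this
  -- the blocks form an `ℓ₂`-sequence
  have hbound : ∀ s : Finset ℕ, ∑ h ∈ s, ‖x h‖ ^ 2 ≤ ‖Φ‖ ^ 2 := by
    intro s
    choose φ hφ1 hφ2 using fun h => exists_dual_vector'' ℝ (x h)
    set A := ∑ h ∈ s, ‖x h‖ ^ 2 with hA
    have hA0 : 0 ≤ A := Finset.sum_nonneg fun _ _ => by positivity
    set ψ : StrongDual ℝ (lp T 2) := ∑ h ∈ s, ‖x h‖ • pull h (φ h) with hψ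
    have h1 : Φ ψ = A := by
      rw [hψ, map_sum, hA]
      refine Finset.sum_congr rfl fun h _ => ?_
      rw [map_smul, ← hx', hφ2, smul_eq_mul]
      simp only [RCLike.ofReal_real_eq_id, id]
      ring
    have h2 : ‖ψ‖ ≤ Real.sqrt A := by
      refine ContinuousLinearMap.opNorm_le_bound _ (Real.sqrt_nonneg _) fun y => ?_
      have e : ψ y = ∑ h ∈ s, ‖x h‖ * φ h (y h) := by
        rw [hψ, sum_apply]
        rfl
      rw [e]
      refine (norm_sum_le _ _).trans ?_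
      have h3 : ∀ h, ‖‖x h‖ * φ h (y h)‖ ≤ ‖x h‖ * ‖y h‖ := by
        intro h
        rw [norm_mul, norm_norm]
        refine mul_le_mul_of_nonneg_left ?_ (norm_nonneg _)
        refine ((φ h).le_opNorm _).trans ?_
        have := hφ1 h
        have h4 := norm_nonneg (y h)
        nlinarith
      refine (Finset.sum_le_sum fun h _ => h3 h).trans ?_
      refine (Real.sum_mul_le_sqrt_mul_sqrt s _ _).trans ?_
      refine mul_le_mul_of_nonneg_left ?_ (Real.sqrt_nonneg _)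
      exact Real.sqrt_le_iff.mpr ⟨norm_nonneg _, sum_sq_le y s⟩
    have h3 : A ≤ ‖Φ‖ * Real.sqrt A := by
      have h4 := Φ.le_opNorm ψ
      rw [h1, Real.norm_of_nonneg hA0] at h4
      exact h4.trans (mul_le_mul_of_nonneg_left h2 (norm_nonneg _))
    rcases hA0.eq_or_lt with h0 | h0
    · rw [← h0]
      positivity
    · have hs : 0 < Real.sqrt A := Real.sqrt_pos.mpr h0
      have hss : Real.sqrt A * Real.sqrt A = A := Real.mul_self_sqrt hA0
      have h5 : Real.sqrt A ≤ ‖Φ‖ := by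
        have : Real.sqrt A * Real.sqrt A ≤ ‖Φ‖ * Real.sqrt A := by rw [hss]; exact h3
        exact le_of_mul_le_mul_right this hs
      calc A = Real.sqrt A ^ 2 := by rw [Real.sq_sqrt hA0]
        _ ≤ ‖Φ‖ ^ 2 := pow_le_pow_left₀ (Real.sqrt_nonneg _) h5 2
  have hmem : Memℓp x 2 := by
    refine memℓp_gen' (C := ‖Φ‖ ^ 2) fun s => ?_
    simpa using hbound s
  let xx : lp T 2 := ⟨x, hmem⟩
  refine ⟨xx, ?_⟩
  ext ψ
  rw [NormedSpace.dual_def]
  -- the block norms of `ψ` are square-summable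
  set c : ℕ → ℝ := fun h => ‖ψ.comp (J h)‖ with hc
  have hc_sum : ∀ s : Finset ℕ, ∑ h ∈ s, c h ^ 2 ≤ 4 * ‖ψ‖ ^ 2 := by
    intro s
    have hpick : ∀ h, ∃ y : T h, ‖y‖ ≤ 1 ∧ c h / 2 ≤ ψ (J h y) := by
      intro h
      rcases (norm_nonneg (ψ.comp (J h))).eq_or_lt with h0 | h0
      · refine ⟨0, by simp, ?_⟩
        have : c h = 0 := h0.symm
        rw [this]
        simp
      · obtain ⟨y, hy1, hy2⟩ := (ψ.comp (J h)).exists_lt_apply_of_lt_opNorm
          (r := c h / 2) (by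
            show ‖ψ.comp (J h)‖ / 2 < ‖ψ.comp (J h)‖
            linarith)
        rw [ContinuousLinearMap.comp_apply, Real.norm_eq_abs] at hy2
        rcases le_abs'.mp hy2.le with h3 | h3
        · refine ⟨-y, by rw [norm_neg]; exact hy1.le, ?_⟩
          rw [map_neg, map_neg]
          linarith
        · exact ⟨y, hy1.le, h3⟩
    choose y hy1 hy2 using hpick
    set A := ∑ h ∈ s, c h ^ 2 with hA
    have hA0 : 0 ≤ A := Finset.sum_nonneg fun _ _ => by positivity
    set z : lp T 2 := ∑ h ∈ s, lp.single 2 h (c h • y h) with hz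
    have hzn : ‖z‖ ^ 2 ≤ A := by
      have := lp.norm_sum_single (p := 2) two_pos' (fun h => c h • y h) s
      simp only [ENNReal.toReal_ofNat, Real.rpow_ofNat] at this
      rw [hz, this]
      refine Finset.sum_le_sum fun h _ => ?_
      rw [norm_smul, Real.norm_of_nonneg (norm_nonneg _), mul_pow]
      have := hy1 h
      have h4 : ‖y h‖ ^ 2 ≤ 1 ^ 2 := pow_le_pow_left₀ (norm_nonneg _) this 2
      have h5 : 0 ≤ c h ^ 2 := by positivity
      nlinarith
    have hψz : A / 2 ≤ ψ z := by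
      have e : ψ z = ∑ h ∈ s, c h * ψ (J h (y h)) := by
        rw [hz, map_sum]
        refine Finset.sum_congr rfl fun h _ => ?_
        have : lp.single 2 h (c h • y h) = c h • J (T := T) h (y h) := by
          rw [J_apply, lp.single_smul]
        rw [this, map_smul, smul_eq_mul]
      rw [e, hA, Finset.sum_div]
      refine Finset.sum_le_sum fun h _ => ?_
      have h3 := hy2 h
      have h4 : 0 ≤ c h := norm_nonneg _
      calc c h ^ 2 / 2 = c h * (c h / 2) := by ring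
        _ ≤ _ := mul_le_mul_of_nonneg_left h3 h4
    have hzle : ‖z‖ ≤ Real.sqrt A := Real.le_sqrt_of_sq_le hzn
    have h6 : A / 2 ≤ ‖ψ‖ * Real.sqrt A := by
      refine hψz.trans ?_
      have := ψ.le_opNorm z
      rw [Real.norm_eq_abs] at this
      exact (le_abs_self _).trans (this.trans (mul_le_mul_of_nonneg_left hzle (norm_nonneg _)))
    rcases hA0.eq_or_lt with h0 | h0
    · rw [← h0]
      positivity
    · have hs : 0 < Real.sqrt A := Real.sqrt_pos.mpr h0
      have hss : Real.sqrt A * Real.sqrt A = A := Real.mul_self_sqrt hA0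
      have h5 : Real.sqrt A ≤ 2 * ‖ψ‖ := by
        have : Real.sqrt A * Real.sqrt A ≤ (2 * ‖ψ‖) * Real.sqrt A := by
          rw [hss]
          linarith
        exact le_of_mul_le_mul_right this hs
      calc A = Real.sqrt A ^ 2 := by rw [Real.sq_sqrt hA0]
        _ ≤ (2 * ‖ψ‖) ^ 2 := pow_le_pow_left₀ (Real.sqrt_nonneg _) h5 2
        _ = 4 * ‖ψ‖ ^ 2 := by ring
  have hsumm : Summable fun h => c h ^ 2 :=
    summable_of_sum_le (fun h => by positivity) hc_sum
  -- approximation of `ψ`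
  let ψN : ℕ → StrongDual ℝ (lp T 2) := fun N => ∑ h ∈ Finset.range N, pull h (ψ.comp (J h))
  have hψNapply : ∀ N y, ψN N y = ∑ h ∈ Finset.range N, ψ (J h (y h)) := by
    intro N y
    simp only [ψN, sum_apply]
    rfl
  set Acc := ∑' h, c h ^ 2 with hAcc
  have htend : Filter.Tendsto (fun N => ∑ h ∈ Finset.range N, c h ^ 2) Filter.atTop (nhds Acc) :=
    hsumm.hasSum.tendsto_sum_nat
  have hdiff : ∀ N, ‖ψ - ψN N‖ ≤ Real.sqrt (Acc - ∑ h ∈ Finset.range N, c h ^ 2) := by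
    intro N
    refine ContinuousLinearMap.opNorm_le_bound _ (Real.sqrt_nonneg _) fun y => ?_
    have hs1 : HasSum (fun h => ψ (J h (y h))) (ψ y) := (hasSum_J y).mapL ψ
    have hs2 := hs1.tendsto_sum_nat
    have hlim : Filter.Tendsto (fun M => ‖∑ h ∈ Finset.range M, ψ (J h (y h)) - ψN N y‖)
        Filter.atTop (nhds ‖ψ y - ψN N y‖) := (hs2.sub_const _).norm
    rw [sub_apply]
    refine le_of_tendsto hlim ?_
    filter_upwards [Filter.eventually_ge_atTop N] with M hM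
    rw [hψNapply, ← Finset.sum_sdiff (Finset.range_subset_range.mpr hM), add_sub_cancel_right]
    set D := Finset.range M \ Finset.range N with hD
    refine (norm_sum_le _ _).trans ?_
    have h3 : ∀ h, ‖ψ (J h (y h))‖ ≤ c h * ‖y h‖ := by
      intro h
      exact (ψ.comp (J h)).le_opNorm (y h)
    refine (Finset.sum_le_sum fun h _ => h3 h).trans ?_
    refine (Real.sum_mul_le_sqrt_mul_sqrt D _ _).trans ?_
    refine mul_le_mul ?_ ?_ (Real.sqrt_nonneg _) (Real.sqrt_nonneg _)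
    · apply Real.sqrt_le_sqrt
      have h4 : ∑ h ∈ D, c h ^ 2 + ∑ h ∈ Finset.range N, c h ^ 2 = ∑ h ∈ Finset.range M, c h ^ 2 :=
        Finset.sum_sdiff (Finset.range_subset_range.mpr hM)
      have h5 : ∑ h ∈ Finset.range M, c h ^ 2 ≤ Acc :=
        hsumm.sum_le_tsum _ (fun h _ => by positivity)
      linarith
    · exact Real.sqrt_le_iff.mpr ⟨norm_nonneg _, sum_sq_le y D⟩
  have hψNlim : Filter.Tendsto ψN Filter.atTop (nhds ψ) := by
    rw [tendsto_iff_norm_sub_tendsto_zero]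
    have h1 : Filter.Tendsto (fun N => Real.sqrt (Acc - ∑ h ∈ Finset.range N, c h ^ 2))
        Filter.atTop (nhds 0) := by
      have h2 : Filter.Tendsto (fun N => Acc - ∑ h ∈ Finset.range N, c h ^ 2) Filter.atTop
          (nhds (Acc - Acc)) := htend.const_sub _
      rw [sub_self] at h2
      have h3 := h2.sqrt
      simpa using h3
    refine squeeze_zero (fun _ => norm_nonneg _) (fun N => ?_) h1
    rw [norm_sub_rev]
    exact hdiff N
  have hΦ1 : Filter.Tendsto (fun N => Φ (ψN N)) Filter.atTop (nhds (Φ ψ)) :=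
    (Φ.continuous.tendsto ψ).comp hψNlim
  have hΦ2 : ∀ N, Φ (ψN N) = ∑ h ∈ Finset.range N, ψ (J h (xx h)) := by
    intro N
    simp only [ψN, map_sum]
    refine Finset.sum_congr rfl fun h _ => ?_
    rw [← hx']
    rfl
  have hΦ3 : Filter.Tendsto (fun N => Φ (ψN N)) Filter.atTop (nhds (ψ xx)) := by
    simp_rw [hΦ2]
    exact ((hasSum_J xx).mapL ψ).tendsto_sum_nat
  exact tendsto_nhds_unique hΦ3 hΦ1

/-- The `ℓ₂`-sum of separable spaces is separable. -/
theorem lp_separable [∀ h, TopologicalSpace.SeparableSpace (T h)] :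
    TopologicalSpace.SeparableSpace (lp T 2) := by
  classical
  choose D hDc hDd using fun h => TopologicalSpace.exists_countable_dense (T h)
  set U : Set (lp T 2) := ⋃ h, (J h) '' (D h) with hU
  have hUc : U.Countable := Set.countable_iUnion fun h => (hDc h).image _
  set V : Submodule ℝ (lp T 2) := (Submodule.span ℝ U).topologicalClosure with hV
  have hVsep : TopologicalSpace.IsSeparable (V : Set (lp T 2)) := by
    rw [hV, Submodule.topologicalClosure_coe]
    exact (hUc.isSeparable.span).closure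
  have hVcl : IsClosed (V : Set (lp T 2)) := Submodule.isClosed_topologicalClosure _
  have hJ : ∀ h (a : T h), J h a ∈ V := by
    intro h a
    have ha : a ∈ closure (D h) := (hDd h).closure_eq ▸ Set.mem_univ a
    have h1 := map_mem_closure (J (T := T) h).continuous ha (t := (J h) '' (D h))
      (fun b hb => Set.mem_image_of_mem _ hb)
    refine closure_mono ?_ h1
    intro b hb
    exact Submodule.subset_span (Set.mem_iUnion.mpr ⟨h, hb⟩)
  have hall : V = ⊤ := by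
    rw [eq_top_iff]
    intro z _
    refine hVcl.mem_of_tendsto (hasSum_J z) (Filter.Eventually.of_forall fun s => ?_)
    exact V.sum_mem fun h _ => hJ h _
  have : TopologicalSpace.IsSeparable (Set.univ : Set (lp T 2)) := by
    have h2 : (V : Set (lp T 2)) = Set.univ := by rw [hall]; rfl
    rwa [h2] at hVsep
  exact TopologicalSpace.isSeparable_univ_iff.mp this

/-- The key inequality passes to `ℓ₂`-sums. -/
theorem lp_key
    (hT : ∀ h (x : T h) (ε : ℝ), 0 < ε → ∃ (ι : Type) (_ : Fintype ι) (φ : ι → StrongDual ℝ (T h)),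
      ∀ y, (∀ i, φ i y = 0) → Real.sqrt (‖x‖ ^ 2 + ‖y‖ ^ 2 / 4) - ε ≤ (‖x + y‖ + ‖x - y‖) / 2)
    (x : lp T 2) (ε : ℝ) (hε : 0 < ε) :
    ∃ (ι : Type) (_ : Fintype ι) (φ : ι → StrongDual ℝ (lp T 2)),
      ∀ y, (∀ i, φ i y = 0) → Real.sqrt (‖x‖ ^ 2 + ‖y‖ ^ 2 / 4) - ε ≤ (‖x + y‖ + ‖x - y‖) / 2 := by
  classical
  set ε₁ := ε / 3 with hε₁
  have hε₁0 : 0 < ε₁ := by positivity
  have hsq : 0 < ε₁ ^ 2 := by positivity
  -- choose the blocks of `x`
  obtain ⟨B, hB⟩ : ∃ B : Finset ℕ, ‖x‖ ^ 2 - ε₁ ^ 2 ≤ ∑ h ∈ B, ‖x h‖ ^ 2 := by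
    have h1 := (hasSum_sq x)
    have h2 := (Filter.Tendsto.eventually_const_lt (u := ‖x‖ ^ 2 - ε₁ ^ 2) (by linarith) h1).exists
    obtain ⟨B, hB⟩ := h2
    exact ⟨B, hB.le⟩
  set ε₂ := ε₁ / ((B.card : ℝ) + 1) with hε₂
  have hε₂0 : 0 < ε₂ := by positivity
  choose ι hι φ hφ using fun h => hT h (x h) ε₂ hε₂0
  let Idx : Type := Σ h : B, ι h.1
  have : Fintype Idx := inferInstance
  refine ⟨Idx, inferInstance, fun i => (φ i.1.1 i.2).comp (P i.1.1), fun y hy => ?_⟩
  have hblock : ∀ h ∈ B, Real.sqrt (‖x h‖ ^ 2 + ‖y h‖ ^ 2 / 4) - ε₂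
      ≤ (‖x h + y h‖ + ‖x h - y h‖) / 2 := by
    intro h hh
    refine hφ h (y h) fun i => ?_
    exact hy ⟨⟨h, hh⟩, i⟩
  -- choose the blocks of `y`
  obtain ⟨A₀, hA₀⟩ : ∃ A₀ : Finset ℕ, ‖y‖ ^ 2 - ε₁ ^ 2 ≤ ∑ h ∈ A₀, ‖y h‖ ^ 2 := by
    have h1 := (hasSum_sq y)
    have h2 := (Filter.Tendsto.eventually_const_lt (u := ‖y‖ ^ 2 - ε₁ ^ 2) (by linarith) h1).exists
    obtain ⟨B, hB⟩ := h2
    exact ⟨B, hB.le⟩
  set A := B ∪ A₀ with hA
  have hBA : B ⊆ A := Finset.subset_union_left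
  have hA₀A : A₀ ⊆ A := Finset.subset_union_right
  have hyA : ‖y‖ ^ 2 - ε₁ ^ 2 ≤ ∑ h ∈ A, ‖y h‖ ^ 2 :=
    hA₀.trans (Finset.sum_le_sum_of_subset_of_nonneg hA₀A fun _ _ _ => by positivity)
  -- weights
  let W : ℕ → ℝ := fun h => if h ∈ B then Real.sqrt (‖x h‖ ^ 2 + ‖y h‖ ^ 2 / 4) else ‖y h‖ / 2
  have hW0 : ∀ h, 0 ≤ W h := by
    intro h
    simp only [W]
    split_ifs
    · exact Real.sqrt_nonneg _
    · positivity
  have hW2 : ∀ h, W h ^ 2 = (if h ∈ B then ‖x h‖ ^ 2 else 0) + ‖y h‖ ^ 2 / 4 := by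
    intro h
    simp only [W]
    split_ifs
    · exact Real.sq_sqrt (by positivity)
    · ring
  have hWsum : ∑ h ∈ A, W h ^ 2 = ∑ h ∈ B, ‖x h‖ ^ 2 + (∑ h ∈ A, ‖y h‖ ^ 2) / 4 := by
    simp_rw [hW2]
    rw [Finset.sum_add_distrib, Finset.sum_div]
    congr 1
    rw [Finset.sum_ite_mem, Finset.inter_eq_right.mpr hBA]
  set w := Real.sqrt (∑ h ∈ A, W h ^ 2) with hw
  have hw2 : w ^ 2 = ∑ h ∈ A, W h ^ 2 := Real.sq_sqrt (Finset.sum_nonneg fun _ _ => by positivity)
  have hw0 : 0 ≤ w := Real.sqrt_nonneg _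
  let C : ℕ → ℝ := fun h => W h / w
  have hC0 : ∀ h, 0 ≤ C h := fun h => div_nonneg (hW0 h) hw0
  have hCsum : ∑ h ∈ A, C h ^ 2 ≤ 1 := by
    simp only [C, div_pow]
    rw [← Finset.sum_div, ← hw2]
    exact div_self_le_one _
  have hC1 : ∀ h ∈ A, C h ≤ 1 := by
    intro h hh
    have h1 : C h ^ 2 ≤ ∑ k ∈ A, C k ^ 2 :=
      Finset.single_le_sum (f := fun k => C k ^ 2) (fun _ _ => by positivity) hh
    have h2 : C h ^ 2 ≤ 1 := h1.trans hCsum
    exact (sq_le_one_iff₀ (hC0 h)).mp h2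
  have hCW : ∑ h ∈ A, C h * W h = w := by
    simp only [C]
    have : ∀ h, W h / w * W h = W h ^ 2 / w := by
      intro h
      ring
    simp_rw [this]
    rw [← Finset.sum_div, ← hw2]
    rcases hw0.eq_or_lt with h0 | h0
    · rw [← h0]
      simp
    · field_simp
  -- lower bounds
  have hplus := weighted_le (x + y) A C hCsum
  have hminus := weighted_le (x - y) A C hCsum
  have hZ : ∀ h ∈ A, C h * W h - (if h ∈ B then ε₂ else 0)
      ≤ C h * ((‖x h + y h‖ + ‖x h - y h‖) / 2) := by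
    intro h hh
    by_cases hhB : h ∈ B
    · simp only [W, hhB, if_true]
      have h1 := hblock h hhB
      have h2 := hC1 h hh
      have h3 := hC0 h
      have h4 : C h * (Real.sqrt (‖x h‖ ^ 2 + ‖y h‖ ^ 2 / 4) - ε₂)
          ≤ C h * ((‖x h + y h‖ + ‖x h - y h‖) / 2) := mul_le_mul_of_nonneg_left h1 h3
      nlinarith
    · simp only [W, hhB, if_false, sub_zero]
      refine mul_le_mul_of_nonneg_left ?_ (hC0 h)
      have h1 : ‖(2 : ℝ) • y h‖ ≤ ‖x h + y h‖ + ‖x h - y h‖ := by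
        have e : (2 : ℝ) • y h = (x h + y h) - (x h - y h) := by
          rw [two_smul]
          abel
        rw [e]
        exact norm_sub_le _ _
      rw [norm_smul, Real.norm_of_nonneg (by norm_num : (0:ℝ) ≤ 2)] at h1
      have := norm_nonneg (y h)
      linarith
  have hsum : w - ε₁ ≤ (‖x + y‖ + ‖x - y‖) / 2 := by
    have h1 : ∑ h ∈ A, (C h * W h - (if h ∈ B then ε₂ else 0))
        ≤ ∑ h ∈ A, C h * ((‖x h + y h‖ + ‖x h - y h‖) / 2) := Finset.sum_le_sum hZ
    rw [Finset.sum_sub_distrib, hCW, Finset.sum_ite_mem, Finset.inter_eq_right.mpr hBA,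
      Finset.sum_const, nsmul_eq_mul] at h1
    have h2 : (B.card : ℝ) * ε₂ ≤ ε₁ := by
      rw [hε₂]
      have h3 : (0 : ℝ) < (B.card : ℝ) + 1 := by positivity
      rw [mul_div_assoc', div_le_iff₀ h3]
      nlinarith
    have h3 : ∑ h ∈ A, C h * ((‖x h + y h‖ + ‖x h - y h‖) / 2)
        = (∑ h ∈ A, C h * ‖(x + y) h‖ + ∑ h ∈ A, C h * ‖(x - y) h‖) / 2 := by
      rw [← Finset.sum_add_distrib, Finset.sum_div]
      refine Finset.sum_congr rfl fun h _ => ?_
      simp only [lp.coeFn_add, lp.coeFn_sub, Pi.add_apply, Pi.sub_apply]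
      ring
    rw [h3] at h1
    linarith
  have hroot : Real.sqrt (‖x‖ ^ 2 + ‖y‖ ^ 2 / 4) ≤ w + 2 * ε₁ := by
    apply Real.sqrt_le_iff.mpr
    refine ⟨by positivity, ?_⟩
    have h1 : ‖x‖ ^ 2 + ‖y‖ ^ 2 / 4 ≤ w ^ 2 + 2 * ε₁ ^ 2 := by
      rw [hw2, hWsum]
      linarith
    nlinarith
  have hε3 : ε = 3 * ε₁ := by
    rw [hε₁]
    ring
  linarith

end Crest.Agent.Lib.LpSum
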