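import Crest.Agent.Lib.TreePot
import Crest.Agent.Lib.LpSum

/-! Blocks: tree potential spaces with potentials controlled up to height `h`. These blocks are
isomorphic to Hilbert spaces. -/

set_option autoImplicit false

namespace Crest.Agent.Lib.BlockSpace

open Crest.AnalysisR Crest.AnalysisR.TreePotential Crest.Agent.Lib.TreePot

variable (h : ℕ)

/-- The tests of the block of height `h`. -/
def BTest (f : List ℕ → ℝ) : Prop :=
  (∀ s : List ℕ, s.length ≤ h → |pathPotential f s| ≤ 1) ∧
    ∀ A : Finset (List ℕ), ∑ u ∈ A, f u ^ 2 ≤ 1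

/-- The test set. -/
abbrev TestT := {f : List ℕ → ℝ // BTest h f}

/-- The ambient space. -/
abbrev Amb := lp (fun _ : TestT h => ℝ) ⊤

variable {h}

lemma BTest.abs_le_one {f : List ℕ → ℝ} (hf : BTest h f) (s : List ℕ) : |f s| ≤ 1 := by
  have := hf.2 {s}
  simp only [Finset.sum_singleton] at this
  have h2 : |f s| ^ 2 ≤ 1 := by rwa [sq_abs]
  exact (sq_le_one_iff₀ (abs_nonneg _)).mp h2

variable (h) in
/-- Coordinate vectors. -/
noncomputable def coord (s : List ℕ) : Amb h :=
  ⟨fun f => f.1 s, memℓp_infty ⟨1, by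
    rintro _ ⟨f, rfl⟩
    simpa [Real.norm_eq_abs] using f.2.abs_le_one s⟩⟩

variable (h) in
/-- The block. -/
noncomputable def Block : Submodule ℝ (Amb h) :=
  (Submodule.span ℝ (Set.range (coord h))).topologicalClosure

instance : CompleteSpace (Block h) :=
  (Submodule.isClosed_topologicalClosure _).completeSpace_coe

lemma coord_mem (s : List ℕ) : coord h s ∈ Block h :=
  Submodule.le_topologicalClosure _ (Submodule.subset_span ⟨s, rfl⟩)

instance : TopologicalSpace.SeparableSpace (Block h) := by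
  have hs : TopologicalSpace.IsSeparable ((Block h : Submodule ℝ (Amb h)) : Set (Amb h)) := by
    rw [Block, Submodule.topologicalClosure_coe]
    exact ((Set.countable_range _).isSeparable.span).closure
  exact hs.separableSpace

/-! Mixing -/

section mix

variable {S : Finset (List ℕ)}

lemma pot_restr_bound' (hS0 : [] ∈ S) (hSc : ∀ a v, a :: v ∈ S → v ∈ S) {f : List ℕ → ℝ}
    (hf : ∀ s : List ℕ, s.length ≤ h → |pathPotential f s| ≤ 1) (v : List ℕ) (hv : v.length ≤ h) :
    |pathPotential (restr S f) v| ≤ 1 := by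
  induction v with
  | nil => rw [pot_restr_mem hS0 hSc f hS0]; exact hf _ hv
  | cons a v ih =>
    by_cases hvS : a :: v ∈ S
    · rw [pot_restr_mem hS0 hSc f hvS]; exact hf _ hv
    · simp only [pathPotential]
      rw [restr_not S hvS, add_zero]
      exact ih (by simp at hv; omega)

lemma pot_corestr_bound' (hS0 : [] ∈ S) (hSc : ∀ a v, a :: v ∈ S → v ∈ S) {f : List ℕ → ℝ}
    (hf : ∀ s : List ℕ, s.length ≤ h → |pathPotential f s| ≤ 1) (v : List ℕ) (hv : v.length ≤ h) :
    |pathPotential (corestr S f) v| ≤ 2 := by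
  have h1 := pot_restr_bound' hS0 hSc hf v hv
  have h2 := hf v hv
  rw [← pot_add_restr (S := S) f v] at h2
  rw [abs_le] at h1 h2 ⊢
  constructor <;> linarith [h1.1, h1.2, h2.1, h2.2]

lemma Q_bound' (hS0 : [] ∈ S) (hSc : ∀ a v, a :: v ∈ S → v ∈ S) {f g : List ℕ → ℝ}
    (hf : ∀ s : List ℕ, s.length ≤ h → |pathPotential f s| ≤ 1)
    (hg : ∀ s : List ℕ, s.length ≤ h → |pathPotential g s| ≤ 1)
    {a b : ℝ} (ha0 : 0 ≤ a) (ha1 : a ≤ 1) (hb0 : 0 ≤ b) (hb1 : b ≤ 1 / 2) (v : List ℕ)
    (hv : v.length ≤ h) :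
    |Qp S a b f g v| ≤ 1 ∧ |Qm S a b f g v| ≤ 1 := by
  have hp := pot_restr_bound' hS0 hSc hf v hv
  have hr := pot_corestr_bound' hS0 hSc hg v hv
  unfold Qp Qm psiP psiM
  set p := pathPotential (restr S f) v
  set r := pathPotential (corestr S g) v
  rw [abs_le] at hp hr
  obtain ⟨hp1, hp2⟩ := hp
  obtain ⟨hr1, hr2⟩ := hr
  have hmin1 : -2 ≤ min r 0 := le_min hr1 (by norm_num)
  have hmin2 : min r 0 ≤ 0 := min_le_right _ _
  have hmax1 : 0 ≤ max r 0 := le_max_right _ _
  have hmax2 : max r 0 ≤ 2 := max_le hr2 (by norm_num)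
  have hbm1 : -1 ≤ b * min r 0 := by nlinarith
  have hbm2 : b * min r 0 ≤ 0 := mul_nonpos_of_nonneg_of_nonpos hb0 hmin2
  have hbM1 : 0 ≤ b * max r 0 := mul_nonneg hb0 hmax1
  have hbM2 : b * max r 0 ≤ 1 := by nlinarith
  have hap1 : a * p ≤ 1 := by nlinarith
  have hap2 : -1 ≤ a * p := by nlinarith
  split_ifs with hp0
  · have : 0 ≤ a * p := mul_nonneg ha0 hp0
    rw [abs_le, abs_le]
    refine ⟨⟨?_, ?_⟩, ?_, ?_⟩ <;> linarith
  · push Not at hp0
    have : a * p ≤ 0 := mul_nonpos_of_nonneg_of_nonpos ha0 hp0.le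
    rw [abs_le, abs_le]
    refine ⟨⟨?_, ?_⟩, ?_, ?_⟩ <;> linarith

/-- Mixing two tests of a block. -/
theorem mix_block (hS0 : [] ∈ S) (hSc : ∀ a v, a :: v ∈ S → v ∈ S)
    {f g : List ℕ → ℝ} (hf : BTest h f) (hg : BTest h g) {a b : ℝ} (ha0 : 0 ≤ a) (ha1 : a ≤ 1)
    (hb0 : 0 ≤ b) (hb1 : b ≤ 1 / 2) (hab : a ^ 2 + b ^ 2 ≤ 1) :
    ∃ hp hm : List ℕ → ℝ, BTest h hp ∧ BTest h hm ∧ (∀ v ∈ S, hp v = a * f v ∧ hm v = a * f v) ∧
      ∀ v, v ∉ S → hp v - hm v = b * g v := by
  refine ⟨incr (Qp S a b f g), incr (Qm S a b f g), ⟨?_, ?_⟩, ⟨?_, ?_⟩, ?_, ?_⟩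
  · intro s hs
    rw [pot_incr]
    exact (Q_bound' hS0 hSc hf.1 hg.1 ha0 ha1 hb0 hb1 s hs).1
  · exact extra_of_dom PotentialModel.global hf.2 hg.2 hb0 hab hS0
      (fun v hv => (incr_on_S hS0 hSc f g a b hv).1)
      (fun v hv => (incr_off_S hS0 f g a b hb0 hv).1)
  · intro s hs
    rw [pot_incr]
    exact (Q_bound' hS0 hSc hf.1 hg.1 ha0 ha1 hb0 hb1 s hs).2
  · exact extra_of_dom PotentialModel.global hf.2 hg.2 hb0 hab hS0
      (fun v hv => (incr_on_S hS0 hSc f g a b hv).2)
      (fun v hv => (incr_off_S hS0 f g a b hb0 hv).2.1)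
  · exact fun v hv => incr_on_S hS0 hSc f g a b hv
  · exact fun v hv => (incr_off_S hS0 f g a b hb0 hv).2.2

end mix

/-! Simple tests -/

lemma btest_ind (s : List ℕ) : BTest h (ind s) := by
  refine ⟨fun v _ => ?_, fun A => ind_sq_sum A id Function.injective_id s⟩
  rw [pot_ind]
  split_ifs <;> simp

lemma btest_zero : BTest h (fun _ => 0) := by
  have hp : ∀ v, pathPotential (fun _ => (0 : ℝ)) v = 0 := by
    intro v
    induction v with
    | nil => rfl
    | cons a v ih => simp [pathPotential, ih]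
  refine ⟨fun v _ => ?_, fun A => by simp⟩
  rw [hp]
  simp

lemma btest_neg {f : List ℕ → ℝ} (hf : BTest h f) : BTest h (fun u => - f u) := by
  refine ⟨fun v hv => ?_, fun A => by simpa using hf.2 A⟩
  rw [pot_neg, abs_neg]
  exact hf.1 v hv

lemma sibling_sq' {f : List ℕ → ℝ} (hf : BTest h f) (r : List ℕ) (A : Finset ℕ) :
    ∑ n ∈ A, f (n :: r) ^ 2 ≤ 1 := by
  classical
  have h1 := hf.2 (A.image fun n => n :: r)
  rwa [Finset.sum_image (fun a _ b _ hab => cons_injective r hab)] at h1

/-! Evaluation functionals -/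

variable (h) in
/-- Evaluation at a test. -/
noncomputable def ev (f : TestT h) : Amb h →L[ℝ] ℝ :=
  lp.evalCLM (𝕜 := ℝ) (E := fun _ : TestT h => ℝ) (p := ⊤) f

lemma ev_apply (f : TestT h) (y : Amb h) : ev h f y = y f := rfl

lemma ev_coord (f : TestT h) (s : List ℕ) : ev h f (coord h s) = f.1 s := rfl

lemma abs_ev_le (f : TestT h) (y : Amb h) : |ev h f y| ≤ ‖y‖ :=
  lp.norm_apply_le_norm ENNReal.top_ne_zero y f

variable (h) in
lemma clm_vanish (L : Amb h →L[ℝ] ℝ) (hL : ∀ s, L (coord h s) = 0) (y : Amb h)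
    (hy : y ∈ Block h) : L y = 0 := by
  have h1 : Submodule.span ℝ (Set.range (coord h)) ≤ LinearMap.ker L.toLinearMap := by
    rw [Submodule.span_le]
    rintro _ ⟨s, rfl⟩
    exact hL s
  have h2 := Submodule.topologicalClosure_minimal _ h1 L.isClosed_ker
  exact h2 hy

instance : Nonempty (TestT h) := ⟨⟨fun _ => 0, btest_zero⟩⟩

/-- The negative of a test. -/
noncomputable def negT (f : TestT h) : TestT h := ⟨fun u => - f.1 u, btest_neg f.2⟩

lemma ev_negT (f : TestT h) (y : Amb h) (hy : y ∈ Block h) : ev h (negT f) y = - ev h f y := by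
  have := clm_vanish h (ev h (negT f) + ev h f) (by
    intro s
    simp only [add_apply, ev_coord]
    show - f.1 s + f.1 s = 0
    ring) y hy
  simp only [add_apply] at this
  linarith

lemma exists_test_near (y : Amb h) (hy : y ∈ Block h) (ε : ℝ) (hε : 0 < ε) :
    ∃ f : TestT h, ‖y‖ - ε ≤ ev h f y := by
  by_contra hcon
  push Not at hcon
  have h1 : ∀ f : TestT h, ‖y f‖ ≤ ‖y‖ - ε := by
    intro f
    rw [Real.norm_eq_abs, abs_le]
    constructor
    · have := hcon (negT f)
      rw [ev_negT f y hy] at this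
      rw [ev_apply] at this
      linarith
    · exact (hcon f).le
  have := lp.norm_le_of_forall_le' (‖y‖ - ε) h1
  linarith

variable (h) in
/-- Tests for coordinates. -/
noncomputable def deltaT (s : List ℕ) : TestT h := ⟨ind s, btest_ind s⟩

lemma delta_spec (s u : List ℕ) (g : TestT h) :
    g.1 s * (deltaT h s).1 u = by classical exact if u = s then g.1 s else 0 := by
  classical
  show g.1 s * ind s u = _
  by_cases hu : u = s
  · subst hu
    simp [ind_self]
  · simp [ind_ne hu, hu]

/-- The core inequality of a block. -/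
theorem block_core (x : Amb h) (hxm : x ∈ Block h) (ε : ℝ) (hε : 0 < ε) :
    ∃ S : Finset (List ℕ), ∀ y ∈ Block h, (∀ s ∈ S, ev h (deltaT h s) y = 0) →
      Real.sqrt (‖x‖ ^ 2 + ‖y‖ ^ 2 / 4) - ε ≤ (‖x + y‖ + ‖x - y‖) / 2 := by
  classical
  set ε₀ := ε / 4 with hε₀
  have hε₀0 : 0 < ε₀ := by positivity
  have hxm' := hxm
  rw [Block, ← SetLike.mem_coe, Submodule.topologicalClosure_coe, Metric.mem_closure_iff] at hxm'
  obtain ⟨x', hx'span, hxx'⟩ := hxm' ε₀ hε₀0
  rw [dist_eq_norm] at hxx'
  have hx'mem : x' ∈ Block h := Submodule.le_topologicalClosure _ hx'span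
  obtain ⟨c', hc'⟩ := Finsupp.mem_span_range_iff_exists_finsupp.mp hx'span
  set S : Finset (List ℕ) := insert [] (c'.support.biUnion fun v => v.tails.toFinset) with hSdef
  have hS0 : [] ∈ S := Finset.mem_insert_self _ _
  have hSc : ∀ a v, a :: v ∈ S → v ∈ S := by
    intro a v h
    rw [hSdef, Finset.mem_insert] at h
    rcases h with h | h
    · simp at h
    · obtain ⟨w, hw, hv⟩ := Finset.mem_biUnion.mp h
      refine Finset.mem_insert_of_mem (Finset.mem_biUnion.mpr ⟨w, hw, ?_⟩)
      simp only [List.mem_toFinset, List.mem_tails] at hv ⊢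
      exact (List.suffix_cons a v).trans hv
  have hsupp : ∀ v ∈ c'.support, v ∈ S := by
    intro v hv
    refine Finset.mem_insert_of_mem (Finset.mem_biUnion.mpr ⟨v, hv, ?_⟩)
    simp
  have hval : ∀ f : TestT h, ev h f x' = ∑ s ∈ c'.support, c' s * f.1 s := by
    intro f
    rw [← hc', Finsupp.sum, map_sum]
    refine Finset.sum_congr rfl fun s _ => ?_
    rw [map_smul, smul_eq_mul, ev_coord]
  obtain ⟨f, hf⟩ := exists_test_near x' hx'mem ε₀ hε₀0
  refine ⟨S, fun y hym hyF => ?_⟩
  set A := ‖x‖ with hA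
  set B := ‖y‖ with hB
  have hA0 : 0 ≤ A := norm_nonneg _
  have hB0 : 0 ≤ B := norm_nonneg _
  by_cases hcase : 4 * A ^ 2 < 3 * B ^ 2
  · -- triangle inequality
    have h1 : ‖(2 : ℝ) • y‖ ≤ ‖x + y‖ + ‖x - y‖ := by
      have e : (2 : ℝ) • y = (x + y) - (x - y) := by
        rw [two_smul]
        abel
      rw [e]
      exact norm_sub_le _ _
    rw [norm_smul, Real.norm_of_nonneg (by norm_num : (0:ℝ) ≤ 2)] at h1
    have h2 : Real.sqrt (A ^ 2 + B ^ 2 / 4) ≤ B := by
      apply Real.sqrt_le_iff.mpr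
      exact ⟨hB0, by nlinarith⟩
    linarith
  · push Not at hcase
    by_cases hw0 : 4 * A ^ 2 + B ^ 2 = 0
    · have hroot : Real.sqrt (A ^ 2 + B ^ 2 / 4) = 0 := by
        have : A ^ 2 + B ^ 2 / 4 = 0 := by linarith
        rw [this, Real.sqrt_zero]
      rw [hroot]
      have : 0 ≤ (‖x + y‖ + ‖x - y‖) / 2 := by positivity
      linarith
    · have hw1 : 0 < 4 * A ^ 2 + B ^ 2 := lt_of_le_of_ne (by positivity) (Ne.symm hw0)
      set w := Real.sqrt (4 * A ^ 2 + B ^ 2) with hw
      have hwpos : 0 < w := Real.sqrt_pos.mpr hw1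
      have hw2 : w ^ 2 = 4 * A ^ 2 + B ^ 2 := Real.sq_sqrt hw1.le
      have hroot : Real.sqrt (A ^ 2 + B ^ 2 / 4) = w / 2 := by
        rw [show A ^ 2 + B ^ 2 / 4 = (w / 2) ^ 2 by rw [div_pow, hw2]; ring]
        exact Real.sqrt_sq (by positivity)
      set a := 2 * A / w with ha
      set b := B / w with hb
      have ha0 : 0 ≤ a := by positivity
      have hb0' : 0 ≤ b := by positivity
      have hab : a ^ 2 + b ^ 2 = 1 := by
        rw [ha, hb, div_pow, div_pow, ← add_div, mul_pow, hw2]
        have h5 : (2 : ℝ) ^ 2 * A ^ 2 + B ^ 2 = 4 * A ^ 2 + B ^ 2 := by ring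
        rw [h5, div_self hw0]
      have ha1 : a ≤ 1 := by
        have : a ^ 2 ≤ 1 := by nlinarith [sq_nonneg b]
        exact (sq_le_one_iff₀ ha0).mp this
      have hb1 : b ≤ 1 / 2 := by
        rw [hb, div_le_iff₀ hwpos]
        have h3 : (2 * B) ^ 2 ≤ w ^ 2 := by
          rw [hw2]
          nlinarith
        have := abs_le_of_sq_le_sq' h3 hwpos.le
        linarith [this.2]
      have hcomb : a * A + b * B / 2 = w / 2 := by
        rw [ha, hb]
        field_simp
        nlinarith
      obtain ⟨g, hg⟩ := exists_test_near y hym ε₀ hε₀0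
      obtain ⟨hp, hm, hpT, hmT, hon, hoff⟩ := mix_block hS0 hSc f.2 g.2 ha0 ha1 hb0' hb1 hab.le
      let Hp : TestT h := ⟨hp, hpT⟩
      let Hm : TestT h := ⟨hm, hmT⟩
      have hyid : ev h Hp y - ev h Hm y = b * ev h g y := by
        let L : Amb h →L[ℝ] ℝ := ev h Hp - ev h Hm - b • ev h g
          + b • ∑ s ∈ S, (g.1 s) • ev h (deltaT h s)
        have hL : L y = 0 := by
          refine clm_vanish h L (fun u => ?_) y hym
          simp only [L, add_apply, sub_apply, smul_apply, sum_apply, smul_eq_mul, ev_coord]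
          have h1 : ∑ s ∈ S, g.1 s * (deltaT h s).1 u = if u ∈ S then g.1 u else 0 := by
            simp_rw [delta_spec]
            exact Finset.sum_ite_eq S u g.1
          rw [h1]
          by_cases hu : u ∈ S
          · have h2 := hon u hu
            show hp u - hm u - b * g.1 u + b * (if u ∈ S then g.1 u else 0) = 0
            rw [if_pos hu, h2.1, h2.2]
            ring
          · have h2 := hoff u hu
            show hp u - hm u - b * g.1 u + b * (if u ∈ S then g.1 u else 0) = 0
            rw [if_neg hu, h2]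
            ring
        simp only [L, add_apply, sub_apply, smul_apply, sum_apply, smul_eq_mul] at hL
        have h3 : ∑ s ∈ S, g.1 s * ev h (deltaT h s) y = 0 :=
          Finset.sum_eq_zero fun s hs => by rw [hyF s hs, mul_zero]
        rw [h3, mul_zero, add_zero] at hL
        linarith
      have hx'p : ev h Hp x' = a * ev h f x' := by
        rw [hval, hval, Finset.mul_sum]
        refine Finset.sum_congr rfl fun s hs => ?_
        show c' s * hp s = a * (c' s * f.1 s)
        rw [(hon s (hsupp s hs)).1]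
        ring
      have hx'm : ev h Hm x' = a * ev h f x' := by
        rw [hval, hval, Finset.mul_sum]
        refine Finset.sum_congr rfl fun s hs => ?_
        show c' s * hm s = a * (c' s * f.1 s)
        rw [(hon s (hsupp s hs)).2]
        ring
      have h1 : ev h Hp (x + y) ≤ ‖x + y‖ := (le_abs_self _).trans (abs_ev_le _ _)
      have h2 : ev h Hm (x - y) ≤ ‖x - y‖ := (le_abs_self _).trans (abs_ev_le _ _)
      rw [map_add] at h1
      rw [map_sub] at h2
      have h3 : ev h Hp x' - ε₀ ≤ ev h Hp x := by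
        have h4 := abs_ev_le Hp (x - x')
        rw [map_sub, abs_le] at h4
        linarith [h4.1, h4.2]
      have h5 : ev h Hm x' - ε₀ ≤ ev h Hm x := by
        have h4 := abs_ev_le Hm (x - x')
        rw [map_sub, abs_le] at h4
        linarith [h4.1, h4.2]
      have hx'norm : A - ε₀ ≤ ‖x'‖ := by
        have : ‖x‖ ≤ ‖x - x'‖ + ‖x'‖ := by
          have := norm_add_le (x - x') x'
          simpa using this
        linarith
      have hfx' : A - 2 * ε₀ ≤ ev h f x' := by linarith
      have hgy : B - ε₀ ≤ ev h g y := by linarith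
      have h6 : a * (A - 2 * ε₀) ≤ a * ev h f x' := mul_le_mul_of_nonneg_left hfx' ha0
      have h7 : b * (B - ε₀) ≤ b * ev h g y := mul_le_mul_of_nonneg_left hgy hb0'
      have h10 : a * ε₀ ≤ ε₀ := by nlinarith
      have h11 : b * ε₀ ≤ ε₀ := by nlinarith
      rw [hx'p] at h3
      rw [hx'm] at h5
      have hε4 : ε = 4 * ε₀ := by
        rw [hε₀]
        ring
      rw [hroot]
      nlinarith

/-! Hilbert model -/

variable (h) in
/-- The Hilbert space of the tree. -/
abbrev HH := lp (fun _ : List ℕ => ℝ) 2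

/-- A test as a vector of the Hilbert space. -/
noncomputable def toH (f : TestT h) : HH :=
  ⟨f.1, memℓp_gen' (C := 1) fun A => by simpa using f.2.2 A⟩

lemma norm_sq_le_of_sum {α : Type*} (z : lp (fun _ : α => ℝ) 2) (C : ℝ)
    (hC : ∀ A : Finset α, ∑ u ∈ A, z u ^ 2 ≤ C) : ‖z‖ ^ 2 ≤ C := by
  have h1 := lp.hasSum_norm (p := 2) LpSum.two_pos' z
  simp only [ENNReal.toReal_ofNat, Real.rpow_ofNat, Real.norm_eq_abs, sq_abs] at h1
  exact hasSum_le_of_sum_le h1 hC

lemma norm_toH_le (f : TestT h) : ‖toH f‖ ≤ 1 := by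
  have h1 := norm_sq_le_of_sum (toH f) 1 (fun A => f.2.2 A)
  exact (sq_le_one_iff₀ (norm_nonneg _)).mp h1

lemma sum_sq_le_norm {α : Type*} (z : lp (fun _ : α => ℝ) 2) (A : Finset α) :
    ∑ u ∈ A, z u ^ 2 ≤ ‖z‖ ^ 2 := by
  have := lp.sum_rpow_le_norm_rpow (p := 2) LpSum.two_pos' z A
  simpa using this

/-- The linear map from the Hilbert space to the ambient space. -/
noncomputable def iotaL : (HH →ₗ[ℝ] Amb h) where
  toFun c := ⟨fun f => inner ℝ (toH f) c, memℓp_infty ⟨‖c‖, by
    rintro _ ⟨f, rfl⟩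
    simp only [Real.norm_eq_abs]
    refine (abs_real_inner_le_norm _ _).trans ?_
    have := norm_toH_le f
    have h2 := norm_nonneg c
    nlinarith⟩⟩
  map_add' a b := by
    ext f
    simp [inner_add_right]
  map_smul' c a := by
    ext f
    simp [real_inner_smul_right]

lemma iotaL_apply (c : HH) (f : TestT h) : (iotaL (h := h) c) f = inner ℝ (toH f) c := rfl

lemma norm_iotaL_le (c : HH) : ‖iotaL (h := h) c‖ ≤ ‖c‖ := by
  refine lp.norm_le_of_forall_le (norm_nonneg _) fun f => ?_
  rw [iotaL_apply, Real.norm_eq_abs]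
  refine (abs_real_inner_le_norm _ _).trans ?_
  have := norm_toH_le f
  have h2 := norm_nonneg c
  nlinarith

/-- The continuous linear map from the Hilbert space to the ambient space. -/
noncomputable def iota : HH →L[ℝ] Amb h :=
  LinearMap.mkContinuous iotaL 1 fun c => by
    rw [one_mul]
    exact norm_iotaL_le c

lemma iota_apply (c : HH) : iota (h := h) c = iotaL c := rfl

lemma iota_single (s : List ℕ) (a : ℝ) : iota (h := h) (lp.single 2 s a) = a • coord h s := by
  classical
  ext f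
  rw [iota_apply, iotaL_apply, lp.inner_single_right]
  simp only [lp.coeFn_smul, Pi.smul_apply, smul_eq_mul]
  show inner ℝ (f.1 s) a = a * f.1 s
  simp [mul_comm]

lemma iota_mem (c : HH) : iota (h := h) c ∈ Block h := by
  have hs : HasSum (fun s : List ℕ => lp.single 2 s (c s)) c :=
    lp.hasSum_single (p := 2) (E := fun _ : List ℕ => ℝ) (by norm_num) c
  have hs2 := hs.mapL (iota (h := h))
  have hcl : IsClosed ((Block h : Submodule ℝ (Amb h)) : Set (Amb h)) :=
    Submodule.isClosed_topologicalClosure _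
  refine hcl.mem_of_tendsto hs2 (Filter.Eventually.of_forall fun A => ?_)
  refine (Block h).sum_mem fun s _ => ?_
  rw [iota_single]
  exact (Block h).smul_mem _ (coord_mem s)

/-! Potentials are controlled by the Hilbert norm at small height. -/

lemma pot_eq_sum (f : List ℕ → ℝ) (v : List ℕ) :
    pathPotential f v = ∑ u ∈ v.tails.toFinset, f u := by
  classical
  induction v with
  | nil => simp [pathPotential]
  | cons a v ih =>
    have e : (a :: v).tails.toFinset = insert (a :: v) v.tails.toFinset := by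
      ext u
      simp only [List.mem_toFinset, List.mem_tails, Finset.mem_insert]
      exact List.suffix_cons_iff
    have hn : (a :: v) ∉ v.tails.toFinset := by
      simp only [List.mem_toFinset, List.mem_tails]
      intro h2
      have := h2.length_le
      simp at this
    rw [e, Finset.sum_insert hn]
    simp only [pathPotential]
    rw [ih]
    ring

lemma card_tails_le (v : List ℕ) : v.tails.toFinset.card ≤ v.length + 1 := by
  classical
  refine (List.toFinset_card_le _).trans ?_
  simp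

/-- Large coordinates produce tests. -/
lemma btest_of_hilbert (c : HH) (κ : ℝ) (hκ : κ ^ 2 * ‖c‖ ^ 2 * ((h : ℝ) + 1) ≤ 1) :
    BTest h (fun u => κ * c u) := by
  have hsum : ∀ A : Finset (List ℕ), ∑ u ∈ A, (κ * c u) ^ 2 ≤ κ ^ 2 * ‖c‖ ^ 2 := by
    intro A
    simp_rw [mul_pow]
    rw [← Finset.mul_sum]
    exact mul_le_mul_of_nonneg_left (sum_sq_le_norm c A) (by positivity)
  constructor
  · intro v hv
    rw [pot_eq_sum]
    apply (sq_le_one_iff_abs_le_one _).mp
    refine (sq_sum_le_card_mul_sum_sq).trans ?_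
    have h1 : ((v.tails.toFinset.card : ℕ) : ℝ) ≤ (h : ℝ) + 1 := by
      have := card_tails_le v
      have h2 : v.tails.toFinset.card ≤ h + 1 := by omega
      exact_mod_cast h2
    have h3 := hsum v.tails.toFinset
    have h4 : 0 ≤ ∑ u ∈ v.tails.toFinset, (κ * c u) ^ 2 := Finset.sum_nonneg fun _ _ => by positivity
    have h5 : (0 : ℝ) ≤ (h : ℝ) + 1 := by positivity
    calc ((v.tails.toFinset.card : ℕ) : ℝ) * ∑ u ∈ v.tails.toFinset, (κ * c u) ^ 2
        ≤ ((h : ℝ) + 1) * (κ ^ 2 * ‖c‖ ^ 2) :=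
          mul_le_mul h1 h3 h4 h5
      _ ≤ 1 := by linarith
  · intro A
    refine (hsum A).trans ?_
    have h1 : 0 ≤ κ ^ 2 * ‖c‖ ^ 2 := by positivity
    have h5 : (0 : ℝ) ≤ (h : ℝ) := by positivity
    nlinarith

/-- The map to the ambient space is bounded below. -/
lemma norm_le_iota (c : HH) : ‖c‖ ≤ Real.sqrt ((h : ℝ) + 1) * ‖iota (h := h) c‖ := by
  rcases (norm_nonneg c).eq_or_lt with h0 | h0
  · rw [← h0]
    positivity
  set r := Real.sqrt ((h : ℝ) + 1) with hr
  have hr2 : r ^ 2 = (h : ℝ) + 1 := Real.sq_sqrt (by positivity)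
  have hr0 : 0 < r := Real.sqrt_pos.mpr (by positivity)
  set κ := 1 / (r * ‖c‖) with hκ
  have hκ2 : κ ^ 2 * ‖c‖ ^ 2 * ((h : ℝ) + 1) ≤ 1 := by
    rw [hκ, ← hr2]
    apply le_of_eq
    field_simp
  have ht := btest_of_hilbert c κ hκ2
  let f : TestT h := ⟨fun u => κ * c u, ht⟩
  have h1 := abs_ev_le f (iota (h := h) c)
  have h2 : toH f = κ • c := by
    ext u
    rfl
  have h3 : ev h f (iota (h := h) c) = κ * ‖c‖ ^ 2 := by
    show iotaL (h := h) c f = _
    rw [iotaL_apply, h2, real_inner_smul_left, real_inner_self_eq_norm_sq]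
  rw [h3, abs_of_pos (by positivity)] at h1
  have h4 : κ * ‖c‖ ^ 2 = ‖c‖ / r := by
    rw [hκ]
    field_simp
  rw [h4, div_le_iff₀ hr0] at h1
  linarith

/-- The isomorphism of the block with the Hilbert space. -/
noncomputable def iotaB : HH →L[ℝ] Block h :=
  (iota (h := h)).codRestrict (Block h) iota_mem

lemma iotaB_coe (c : HH) : (iotaB (h := h) c : Amb h) = iota c := rfl

lemma iotaB_range : LinearMap.range (iotaB (h := h)).toLinearMap = ⊤ := by
  rw [eq_top_iff]
  rintro ⟨y, hy⟩ -
  -- the range of `iota` is closed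
  have hanti : AntilipschitzWith (Real.toNNReal (Real.sqrt ((h : ℝ) + 1))) (iota (h := h)) := by
    refine AddMonoidHomClass.antilipschitz_of_bound _ fun c => ?_
    rw [Real.coe_toNNReal _ (Real.sqrt_nonneg _)]
    exact norm_le_iota c
  have hclosed : IsClosed (Set.range (iota (h := h))) :=
    hanti.isClosed_range (iota (h := h)).uniformContinuous
  let R : Submodule ℝ (Amb h) := LinearMap.range (iota (h := h)).toLinearMap
  have hR : (R : Set (Amb h)) = Set.range (iota (h := h)) := LinearMap.coe_range _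
  have hspan : Submodule.span ℝ (Set.range (coord h)) ≤ R := by
    rw [Submodule.span_le]
    rintro _ ⟨s, rfl⟩
    refine ⟨lp.single 2 s 1, ?_⟩
    show iota (h := h) (lp.single 2 s 1) = coord h s
    rw [iota_single, one_smul]
  have hle : Block h ≤ R := Submodule.topologicalClosure_minimal _ hspan (by rw [hR]; exact hclosed)
  obtain ⟨c, hc⟩ := hle hy
  refine ⟨c, ?_⟩
  apply Subtype.ext
  exact hc

lemma iotaB_ker : LinearMap.ker (iotaB (h := h)).toLinearMap = ⊥ := by
  rw [LinearMap.ker_eq_bot']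
  intro c hc
  have h1 := norm_le_iota (h := h) c
  have h2 : iota (h := h) c = 0 := congrArg Subtype.val hc
  rw [h2, norm_zero, mul_zero] at h1
  exact norm_le_zero_iff.mp h1

/-- The block is reflexive. -/
theorem block_reflexive :
    Function.Surjective (NormedSpace.inclusionInDoubleDual ℝ (Block h)) := by
  have e : HH ≃L[ℝ] Block h :=
    ContinuousLinearEquiv.ofBijective (iotaB (h := h)) iotaB_ker iotaB_range
  exact LpSum.reflexive_of_equiv e.symm (LpSum.hilbert_reflexive _)

/-! Tree data in a block -/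

lemma norm_sum_siblings_le (r : List ℕ) (A : Finset ℕ) :
    ‖∑ n ∈ A, coord h (n :: r)‖ ≤ Real.sqrt A.card := by
  refine lp.norm_le_of_forall_le (Real.sqrt_nonneg _) fun f => ?_
  rw [Real.norm_eq_abs]
  have h1 : (∑ n ∈ A, coord h (n :: r) : Amb h) f = ∑ n ∈ A, f.1 (n :: r) := by
    have : ev h f (∑ n ∈ A, coord h (n :: r)) = ∑ n ∈ A, f.1 (n :: r) := by
      rw [map_sum]
      rfl
    exact this
  rw [h1]
  apply Real.abs_le_sqrt
  refine (sq_sum_le_card_mul_sum_sq).trans ?_
  have h2 := sibling_sq' f.2 r A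
  have h3 : (0 : ℝ) ≤ A.card := by positivity
  nlinarith

lemma one_le_norm_coord (s : List ℕ) : 1 ≤ ‖coord h s‖ := by
  have h1 := abs_ev_le (deltaT h s) (coord h s)
  rw [ev_coord] at h1
  simpa [deltaT, ind_self] using h1

variable (h) in
/-- The potential vector. -/
noncomputable def potVec : List ℕ → Amb h
  | [] => coord h []
  | a :: v => potVec v + coord h (a :: v)

lemma ev_potVec (f : TestT h) (v : List ℕ) : ev h f (potVec h v) = pathPotential f.1 v := by
  induction v with
  | nil => rfl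
  | cons a v ih => simp only [potVec, map_add, ih, ev_coord, pathPotential]

lemma potVec_mem (v : List ℕ) : potVec h v ∈ Block h := by
  induction v with
  | nil => exact coord_mem _
  | cons a v ih => exact (Block h).add_mem ih (coord_mem _)

lemma norm_potVec_le {v : List ℕ} (hv : v.length ≤ h) : ‖potVec h v‖ ≤ 1 := by
  refine lp.norm_le_of_forall_le zero_le_one fun f => ?_
  rw [Real.norm_eq_abs]
  have := ev_potVec f v
  rw [ev_apply] at this
  rw [this]
  exact f.2.1 v hv

end Crest.Agent.Lib.BlockSpace
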