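import Mathlib

/-!
Weighted Cauchy-Binet expansion for `B diag(z) Bᵀ`.
-/

set_option autoImplicit false

namespace Crest.Agent.Lib.CauchyBinetW

open Finset Function

variable {n ι R : Type*} [Fintype n] [DecidableEq n] [CommRing R]

/-- The square matrix whose `j`-th column is the column `f j` of `B`. -/
def colM (B : n → ι → R) (f : n → ι) : Matrix n n R := Matrix.of fun i j => B i (f j)

/-- The matrix `B diag(z) Bᵀ` with `z` supported on the finite set `E`. -/
def wLap (E : Finset ι) (B : n → ι → R) (z : ι → R) : Matrix n n R :=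
  Matrix.of fun i j => ∑ e ∈ E, z e * (B i e * B j e)

lemma det_wLap_expand [DecidableEq ι] (E : Finset ι) (B : n → ι → R) (z : ι → R) :
    (wLap E B z).det = ∑ f ∈ Fintype.piFinset (fun _ : n => E),
      (∏ i, (z (f i) * B i (f i))) * (colM B f).det := by
  rw [Matrix.det_apply']
  simp only [wLap, Matrix.of_apply]
  simp_rw [Finset.prod_univ_sum]
  simp_rw [Finset.mul_sum]
  rw [Finset.sum_comm]
  apply Finset.sum_congr rfl
  intro f _
  rw [Matrix.det_apply', Finset.mul_sum]
  apply Finset.sum_congr rfl
  intro σ _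
  simp only [colM, Matrix.of_apply]
  have h : (∏ i, z (f i) * (B (σ i) (f i) * B i (f i))) =
      (∏ i, z (f i) * B i (f i)) * ∏ i, B (σ i) (f i) := by
    rw [← Finset.prod_mul_distrib]
    apply Finset.prod_congr rfl
    intro i _
    ring
  rw [h]
  ring

lemma sum_perm_fiber (B : n → ι → R) (z : ι → R) (g : n → ι) :
    ∑ τ : Equiv.Perm n, (∏ i, (z ((g ∘ τ) i) * B i ((g ∘ τ) i))) * (colM B (g ∘ τ)).det =
      (∏ i, z (g i)) * (colM B g).det ^ 2 := by
  have hdet : (colM B g).det = ∑ τ : Equiv.Perm n,
      ((Equiv.Perm.sign τ : ℤ) : R) * ∏ i, B i (g (τ i)) := by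
    rw [← Matrix.det_transpose, Matrix.det_apply']
    rfl
  have hterm : ∀ τ : Equiv.Perm n,
      (∏ i, (z ((g ∘ τ) i) * B i ((g ∘ τ) i))) * (colM B (g ∘ τ)).det =
      (∏ i, z (g i)) * (colM B g).det *
        (((Equiv.Perm.sign τ : ℤ) : R) * ∏ i, B i (g (τ i))) := by
    intro τ
    have h1 : colM B (g ∘ τ) = (colM B g).submatrix id τ := by ext i j; rfl
    rw [h1, Matrix.det_permute', Finset.prod_mul_distrib]
    have h2 : ∏ i, z ((g ∘ τ) i) = ∏ i, z (g i) := Equiv.prod_comp τ (fun i => z (g i))
    rw [h2]
    simp only [Function.comp]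
    ring
  simp_rw [hterm]
  rw [← Finset.mul_sum, ← hdet]
  ring

/-- Cauchy-Binet, packaged with a coefficient function. -/
theorem det_wLap_eq [DecidableEq ι] (E : Finset ι) (B : n → ι → R) (z : ι → R) (c : Finset ι → R)
    (hc : ∀ A ∈ E.powerset, ∀ g : n → ι, Injective g → Finset.univ.image g = A →
      (colM B g).det ^ 2 = c A)
    (hc0 : ∀ A ∈ E.powerset, A.card ≠ Fintype.card n → c A = 0) :
    (wLap E B z).det = ∑ A ∈ E.powerset, c A * ∏ e ∈ A, z e := by
  classical
  rw [det_wLap_expand]
  set φ : (n → ι) → R := fun f => (∏ i, (z (f i) * B i (f i))) * (colM B f).det with hφ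
  have h1 : ∑ f ∈ Fintype.piFinset (fun _ : n => E), φ f =
      ∑ f ∈ (Fintype.piFinset (fun _ : n => E)).filter Injective, φ f := by
    symm
    apply Finset.sum_filter_of_ne
    intro f _ hf
    by_contra hinj
    apply hf
    rw [Function.Injective] at hinj
    push Not at hinj
    obtain ⟨a, b, hab, hne⟩ := hinj
    simp only [hφ]
    rw [Matrix.det_zero_of_column_eq hne (fun k => by simp [colM, hab]), mul_zero]
  rw [h1]
  have hmaps : ∀ f ∈ (Fintype.piFinset (fun _ : n => E)).filter Injective,
      Finset.univ.image f ∈ E.powerset := by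
    intro f hf
    rw [Finset.mem_powerset]
    intro e he
    obtain ⟨i, _, rfl⟩ := Finset.mem_image.mp he
    exact Fintype.mem_piFinset.mp (Finset.mem_filter.mp hf).1 i
  rw [← Finset.sum_fiberwise_of_maps_to hmaps]
  apply Finset.sum_congr rfl
  intro A hA
  by_cases hcard : A.card = Fintype.card n
  · -- choose `g`
    have e : n ≃ A := Fintype.equivOfCardEq (by simp [hcard])
    set g : n → ι := fun i => (e i : ι) with hg
    have hginj : Injective g := fun a b h => e.injective (Subtype.ext h)
    have hgim : Finset.univ.image g = A := by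
      ext x
      constructor
      · intro h
        obtain ⟨i, _, rfl⟩ := Finset.mem_image.mp h
        exact (e i).2
      · intro hx
        exact Finset.mem_image.mpr ⟨e.symm ⟨x, hx⟩, Finset.mem_univ _, by simp [hg]⟩
    have hprod : ∏ e ∈ A, z e = ∏ i, z (g i) := by
      rw [← hgim, Finset.prod_image (fun a _ b _ h => hginj h)]
    rw [hprod, ← hc A hA g hginj hgim, mul_comm, ← sum_perm_fiber B z g]
    symm
    apply Finset.sum_bij (fun (τ : Equiv.Perm n) _ => g ∘ τ)
    · intro τ _
      have hgA : ∀ i, g i ∈ A := fun i => (e i).2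
      refine Finset.mem_filter.mpr ⟨Finset.mem_filter.mpr ⟨?_, hginj.comp τ.injective⟩, ?_⟩
      · exact Fintype.mem_piFinset.mpr (fun i => (Finset.mem_powerset.mp hA) (hgA (τ i)))
      · rw [← hgim]
        ext x
        simp only [Finset.mem_image, Finset.mem_univ, true_and, Function.comp]
        constructor
        · rintro ⟨i, rfl⟩
          exact ⟨τ i, rfl⟩
        · rintro ⟨i, rfl⟩
          exact ⟨τ.symm i, by simp⟩
    · intro τ _ τ' _ h
      ext i
      have := congrFun h i
      exact hginj this
    · intro f hf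
      obtain ⟨hf1, hf2⟩ := Finset.mem_filter.mp hf
      obtain ⟨hf3, hf4⟩ := Finset.mem_filter.mp hf1
      have hex : ∀ i, ∃ j, g j = f i := by
        intro i
        have h1 : f i ∈ A := by
          rw [← hf2]
          exact Finset.mem_image_of_mem _ (Finset.mem_univ _)
        rw [← hgim] at h1
        obtain ⟨j, _, hj⟩ := Finset.mem_image.mp h1
        exact ⟨j, hj⟩
      choose τf hτf using hex
      have hτinj : Injective τf := by
        intro a b hab
        apply hf4
        rw [← hτf, ← hτf, hab]
      have hτbij : Bijective τf := Finite.injective_iff_bijective.mp hτinj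
      refine ⟨Equiv.ofBijective τf hτbij, Finset.mem_univ _, ?_⟩
      ext i
      exact hτf i
    · intro τ _
      rfl
  · rw [hc0 A hA hcard, zero_mul]
    apply Finset.sum_eq_zero
    intro f hf
    exfalso
    obtain ⟨hf1, hf2⟩ := Finset.mem_filter.mp hf
    obtain ⟨_, hf4⟩ := Finset.mem_filter.mp hf1
    apply hcard
    rw [← hf2, Finset.card_image_of_injective _ hf4, Finset.card_univ]

end Crest.Agent.Lib.CauchyBinetW
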