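import Mathlib

/-!
# Areas of planar pieces in Euclidean space under `μHE[2]`

Main results (namespace `Crest.Agent.Lib.CylArea`):
* `area_image` : for any set `s ⊆ ℝ²`, `μHE[2] ((fun x => c + x 0 • A + x 1 • B) '' s)
    = ofReal √(‖A‖²‖B‖²-⟪A,B⟫²) * volume s`;
* `area_triangle` : area of `convexHull {p,q,r}`;
* `area_parallelogram` : area of `{c + s a + t b}`;
* `muH_eq` : relation between `μH[2]` and `μHE[2]`.
-/

set_option autoImplicit false

open MeasureTheory
open scoped ENNReal RealInnerProductSpace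

namespace Crest.Agent.Lib.CylArea

/-- The Euclidean plane. -/
abbrev R2 := EuclideanSpace ℝ (Fin 2)

/-! ### determinant and trace in coordinates -/

/-- the standard basis of the plane -/
noncomputable abbrev e2 (i : Fin 2) : R2 := EuclideanSpace.single i (1 : ℝ)

lemma coords (x : R2) : x = x 0 • e2 0 + x 1 • e2 1 := by
  ext i; fin_cases i <;> simp [e2]

lemma det_coord (f : R2 →ₗ[ℝ] R2) :
    LinearMap.det f = f (e2 0) 0 * f (e2 1) 1 - f (e2 1) 0 * f (e2 0) 1 := by
  have := LinearMap.det_toMatrix (EuclideanSpace.basisFun (Fin 2) ℝ).toBasis f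
  rw [← this, Matrix.det_fin_two]
  simp [LinearMap.toMatrix_apply, e2]

lemma trace_coord (f : R2 →ₗ[ℝ] R2) :
    LinearMap.trace ℝ _ f = f (e2 0) 0 + f (e2 1) 1 := by
  rw [LinearMap.trace_eq_matrix_trace ℝ (EuclideanSpace.basisFun (Fin 2) ℝ).toBasis f,
    Matrix.trace_fin_two]
  simp [LinearMap.toMatrix_apply, e2]

/-- The linear map of `ℝ²` with a given matrix. -/
noncomputable def matMap (m00 m01 m10 m11 : ℝ) : R2 →ₗ[ℝ] R2 where
  toFun x := !₂[m00 * x 0 + m01 * x 1, m10 * x 0 + m11 * x 1]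
  map_add' x y := by ext i; fin_cases i <;> simp <;> ring
  map_smul' r x := by ext i; fin_cases i <;> simp <;> ring

@[simp] lemma matMap_apply (m00 m01 m10 m11 : ℝ) (x : R2) :
    matMap m00 m01 m10 m11 x = !₂[m00 * x 0 + m01 * x 1, m10 * x 0 + m11 * x 1] := rfl

lemma det_matMap (m00 m01 m10 m11 : ℝ) :
    LinearMap.det (matMap m00 m01 m10 m11) = m00 * m11 - m01 * m10 := by
  rw [det_coord]; simp [e2]

/-! ### orthonormal frames containing two given vectors -/

section Frame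

variable {E : Type*} [NormedAddCommGroup E] [InnerProductSpace ℝ E]

lemma exists_unit_of_mem (S : Submodule ℝ E) (hS : Nontrivial S) (x : E) (hx : x ∈ S) :
    ∃ g ∈ S, ‖g‖ = 1 ∧ x = ⟪g, x⟫ • g := by
  by_cases h0 : x = 0
  · obtain ⟨y, hy⟩ := exists_ne (0 : S)
    have hy' : (y : E) ≠ 0 := by simpa using hy
    refine ⟨(‖(y : E)‖⁻¹) • (y : E), S.smul_mem _ y.2, ?_, ?_⟩
    · rw [norm_smul, norm_inv, norm_norm, inv_mul_cancel₀ (norm_ne_zero_iff.2 hy')]
    · simp [h0]
  · refine ⟨(‖x‖⁻¹) • x, S.smul_mem _ hx, ?_, ?_⟩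
    · rw [norm_smul, norm_inv, norm_norm, inv_mul_cancel₀ (norm_ne_zero_iff.2 h0)]
    · rw [real_inner_smul_left, real_inner_self_eq_norm_sq, smul_smul]
      have : ‖x‖ ≠ 0 := norm_ne_zero_iff.2 h0
      have h1 : ‖x‖⁻¹ * ‖x‖ ^ 2 * ‖x‖⁻¹ = 1 := by field_simp
      rw [h1, one_smul]

/-- Two vectors in a space of dimension `≥ 2` lie in the span of an orthonormal pair. -/
lemma exists_frame [FiniteDimensional ℝ E] (hE : 2 ≤ Module.finrank ℝ E) (A B : E) :
    ∃ g₁ g₂ : E, ‖g₁‖ = 1 ∧ ‖g₂‖ = 1 ∧ ⟪g₁, g₂⟫ = 0 ∧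
      ∃ α β₁ β₂ : ℝ, A = α • g₁ ∧ B = β₁ • g₁ + β₂ • g₂ := by
  have : Nontrivial (⊤ : Submodule ℝ E) := by
    have : Nontrivial E := Module.nontrivial_of_finrank_pos (R := ℝ) (by omega)
    exact Submodule.nontrivial_iff_ne_bot.2 (by simp)
  obtain ⟨g₁, -, hg₁, hA⟩ := exists_unit_of_mem (⊤ : Submodule ℝ E) inferInstance A (by simp)
  have hg₁0 : g₁ ≠ 0 := by
    intro h; simp [h] at hg₁
  have hS : Nontrivial ((ℝ ∙ g₁)ᗮ : Submodule ℝ E) := by
    have h1 := (ℝ ∙ g₁).finrank_add_finrank_orthogonal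
    rw [finrank_span_singleton hg₁0] at h1
    exact Module.nontrivial_of_finrank_pos (R := ℝ) (by omega)
  have hBp : B - ⟪g₁, B⟫ • g₁ ∈ ((ℝ ∙ g₁)ᗮ : Submodule ℝ E) := by
    rw [Submodule.mem_orthogonal_singleton_iff_inner_right, inner_sub_right,
      real_inner_smul_right, real_inner_self_eq_norm_sq, hg₁]
    ring
  obtain ⟨g₂, hg₂m, hg₂, hB⟩ := exists_unit_of_mem _ hS _ hBp
  refine ⟨g₁, g₂, hg₁, hg₂, ?_, ⟪g₁, A⟫, ⟪g₁, B⟫, ⟪g₂, B - ⟪g₁, B⟫ • g₁⟫, hA, ?_⟩
  · exact (Submodule.mem_orthogonal_singleton_iff_inner_right).1 hg₂m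
  · rw [← hB]; abel

/-- The isometric embedding of the plane spanned by an orthonormal pair. -/
lemma isometry_frame {g₁ g₂ : E} (h1 : ‖g₁‖ = 1) (h2 : ‖g₂‖ = 1) (h12 : ⟪g₁, g₂⟫ = 0) :
    Isometry (fun x : R2 => x 0 • g₁ + x 1 • g₂) := by
  refine Isometry.of_dist_eq fun x y => ?_
  rw [dist_eq_norm, dist_eq_norm]
  have hrw : x 0 • g₁ + x 1 • g₂ - (y 0 • g₁ + y 1 • g₂)
      = (x - y) 0 • g₁ + (x - y) 1 • g₂ := by
    simp only [PiLp.sub_apply, sub_smul]; abel
  rw [hrw]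
  set w := x - y
  have h3 : ‖w 0 • g₁ + w 1 • g₂‖ ^ 2 = ‖w‖ ^ 2 := by
    rw [EuclideanSpace.norm_sq_eq, Fin.sum_univ_two, @norm_add_sq_real, norm_smul, norm_smul,
      real_inner_smul_left, real_inner_smul_right, h12, h1, h2]
    simp [mul_pow]
  exact (pow_left_inj₀ (norm_nonneg _) (norm_nonneg _) (by norm_num)).1 h3

end Frame

/-! ### the area formula -/

section Area

variable {E : Type*} [NormedAddCommGroup E] [InnerProductSpace ℝ E] [FiniteDimensional ℝ E]
  [MeasurableSpace E] [BorelSpace E]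

/-- Area of the image of a planar set under `x ↦ c + x₀ A + x₁ B`. -/
theorem area_image (hE : 2 ≤ Module.finrank ℝ E) (c A B : E) (s : Set R2) :
    μHE[2] ((fun x : R2 => c + x 0 • A + x 1 • B) '' s) =
      ENNReal.ofReal (Real.sqrt (‖A‖ ^ 2 * ‖B‖ ^ 2 - ⟪A, B⟫ ^ 2)) * volume s := by
  obtain ⟨g₁, g₂, h1, h2, h12, α, β₁, β₂, hA, hB⟩ := exists_frame hE A B
  set M : R2 →ₗ[ℝ] R2 := matMap α β₁ 0 β₂ with hM
  have hiso : Isometry (fun y : R2 => c + (y 0 • g₁ + y 1 • g₂)) :=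
    (IsometryEquiv.addLeft c).isometry.comp (isometry_frame h1 h2 h12)
  have himg : (fun x : R2 => c + x 0 • A + x 1 • B) '' s =
      (fun y : R2 => c + (y 0 • g₁ + y 1 • g₂)) '' (M '' s) := by
    rw [Set.image_image]
    refine Set.image_congr fun x _ => ?_
    simp only [hM, matMap_apply, hA, hB]
    simp only [PiLp.toLp_apply, Matrix.cons_val_zero, Matrix.cons_val_one]
    simp only [smul_add, smul_smul, add_smul, zero_mul, zero_add]
    abel_nf
    simp only [mul_comm]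
  rw [himg, hiso.euclideanHausdorffMeasure_image, EuclideanSpace.euclideanHausdorffMeasure_eq_volume,
    Measure.addHaar_image_linearMap, hM, det_matMap]
  congr 2
  have hgram : ‖A‖ ^ 2 * ‖B‖ ^ 2 - ⟪A, B⟫ ^ 2 = (α * β₂) ^ 2 := by
    have hAn : ‖A‖ ^ 2 = α ^ 2 := by
      rw [hA, norm_smul, h1]; simp [mul_pow]
    have hBn : ‖B‖ ^ 2 = β₁ ^ 2 + β₂ ^ 2 := by
      rw [hB, @norm_add_sq_real, norm_smul, norm_smul, real_inner_smul_left,
        real_inner_smul_right, h12, h1, h2]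
      simp [mul_pow]
    have hAB : ⟪A, B⟫ = α * β₁ := by
      rw [hA, hB, real_inner_smul_left, inner_add_right, real_inner_smul_right,
        real_inner_smul_right, h12, real_inner_self_eq_norm_sq, h1]
      ring
    rw [hAn, hBn, hAB]; ring
  rw [hgram, Real.sqrt_sq_eq_abs]
  ring_nf

end Area

/-! ### standard regions of the plane -/

/-- The measure preserving identification of the plane with `ℝ × ℝ`. -/
noncomputable def toProd : R2 → ℝ × ℝ := fun x => (x 0, x 1)

lemma toProd_mp : MeasurePreserving toProd volume volume := by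
  have h1 : MeasurePreserving (fun x : R2 => (WithLp.ofLp x : Fin 2 → ℝ)) volume volume :=
    PiLp.volume_preserving_ofLp (Fin 2)
  have h2 := volume_preserving_finTwoArrow ℝ
  exact h2.comp h1

/-- volume of a region of the plane computed in `ℝ × ℝ` -/
lemma volume_eq_prod_region (T : Set (ℝ × ℝ)) (hT : MeasurableSet T) :
    volume {x : R2 | (x 0, x 1) ∈ T} = volume T :=
  toProd_mp.measure_preimage hT.nullMeasurableSet

/-- The closed unit square. -/
def unitSq : Set R2 := {x | x 0 ∈ Set.Icc (0 : ℝ) 1 ∧ x 1 ∈ Set.Icc (0 : ℝ) 1}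

/-- The half open unit square. -/
def unitSqIco : Set R2 := {x | x 0 ∈ Set.Ico (0 : ℝ) 1 ∧ x 1 ∈ Set.Ico (0 : ℝ) 1}

/-- The standard triangle. -/
def stdTri : Set R2 := {x | 0 ≤ x 0 ∧ 0 ≤ x 1 ∧ x 0 + x 1 ≤ 1}

lemma volume_unitSq : volume unitSq = 1 := by
  have := volume_eq_prod_region (Set.Icc (0 : ℝ) 1 ×ˢ Set.Icc (0 : ℝ) 1)
    (measurableSet_Icc.prod measurableSet_Icc)
  have h2 : {x : R2 | (x 0, x 1) ∈ Set.Icc (0 : ℝ) 1 ×ˢ Set.Icc (0 : ℝ) 1} = unitSq := by
    ext x; exact Iff.rfl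
  rw [h2] at this
  rw [this, Measure.volume_eq_prod, Measure.prod_prod]
  simp

lemma volume_unitSqIco : volume unitSqIco = 1 := by
  have := volume_eq_prod_region (Set.Ico (0 : ℝ) 1 ×ˢ Set.Ico (0 : ℝ) 1)
    (measurableSet_Ico.prod measurableSet_Ico)
  have h2 : {x : R2 | (x 0, x 1) ∈ Set.Ico (0 : ℝ) 1 ×ˢ Set.Ico (0 : ℝ) 1} = unitSqIco := by
    ext x; exact Iff.rfl
  rw [h2] at this
  rw [this, Measure.volume_eq_prod, Measure.prod_prod]
  simp

lemma volume_stdTri : volume stdTri = ENNReal.ofReal (1 / 2) := by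
  set T : Set (ℝ × ℝ) := {q | 0 ≤ q.1 ∧ 0 ≤ q.2 ∧ q.1 + q.2 ≤ 1} with hTdef
  have hT : MeasurableSet T := by
    have : IsClosed T := by
      simp only [hTdef, Set.setOf_and]
      exact (isClosed_le continuous_const continuous_fst).inter
        ((isClosed_le continuous_const continuous_snd).inter
          (isClosed_le (continuous_fst.add continuous_snd) continuous_const))
    exact this.measurableSet
  have h1 := volume_eq_prod_region T hT
  have h2 : {x : R2 | (x 0, x 1) ∈ T} = stdTri := by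
    ext x; simp [T, stdTri]
  rw [h2] at h1
  rw [h1, Measure.volume_eq_prod, Measure.prod_apply hT]
  have hslice : ∀ x : ℝ, volume (Prod.mk x ⁻¹' T) =
      (Set.Icc (0 : ℝ) 1).indicator (fun x => ENNReal.ofReal (1 - x)) x := by
    intro x
    by_cases hx : x ∈ Set.Icc (0 : ℝ) 1
    · rw [Set.indicator_of_mem hx]
      have : Prod.mk x ⁻¹' T = Set.Icc 0 (1 - x) := by
        ext y
        simp only [Set.mem_preimage, T, Set.mem_setOf_eq, Set.mem_Icc]
        constructor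
        · rintro ⟨_, h2, h3⟩; exact ⟨h2, by linarith⟩
        · rintro ⟨h2, h3⟩; exact ⟨hx.1, h2, by linarith⟩
      rw [this, Real.volume_Icc]; simp
    · rw [Set.indicator_of_notMem hx]
      have : Prod.mk x ⁻¹' T = ∅ := by
        ext y
        simp only [Set.mem_preimage, T, Set.mem_setOf_eq, Set.mem_empty_iff_false, iff_false]
        rintro ⟨h1, h2, h3⟩
        exact hx ⟨h1, by linarith⟩
      rw [this]; simp
  simp_rw [hslice]
  rw [lintegral_indicator measurableSet_Icc]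
  rw [← ofReal_integral_eq_lintegral_ofReal]
  · congr 1
    rw [integral_Icc_eq_integral_Ioc, ← intervalIntegral.integral_of_le (by norm_num),
      intervalIntegral.integral_sub (by simp) (by simp)]
    simp
    norm_num
  · exact (continuous_const.sub continuous_id).integrableOn_Icc
  · filter_upwards [ae_restrict_mem measurableSet_Icc] with x hx
    simpa using hx.2

/-! ### triangles and parallelograms -/

section Shapes

variable {E : Type*} [NormedAddCommGroup E] [InnerProductSpace ℝ E]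

lemma convexHull_triple_eq (p q r : E) :
    convexHull ℝ {p, q, r} = (fun x : R2 => p + x 0 • (q - p) + x 1 • (r - p)) '' stdTri := by
  apply Set.Subset.antisymm
  · apply convexHull_min
    · intro y hy
      simp only [Set.mem_insert_iff, Set.mem_singleton_iff] at hy
      rcases hy with rfl | rfl | rfl
      · exact ⟨!₂[0, 0], by simp [stdTri], by simp⟩
      · exact ⟨!₂[1, 0], by simp [stdTri], by simp⟩
      · exact ⟨!₂[0, 1], by simp [stdTri], by simp⟩
    · intro y hy z hz a b ha hb hab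
      obtain ⟨x, hx, rfl⟩ := hy
      obtain ⟨x', hx', rfl⟩ := hz
      refine ⟨a • x + b • x', ?_, ?_⟩
      · simp only [stdTri, Set.mem_setOf_eq, PiLp.add_apply, PiLp.smul_apply, smul_eq_mul] at hx hx' ⊢
        refine ⟨by have := hx.1; have := hx'.1; positivity,
          by have := hx.2.1; have := hx'.2.1; positivity, ?_⟩
        have h1 := mul_le_mul_of_nonneg_left hx.2.2 ha
        have h2 := mul_le_mul_of_nonneg_left hx'.2.2 hb
        nlinarith
      · have hb' : b = 1 - a := by linarith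
        subst hb'
        simp only [PiLp.add_apply, PiLp.smul_apply, smul_eq_mul]
        module
  · rintro _ ⟨x, hx, rfl⟩
    obtain ⟨h0, h1, h2⟩ := hx
    refine mem_convexHull_of_exists_fintype (ι := Fin 3) ![1 - x 0 - x 1, x 0, x 1] ![p, q, r]
      ?_ ?_ ?_ ?_
    · intro i; fin_cases i <;> simp <;> linarith
    · simp [Fin.sum_univ_three]; ring
    · intro i; fin_cases i <;> simp
    · simp [Fin.sum_univ_three]
      module

lemma parallelogram_eq (c a b : E) :
    {x : E | ∃ s ∈ Set.Icc (0 : ℝ) 1, ∃ t ∈ Set.Icc (0 : ℝ) 1, x = c + s • a + t • b} =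
      (fun x : R2 => c + x 0 • a + x 1 • b) '' unitSq := by
  ext y
  constructor
  · rintro ⟨s, hs, t, ht, rfl⟩
    exact ⟨!₂[s, t], by simpa [unitSq] using ⟨hs, ht⟩, by simp⟩
  · rintro ⟨x, hx, rfl⟩
    exact ⟨x 0, hx.1, x 1, hx.2, rfl⟩

variable [FiniteDimensional ℝ E] [MeasurableSpace E] [BorelSpace E]

/-- Area of a triangle. -/
theorem area_triangle (hE : 2 ≤ Module.finrank ℝ E) (p q r : E) :
    μHE[2] (convexHull ℝ {p, q, r}) =
      ENNReal.ofReal (1 / 2 * Real.sqrt (‖q - p‖ ^ 2 * ‖r - p‖ ^ 2 - ⟪q - p, r - p⟫ ^ 2)) := by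
  rw [convexHull_triple_eq, area_image hE, volume_stdTri, ← ENNReal.ofReal_mul (Real.sqrt_nonneg _),
    mul_comm]

/-- Area of a parallelogram. -/
theorem area_parallelogram (hE : 2 ≤ Module.finrank ℝ E) (c a b : E) :
    μHE[2] {x : E | ∃ s ∈ Set.Icc (0 : ℝ) 1, ∃ t ∈ Set.Icc (0 : ℝ) 1, x = c + s • a + t • b} =
      ENNReal.ofReal (Real.sqrt (‖a‖ ^ 2 * ‖b‖ ^ 2 - ⟪a, b⟫ ^ 2)) := by
  rw [parallelogram_eq, area_image hE, volume_unitSq, mul_one]

end Shapes

/-! ### `μH[2]` versus `μHE[2]` -/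

/-- the universal scalar between `μHE[2]` and `μH[2]` -/
noncomputable def kappa : NNReal :=
  Measure.addHaarScalarFactor (volume : Measure (EuclideanSpace ℝ (Fin 2))) μH[(2 : ℕ)]

lemma kappa_ne_zero : kappa ≠ 0 :=
  Measure.addHaarScalarFactor_volume_hausdorffMeasure_ne_zero 2

theorem muHE_apply {X : Type*} [EMetricSpace X] [MeasurableSpace X] [BorelSpace X] (s : Set X) :
    μHE[2] s = (kappa : ℝ≥0∞) * μH[(2 : ℝ)] s := by
  rw [Measure.euclideanHausdorffMeasure_def, Measure.smul_apply, ENNReal.smul_def, smul_eq_mul]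
  rfl

theorem muHE_toReal {X : Type*} [EMetricSpace X] [MeasurableSpace X] [BorelSpace X] (s : Set X) :
    (μHE[2] s).toReal = (kappa : ℝ) * (μH[(2 : ℝ)] s).toReal := by
  rw [muHE_apply, ENNReal.toReal_mul]; simp

theorem muH_toReal {X : Type*} [EMetricSpace X] [MeasurableSpace X] [BorelSpace X] (s : Set X) :
    (μH[(2 : ℝ)] s).toReal = (μHE[2] s).toReal / (kappa : ℝ) := by
  rw [muHE_toReal, mul_div_cancel_left₀]
  exact_mod_cast kappa_ne_zero

/-! ### specialisations to `ℝ³`, orthogonal projections -/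

/-- Euclidean 3-space -/
abbrev R3 := EuclideanSpace ℝ (Fin 3)

lemma finrank_R3 : 2 ≤ Module.finrank ℝ R3 := by simp

/-- Area of a triangle in `ℝ³`. -/
theorem area_triangle3 (p q r : R3) :
    μHE[2] (convexHull ℝ {p, q, r}) =
      ENNReal.ofReal (1 / 2 * Real.sqrt (‖q - p‖ ^ 2 * ‖r - p‖ ^ 2 - ⟪q - p, r - p⟫ ^ 2)) :=
  area_triangle finrank_R3 p q r

/-- Area of a parallelogram in `ℝ³`. -/
theorem area_parallelogram3 (c a b : R3) :
    μHE[2] {x : R3 | ∃ s ∈ Set.Icc (0 : ℝ) 1, ∃ t ∈ Set.Icc (0 : ℝ) 1, x = c + s • a + t • b} =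
      ENNReal.ofReal (Real.sqrt (‖a‖ ^ 2 * ‖b‖ ^ 2 - ⟪a, b⟫ ^ 2)) :=
  area_parallelogram finrank_R3 c a b

/-- Area of the image of a planar set in `ℝ³`. -/
theorem area_image3 (c A B : R3) (s : Set R2) :
    μHE[2] ((fun x : R2 => c + x 0 • A + x 1 • B) '' s) =
      ENNReal.ofReal (Real.sqrt (‖A‖ ^ 2 * ‖B‖ ^ 2 - ⟪A, B⟫ ^ 2)) * volume s :=
  area_image finrank_R3 c A B s

/-- The determinant of three vectors of `ℝ³`. -/
noncomputable def det3 (A B C : R3) : ℝ :=
  A 0 * (B 1 * C 2 - B 2 * C 1) - A 1 * (B 0 * C 2 - B 2 * C 0) + A 2 * (B 0 * C 1 - B 1 * C 0)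

/-- Orthogonal projection onto `u^⊥` (`u` a unit vector). -/
noncomputable def proj (u y : R3) : R3 := y - ⟪y, u⟫ • u

lemma proj_add_smul_smul (u c A B : R3) (s t : ℝ) :
    proj u (c + s • A + t • B) = proj u c + s • proj u A + t • proj u B := by
  simp only [proj, inner_add_left, real_inner_smul_left, add_smul, mul_smul, smul_sub]
  abel

lemma inner3 (x y : R3) : ⟪x, y⟫ = x 0 * y 0 + x 1 * y 1 + x 2 * y 2 := by
  simp [PiLp.inner_apply, Fin.sum_univ_three]
  ring

lemma normsq3 (x : R3) : ‖x‖ ^ 2 = x 0 ^ 2 + x 1 ^ 2 + x 2 ^ 2 := by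
  rw [EuclideanSpace.norm_sq_eq, Fin.sum_univ_three]; simp

/-- Gram determinant of projected vectors. -/
lemma gram_proj {u : R3} (hu : ‖u‖ = 1) (A B : R3) :
    ‖proj u A‖ ^ 2 * ‖proj u B‖ ^ 2 - ⟪proj u A, proj u B⟫ ^ 2 = det3 A B u ^ 2 := by
  have hu2 : ⟪u, u⟫ = 1 := by rw [real_inner_self_eq_norm_sq, hu]; norm_num
  have h1 : ∀ X Y : R3, ⟪proj u X, proj u Y⟫ = ⟪X, Y⟫ - ⟪X, u⟫ * ⟪Y, u⟫ := by
    intro X Y
    simp only [proj, inner_sub_left, inner_sub_right, real_inner_smul_left, real_inner_smul_right,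
      hu2, real_inner_comm]
    ring
  rw [← real_inner_self_eq_norm_sq, ← real_inner_self_eq_norm_sq, h1, h1, h1]
  have hu3 : u 0 ^ 2 + u 1 ^ 2 + u 2 ^ 2 = 1 := by
    rw [← normsq3, hu]; norm_num
  simp only [inner3, det3]
  generalize u 0 = u0 at *
  generalize u 1 = u1 at *
  generalize u 2 = u2 at *
  generalize A 0 = a0 at *
  generalize A 1 = a1 at *
  generalize A 2 = a2 at *
  generalize B 0 = b0 at *
  generalize B 1 = b1 at *
  generalize B 2 = b2 at *
  linear_combination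
    (-((a0 ^ 2 + a1 ^ 2 + a2 ^ 2) * (b0 ^ 2 + b1 ^ 2 + b2 ^ 2) - (a0 * b0 + a1 * b1 + a2 * b2) ^ 2)) * hu3

/-- Area of the `u`-projection of an affine image of a planar set. -/
theorem area_proj_image {u : R3} (hu : ‖u‖ = 1) (c A B : R3) (s : Set R2) :
    μHE[2] ((fun x : R2 => proj u (c + x 0 • A + x 1 • B)) '' s) =
      ENNReal.ofReal |det3 A B u| * volume s := by
  have : (fun x : R2 => proj u (c + x 0 • A + x 1 • B)) =
      fun x : R2 => proj u c + x 0 • proj u A + x 1 • proj u B := by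
    funext x; exact proj_add_smul_smul u c A B _ _
  rw [this, area_image3, gram_proj hu, Real.sqrt_sq_eq_abs]

/-- Area of the `u`-projection of a triangle. -/
theorem area_proj_triangle {u : R3} (hu : ‖u‖ = 1) (p q r : R3) :
    μHE[2] (proj u '' convexHull ℝ {p, q, r}) =
      ENNReal.ofReal (1 / 2 * |det3 (q - p) (r - p) u|) := by
  rw [convexHull_triple_eq, Set.image_image, area_proj_image hu, volume_stdTri,
    ← ENNReal.ofReal_mul (abs_nonneg _), mul_comm]

/-- The projected image lies in `u^⊥`. -/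
lemma inner_proj {u : R3} (hu : ‖u‖ = 1) (y : R3) : ⟪proj u y, u⟫ = 0 := by
  simp [proj, inner_sub_left, real_inner_smul_left, hu]

end Crest.Agent.Lib.CylArea
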