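import Crest.Prelude.Def_DaugavetL1
import Crest.Agent.Lib.AUCTree

/-! The Daugavet property gives unit vectors `y` in any closed finite-codimensional subspace with
`‖x + 2 y‖` close to `1`.  We use slices, convexity of the set of "good" images in the finite
dimensional quotient and the Krein-Milman theorem. -/

set_option autoImplicit false

namespace Crest.Agent.Lib.DaugavetKDL

open Crest.AnalysisR Crest.AnalysisR.L1Subspace

section hull

variable {Q : Type*} [NormedAddCommGroup Q] [NormedSpace ℝ Q] [FiniteDimensional ℝ Q]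

/-- Convex hulls of compact sets in finite dimension are compact. -/
theorem isCompact_convexHull_fd {C : Set Q} (hC : IsCompact C) : IsCompact (convexHull ℝ C) := by
  classical
  rcases C.eq_empty_or_nonempty with rfl | ⟨c₀, hc₀⟩
  · simp
  set d := Module.finrank ℝ Q with hd
  let D : Set ((Fin (d + 1) → ℝ) × (Fin (d + 1) → Q)) :=
    stdSimplex ℝ (Fin (d + 1)) ×ˢ Set.pi Set.univ (fun _ => C)
  have hD : IsCompact D := (isCompact_stdSimplex ℝ _).prod (isCompact_univ_pi fun _ => hC)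
  let Φ : ((Fin (d + 1) → ℝ) × (Fin (d + 1) → Q)) → Q := fun p => ∑ i, p.1 i • p.2 i
  have hΦ : Continuous Φ := by
    refine continuous_finsetSum _ fun i _ => ?_
    exact ((continuous_apply i).comp continuous_fst).smul ((continuous_apply i).comp continuous_snd)
  have key : convexHull ℝ C = Φ '' D := by
    apply Set.Subset.antisymm
    · intro x hx
      obtain ⟨ι, _, z, w, hz, hai, hw0, hw1, hx⟩ := eq_pos_convex_span_of_mem_convexHull hx
      have hcard : Fintype.card ι ≤ Fintype.card (Fin (d + 1)) := by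
        have h1 := hai.card_le_finrank_succ
        have h2 : Module.finrank ℝ (vectorSpan ℝ (Set.range z)) ≤ d :=
          Submodule.finrank_le _
        simp only [Fintype.card_fin]
        omega
      obtain ⟨j⟩ := Function.Embedding.nonempty_of_card_le hcard
      let w' : Fin (d + 1) → ℝ := Function.extend j w 0
      let z' : Fin (d + 1) → Q := Function.extend j z (fun _ => c₀)
      refine ⟨(w', z'), ⟨⟨?_, ?_⟩, ?_⟩, ?_⟩
      · intro i
        by_cases hi : ∃ k, j k = i
        · obtain ⟨k, rfl⟩ := hi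
          simp only [w', j.injective.extend_apply]
          exact (hw0 k).le
        · simp only [w', Function.extend_apply' _ _ _ hi]
          simp
      · rw [← hw1]
        symm
        refine Fintype.sum_of_injective j j.injective w w' (fun i hi => ?_) (fun i => ?_)
        · simp only [w']
          rw [Function.extend_apply' _ _ _ (by simpa using hi)]
          simp
        · simp only [w', j.injective.extend_apply]
      · intro i _
        by_cases hi : ∃ k, j k = i
        · obtain ⟨k, rfl⟩ := hi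
          simp only [z', j.injective.extend_apply]
          exact hz ⟨k, rfl⟩
        · simp only [z', Function.extend_apply' _ _ _ hi]
          exact hc₀
      · show ∑ i, w' i • z' i = x
        rw [← hx]
        symm
        refine Fintype.sum_of_injective j j.injective _ _ (fun i hi => ?_) (fun i => ?_)
        · simp only [w']
          rw [Function.extend_apply' _ _ _ (by simpa using hi)]
          simp
        · simp only [w', z', j.injective.extend_apply]
    · rintro _ ⟨⟨w, z⟩, ⟨hw, hz⟩, rfl⟩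
      exact (convex_convexHull ℝ C).sum_mem (fun i _ => hw.1 i) hw.2
        (fun i _ => subset_convexHull ℝ C (hz i (Set.mem_univ i)))
  rw [key]
  exact hD.image hΦ

end hull

section generic

variable {X : Type*} [NormedAddCommGroup X] [NormedSpace ℝ X]

lemma aux_shift {v x : X} {r δ : ℝ} (hr1 : r ≤ 1) (hx : ‖x‖ = 1) (h : 2 - δ < ‖r • x + v‖)
    (hr : 1 - δ < r) : 2 - 2 * δ < ‖x + v‖ := by
  have e : r • x + v = (x + v) + (-(1 - r)) • x := by
    rw [neg_smul, sub_smul, one_smul]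
    abel
  have h1 : ‖r • x + v‖ ≤ ‖x + v‖ + (1 - r) := by
    rw [e]
    refine (norm_add_le _ _).trans ?_
    rw [norm_smul, hx, mul_one, Real.norm_eq_abs, abs_neg, abs_of_nonneg (by linarith)]
  linarith

/-- The basic consequence of the Daugavet property. -/
lemma slice_unit (hD : HasDaugavetProperty X) (φ : StrongDual ℝ X) (hφ : ‖φ‖ = 1) (x : X)
    (hx : ‖x‖ = 1) (ε : ℝ) (hε : 0 < ε) :
    ∃ v : X, ‖v‖ ≤ 1 ∧ 1 - ε < φ v ∧ 2 - ε < ‖x + v‖ := by
  have hT := hD φ x
  rw [ContinuousLinearMap.norm_smulRight_apply, hφ, hx] at hT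
  obtain ⟨u, hu, hTu⟩ := (ContinuousLinearMap.id ℝ X + φ.smulRight x).exists_lt_apply_of_lt_opNorm
    (r := 2 - ε / 2) (by rw [hT]; linarith)
  have he : (ContinuousLinearMap.id ℝ X + φ.smulRight x) u = u + φ u • x := by
    simp
  rw [he] at hTu
  have h1 : |φ u| ≤ ‖u‖ := by
    have := φ.le_opNorm u
    rw [hφ, one_mul, Real.norm_eq_abs] at this
    exact this
  have h2 : ‖u + φ u • x‖ ≤ ‖u‖ + |φ u| := by
    refine (norm_add_le _ _).trans ?_
    rw [norm_smul, hx, mul_one, Real.norm_eq_abs]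
  have h3 : 1 - ε / 2 < |φ u| := by linarith
  rcases le_total 0 (φ u) with h0 | h0
  · rw [abs_of_nonneg h0] at h1 h2 h3
    refine ⟨u, hu.le, by linarith, ?_⟩
    have h4 : 2 - ε / 2 < ‖φ u • x + u‖ := by rwa [add_comm]
    have := aux_shift (by linarith) hx h4 h3
    linarith
  · rw [abs_of_nonpos h0] at h1 h2 h3
    refine ⟨-u, by rw [norm_neg]; exact hu.le, by rw [map_neg]; linarith, ?_⟩
    have h4 : 2 - ε / 2 < ‖(-φ u) • x + (-u)‖ := by
      have e : (-φ u) • x + (-u) = -(u + φ u • x) := by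
        rw [neg_smul]
        abel
      rw [e, norm_neg]
      exact hTu
    have := aux_shift (by linarith) hx h4 h3
    linarith

/-- Slices with arbitrary centre. -/
lemma slice_any (hD : HasDaugavetProperty X) {x₀ : X} (hx₀ : ‖x₀‖ = 1) (φ : StrongDual ℝ X)
    (hφ : ‖φ‖ = 1) (a : X) (ε : ℝ) (hε : 0 < ε) :
    ∃ v : X, ‖v‖ ≤ 1 ∧ 1 - ε < φ v ∧ ‖a‖ + 1 - ε < ‖a + v‖ := by
  by_cases ha : a = 0
  · subst ha
    obtain ⟨v, hv, hv1, -⟩ := slice_unit hD φ hφ x₀ hx₀ ε hε
    refine ⟨v, hv, hv1, ?_⟩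
    have := φ.le_opNorm v
    rw [hφ, one_mul, Real.norm_eq_abs] at this
    have h2 := le_abs_self (φ v)
    simp only [norm_zero, zero_add]
    linarith
  · have hr : 0 < ‖a‖ := norm_pos_iff.mpr ha
    set r := ‖a‖ with hrdef
    set x := (1 / r) • a with hxdef
    have hx : ‖x‖ = 1 := by
      rw [hxdef, norm_smul, Real.norm_eq_abs, abs_of_pos (by positivity), ← hrdef]
      field_simp
    have hax : a = r • x := by
      rw [hxdef, smul_smul]
      field_simp
      simp
    set ε' := ε / (1 + r) with hε'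
    have hε'0 : 0 < ε' := by positivity
    have hε'1 : ε' * (1 + r) = ε := by
      rw [hε']
      field_simp
    obtain ⟨v, hv, hv1, hv2⟩ := slice_unit hD φ hφ x hx ε' hε'0
    have hε'le : ε' ≤ ε := by nlinarith
    refine ⟨v, hv, by linarith, ?_⟩
    rcases le_total 1 r with h1 | h1
    · have e : r • (x + v) = (a + v) + (r - 1) • v := by
        rw [smul_add, ← hax, sub_smul, one_smul]
        abel
      have h2 : r * ‖x + v‖ ≤ ‖a + v‖ + (r - 1) * ‖v‖ := by
        have := congrArg norm e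
        rw [norm_smul, Real.norm_eq_abs, abs_of_pos hr] at this
        rw [this]
        refine (norm_add_le _ _).trans ?_
        rw [norm_smul, Real.norm_eq_abs, abs_of_nonneg (by linarith)]
      have h3 : r * (2 - ε') ≤ r * ‖x + v‖ := mul_le_mul_of_nonneg_left hv2.le hr.le
      have h4 : (r - 1) * ‖v‖ ≤ (r - 1) * 1 := mul_le_mul_of_nonneg_left hv (by linarith)
      nlinarith
    · have e : x + v = (a + v) + (1 - r) • x := by
        rw [sub_smul, one_smul, ← hax]
        abel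
      have h2 : ‖x + v‖ ≤ ‖a + v‖ + (1 - r) := by
        rw [e]
        refine (norm_add_le _ _).trans ?_
        rw [norm_smul, hx, mul_one, Real.norm_eq_abs, abs_of_nonneg (by linarith)]
      linarith

/-- Slices of arbitrary continuous functionals. -/
lemma slice_lemma (hD : HasDaugavetProperty X) {x₀ : X} (hx₀ : ‖x₀‖ = 1) (φ : StrongDual ℝ X)
    (s : ℝ) {v₀ : X} (hv₀ : ‖v₀‖ ≤ 1) (hs : s < φ v₀) (a : X) (ε : ℝ) (hε : 0 < ε) :
    ∃ v : X, ‖v‖ ≤ 1 ∧ s < φ v ∧ ‖a‖ + 1 - ε < ‖a + v‖ := by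
  by_cases hφ : φ = 0
  · subst hφ
    obtain ⟨ψ, hψ, -⟩ := exists_dual_vector ℝ x₀ (by rw [hx₀]; norm_num)
    obtain ⟨v, hv, -, hv2⟩ := slice_any hD hx₀ ψ hψ a ε hε
    exact ⟨v, hv, hs, hv2⟩
  · have hL : 0 < ‖φ‖ := norm_pos_iff.mpr hφ
    set L := ‖φ‖ with hLdef
    have hsL : s < L := by
      have h1 := φ.le_opNorm v₀
      rw [Real.norm_eq_abs] at h1
      have h2 := le_abs_self (φ v₀)
      have h3 : L * ‖v₀‖ ≤ L * 1 := mul_le_mul_of_nonneg_left hv₀ hL.le
      linarith
    set ψ : StrongDual ℝ X := (1 / L) • φ with hψdef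
    have hψ : ‖ψ‖ = 1 := by
      rw [hψdef, norm_smul, Real.norm_eq_abs, abs_of_pos (by positivity), ← hLdef]
      field_simp
    set δ := (L - s) / L with hδ
    have hδ0 : 0 < δ := div_pos (by linarith) hL
    obtain ⟨v, hv, hv1, hv2⟩ := slice_any hD hx₀ ψ hψ a (min ε δ) (lt_min hε hδ0)
    refine ⟨v, hv, ?_, ?_⟩
    · have h1 : 1 - δ < ψ v := by
        have := min_le_right ε δ
        linarith
      have h2 : ψ v = (1 / L) * φ v := by
        rw [hψdef]
        simp
      have h3 : 1 - δ = s / L := by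
        rw [hδ]
        field_simp
        ring
      rw [h2, h3] at h1
      have h4 : s / L * L < 1 / L * φ v * L := mul_lt_mul_of_pos_right h1 hL
      have h5 : s / L * L = s := by field_simp
      have h6 : 1 / L * φ v * L = φ v := by field_simp
      linarith
    · have := min_le_left ε δ
      linarith

lemma scale_good {a v : X} {α ε : ℝ} (hα : 0 < α) (h : ‖(1 / α) • a‖ + 1 - ε < ‖(1 / α) • a + v‖) :
    ‖a‖ + α * (1 - ε) < ‖a + α • v‖ := by
  have e : (1 / α) • a + v = (1 / α) • (a + α • v) := by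
    rw [smul_add, smul_smul]
    have : 1 / α * α = 1 := by field_simp
    rw [this, one_smul]
  rw [e, norm_smul, norm_smul, Real.norm_eq_abs, abs_of_pos (by positivity)] at h
  have h2 := mul_lt_mul_of_pos_left h hα
  have h3 : α * (1 / α * ‖a‖ + 1 - ε) = ‖a‖ + α * (1 - ε) := by
    field_simp
    ring
  have h4 : α * (1 / α * ‖a + α • v‖) = ‖a + α • v‖ := by
    field_simp
  rwa [h3, h4] at h2

variable (S : Submodule ℝ X) [hS : IsClosed (S : Set X)]

/-- The set of good images in the quotient. -/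
def Good : Set (X ⧸ S) :=
  {z | ∀ (a : X) (ε κ : ℝ), 0 < ε → 0 < κ → ∃ v : X, ‖v‖ ≤ 1 ∧ ‖a‖ + 1 - ε < ‖a + v‖ ∧
    ‖(Submodule.Quotient.mk v : X ⧸ S) - z‖ < κ}

lemma good_convex : Convex ℝ (Good S) := by
  intro z₁ h₁ z₂ h₂ α β hα hβ hαβ a ε κ hε hκ
  rcases hα.eq_or_lt with rfl | hα
  · have hβ1 : β = 1 := by linarith
    subst hβ1
    simpa using h₂ a ε κ hε hκ
  rcases hβ.eq_or_lt with rfl | hβ
  · have hα1 : α = 1 := by linarith
    subst hα1
    simpa using h₁ a ε κ hε hκ
  obtain ⟨v₁, hv₁, hv₁a, hv₁z⟩ := h₁ ((1 / α) • a) ε κ hε hκ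
  obtain ⟨v₂, hv₂, hv₂a, hv₂z⟩ := h₂ ((1 / β) • (a + α • v₁)) ε κ hε hκ
  refine ⟨α • v₁ + β • v₂, ?_, ?_, ?_⟩
  · refine (norm_add_le _ _).trans ?_
    rw [norm_smul, norm_smul, Real.norm_eq_abs, Real.norm_eq_abs, abs_of_pos hα, abs_of_pos hβ]
    nlinarith
  · have h1 := scale_good hα hv₁a
    have h2 := scale_good hβ hv₂a
    rw [← add_assoc]
    have h3 : α * (1 - ε) + β * (1 - ε) = 1 - ε := by
      rw [← add_mul, hαβ, one_mul]
    linarith
  · have e : (Submodule.Quotient.mk (α • v₁ + β • v₂) : X ⧸ S) - (α • z₁ + β • z₂)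
        = α • ((Submodule.Quotient.mk v₁ : X ⧸ S) - z₁)
          + β • ((Submodule.Quotient.mk v₂ : X ⧸ S) - z₂) := by
      rw [Submodule.Quotient.mk_add, Submodule.Quotient.mk_smul, Submodule.Quotient.mk_smul,
        smul_sub, smul_sub]
      abel
    rw [e]
    refine (norm_add_le _ _).trans_lt ?_
    rw [norm_smul, norm_smul, Real.norm_eq_abs, Real.norm_eq_abs, abs_of_pos hα, abs_of_pos hβ]
    have h1 := mul_lt_mul_of_pos_left hv₁z hα
    have h2 := mul_lt_mul_of_pos_left hv₂z hβ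
    have h3 : α * κ + β * κ = κ := by
      rw [← add_mul, hαβ, one_mul]
    linarith

lemma good_closed : IsClosed (Good S) := by
  apply isClosed_of_closure_subset
  intro z hz a ε κ hε hκ
  obtain ⟨z', hz', hd⟩ := Metric.mem_closure_iff.mp hz (κ / 2) (by positivity)
  obtain ⟨v, hv, hva, hvz⟩ := hz' a ε (κ / 2) hε (by positivity)
  refine ⟨v, hv, hva, ?_⟩
  rw [dist_eq_norm] at hd
  have e : (Submodule.Quotient.mk v : X ⧸ S) - z
      = ((Submodule.Quotient.mk v : X ⧸ S) - z') + (z' - z) := by abel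
  rw [e]
  refine (norm_add_le _ _).trans_lt ?_
  have : ‖z' - z‖ = ‖z - z'‖ := norm_sub_rev _ _
  linarith

/-- The closure of the image of the unit ball. -/
def KK : Set (X ⧸ S) :=
  closure ((fun v : X => (Submodule.Quotient.mk v : X ⧸ S)) '' Metric.closedBall 0 1)

lemma KK_convex : Convex ℝ (KK S) := by
  have h : Convex ℝ ((fun v : X => (Submodule.Quotient.mk v : X ⧸ S)) '' Metric.closedBall 0 1) :=
    (convex_closedBall (0 : X) 1).linear_image S.mkQ
  exact h.closure

lemma KK_compact [FiniteDimensional ℝ (X ⧸ S)] : IsCompact (KK S) := by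
  haveI : ProperSpace (X ⧸ S) := FiniteDimensional.proper_real _
  refine Metric.isCompact_of_isClosed_isBounded isClosed_closure ?_
  refine (Metric.isBounded_closedBall (x := (0 : X ⧸ S)) (r := 1)).subset ?_
  refine closure_minimal ?_ Metric.isClosed_closedBall
  rintro _ ⟨v, hv, rfl⟩
  rw [mem_closedBall_zero_iff] at hv ⊢
  exact (Submodule.Quotient.norm_mk_le S v).trans hv

/-- Composition of a functional on the quotient with the quotient map. -/
noncomputable def liftF (f : StrongDual ℝ (X ⧸ S)) : StrongDual ℝ X :=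
  LinearMap.mkContinuous (f.toLinearMap.comp S.mkQ) ‖f‖ (by
    intro v
    have h1 := f.le_opNorm (Submodule.Quotient.mk v : X ⧸ S)
    have h2 := Submodule.Quotient.norm_mk_le S v
    exact h1.trans (mul_le_mul_of_nonneg_left h2 (norm_nonneg _)))

lemma liftF_apply (f : StrongDual ℝ (X ⧸ S)) (v : X) :
    liftF S f v = f (Submodule.Quotient.mk v : X ⧸ S) := rfl

lemma extreme_good [FiniteDimensional ℝ (X ⧸ S)] (hD : HasDaugavetProperty X) {x₀ : X}
    (hx₀ : ‖x₀‖ = 1) : (KK S).extremePoints ℝ ⊆ Good S := by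
  intro e he a ε κ hε hκ
  have heK : e ∈ KK S := extremePoints_subset he
  set C : Set (X ⧸ S) := KK S \ Metric.ball e κ with hC
  have hCcomp : IsCompact C := (KK_compact S).diff Metric.isOpen_ball
  have hhull : IsCompact (convexHull ℝ C) := isCompact_convexHull_fd hCcomp
  have he1 := (KK_convex S).mem_extremePoints_iff_mem_sdiff_convexHull_sdiff.mp he
  have heC : e ∉ convexHull ℝ C := by
    intro h
    apply he1.2
    refine convexHull_mono ?_ h
    intro c hc
    refine ⟨hc.1, ?_⟩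
    rintro rfl
    exact hc.2 (Metric.mem_ball_self hκ)
  obtain ⟨f, u, hfC, hue⟩ := geometric_hahn_banach_closed_point (convex_convexHull ℝ C)
    hhull.isClosed heC
  have hopen : IsOpen {z : X ⧸ S | u < f z} := isOpen_lt continuous_const f.continuous
  obtain ⟨_, hz1, ⟨v₀, hv₀, rfl⟩⟩ := mem_closure_iff.mp heK _ hopen hue
  have hv₀' : ‖v₀‖ ≤ 1 := by simpa using hv₀
  obtain ⟨v, hv, hvu, hva⟩ := slice_lemma hD hx₀ (liftF S f) u hv₀' hz1 a ε hε
  refine ⟨v, hv, hva, ?_⟩
  by_contra hcon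
  have h1 : (Submodule.Quotient.mk v : X ⧸ S) ∈ C := by
    refine ⟨subset_closure ⟨v, by simpa using hv, rfl⟩, ?_⟩
    rw [Metric.mem_ball, dist_eq_norm]
    exact hcon
  have h2 := hfC _ (subset_convexHull ℝ C h1)
  rw [liftF_apply] at hvu
  linarith

lemma KK_subset_good [FiniteDimensional ℝ (X ⧸ S)] (hD : HasDaugavetProperty X) {x₀ : X}
    (hx₀ : ‖x₀‖ = 1) : KK S ⊆ Good S := by
  have h := closure_convexHull_extremePoints (KK_compact S) (KK_convex S)
  rw [← h]
  exact closure_minimal (convexHull_min (extreme_good S hD hx₀) (good_convex S)) (good_closed S)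

omit hS in
/-- The key Daugavet lemma. -/
theorem kdl (hD : HasDaugavetProperty X) (S : Submodule ℝ X) (hcl : IsClosed (S : Set X))
    (hfin : FiniteDimensional ℝ (X ⧸ S)) {x : X} (hx : ‖x‖ = 1) {η : ℝ} (hη : 0 < η) :
    ∃ y ∈ S, ‖y‖ = 1 ∧ ‖x + (2 : ℝ) • y‖ ≤ 1 + η := by
  haveI : IsClosed (S : Set X) := hcl
  set η' := min η 1 with hη'
  have hη'0 : 0 < η' := lt_min hη one_pos
  have hη'1 : η' ≤ 1 := min_le_right _ _
  have hη'2 : η' ≤ η := min_le_left _ _
  set κ := η' / 5 with hκ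
  have hκ0 : 0 < κ := by positivity
  have hxK : (Submodule.Quotient.mk x : X ⧸ S) ∈ KK S :=
    subset_closure ⟨x, by simp [hx], rfl⟩
  obtain ⟨v, hv, hva, hvz⟩ := KK_subset_good S hD hx hxK (-x) κ κ hκ0 hκ0
  rw [norm_neg, hx] at hva
  have hvx : -x + v = v - x := by abel
  rw [hvx] at hva
  obtain ⟨m, hm, hm'⟩ := Submodule.Quotient.norm_mk_lt
    ((Submodule.Quotient.mk v : X ⧸ S) - (Submodule.Quotient.mk x : X ⧸ S)) hκ0
  have hwS : (v - x) - m ∈ S := by
    have h1 : (Submodule.Quotient.mk (v - x) : X ⧸ S) = Submodule.Quotient.mk m := by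
      rw [hm, Submodule.Quotient.mk_sub]
    exact (Submodule.Quotient.eq S).mp h1
  set w := (v - x) - m with hw
  have hm2 : ‖m‖ < 2 * κ := by linarith
  have hw1 : ‖v - x‖ - ‖m‖ ≤ ‖w‖ := by
    rw [hw]
    exact norm_sub_norm_le _ _
  have hw2 : ‖w‖ ≤ 2 + ‖m‖ := by
    rw [hw]
    refine (norm_sub_le _ _).trans ?_
    have : ‖v - x‖ ≤ 1 + 1 := (norm_sub_le _ _).trans (by rw [hx]; linarith)
    linarith
  have hwpos : 0 < ‖w‖ := by
    have : κ ≤ 1 / 5 := by rw [hκ]; linarith
    linarith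
  refine ⟨(1 / ‖w‖) • w, S.smul_mem _ hwS, ?_, ?_⟩
  · rw [norm_smul, Real.norm_eq_abs, abs_of_pos (by positivity)]
    field_simp
  · have e : x + (2 : ℝ) • (1 / ‖w‖) • w = (v - m) + (2 / ‖w‖ - 1) • w := by
      rw [smul_smul, sub_smul, one_smul, show (2 : ℝ) * (1 / ‖w‖) = 2 / ‖w‖ by ring]
      have hxe : x = v - m - w := by
        rw [hw]
        abel
      have : ∀ u : X, (v - m - w) + u = (v - m) + (u - w) := by
        intro u
        abel
      rw [← this, ← hxe]
    rw [e]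
    refine (norm_add_le _ _).trans ?_
    have h1 : ‖v - m‖ ≤ 1 + ‖m‖ := (norm_sub_le _ _).trans (by linarith)
    have h2 : ‖(2 / ‖w‖ - 1) • w‖ = |2 - ‖w‖| := by
      rw [norm_smul, Real.norm_eq_abs]
      have : (2 / ‖w‖ - 1) = (2 - ‖w‖) / ‖w‖ := by field_simp
      rw [this, abs_div, abs_of_pos hwpos]
      field_simp
    rw [h2]
    have h3 : |2 - ‖w‖| ≤ 3 * κ := by
      rw [abs_le]
      constructor <;> linarith
    have h4 : 5 * κ = η' := by rw [hκ]; ring
    linarith

end generic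


section inequalities

variable {X : Type*} [NormedAddCommGroup X] [NormedSpace ℝ X]

lemma upper_add {x y : X} {t η : ℝ} (ht : 0 < t) (hx : ‖x‖ = 1) (hy : ‖y‖ = 1) (hη : 0 ≤ η)
    (h : ‖x + (2 : ℝ) • y‖ ≤ 1 + η) : ‖x + t • y‖ ≤ 1 + max 0 (t - 2) + η := by
  rcases le_total t 2 with h2 | h2
  · have e : x + t • y = (1 - t / 2) • x + (t / 2) • (x + (2 : ℝ) • y) := by
      rw [smul_add, smul_smul, sub_smul, one_smul]
      have : t / 2 * 2 = t := by ring
      rw [this]
      abel
    rw [e, max_eq_left (by linarith)]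
    refine (norm_add_le _ _).trans ?_
    rw [norm_smul, norm_smul, hx, Real.norm_eq_abs, Real.norm_eq_abs,
      abs_of_nonneg (by linarith), abs_of_pos (by linarith)]
    nlinarith
  · have e : x + t • y = (x + (2 : ℝ) • y) + (t - 2) • y := by
      rw [sub_smul]
      abel
    rw [e, max_eq_right (by linarith)]
    refine (norm_add_le _ _).trans ?_
    rw [norm_smul, hy, Real.norm_eq_abs, abs_of_nonneg (by linarith)]
    linarith

lemma upper_sub {x y : X} {t : ℝ} (ht : 0 < t) (hx : ‖x‖ = 1) (hy : ‖y‖ = 1) :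
    ‖x - t • y‖ ≤ 1 + t := by
  refine (norm_sub_le _ _).trans ?_
  rw [norm_smul, hy, hx, Real.norm_eq_abs, abs_of_pos ht, mul_one]

end inequalities

section banach

variable (R : RealBanach)

/-- The conclusion of the key Daugavet lemma for a `RealBanach` record. -/
def KDLProp : Prop :=
  letI := R.normed; letI := R.space
  ∀ x : R.X, ‖x‖ = 1 → ∀ F : Set R.X, R.IsCof F → ∀ η : ℝ, 0 < η →
    ∃ y ∈ F, ‖y‖ = 1 ∧ ‖x + (2 : ℝ) • y‖ ≤ 1 + η

lemma kdlProp_of (hD : letI := R.normed; letI := R.space; HasDaugavetProperty R.X) : KDLProp R := by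
  letI := R.normed
  letI := R.space
  rintro x hx F ⟨S, rfl, hcl, hfin⟩ η hη
  exact kdl hD S hcl hfin hx hη

variable {R}

theorem oneSided_le (hK : KDLProp R) (t : ℝ) (ht : 0 < t) :
    R.OneSidedModulusLE R.norm t (max 0 (t - 2)) := by
  letI := R.normed
  letI := R.space
  intro x hx F hF η hη
  obtain ⟨y, hy, hy1, h⟩ := hK x hx F hF η hη
  refine ⟨y, hy, hy1, ?_⟩
  have := upper_add ht hx hy1 hη.le h
  show ‖x + t • y‖ - 1 ≤ max 0 (t - 2) + η
  linarith

theorem midpoint_le (hK : KDLProp R) (t : ℝ) (ht : 0 < t) :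
    R.MidpointModulusLE R.norm t (max (t / 2) (t - 1)) := by
  letI := R.normed
  letI := R.space
  intro x hx F hF η hη
  obtain ⟨y, hy, hy1, h⟩ := hK x hx F hF η hη
  refine ⟨y, hy, hy1, ?_⟩
  have h1 := upper_add ht hx hy1 hη.le h
  have h2 := upper_sub ht hx hy1
  show (‖x + t • y‖ + ‖x - t • y‖) / 2 - 1 ≤ max (t / 2) (t - 1) + η
  rcases le_total t 2 with h3 | h3
  · rw [max_eq_left (by linarith)] at h1
    rw [max_eq_left (by linarith)]
    linarith
  · rw [max_eq_right (by linarith)] at h1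
    rw [max_eq_right (by linarith)]
    linarith

theorem oneSided_ge (t : ℝ) : R.OneSidedModulusGE R.norm t (max 0 (t - 2)) := by
  letI := R.normed
  letI := R.space
  intro x hx η hη
  have hx' : ‖x‖ = 1 := hx
  obtain ⟨φ, hφ, hφx⟩ := exists_dual_vector ℝ x (by rw [hx']; norm_num)
  rw [hx'] at hφx
  refine ⟨{y | ∀ _ : Unit, φ y = 0}, AUCTree.isCof_forall_ker R (fun _ : Unit => φ), ?_⟩
  intro y hy hy1
  have hy1' : ‖y‖ = 1 := hy1
  have hy0 : φ y = 0 := hy ()
  show max 0 (t - 2) - η ≤ ‖x + t • y‖ - 1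
  have h1 : 1 ≤ ‖x + t • y‖ := by
    have h2 := φ.le_opNorm (x + t • y)
    rw [hφ, one_mul, Real.norm_eq_abs, map_add, map_smul, hy0, smul_zero, add_zero, hφx] at h2
    simpa using h2
  have h3 : t - 1 ≤ ‖x + t • y‖ := by
    have h4 : ‖t • y‖ ≤ ‖x + t • y‖ + ‖x‖ := by
      have := norm_sub_le (x + t • y) x
      rwa [add_sub_cancel_left] at this
    rw [norm_smul, hy1', hx', mul_one, Real.norm_eq_abs] at h4
    have := le_abs_self t
    linarith
  have h5 : max 0 (t - 2) ≤ ‖x + t • y‖ - 1 := max_le (by linarith) (by linarith)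
  linarith

theorem midpoint_ge_easy {x y : R.X} {t : ℝ} (ht : 0 < t)
    (hy1 : letI := R.normed; ‖y‖ = 1) :
    letI := R.normed; letI := R.space
    t ≤ (‖x + t • y‖ + ‖x - t • y‖) / 2 := by
  letI := R.normed
  letI := R.space
  have h : ‖(2 * t) • y‖ ≤ ‖x + t • y‖ + ‖x - t • y‖ := by
    have e : (2 * t) • y = (x + t • y) - (x - t • y) := by
      rw [two_mul, add_smul]
      abel
    rw [e]
    exact norm_sub_le _ _
  rw [norm_smul, hy1, mul_one, Real.norm_eq_abs, abs_of_pos (by positivity)] at h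
  linarith

theorem no_auc (hK : KDLProp R) (hne : letI := R.normed; ∃ x₀ : R.X, ‖x₀‖ = 1) (N : R.X → ℝ)
    (hN : R.IsEquivNorm N) : ¬ R.IsAUC N := by
  letI := R.normed
  letI := R.space
  refine AUCTree.no_equiv_auc R 1 1 1 one_pos one_pos ?_ N hN
  intro _
  obtain ⟨x₀, hx₀⟩ := hne
  refine ⟨fun _ => {x | ‖x‖ = 1}, ⟨x₀, hx₀, hx₀.ge⟩, fun j x hx => le_of_eq hx, ?_⟩
  intro j _ x hx F hF ε hε
  have hx1 : ‖x‖ = 1 := hx
  set η := min 1 (ε / 2) with hηdef
  have hη0 : 0 < η := lt_min one_pos (by positivity)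
  have hη1 : η ≤ 1 := min_le_left _ _
  have hη2 : η ≤ ε / 2 := min_le_right _ _
  obtain ⟨y, hy, hy1, h⟩ := hK x hx F hF η hη0
  set w := x + (2 : ℝ) • y with hw
  set r := ‖w‖ with hr
  have hr1 : 1 ≤ r := by
    have h1 : ‖(2 : ℝ) • y‖ ≤ ‖w‖ + ‖x‖ := by
      have e : (2 : ℝ) • y = w - x := by rw [hw]; abel
      rw [e]
      exact norm_sub_le _ _
    rw [norm_smul, hy1, hx1] at h1
    norm_num at h1
    linarith
  have hr0 : 0 < r := by linarith
  have hz : ‖(1 / r) • w‖ = 1 := by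
    rw [norm_smul, Real.norm_eq_abs, abs_of_pos (by positivity), ← hr]
    field_simp
  have hdiff : ‖((1 / r) • w - x) - (2 : ℝ) • y‖ ≤ η := by
    have e : ((1 / r) • w - x) - (2 : ℝ) • y = (1 / r - 1) • w := by
      rw [sub_smul, one_smul, hw]
      abel
    rw [e, norm_smul, Real.norm_eq_abs, ← hr]
    have h1 : |1 / r - 1| = 1 - 1 / r := by
      rw [abs_of_nonpos]
      · ring
      · rw [sub_nonpos, div_le_one hr0]
        exact hr1
    rw [h1]
    have h2 : (1 - 1 / r) * r = r - 1 := by field_simp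
    rw [h2]
    linarith
  refine ⟨(1 / r) • w, hz, ?_, (2 : ℝ) • y, AUCTree.isCof_smul_mem R hF y hy 2, ?_⟩
  · have h1 : ‖(2 : ℝ) • y‖ ≤ ‖((1 / r) • w - x) - (2 : ℝ) • y‖ + ‖(1 / r) • w - x‖ := by
      have := norm_sub_le ((1 / r) • w - x) (((1 / r) • w - x) - (2 : ℝ) • y)
      rw [sub_sub_cancel] at this
      linarith
    have h2 : ‖(2 : ℝ) • y‖ = 2 := by
      rw [norm_smul, hy1]
      norm_num
    linarith
  · linarith

end banach

end Crest.Agent.Lib.DaugavetKDL
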