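import Crest.Prelude.Def_Diamond
import Crest.Agent.Lib.AUCTree

/-! Countably branching diamonds in a Banach space satisfying the key inequality
`√(‖x‖² + ‖y‖²/4) - ε ≤ (‖x + y‖ + ‖x - y‖)/2` on a closed finite-codimensional subspace. -/

set_option autoImplicit false

namespace Crest.Agent.Lib.DiamondKI

open Crest.AnalysisR

/-- The key inequality. -/
def KeyIneq (R : RealBanach) : Prop :=
  letI := R.normed; letI := R.space
  ∀ x : R.X, ∀ ε : ℝ, 0 < ε → ∃ F : Set R.X, R.IsCof F ∧ ∀ y ∈ F,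
    Real.sqrt (‖x‖ ^ 2 + ‖y‖ ^ 2 / 4) - ε ≤ (‖x + y‖ + ‖x - y‖) / 2

/-! ### Graph facts -/

lemma src_ne_tgt : ∀ (k : ℕ) (e : DiamondEdge k), diamondSrc k e ≠ diamondTgt k e
  | 0, _ => by
    show (false : Bool) ≠ true
    simp
  | k + 1, (e, i, b) => by
    cases b
    · show (Sum.inl (diamondSrc k e) : DiamondVertex k ⊕ (DiamondEdge k × ℕ)) ≠ Sum.inr (e, i)
      simp
    · show (Sum.inr (e, i) : DiamondVertex k ⊕ (DiamondEdge k × ℕ)) ≠ Sum.inl (diamondTgt k e)
      simp

lemma adj_edge (k : ℕ) (e : DiamondEdge k) : (diamondGraph k).Adj (diamondSrc k e) (diamondTgt k e) := by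
  rw [diamondGraph, SimpleGraph.fromRel_adj]
  exact ⟨src_ne_tgt k e, Or.inl ⟨e, rfl, rfl⟩⟩

lemma dist_edge (k : ℕ) (e : DiamondEdge k) : diamondDist k (diamondSrc k e) (diamondTgt k e) = 1 :=
  SimpleGraph.dist_eq_one_iff_adj.mpr (adj_edge k e)

section succ

variable {k : ℕ}

/-- Old vertices in `D (k+1)`. -/
abbrev inlV (u : DiamondVertex k) : DiamondVertex (k + 1) :=
  (Sum.inl u : DiamondVertex k ⊕ (DiamondEdge k × ℕ))

/-- New vertices in `D (k+1)`. -/
abbrev inrV (e : DiamondEdge k) (i : ℕ) : DiamondVertex (k + 1) :=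
  (Sum.inr (e, i) : DiamondVertex k ⊕ (DiamondEdge k × ℕ))

/-- The first half edge. -/
abbrev edgeF (e : DiamondEdge k) (i : ℕ) : DiamondEdge (k + 1) := (e, i, false)

/-- The second half edge. -/
abbrev edgeT (e : DiamondEdge k) (i : ℕ) : DiamondEdge (k + 1) := (e, i, true)

lemma src_F (e : DiamondEdge k) (i : ℕ) : diamondSrc (k + 1) (edgeF e i) = inlV (diamondSrc k e) := rfl
lemma tgt_F (e : DiamondEdge k) (i : ℕ) : diamondTgt (k + 1) (edgeF e i) = inrV e i := rfl
lemma src_T (e : DiamondEdge k) (i : ℕ) : diamondSrc (k + 1) (edgeT e i) = inrV e i := rfl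
lemma tgt_T (e : DiamondEdge k) (i : ℕ) : diamondTgt (k + 1) (edgeT e i) = inlV (diamondTgt k e) := rfl

lemma rel_cases {x y : DiamondVertex (k + 1)}
    (h : ∃ e : DiamondEdge (k + 1), diamondSrc (k + 1) e = x ∧ diamondTgt (k + 1) e = y) :
    ∃ (e : DiamondEdge k) (i : ℕ), (x = inlV (diamondSrc k e) ∧ y = inrV e i) ∨
      (x = inrV e i ∧ y = inlV (diamondTgt k e)) := by
  obtain ⟨⟨e, i, b⟩, rfl, rfl⟩ := h
  refine ⟨e, i, ?_⟩
  cases b
  · exact Or.inl ⟨rfl, rfl⟩
  · exact Or.inr ⟨rfl, rfl⟩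

lemma not_adj_inl_inl (u v : DiamondVertex k) : ¬ (diamondGraph (k + 1)).Adj (inlV u) (inlV v) := by
  intro h
  rw [diamondGraph, SimpleGraph.fromRel_adj] at h
  rcases h.2 with h2 | h2
  · obtain ⟨e, i, h3 | h3⟩ := rel_cases h2
    · exact absurd h3.2 (by simp)
    · exact absurd h3.1 (by simp)
  · obtain ⟨e, i, h3 | h3⟩ := rel_cases h2
    · exact absurd h3.2 (by simp)
    · exact absurd h3.1 (by simp)

lemma not_adj_inr_inr (e e' : DiamondEdge k) (i j : ℕ) :
    ¬ (diamondGraph (k + 1)).Adj (inrV e i) (inrV e' j) := by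
  intro h
  rw [diamondGraph, SimpleGraph.fromRel_adj] at h
  rcases h.2 with h2 | h2
  · obtain ⟨e, i, h3 | h3⟩ := rel_cases h2
    · exact absurd h3.1 (by simp)
    · exact absurd h3.2 (by simp)
  · obtain ⟨e, i, h3 | h3⟩ := rel_cases h2
    · exact absurd h3.1 (by simp)
    · exact absurd h3.2 (by simp)

lemma adj_inl_inr {u : DiamondVertex k} {e : DiamondEdge k} {i : ℕ}
    (h : (diamondGraph (k + 1)).Adj (inlV u) (inrV e i)) : u = diamondSrc k e ∨ u = diamondTgt k e := by
  rw [diamondGraph, SimpleGraph.fromRel_adj] at h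
  rcases h.2 with h2 | h2
  · obtain ⟨e', i', h3 | h3⟩ := rel_cases h2
    · have h4 := Sum.inl.inj h3.1
      have h5 := Sum.inr.inj h3.2
      have h6 : e = e' := (Prod.mk.inj h5).1
      subst h6
      exact Or.inl h4
    · exact absurd h3.1 (by simp)
  · obtain ⟨e', i', h3 | h3⟩ := rel_cases h2
    · exact absurd h3.1 (by simp)
    · have h4 := Sum.inl.inj h3.2
      have h5 := Sum.inr.inj h3.1
      have h6 : e = e' := (Prod.mk.inj h5).1
      subst h6
      exact Or.inr h4

lemma adj_of_pair {e : DiamondEdge k} {u u' : DiamondVertex k}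
    (hu : u = diamondSrc k e ∨ u = diamondTgt k e) (hu' : u' = diamondSrc k e ∨ u' = diamondTgt k e)
    (hne : u ≠ u') : (diamondGraph k).Adj u u' := by
  rcases hu with rfl | rfl <;> rcases hu' with rfl | rfl
  · exact absurd rfl hne
  · exact adj_edge k e
  · exact (adj_edge k e).symm
  · exact absurd rfl hne

lemma vertex_cases (w : DiamondVertex (k + 1)) :
    (∃ u, w = inlV u) ∨ ∃ (e : DiamondEdge k) (i : ℕ), w = inrV e i := by
  rcases w with u | ⟨e, i⟩
  · exact Or.inl ⟨u, rfl⟩
  · exact Or.inr ⟨e, i, rfl⟩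

/-- Projection of walks. -/
theorem walk_proj : ∀ (n : ℕ) (a b : DiamondVertex (k + 1)) (p : (diamondGraph (k + 1)).Walk a b),
    p.length ≤ n → ∀ u v : DiamondVertex k, a = inlV u → b = inlV v →
      ∃ q : (diamondGraph k).Walk u v, 2 * q.length ≤ p.length := by
  intro n
  induction n with
  | zero =>
    intro a b p hp u v ha hb
    have : p.length = 0 := by omega
    have hnil := SimpleGraph.Walk.eq_of_length_eq_zero this
    have huv : u = v := by
      have : inlV u = inlV v := by rw [← ha, ← hb, hnil]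
      exact Sum.inl.inj this
    subst huv
    exact ⟨SimpleGraph.Walk.nil, by simp⟩
  | succ n ih =>
    intro a b p hp u v ha hb
    cases p with
    | nil =>
      have huv : u = v := by
        have : inlV u = inlV v := by rw [← ha, ← hb]
        exact Sum.inl.inj this
      subst huv
      exact ⟨SimpleGraph.Walk.nil, by simp⟩
    | @cons _ w _ h p' =>
      have htotal : (SimpleGraph.Walk.cons h p').length = p'.length + 1 := rfl
      rw [htotal] at hp ⊢
      obtain ⟨w₀, hw⟩ | ⟨e, i, hw⟩ := vertex_cases w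
      · exact absurd (by rw [← ha, ← hw]; exact h) (not_adj_inl_inl u w₀)
      · have hu : u = diamondSrc k e ∨ u = diamondTgt k e :=
          adj_inl_inr (i := i) (by rw [← ha, ← hw]; exact h)
        cases p' with
        | nil => exact absurd (hb.symm.trans hw) (by simp)
        | @cons _ w' _ h₂ p'' =>
          have htotal2 : (SimpleGraph.Walk.cons h₂ p'').length = p''.length + 1 := rfl
          rw [htotal2] at hp ⊢
          obtain ⟨u', hw'⟩ | ⟨e', i', hw'⟩ := vertex_cases w'
          · have hu' : u' = diamondSrc k e ∨ u' = diamondTgt k e :=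
              adj_inl_inr (i := i) (by rw [← hw', ← hw]; exact h₂.symm)
            obtain ⟨q, hq⟩ := ih _ _ p'' (by omega) u' v hw' hb
            by_cases hne : u = u'
            · subst hne
              exact ⟨q, by omega⟩
            · refine ⟨SimpleGraph.Walk.cons (adj_of_pair hu hu' hne) q, ?_⟩
              have h3 : (SimpleGraph.Walk.cons (adj_of_pair hu hu' hne) q).length = q.length + 1 := rfl
              rw [h3]
              omega
          · exact absurd (by rw [← hw, ← hw']; exact h₂) (not_adj_inr_inr e e' i i')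

lemma adj_lift {u v : DiamondVertex k} (h : (diamondGraph k).Adj u v) :
    (diamondGraph (k + 1)).Reachable (inlV u) (inlV v) := by
  rw [diamondGraph, SimpleGraph.fromRel_adj] at h
  have key : ∀ e : DiamondEdge k,
      (diamondGraph (k + 1)).Reachable (inlV (diamondSrc k e)) (inlV (diamondTgt k e)) := by
    intro e
    have h1 : (diamondGraph (k + 1)).Adj (inlV (diamondSrc k e)) (inrV e 0) := adj_edge (k + 1) (edgeF e 0)
    have h2 : (diamondGraph (k + 1)).Adj (inrV e 0) (inlV (diamondTgt k e)) := adj_edge (k + 1) (edgeT e 0)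
    exact h1.reachable.trans h2.reachable
  rcases h.2 with ⟨e, rfl, rfl⟩ | ⟨e, rfl, rfl⟩
  · exact key e
  · exact (key e).symm

lemma reachable_lift {u v : DiamondVertex k} (h : (diamondGraph k).Reachable u v) :
    (diamondGraph (k + 1)).Reachable (inlV u) (inlV v) := by
  obtain ⟨p⟩ := h
  induction p with
  | nil => exact SimpleGraph.Reachable.refl _
  | cons hadj _ ih => exact (adj_lift hadj).trans ih

/-- Distances at least double. -/
lemma dist_double (u v : DiamondVertex k) :
    2 * diamondDist k u v ≤ diamondDist (k + 1) (inlV u) (inlV v) := by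
  by_cases h : (diamondGraph k).Reachable u v
  · obtain ⟨p, hp⟩ := (reachable_lift h).exists_walk_length_eq_dist
    obtain ⟨q, hq⟩ := walk_proj _ _ _ p le_rfl u v rfl rfl
    have h1 : diamondDist k u v ≤ q.length := SimpleGraph.dist_le q
    have h2 : diamondDist (k + 1) (inlV u) (inlV v) = p.length := hp.symm
    omega
  · have : diamondDist k u v = 0 := SimpleGraph.dist_eq_zero_of_not_reachable h
    rw [this]
    omega

/-- Distinct midpoints are at distance at least two. -/
lemma dist_mid (e : DiamondEdge k) {i j : ℕ} (hij : i ≠ j) :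
    2 ≤ diamondDist (k + 1) (inrV e i) (inrV e j) := by
  have h1 : (diamondGraph (k + 1)).Adj (inlV (diamondSrc k e)) (inrV e i) := adj_edge (k + 1) (edgeF e i)
  have h2 : (diamondGraph (k + 1)).Adj (inlV (diamondSrc k e)) (inrV e j) := adj_edge (k + 1) (edgeF e j)
  have hr : (diamondGraph (k + 1)).Reachable (inrV e i) (inrV e j) :=
    h1.symm.reachable.trans h2.reachable
  by_contra hlt
  have hd : diamondDist (k + 1) (inrV e i) (inrV e j) = 0 ∨
      diamondDist (k + 1) (inrV e i) (inrV e j) = 1 := by omega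
  rcases hd with hd | hd
  · have := (hr.dist_eq_zero_iff).mp hd
    have h3 : (e, i) = (e, j) := Sum.inr.inj this
    exact hij (Prod.mk.inj h3).2
  · exact not_adj_inr_inr e e i j (SimpleGraph.dist_eq_one_iff_adj.mp hd)

end succ

/-! ### The step in a normed space -/

section normed

variable {X : Type*} [NormedAddCommGroup X] [NormedSpace ℝ X]

/-- Two terms of a bounded sequence are nearly equal modulo a closed finite-codimensional subspace. -/
lemma pigeonhole (S : Submodule ℝ X) (hS : IsClosed (S : Set X)) (hfin : FiniteDimensional ℝ (X ⧸ S))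
    (m : ℕ → X) (a : X) (C : ℝ) (hm : ∀ i, ‖a - m i‖ ≤ C) (τ : ℝ) (hτ : 0 < τ) :
    ∃ i j, i ≠ j ∧ ∃ z ∈ S, ‖(m i - m j) - z‖ < τ := by
  haveI : IsClosed (S : Set X) := hS
  haveI : ProperSpace (X ⧸ S) := FiniteDimensional.proper_real _
  let π : X → X ⧸ S := fun x => Submodule.Quotient.mk x
  have hbdd : ∀ i, π (m i) ∈ Metric.closedBall (π a) C := by
    intro i
    rw [Metric.mem_closedBall, dist_comm, dist_eq_norm]
    have e : π a - π (m i) = π (a - m i) := (Submodule.Quotient.mk_sub S).symm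
    rw [e]
    exact (Submodule.Quotient.norm_mk_le S _).trans (hm i)
  obtain ⟨q, -, φ, hφ, hlim⟩ := tendsto_subseq_of_bounded Metric.isBounded_closedBall hbdd
  obtain ⟨N, hN⟩ := (Metric.tendsto_atTop.mp hlim) (τ / 4) (by positivity)
  have h1 := hN N le_rfl
  have h2 := hN (N + 1) (by omega)
  have hne : φ N ≠ φ (N + 1) := fun h => by
    have := hφ.injective h
    omega
  refine ⟨φ N, φ (N + 1), hne, ?_⟩
  have h3 : ‖π (m (φ N)) - π (m (φ (N + 1)))‖ < τ / 2 := by
    have := dist_triangle_right (π (m (φ N))) (π (m (φ (N + 1)))) q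
    rw [dist_eq_norm] at this
    simp only [Function.comp] at h1 h2
    linarith
  obtain ⟨w, hw, hw'⟩ := Submodule.Quotient.norm_mk_lt (π (m (φ N)) - π (m (φ (N + 1))))
    (show 0 < τ / 2 by positivity)
  have hzS : (m (φ N) - m (φ (N + 1))) - w ∈ S := by
    have h5 : (Submodule.Quotient.mk (m (φ N) - m (φ (N + 1))) : X ⧸ S) = Submodule.Quotient.mk w := by
      rw [hw, Submodule.Quotient.mk_sub]
    exact (Submodule.Quotient.eq S).mp h5
  refine ⟨_, hzS, ?_⟩
  have e : (m (φ N) - m (φ (N + 1))) - ((m (φ N) - m (φ (N + 1))) - w) = w := by abel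
  rw [e]
  linarith

end normed

/-- The induction step. -/
theorem edge_step (R : RealBanach) (hKI : KeyIneq R) :
    letI := R.normed; letI := R.space
    ∀ (a b : R.X) (m : ℕ → R.X) (s Λ : ℝ), 0 < s → (∀ i, ‖a - m i‖ ^ 2 ≤ Λ * s ^ 2) →
      (∀ i, ‖m i - b‖ ^ 2 ≤ Λ * s ^ 2) → (∀ i j, i ≠ j → 2 * s ≤ ‖m i - m j‖) →
      ‖a - b‖ ^ 2 ≤ (Λ - 1 / 4) * (2 * s) ^ 2 := by
  letI := R.normed
  letI := R.space
  intro a b m s Λ hs h1 h2 hsep
  have hnn : 0 ≤ Λ * s ^ 2 := le_trans (by positivity) (h1 0)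
  set L := Real.sqrt (Λ * s ^ 2) with hL
  have hL0 : 0 ≤ L := Real.sqrt_nonneg _
  have hL2 : L ^ 2 = Λ * s ^ 2 := Real.sq_sqrt hnn
  have h1' : ∀ i, ‖a - m i‖ ≤ L := fun i => Real.le_sqrt_of_sq_le (h1 i)
  have h2' : ∀ i, ‖m i - b‖ ≤ L := fun i => Real.le_sqrt_of_sq_le (h2 i)
  set x := b - a with hx
  have hax : ‖a - b‖ = ‖x‖ := by rw [hx, norm_sub_rev]
  have key : ‖x‖ ^ 2 + s ^ 2 ≤ 4 * L ^ 2 := by
    apply le_of_forall_pos_le_add
    intro δ hδ
    set C := s + 8 * L + 4 with hC
    have hC0 : 0 < C := by positivity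
    set τ := min (min 1 s) (δ / C) with hτ
    have hτ0 : 0 < τ := lt_min (lt_min one_pos hs) (by positivity)
    have hτ1 : τ ≤ 1 := (min_le_left _ _).trans (min_le_left _ _)
    have hτs : τ ≤ s := (min_le_left _ _).trans (min_le_right _ _)
    have hτδ : τ * C ≤ δ := by
      have : τ ≤ δ / C := min_le_right _ _
      rwa [le_div_iff₀ hC0] at this
    obtain ⟨F, hF, hFy⟩ := hKI x τ hτ0
    obtain ⟨S, rfl, hcl, hfin⟩ := hF
    obtain ⟨i, j, hij, z, hz, hzn⟩ := pigeonhole S hcl hfin m a L h1' τ hτ0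
    have hy := hsep i j hij
    have hzlow : 2 * s - τ ≤ ‖z‖ := by
      have := norm_sub_le ((m i - m j) - z) (-z)
      have e : (m i - m j) - z - -z = m i - m j := by abel
      rw [e, norm_neg] at this
      linarith
    have hp : ‖x + z‖ ≤ 2 * L + τ := by
      have e : x + z = (m i - a) + (b - m j) + (-((m i - m j) - z)) := by
        rw [hx]
        abel
      rw [e]
      refine (norm_add_le _ _).trans ?_
      rw [norm_neg]
      have h3 : ‖(m i - a) + (b - m j)‖ ≤ L + L := by
        refine (norm_add_le _ _).trans ?_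
        have h4 := h1' i
        have h5 := h2' j
        rw [norm_sub_rev] at h4 h5
        linarith
      linarith
    have hm : ‖x - z‖ ≤ 2 * L + τ := by
      have e : x - z = (m j - a) + (b - m i) + ((m i - m j) - z) := by
        rw [hx]
        abel
      rw [e]
      refine (norm_add_le _ _).trans ?_
      have h3 : ‖(m j - a) + (b - m i)‖ ≤ L + L := by
        refine (norm_add_le _ _).trans ?_
        have h4 := h1' j
        have h5 := h2' i
        rw [norm_sub_rev] at h4 h5
        linarith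
      linarith
    have hk := hFy z hz
    have hsq : Real.sqrt (‖x‖ ^ 2 + ‖z‖ ^ 2 / 4) ≤ 2 * L + 2 * τ := by linarith
    have hsq2 : ‖x‖ ^ 2 + ‖z‖ ^ 2 / 4 ≤ (2 * L + 2 * τ) ^ 2 :=
      (Real.sqrt_le_left (by positivity)).mp hsq
    have hz2 : (2 * s - τ) ^ 2 ≤ ‖z‖ ^ 2 :=
      pow_le_pow_left₀ (by linarith) hzlow 2
    have h6 : τ * τ ≤ τ * 1 := mul_le_mul_of_nonneg_left hτ1 hτ0.le
    have h7 : 0 ≤ L * τ := by positivity
    nlinarith
  rw [hax]
  have : (Λ - 1 / 4) * (2 * s) ^ 2 = 4 * L ^ 2 - s ^ 2 := by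
    rw [hL2]
    ring
  rw [this]
  linarith

theorem diamond_aux (R : RealBanach) (hKI : KeyIneq R) :
    letI := R.normed
    ∀ (k : ℕ) (f : DiamondVertex k → R.X) (Λ s : ℝ), 0 < s →
      (∀ u v, s * (diamondDist k u v : ℝ) ≤ ‖f u - f v‖) →
      (∀ e, ‖f (diamondSrc k e) - f (diamondTgt k e)‖ ^ 2 ≤ Λ * s ^ 2) →
      1 + (k : ℝ) / 4 ≤ Λ := by
  letI := R.normed
  letI := R.space
  intro k
  induction k with
  | zero =>
    intro f Λ s hs hlow hup
    have h1 := hlow (diamondSrc 0 ()) (diamondTgt 0 ())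
    rw [dist_edge] at h1
    have h2 := hup ()
    simp only [Nat.cast_one, mul_one] at h1
    have h3 : s ^ 2 ≤ ‖f (diamondSrc 0 ()) - f (diamondTgt 0 ())‖ ^ 2 :=
      pow_le_pow_left₀ hs.le h1 2
    have h4 : s ^ 2 * 1 ≤ s ^ 2 * Λ := by nlinarith
    have h5 := le_of_mul_le_mul_left h4 (by positivity)
    simpa using h5
  | succ k ih =>
    intro f Λ s hs hlow hup
    have := ih (fun u => f (inlV u)) (Λ - 1 / 4) (2 * s) (by positivity) (by
      intro u v
      have h1 := hlow (inlV u) (inlV v)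
      have h2 : (2 * diamondDist k u v : ℝ) ≤ (diamondDist (k + 1) (inlV u) (inlV v) : ℝ) := by
        exact_mod_cast dist_double u v
      calc 2 * s * (diamondDist k u v : ℝ) = s * (2 * diamondDist k u v) := by ring
        _ ≤ s * (diamondDist (k + 1) (inlV u) (inlV v) : ℝ) :=
            mul_le_mul_of_nonneg_left h2 hs.le
        _ ≤ _ := h1) (by
      intro e
      refine edge_step R hKI (f (inlV (diamondSrc k e))) (f (inlV (diamondTgt k e)))
        (fun i => f (inrV e i)) s Λ hs ?_ ?_ ?_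
      · intro i
        exact hup (edgeF e i)
      · intro i
        exact hup (edgeT e i)
      · intro i j hij
        have h1 := hlow (inrV e i) (inrV e j)
        have h2 : (2 : ℝ) ≤ (diamondDist (k + 1) (inrV e i) (inrV e j) : ℝ) := by
          exact_mod_cast dist_mid e hij
        have h3 : s * 2 ≤ s * (diamondDist (k + 1) (inrV e i) (inrV e j) : ℝ) :=
          mul_le_mul_of_nonneg_left h2 hs.le
        linarith)
    push_cast
    linarith

/-- Distortion of diamonds in a space satisfying the key inequality. -/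
theorem diamond_bound (R : RealBanach) (hKI : KeyIneq R) (k : ℕ) (f : DiamondVertex k → R.X) (D : ℝ)
    (h : R.HasDistortionLE k f D) : 1 + (k : ℝ) / 4 ≤ D ^ 2 := by
  letI := R.normed
  obtain ⟨s, hs, hf⟩ := h
  refine diamond_aux R hKI k f (D ^ 2) s hs (fun u v => (hf u v).1) ?_
  intro e
  have h1 := (hf (diamondSrc k e) (diamondTgt k e)).2
  rw [dist_edge] at h1
  simp only [Nat.cast_one, mul_one] at h1
  have h2 : ‖f (diamondSrc k e) - f (diamondTgt k e)‖ ^ 2 ≤ (D * s) ^ 2 :=
    pow_le_pow_left₀ (norm_nonneg _) h1 2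
  rw [mul_pow] at h2
  exact h2

end Crest.Agent.Lib.DiamondKI
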