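import Crest.Agent.Lib.FiidCauchy

/-!
# Extracting noise from labels
-/

set_option autoImplicit false

namespace Crest.Agent.Lib.FiidNoise

open MeasureTheory Set
open scoped unitInterval
open Crest.Agent.Lib.FiidPlanted Crest.Agent.Lib.FiidRun Crest.Agent.Lib.FiidCauchy

/-- A measurable map from a uniform variable to an i.i.d. sequence of uniform variables. -/
theorem exists_splitter : ∃ ρ : I → (ℕ → I), Measurable ρ ∧ (volume : Measure I).map ρ = Lam ℕ :=
  Measure.exists_measurable_map_eq (Lam ℕ)

/-- The chosen splitter. -/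
noncomputable def rho : I → ℕ → I := Classical.choose exists_splitter

lemma measurable_rho : Measurable rho := (Classical.choose_spec exists_splitter).1

lemma map_rho : (volume : Measure I).map rho = Lam ℕ := (Classical.choose_spec exists_splitter).2

/-- All the streams of a family of labels. -/
noncomputable def streams {J : Type*} (x : J → I) : J × ℕ → I := fun c => rho (x c.1) c.2

lemma measurable_streams {J : Type*} : Measurable (streams (J := J)) := by
  rw [measurable_pi_iff]
  rintro ⟨j, n⟩
  exact (measurable_pi_apply n).comp (measurable_rho.comp (measurable_pi_apply j))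

theorem map_streams (J : Type*) : (Lam J).map streams = Lam (J × ℕ) := by
  have h1 : (Lam J).map (fun x j => rho (x j)) =
      Measure.infinitePi (fun _ : J => Measure.infinitePi (fun _ : ℕ => (volume : Measure I))) := by
    unfold Lam
    rw [Measure.infinitePi_map_pi (fun _ : J => (volume : Measure I)) (fun _ : J => measurable_rho)]
    congr 1
    funext j
    rw [map_rho]
    rfl
  have h2 := Measure.infinitePi_map_curry_symm (X := I) (fun (_ : J) (_ : ℕ) => (volume : Measure I))
  have h3 : streams (J := J) =
      (MeasurableEquiv.curry J ℕ I).symm ∘ (fun (x : J → I) (j : J) => rho (x j)) := by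
    funext x c
    rfl
  have hm : Measurable (fun (x : J → I) (j : J) => rho (x j)) := by
    rw [measurable_pi_iff]
    intro j
    exact measurable_rho.comp (measurable_pi_apply j)
  rw [h3, ← Measure.map_map (MeasurableEquiv.measurable _) hm, h1, h2]
  rfl

/-- Reading the coordinates along an injective map keeps the law. -/
theorem map_comp_injective {J J' : Type*} (κ : J' → J) (hκ : Function.Injective κ) :
    (Lam J).map (fun z : J → I => z ∘ κ) = Lam J' := by
  classical
  have hm : Measurable (fun z : J → I => z ∘ κ) := by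
    rw [measurable_pi_iff]
    intro j
    exact measurable_pi_apply (κ j)
  unfold Lam
  refine Measure.eq_infinitePi _ fun s t ht => ?_
  rw [Measure.map_apply hm (MeasurableSet.pi s.countable_toSet fun i _ => ht i)]
  let t' : J → Set I := Function.extend κ t (fun _ => univ)
  have ht' : ∀ j, MeasurableSet (t' j) := by
    intro j
    by_cases h : ∃ i, κ i = j
    · obtain ⟨i, rfl⟩ := h
      simp only [t']
      rw [hκ.extend_apply]
      exact ht i
    · simp only [t']
      rw [Function.extend_apply' _ _ _ h]
      exact MeasurableSet.univ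
  have hpre : (fun z : J → I => z ∘ κ) ⁻¹' (s : Set J').pi t =
      ((s.image κ : Finset J) : Set J).pi t' := by
    ext z
    simp only [mem_preimage, mem_pi, Finset.mem_coe, Function.comp_apply, Finset.mem_image,
      forall_exists_index, and_imp]
    constructor
    · rintro h j i hi rfl
      simp only [t']
      rw [hκ.extend_apply]
      exact h i hi
    · intro h i hi
      have := h (κ i) i hi rfl
      simp only [t'] at this
      rwa [hκ.extend_apply] at this
  rw [hpre, Measure.infinitePi_pi _ (fun j _ => ht' j), Finset.prod_image (fun a _ b _ h => hκ h)]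
  refine Finset.prod_congr rfl fun i _ => ?_
  simp only [t']
  rw [hκ.extend_apply]

/-- Independent pieces of a product. -/
theorem map_sum_split (A B : Type*) :
    (Lam (A ⊕ B)).map (fun z => (z ∘ Sum.inl, z ∘ Sum.inr)) = (Lam A).prod (Lam B) := by
  classical
  have hmS : Measurable (fun z : A ⊕ B → I => (z ∘ Sum.inl, z ∘ Sum.inr)) := by
    refine Measurable.prodMk ?_ ?_
    · rw [measurable_pi_iff]; intro j; exact measurable_pi_apply (Sum.inl j)
    · rw [measurable_pi_iff]; intro j; exact measurable_pi_apply (Sum.inr j)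
  have hmE : Measurable (fun p : (A → I) × (B → I) => (Sum.elim p.1 p.2 : A ⊕ B → I)) := by
    rw [measurable_pi_iff]
    rintro (a | b)
    · exact (measurable_pi_apply a).comp measurable_fst
    · exact (measurable_pi_apply b).comp measurable_snd
  have key : ((Lam A).prod (Lam B)).map (fun p : (A → I) × (B → I) => (Sum.elim p.1 p.2 : A ⊕ B → I))
      = Lam (A ⊕ B) := by
    unfold Lam
    refine Measure.eq_infinitePi _ fun s t ht => ?_
    rw [Measure.map_apply hmE (MeasurableSet.pi s.countable_toSet fun i _ => ht i)]
    let sA : Finset A := s.preimage Sum.inl Sum.inl_injective.injOn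
    let sB : Finset B := s.preimage Sum.inr Sum.inr_injective.injOn
    have hpre : (fun p : (A → I) × (B → I) => (Sum.elim p.1 p.2 : A ⊕ B → I)) ⁻¹' (s : Set (A ⊕ B)).pi t
        = ((sA : Set A).pi (fun a => t (Sum.inl a))) ×ˢ ((sB : Set B).pi (fun b => t (Sum.inr b))) := by
      ext ⟨p, q⟩
      simp only [mem_preimage, mem_pi, Finset.mem_coe, mem_prod, sA, sB, Finset.mem_preimage]
      constructor
      · intro h
        exact ⟨fun a ha => h (Sum.inl a) ha, fun b hb => h (Sum.inr b) hb⟩
      · rintro ⟨h1, h2⟩ (a | b) hi
        · exact h1 a hi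
        · exact h2 b hi
    rw [hpre, Measure.prod_prod, Measure.infinitePi_pi _ (fun a _ => ht _),
      Measure.infinitePi_pi _ (fun b _ => ht _)]
    have hs : s = sA.disjSum sB := by
      ext (a | b) <;> simp [sA, sB]
    conv_rhs => rw [hs]
    rw [Finset.prod_disjSum]
  rw [← key, Measure.map_map hmS hmE]
  have : (fun z : A ⊕ B → I => (z ∘ Sum.inl, z ∘ Sum.inr)) ∘
      (fun p : (A → I) × (B → I) => (Sum.elim p.1 p.2 : A ⊕ B → I)) = id := by
    funext ⟨p, q⟩
    rfl
  rw [this, Measure.map_id]

/-- Noise from labels on a single type of sites. -/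
noncomputable def split {Γ : Type*} (x : Γ → I) : Xi Γ :=
  (fun g => rho (x g) 0, fun c => rho (x c.1) (c.2 + 1))

lemma measurable_split {Γ : Type*} : Measurable (split (Γ := Γ)) := by
  refine Measurable.prodMk ?_ ?_
  · rw [measurable_pi_iff]
    intro g
    exact (measurable_pi_apply 0).comp (measurable_rho.comp (measurable_pi_apply g))
  · rw [measurable_pi_iff]
    rintro ⟨g, n⟩
    exact (measurable_pi_apply (n + 1)).comp (measurable_rho.comp (measurable_pi_apply g))

theorem map_split (Γ : Type*) : (Lam Γ).map split = PXi Γ := by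
  let κ : Γ ⊕ (Γ × ℕ) → Γ × ℕ := Sum.elim (fun g => (g, 0)) (fun c => (c.1, c.2 + 1))
  have hκ : Function.Injective κ := by
    rintro (a | ⟨a, n⟩) (b | ⟨b, m⟩) h <;> simp_all [κ]
  have hm1 : Measurable (fun z : Γ × ℕ → I => z ∘ κ) := by
    rw [measurable_pi_iff]
    intro j
    exact measurable_pi_apply (κ j)
  have hmS : Measurable (fun z : Γ ⊕ (Γ × ℕ) → I => (z ∘ Sum.inl, z ∘ Sum.inr)) := by
    refine Measurable.prodMk ?_ ?_
    · rw [measurable_pi_iff]; intro j; exact measurable_pi_apply (Sum.inl j)
    · rw [measurable_pi_iff]; intro j; exact measurable_pi_apply (Sum.inr j)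
  unfold PXi
  rw [← map_sum_split, ← map_comp_injective κ hκ, ← map_streams,
    Measure.map_map hm1 measurable_streams, Measure.map_map hmS (hm1.comp measurable_streams)]
  rfl

/-- Restricting noise to a set of sites. -/
def resXi {ι : Type*} (E : Set ι) (q : Xi ι) : Xi ↥E :=
  (fun e => q.1 e, fun c => q.2 (c.1, c.2))

lemma measurable_resXi {ι : Type*} (E : Set ι) : Measurable (resXi E) := by
  refine Measurable.prodMk ?_ ?_
  · rw [measurable_pi_iff]
    intro e
    exact (measurable_pi_apply (e : ι)).comp measurable_fst
  · rw [measurable_pi_iff]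
    intro c
    exact (measurable_pi_apply ((c.1 : ι), c.2)).comp measurable_snd

theorem map_resXi {ι : Type*} (E : Set ι) : (PXi ι).map (resXi E) = PXi ↥E := by
  have hm1 : Measurable (fun z : ι → I => z ∘ (Subtype.val : E → ι)) := by
    rw [measurable_pi_iff]
    intro j
    exact measurable_pi_apply _
  let κ : ↥E × ℕ → ι × ℕ := fun c => ((c.1 : ι), c.2)
  have hκ : Function.Injective κ := by
    rintro ⟨⟨a, ha⟩, n⟩ ⟨⟨b, hb⟩, m⟩ h
    simp_all [κ]
  have hm2 : Measurable (fun z : ι × ℕ → I => z ∘ κ) := by
    rw [measurable_pi_iff]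
    intro j
    exact measurable_pi_apply _
  unfold PXi
  conv_rhs => rw [← map_comp_injective (Subtype.val : E → ι) Subtype.val_injective,
    ← map_comp_injective κ hκ]
  rw [Measure.map_prod_map _ _ hm1 hm2]
  rfl

/-- Relabelling noise. -/
def relabelXi {ι : Type*} (e : ι ≃ ι) (q : Xi ι) : Xi ι := (q.1 ∘ e.symm, reField e q.2)

lemma measurable_relabelXi {ι : Type*} (e : ι ≃ ι) : Measurable (relabelXi e) := by
  refine Measurable.prodMk ?_ ?_
  · rw [measurable_pi_iff]
    intro j
    exact (measurable_pi_apply (e.symm j)).comp measurable_fst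
  · rw [measurable_pi_iff]
    intro c
    exact (measurable_pi_apply (e.symm c.1, c.2)).comp measurable_snd

theorem map_relabelXi {ι : Type*} (e : ι ≃ ι) : (PXi ι).map (relabelXi e) = PXi ι := by
  have hm1 : Measurable (fun z : ι → I => z ∘ e.symm) := by
    rw [measurable_pi_iff]
    intro j
    exact measurable_pi_apply _
  let κ : ι × ℕ → ι × ℕ := fun c => (e.symm c.1, c.2)
  have hκ : Function.Injective κ := by
    rintro ⟨a, n⟩ ⟨b, m⟩ h
    simp_all [κ]
  have hm2 : Measurable (fun z : ι × ℕ → I => z ∘ κ) := by
    rw [measurable_pi_iff]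
    intro j
    exact measurable_pi_apply _
  unfold PXi
  conv_rhs => rw [← map_comp_injective (e.symm : ι → ι) e.symm.injective,
    ← map_comp_injective κ hκ]
  rw [Measure.map_prod_map _ _ hm1 hm2]
  rfl

/-- The permutation of unordered pairs induced by a permutation. -/
def symEquiv (p : Equiv.Perm ℕ) : Sym2 ℕ ≃ Sym2 ℕ where
  toFun := Sym2.map p
  invFun := Sym2.map p.symm
  left_inv e := by rw [Sym2.map_map]; simp [Sym2.map_id']
  right_inv e := by rw [Sym2.map_map]; simp [Sym2.map_id']

@[simp] lemma symEquiv_apply (p : Equiv.Perm ℕ) (e : Sym2 ℕ) : symEquiv p e = Sym2.map p e := rfl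

end Crest.Agent.Lib.FiidNoise
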