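import Crest.Agent.Lib.FiidRayleighMono
import Crest.Agent.Lib.FiidNoise
import Crest.Prelude.Def_GraphTables

/-!
# Balls in graphs, and the tilted means of the free uniform spanning forest as a rule on graphs

All definitions make sense for every graph on `ℕ`, are canonical (commute with relabelling) and measurable in the
adjacency table.
-/

set_option autoImplicit false

namespace Crest.Agent.Lib.FiidBall

open MeasureTheory
open Crest.ProbabilityR.SpanningTrees Crest.ProbabilityR.GraphTables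
open Crest.Agent.Lib.FiidStablePoly Crest.Agent.Lib.FiidKirchhoff Crest.Agent.Lib.FiidRun
  Crest.Agent.Lib.FiidNoise

/-- The vertices within distance `n` of the endpoints of `W`. -/
def ballSet (G : SimpleGraph ℕ) (W : Finset (Sym2 ℕ)) : ℕ → Set ℕ
  | 0 => {v | ∃ e ∈ W, v ∈ e}
  | n + 1 => ballSet G W n ∪ {v | ∃ u ∈ ballSet G W n, G.Adj u v}

open Classical in
/-- The ball as a finite set (empty if it is not finite). -/
noncomputable def ball (G : SimpleGraph ℕ) (W : Finset (Sym2 ℕ)) (n : ℕ) : Finset ℕ :=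
  if h : (ballSet G W n).Finite then h.toFinset else ∅

/-- The finite sets of sites used by the rule at a site `e`. -/
noncomputable def Fs (G : SimpleGraph ℕ) (e : Sym2 ℕ) (n : ℕ) : Finset (Sym2 ℕ) :=
  edgesIn G (ball G {e} n)

open Classical in
/-- Cutting a tilt to a finite set. -/
noncomputable def cutTilt (W : Finset (Sym2 ℕ)) (h : Sym2 ℕ → ℝ) : Sym2 ℕ → ℝ :=
  fun u => if u ∈ W then h u else 0

/-- The tilted means of the limit of the uniform spanning trees of the balls. -/
noncomputable def fusfOracle (G : SimpleGraph ℕ) : Oracle (Sym2 ℕ) := fun W h v =>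
  Filter.limsup (fun n => tiltMean (edgesIn G (ball G W n)) (treeCoeff G (ball G W n)) (cutTilt W h) v)
    Filter.atTop

section good

variable {G : SimpleGraph ℕ}

theorem finite_ballSet (hl : ∀ v, (G.neighborSet v).Finite) (W : Finset (Sym2 ℕ)) (n : ℕ) :
    (ballSet G W n).Finite := by
  induction n with
  | zero =>
    have : ballSet G W 0 = ⋃ e ∈ W, {v | v ∈ e} := by
      ext v
      simp [ballSet]
    rw [this]
    refine W.finite_toSet.biUnion fun e _ => ?_
    induction e using Sym2.ind with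
    | _ a b =>
      have : {v | v ∈ s(a, b)} = ({a, b} : Set ℕ) := by
        ext v
        simp
      rw [this]
      exact Set.toFinite _
  | succ n ih =>
    have : ballSet G W (n + 1) = ballSet G W n ∪ ⋃ u ∈ ballSet G W n, G.neighborSet u := by
      ext v
      simp [ballSet, SimpleGraph.mem_neighborSet]
    rw [this]
    exact ih.union (ih.biUnion fun u _ => hl u)

theorem mem_ball (hl : ∀ v, (G.neighborSet v).Finite) (W : Finset (Sym2 ℕ)) (n v : ℕ) :
    v ∈ ball G W n ↔ v ∈ ballSet G W n := by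
  unfold ball
  rw [dif_pos (finite_ballSet hl W n)]
  simp

theorem coe_ball (hl : ∀ v, (G.neighborSet v).Finite) (W : Finset (Sym2 ℕ)) (n : ℕ) :
    (ball G W n : Set ℕ) = ballSet G W n := by
  ext v
  simpa using mem_ball hl W n v

theorem ballSet_succ_subset (W : Finset (Sym2 ℕ)) (n : ℕ) : ballSet G W n ⊆ ballSet G W (n + 1) :=
  fun _ hv => Or.inl hv

theorem ballSet_mono (W : Finset (Sym2 ℕ)) : Monotone (ballSet G W) :=
  monotone_nat_of_le_succ (ballSet_succ_subset W)

theorem ball_mono (hl : ∀ v, (G.neighborSet v).Finite) (W : Finset (Sym2 ℕ)) : Monotone (ball G W) := by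
  intro m n hmn v hv
  rw [mem_ball hl] at hv ⊢
  exact ballSet_mono W hmn hv

/-- `a` and `b` are connected inside `T`. -/
def ConnIn (G : SimpleGraph ℕ) (T : Set ℕ) (a b : ℕ) : Prop :=
  ∃ (ha : a ∈ T) (hb : b ∈ T), (G.induce T).Reachable ⟨a, ha⟩ ⟨b, hb⟩

theorem ConnIn.mono {T T' : Set ℕ} (h : T ⊆ T') {a b : ℕ} (hc : ConnIn G T a b) : ConnIn G T' a b := by
  obtain ⟨ha, hb, hr⟩ := hc
  refine ⟨h ha, h hb, ?_⟩
  exact hr.map (SimpleGraph.induceHomOfLE G h).toHom

theorem ConnIn.trans {T : Set ℕ} {a b c : ℕ} (h₁ : ConnIn G T a b) (h₂ : ConnIn G T b c) :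
    ConnIn G T a c := by
  obtain ⟨ha, hb, hr⟩ := h₁
  obtain ⟨_, hc, hr'⟩ := h₂
  exact ⟨ha, hc, hr.trans hr'⟩

theorem ConnIn.refl {T : Set ℕ} {a : ℕ} (ha : a ∈ T) : ConnIn G T a a := ⟨ha, ha, .refl _⟩

theorem connIn_walk (W : Finset (Sym2 ℕ)) {u v : ℕ} (p : G.Walk u v) (m : ℕ)
    (hu : u ∈ ballSet G W m) : ConnIn G (ballSet G W (m + p.length)) u v := by
  induction p generalizing m with
  | nil => exact ConnIn.refl (by simpa using hu)
  | @cons a b c hab p ih =>
    have hb : b ∈ ballSet G W (m + 1) := Or.inr ⟨a, hu, hab⟩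
    have h1 := ih (m + 1) hb
    have e : m + (SimpleGraph.Walk.cons hab p).length = m + 1 + p.length := by
      simp only [SimpleGraph.Walk.length_cons]
      ring
    rw [e]
    refine ConnIn.trans ?_ h1
    have hsub : ballSet G W (m + 1) ⊆ ballSet G W (m + 1 + p.length) :=
      ballSet_mono W (Nat.le_add_right _ _)
    refine ConnIn.mono hsub ⟨ballSet_succ_subset W m hu, hb, ?_⟩
    exact SimpleGraph.Adj.reachable hab

theorem connIn_base (W : Finset (Sym2 ℕ)) (n : ℕ) {x : ℕ} (hx : x ∈ ballSet G W n) :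
    ∃ u ∈ ballSet G W 0, ConnIn G (ballSet G W n) u x := by
  induction n generalizing x with
  | zero => exact ⟨x, hx, ConnIn.refl hx⟩
  | succ n ih =>
    rcases hx with hx | ⟨u, hu, hadj⟩
    · obtain ⟨u, hu, hc⟩ := ih hx
      exact ⟨u, hu, hc.mono (ballSet_succ_subset W n)⟩
    · obtain ⟨w, hw, hc⟩ := ih hu
      refine ⟨w, hw, (hc.mono (ballSet_succ_subset W n)).trans ?_⟩
      refine ⟨ballSet_succ_subset W n hu, Or.inr ⟨u, hu, hadj⟩, ?_⟩
      exact SimpleGraph.Adj.reachable hadj

theorem ball_exhaust (hc : G.Connected) (hl : ∀ v, (G.neighborSet v).Finite) {W : Finset (Sym2 ℕ)}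
    (hW : W.Nonempty) (v : ℕ) : ∃ n, v ∈ ball G W n := by
  obtain ⟨e, he⟩ := hW
  induction e using Sym2.ind with
  | _ a b =>
    have ha : a ∈ ballSet G W 0 := ⟨s(a, b), he, by simp⟩
    obtain ⟨p⟩ := hc.preconnected a v
    have h1 := connIn_walk W p 0 ha
    refine ⟨0 + p.length, ?_⟩
    rw [mem_ball hl]
    exact h1.2.1

theorem ball_connected (hc : G.Connected) (hl : ∀ v, (G.neighborSet v).Finite) {W : Finset (Sym2 ℕ)}
    (hW : W.Nonempty) : ∃ n₀, ∀ n ≥ n₀, (G.induce (ball G W n : Set ℕ)).Connected := by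
  obtain ⟨e, he⟩ := hW
  induction e using Sym2.ind with
  | _ a b =>
    have ha : a ∈ ballSet G W 0 := ⟨s(a, b), he, by simp⟩
    -- each base point reaches `a`
    have hreach : ∀ u : ℕ, ∃ ℓ : ℕ, ∀ n ≥ ℓ, u ∈ ballSet G W 0 → ConnIn G (ballSet G W n) u a := by
      intro u
      by_cases hu : u ∈ ballSet G W 0
      · obtain ⟨p⟩ := hc.preconnected u a
        refine ⟨0 + p.length, fun n hn _ => ?_⟩
        exact (connIn_walk W p 0 hu).mono (ballSet_mono W hn)
      · exact ⟨0, fun _ _ h => absurd h hu⟩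
    choose ℓ hℓ using hreach
    have hfin := (finite_ballSet hl W 0).toFinset
    refine ⟨(finite_ballSet hl W 0).toFinset.sup ℓ, fun n hn => ?_⟩
    rw [coe_ball hl]
    have hrep : ∀ x, x ∈ ballSet G W n → ConnIn G (ballSet G W n) x a := by
      intro x hx
      obtain ⟨u, hu, hcu⟩ := connIn_base W n hx
      have h1 : ℓ u ≤ n :=
        (Finset.le_sup (f := ℓ) ((finite_ballSet hl W 0).mem_toFinset.2 hu)).trans hn
      have h2 := hℓ u n h1 hu
      obtain ⟨hu', hx', hr⟩ := hcu
      exact ⟨hx, h2.2.1, hr.symm.trans h2.choose_spec.choose_spec⟩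
    have haN : a ∈ ballSet G W n := ballSet_mono W (Nat.zero_le n) ha
    have : Nonempty ↥(ballSet G W n) := ⟨⟨a, haN⟩⟩
    refine ⟨fun x y => ?_⟩
    obtain ⟨_, _, h1⟩ := hrep x.1 x.2
    obtain ⟨_, _, h2⟩ := hrep y.1 y.2
    exact h1.trans h2.symm

theorem mem_edgesIn' {S : Finset ℕ} {x : Sym2 ℕ} : x ∈ edgesIn G S ↔ x ∈ S.sym2 ∧ x ∈ G.edgeSet := by
  classical
  rw [edgesIn, Finset.mem_filter]

theorem Fs_subset (e : Sym2 ℕ) (n : ℕ) : (Fs G e n : Set (Sym2 ℕ)) ⊆ G.edgeSet := by
  intro x hx
  exact (mem_edgesIn'.1 hx).2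

theorem mem_edgesIn {S : Finset ℕ} {a b : ℕ} :
    s(a, b) ∈ edgesIn G S ↔ a ∈ S ∧ b ∈ S ∧ G.Adj a b := by
  rw [mem_edgesIn', Finset.mk_mem_sym2_iff, SimpleGraph.mem_edgeSet, and_assoc]

theorem mem_Fs_self (hl : ∀ v, (G.neighborSet v).Finite) {e : Sym2 ℕ} (he : e ∈ G.edgeSet) (n : ℕ) :
    e ∈ Fs G e n := by
  induction e using Sym2.ind with
  | _ a b =>
    unfold Fs
    rw [mem_edgesIn, mem_ball hl, mem_ball hl]
    refine ⟨ballSet_mono _ (Nat.zero_le n) ⟨s(a, b), by simp, by simp⟩,
      ballSet_mono _ (Nat.zero_le n) ⟨s(a, b), by simp, by simp⟩, he⟩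

theorem edgesIn_mono {S S' : Finset ℕ} (h : S ⊆ S') : edgesIn G S ⊆ edgesIn G S' := by
  intro x hx
  rw [mem_edgesIn'] at hx ⊢
  exact ⟨Finset.sym2_mono h hx.1, hx.2⟩

theorem Fs_mono (hl : ∀ v, (G.neighborSet v).Finite) (e : Sym2 ℕ) : Monotone (Fs G e) := by
  intro m n hmn
  exact edgesIn_mono (ball_mono hl {e} hmn)

/-- The sets `Fs G e n` eventually contain any finite piece of the graph. -/
theorem exists_subset_Fs (hc : G.Connected) (hl : ∀ v, (G.neighborSet v).Finite) (e : Sym2 ℕ) (S : Finset ℕ) :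
    ∃ n₀, ∀ n ≥ n₀, edgesIn G S ⊆ Fs G e n := by
  have hne : ({e} : Finset (Sym2 ℕ)).Nonempty := Finset.singleton_nonempty e
  choose N hN using fun v => ball_exhaust hc hl hne v
  refine ⟨S.sup N, fun n hn => edgesIn_mono fun v hv => ?_⟩
  exact ball_mono hl {e} ((Finset.le_sup hv).trans hn) (hN v)

end good

section measurability

theorem measurable_entry (u v : ℕ) : Measurable fun t : ℕ → ℕ → Bool => t u v :=
  (measurable_pi_apply v).comp (measurable_pi_apply u)

theorem measurableSet_adj (u v : ℕ) : MeasurableSet {t : ℕ → ℕ → Bool | (graphOfTable t).Adj u v} := by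
  have e : {t : ℕ → ℕ → Bool | (graphOfTable t).Adj u v} =
      {t | u ≠ v} ∩ ((fun t : ℕ → ℕ → Bool => t u v) ⁻¹' {true} ∪
        (fun t : ℕ → ℕ → Bool => t v u) ⁻¹' {true}) := by
    ext t
    simp [graphOfTable, SimpleGraph.fromRel_adj]
  rw [e]
  exact (MeasurableSet.const _).inter
    (((measurable_entry u v) (measurableSet_singleton _)).union
      ((measurable_entry v u) (measurableSet_singleton _)))

theorem measurableSet_mem_ballSet (W : Finset (Sym2 ℕ)) (n v : ℕ) :
    MeasurableSet {t : ℕ → ℕ → Bool | v ∈ ballSet (graphOfTable t) W n} := by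
  induction n generalizing v with
  | zero => exact MeasurableSet.const _
  | succ n ih =>
    have e : {t : ℕ → ℕ → Bool | v ∈ ballSet (graphOfTable t) W (n + 1)} =
        {t | v ∈ ballSet (graphOfTable t) W n} ∪
          ⋃ u, ({t | u ∈ ballSet (graphOfTable t) W n} ∩ {t | (graphOfTable t).Adj u v}) := by
      ext t
      simp [ballSet]
    rw [e]
    exact (ih v).union (MeasurableSet.iUnion fun u => (ih u).inter (measurableSet_adj u v))

theorem measurableSet_ballSet_eq (W : Finset (Sym2 ℕ)) (n : ℕ) (T : Finset ℕ) :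
    MeasurableSet {t : ℕ → ℕ → Bool | ballSet (graphOfTable t) W n = (T : Set ℕ)} := by
  have e : {t : ℕ → ℕ → Bool | ballSet (graphOfTable t) W n = (T : Set ℕ)} =
      ⋂ v, (if v ∈ T then {t | v ∈ ballSet (graphOfTable t) W n}
        else {t | v ∈ ballSet (graphOfTable t) W n}ᶜ) := by
    ext t
    simp only [Set.mem_setOf_eq, Set.mem_iInter, Set.ext_iff, Finset.mem_coe]
    refine forall_congr' fun v => ?_
    by_cases hv : v ∈ T <;> simp [hv]
  rw [e]
  refine MeasurableSet.iInter fun v => ?_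
  split_ifs
  · exact measurableSet_mem_ballSet W n v
  · exact (measurableSet_mem_ballSet W n v).compl

theorem measurableSet_ball (W : Finset (Sym2 ℕ)) (n : ℕ) (S : Finset ℕ) :
    MeasurableSet {t : ℕ → ℕ → Bool | ball (graphOfTable t) W n = S} := by
  have hfin : MeasurableSet {t : ℕ → ℕ → Bool | (ballSet (graphOfTable t) W n).Finite} := by
    have e : {t : ℕ → ℕ → Bool | (ballSet (graphOfTable t) W n).Finite} =
        ⋃ T : Finset ℕ, {t | ballSet (graphOfTable t) W n = (T : Set ℕ)} := by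
      ext t
      simp only [Set.mem_setOf_eq, Set.mem_iUnion]
      constructor
      · intro h
        exact ⟨h.toFinset, by simp⟩
      · rintro ⟨T, hT⟩
        rw [hT]
        exact T.finite_toSet
    rw [e]
    exact MeasurableSet.iUnion fun T => measurableSet_ballSet_eq W n T
  have e : {t : ℕ → ℕ → Bool | ball (graphOfTable t) W n = S} =
      {t | ballSet (graphOfTable t) W n = (S : Set ℕ)} ∪
        ({t | (ballSet (graphOfTable t) W n).Finite}ᶜ ∩ {t | S = ∅}) := by
    ext t
    simp only [Set.mem_setOf_eq, Set.mem_union, Set.mem_inter_iff, Set.mem_compl_iff]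
    unfold ball
    by_cases hf : (ballSet (graphOfTable t) W n).Finite
    · rw [dif_pos hf]
      constructor
      · intro h
        left
        rw [← h]
        simp
      · rintro (h | ⟨h, -⟩)
        · apply Finset.coe_injective
          simpa using h
        · exact absurd hf h
    · rw [dif_neg hf]
      constructor
      · intro h
        right
        exact ⟨hf, h.symm⟩
      · rintro (h | ⟨-, h⟩)
        · rw [h] at hf
          exact absurd S.finite_toSet hf
        · exact h.symm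
  rw [e]
  exact (measurableSet_ballSet_eq W n S).union (hfin.compl.inter (MeasurableSet.const _))

theorem measurableSet_edgesIn (S : Finset ℕ) (F : Finset (Sym2 ℕ)) :
    MeasurableSet {t : ℕ → ℕ → Bool | edgesIn (graphOfTable t) S = F} := by
  have hmem : ∀ x : Sym2 ℕ, MeasurableSet {t : ℕ → ℕ → Bool | x ∈ (graphOfTable t).edgeSet} := by
    intro x
    induction x using Sym2.ind with
    | _ a b => simpa using measurableSet_adj a b
  have e : {t : ℕ → ℕ → Bool | edgesIn (graphOfTable t) S = F} =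
      ⋂ x : Sym2 ℕ, (if x ∈ F then {t | x ∈ S.sym2 ∧ x ∈ (graphOfTable t).edgeSet}
        else {t | x ∈ S.sym2 ∧ x ∈ (graphOfTable t).edgeSet}ᶜ) := by
    ext t
    simp only [Set.mem_setOf_eq, Set.mem_iInter, Finset.ext_iff, mem_edgesIn']
    refine forall_congr' fun x => ?_
    by_cases hx : x ∈ F <;> simp [hx]
  rw [e]
  refine MeasurableSet.iInter fun x => ?_
  split_ifs
  · exact (MeasurableSet.const _).inter (hmem x)
  · exact ((MeasurableSet.const _).inter (hmem x)).compl

theorem measurableSet_Fs (e : Sym2 ℕ) (n : ℕ) (F : Finset (Sym2 ℕ)) :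
    MeasurableSet {t : ℕ → ℕ → Bool | Fs (graphOfTable t) e n = F} := by
  have h : {t : ℕ → ℕ → Bool | Fs (graphOfTable t) e n = F} =
      ⋃ S : Finset ℕ, ({t | ball (graphOfTable t) {e} n = S} ∩ {t | edgesIn (graphOfTable t) S = F}) := by
    ext t
    simp only [Set.mem_setOf_eq, Set.mem_iUnion, Set.mem_inter_iff, Fs]
    constructor
    · intro h
      exact ⟨_, rfl, h⟩
    · rintro ⟨S, rfl, h⟩
      exact h
  rw [h]
  exact MeasurableSet.iUnion fun S => (measurableSet_ball {e} n S).inter (measurableSet_edgesIn S F)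

theorem measurable_of_countable_cover {α ι : Type*} [Countable ι] [MeasurableSpace α] {f : α → ℝ}
    (A : ι → Set α) (hA : ∀ i, MeasurableSet (A i)) (hcov : ∀ x, ∃ i, x ∈ A i) (g : ι → α → ℝ)
    (hg : ∀ i, Measurable (g i)) (hfg : ∀ i, ∀ x ∈ A i, f x = g i x) : Measurable f := by
  intro B hB
  have e : f ⁻¹' B = ⋃ i, (A i ∩ g i ⁻¹' B) := by
    ext x
    simp only [Set.mem_preimage, Set.mem_iUnion, Set.mem_inter_iff]
    constructor
    · intro h
      obtain ⟨i, hi⟩ := hcov x
      exact ⟨i, hi, by rwa [← hfg i x hi]⟩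
    · rintro ⟨i, hi, h⟩
      rwa [hfg i x hi]
  rw [e]
  exact MeasurableSet.iUnion fun i => (hA i).inter (hg i hB)

theorem measurable_tiltMean {X ι : Type*} [MeasurableSpace X] [DecidableEq ι] (E : Finset ι)
    (c : Finset ι → ℝ) (v : ι) {ψ : X → ι → ℝ} (hψ : ∀ u, Measurable fun x => ψ x u) :
    Measurable fun x => tiltMean E c (ψ x) v := by
  classical
  unfold tiltMean tiltZ
  refine Measurable.div ?_ ?_
  · refine Finset.measurable_sum _ fun A _ => ?_
    exact (Measurable.exp (Finset.measurable_sum _ fun e _ => hψ e)).const_mul _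
  · refine Finset.measurable_sum _ fun A _ => ?_
    exact (Measurable.exp (Finset.measurable_sum _ fun e _ => hψ e)).const_mul _

open Classical in
/-- The coefficient of the tree polynomial in terms of the vertex set and the edge set. -/
noncomputable def treeCoeff' (S : Finset ℕ) (F A : Finset (Sym2 ℕ)) : ℝ :=
  if A ⊆ F ∧ ((SimpleGraph.fromEdgeSet (A : Set (Sym2 ℕ))).induce (S : Set ℕ)).IsTree then 1 else 0

theorem treeCoeff_eq {G : SimpleGraph ℕ} {S : Finset ℕ} {F : Finset (Sym2 ℕ)} (h : edgesIn G S = F) :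
    treeCoeff G S = treeCoeff' S F := by
  funext A
  unfold treeCoeff treeCoeff' IsSpanningTreeOn
  subst h
  congr

theorem measurable_fusfOracle (W : Finset (Sym2 ℕ)) (v : Sym2 ℕ) :
    Measurable (fun p : (ℕ → ℕ → Bool) × (Sym2 ℕ → ℝ) => fusfOracle (graphOfTable p.1) W p.2 v) := by
  unfold fusfOracle
  refine Measurable.limsup fun n => ?_
  refine measurable_of_countable_cover (ι := Finset ℕ × Finset (Sym2 ℕ))
    (fun k => {p | ball (graphOfTable p.1) W n = k.1 ∧ edgesIn (graphOfTable p.1) k.1 = k.2}) ?_ ?_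
    (fun k p => tiltMean k.2 (treeCoeff' k.1 k.2) (cutTilt W p.2) v) ?_ ?_
  · intro k
    exact (measurable_fst : Measurable (Prod.fst : (ℕ → ℕ → Bool) × (Sym2 ℕ → ℝ) → (ℕ → ℕ → Bool)))
      ((measurableSet_ball W n k.1).inter (measurableSet_edgesIn k.1 k.2))
  · intro p
    exact ⟨(ball (graphOfTable p.1) W n, edgesIn (graphOfTable p.1) (ball (graphOfTable p.1) W n)), rfl, rfl⟩
  · intro k
    refine measurable_tiltMean _ _ _ fun u => ?_
    unfold cutTilt
    split_ifs
    · exact (measurable_pi_apply u).comp measurable_snd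
    · exact measurable_const
  · rintro k p ⟨h1, h2⟩
    show tiltMean (edgesIn (graphOfTable p.1) (ball (graphOfTable p.1) W n))
      (treeCoeff (graphOfTable p.1) (ball (graphOfTable p.1) W n)) (cutTilt W p.2) v = _
    rw [h1, treeCoeff_eq h2, h2]

end measurability

section equivariance

theorem mem_ballSet_comap (p : Equiv.Perm ℕ) (G : SimpleGraph ℕ) (W : Finset (Sym2 ℕ)) (n v : ℕ) :
    v ∈ ballSet (G.comap p) W n ↔ p v ∈ ballSet G (W.map (symEquiv p).toEmbedding) n := by
  induction n generalizing v with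
  | zero =>
    simp only [ballSet, Set.mem_setOf_eq, Finset.mem_map, Equiv.coe_toEmbedding, symEquiv_apply]
    constructor
    · rintro ⟨e, he, hv⟩
      refine ⟨_, ⟨e, he, rfl⟩, ?_⟩
      exact Sym2.mem_map.2 ⟨v, hv, rfl⟩
    · rintro ⟨_, ⟨e, he, rfl⟩, hv⟩
      obtain ⟨w, hw, hwv⟩ := Sym2.mem_map.1 hv
      have : w = v := p.injective hwv
      subst this
      exact ⟨e, he, hw⟩
  | succ n ih =>
    simp only [ballSet, Set.mem_union, Set.mem_setOf_eq]
    rw [ih v]
    refine or_congr Iff.rfl ?_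
    constructor
    · rintro ⟨u, hu, hadj⟩
      exact ⟨p u, (ih u).1 hu, hadj⟩
    · rintro ⟨u, hu, hadj⟩
      refine ⟨p.symm u, (ih _).2 (by simpa using hu), ?_⟩
      simpa [SimpleGraph.comap_adj] using hadj

theorem ball_comap (p : Equiv.Perm ℕ) (G : SimpleGraph ℕ) (W : Finset (Sym2 ℕ)) (n : ℕ) :
    (ball (G.comap p) W n).map p.toEmbedding = ball G (W.map (symEquiv p).toEmbedding) n := by
  have hset : ballSet G (W.map (symEquiv p).toEmbedding) n = p '' ballSet (G.comap p) W n := by
    ext x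
    constructor
    · intro hx
      exact ⟨p.symm x, (mem_ballSet_comap p G W n _).2 (by simpa using hx), by simp⟩
    · rintro ⟨y, hy, rfl⟩
      exact (mem_ballSet_comap p G W n y).1 hy
  unfold ball
  by_cases hf : (ballSet (G.comap p) W n).Finite
  · have hf' : (ballSet G (W.map (symEquiv p).toEmbedding) n).Finite := by
      rw [hset]
      exact hf.image _
    rw [dif_pos hf, dif_pos hf']
    ext x
    simp only [Finset.mem_map, Set.Finite.mem_toFinset, Equiv.coe_toEmbedding]
    rw [hset]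
    rfl
  · have hf' : ¬ (ballSet G (W.map (symEquiv p).toEmbedding) n).Finite := by
      rw [hset]
      intro h
      exact hf (Set.Finite.of_finite_image h p.injective.injOn)
    rw [dif_neg hf, dif_neg hf']
    rfl

theorem edgesIn_comap (p : Equiv.Perm ℕ) (G : SimpleGraph ℕ) (S : Finset ℕ) :
    (edgesIn (G.comap p) S).map (symEquiv p).toEmbedding = edgesIn G (S.map p.toEmbedding) := by
  ext x
  obtain ⟨y, rfl⟩ := (symEquiv p).surjective x
  have hm : (symEquiv p) y ∈ Finset.map (symEquiv p).toEmbedding (edgesIn (G.comap p) S) ↔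
      y ∈ edgesIn (G.comap p) S := Finset.mem_map' (symEquiv p).toEmbedding
  rw [hm]
  induction y using Sym2.ind with
  | _ a b =>
    have e : symEquiv p s(a, b) = s(p a, p b) := by
      simp
    rw [e, mem_edgesIn, mem_edgesIn]
    simp [SimpleGraph.comap_adj]

theorem Fs_comap (p : Equiv.Perm ℕ) (G : SimpleGraph ℕ) (e : Sym2 ℕ) (n : ℕ) :
    (Fs (G.comap p) e n).map (symEquiv p).toEmbedding = Fs G (symEquiv p e) n := by
  unfold Fs
  rw [edgesIn_comap, ball_comap, Finset.map_singleton]
  rfl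

theorem isSpanningTreeOn_map (p : Equiv.Perm ℕ) (G : SimpleGraph ℕ) (S : Finset ℕ) (A : Finset (Sym2 ℕ)) :
    IsSpanningTreeOn G (S.map p.toEmbedding) (A.map (symEquiv p).toEmbedding) ↔
      IsSpanningTreeOn (G.comap p) S A := by
  unfold IsSpanningTreeOn
  rw [← edgesIn_comap, Finset.map_subset_map]
  refine and_congr Iff.rfl ?_
  have hmem : ∀ a, a ∈ (S : Set ℕ) ↔ p a ∈ ((S.map p.toEmbedding : Finset ℕ) : Set ℕ) := by
    intro a
    simp
  let φ : ((SimpleGraph.fromEdgeSet (A : Set (Sym2 ℕ))).induce (S : Set ℕ)) ≃g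
      ((SimpleGraph.fromEdgeSet ((A.map (symEquiv p).toEmbedding : Finset (Sym2 ℕ)) : Set (Sym2 ℕ))).induce
        ((S.map p.toEmbedding : Finset ℕ) : Set ℕ)) :=
    { toEquiv := Equiv.subtypeEquiv p hmem
      map_rel_iff' := by
        intro a b
        simp only [SimpleGraph.comap_adj, Function.Embedding.coe_subtype, SimpleGraph.fromEdgeSet_adj,
          Equiv.subtypeEquiv_apply, Finset.coe_map, Equiv.coe_toEmbedding, Set.mem_image,
          Finset.mem_coe]
        have hne : (p a.1 ≠ p b.1) ↔ (a.1 ≠ b.1) := p.injective.ne_iff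
        rw [hne]
        refine and_congr ?_ Iff.rfl
        constructor
        · rintro ⟨x, hx, hxe⟩
          have : x = s(a.1, b.1) := by
            apply (symEquiv p).injective
            rw [hxe]
            simp
          rwa [this] at hx
        · intro h
          exact ⟨_, h, by simp⟩ }
  exact φ.isTree_iff.symm

theorem treeCoeff_map (p : Equiv.Perm ℕ) (G : SimpleGraph ℕ) (S : Finset ℕ) (A : Finset (Sym2 ℕ)) :
    treeCoeff G (S.map p.toEmbedding) (A.map (symEquiv p).toEmbedding) = treeCoeff (G.comap p) S A := by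
  unfold treeCoeff
  by_cases h : IsSpanningTreeOn (G.comap p) S A
  · rw [if_pos h, if_pos ((isSpanningTreeOn_map p G S A).2 h)]
  · rw [if_neg h, if_neg (fun h' => h ((isSpanningTreeOn_map p G S A).1 h'))]

theorem tiltMean_map {ι : Type*} [DecidableEq ι] (π : ι ≃ ι) (E : Finset ι) (c c' : Finset ι → ℝ)
    (h h' : ι → ℝ) (v : ι) (hc : ∀ A, c' (A.map π.toEmbedding) = c A) (hh : ∀ e, h' (π e) = h e) :
    tiltMean (E.map π.toEmbedding) c' h' (π v) = tiltMean E c h v := by
  have hsum : ∀ A : Finset ι, ∑ e ∈ A.map π.toEmbedding, h' e = ∑ e ∈ A, h e := by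
    intro A
    rw [Finset.sum_map]
    exact Finset.sum_congr rfl fun e _ => hh e
  have hpow : (E.map π.toEmbedding).powerset =
      E.powerset.map ⟨fun A => A.map π.toEmbedding, Finset.map_injective _⟩ := by
    ext B
    simp only [Finset.mem_powerset, Finset.mem_map, Function.Embedding.coeFn_mk]
    constructor
    · intro hB
      refine ⟨B.map π.symm.toEmbedding, ?_, ?_⟩
      · intro x hx
        obtain ⟨y, hy, rfl⟩ := Finset.mem_map.1 hx
        obtain ⟨z, hz, rfl⟩ := Finset.mem_map.1 (hB hy)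
        simpa using hz
      · ext x
        simp
    · rintro ⟨A, hA, rfl⟩
      exact Finset.map_subset_map.2 hA
  unfold tiltMean tiltZ
  rw [hpow, Finset.sum_map, Finset.filter_map, Finset.sum_map]
  simp only [Function.Embedding.coeFn_mk, hc, hsum]
  congr 1
  refine Finset.sum_congr ?_ fun A _ => rfl
  ext A
  simp only [Finset.mem_filter, Function.comp, Finset.mem_map', Finset.mem_powerset]
  simp

theorem fusfOracle_comap (p : Equiv.Perm ℕ) (G : SimpleGraph ℕ) (F : Finset (Sym2 ℕ)) (h : Sym2 ℕ → ℝ)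
    (v : Sym2 ℕ) :
    fusfOracle G (F.map (symEquiv p).toEmbedding) (h ∘ (symEquiv p).symm) (symEquiv p v) =
      fusfOracle (G.comap p) F h v := by
  unfold fusfOracle
  congr 1
  funext n
  rw [← ball_comap, ← edgesIn_comap]
  refine tiltMean_map (symEquiv p) _ _ _ _ _ v (fun A => treeCoeff_map p G _ A) (fun e => ?_)
  unfold cutTilt
  by_cases he : e ∈ F
  · have : symEquiv p e ∈ F.map (symEquiv p).toEmbedding :=
      Finset.mem_map_of_mem (symEquiv p).toEmbedding he
    rw [if_pos this, if_pos he]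
    show h ((symEquiv p).symm (symEquiv p e)) = h e
    rw [Equiv.symm_apply_apply]
  · have : symEquiv p e ∉ F.map (symEquiv p).toEmbedding := by
      intro h1
      obtain ⟨x, hx, hxe⟩ := Finset.mem_map.1 h1
      have : x = e := (symEquiv p).injective hxe
      exact he (this ▸ hx)
    rw [if_neg this, if_neg he]

end equivariance

end Crest.Agent.Lib.FiidBall
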