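import Mathlib

/-!
A Schwarz lemma on horizontal strips:
an analytic map from the strip `|Im ζ| < π / D` to the strip `|Im u| < π` which is real at `0` and `1`
moves `0, 1` by at most `D`.
-/

set_option autoImplicit false

namespace Crest.Agent.Lib.FiidStripSchwarz

open Complex Metric Set

/-- Disc to strip map. -/
noncomputable def psi (D : ℝ) (w : ℂ) : ℂ := ((2 / D : ℝ) : ℂ) * log ((1 + w) / (1 - w))

/-- Strip to disc map. -/
noncomputable def cay (u : ℂ) : ℂ := (exp (u / 2) - 1) / (exp (u / 2) + 1)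

lemma re_ratio_pos {w : ℂ} (hw : ‖w‖ < 1) : 0 < ((1 + w) / (1 - w)).re := by
  have h1 : (1 - w) ≠ 0 := by
    intro h
    have : w = 1 := by linear_combination -h
    rw [this] at hw
    simp at hw
  have hre : ((1 + w) / (1 - w)).re = (1 - ‖w‖ ^ 2) / normSq (1 - w) := by
    rw [Complex.div_re]
    have hn : ‖w‖ ^ 2 = w.re * w.re + w.im * w.im := by
      rw [← Complex.normSq_eq_norm_sq, Complex.normSq_apply]
    rw [hn]
    simp only [Complex.add_re, Complex.one_re, Complex.sub_re, Complex.add_im, Complex.one_im,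
      Complex.sub_im]
    have : normSq (1 - w) ≠ 0 := by
      simpa [Complex.normSq_eq_zero] using h1
    field_simp
    ring
  rw [hre]
  apply div_pos
  · nlinarith [norm_nonneg w]
  · exact Complex.normSq_pos.mpr h1

lemma ratio_mem_slit {w : ℂ} (hw : ‖w‖ < 1) : (1 + w) / (1 - w) ∈ slitPlane :=
  Or.inl (re_ratio_pos hw)

lemma psi_im {D : ℝ} (hD : 0 < D) {w : ℂ} (hw : ‖w‖ < 1) : |(psi D w).im| < Real.pi / D := by
  unfold psi
  rw [Complex.im_ofReal_mul, Complex.log_im]
  have h : |arg ((1 + w) / (1 - w))| < Real.pi / 2 :=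
    Complex.abs_arg_lt_pi_div_two_iff.mpr (Or.inl (re_ratio_pos hw))
  rw [abs_mul, abs_of_pos (by positivity : (0 : ℝ) < 2 / D)]
  calc 2 / D * |arg ((1 + w) / (1 - w))| < 2 / D * (Real.pi / 2) := by
        apply mul_lt_mul_of_pos_left h (by positivity)
    _ = Real.pi / D := by field_simp

lemma psi_zero (D : ℝ) : psi D 0 = 0 := by
  simp [psi]

lemma psi_differentiableOn (D : ℝ) : DifferentiableOn ℂ (psi D) (ball 0 1) := by
  intro w hw
  have hw' : ‖w‖ < 1 := by simpa using hw
  have h1 : (1 - w) ≠ 0 := by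
    intro h
    have : w = 1 := by linear_combination -h
    rw [this] at hw'
    simp at hw'
  unfold psi
  apply DifferentiableAt.differentiableWithinAt
  apply DifferentiableAt.const_mul
  apply DifferentiableAt.clog
  · exact ((differentiableAt_const _).add differentiableAt_id).div
      ((differentiableAt_const _).sub differentiableAt_id) h1
  · exact ratio_mem_slit hw'

lemma exp_half_re_pos {u : ℂ} (hu : |u.im| < Real.pi) : 0 < (exp (u / 2)).re := by
  rw [Complex.exp_re]
  apply mul_pos (Real.exp_pos _)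
  apply Real.cos_pos_of_mem_Ioo
  have h2 : (u / 2).im = u.im / 2 := by simp
  rw [h2]
  have := abs_lt.mp hu
  constructor <;> linarith [this.1, this.2]

lemma cay_norm_lt {u : ℂ} (hu : |u.im| < Real.pi) : ‖cay u‖ < 1 := by
  have hre := exp_half_re_pos hu
  set y := exp (u / 2) with hy
  have hne : y + 1 ≠ 0 := by
    intro h
    have := congrArg Complex.re h
    simp at this
    linarith
  unfold cay
  rw [← hy, norm_div, div_lt_one (norm_pos_iff.mpr hne)]
  have h1 : ‖y - 1‖ ^ 2 < ‖y + 1‖ ^ 2 := by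
    rw [← Complex.normSq_eq_norm_sq, ← Complex.normSq_eq_norm_sq, Complex.normSq_apply,
      Complex.normSq_apply]
    simp only [Complex.add_re, Complex.one_re, Complex.sub_re, Complex.add_im, Complex.one_im,
      Complex.sub_im]
    nlinarith
  exact lt_of_pow_lt_pow_left₀ 2 (norm_nonneg _) h1

lemma cay_zero : cay 0 = 0 := by simp [cay]

lemma cay_differentiableAt {u : ℂ} (hu : |u.im| < Real.pi) : DifferentiableAt ℂ cay u := by
  have hre := exp_half_re_pos hu
  have hne : exp (u / 2) + 1 ≠ 0 := by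
    intro h
    have := congrArg Complex.re h
    simp only [Complex.add_re, Complex.one_re, Complex.zero_re] at this
    linarith
  unfold cay
  apply DifferentiableAt.div
  · fun_prop
  · fun_prop
  · exact hne

/-- real computation: `|cay u| ≤ cay D` implies `|u| ≤ D`. -/
lemma real_le_of_cay {D u : ℝ} (hD : 0 < D)
    (h : ‖cay (u : ℂ)‖ ≤ (Real.exp (D / 2) - 1) / (Real.exp (D / 2) + 1)) : |u| ≤ D := by
  have hY : 1 < Real.exp (D / 2) := Real.one_lt_exp_iff.mpr (by linarith)
  set Y := Real.exp (D / 2) with hYd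
  set y := Real.exp (u / 2) with hyd
  have hy : 0 < y := Real.exp_pos _
  have hval : cay (u : ℂ) = (((y - 1) / (y + 1) : ℝ) : ℂ) := by
    unfold cay
    have : exp ((u : ℂ) / 2) = (y : ℂ) := by
      rw [hyd]; push_cast; rfl
    rw [this]; push_cast; rfl
  rw [hval, Complex.norm_real, Real.norm_eq_abs] at h
  have hpos : 0 < y + 1 := by linarith
  have hYpos : 0 < Y + 1 := by linarith
  rw [abs_div, abs_of_pos hpos, div_le_div_iff₀ hpos hYpos] at h
  have hyY : y ≤ Y := by
    have : (y - 1) ≤ |y - 1| := le_abs_self _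
    nlinarith
  have hYy : 1 ≤ y * Y := by
    have : -(y - 1) ≤ |y - 1| := neg_le_abs _
    nlinarith
  have h1 : u / 2 ≤ D / 2 := by
    have := Real.exp_le_exp.mp hyY
    exact this
  have h2 : -(u / 2) ≤ D / 2 := by
    have h3 : Real.exp (-(u/2)) ≤ Real.exp (D/2) := by
      rw [Real.exp_neg, ← hyd, ← hYd]
      have h4 : y⁻¹ = 1 / y := by ring
      rw [h4, div_le_iff₀ hy]
      linarith
    exact Real.exp_le_exp.mp h3
  rw [abs_le]
  constructor <;> linarith

/-- **Schwarz lemma on strips.** -/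
theorem strip_schwarz {D : ℝ} (hD : 0 < D) {G : ℂ → ℂ}
    (hG : DifferentiableOn ℂ G {ζ | |ζ.im| < Real.pi / D})
    (hIm : ∀ ζ : ℂ, |ζ.im| < Real.pi / D → |(G ζ).im| < Real.pi)
    (h0 : (G 0).im = 0) (h1 : (G 1).im = 0) :
    |(G 1).re - (G 0).re| ≤ D := by
  set F : ℂ → ℂ := fun w => cay (G (psi D w) - G 0) with hF
  have him : ∀ w : ℂ, ‖w‖ < 1 → |(G (psi D w) - G 0).im| < Real.pi := by
    intro w hw
    have := hIm _ (psi_im hD hw)
    simpa [h0] using this
  have hdiff : DifferentiableOn ℂ F (ball 0 1) := by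
    intro w hw
    have hw' : ‖w‖ < 1 := by simpa using hw
    have h2 : DifferentiableWithinAt ℂ (psi D) (ball 0 1) w := psi_differentiableOn D w hw
    have h3 : DifferentiableAt ℂ G (psi D w) := by
      apply (hG _ (psi_im hD hw')).differentiableAt
      apply IsOpen.mem_nhds
      · exact isOpen_lt (continuous_abs.comp Complex.continuous_im) continuous_const
      · exact psi_im hD hw'
    have h4 : DifferentiableWithinAt ℂ (fun w => G (psi D w) - G 0) (ball 0 1) w :=
      (h3.comp_differentiableWithinAt w h2).sub (differentiableWithinAt_const _)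
    exact (cay_differentiableAt (him w hw')).comp_differentiableWithinAt w h4
  have hmaps : MapsTo F (ball 0 1) (closedBall 0 1) := by
    intro w hw
    have hw' : ‖w‖ < 1 := by simpa using hw
    have := cay_norm_lt (him w hw')
    simp only [mem_closedBall, dist_zero_right]
    exact this.le
  have hF0 : F 0 = 0 := by
    simp [hF, psi_zero, cay_zero]
  set Y := Real.exp (D / 2) with hYd
  have hY : 1 < Y := Real.one_lt_exp_iff.mpr (by linarith)
  set w₁ : ℝ := (Y - 1) / (Y + 1) with hw₁
  have hw₁pos : 0 < w₁ := by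
    apply div_pos <;> linarith
  have hw₁lt : w₁ < 1 := by
    rw [hw₁, div_lt_one (by linarith)]; linarith
  have hnorm : ‖(w₁ : ℂ)‖ < 1 := by
    rw [Complex.norm_real, Real.norm_eq_abs, abs_of_pos hw₁pos]; exact hw₁lt
  have hsch := Complex.norm_le_norm_of_mapsTo_ball hdiff hmaps hF0 hnorm
  have hpsi : psi D (w₁ : ℂ) = 1 := by
    unfold psi
    have hne : Y + 1 ≠ 0 := by linarith
    have e1 : ((1 + (w₁ : ℂ)) / (1 - (w₁ : ℂ))) = ((Y : ℝ) : ℂ) := by
      have : (1 + w₁) / (1 - w₁) = Y := by
        have h3 : 1 - w₁ ≠ 0 := by linarith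
        rw [div_eq_iff h3, hw₁]
        field_simp
        ring
      rw [← this]; push_cast; rfl
    rw [e1, ← Complex.ofReal_log (by linarith), hYd, Real.log_exp, ← Complex.ofReal_mul]
    have h6 : 2 / D * (D / 2) = 1 := by field_simp
    rw [h6]; simp
  have hreal : G 1 - G 0 = (((G 1).re - (G 0).re : ℝ) : ℂ) := by
    apply Complex.ext <;> simp [h0, h1]
  have hfin : ‖cay (((G 1).re - (G 0).re : ℝ) : ℂ)‖ ≤ (Y - 1) / (Y + 1) := by
    have h5 : F (w₁ : ℂ) = cay (((G 1).re - (G 0).re : ℝ) : ℂ) := by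
      simp only [hF]
      rw [hpsi, hreal]
    rw [← h5]
    refine hsch.trans ?_
    rw [Complex.norm_real, Real.norm_eq_abs, abs_of_pos hw₁pos]
  exact real_le_of_cay hD hfin

end Crest.Agent.Lib.FiidStripSchwarz
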