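import Mathlib
import Crest.Agent.Lib.FiidStripSchwarz

/-!
Interface + proofs for multi-affine polynomials with nonnegative coefficients that do not vanish on
products of upper half planes.
-/

set_option autoImplicit false

namespace Crest.Agent.Lib.FiidStablePoly

open Finset

variable {ι : Type*} [DecidableEq ι]

/-- The multi-affine polynomial with coefficient `c A` at the monomial `∏_{e ∈ A} z e`, `A ⊆ E`. -/
noncomputable def mvPoly (E : Finset ι) (c : Finset ι → ℝ) (z : ι → ℂ) : ℂ :=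
  ∑ A ∈ E.powerset, (c A : ℂ) * ∏ e ∈ A, z e

/-- The total weight under the tilt `h`: `∑_{A ⊆ E} c A * exp (∑_{e ∈ A} h e)`. -/
noncomputable def tiltZ (E : Finset ι) (c : Finset ι → ℝ) (h : ι → ℝ) : ℝ :=
  ∑ A ∈ E.powerset, c A * Real.exp (∑ e ∈ A, h e)

/-- The tilted probability that `v` is occupied. -/
noncomputable def tiltMean (E : Finset ι) (c : Finset ι → ℝ) (h : ι → ℝ) (v : ι) : ℝ :=
  (∑ A ∈ E.powerset with v ∈ A, c A * Real.exp (∑ e ∈ A, h e)) / tiltZ E c h

section Tools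

/-- `Q` part along the complex line. -/
noncomputable def Qc (E : Finset ι) (c : Finset ι → ℝ) (h δ : ι → ℝ) (v : ι) (ζ : ℂ) : ℂ :=
  ∑ A ∈ E.powerset with v ∉ A, (c A : ℂ) * Complex.exp (∑ e ∈ A, ((h e : ℂ) + ζ * (δ e : ℂ)))

/-- `N` part along the complex line. -/
noncomputable def Nc (E : Finset ι) (c : Finset ι → ℝ) (h δ : ι → ℝ) (v : ι) (ζ : ℂ) : ℂ :=
  ∑ A ∈ E.powerset with v ∈ A, (c A : ℂ) * Complex.exp (∑ e ∈ A, ((h e : ℂ) + ζ * (δ e : ℂ)))

/-- real `Q` part. -/
noncomputable def Qr (E : Finset ι) (c : Finset ι → ℝ) (h : ι → ℝ) (v : ι) : ℝ :=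
  ∑ A ∈ E.powerset with v ∉ A, c A * Real.exp (∑ e ∈ A, h e)

/-- real `N` part. -/
noncomputable def Nr (E : Finset ι) (c : Finset ι → ℝ) (h : ι → ℝ) (v : ι) : ℝ :=
  ∑ A ∈ E.powerset with v ∈ A, c A * Real.exp (∑ e ∈ A, h e)

lemma tiltZ_eq (E : Finset ι) (c : Finset ι → ℝ) (h : ι → ℝ) (v : ι) :
    tiltZ E c h = Nr E c h v + Qr E c h v := by
  unfold tiltZ Nr Qr
  rw [Finset.sum_filter_add_sum_filter_not]

lemma tiltMean_eq (E : Finset ι) (c : Finset ι → ℝ) (h : ι → ℝ) (v : ι) :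
    tiltMean E c h v = Nr E c h v / (Nr E c h v + Qr E c h v) := by
  unfold tiltMean
  rw [tiltZ_eq E c h v]
  rfl

lemma Qr_nonneg {E : Finset ι} {c : Finset ι → ℝ} (hc : ∀ A ∈ E.powerset, 0 ≤ c A) (h : ι → ℝ)
    (v : ι) : 0 ≤ Qr E c h v := by
  apply Finset.sum_nonneg
  intro A hA
  exact mul_nonneg (hc A (Finset.mem_filter.mp hA).1) (Real.exp_pos _).le

lemma Nr_nonneg {E : Finset ι} {c : Finset ι → ℝ} (hc : ∀ A ∈ E.powerset, 0 ≤ c A) (h : ι → ℝ)
    (v : ι) : 0 ≤ Nr E c h v := by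
  apply Finset.sum_nonneg
  intro A hA
  exact mul_nonneg (hc A (Finset.mem_filter.mp hA).1) (Real.exp_pos _).le

lemma tiltZ_pos {E : Finset ι} {c : Finset ι → ℝ} (hc : ∀ A ∈ E.powerset, 0 ≤ c A)
    (hpos : ∃ A ∈ E.powerset, 0 < c A) (h : ι → ℝ) : 0 < tiltZ E c h := by
  obtain ⟨A, hA, hA'⟩ := hpos
  unfold tiltZ
  apply Finset.sum_pos'
  · intro B hB
    exact mul_nonneg (hc B hB) (Real.exp_pos _).le
  · exact ⟨A, hA, mul_pos hA' (Real.exp_pos _)⟩

lemma Qc_ofReal (E : Finset ι) (c : Finset ι → ℝ) (h δ : ι → ℝ) (v : ι) (s : ℝ) :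
    Qc E c h δ v (s : ℂ) = (Qr E c (fun e => h e + s * δ e) v : ℂ) := by
  unfold Qc Qr
  push_cast
  rfl

lemma Nc_ofReal (E : Finset ι) (c : Finset ι → ℝ) (h δ : ι → ℝ) (v : ι) (s : ℝ) :
    Nc E c h δ v (s : ℂ) = (Nr E c (fun e => h e + s * δ e) v : ℂ) := by
  unfold Nc Nr
  push_cast
  rfl

lemma Qc_differentiable (E : Finset ι) (c : Finset ι → ℝ) (h δ : ι → ℝ) (v : ι) :
    Differentiable ℂ (Qc E c h δ v) := by
  unfold Qc
  apply Differentiable.fun_sum
  intro A _
  apply Differentiable.const_mul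
  apply Differentiable.cexp
  apply Differentiable.fun_sum
  intro e _
  fun_prop

lemma Nc_differentiable (E : Finset ι) (c : Finset ι → ℝ) (h δ : ι → ℝ) (v : ι) :
    Differentiable ℂ (Nc E c h δ v) := by
  unfold Nc
  apply Differentiable.fun_sum
  intro A _
  apply Differentiable.const_mul
  apply Differentiable.cexp
  apply Differentiable.fun_sum
  intro e _
  fun_prop

lemma conj_Qc (E : Finset ι) (c : Finset ι → ℝ) (h δ : ι → ℝ) (v : ι) (ζ : ℂ) :
    (starRingEnd ℂ) (Qc E c h δ v ζ) = Qc E c h δ v ((starRingEnd ℂ) ζ) := by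
  unfold Qc
  rw [map_sum]
  apply Finset.sum_congr rfl
  intro A _
  rw [map_mul, Complex.conj_ofReal, ← Complex.exp_conj, map_sum]
  congr 2
  apply Finset.sum_congr rfl
  intro e _
  simp [Complex.conj_ofReal]

lemma conj_Nc (E : Finset ι) (c : Finset ι → ℝ) (h δ : ι → ℝ) (v : ι) (ζ : ℂ) :
    (starRingEnd ℂ) (Nc E c h δ v ζ) = Nc E c h δ v ((starRingEnd ℂ) ζ) := by
  unfold Nc
  rw [map_sum]
  apply Finset.sum_congr rfl
  intro A _
  rw [map_mul, Complex.conj_ofReal, ← Complex.exp_conj, map_sum]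
  congr 2
  apply Finset.sum_congr rfl
  intro e _
  simp [Complex.conj_ofReal]

/-- Upper half plane case of the nonvanishing of `Q + w N`. -/
lemma Q_add_wN_ne_zero_up {E : Finset ι} {c : Finset ι → ℝ}
    (hstable : ∀ z : ι → ℂ, (∀ e ∈ E, 0 < (z e).im) → mvPoly E c z ≠ 0)
    (h δ : ι → ℝ) (v : ι) {D : ℝ} (hδ : ∀ e ∈ E, 0 < δ e ∧ δ e ≤ D) (hD : 0 < D)
    {ζ : ℂ} (h1 : 0 < ζ.im) (h2 : ζ.im < Real.pi / D) {w : ℝ} (hw : 0 < w) :
    Qc E c h δ v ζ + (w : ℂ) * Nc E c h δ v ζ ≠ 0 := by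
  set z0 : ι → ℂ := fun e => Complex.exp ((h e : ℂ) + ζ * (δ e : ℂ)) with hz0
  set z : ι → ℂ := Function.update z0 v ((w : ℂ) * z0 v) with hz
  have hz0im : ∀ e ∈ E, 0 < (z0 e).im := by
    intro e he
    obtain ⟨h3, h4⟩ := hδ e he
    simp only [hz0]
    rw [Complex.exp_im]
    apply mul_pos (Real.exp_pos _)
    have him : ((h e : ℂ) + ζ * (δ e : ℂ)).im = ζ.im * δ e := by simp
    rw [him]
    apply Real.sin_pos_of_pos_of_lt_pi (mul_pos h1 h3)
    calc ζ.im * δ e ≤ ζ.im * D := by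
          apply mul_le_mul_of_nonneg_left h4 h1.le
      _ < (Real.pi / D) * D := by
          apply mul_lt_mul_of_pos_right h2 hD
      _ = Real.pi := by field_simp
  have hzim : ∀ e ∈ E, 0 < (z e).im := by
    intro e he
    by_cases hev : e = v
    · subst hev
      simp only [hz, Function.update_self]
      rw [Complex.im_ofReal_mul]
      exact mul_pos hw (hz0im e he)
    · simp only [hz, Function.update_of_ne hev]
      exact hz0im e he
  have key : mvPoly E c z = Qc E c h δ v ζ + (w : ℂ) * Nc E c h δ v ζ := by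
    unfold mvPoly Qc Nc
    rw [← Finset.sum_filter_add_sum_filter_not E.powerset (fun A => v ∈ A), add_comm, Finset.mul_sum]
    congr 1
    · apply Finset.sum_congr rfl
      intro A hA
      have hvA : v ∉ A := (Finset.mem_filter.mp hA).2
      congr 1
      rw [Complex.exp_sum]
      apply Finset.prod_congr rfl
      intro e he
      have : e ≠ v := fun hh => hvA (hh ▸ he)
      simp only [hz, Function.update_of_ne this, hz0]
    · apply Finset.sum_congr rfl
      intro A hA
      have hvA : v ∈ A := (Finset.mem_filter.mp hA).2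
      rw [Complex.exp_sum]
      have hprod : ∏ e ∈ A, z e = (w : ℂ) * ∏ e ∈ A, z0 e := by
        rw [← Finset.mul_prod_erase A _ hvA, ← Finset.mul_prod_erase A z0 hvA]
        have h5 : z v = (w : ℂ) * z0 v := by simp [hz]
        have h6 : ∏ e ∈ A.erase v, z e = ∏ e ∈ A.erase v, z0 e := by
          apply Finset.prod_congr rfl
          intro e he
          have : e ≠ v := (Finset.mem_erase.mp he).1
          simp only [hz, Function.update_of_ne this]
        rw [h5, h6]; ring
      rw [hprod]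
      simp only [hz0]
      ring
  rw [← key]
  exact hstable z hzim

/-- Nonvanishing of `Q + w N` on the whole strip. -/
lemma Q_add_wN_ne_zero {E : Finset ι} {c : Finset ι → ℝ}
    (hc : ∀ A ∈ E.powerset, 0 ≤ c A) (hpos : ∃ A ∈ E.powerset, 0 < c A)
    (hstable : ∀ z : ι → ℂ, (∀ e ∈ E, 0 < (z e).im) → mvPoly E c z ≠ 0)
    (h δ : ι → ℝ) (v : ι) {D : ℝ} (hδ : ∀ e ∈ E, 0 < δ e ∧ δ e ≤ D) (hD : 0 < D)
    {ζ : ℂ} (hζ : |ζ.im| < Real.pi / D) {w : ℝ} (hw : 0 < w) :
    Qc E c h δ v ζ + (w : ℂ) * Nc E c h δ v ζ ≠ 0 := by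
  rcases lt_trichotomy ζ.im 0 with h0 | h0 | h0
  · intro hzero
    have h3 := congrArg (starRingEnd ℂ) hzero
    rw [map_add, map_mul, Complex.conj_ofReal, conj_Qc, conj_Nc, map_zero] at h3
    refine Q_add_wN_ne_zero_up hstable h δ v hδ hD (ζ := (starRingEnd ℂ) ζ) ?_ ?_ hw h3
    · simpa using h0
    · have := (abs_lt.mp hζ).1
      simp only [Complex.conj_im]
      linarith
  · -- real axis
    have hζr : ζ = (ζ.re : ℂ) := by
      apply Complex.ext <;> simp [h0]
    rw [hζr, Qc_ofReal, Nc_ofReal]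
    have hQ := Qr_nonneg hc (fun e => h e + ζ.re * δ e) v
    have hN := Nr_nonneg hc (fun e => h e + ζ.re * δ e) v
    have hZ := tiltZ_pos hc hpos (fun e => h e + ζ.re * δ e)
    rw [tiltZ_eq _ _ _ v] at hZ
    set Q' := Qr E c (fun e => h e + ζ.re * δ e) v
    set N' := Nr E c (fun e => h e + ζ.re * δ e) v
    have hpos' : 0 < Q' + w * N' := by
      by_cases hN0 : N' = 0
      · rw [hN0] at hZ ⊢
        linarith
      · have : 0 < N' := lt_of_le_of_ne hN (Ne.symm hN0)
        have := mul_pos hw this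
        linarith
    have : ((Q' : ℂ) + (w : ℂ) * (N' : ℂ)) = ((Q' + w * N' : ℝ) : ℂ) := by push_cast; rfl
    rw [this]
    exact_mod_cast hpos'.ne'
  · exact Q_add_wN_ne_zero_up hstable h δ v hδ hD h0 (lt_of_abs_lt hζ) hw

/-- Logistic function is `1/4`-Lipschitz in the log coordinate. -/
lemma logistic_lipschitz {r s : ℝ} (hr : 0 < r) (hs : 0 < s) :
    |r / (1 + r) - s / (1 + s)| ≤ (1 / 4) * |Real.log r - Real.log s| := by
  set L : ℝ → ℝ := fun u => Real.exp u / (1 + Real.exp u) with hL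
  have hderiv : ∀ u, HasDerivAt L (Real.exp u / (1 + Real.exp u) ^ 2) u := by
    intro u
    have hne : (1 + Real.exp u) ≠ 0 := by positivity
    have h1 : HasDerivAt (fun y => Real.exp y / (1 + Real.exp y)) _ u :=
      (Real.hasDerivAt_exp u).fun_div ((Real.hasDerivAt_exp u).const_add 1) hne
    refine h1.congr_deriv ?_
    congr 1
    ring
  have hdiff : ∀ u ∈ (Set.univ : Set ℝ), DifferentiableAt ℝ L u :=
    fun u _ => (hderiv u).differentiableAt
  have hbound : ∀ u ∈ (Set.univ : Set ℝ), ‖deriv L u‖ ≤ 1 / 4 := by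
    intro u _
    rw [(hderiv u).deriv, Real.norm_eq_abs, abs_of_nonneg (by positivity)]
    rw [div_le_iff₀ (by positivity)]
    nlinarith [sq_nonneg (Real.exp u - 1)]
  have h := Convex.norm_image_sub_le_of_norm_deriv_le hdiff hbound convex_univ
    (Set.mem_univ (Real.log s)) (Set.mem_univ (Real.log r))
  simp only [hL, Real.exp_log hr, Real.exp_log hs, Real.norm_eq_abs] at h
  exact h

end Tools

/-- Monotone direction with a `κ` parameter. -/
lemma mono_step_kappa {E : Finset ι} {c : Finset ι → ℝ}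
    (hc : ∀ A ∈ E.powerset, 0 ≤ c A) (hpos : ∃ A ∈ E.powerset, 0 < c A)
    (hstable : ∀ z : ι → ℂ, (∀ e ∈ E, 0 < (z e).im) → mvPoly E c z ≠ 0)
    (h δ : ι → ℝ) (v : ι) {D : ℝ} (hδ : ∀ e ∈ E, 0 < δ e ∧ δ e ≤ D) (hD : 0 < D)
    {κ : ℝ} (hκ : 0 < κ) :
    (1 - κ) / (1 + κ) * |tiltMean E c (fun e => h e + 1 * δ e) v
        - tiltMean E c (fun e => h e + 0 * δ e) v| ≤ D / 4 := by
  set Q := Qc E c h δ v with hQ
  set N := Nc E c h δ v with hN
  have hden : ∀ ζ : ℂ, |ζ.im| < Real.pi / D → Q ζ + (κ : ℂ) * N ζ ≠ 0 :=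
    fun ζ hζ => Q_add_wN_ne_zero hc hpos hstable h δ v hδ hD hζ hκ
  set R : ℂ → ℂ := fun ζ => (N ζ + (κ : ℂ) * Q ζ) / (Q ζ + (κ : ℂ) * N ζ) with hR
  have hslit : ∀ ζ : ℂ, |ζ.im| < Real.pi / D → R ζ ∈ Complex.slitPlane := by
    intro ζ hζ
    rw [Complex.mem_slitPlane_iff_not_le_zero]
    intro hle
    rw [Complex.le_def] at hle
    obtain ⟨hre, him⟩ := hle
    simp only [Complex.zero_re, Complex.zero_im] at hre him
    set t : ℝ := -(R ζ).re with ht
    have ht0 : 0 ≤ t := by simp only [ht]; linarith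
    have hRt : R ζ = -(t : ℂ) := by
      apply Complex.ext
      · simp [ht]
      · simp [him]
    have hd := hden ζ hζ
    have heq : N ζ + (κ : ℂ) * Q ζ = -(t : ℂ) * (Q ζ + (κ : ℂ) * N ζ) := by
      have : R ζ * (Q ζ + (κ : ℂ) * N ζ) = N ζ + (κ : ℂ) * Q ζ := by
        simp only [hR]
        exact div_mul_cancel₀ _ hd
      rw [← this, hRt]
    set w : ℝ := (1 + t * κ) / (κ + t) with hw
    have hkt : 0 < κ + t := by linarith
    have hwpos : 0 < w := by positivity
    have hzero : Q ζ + (w : ℂ) * N ζ = 0 := by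
      have hktc : ((κ : ℂ) + (t : ℂ)) ≠ 0 := by
        have : ((κ + t : ℝ) : ℂ) ≠ 0 := by exact_mod_cast hkt.ne'
        simpa using this
      have hwc : (w : ℂ) = (1 + (t : ℂ) * (κ : ℂ)) / ((κ : ℂ) + (t : ℂ)) := by
        rw [hw]; push_cast; rfl
      rw [hwc]
      field_simp
      linear_combination heq
    exact Q_add_wN_ne_zero hc hpos hstable h δ v hδ hD hζ hwpos hzero
  set G : ℂ → ℂ := fun ζ => Complex.log (R ζ) with hG
  have hQd := Qc_differentiable E c h δ v
  have hNd := Nc_differentiable E c h δ v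
  have hGd : DifferentiableOn ℂ G {ζ | |ζ.im| < Real.pi / D} := by
    intro ζ hζ
    apply DifferentiableAt.differentiableWithinAt
    apply DifferentiableAt.clog
    · apply DifferentiableAt.div
      · exact (hNd ζ).add ((differentiableAt_const _).mul (hQd ζ))
      · exact (hQd ζ).add ((differentiableAt_const _).mul (hNd ζ))
      · exact hden ζ hζ
    · exact hslit ζ hζ
  have hGim : ∀ ζ : ℂ, |ζ.im| < Real.pi / D → |(G ζ).im| < Real.pi := by
    intro ζ hζ
    simp only [hG, Complex.log_im]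
    have h3 := (Complex.mem_slitPlane_iff_arg.mp (hslit ζ hζ)).1
    rw [abs_lt]
    exact ⟨Complex.neg_pi_lt_arg _, lt_of_le_of_ne (Complex.arg_le_pi _) h3⟩
  -- real points
  have hreal : ∀ s : ℝ, ∃ r : ℝ, 0 < r ∧ R (s : ℂ) = (r : ℂ) ∧
      r / (1 + r) = ((1 - κ) * tiltMean E c (fun e => h e + s * δ e) v + κ) / (1 + κ) := by
    intro s
    have hq := Qr_nonneg hc (fun e => h e + s * δ e) v
    have hn := Nr_nonneg hc (fun e => h e + s * δ e) v
    have hZ := tiltZ_pos hc hpos (fun e => h e + s * δ e)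
    rw [tiltZ_eq _ _ _ v] at hZ
    set q := Qr E c (fun e => h e + s * δ e) v with hq'
    set n := Nr E c (fun e => h e + s * δ e) v with hn'
    have hdp : 0 < q + κ * n := by
      by_cases hn0 : n = 0
      · rw [hn0] at hZ ⊢; linarith
      · have : 0 < n := lt_of_le_of_ne hn (Ne.symm hn0)
        have := mul_pos hκ this
        linarith
    have hnp : 0 < n + κ * q := by
      by_cases hq0 : q = 0
      · rw [hq0] at hZ ⊢; linarith
      · have : 0 < q := lt_of_le_of_ne hq (Ne.symm hq0)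
        have := mul_pos hκ this
        linarith
    refine ⟨(n + κ * q) / (q + κ * n), div_pos hnp hdp, ?_, ?_⟩
    · simp only [hR, hQ, hN]
      rw [Qc_ofReal, Nc_ofReal]
      push_cast
      rfl
    · rw [tiltMean_eq, ← hn', ← hq']
      have h1k : 0 < 1 + κ := by linarith
      have hnq : n + q ≠ 0 := hZ.ne'
      have hdp' : q + κ * n ≠ 0 := hdp.ne'
      have h1r : 1 + (n + κ * q) / (q + κ * n) = (1 + κ) * (n + q) / (q + κ * n) := by
        rw [eq_div_iff hdp', add_mul, div_mul_cancel₀ _ hdp']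
        ring
      rw [h1r, div_div_div_cancel_right₀ hdp']
      field_simp
      ring
  obtain ⟨r0, hr0, hR0, ha0⟩ := hreal 0
  obtain ⟨r1, hr1, hR1, ha1⟩ := hreal 1
  have hG0 : G 0 = ((Real.log r0 : ℝ) : ℂ) := by
    have : R 0 = (r0 : ℂ) := by simpa using hR0
    simp only [hG, this]
    rw [Complex.ofReal_log hr0.le]
  have hG1 : G 1 = ((Real.log r1 : ℝ) : ℂ) := by
    have : R 1 = (r1 : ℂ) := by simpa using hR1
    simp only [hG, this]
    rw [Complex.ofReal_log hr1.le]
  have hS := Crest.Agent.Lib.FiidStripSchwarz.strip_schwarz hD hGd hGim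
    (by rw [hG0]; simp) (by rw [hG1]; simp)
  rw [hG0, hG1] at hS
  simp only [Complex.ofReal_re] at hS
  have hlog := logistic_lipschitz hr1 hr0
  rw [ha1, ha0] at hlog
  have h1k : 0 < 1 + κ := by linarith
  have hsub : ((1 - κ) * tiltMean E c (fun e => h e + 1 * δ e) v + κ) / (1 + κ)
      - ((1 - κ) * tiltMean E c (fun e => h e + 0 * δ e) v + κ) / (1 + κ)
      = (1 - κ) / (1 + κ) * (tiltMean E c (fun e => h e + 1 * δ e) v
        - tiltMean E c (fun e => h e + 0 * δ e) v) := by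
    field_simp
    ring
  rw [hsub] at hlog
  by_cases hk1 : κ ≤ 1
  · rw [abs_mul, abs_of_nonneg (by apply div_nonneg <;> linarith)] at hlog
    linarith
  · have hneg : (1 - κ) / (1 + κ) < 0 := by
      apply div_neg_of_neg_of_pos <;> linarith
    have habs : 0 ≤ |tiltMean E c (fun e => h e + 1 * δ e) v
        - tiltMean E c (fun e => h e + 0 * δ e) v| := abs_nonneg _
    have : (1 - κ) / (1 + κ) * |tiltMean E c (fun e => h e + 1 * δ e) v
        - tiltMean E c (fun e => h e + 0 * δ e) v| ≤ 0 :=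
      mul_nonpos_of_nonpos_of_nonneg hneg.le habs
    linarith

/-- Monotone direction. -/
lemma mono_step {E : Finset ι} {c : Finset ι → ℝ}
    (hc : ∀ A ∈ E.powerset, 0 ≤ c A) (hpos : ∃ A ∈ E.powerset, 0 < c A)
    (hstable : ∀ z : ι → ℂ, (∀ e ∈ E, 0 < (z e).im) → mvPoly E c z ≠ 0)
    (h δ : ι → ℝ) (v : ι) {D : ℝ} (hδ : ∀ e ∈ E, 0 < δ e ∧ δ e ≤ D) (hD : 0 < D) :
    |tiltMean E c (fun e => h e + δ e) v - tiltMean E c h v| ≤ D / 4 := by
  have hk := fun κ (hκ : 0 < κ) => mono_step_kappa hc hpos hstable h δ v hδ hD hκ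
  have e1 : (fun e => h e + 1 * δ e) = fun e => h e + δ e := by
    funext e; ring
  have e0 : (fun e => h e + 0 * δ e) = h := by
    funext e; ring
  rw [e1, e0] at hk
  set X := |tiltMean E c (fun e => h e + δ e) v - tiltMean E c h v| with hX
  have ht : Filter.Tendsto (fun κ : ℝ => (1 - κ) / (1 + κ) * X) (nhdsWithin 0 (Set.Ioi 0))
      (nhds ((1 - 0) / (1 + 0) * X)) := by
    apply Filter.Tendsto.mono_left _ nhdsWithin_le_nhds
    apply ContinuousAt.tendsto
    apply ContinuousAt.mul _ continuousAt_const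
    apply ContinuousAt.div
    · fun_prop
    · fun_prop
    · norm_num
  have hle := le_of_tendsto ht (Filter.eventually_of_mem self_mem_nhdsWithin (fun κ hκ => hk κ hκ))
  simpa using hle

/-- **Sup-norm Lipschitz bound for tilted means** (by the Schwarz lemma, see plan). -/
theorem tiltMean_lipschitz (E : Finset ι) (c : Finset ι → ℝ)
    (hc : ∀ A ∈ E.powerset, 0 ≤ c A) (hpos : ∃ A ∈ E.powerset, 0 < c A)
    (hstable : ∀ z : ι → ℂ, (∀ e ∈ E, 0 < (z e).im) → mvPoly E c z ≠ 0)
    (v : ι) (h h' : ι → ℝ) (Δ : ℝ) (hΔ0 : 0 ≤ Δ) (hΔ : ∀ e ∈ E, |h e - h' e| ≤ Δ) :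
    |tiltMean E c h v - tiltMean E c h' v| ≤ (1 / 2) * Δ := by
  apply le_of_forall_pos_le_add
  intro ε hε
  set η := 2 * ε with hη
  have hηpos : 0 < η := by positivity
  set D := Δ + η with hD
  have hDpos : 0 < D := by positivity
  set δ1 : ι → ℝ := fun e => max (h' e - h e) 0 + η with hδ1
  set δ2 : ι → ℝ := fun e => max (h e - h' e) 0 + η with hδ2
  have hcommon : (fun e => h e + δ1 e) = fun e => h' e + δ2 e := by
    funext e
    simp only [hδ1, hδ2]
    rcases le_total (h' e) (h e) with hle | hle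
    · rw [max_eq_right (by linarith), max_eq_left (by linarith)]; ring
    · rw [max_eq_left (by linarith), max_eq_right (by linarith)]; ring
  have h1 : ∀ e ∈ E, 0 < δ1 e ∧ δ1 e ≤ D := by
    intro e he
    have habs := abs_le.mp (hΔ e he)
    refine ⟨by simp only [hδ1]; have := le_max_right (h' e - h e) 0; linarith, ?_⟩
    simp only [hδ1, hD]
    have : max (h' e - h e) 0 ≤ Δ := max_le (by linarith [habs.1]) hΔ0
    linarith
  have h2 : ∀ e ∈ E, 0 < δ2 e ∧ δ2 e ≤ D := by
    intro e he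
    have habs := abs_le.mp (hΔ e he)
    refine ⟨by simp only [hδ2]; have := le_max_right (h e - h' e) 0; linarith, ?_⟩
    simp only [hδ2, hD]
    have : max (h e - h' e) 0 ≤ Δ := max_le (by linarith [habs.2]) hΔ0
    linarith
  have s1 := mono_step hc hpos hstable h δ1 v h1 hDpos
  have s2 := mono_step hc hpos hstable h' δ2 v h2 hDpos
  rw [hcommon] at s1
  have htri := abs_sub_le (tiltMean E c h v) (tiltMean E c (fun e => h' e + δ2 e) v)
    (tiltMean E c h' v)
  rw [abs_sub_comm (tiltMean E c h v) (tiltMean E c (fun e => h' e + δ2 e) v)] at htri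
  have : D / 4 + D / 4 = 1 / 2 * Δ + ε := by
    simp only [hD, hη]; ring
  linarith

section Rayleigh

/-- Part of the polynomial with neither `e` nor `f`. -/
noncomputable def Sa (E : Finset ι) (c : Finset ι → ℝ) (e f : ι) (z : ι → ℂ) : ℂ :=
  ∑ A ∈ E.powerset with e ∉ A ∧ f ∉ A, (c A : ℂ) * ∏ u ∈ A, z u

/-- Coefficient of `z e` only. -/
noncomputable def Sb (E : Finset ι) (c : Finset ι → ℝ) (e f : ι) (z : ι → ℂ) : ℂ :=
  ∑ A ∈ E.powerset with e ∈ A ∧ f ∉ A, (c A : ℂ) * ∏ u ∈ A.erase e, z u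

/-- Coefficient of `z f` only. -/
noncomputable def Sc (E : Finset ι) (c : Finset ι → ℝ) (e f : ι) (z : ι → ℂ) : ℂ :=
  ∑ A ∈ E.powerset with e ∉ A ∧ f ∈ A, (c A : ℂ) * ∏ u ∈ A.erase f, z u

/-- Coefficient of `z e * z f`. -/
noncomputable def Sd (E : Finset ι) (c : Finset ι → ℝ) (e f : ι) (z : ι → ℂ) : ℂ :=
  ∑ A ∈ E.powerset with e ∈ A ∧ f ∈ A, (c A : ℂ) * ∏ u ∈ (A.erase e).erase f, z u

lemma mvPoly_split (E : Finset ι) (c : Finset ι → ℝ) {e f : ι} (hef : e ≠ f) (z : ι → ℂ) :
    mvPoly E c z = Sa E c e f z + z e * Sb E c e f z + z f * Sc E c e f z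
      + z e * z f * Sd E c e f z := by
  unfold mvPoly Sa Sb Sc Sd
  rw [← Finset.sum_filter_add_sum_filter_not E.powerset (fun A => e ∈ A)]
  rw [← Finset.sum_filter_add_sum_filter_not (E.powerset.filter (fun A => e ∈ A)) (fun A => f ∈ A)]
  rw [← Finset.sum_filter_add_sum_filter_not (E.powerset.filter (fun A => e ∉ A)) (fun A => f ∈ A)]
  simp only [Finset.filter_filter]
  rw [Finset.mul_sum, Finset.mul_sum, Finset.mul_sum]
  have h1 : ∑ A ∈ E.powerset with e ∈ A ∧ f ∈ A, (c A : ℂ) * ∏ u ∈ A, z u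
      = ∑ A ∈ E.powerset with e ∈ A ∧ f ∈ A, z e * z f * ((c A : ℂ) * ∏ u ∈ (A.erase e).erase f, z u) := by
    apply Finset.sum_congr rfl
    intro A hA
    obtain ⟨h3, h4⟩ := (Finset.mem_filter.mp hA).2
    have h5 : f ∈ A.erase e := Finset.mem_erase.mpr ⟨Ne.symm hef, h4⟩
    rw [← Finset.mul_prod_erase A z h3, ← Finset.mul_prod_erase (A.erase e) z h5]
    ring
  have h2 : ∑ A ∈ E.powerset with e ∈ A ∧ f ∉ A, (c A : ℂ) * ∏ u ∈ A, z u
      = ∑ A ∈ E.powerset with e ∈ A ∧ f ∉ A, z e * ((c A : ℂ) * ∏ u ∈ A.erase e, z u) := by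
    apply Finset.sum_congr rfl
    intro A hA
    obtain ⟨h3, _⟩ := (Finset.mem_filter.mp hA).2
    rw [← Finset.mul_prod_erase A z h3]
    ring
  have h3' : ∑ A ∈ E.powerset with e ∉ A ∧ f ∈ A, (c A : ℂ) * ∏ u ∈ A, z u
      = ∑ A ∈ E.powerset with e ∉ A ∧ f ∈ A, z f * ((c A : ℂ) * ∏ u ∈ A.erase f, z u) := by
    apply Finset.sum_congr rfl
    intro A hA
    obtain ⟨_, h4⟩ := (Finset.mem_filter.mp hA).2
    rw [← Finset.mul_prod_erase A z h4]
    ring
  rw [h1, h2, h3']
  ring

lemma Sa_update (E : Finset ι) (c : Finset ι → ℝ) (e f : ι) (z : ι → ℂ) (w w' : ℂ) :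
    Sa E c e f (Function.update (Function.update z e w) f w') = Sa E c e f z := by
  unfold Sa
  apply Finset.sum_congr rfl
  intro A hA
  obtain ⟨h3, h4⟩ := (Finset.mem_filter.mp hA).2
  congr 1
  apply Finset.prod_congr rfl
  intro u hu
  have h5 : u ≠ f := fun hh => h4 (hh ▸ hu)
  have h6 : u ≠ e := fun hh => h3 (hh ▸ hu)
  rw [Function.update_of_ne h5, Function.update_of_ne h6]

lemma Sb_update (E : Finset ι) (c : Finset ι → ℝ) (e f : ι) (z : ι → ℂ) (w w' : ℂ) :
    Sb E c e f (Function.update (Function.update z e w) f w') = Sb E c e f z := by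
  unfold Sb
  apply Finset.sum_congr rfl
  intro A hA
  obtain ⟨_, h4⟩ := (Finset.mem_filter.mp hA).2
  congr 1
  apply Finset.prod_congr rfl
  intro u hu
  have h6 : u ≠ e := (Finset.mem_erase.mp hu).1
  have h5 : u ≠ f := fun hh => h4 (hh ▸ (Finset.mem_erase.mp hu).2)
  rw [Function.update_of_ne h5, Function.update_of_ne h6]

lemma Sc_update (E : Finset ι) (c : Finset ι → ℝ) (e f : ι) (z : ι → ℂ) (w w' : ℂ) :
    Sc E c e f (Function.update (Function.update z e w) f w') = Sc E c e f z := by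
  unfold Sc
  apply Finset.sum_congr rfl
  intro A hA
  obtain ⟨h4, _⟩ := (Finset.mem_filter.mp hA).2
  congr 1
  apply Finset.prod_congr rfl
  intro u hu
  have h5 : u ≠ f := (Finset.mem_erase.mp hu).1
  have h6 : u ≠ e := fun hh => h4 (hh ▸ (Finset.mem_erase.mp hu).2)
  rw [Function.update_of_ne h5, Function.update_of_ne h6]

lemma Sd_update (E : Finset ι) (c : Finset ι → ℝ) (e f : ι) (z : ι → ℂ) (w w' : ℂ) :
    Sd E c e f (Function.update (Function.update z e w) f w') = Sd E c e f z := by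
  unfold Sd
  apply Finset.sum_congr rfl
  intro A hA
  congr 1
  apply Finset.prod_congr rfl
  intro u hu
  have h5 : u ≠ f := (Finset.mem_erase.mp hu).1
  have h6 : u ≠ e := (Finset.mem_erase.mp (Finset.mem_erase.mp hu).2).1
  rw [Function.update_of_ne h5, Function.update_of_ne h6]

/-- The line `x + i t`. -/
noncomputable def zt (x : ι → ℝ) (t : ℝ) (u : ι) : ℂ := (x u : ℂ) + (t : ℂ) * Complex.I

lemma zt_continuous (x : ι → ℝ) (u : ι) : Continuous (fun t : ℝ => zt x t u) := by
  unfold zt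
  fun_prop

lemma Sa_continuous (E : Finset ι) (c : Finset ι → ℝ) (e f : ι) (x : ι → ℝ) :
    Continuous (fun t : ℝ => Sa E c e f (zt x t)) := by
  unfold Sa
  refine continuous_finset_sum _ (fun A _ => continuous_const.mul ?_)
  exact continuous_finset_prod _ (fun u _ => zt_continuous x u)

lemma Sb_continuous (E : Finset ι) (c : Finset ι → ℝ) (e f : ι) (x : ι → ℝ) :
    Continuous (fun t : ℝ => Sb E c e f (zt x t)) := by
  unfold Sb
  refine continuous_finset_sum _ (fun A _ => continuous_const.mul ?_)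
  exact continuous_finset_prod _ (fun u _ => zt_continuous x u)

lemma Sc_continuous (E : Finset ι) (c : Finset ι → ℝ) (e f : ι) (x : ι → ℝ) :
    Continuous (fun t : ℝ => Sc E c e f (zt x t)) := by
  unfold Sc
  refine continuous_finset_sum _ (fun A _ => continuous_const.mul ?_)
  exact continuous_finset_prod _ (fun u _ => zt_continuous x u)

lemma Sd_continuous (E : Finset ι) (c : Finset ι → ℝ) (e f : ι) (x : ι → ℝ) :
    Continuous (fun t : ℝ => Sd E c e f (zt x t)) := by
  unfold Sd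
  refine continuous_finset_sum _ (fun A _ => continuous_const.mul ?_)
  exact continuous_finset_prod _ (fun u _ => zt_continuous x u)

end Rayleigh

/-- **Rayleigh inequality** at positive real points. -/
theorem rayleigh (E : Finset ι) (c : Finset ι → ℝ)
    (hc : ∀ A ∈ E.powerset, 0 ≤ c A)
    (hstable : ∀ z : ι → ℂ, (∀ e ∈ E, 0 < (z e).im) → mvPoly E c z ≠ 0)
    (e f : ι) (he : e ∈ E) (hf : f ∈ E) (hef : e ≠ f)
    (x : ι → ℝ) (hx : ∀ a ∈ E, 0 < x a) :
    (∑ A ∈ E.powerset with e ∉ A ∧ f ∉ A, c A * ∏ a ∈ A, x a) *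
        (∑ A ∈ E.powerset with e ∈ A ∧ f ∈ A, c A * ∏ a ∈ A, x a) ≤
      (∑ A ∈ E.powerset with e ∈ A ∧ f ∉ A, c A * ∏ a ∈ A, x a) *
        (∑ A ∈ E.powerset with e ∉ A ∧ f ∈ A, c A * ∏ a ∈ A, x a) := by
  -- real parts
  set ra := ∑ A ∈ E.powerset with e ∉ A ∧ f ∉ A, c A * ∏ u ∈ A, x u with hra
  set rb := ∑ A ∈ E.powerset with e ∈ A ∧ f ∉ A, c A * ∏ u ∈ A.erase e, x u with hrb
  set rc := ∑ A ∈ E.powerset with e ∉ A ∧ f ∈ A, c A * ∏ u ∈ A.erase f, x u with hrc
  set rd := ∑ A ∈ E.powerset with e ∈ A ∧ f ∈ A, c A * ∏ u ∈ (A.erase e).erase f, x u with hrd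
  have hprodpos : ∀ A ∈ E.powerset, ∀ B : Finset ι, B ⊆ A → 0 < ∏ u ∈ B, x u := by
    intro A hA B hB
    apply Finset.prod_pos
    intro u hu
    exact hx u (Finset.mem_powerset.mp hA (hB hu))
  have hra0 : 0 ≤ ra := by
    apply Finset.sum_nonneg
    intro A hA
    have hA' := (Finset.mem_filter.mp hA).1
    exact mul_nonneg (hc A hA') (hprodpos A hA' A (subset_refl _)).le
  have hrb0 : 0 ≤ rb := by
    apply Finset.sum_nonneg
    intro A hA
    have hA' := (Finset.mem_filter.mp hA).1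
    exact mul_nonneg (hc A hA') (hprodpos A hA' _ (Finset.erase_subset _ _)).le
  have hrc0 : 0 ≤ rc := by
    apply Finset.sum_nonneg
    intro A hA
    have hA' := (Finset.mem_filter.mp hA).1
    exact mul_nonneg (hc A hA') (hprodpos A hA' _ (Finset.erase_subset _ _)).le
  have hrd0 : 0 ≤ rd := by
    apply Finset.sum_nonneg
    intro A hA
    have hA' := (Finset.mem_filter.mp hA).1
    exact mul_nonneg (hc A hA') (hprodpos A hA' _
      ((Finset.erase_subset _ _).trans (Finset.erase_subset _ _))).le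
  have hxe := hx e he
  have hxf := hx f hf
  have eb : ∑ A ∈ E.powerset with e ∈ A ∧ f ∉ A, c A * ∏ a ∈ A, x a = x e * rb := by
    rw [hrb, Finset.mul_sum]
    apply Finset.sum_congr rfl
    intro A hA
    obtain ⟨h3, _⟩ := (Finset.mem_filter.mp hA).2
    rw [← Finset.mul_prod_erase A x h3]
    ring
  have ec : ∑ A ∈ E.powerset with e ∉ A ∧ f ∈ A, c A * ∏ a ∈ A, x a = x f * rc := by
    rw [hrc, Finset.mul_sum]
    apply Finset.sum_congr rfl
    intro A hA
    obtain ⟨_, h3⟩ := (Finset.mem_filter.mp hA).2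
    rw [← Finset.mul_prod_erase A x h3]
    ring
  have ed : ∑ A ∈ E.powerset with e ∈ A ∧ f ∈ A, c A * ∏ a ∈ A, x a = x e * x f * rd := by
    rw [hrd, Finset.mul_sum]
    apply Finset.sum_congr rfl
    intro A hA
    obtain ⟨h3, h4⟩ := (Finset.mem_filter.mp hA).2
    have h5 : f ∈ A.erase e := Finset.mem_erase.mpr ⟨Ne.symm hef, h4⟩
    rw [← Finset.mul_prod_erase A x h3, ← Finset.mul_prod_erase (A.erase e) x h5]
    ring
  rw [eb, ec, ed]
  by_contra hcon
  push Not at hcon
  have hxx : 0 < x e * x f := mul_pos hxe hxf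
  have hcore : rb * rc < ra * rd := by
    have h3 : (x e * x f) * (rb * rc) < (x e * x f) * (ra * rd) := by
      calc (x e * x f) * (rb * rc) = x e * rb * (x f * rc) := by ring
        _ < ra * (x e * x f * rd) := hcon
        _ = (x e * x f) * (ra * rd) := by ring
    exact lt_of_mul_lt_mul_left h3 hxx.le
  have hd_pos : 0 < rd := by
    by_contra hd
    have hd0 : rd = 0 := le_antisymm (not_lt.mp hd) hrd0
    rw [hd0] at hcore
    have := mul_nonneg hrb0 hrc0
    linarith
  -- values at t = 0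
  have z0 : zt x 0 = fun u => (x u : ℂ) := by
    funext u; simp [zt]
  have va : Sa E c e f (zt x 0) = (ra : ℂ) := by
    rw [z0, hra]; unfold Sa; push_cast; rfl
  have vb : Sb E c e f (zt x 0) = (rb : ℂ) := by
    rw [z0, hrb]; unfold Sb; push_cast; rfl
  have vc : Sc E c e f (zt x 0) = (rc : ℂ) := by
    rw [z0, hrc]; unfold Sc; push_cast; rfl
  have vd : Sd E c e f (zt x 0) = (rd : ℂ) := by
    rw [z0, hrd]; unfold Sd; push_cast; rfl
  set den : ℝ → ℂ := fun t => Sb E c e f (zt x t) + Complex.I * Sd E c e f (zt x t) with hden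
  set num : ℝ → ℂ := fun t => Sa E c e f (zt x t) + Complex.I * Sc E c e f (zt x t) with hnum
  have hden_cont : Continuous den :=
    (Sb_continuous E c e f x).add (continuous_const.mul (Sd_continuous E c e f x))
  have hnum_cont : Continuous num :=
    (Sa_continuous E c e f x).add (continuous_const.mul (Sc_continuous E c e f x))
  have hden0 : den 0 = (rb : ℂ) + Complex.I * (rd : ℂ) := by
    simp only [hden, vb, vd]
  have hnum0 : num 0 = (ra : ℂ) + Complex.I * (rc : ℂ) := by
    simp only [hnum, va, vc]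
  have hden0_ne : den 0 ≠ 0 := by
    rw [hden0]
    intro h0
    have := congrArg Complex.im h0
    simp at this
    linarith
  have him0 : 0 < (-(num 0) / den 0).im := by
    rw [hden0, hnum0, Complex.div_im]
    simp only [Complex.neg_re, Complex.neg_im, Complex.add_re, Complex.add_im, Complex.ofReal_re,
      Complex.ofReal_im, Complex.mul_re, Complex.mul_im, Complex.I_re, Complex.I_im]
    have hn : 0 < Complex.normSq ((rb : ℂ) + Complex.I * (rd : ℂ)) := by
      rw [Complex.normSq_pos]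
      intro h0
      have := congrArg Complex.im h0
      simp at this
      linarith
    have e3 : Complex.normSq ((rb : ℂ) + Complex.I * (rd : ℂ)) = rb * rb + rd * rd := by
      rw [Complex.normSq_apply]
      simp
    rw [e3] at hn ⊢
    have e4 : -(0 * rc + 1 * rc + (0 + (0 * rc - 1 * 0) * 0)) * 0 = 0 := by ring
    have hval : ∀ r : ℝ, r * r + rd * rd = r * r + rd * rd := fun _ => rfl
    have : ((-(ra + (0 * rc - 1 * 0)) * (0 + (0 * rd + 1 * 0)) / (rb * rb + rd * rd)) : ℝ) = 0 := by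
      simp
    field_simp
    simp only [zero_mul, one_mul, mul_zero, sub_zero, add_zero, zero_add]
    nlinarith
  -- small t
  have hev : ∀ᶠ t in nhdsWithin (0 : ℝ) (Set.Ioi 0), den t ≠ 0 ∧ 0 < (-(num t) / den t).im ∧ 0 < t := by
    have h1 : ∀ᶠ t in nhds (0 : ℝ), den t ≠ 0 :=
      hden_cont.continuousAt.eventually_ne hden0_ne
    have hcont : ContinuousAt (fun t => (-(num t) / den t).im) 0 := by
      apply Complex.continuous_im.continuousAt.comp
      exact (hnum_cont.continuousAt.neg).div hden_cont.continuousAt hden0_ne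
    have h2 : ∀ᶠ t in nhds (0 : ℝ), 0 < (-(num t) / den t).im :=
      hcont.eventually (lt_mem_nhds him0)
    have h3 := (h1.and h2).filter_mono (nhdsWithin_le_nhds (s := Set.Ioi (0 : ℝ)))
    filter_upwards [h3, self_mem_nhdsWithin] with t ht ht'
    exact ⟨ht.1, ht.2, ht'⟩
  obtain ⟨t, htden, htim, htpos⟩ := hev.exists
  -- contradiction with stability
  set we : ℂ := -(num t) / den t with hwe
  set z : ι → ℂ := Function.update (Function.update (zt x t) e we) f Complex.I with hz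
  have hzim : ∀ u ∈ E, 0 < (z u).im := by
    intro u _
    by_cases h1 : u = f
    · subst h1
      simp [hz]
    · by_cases h2 : u = e
      · subst h2
        simp only [hz, Function.update_of_ne h1, Function.update_self]
        exact htim
      · simp only [hz, Function.update_of_ne h1, Function.update_of_ne h2]
        simpa [zt] using htpos
  have hsplit := mvPoly_split E c hef z
  have hze : z e = we := by
    simp only [hz, Function.update_of_ne hef, Function.update_self]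
  have hzf : z f = Complex.I := by
    simp [hz]
  rw [hz, Sa_update, Sb_update, Sc_update, Sd_update, ← hz, hze, hzf] at hsplit
  have hzero : mvPoly E c z = 0 := by
    rw [hsplit]
    have e5 : num t = Sa E c e f (zt x t) + Complex.I * Sc E c e f (zt x t) := rfl
    have e6 : den t = Sb E c e f (zt x t) + Complex.I * Sd E c e f (zt x t) := rfl
    have e7 : we * den t = -(num t) := by
      rw [hwe]; exact div_mul_cancel₀ _ htden
    rw [e5, e6] at e7
    linear_combination e7
  exact hstable z hzim hzero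

end Crest.Agent.Lib.FiidStablePoly
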