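import Crest.Agent.Lib.FiidCauchy
import Crest.Agent.Lib.FiidStablePoly
import Crest.Prelude.Def_StronglyRayleigh

/-!
# From generating polynomials to tilted means
-/

set_option autoImplicit false

namespace Crest.Agent.Lib.FiidBridge

open MeasureTheory
open Crest.Agent.Lib.FiidRun Crest.Agent.Lib.FiidCauchy Crest.Agent.Lib.FiidStablePoly
open Crest.Agent.Lib.FiidPlanted
open Crest.ProbabilityR.StronglyRayleigh

set_option linter.unusedSectionVars false

variable {ι : Type*} [DecidableEq ι]

/-- The cylinder of the configurations occupied exactly at `S` within `F`. -/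
private def cyl (F S : Finset ι) : Set (ι → Bool) := {ω | ∀ i ∈ F, (ω i = true ↔ i ∈ S)}

private lemma measurableSet_cyl (F S : Finset ι) : MeasurableSet (cyl F S) := by
  have : cyl F S = ⋂ i ∈ F, {ω : ι → Bool | ω i = true ↔ i ∈ S} := by
    ext ω; simp [cyl]
  rw [this]
  refine Finset.measurableSet_biInter F fun i _ => ?_
  by_cases hi : i ∈ S
  · simp only [hi, iff_true]
    have : {ω : ι → Bool | ω i = true} = (fun ω : ι → Bool => ω i) ⁻¹' {true} := by
      ext ω; simp
    rw [this]
    exact measurable_pi_apply i (measurableSet_singleton true)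
  · simp only [hi, iff_false]
    have : {ω : ι → Bool | ¬ ω i = true} = (fun ω : ι → Bool => ω i) ⁻¹' {false} := by
      ext ω; simp
    rw [this]
    exact measurable_pi_apply i (measurableSet_singleton false)

/-- The pattern of a configuration on `F`. -/
private def pat (F : Finset ι) (ω : ι → Bool) : Finset ι := F.filter (fun i => ω i = true)

private lemma mem_cyl_iff {F S : Finset ι} (hS : S ⊆ F) (ω : ι → Bool) : ω ∈ cyl F S ↔ pat F ω = S := by
  constructor
  · intro h
    ext i
    simp only [pat, Finset.mem_filter]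
    constructor
    · rintro ⟨hi, hω⟩
      exact (h i hi).mp hω
    · intro hi
      exact ⟨hS hi, (h i (hS hi)).mpr hi⟩
  · rintro rfl i hi
    simp [pat, hi]

private lemma pat_mem (F : Finset ι) (ω : ι → Bool) : pat F ω ∈ F.powerset :=
  Finset.mem_powerset.mpr (Finset.filter_subset _ _)

/-- Integrating a function of the pattern. -/
private lemma integral_pat (ν : Measure (ι → Bool)) [IsProbabilityMeasure ν] (F : Finset ι)
    (G : Finset ι → ℝ) :
    ∫ ω, G (pat F ω) ∂ν = ∑ S ∈ F.powerset, (ν (cyl F S)).toReal * G S := by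
  have h1 : ∀ ω, G (pat F ω) = ∑ S ∈ F.powerset, (cyl F S).indicator (fun _ => G S) ω := by
    intro ω
    rw [Finset.sum_eq_single_of_mem (pat F ω) (pat_mem F ω)]
    · rw [Set.indicator_of_mem]
      exact (mem_cyl_iff (Finset.mem_powerset.mp (pat_mem F ω)) ω).mpr rfl
    · intro S hS hne
      rw [Set.indicator_of_notMem]
      intro hmem
      exact hne ((mem_cyl_iff (Finset.mem_powerset.mp hS) ω).mp hmem).symm
  simp_rw [h1]
  rw [integral_finsetSum]
  · refine Finset.sum_congr rfl fun S _ => ?_
    rw [integral_indicator (measurableSet_cyl F S)]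
    simp [Measure.real]
  · intro S _
    exact (integrable_const (G S)).indicator (measurableSet_cyl F S)

private lemma tw_eq_pat (F : Finset ι) (h : ι → ℝ) (ω : ι → Bool) :
    tw F h ω = Real.exp (∑ e ∈ pat F ω, h e) := by
  unfold tw pat
  congr 1
  rw [Finset.sum_filter]
  refine Finset.sum_congr rfl fun u _ => ?_
  cases hω : ω u <;> simp [b2r]

/-- The tilted mean of a law is the tilted mean of the finite marginal polynomial. -/
theorem tmean_eq_tiltMean (ν : Measure (ι → Bool)) [IsProbabilityMeasure ν] (F : Finset ι) (h : ι → ℝ) (v : ι)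
    (hv : v ∈ F) :
    tmean ν F h v = tiltMean F (fun S => (ν {ω | ∀ i ∈ F, (ω i = true ↔ i ∈ S)}).toReal) h v := by
  unfold tmean tiltMean tiltZ
  have hd : ∫ ω, tw F h ω ∂ν =
      ∑ A ∈ F.powerset, (ν {ω | ∀ i ∈ F, (ω i = true ↔ i ∈ A)}).toReal * Real.exp (∑ e ∈ A, h e) := by
    have := integral_pat ν F (fun S => Real.exp (∑ e ∈ S, h e))
    simp only [← tw_eq_pat] at this
    exact this
  have hn : ∫ ω, b2r (ω v) * tw F h ω ∂ν =
      ∑ A ∈ F.powerset with v ∈ A,
        (ν {ω | ∀ i ∈ F, (ω i = true ↔ i ∈ A)}).toReal * Real.exp (∑ e ∈ A, h e) := by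
    have := integral_pat ν F (fun S => (if v ∈ S then 1 else 0) * Real.exp (∑ e ∈ S, h e))
    simp only [← tw_eq_pat] at this
    have e1 : ∀ ω : ι → Bool, b2r (ω v) = if v ∈ pat F ω then 1 else 0 := by
      intro ω
      simp only [pat, Finset.mem_filter, hv, true_and]
      cases hω : ω v <;> simp [b2r]
    simp_rw [e1]
    rw [this, Finset.sum_filter]
    refine Finset.sum_congr rfl fun S _ => ?_
    by_cases hS : v ∈ S
    · simp only [hS, if_true, one_mul]
      rfl
    · simp [hS]
  rw [hd, hn]

private lemma sum_cyl_eq_one (ν : Measure (ι → Bool)) [IsProbabilityMeasure ν] (F : Finset ι) :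
    ∑ S ∈ F.powerset, (ν (cyl F S)).toReal = 1 := by
  have := integral_pat ν F (fun _ => 1)
  simp only [integral_const, mul_one] at this
  rw [← this]
  simp

/-- Strongly Rayleigh laws have `1/2`-Lipschitz tilted means. -/
theorem tiltLip_of_stronglyRayleigh (ν : Measure (ι → Bool)) [IsProbabilityMeasure ν]
    (hsr : IsStronglyRayleigh ν) : TiltLip ν := by
  intro W v hv h h' Δ hΔ
  rw [tmean_eq_tiltMean ν W h v hv, tmean_eq_tiltMean ν W h' v hv]
  refine tiltMean_lipschitz W _ (fun _ _ => ENNReal.toReal_nonneg) ?_ ?_ v h h' Δ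
    ((abs_nonneg _).trans (hΔ v hv)) hΔ
  · by_contra hcon
    push Not at hcon
    have h0 : ∑ S ∈ W.powerset, (ν (cyl W S)).toReal ≤ 0 :=
      Finset.sum_nonpos fun S hS => hcon S hS
    rw [sum_cyl_eq_one] at h0
    linarith
  · intro z hz
    have := hsr W z hz
    unfold genPoly at this
    unfold mvPoly
    exact this

end Crest.Agent.Lib.FiidBridge
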