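import Crest.Agent.Lib.FiidLaw

/-!
# Runs on growing finite sets are Cauchy in L¹
-/

set_option autoImplicit false

namespace Crest.Agent.Lib.FiidCauchy

open MeasureTheory Set
open scoped unitInterval
open Crest.Agent.Lib.FiidChannel Crest.Agent.Lib.FiidPlanted Crest.Agent.Lib.FiidRun
  Crest.Agent.Lib.FiidLaw

variable {ι : Type*}

/-- Tilted means are `1/2`-Lipschitz in sup norm. -/
def TiltLip (ν : Measure (ι → Bool)) : Prop :=
  ∀ (W : Finset ι) (v : ι), v ∈ W → ∀ (h h' : ι → ℝ) (Δ : ℝ), (∀ u ∈ W, |h u - h' u| ≤ Δ) →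
    |tmean ν W h v - tmean ν W h' v| ≤ (1 / 2) * Δ

/-- The noise space: labels and noise. -/
abbrev Xi (ι : Type*) := (ι → I) × (ι × ℕ → I)

/-- The law of the noise. -/
noncomputable def PXi (ι : Type*) : Measure (Xi ι) := (Lam ι).prod (Lam (ι × ℕ))

instance : IsProbabilityMeasure (PXi ι) := by unfold PXi; infer_instance

/-! ### Basic bounds on the oracle -/

section oracle

variable (ν : Measure (ι → Bool)) [IsProbabilityMeasure ν]

lemma tw_pos (F : Finset ι) (h : ι → ℝ) (ω : ι → Bool) : 0 < tw F h ω := Real.exp_pos _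

lemma tw_le (F : Finset ι) (h : ι → ℝ) (ω : ι → Bool) :
    tw F h ω ≤ Real.exp (∑ u ∈ F, |h u|) := by
  unfold tw
  apply Real.exp_le_exp.mpr
  apply Finset.sum_le_sum
  intro u _
  have h0 := b2r_nonneg (ω u)
  have h1 := b2r_le_one (ω u)
  calc b2r (ω u) * h u ≤ |b2r (ω u) * h u| := le_abs_self _
    _ = b2r (ω u) * |h u| := by rw [abs_mul, abs_of_nonneg h0]
    _ ≤ 1 * |h u| := mul_le_mul_of_nonneg_right h1 (abs_nonneg _)
    _ = |h u| := one_mul _

lemma tw_ge (F : Finset ι) (h : ι → ℝ) (ω : ι → Bool) :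
    Real.exp (-∑ u ∈ F, |h u|) ≤ tw F h ω := by
  unfold tw
  apply Real.exp_le_exp.mpr
  rw [← Finset.sum_neg_distrib]
  apply Finset.sum_le_sum
  intro u _
  have h0 := b2r_nonneg (ω u)
  have h1 := b2r_le_one (ω u)
  have : |b2r (ω u) * h u| ≤ |h u| := by
    rw [abs_mul, abs_of_nonneg h0]
    calc b2r (ω u) * |h u| ≤ 1 * |h u| := mul_le_mul_of_nonneg_right h1 (abs_nonneg _)
      _ = |h u| := one_mul _
  linarith [neg_abs_le (b2r (ω u) * h u)]

lemma integrable_tw (F : Finset ι) (h : ι → ℝ) : Integrable (tw F h) ν := by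
  refine Integrable.of_bound ?_ (Real.exp (∑ u ∈ F, |h u|)) (Filter.Eventually.of_forall fun ω => ?_)
  · exact ((measurable_tw_pair F).comp (measurable_const.prodMk measurable_id)).aestronglyMeasurable
  · rw [Real.norm_eq_abs, abs_of_pos (tw_pos F h ω)]
    exact tw_le F h ω

lemma integrable_occ_tw (F : Finset ι) (h : ι → ℝ) (v : ι) :
    Integrable (fun ω => b2r (ω v) * tw F h ω) ν := by
  refine Integrable.of_bound ?_ (Real.exp (∑ u ∈ F, |h u|)) (Filter.Eventually.of_forall fun ω => ?_)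
  · exact ((measurable_b2r.comp (measurable_pi_apply v)).mul
      ((measurable_tw_pair F).comp (measurable_const.prodMk measurable_id))).aestronglyMeasurable
  · rw [Real.norm_eq_abs, abs_mul, abs_of_nonneg (b2r_nonneg _), abs_of_pos (tw_pos F h ω)]
    calc b2r (ω v) * tw F h ω ≤ 1 * tw F h ω :=
          mul_le_mul_of_nonneg_right (b2r_le_one _) (tw_pos F h ω).le
      _ ≤ _ := by rw [one_mul]; exact tw_le F h ω

lemma integral_tw_pos (F : Finset ι) (h : ι → ℝ) : 0 < ∫ ω, tw F h ω ∂ν := by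
  have h1 : Real.exp (-∑ u ∈ F, |h u|) ≤ ∫ ω, tw F h ω ∂ν := by
    have := integral_mono (μ := ν) (f := fun _ => Real.exp (-∑ u ∈ F, |h u|)) (g := tw F h)
      (integrable_const _) (integrable_tw ν F h) (fun ω => tw_ge F h ω)
    simpa using this
  exact lt_of_lt_of_le (Real.exp_pos _) h1

lemma tmean_nonneg (F : Finset ι) (h : ι → ℝ) (v : ι) : 0 ≤ tmean ν F h v := by
  unfold tmean
  refine div_nonneg (integral_nonneg fun ω => ?_) (integral_tw_pos ν F h).le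
  exact mul_nonneg (b2r_nonneg _) (tw_pos F h ω).le

lemma tmean_le_one (F : Finset ι) (h : ι → ℝ) (v : ι) : tmean ν F h v ≤ 1 := by
  unfold tmean
  rw [div_le_one (integral_tw_pos ν F h)]
  apply integral_mono (integrable_occ_tw ν F h v) (integrable_tw ν F h)
  intro ω
  simp only
  calc b2r (ω v) * tw F h ω ≤ 1 * tw F h ω :=
        mul_le_mul_of_nonneg_right (b2r_le_one _) (tw_pos F h ω).le
    _ = tw F h ω := one_mul _

end oracle

/-! ### Quantities along the run -/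

section run

variable (ν : Measure (ι → Bool)) [IsProbabilityMeasure ν]

/-- The run as a function on the noise space. -/
noncomputable def Yr (F : Finset ι) (q : Xi ι) : ι × ℕ → I := runY (tmean ν) F q.1 q.2

lemma measurable_Yr (F : Finset ι) : Measurable (Yr ν F) := measurable_runY_UW ν F

/-- The tilt at a stage in the run on `F`. -/
noncomputable def tiltR (F : Finset ι) (q : Xi ι) (k : ℕ) (v : ι) : ι → ℝ :=
  stageTilt q.1 (Yr ν F q) k v

lemma measurable_tiltR (F : Finset ι) (k : ℕ) (v : ι) :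
    Measurable (fun q : Xi ι => tiltR ν F q k v) :=
  measurable_stageTilt (U := fun q : Xi ι => q.1) (Y := Yr ν F) measurable_fst (measurable_Yr ν F) k v

/-- The posterior mean at a stage in the run on `F`, computed with the finite set `W₀`. -/
noncomputable def aR (F W₀ : Finset ι) (q : Xi ι) (k : ℕ) (v : ι) : ℝ :=
  tmean ν W₀ (tiltR ν F q k v) v

lemma bm_aR (F W₀ : Finset ι) (k : ℕ) (v : ι) : BM (fun q : Xi ι => aR ν F W₀ q k v) := by
  refine ⟨(measurable_tmean ν W₀ v).comp (measurable_tiltR ν F k v), 1, fun q => ?_⟩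
  show |tmean ν W₀ (tiltR ν F q k v) v| ≤ 1
  rw [abs_of_nonneg (tmean_nonneg ν _ _ _)]
  exact tmean_le_one ν _ _ _

/-- The local error. -/
noncomputable def errR (F W₀ : Finset ι) (q : Xi ι) (k : ℕ) (v : ι) : ℝ :=
  |aR ν F F q k v - aR ν F W₀ q k v|

lemma errR_nonneg (F W₀ : Finset ι) (q : Xi ι) (k : ℕ) (v : ι) : 0 ≤ errR ν F W₀ q k v := abs_nonneg _

lemma bm_errR (F W₀ : Finset ι) (k : ℕ) (v : ι) : BM (fun q : Xi ι => errR ν F W₀ q k v) := by
  have := (bm_aR ν F F k v).sub (bm_aR ν F W₀ k v)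
  refine ⟨this.1.abs, ?_⟩
  obtain ⟨_, C, hC⟩ := this
  exact ⟨C, fun q => by
    unfold errR
    rw [abs_abs]
    exact hC q⟩

variable [DecidableEq ι]

/-- The averaged energy at a stage. -/
noncomputable def Gn (S : Finset ι) (k : ℕ) (v : ι) : ℝ :=
  ∫ U, energy ν (stagesBefore S U k v) v ∂Lam ι

open Classical in
lemma measurable_energy_stages (S : Finset ι) (k : ℕ) (v : ι) :
    Measurable (fun U : ι → I => energy ν (stagesBefore S U k v) v) := by
  -- finitely many values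
  have h : ∀ U : ι → I, energy ν (stagesBefore S U k v) v =
      ∑ B ∈ S.powerset, (if S.filter (fun u => U u < U v) = B then
        energy ν (S ×ˢ Finset.range k ∪ B ×ˢ {k}) v else 0) := by
    intro U
    rw [Finset.sum_eq_single (S.filter (fun u => U u < U v))]
    · rw [if_pos rfl]; rfl
    · intro B _ hB
      rw [if_neg (Ne.symm hB)]
    · intro hn
      exact absurd (Finset.mem_powerset.mpr (Finset.filter_subset _ _)) hn
  simp_rw [h]
  refine Finset.measurable_sum _ fun B hB => Measurable.ite ?_ measurable_const measurable_const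
  have hB' := Finset.mem_powerset.mp hB
  have hset : {U : ι → I | S.filter (fun u => U u < U v) = B} =
      ⋂ u ∈ S, {U : ι → I | (U u < U v) ↔ u ∈ B} := by
    ext U
    simp only [mem_setOf_eq, mem_iInter, Finset.ext_iff, Finset.mem_filter]
    constructor
    · intro h u hu
      have := h u
      tauto
    · intro h u
      by_cases hu : u ∈ S
      · have := h u hu
        tauto
      · constructor
        · rintro ⟨h1, _⟩; exact absurd h1 hu
        · intro h1; exact absurd (hB' h1) hu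
  rw [hset]
  refine Finset.measurableSet_biInter S fun u _ => ?_
  have hlt : MeasurableSet {U : ι → I | U u < U v} :=
    measurableSet_lt (measurable_pi_apply u) (measurable_pi_apply v)
  by_cases hu : u ∈ B
  · have e : {U : ι → I | (U u < U v) ↔ u ∈ B} = {U : ι → I | U u < U v} := by
      ext U; simp [hu]
    rw [e]; exact hlt
  · have e : {U : ι → I | (U u < U v) ↔ u ∈ B} = {U : ι → I | U u < U v}ᶜ := by
      ext U; simp [hu]
    rw [e]; exact hlt.compl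

lemma integrable_energy_stages (S : Finset ι) (k : ℕ) (v : ι) :
    Integrable (fun U : ι → I => energy ν (stagesBefore S U k v) v) (Lam ι) := by
  refine Integrable.of_bound (measurable_energy_stages ν S k v).aestronglyMeasurable 1
    (Filter.Eventually.of_forall fun U => ?_)
  rw [Real.norm_eq_abs, abs_of_nonneg (energy_nonneg ν _ _)]
  exact energy_le_one ν _ _

lemma stagesBefore_mono {S S' : Finset ι} (h : S ⊆ S') (U : ι → I) (k : ℕ) (v : ι) :
    stagesBefore S U k v ⊆ stagesBefore S' U k v := by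
  intro c hc
  rw [mem_stagesBefore] at hc ⊢
  exact ⟨h hc.1, hc.2⟩

lemma Gn_mono {S S' : Finset ι} (h : S ⊆ S') (k : ℕ) (v : ι) : Gn ν S k v ≤ Gn ν S' k v :=
  integral_mono (integrable_energy_stages ν S k v) (integrable_energy_stages ν S' k v)
    (fun U => energy_mono ν (stagesBefore_mono h U k v) v)

lemma Gn_nonneg (S : Finset ι) (k : ℕ) (v : ι) : 0 ≤ Gn ν S k v :=
  integral_nonneg fun _ => energy_nonneg ν _ _

lemma Gn_le_one (S : Finset ι) (k : ℕ) (v : ι) : Gn ν S k v ≤ 1 := by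
  calc Gn ν S k v ≤ ∫ _U, (1:ℝ) ∂Lam ι :=
        integral_mono (integrable_energy_stages ν S k v) (integrable_const (1:ℝ))
          (fun U => energy_le_one ν _ _)
    _ = 1 := by simp

/-- Labels are a.s. distinct. -/
lemma ae_label_ne {u v : ι} (huv : u ≠ v) : ∀ᵐ U ∂(Lam ι), U u ≠ U v := by
  have hS : MeasurableSet {U : ι → I | U u = U v} :=
    measurableSet_eq_fun (measurable_pi_apply u) (measurable_pi_apply v)
  have h1 : Lam ι {U : ι → I | U u = U v} = 0 := by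
    conv_lhs => rw [← map_update_prod u]
    rw [Measure.map_apply (measurable_update_pair u) hS,
      Measure.measure_prod_null ((measurable_update_pair u) hS)]
    filter_upwards with U
    have : (Prod.mk U ⁻¹' ((fun p : (ι → I) × I => Function.update p.1 u p.2) ⁻¹'
        {U : ι → I | U u = U v})) = {U v} := by
      ext r
      simp [Function.update_of_ne huv.symm]
    show volume (Prod.mk U ⁻¹' ((fun p : (ι → I) × I => Function.update p.1 u p.2) ⁻¹'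
        {U : ι → I | U u = U v})) = 0
    rw [this]
    simp
  rw [ae_iff]
  simpa using h1

lemma ae_injOn (F : Finset ι) : ∀ᵐ U ∂(Lam ι), Set.InjOn U F := by
  have : ∀ᵐ U ∂(Lam ι), ∀ u ∈ F, ∀ v ∈ F, u ≠ v → U u ≠ U v := by
    rw [Filter.eventually_all_finset]
    intro u _
    rw [Filter.eventually_all_finset]
    intro v _
    by_cases huv : u = v
    · simp [huv]
    · filter_upwards [ae_label_ne huv] with U hU _
      exact hU
  filter_upwards [this] with U hU u hu v hv huv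
  by_contra hne
  exact hU u hu v hv hne huv

/-- The L² norm of the local error is an energy gap. -/
lemma integral_errR_sq {F W₀ : Finset ι} (hW : W₀ ⊆ F) (k : ℕ) (v : ι) :
    ∫ q, errR ν F W₀ q k v ^ 2 ∂(PXi ι) = Gn ν F k v - Gn ν W₀ k v := by
  have hbm : BM (fun q : Xi ι => errR ν F W₀ q k v ^ 2) := by
    simpa [pow_two] using (bm_errR ν F W₀ k v).mul (bm_errR ν F W₀ k v)
  unfold PXi
  rw [integral_prod _ (hbm.integrable _)]
  unfold Gn
  rw [← integral_sub (integrable_energy_stages ν F k v) (integrable_energy_stages ν W₀ k v)]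
  apply integral_congr_ae
  filter_upwards [ae_injOn F] with U hU
  have := run_post_gap ν F W₀ hW U hU k v
  rw [← this]
  apply integral_congr_ae
  filter_upwards with W
  show errR ν F W₀ (U, W) k v ^ 2 = _
  unfold errR
  rw [sq_abs]
  rfl

/-- L¹ norm is at most L² norm. -/
lemma integral_le_sqrt_integral_sq {Ω : Type*} [MeasurableSpace Ω] {μ : Measure Ω} [IsProbabilityMeasure μ]
    {f : Ω → ℝ} (hf : BM f) : ∫ x, f x ∂μ ≤ Real.sqrt (∫ x, f x ^ 2 ∂μ) := by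
  apply Real.le_sqrt_of_sq_le
  set m := ∫ x, f x ∂μ with hm
  have h2 : BM (fun x => f x ^ 2) := by simpa [pow_two] using hf.mul hf
  have h0 : 0 ≤ ∫ x, (f x - m) ^ 2 ∂μ := integral_nonneg fun x => sq_nonneg _
  have e : ∀ x, (f x - m) ^ 2 = f x ^ 2 - 2 * m * f x + m ^ 2 := fun x => by ring
  simp_rw [e] at h0
  have i1 : Integrable (fun x => f x ^ 2) μ := h2.integrable μ
  have i2 : Integrable (fun x => 2 * m * f x) μ := (hf.integrable μ).const_mul _
  have i12 : Integrable (fun x => f x ^ 2 - 2 * m * f x) μ := i1.sub i2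
  rw [integral_add i12 (integrable_const _), integral_sub i1 i2, integral_const_mul,
    integral_const] at h0
  simp at h0
  nlinarith

lemma integral_errR_le {F W₀ : Finset ι} (hW : W₀ ⊆ F) (k : ℕ) (v : ι) :
    ∫ q, errR ν F W₀ q k v ∂(PXi ι) ≤ Real.sqrt (Gn ν F k v - Gn ν W₀ k v) := by
  rw [← integral_errR_sq ν hW k v]
  exact integral_le_sqrt_integral_sq (bm_errR ν F W₀ k v)

/-! ### Pathwise recursion -/

/-- Cumulative log likelihood of the first `k` rounds at `u`. -/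
noncomputable def cum (Y : ι × ℕ → I) (u : ι) (k : ℕ) : ℝ := ∑ i ∈ Finset.range k, ell (Y (u, i))

omit [IsProbabilityMeasure ν] [DecidableEq ι] in
lemma stageTilt_eq (U : ι → I) (Y : ι × ℕ → I) (k : ℕ) (v u : ι) :
    stageTilt U Y k v u = if U u < U v then cum Y u (k + 1) else cum Y u k := by
  unfold stageTilt cum
  split_ifs
  · rw [Finset.sum_range_succ]
  · simp

/-- Difference of cumulative likelihoods. -/
noncomputable def dC (F₁ F₂ : Finset ι) (q : Xi ι) (c : ι × ℕ) : ℝ :=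
  |cum (Yr ν F₁ q) c.1 c.2 - cum (Yr ν F₂ q) c.1 c.2|

/-- Sup of the differences over sites in `V` and rounds up to `k`. -/
noncomputable def Msup (F₁ F₂ V : Finset ι) (k : ℕ) (q : Xi ι) : ℝ :=
  ((V ×ˢ Finset.range (k + 1)).sup (fun c => Real.toNNReal (dC ν F₁ F₂ q c)) : NNReal)

lemma Msup_nonneg (F₁ F₂ V : Finset ι) (k : ℕ) (q : Xi ι) : 0 ≤ Msup ν F₁ F₂ V k q :=
  NNReal.coe_nonneg _

lemma dC_nonneg (F₁ F₂ : Finset ι) (q : Xi ι) (c : ι × ℕ) : 0 ≤ dC ν F₁ F₂ q c := abs_nonneg _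

lemma dC_le_Msup (F₁ F₂ V : Finset ι) (k : ℕ) (q : Xi ι) {u : ι} (hu : u ∈ V) {i : ℕ} (hi : i ≤ k) :
    dC ν F₁ F₂ q (u, i) ≤ Msup ν F₁ F₂ V k q := by
  have h : Real.toNNReal (dC ν F₁ F₂ q (u, i)) ≤
      (V ×ˢ Finset.range (k + 1)).sup (fun c => Real.toNNReal (dC ν F₁ F₂ q c)) :=
    Finset.le_sup (f := fun c => Real.toNNReal (dC ν F₁ F₂ q c))
      (Finset.mem_product.mpr ⟨hu, Finset.mem_range.mpr (by omega)⟩)
  have h2 := NNReal.coe_le_coe.mpr h
  rwa [Real.coe_toNNReal _ (dC_nonneg ν F₁ F₂ q _)] at h2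

lemma Msup_le (F₁ F₂ V : Finset ι) (k : ℕ) (q : Xi ι) {B : ℝ} (hB : 0 ≤ B)
    (h : ∀ u ∈ V, ∀ i ≤ k, dC ν F₁ F₂ q (u, i) ≤ B) : Msup ν F₁ F₂ V k q ≤ B := by
  unfold Msup
  have : (V ×ˢ Finset.range (k + 1)).sup (fun c => Real.toNNReal (dC ν F₁ F₂ q c)) ≤ Real.toNNReal B := by
    apply Finset.sup_le
    rintro ⟨u, i⟩ hc
    rw [Finset.mem_product, Finset.mem_range] at hc
    exact Real.toNNReal_le_toNNReal (h u hc.1 i (by simp at hc; omega))
  have h2 := NNReal.coe_le_coe.mpr this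
  rwa [Real.coe_toNNReal _ hB] at h2

lemma tilt_diff_le (F₁ F₂ W₀ : Finset ι) (q : Xi ι) (k : ℕ) (v : ι) {u : ι} (hu : u ∈ W₀) :
    |tiltR ν F₁ q k v u - tiltR ν F₂ q k v u| ≤ Msup ν F₁ F₂ W₀ (k + 1) q := by
  unfold tiltR
  rw [stageTilt_eq, stageTilt_eq]
  split_ifs
  · exact dC_le_Msup ν F₁ F₂ W₀ (k + 1) q hu le_rfl
  · exact dC_le_Msup ν F₁ F₂ W₀ (k + 1) q hu (by omega)

/-- The posterior means in the two runs at a stage. -/
lemma post_diff_le (hLip : TiltLip ν) (F₁ F₂ W₀ : Finset ι) (q : Xi ι) (k : ℕ) {v : ι} (hv : v ∈ W₀) :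
    |aR ν F₁ F₁ q k v - aR ν F₂ F₂ q k v| ≤
      errR ν F₁ W₀ q k v + errR ν F₂ W₀ q k v + (1 / 2) * Msup ν F₁ F₂ W₀ (k + 1) q := by
  have h1 : |aR ν F₁ W₀ q k v - aR ν F₂ W₀ q k v| ≤ (1 / 2) * Msup ν F₁ F₂ W₀ (k + 1) q :=
    hLip W₀ v hv _ _ _ (fun u hu => tilt_diff_le ν F₁ F₂ W₀ q k v hu)
  have e : aR ν F₁ F₁ q k v - aR ν F₂ F₂ q k v =
      (aR ν F₁ F₁ q k v - aR ν F₁ W₀ q k v) + (aR ν F₁ W₀ q k v - aR ν F₂ W₀ q k v) -
        (aR ν F₂ F₂ q k v - aR ν F₂ W₀ q k v) := by ring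
  rw [e]
  calc _ ≤ |(aR ν F₁ F₁ q k v - aR ν F₁ W₀ q k v) + (aR ν F₁ W₀ q k v - aR ν F₂ W₀ q k v)| +
        |aR ν F₂ F₂ q k v - aR ν F₂ W₀ q k v| := abs_sub _ _
    _ ≤ |aR ν F₁ F₁ q k v - aR ν F₁ W₀ q k v| + |aR ν F₁ W₀ q k v - aR ν F₂ W₀ q k v| +
        |aR ν F₂ F₂ q k v - aR ν F₂ W₀ q k v| := by gcongr; exact abs_add_le _ _
    _ ≤ _ := by
      unfold errR
      linarith

lemma Yr_eq (F : Finset ι) (q : Xi ι) (b : ι × ℕ) :
    Yr ν F q b = T (aR ν F F q b.2 b.1) (q.2 b) :=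
  runY_eq (tmean_local ν) F q.1 q.2 b

lemma ell_diff_le (F₁ F₂ : Finset ι) (q : Xi ι) (k : ℕ) (v : ι) :
    |ell (Yr ν F₁ q (v, k)) - ell (Yr ν F₂ q (v, k))| ≤
      (1 / 2) * |aR ν F₁ F₁ q k v - aR ν F₂ F₂ q k v| := by
  rw [Yr_eq ν F₁ q (v, k), Yr_eq ν F₂ q (v, k)]
  exact ell_T_lipschitz _ _ _

lemma aR_diff_le_one (F₁ F₂ : Finset ι) (q : Xi ι) (k : ℕ) (v : ι) :
    |aR ν F₁ F₁ q k v - aR ν F₂ F₂ q k v| ≤ 1 := by
  unfold aR
  have h1 := tmean_nonneg ν F₁ (tiltR ν F₁ q k v) v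
  have h2 := tmean_le_one ν F₁ (tiltR ν F₁ q k v) v
  have h3 := tmean_nonneg ν F₂ (tiltR ν F₂ q k v) v
  have h4 := tmean_le_one ν F₂ (tiltR ν F₂ q k v) v
  rw [abs_le]; constructor <;> linarith

lemma dC_succ_le (F₁ F₂ : Finset ι) (q : Xi ι) (k : ℕ) (v : ι) :
    dC ν F₁ F₂ q (v, k + 1) ≤ dC ν F₁ F₂ q (v, k) +
      (1 / 2) * |aR ν F₁ F₁ q k v - aR ν F₂ F₂ q k v| := by
  unfold dC cum
  simp only
  rw [Finset.sum_range_succ, Finset.sum_range_succ]
  have e : ∑ i ∈ Finset.range k, ell (Yr ν F₁ q (v, i)) + ell (Yr ν F₁ q (v, k)) -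
      (∑ i ∈ Finset.range k, ell (Yr ν F₂ q (v, i)) + ell (Yr ν F₂ q (v, k))) =
      (∑ i ∈ Finset.range k, ell (Yr ν F₁ q (v, i)) - ∑ i ∈ Finset.range k, ell (Yr ν F₂ q (v, i))) +
      (ell (Yr ν F₁ q (v, k)) - ell (Yr ν F₂ q (v, k))) := by ring
  rw [e]
  exact (abs_add_le _ _).trans (add_le_add_right (ell_diff_le ν F₁ F₂ q k v) _)

lemma dC_zero (F₁ F₂ : Finset ι) (q : Xi ι) (v : ι) : dC ν F₁ F₂ q (v, 0) = 0 := by
  simp [dC, cum]

lemma dC_le_half (F₁ F₂ : Finset ι) (q : Xi ι) (v : ι) (i : ℕ) : dC ν F₁ F₂ q (v, i) ≤ i / 2 := by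
  induction i with
  | zero => simp [dC_zero]
  | succ i ih =>
    have h1 := dC_succ_le ν F₁ F₂ q i v
    have h2 := aR_diff_le_one ν F₁ F₂ q i v
    push_cast
    linarith

lemma Msup_zero (F₁ F₂ V : Finset ι) (q : Xi ι) : Msup ν F₁ F₂ V 0 q = 0 := by
  apply le_antisymm _ (Msup_nonneg ν F₁ F₂ V 0 q)
  apply Msup_le ν F₁ F₂ V 0 q le_rfl
  intro u _ i hi
  obtain rfl : i = 0 := by omega
  rw [dC_zero]

lemma Msup_le_half (F₁ F₂ V : Finset ι) (k : ℕ) (q : Xi ι) : Msup ν F₁ F₂ V k q ≤ k / 2 := by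
  apply Msup_le ν F₁ F₂ V k q (by positivity)
  intro u _ i hi
  refine (dC_le_half ν F₁ F₂ q u i).trans ?_
  have : (i:ℝ) ≤ k := by exact_mod_cast hi
  linarith

/-- The one step recursion for the suprema. -/
lemma Msup_succ_le (hLip : TiltLip ν) (F₁ F₂ V W₀ : Finset ι) (hVW : V ⊆ W₀) (k : ℕ) (q : Xi ι) :
    Msup ν F₁ F₂ V (k + 1) q ≤ Msup ν F₁ F₂ V k q +
      (1 / 2) * ∑ v ∈ V, (errR ν F₁ W₀ q k v + errR ν F₂ W₀ q k v) +
      (1 / 4) * Msup ν F₁ F₂ W₀ (k + 1) q := by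
  have hsum0 : ∀ v ∈ V, 0 ≤ errR ν F₁ W₀ q k v + errR ν F₂ W₀ q k v := fun v _ =>
    add_nonneg (errR_nonneg ν _ _ _ _ _) (errR_nonneg ν _ _ _ _ _)
  have hsum : 0 ≤ ∑ v ∈ V, (errR ν F₁ W₀ q k v + errR ν F₂ W₀ q k v) := Finset.sum_nonneg hsum0
  have hM0 := Msup_nonneg ν F₁ F₂ W₀ (k + 1) q
  have hM1 := Msup_nonneg ν F₁ F₂ V k q
  apply Msup_le ν F₁ F₂ V (k + 1) q (by positivity)
  intro u hu i hi
  rcases Nat.lt_or_ge i (k + 1) with h | h
  · have := dC_le_Msup ν F₁ F₂ V k q hu (Nat.lt_succ_iff.mp h)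
    linarith
  · obtain rfl : i = k + 1 := by omega
    have h1 := dC_succ_le ν F₁ F₂ q k u
    have h2 := post_diff_le ν hLip F₁ F₂ W₀ q k (hVW hu)
    have h3 := dC_le_Msup ν F₁ F₂ V k q hu (le_refl k)
    have h4 : errR ν F₁ W₀ q k u + errR ν F₂ W₀ q k u ≤
        ∑ v ∈ V, (errR ν F₁ W₀ q k v + errR ν F₂ W₀ q k v) :=
      Finset.single_le_sum hsum0 hu
    linarith

/-! ### Integrated recursion -/

lemma measurable_cum (F : Finset ι) (u : ι) (k : ℕ) :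
    Measurable (fun q : Xi ι => cum (Yr ν F q) u k) := by
  unfold cum
  refine Finset.measurable_sum _ fun i _ => ?_
  exact measurable_ell.comp ((measurable_pi_apply (u, i)).comp (measurable_Yr ν F))

lemma measurable_dC (F₁ F₂ : Finset ι) (c : ι × ℕ) : Measurable (fun q : Xi ι => dC ν F₁ F₂ q c) :=
  ((measurable_cum ν F₁ c.1 c.2).sub (measurable_cum ν F₂ c.1 c.2)).abs

lemma measurable_finset_sup_nnreal {Ω κ : Type*} [MeasurableSpace Ω] (s : Finset κ) {f : κ → Ω → NNReal}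
    (hf : ∀ c, Measurable (f c)) : Measurable (fun x => s.sup (fun c => f c x)) := by
  classical
  induction s using Finset.induction_on with
  | empty => simp
  | insert a s _ ih =>
    simp only [Finset.sup_insert]
    exact (hf a).sup ih

lemma bm_Msup (F₁ F₂ V : Finset ι) (k : ℕ) : BM (Msup ν F₁ F₂ V k) := by
  refine ⟨?_, k / 2, fun q => ?_⟩
  · unfold Msup
    refine measurable_coe_nnreal_real.comp (measurable_finset_sup_nnreal _ fun c => ?_)
    exact (measurable_dC ν F₁ F₂ c).real_toNNReal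
  · rw [abs_of_nonneg (Msup_nonneg ν F₁ F₂ V k q)]
    exact Msup_le_half ν F₁ F₂ V k q

/-- Expected suprema. -/
noncomputable def Xs (F₁ F₂ V : Finset ι) (k : ℕ) : ℝ := ∫ q, Msup ν F₁ F₂ V k q ∂(PXi ι)

lemma Xs_zero (F₁ F₂ V : Finset ι) : Xs ν F₁ F₂ V 0 ≤ 0 := by
  unfold Xs
  simp [Msup_zero]

lemma Xs_le_half (F₁ F₂ V : Finset ι) (k : ℕ) : Xs ν F₁ F₂ V k ≤ k / 2 := by
  unfold Xs
  calc ∫ q, Msup ν F₁ F₂ V k q ∂(PXi ι) ≤ ∫ _q, ((k:ℝ) / 2) ∂(PXi ι) :=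
        integral_mono ((bm_Msup ν F₁ F₂ V k).integrable _) (integrable_const _)
          (fun q => Msup_le_half ν F₁ F₂ V k q)
    _ = k / 2 := by simp

lemma Xs_succ_le (hLip : TiltLip ν) (F₁ F₂ V W₀ : Finset ι) (hVW : V ⊆ W₀) (k : ℕ) :
    Xs ν F₁ F₂ V (k + 1) ≤ Xs ν F₁ F₂ V k +
      (1 / 2) * ∑ v ∈ V, (∫ q, errR ν F₁ W₀ q k v ∂(PXi ι) + ∫ q, errR ν F₂ W₀ q k v ∂(PXi ι)) +
      (1 / 4) * Xs ν F₁ F₂ W₀ (k + 1) := by
  unfold Xs
  have i1 := (bm_Msup ν F₁ F₂ V k).integrable (PXi ι)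
  have i3 := (bm_Msup ν F₁ F₂ W₀ (k + 1)).integrable (PXi ι)
  have ierr : ∀ (F : Finset ι) (v : ι), Integrable (fun q => errR ν F W₀ q k v) (PXi ι) :=
    fun F v => (bm_errR ν F W₀ k v).integrable _
  have i2 : Integrable (fun q => ∑ v ∈ V, (errR ν F₁ W₀ q k v + errR ν F₂ W₀ q k v)) (PXi ι) :=
    integrable_finset_sum _ fun v _ => (ierr F₁ v).add (ierr F₂ v)
  have e1 : ∑ v ∈ V, (∫ q, errR ν F₁ W₀ q k v ∂(PXi ι) + ∫ q, errR ν F₂ W₀ q k v ∂(PXi ι)) =
      ∫ q, ∑ v ∈ V, (errR ν F₁ W₀ q k v + errR ν F₂ W₀ q k v) ∂(PXi ι) := by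
    rw [integral_finset_sum V (f := fun v q => errR ν F₁ W₀ q k v + errR ν F₂ W₀ q k v)
      fun v _ => (ierr F₁ v).add (ierr F₂ v)]
    refine Finset.sum_congr rfl fun v _ => ?_
    exact (integral_add (ierr F₁ v) (ierr F₂ v)).symm
  rw [e1]
  have i2' : Integrable (fun q => (1 / 2 : ℝ) * ∑ v ∈ V, (errR ν F₁ W₀ q k v + errR ν F₂ W₀ q k v)) (PXi ι) :=
    i2.const_mul _
  have i3' : Integrable (fun q => (1 / 4 : ℝ) * Msup ν F₁ F₂ W₀ (k + 1) q) (PXi ι) := i3.const_mul _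
  have i12 : Integrable (fun q => Msup ν F₁ F₂ V k q +
      (1 / 2 : ℝ) * ∑ v ∈ V, (errR ν F₁ W₀ q k v + errR ν F₂ W₀ q k v)) (PXi ι) := i1.add i2'
  have i123 : Integrable (fun q => Msup ν F₁ F₂ V k q +
      (1 / 2 : ℝ) * ∑ v ∈ V, (errR ν F₁ W₀ q k v + errR ν F₂ W₀ q k v) +
      (1 / 4 : ℝ) * Msup ν F₁ F₂ W₀ (k + 1) q) (PXi ι) := i12.add i3'
  have e2 : ∫ q, (Msup ν F₁ F₂ V k q +
      (1 / 2 : ℝ) * ∑ v ∈ V, (errR ν F₁ W₀ q k v + errR ν F₂ W₀ q k v) +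
      (1 / 4 : ℝ) * Msup ν F₁ F₂ W₀ (k + 1) q) ∂(PXi ι) =
      ∫ q, Msup ν F₁ F₂ V k q ∂(PXi ι) +
      (1 / 2 : ℝ) * ∫ q, ∑ v ∈ V, (errR ν F₁ W₀ q k v + errR ν F₂ W₀ q k v) ∂(PXi ι) +
      (1 / 4 : ℝ) * ∫ q, Msup ν F₁ F₂ W₀ (k + 1) q ∂(PXi ι) := by
    rw [integral_add i12 i3', integral_add i1 i2', integral_const_mul, integral_const_mul]
  rw [← e2]
  apply integral_mono ((bm_Msup ν F₁ F₂ V (k + 1)).integrable _) i123
  intro q
  exact Msup_succ_le ν hLip F₁ F₂ V W₀ hVW k q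

omit [IsProbabilityMeasure ν] [DecidableEq ι] in
/-- The numerical recursion. -/
lemma recur_bound (x : ℕ → ℕ → ℝ) (J T : ℕ) (η : ℝ) (hη : 0 ≤ η) (h0 : ∀ j, x j 0 ≤ 0)
    (hstep : ∀ j < J, ∀ i < T, x j (i + 1) ≤ x j i + (1 / 2) * η + (1 / 4) * x (j + 1) (i + 1))
    (htop : ∀ i, x J i ≤ i / 2) :
    ∀ i ≤ T, ∀ d ≤ J, x (J - d) i ≤ η * (2 ^ i - 1) + i * 2 ^ i * (1 / 2) ^ d := by
  intro i
  induction i with
  | zero =>
    intro _ d _
    simpa using h0 _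
  | succ i ih =>
    intro hi d
    induction d with
    | zero =>
      intro _
      simp only [Nat.sub_zero, pow_zero, mul_one]
      have h1 := htop (i + 1)
      have h2 : (1:ℝ) ≤ 2 ^ (i + 1) := one_le_pow₀ (by norm_num)
      have h3 : ((i + 1 : ℕ) : ℝ) / 2 ≤ ((i + 1 : ℕ) : ℝ) * 2 ^ (i + 1) := by
        have : (0:ℝ) ≤ ((i + 1 : ℕ) : ℝ) := by positivity
        nlinarith
      have h4 : 0 ≤ η * (2 ^ (i + 1) - 1) := mul_nonneg hη (by linarith)
      linarith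
    | succ d ihd =>
      intro hd
      have hj : J - (d + 1) < J := by omega
      have hj' : J - (d + 1) + 1 = J - d := by omega
      have h1 := hstep (J - (d + 1)) hj i (by omega)
      rw [hj'] at h1
      have h2 := ih (by omega) (d + 1) hd
      have h3 := ihd (by omega)
      have h5 : (1:ℝ) ≤ 2 ^ i := one_le_pow₀ (by norm_num)
      have h6 : (2:ℝ) ^ (i + 1) = 2 * 2 ^ i := by ring
      have h7 : (1 / 2 : ℝ) ^ d = 2 * (1 / 2) ^ (d + 1) := by ring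
      have h8 : (0:ℝ) < (1 / 2) ^ (d + 1) := by positivity
      have h9 : (0:ℝ) < 2 ^ i := by positivity
      rw [h7] at h3
      have h10 : 0 ≤ η * (2 ^ i - 1) := mul_nonneg hη (by linarith)
      rw [h6]
      rw [h6] at h3
      push_cast at h3 ⊢
      have h11 : (0:ℝ) ≤ 2 ^ i * (1 / 2) ^ (d + 1) := by positivity
      have h12 : 0 ≤ η * 2 ^ i := by positivity
      have e : (i:ℝ) * 2 ^ i * (1 / 2) ^ (d + 1) + (1 / 4) * (((i:ℝ) + 1) * (2 * 2 ^ i) * (2 * (1 / 2) ^ (d + 1)))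
          ≤ ((i:ℝ) + 1) * (2 * 2 ^ i) * (1 / 2) ^ (d + 1) := by
        have : (0:ℝ) ≤ (i:ℝ) := by positivity
        nlinarith
      nlinarith

/-! ### Choosing the hierarchy -/

section hierarchy

variable (V : ℕ → Finset ι) (hV : Monotone V)

/-- The limit of the averaged energies along the exhaustion. -/
noncomputable def Gsup (k : ℕ) (v : ι) : ℝ := ⨆ n, Gn ν (V n) k v

omit hV in
lemma Gn_le_Gsup (k : ℕ) (v : ι) (n : ℕ) : Gn ν (V n) k v ≤ Gsup ν V k v :=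
  le_ciSup (f := fun n => Gn ν (V n) k v) ⟨1, by rintro _ ⟨n, rfl⟩; exact Gn_le_one ν _ _ _⟩ n

include hV in
omit [IsProbabilityMeasure ν] [DecidableEq ι] in
lemma exists_subset_of_finite (F : Finset ι) (hF : ∀ u ∈ F, ∃ m, u ∈ V m) : ∃ m, F ⊆ V m := by
  classical
  induction F using Finset.induction_on with
  | empty => exact ⟨0, by simp⟩
  | insert a s _ ih =>
    obtain ⟨m1, h1⟩ := ih (fun u hu => hF u (Finset.mem_insert_of_mem hu))
    obtain ⟨m2, h2⟩ := hF a (Finset.mem_insert_self _ _)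
    refine ⟨max m1 m2, ?_⟩
    intro u hu
    rcases Finset.mem_insert.mp hu with rfl | hu
    · exact hV (le_max_right _ _) h2
    · exact hV (le_max_left _ _) (h1 hu)

include hV in
lemma Gn_le_Gsup_of_finite (F : Finset ι) (hF : ∀ u ∈ F, ∃ m, u ∈ V m) (k : ℕ) (v : ι) :
    Gn ν F k v ≤ Gsup ν V k v := by
  obtain ⟨m, hm⟩ := exists_subset_of_finite V hV F hF
  exact (Gn_mono ν hm k v).trans (Gn_le_Gsup ν V k v m)

include hV in
lemma exists_next (P : Finset ι) (T : ℕ) (ε : ℝ) (hε : 0 < ε) (n₀ : ℕ) :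
    ∃ n, n₀ ≤ n ∧ ∀ v ∈ P, ∀ k < T, Gsup ν V k v - Gn ν (V n) k v < ε := by
  classical
  have h1 : ∀ c : ι × ℕ, ∃ n, Gsup ν V c.2 c.1 - Gn ν (V n) c.2 c.1 < ε := by
    intro c
    have : Gsup ν V c.2 c.1 - ε < Gsup ν V c.2 c.1 := by linarith
    obtain ⟨n, hn⟩ := exists_lt_of_lt_ciSup this
    exact ⟨n, by linarith⟩
  choose f hf using h1
  refine ⟨max n₀ ((P ×ˢ Finset.range T).sup f), le_max_left _ _, fun v hv k hk => ?_⟩
  have hle : f (v, k) ≤ max n₀ ((P ×ˢ Finset.range T).sup f) :=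
    (Finset.le_sup (f := f) (Finset.mem_product.mpr ⟨hv, Finset.mem_range.mpr hk⟩)).trans (le_max_right _ _)
  have h2 := Gn_mono ν (hV hle) k v
  have h3 := hf (v, k)
  simp only at h3
  linarith

include hV in
/-- **Main estimate**: the posterior mean at a fixed stage stabilises in L¹ along finite sets. -/
theorem post_cauchy (hLip : TiltLip ν) (g : ι) (hg : ∃ n, g ∈ V n) (k : ℕ) (δ₀ : ℝ) (hδ₀ : 0 < δ₀) :
    ∃ n, ∀ F₁ F₂ : Finset ι, V n ⊆ F₁ → V n ⊆ F₂ → (∀ u ∈ F₁, ∃ m, u ∈ V m) → (∀ u ∈ F₂, ∃ m, u ∈ V m) →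
      ∫ q, |aR ν F₁ F₁ q k g - aR ν F₂ F₂ q k g| ∂(PXi ι) ≤ δ₀ := by
  classical
  obtain ⟨δ, hδ, hδδ₀⟩ : ∃ δ : ℝ, 0 < δ ∧ δ₀ = 2 * δ := ⟨δ₀ / 2, by positivity, by ring⟩
  obtain ⟨n₀, hn₀⟩ := hg
  set T := k + 1 with hT
  have hA : (2:ℝ) ≤ 2 ^ T := by
    calc (2:ℝ) = 2 ^ 1 := by norm_num
      _ ≤ 2 ^ T := pow_le_pow_right₀ (by norm_num) (by omega)
  set A : ℝ := 2 ^ T with hAdef
  set B : ℝ := T * 2 ^ T with hBdef
  have hB0 : 0 ≤ B := by positivity
  -- choose the depth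
  obtain ⟨J0, hJ0⟩ := exists_pow_lt_of_lt_one (show (0:ℝ) < δ / (B + 1) by positivity)
    (show (1 / 2 : ℝ) < 1 by norm_num)
  set J := J0 + 1 with hJ
  have hBJ : B * (1 / 2) ^ (J - 1) ≤ δ := by
    have : J - 1 = J0 := by omega
    rw [this]
    have h1 : B * (1 / 2) ^ J0 ≤ (B + 1) * (δ / (B + 1)) := by
      apply mul_le_mul (by linarith) hJ0.le (by positivity) (by positivity)
    rwa [mul_div_cancel₀ _ (by positivity)] at h1
  set η : ℝ := δ / A with hη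
  have hηpos : 0 < η := by positivity
  -- the next-index function
  have hnext : ∀ n : ℕ, ∃ n', n ≤ n' ∧ ∀ v ∈ V n, ∀ i < T,
      Gsup ν V i v - Gn ν (V n') i v < (η / (2 * ((V n).card + 1))) ^ 2 := fun n =>
    exists_next ν V hV (V n) T _ (by positivity) n
  choose nx hnx1 hnx2 using hnext
  let seq : ℕ → ℕ := fun j => nx^[j] n₀
  have hseq_succ : ∀ j, seq (j + 1) = nx (seq j) := fun j => Function.iterate_succ_apply' _ _ _
  have hseq_mono : Monotone seq := monotone_nat_of_le_succ fun j => by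
    rw [hseq_succ]; exact hnx1 _
  let W : ℕ → Finset ι := fun j => V (seq j)
  have hWmono : Monotone W := fun a b hab => hV (hseq_mono hab)
  refine ⟨seq J, fun F₁ F₂ h1 h2 h3 h4 => ?_⟩
  -- error bound
  have herr : ∀ (F : Finset ι), W J ⊆ F → (∀ u ∈ F, ∃ m, u ∈ V m) → ∀ j < J, ∀ v ∈ W j, ∀ i < T,
      ∫ q, errR ν F (W (j + 1)) q i v ∂(PXi ι) ≤ η / (2 * ((W j).card + 1)) := by
    intro F hF hF' j hj v hv i hi
    have hsub : W (j + 1) ⊆ F := (hWmono (by omega : j + 1 ≤ J)).trans hF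
    refine (integral_errR_le ν hsub i v).trans ?_
    have h5 : Gn ν F i v ≤ Gsup ν V i v := Gn_le_Gsup_of_finite ν V hV F hF' i v
    have h6 := hnx2 (seq j) v hv i hi
    have h7 : W (j + 1) = V (nx (seq j)) := by
      show V (seq (j + 1)) = _
      rw [hseq_succ]
    have h8 : Gn ν F i v - Gn ν (W (j + 1)) i v ≤ (η / (2 * ((W j).card + 1))) ^ 2 := by
      rw [h7]
      exact le_of_lt (lt_of_le_of_lt (by linarith) h6)
    calc Real.sqrt (Gn ν F i v - Gn ν (W (j + 1)) i v)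
        ≤ Real.sqrt ((η / (2 * ((W j).card + 1))) ^ 2) := Real.sqrt_le_sqrt h8
      _ = η / (2 * ((W j).card + 1)) := Real.sqrt_sq (by positivity)
  -- summed error
  have hsum : ∀ j < J, ∀ i < T, ∑ v ∈ W j, (∫ q, errR ν F₁ (W (j + 1)) q i v ∂(PXi ι) +
      ∫ q, errR ν F₂ (W (j + 1)) q i v ∂(PXi ι)) ≤ η := by
    intro j hj i hi
    have hc : (0:ℝ) < (W j).card + 1 := by positivity
    calc _ ≤ ∑ _v ∈ W j, (η / (2 * ((W j).card + 1)) + η / (2 * ((W j).card + 1))) :=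
          Finset.sum_le_sum fun v hv => add_le_add (herr F₁ h1 h3 j hj v hv i hi)
            (herr F₂ h2 h4 j hj v hv i hi)
      _ = (W j).card * (η / ((W j).card + 1)) := by
          rw [Finset.sum_const, nsmul_eq_mul]
          congr 1
          field_simp
          ring
      _ ≤ η := by
          rw [← mul_div_assoc, div_le_iff₀ hc]
          nlinarith
  -- recursion
  have hrec := recur_bound (fun j i => Xs ν F₁ F₂ (W j) i) J T η hηpos.le
    (fun j => Xs_zero ν F₁ F₂ (W j))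
    (fun j hj i hi => by
      have h5 := Xs_succ_le ν hLip F₁ F₂ (W j) (W (j + 1)) (hWmono (Nat.le_succ j)) i
      have h6 := hsum j hj i hi
      linarith)
    (fun i => Xs_le_half ν F₁ F₂ (W J) i)
  -- the conclusion at g
  have hgW : g ∈ W 0 := by
    show g ∈ V (seq 0)
    exact hn₀
  have hgW1 : g ∈ W 1 := hWmono (Nat.zero_le 1) hgW
  have hpath : ∀ q, |aR ν F₁ F₁ q k g - aR ν F₂ F₂ q k g| ≤
      errR ν F₁ (W 1) q k g + errR ν F₂ (W 1) q k g + (1 / 2) * Msup ν F₁ F₂ (W 1) (k + 1) q :=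
    fun q => post_diff_le ν hLip F₁ F₂ (W 1) q k hgW1
  have hbm1 : BM (fun q : Xi ι => |aR ν F₁ F₁ q k g - aR ν F₂ F₂ q k g|) := by
    have := (bm_aR ν F₁ F₁ k g).sub (bm_aR ν F₂ F₂ k g)
    obtain ⟨m, C, hC⟩ := this
    exact ⟨m.abs, C, fun q => by rw [abs_abs]; exact hC q⟩
  have ie1 := (bm_errR ν F₁ (W 1) k g).integrable (PXi ι)
  have ie2 := (bm_errR ν F₂ (W 1) k g).integrable (PXi ι)
  have ie3 := (bm_Msup ν F₁ F₂ (W 1) (k + 1)).integrable (PXi ι)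
  have hint : ∫ q, |aR ν F₁ F₁ q k g - aR ν F₂ F₂ q k g| ∂(PXi ι) ≤
      ∫ q, errR ν F₁ (W 1) q k g ∂(PXi ι) + ∫ q, errR ν F₂ (W 1) q k g ∂(PXi ι) +
        (1 / 2) * Xs ν F₁ F₂ (W 1) (k + 1) := by
    unfold Xs
    have ie3' : Integrable (fun q => (1 / 2 : ℝ) * Msup ν F₁ F₂ (W 1) (k + 1) q) (PXi ι) := ie3.const_mul _
    have ie12 : Integrable (fun q => errR ν F₁ (W 1) q k g + errR ν F₂ (W 1) q k g) (PXi ι) := ie1.add ie2
    have ie123 : Integrable (fun q => errR ν F₁ (W 1) q k g + errR ν F₂ (W 1) q k g +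
        (1 / 2 : ℝ) * Msup ν F₁ F₂ (W 1) (k + 1) q) (PXi ι) := ie12.add ie3'
    have e2 : ∫ q, (errR ν F₁ (W 1) q k g + errR ν F₂ (W 1) q k g +
        (1 / 2 : ℝ) * Msup ν F₁ F₂ (W 1) (k + 1) q) ∂(PXi ι) =
        ∫ q, errR ν F₁ (W 1) q k g ∂(PXi ι) + ∫ q, errR ν F₂ (W 1) q k g ∂(PXi ι) +
        (1 / 2 : ℝ) * ∫ q, Msup ν F₁ F₂ (W 1) (k + 1) q ∂(PXi ι) := by
      rw [integral_add ie12 ie3', integral_add ie1 ie2, integral_const_mul]
    rw [← e2]
    exact integral_mono (hbm1.integrable _) ie123 hpath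
  have he1 := herr F₁ h1 h3 0 (by omega) g hgW k (by omega)
  have he2 := herr F₂ h2 h4 0 (by omega) g hgW k (by omega)
  have hc0 : (1:ℝ) ≤ (W 0).card + 1 := by
    have : (0:ℝ) ≤ (W 0).card := by positivity
    linarith
  have he3 : η / (2 * ((W 0).card + 1)) ≤ η / 2 := by
    apply div_le_div_of_nonneg_left hηpos.le (by norm_num)
    linarith
  have hX := hrec T le_rfl (J - 1) (by omega)
  have hJ1 : J - (J - 1) = 1 := by omega
  simp only [hJ1] at hX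
  have hfinal : η * (A - 1) + B * (1 / 2) ^ (J - 1) ≤ 2 * δ := by
    have : η * (A - 1) ≤ δ := by
      rw [hη, div_mul_eq_mul_div, div_le_iff₀ (by positivity)]
      nlinarith
    linarith
  have hηδ : η ≤ δ := by
    rw [hη, div_le_iff₀ (by positivity)]
    nlinarith
  have hT' : (k + 1 : ℕ) = T := rfl
  rw [hT'] at hint
  have he4 : η / 2 ≤ δ / 2 := by linarith
  have hX' : Xs ν F₁ F₂ (W 1) T ≤ 2 * δ := hX.trans hfinal
  rw [hδδ₀]
  linarith

include hV in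
/-- **Main estimate** for the output. -/
theorem run_cauchy (hLip : TiltLip ν) (g : ι) (hg : ∃ n, g ∈ V n) (k : ℕ) (δ : ℝ) (hδ : 0 < δ) :
    ∃ n, ∀ F₁ F₂ : Finset ι, V n ⊆ F₁ → V n ⊆ F₂ → (∀ u ∈ F₁, ∃ m, u ∈ V m) → (∀ u ∈ F₂, ∃ m, u ∈ V m) →
      ∫ q, |((Yr ν F₁ q (g, k) : I) : ℝ) - (Yr ν F₂ q (g, k) : I)| ∂(PXi ι) ≤ δ := by
  obtain ⟨n, hn⟩ := post_cauchy ν V hV hLip g hg k δ hδ
  refine ⟨n, fun F₁ F₂ h1 h2 h3 h4 => ?_⟩
  refine le_trans ?_ (hn F₁ F₂ h1 h2 h3 h4)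
  have hbm1 : BM (fun q : Xi ι => |aR ν F₁ F₁ q k g - aR ν F₂ F₂ q k g|) := by
    have := (bm_aR ν F₁ F₁ k g).sub (bm_aR ν F₂ F₂ k g)
    obtain ⟨m, C, hC⟩ := this
    exact ⟨m.abs, C, fun q => by rw [abs_abs]; exact hC q⟩
  have hbm2 : BM (fun q : Xi ι => |((Yr ν F₁ q (g, k) : I) : ℝ) - (Yr ν F₂ q (g, k) : I)|) := by
    refine ⟨?_, 1, fun q => ?_⟩
    · exact ((measurable_subtype_coe.comp ((measurable_pi_apply (g, k)).comp (measurable_Yr ν F₁))).sub
        (measurable_subtype_coe.comp ((measurable_pi_apply (g, k)).comp (measurable_Yr ν F₂)))).abs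
    · rw [abs_abs, abs_le]
      have h5 := (Yr ν F₁ q (g, k)).2.1
      have h6 := (Yr ν F₁ q (g, k)).2.2
      have h7 := (Yr ν F₂ q (g, k)).2.1
      have h8 := (Yr ν F₂ q (g, k)).2.2
      constructor <;> linarith
  refine integral_mono (hbm2.integrable _) (hbm1.integrable _) fun q => ?_
  show |((Yr ν F₁ q (g, k) : I) : ℝ) - (Yr ν F₂ q (g, k) : I)| ≤ _
  rw [Yr_eq ν F₁ q (g, k), Yr_eq ν F₂ q (g, k)]
  refine (T_sub_abs_le _ _ _).trans ?_
  have := abs_nonneg (aR ν F₁ F₁ q k g - aR ν F₂ F₂ q k g)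
  show (1 / 4) * |aR ν F₁ F₁ q k g - aR ν F₂ F₂ q k g| ≤ _
  linarith

end hierarchy

end run

end Crest.Agent.Lib.FiidCauchy
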