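import Mathlib

/-!
# The observation channel

Weak observations of a bit: density `dens s y = 1 + s (2y-1)` on `[0,1]`, with `s = (2a-1)/3` for a posterior
mean `a`. `T a w` is the inverse cdf, so `T a` pushes the uniform law to the density `dens (sOf a)`.
-/

set_option autoImplicit false

namespace Crest.Agent.Lib.FiidChannel

open MeasureTheory Set
open scoped unitInterval

/-- Density of the observation with parameter `s`. -/
def dens (s y : ℝ) : ℝ := 1 + s * (2 * y - 1)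

/-- CDF of the observation with parameter `s`. -/
def cdf (s y : ℝ) : ℝ := y + s * (y ^ 2 - y)

/-- Clamp a real number to `[0,1]`. -/
noncomputable def clamp (a : ℝ) : ℝ := max 0 (min a 1)

lemma clamp_nonneg (a : ℝ) : 0 ≤ clamp a := le_max_left _ _
lemma clamp_le_one (a : ℝ) : clamp a ≤ 1 := max_le zero_le_one (min_le_right _ _)
lemma clamp_of_mem {a : ℝ} (h0 : 0 ≤ a) (h1 : a ≤ 1) : clamp a = a := by
  unfold clamp; rw [min_eq_left h1, max_eq_right h0]

lemma clamp_sub_le (a b : ℝ) : |clamp a - clamp b| ≤ |a - b| := by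
  unfold clamp
  have h1 := abs_max_sub_max_le_max (0:ℝ) (min a 1) 0 (min b 1)
  have h2 : |min a 1 - min b 1| ≤ |a - b| := by
    have := abs_min_sub_min_le_max a 1 b 1
    simpa using this
  simpa using h1.trans (by simpa using h2)

/-- The channel parameter for the posterior mean `a`. -/
noncomputable def sOf (a : ℝ) : ℝ := (2 * clamp a - 1) / 3

lemma sOf_abs_le (a : ℝ) : |sOf a| ≤ 1 / 3 := by
  unfold sOf
  have h0 := clamp_nonneg a
  have h1 := clamp_le_one a
  rw [abs_le]; constructor <;> linarith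

lemma sOf_sub_abs_le (a b : ℝ) : |sOf a - sOf b| ≤ (2 / 3) * |a - b| := by
  unfold sOf
  have : (2 * clamp a - 1) / 3 - (2 * clamp b - 1) / 3 = (2 / 3) * (clamp a - clamp b) := by ring
  rw [this, abs_mul, abs_of_pos (by norm_num : (0:ℝ) < 2 / 3)]
  exact mul_le_mul_of_nonneg_left (clamp_sub_le a b) (by norm_num)

/-- Inverse cdf, explicit. -/
noncomputable def invCdf (s w : ℝ) : ℝ :=
  2 * w / (1 - s + Real.sqrt ((1 - s) ^ 2 + 4 * s * w))

section invCdf

variable {s w : ℝ}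

lemma disc_pos (hs : |s| ≤ 1 / 3) (h0 : 0 ≤ w) (h1 : w ≤ 1) : 0 < (1 - s) ^ 2 + 4 * s * w := by
  obtain ⟨h2, h3⟩ := abs_le.mp hs
  rcases le_total 0 s with h | h
  · have : 0 ≤ 4 * s * w := by positivity
    nlinarith
  · have : 4 * s * 1 ≤ 4 * s * w := by
      have : 4 * s ≤ 0 := by linarith
      exact mul_le_mul_of_nonpos_left h1 this
    nlinarith

lemma denom_pos (hs : |s| ≤ 1 / 3) (h0 : 0 ≤ w) (h1 : w ≤ 1) :
    0 < 1 - s + Real.sqrt ((1 - s) ^ 2 + 4 * s * w) := by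
  obtain ⟨h2, h3⟩ := abs_le.mp hs
  have := Real.sqrt_nonneg ((1 - s) ^ 2 + 4 * s * w)
  linarith

lemma invCdf_nonneg (hs : |s| ≤ 1 / 3) (h0 : 0 ≤ w) (h1 : w ≤ 1) : 0 ≤ invCdf s w :=
  div_nonneg (by linarith) (denom_pos hs h0 h1).le

lemma invCdf_le_one (hs : |s| ≤ 1 / 3) (h0 : 0 ≤ w) (h1 : w ≤ 1) : invCdf s w ≤ 1 := by
  unfold invCdf
  rw [div_le_one (denom_pos hs h0 h1)]
  have hD := disc_pos hs h0 h1
  have hq : (2 * w - 1 + s) ≤ Real.sqrt ((1 - s) ^ 2 + 4 * s * w) := by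
    apply Real.le_sqrt_of_sq_le
    nlinarith [mul_nonneg h0 (sub_nonneg.mpr h1)]
  linarith

lemma cdf_invCdf (hs : |s| ≤ 1 / 3) (h0 : 0 ≤ w) (h1 : w ≤ 1) : cdf s (invCdf s w) = w := by
  unfold cdf invCdf
  have hD := disc_pos hs h0 h1
  have hd := denom_pos hs h0 h1
  set q := Real.sqrt ((1 - s) ^ 2 + 4 * s * w) with hq
  have hq2 : q ^ 2 = (1 - s) ^ 2 + 4 * s * w := Real.sq_sqrt hD.le
  field_simp
  nlinarith [hq2]

lemma cdf_sub_cdf (s y y' : ℝ) : cdf s y - cdf s y' = (y - y') * (1 + s * (y + y' - 1)) := by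
  unfold cdf; ring

lemma cdf_factor_lower (hs : |s| ≤ 1 / 3) {y y' : ℝ} (hy0 : 0 ≤ y) (hy1 : y ≤ 1) (hy'0 : 0 ≤ y')
    (hy'1 : y' ≤ 1) : 2 / 3 ≤ 1 + s * (y + y' - 1) := by
  have h : |s * (y + y' - 1)| ≤ 1 / 3 := by
    rw [abs_mul]
    have : |y + y' - 1| ≤ 1 := by rw [abs_le]; constructor <;> linarith
    calc |s| * |y + y' - 1| ≤ 1 / 3 * 1 := mul_le_mul hs this (abs_nonneg _) (by norm_num)
      _ = 1 / 3 := by norm_num
  have := (abs_le.mp h).1
  linarith

lemma cdf_strictMonoOn (hs : |s| ≤ 1 / 3) : StrictMonoOn (cdf s) (Icc 0 1) := by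
  intro y hy y' hy' hlt
  have h := cdf_sub_cdf s y' y
  have h2 := cdf_factor_lower hs hy'.1 hy'.2 hy.1 hy.2
  have : 0 < (y' - y) * (1 + s * (y' + y - 1)) := mul_pos (by linarith) (by linarith)
  linarith

lemma invCdf_cdf (hs : |s| ≤ 1 / 3) {y : ℝ} (h0 : 0 ≤ y) (h1 : y ≤ 1) : invCdf s (cdf s y) = y := by
  have hw0 : 0 ≤ cdf s y := by
    have h := cdf_sub_cdf s y 0
    have h2 := cdf_factor_lower hs h0 h1 le_rfl zero_le_one
    have h3 : cdf s 0 = 0 := by simp [cdf]
    rw [h3] at h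
    have : 0 ≤ (y - 0) * (1 + s * (y + 0 - 1)) := mul_nonneg (by linarith) (by linarith)
    linarith
  have hw1 : cdf s y ≤ 1 := by
    have h := cdf_sub_cdf s 1 y
    have h2 := cdf_factor_lower hs zero_le_one le_rfl h0 h1
    have h3 : cdf s 1 = 1 := by simp [cdf]
    rw [h3] at h
    have : 0 ≤ (1 - y) * (1 + s * (1 + y - 1)) := mul_nonneg (by linarith) (by linarith)
    linarith
  apply cdf_strictMonoOn hs |>.injOn
  · exact ⟨invCdf_nonneg hs hw0 hw1, invCdf_le_one hs hw0 hw1⟩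
  · exact ⟨h0, h1⟩
  · exact cdf_invCdf hs hw0 hw1

lemma cdf_image (hs : |s| ≤ 1 / 3) : cdf s '' Icc 0 1 = Icc 0 1 := by
  ext w
  constructor
  · rintro ⟨y, ⟨h0, h1⟩, rfl⟩
    constructor
    · have h := cdf_sub_cdf s y 0
      have h2 := cdf_factor_lower hs h0 h1 le_rfl zero_le_one
      have h3 : cdf s 0 = 0 := by simp [cdf]
      rw [h3] at h
      have : 0 ≤ (y - 0) * (1 + s * (y + 0 - 1)) := mul_nonneg (by linarith) (by linarith)
      linarith
    · have h := cdf_sub_cdf s 1 y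
      have h2 := cdf_factor_lower hs zero_le_one le_rfl h0 h1
      have h3 : cdf s 1 = 1 := by simp [cdf]
      rw [h3] at h
      have : 0 ≤ (1 - y) * (1 + s * (1 + y - 1)) := mul_nonneg (by linarith) (by linarith)
      linarith
  · rintro ⟨h0, h1⟩
    exact ⟨invCdf s w, ⟨invCdf_nonneg hs h0 h1, invCdf_le_one hs h0 h1⟩, cdf_invCdf hs h0 h1⟩

lemma hasDerivAt_cdf (s y : ℝ) : HasDerivAt (cdf s) (dens s y) y := by
  unfold cdf dens
  have h1 : HasDerivAt (fun y : ℝ => y) 1 y := hasDerivAt_id y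
  have h2 : HasDerivAt (fun y : ℝ => y ^ 2) (2 * y) y := by
    simpa using hasDerivAt_pow 2 y
  have h3 := (h2.sub h1).const_mul s
  have h4 := h1.add h3
  exact h4

lemma dens_pos (hs : |s| ≤ 1 / 3) {y : ℝ} (h0 : 0 ≤ y) (h1 : y ≤ 1) : 0 < dens s y := by
  unfold dens
  have h : |s * (2 * y - 1)| ≤ 1 / 3 := by
    rw [abs_mul]
    have : |2 * y - 1| ≤ 1 := by rw [abs_le]; constructor <;> linarith
    calc |s| * |2 * y - 1| ≤ 1 / 3 * 1 := mul_le_mul hs this (abs_nonneg _) (by norm_num)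
      _ = 1 / 3 := by norm_num
  have := (abs_le.mp h).1
  linarith

/-- Lipschitz dependence of the inverse cdf on the parameter. -/
lemma invCdf_sub_abs_le {s s' w : ℝ} (hs : |s| ≤ 1 / 3) (hs' : |s'| ≤ 1 / 3) (h0 : 0 ≤ w)
    (h1 : w ≤ 1) : |invCdf s w - invCdf s' w| ≤ (3 / 8) * |s - s'| := by
  set y := invCdf s w with hy
  set y' := invCdf s' w with hy'
  have hy0 := invCdf_nonneg hs h0 h1
  have hy1 := invCdf_le_one hs h0 h1
  have hy'0 := invCdf_nonneg hs' h0 h1
  have hy'1 := invCdf_le_one hs' h0 h1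
  have e1 : cdf s y = w := cdf_invCdf hs h0 h1
  have e2 : cdf s' y' = w := cdf_invCdf hs' h0 h1
  have key : (y - y') * (1 + s' * (y + y' - 1)) = (s' - s) * (y ^ 2 - y) := by
    have := cdf_sub_cdf s' y y'
    rw [← this, e2]
    unfold cdf at e1 ⊢
    linarith
  have hf := cdf_factor_lower hs' hy0 hy1 hy'0 hy'1
  have hbd : |y ^ 2 - y| ≤ 1 / 4 := by
    rw [abs_le]; constructor <;> nlinarith [sq_nonneg (y - 1 / 2)]
  have h3 : |y - y'| * (2 / 3) ≤ |s - s'| * (1 / 4) := by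
    calc |y - y'| * (2 / 3) ≤ |y - y'| * |1 + s' * (y + y' - 1)| := by
          apply mul_le_mul_of_nonneg_left _ (abs_nonneg _)
          exact hf.trans (le_abs_self _)
      _ = |(y - y') * (1 + s' * (y + y' - 1))| := (abs_mul _ _).symm
      _ = |s - s'| * |y ^ 2 - y| := by rw [key, abs_mul, abs_sub_comm s' s]
      _ ≤ |s - s'| * (1 / 4) := mul_le_mul_of_nonneg_left hbd (abs_nonneg _)
  nlinarith

end invCdf

/-- The observation produced from the posterior mean `a` and the noise `w`: inverse cdf. -/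
noncomputable def T (a : ℝ) (w : I) : I :=
  ⟨invCdf (sOf a) w, invCdf_nonneg (sOf_abs_le a) w.2.1 w.2.2,
    invCdf_le_one (sOf_abs_le a) w.2.1 w.2.2⟩

lemma T_coe (a : ℝ) (w : I) : (T a w : ℝ) = invCdf (sOf a) w := rfl

lemma T_sub_abs_le (a b : ℝ) (w : I) : |(T a w : ℝ) - T b w| ≤ (1 / 4) * |a - b| := by
  rw [T_coe, T_coe]
  calc |invCdf (sOf a) w - invCdf (sOf b) w| ≤ (3 / 8) * |sOf a - sOf b| :=
        invCdf_sub_abs_le (sOf_abs_le a) (sOf_abs_le b) w.2.1 w.2.2
    _ ≤ (3 / 8) * ((2 / 3) * |a - b|) :=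
        mul_le_mul_of_nonneg_left (sOf_sub_abs_le a b) (by norm_num)
    _ = (1 / 4) * |a - b| := by ring

lemma measurable_invCdf : Measurable (fun p : ℝ × ℝ => invCdf p.1 p.2) := by
  unfold invCdf
  fun_prop

lemma measurable_sOf : Measurable sOf := by
  unfold sOf clamp
  fun_prop

lemma measurable_T : Measurable (fun p : ℝ × I => T p.1 p.2) := by
  apply Measurable.subtype_mk
  exact measurable_invCdf.comp ((measurable_sOf.comp measurable_fst).prodMk
    (measurable_subtype_coe.comp measurable_snd))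

/-- Change of variables for the observation. -/
lemma integral_comp_T (a : ℝ) (g : I → ℝ) :
    ∫ w : I, g (T a w) = ∫ y : I, g y * dens (sOf a) y := by
  set s := sOf a with hs_def
  have hs : |s| ≤ 1 / 3 := sOf_abs_le a
  -- extension of `g`
  let g' : ℝ → ℝ := fun x => g (projIcc 0 1 zero_le_one x)
  have hI : ∀ f : ℝ → ℝ, ∫ x : I, f x = ∫ x in Icc (0:ℝ) 1, f x := by
    intro f
    exact integral_subtype_comap measurableSet_Icc f
  have h1 : ∫ w : I, g (T a w) = ∫ w in Icc (0:ℝ) 1, g' (invCdf s w) := by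
    rw [← hI (fun w => g' (invCdf s w))]
    apply integral_congr_ae
    filter_upwards with w
    simp only [g']
    congr 1
    apply Subtype.ext
    rw [projIcc_of_mem zero_le_one ⟨invCdf_nonneg hs w.2.1 w.2.2, invCdf_le_one hs w.2.1 w.2.2⟩]
    rfl
  have h2 : ∫ y : I, g y * dens s y = ∫ y in Icc (0:ℝ) 1, g' y * dens s y := by
    rw [← hI (fun y => g' y * dens s y)]
    apply integral_congr_ae
    filter_upwards with y
    simp only [g']
    congr 2
    apply Subtype.ext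
    rw [projIcc_of_mem zero_le_one y.2]
  rw [h1, h2]
  have hcv := integral_image_eq_integral_abs_deriv_smul (s := Icc (0:ℝ) 1) (f := cdf s)
    (f' := dens s) measurableSet_Icc (fun x _ => (hasDerivAt_cdf s x).hasDerivWithinAt)
    (cdf_strictMonoOn hs).injOn (fun w => g' (invCdf s w))
  rw [cdf_image hs] at hcv
  rw [hcv]
  apply setIntegral_congr_fun measurableSet_Icc
  intro y hy
  simp only [smul_eq_mul]
  rw [abs_of_pos (dens_pos hs hy.1 hy.2), invCdf_cdf hs hy.1 hy.2]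
  ring

lemma integral_dens_one {s : ℝ} : ∫ y : I, dens s y = 1 := by
  have hI : ∀ f : ℝ → ℝ, ∫ x : I, f x = ∫ x in Icc (0:ℝ) 1, f x := by
    intro f
    exact integral_subtype_comap measurableSet_Icc f
  rw [hI (fun y => dens s y)]
  rw [integral_Icc_eq_integral_Ioc, ← intervalIntegral.integral_of_le zero_le_one]
  have : ∀ x ∈ uIcc (0:ℝ) 1, HasDerivAt (cdf s) (dens s x) x := fun x _ => hasDerivAt_cdf s x
  rw [intervalIntegral.integral_eq_sub_of_hasDerivAt this]
  · simp [cdf]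
  · apply Continuous.intervalIntegrable
    unfold dens
    fun_prop

end Crest.Agent.Lib.FiidChannel
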