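import Crest.Agent.Lib.FiidNoise
import Crest.Prelude.Def_GraphTables

/-!
# Noise on edges from labels on vertices

Each vertex `v` reads from its label `x v`, through `rho`, a primary label `p v = rho (x v) 0` and private
streams. An edge `{a, b}` with `p a < p b` reads the stream of `a` at the position given by the rank
`#{c ~ a | p c < p b}` of `b` among the neighbours of `a`; ties give the constant `0`. Given the primary labels, on
a locally finite graph, different edges read different streams, so the noise on the edges is independent.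
-/

set_option autoImplicit false

namespace Crest.Agent.Lib.FiidEdgeNoise

open MeasureTheory Set
open scoped unitInterval ENNReal
open Crest.Agent.Lib.FiidPlanted Crest.Agent.Lib.FiidRun Crest.Agent.Lib.FiidCauchy
  Crest.Agent.Lib.FiidNoise
open Crest.ProbabilityR.GraphTables

/-! ### A measurable count -/

lemma measurable_ncard {Ω : Type*} [MeasurableSpace Ω] (S : Ω → Set ℕ)
    (hS : ∀ c, MeasurableSet {ω | c ∈ S ω}) : Measurable (fun ω => (S ω).ncard) := by
  have h1 : Measurable (fun ω => ∑' c : ℕ, (S ω).indicator (fun _ => (1 : ℝ≥0∞)) c) := by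
    refine Measurable.tsum fun c => ?_
    have : (fun ω => (S ω).indicator (fun _ => (1 : ℝ≥0∞)) c) =
        {ω | c ∈ S ω}.indicator (fun _ => (1 : ℝ≥0∞)) := by
      funext ω
      by_cases h : c ∈ S ω <;> simp [Set.indicator, h]
    rw [this]
    exact measurable_const.indicator (hS c)
  have h2 : ∀ ω, (S ω).ncard =
      ⌊(∑' c : ℕ, (S ω).indicator (fun _ => (1 : ℝ≥0∞)) c).toReal⌋₊ := by
    intro ω
    rw [← tsum_subtype (S ω) (fun _ => (1 : ℝ≥0∞)), ENNReal.tsum_set_one, Set.ncard_def]
    cases h : (S ω).encard with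
    | top => simp
    | coe n => simp
  have : (fun ω => (S ω).ncard) =
      fun ω => ⌊(∑' c : ℕ, (S ω).indicator (fun _ => (1 : ℝ≥0∞)) c).toReal⌋₊ := funext h2
  rw [this]
  exact Nat.measurable_floor.comp (ENNReal.measurable_toReal.comp h1)

/-- Evaluation at a measurable index is measurable. -/
lemma measurable_eval_index {Ω J X : Type*} [MeasurableSpace Ω] [MeasurableSpace J] [MeasurableSpace X]
    [Countable J] [MeasurableSingletonClass J]
    {f : Ω → J → X} {n : Ω → J} (hf : Measurable f) (hn : Measurable n) :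
    Measurable (fun ω => f ω (n ω)) := by
  have : Measurable (fun q : (J → X) × J => q.1 q.2) :=
    measurable_from_prod_countable_left (fun j => measurable_pi_apply j)
  exact this.comp (hf.prodMk hn)

/-! ### The reading rule -/

/-- The rank of `b` among the neighbours of `a` for the labels `p`. -/
noncomputable def rank (G : SimpleGraph ℕ) (p : ℕ → I) (a b : ℕ) : ℕ :=
  {c | G.Adj a c ∧ p c < p b}.ncard

/-- The value read by the ordered pair `(a, b)`. -/
noncomputable def val (G : SimpleGraph ℕ) (p : ℕ → I) (z : ℕ × ℕ → I) (a b j : ℕ) : I :=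
  if p a < p b then z (a, Nat.pair (rank G p a b) j)
  else if p b < p a then z (b, Nat.pair (rank G p b a) j)
  else 0

lemma val_comm (G : SimpleGraph ℕ) (p : ℕ → I) (z : ℕ × ℕ → I) (j a b : ℕ) :
    val G p z a b j = val G p z b a j := by
  unfold val
  by_cases h1 : p a < p b
  · have h2 : ¬ p b < p a := not_lt.mpr h1.le
    simp [h1, h2]
  · by_cases h2 : p b < p a <;> simp [h1, h2]

/-- The value read by an unordered pair. -/
noncomputable def edgeVal (G : SimpleGraph ℕ) (p : ℕ → I) (z : ℕ × ℕ → I) (e : Sym2 ℕ) (j : ℕ) : I :=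
  Sym2.lift ⟨fun a b => val G p z a b j, val_comm G p z j⟩ e

@[simp] lemma edgeVal_mk (G : SimpleGraph ℕ) (p : ℕ → I) (z : ℕ × ℕ → I) (a b j : ℕ) :
    edgeVal G p z s(a, b) j = val G p z a b j := rfl

/-- The noise on pairs read from labels on vertices. -/
noncomputable def edgeNoise (G : SimpleGraph ℕ) (x : ℕ → I) : Xi (Sym2 ℕ) :=
  (fun e => edgeVal G (split x).1 (split x).2 e 0,
    fun c => edgeVal G (split x).1 (split x).2 c.1 (c.2 + 1))

/-! ### Measurability -/

section measurability

variable {Ω : Type*} [MeasurableSpace Ω] {Γ : Ω → SimpleGraph ℕ} {P : Ω → ℕ → I} {Z : Ω → ℕ × ℕ → I}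

lemma measurable_rank (hΓ : ∀ a c, MeasurableSet {ω | (Γ ω).Adj a c}) (hP : Measurable P) (a b : ℕ) :
    Measurable (fun ω => rank (Γ ω) (P ω) a b) := by
  refine measurable_ncard _ fun c => ?_
  have h : {ω | c ∈ {c | (Γ ω).Adj a c ∧ P ω c < P ω b}} =
      {ω | (Γ ω).Adj a c} ∩ {ω | P ω c < P ω b} := rfl
  rw [h]
  exact (hΓ a c).inter
    (measurableSet_lt ((measurable_pi_apply c).comp hP) ((measurable_pi_apply b).comp hP))

lemma measurable_val (hΓ : ∀ a c, MeasurableSet {ω | (Γ ω).Adj a c}) (hP : Measurable P)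
    (hZ : Measurable Z) (a b j : ℕ) : Measurable (fun ω => val (Γ ω) (P ω) (Z ω) a b j) := by
  unfold val
  have hidx : ∀ a b, Measurable (fun ω => Z ω (a, Nat.pair (rank (Γ ω) (P ω) a b) j)) := by
    intro a b
    refine measurable_eval_index hZ ?_
    refine measurable_const.prodMk ?_
    have : Measurable (fun n : ℕ => Nat.pair n j) := measurable_from_top
    exact this.comp (measurable_rank hΓ hP a b)
  refine Measurable.ite
    (measurableSet_lt ((measurable_pi_apply a).comp hP) ((measurable_pi_apply b).comp hP))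
    (hidx a b) ?_
  exact Measurable.ite
    (measurableSet_lt ((measurable_pi_apply b).comp hP) ((measurable_pi_apply a).comp hP))
    (hidx b a) measurable_const

lemma measurable_edgeVal (hΓ : ∀ a c, MeasurableSet {ω | (Γ ω).Adj a c}) (hP : Measurable P)
    (hZ : Measurable Z) (e : Sym2 ℕ) (j : ℕ) : Measurable (fun ω => edgeVal (Γ ω) (P ω) (Z ω) e j) := by
  induction e using Sym2.ind with
  | _ a b => exact measurable_val hΓ hP hZ a b j

end measurability

lemma measurable_table_adj (a c : ℕ) :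
    MeasurableSet {ω : (ℕ → ℕ → Bool) × (ℕ → I) | (graphOfTable ω.1).Adj a c} := by
  have h : {ω : (ℕ → ℕ → Bool) × (ℕ → I) | (graphOfTable ω.1).Adj a c} =
      {ω | a ≠ c} ∩ ({ω | ω.1 a c = true} ∪ {ω | ω.1 c a = true}) := by
    ext ω
    simp [graphOfTable, SimpleGraph.fromRel_adj]
  rw [h]
  have hb : ∀ a c : ℕ, MeasurableSet {ω : (ℕ → ℕ → Bool) × (ℕ → I) | ω.1 a c = true} := by
    intro a c
    have hm : Measurable (fun ω : (ℕ → ℕ → Bool) × (ℕ → I) => ω.1 a c) :=
      (measurable_pi_apply c).comp ((measurable_pi_apply a).comp measurable_fst)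
    exact hm (measurableSet_singleton true)
  exact (MeasurableSet.const _).inter ((hb a c).union (hb c a))

/-- Joint measurability. -/
theorem measurable_edgeNoise :
    Measurable (fun p : (ℕ → ℕ → Bool) × (ℕ → I) => edgeNoise (graphOfTable p.1) p.2) := by
  have hs : Measurable (fun p : (ℕ → ℕ → Bool) × (ℕ → I) => split p.2) :=
    measurable_split.comp measurable_snd
  refine Measurable.prodMk ?_ ?_
  · rw [measurable_pi_iff]
    intro e
    exact measurable_edgeVal measurable_table_adj hs.fst hs.snd e 0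
  · rw [measurable_pi_iff]
    intro c
    exact measurable_edgeVal measurable_table_adj hs.fst hs.snd c.1 (c.2 + 1)

/-! ### Equivariance -/

lemma rank_comap (π : Equiv.Perm ℕ) (G : SimpleGraph ℕ) (p : ℕ → I) (a b : ℕ) :
    rank (G.comap π) (p ∘ π) a b = rank G p (π a) (π b) := by
  unfold rank
  have h : {c | G.Adj (π a) c ∧ p c < p (π b)} = π '' {c | (G.comap π).Adj a c ∧ (p ∘ π) c < (p ∘ π) b} := by
    ext c
    constructor
    · rintro ⟨h1, h2⟩
      refine ⟨π.symm c, ⟨?_, ?_⟩, by simp⟩
      · simpa using h1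
      · simpa using h2
    · rintro ⟨c', ⟨h1, h2⟩, rfl⟩
      exact ⟨by simpa using h1, by simpa using h2⟩
  rw [h, Set.ncard_image_of_injective _ π.injective]

lemma split_comp (π : Equiv.Perm ℕ) (x : ℕ → I) :
    split (x ∘ π) = ((split x).1 ∘ π, fun c => (split x).2 (π c.1, c.2)) := rfl

lemma val_comap (π : Equiv.Perm ℕ) (G : SimpleGraph ℕ) (p : ℕ → I) (z : ℕ × ℕ → I) (a b j : ℕ) :
    val (G.comap π) (p ∘ π) (fun c => z (π c.1, c.2)) a b j = val G p z (π a) (π b) j := by
  unfold val
  simp only [rank_comap, Function.comp_apply]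

lemma edgeVal_comap (π : Equiv.Perm ℕ) (G : SimpleGraph ℕ) (p : ℕ → I) (z : ℕ × ℕ → I) (e : Sym2 ℕ) (j : ℕ) :
    edgeVal (G.comap π) (p ∘ π) (fun c => z (π c.1, c.2)) e j = edgeVal G p z (Sym2.map π e) j := by
  induction e using Sym2.ind with
  | _ a b => simpa using val_comap π G p z a b j

/-- Equivariance on all inputs. -/
theorem edgeNoise_comap (p : Equiv.Perm ℕ) (G : SimpleGraph ℕ) (x : ℕ → I) :
    edgeNoise (G.comap p) (x ∘ p) =
      ((edgeNoise G x).1 ∘ Sym2.map p, fun c => (edgeNoise G x).2 (Sym2.map p c.1, c.2)) := by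
  unfold edgeNoise
  rw [split_comp]
  refine Prod.ext ?_ ?_
  · funext e
    exact edgeVal_comap p G (split x).1 (split x).2 e 0
  · funext c
    exact edgeVal_comap p G (split x).1 (split x).2 c.1 (c.2 + 1)

/-! ### The law -/

/-- The stream position read by a pair (given distinct labels). -/
noncomputable def own (G : SimpleGraph ℕ) (p : ℕ → I) (j a b : ℕ) : ℕ × ℕ :=
  if p a < p b then (a, Nat.pair (rank G p a b) j)
  else if p b < p a then (b, Nat.pair (rank G p b a) j)
  else (0, 0)

lemma own_comm (G : SimpleGraph ℕ) (p : ℕ → I) (j a b : ℕ) : own G p j a b = own G p j b a := by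
  unfold own
  by_cases h1 : p a < p b
  · have h2 : ¬ p b < p a := not_lt.mpr h1.le
    simp [h1, h2]
  · by_cases h2 : p b < p a <;> simp [h1, h2]

/-- The stream position read by an unordered pair. -/
noncomputable def idx (G : SimpleGraph ℕ) (p : ℕ → I) (e : Sym2 ℕ) (j : ℕ) : ℕ × ℕ :=
  Sym2.lift ⟨own G p j, own_comm G p j⟩ e

lemma exists_oriented (G : SimpleGraph ℕ) {p : ℕ → I} (hp : Function.Injective p) (e : Sym2 ℕ)
    (he : e ∈ G.edgeSet) : ∃ a b, e = s(a, b) ∧ G.Adj a b ∧ p a < p b := by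
  induction e using Sym2.ind with
  | _ a b =>
    have hab : G.Adj a b := he
    rcases lt_or_gt_of_ne (fun h => hab.ne (hp h) : p a ≠ p b) with h | h
    · exact ⟨a, b, rfl, hab, h⟩
    · exact ⟨b, a, Sym2.eq_swap, hab.symm, h⟩

lemma idx_oriented (G : SimpleGraph ℕ) {p : ℕ → I} {a b : ℕ} (j : ℕ) (h : p a < p b) :
    idx G p s(a, b) j = (a, Nat.pair (rank G p a b) j) := by
  show own G p j a b = _
  unfold own
  simp [h]

lemma edgeVal_oriented (G : SimpleGraph ℕ) {p : ℕ → I} (z : ℕ × ℕ → I) {a b : ℕ} (j : ℕ) (h : p a < p b) :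
    edgeVal G p z s(a, b) j = z (a, Nat.pair (rank G p a b) j) := by
  show val G p z a b j = _
  unfold val
  simp [h]

lemma edgeVal_eq_idx (G : SimpleGraph ℕ) {p : ℕ → I} (hp : Function.Injective p) (z : ℕ × ℕ → I)
    (e : Sym2 ℕ) (he : e ∈ G.edgeSet) (j : ℕ) : edgeVal G p z e j = z (idx G p e j) := by
  obtain ⟨a, b, rfl, -, h⟩ := exists_oriented G hp e he
  rw [edgeVal_oriented G z j h, idx_oriented G j h]

lemma rank_lt (G : SimpleGraph ℕ) (hl : ∀ v, (G.neighborSet v).Finite) {p : ℕ → I} {a b b' : ℕ}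
    (hb : G.Adj a b) (hlt : p b < p b') : rank G p a b < rank G p a b' := by
  unfold rank
  refine Set.ncard_lt_ncard ?_ ((hl a).subset fun c hc => hc.1)
  refine ⟨fun c hc => ⟨hc.1, hc.2.trans hlt⟩, fun hsub => ?_⟩
  have := hsub (show b ∈ {c | G.Adj a c ∧ p c < p b'} from ⟨hb, hlt⟩)
  exact lt_irrefl _ this.2

lemma idx_injective (G : SimpleGraph ℕ) (hl : ∀ v, (G.neighborSet v).Finite) {p : ℕ → I}
    (hp : Function.Injective p) :
    Function.Injective (fun c : ↥G.edgeSet × ℕ => idx G p (c.1 : Sym2 ℕ) c.2) := by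
  rintro ⟨⟨e, he⟩, j⟩ ⟨⟨e', he'⟩, j'⟩ h
  obtain ⟨a, b, rfl, hab, hlt⟩ := exists_oriented G hp e he
  obtain ⟨a', b', rfl, hab', hlt'⟩ := exists_oriented G hp e' he'
  simp only at h
  rw [idx_oriented G j hlt, idx_oriented G j' hlt'] at h
  simp only [Prod.mk.injEq] at h
  obtain ⟨rfl, h2⟩ := h
  obtain ⟨h3, rfl⟩ := Nat.pair_eq_pair.mp h2
  have hbb : b = b' := by
    by_contra hne
    rcases lt_or_gt_of_ne (fun h => hne (hp h) : p b ≠ p b') with h | h
    · exact (rank_lt G hl hab h).ne h3
    · exact (rank_lt G hl hab' h).ne' h3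
  subst hbb
  rfl

/-- From one field of streams on `Γ × ℕ` to labels and noise on `Γ`. -/
def unfoldXi {Γ : Type*} (y : Γ × ℕ → I) : Xi Γ :=
  (fun g => y (g, 0), fun c => y (c.1, c.2 + 1))

lemma measurable_unfoldXi {Γ : Type*} : Measurable (unfoldXi (Γ := Γ)) := by
  refine Measurable.prodMk ?_ ?_
  · rw [measurable_pi_iff]; intro j; exact measurable_pi_apply _
  · rw [measurable_pi_iff]; intro j; exact measurable_pi_apply _

theorem map_unfoldXi (Γ : Type*) : (Lam (Γ × ℕ)).map unfoldXi = PXi Γ := by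
  let κ : Γ ⊕ (Γ × ℕ) → Γ × ℕ := Sum.elim (fun g => (g, 0)) (fun c => (c.1, c.2 + 1))
  have hκ : Function.Injective κ := by
    rintro (a | ⟨a, n⟩) (b | ⟨b, m⟩) h <;> simp_all [κ]
  have hm1 : Measurable (fun z : Γ × ℕ → I => z ∘ κ) := by
    rw [measurable_pi_iff]
    intro j
    exact measurable_pi_apply (κ j)
  have hmS : Measurable (fun z : Γ ⊕ (Γ × ℕ) → I => (z ∘ Sum.inl, z ∘ Sum.inr)) := by
    refine Measurable.prodMk ?_ ?_
    · rw [measurable_pi_iff]; intro j; exact measurable_pi_apply (Sum.inl j)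
    · rw [measurable_pi_iff]; intro j; exact measurable_pi_apply (Sum.inr j)
  unfold PXi
  rw [← map_sum_split, ← map_comp_injective κ hκ, Measure.map_map hmS hm1]
  rfl

lemma ae_injective : ∀ᵐ p ∂(Lam ℕ), Function.Injective p := by
  have : ∀ᵐ p ∂(Lam ℕ), ∀ u v : ℕ, u ≠ v → p u ≠ p v := by
    rw [ae_all_iff]
    intro u
    rw [ae_all_iff]
    intro v
    by_cases huv : u = v
    · simp [huv]
    · filter_upwards [ae_label_ne huv] with p hp _
      exact hp
  filter_upwards [this] with p hp u v huv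
  by_contra hne
  exact hp u v hne huv

/-- The field read on the edges. -/
noncomputable def edgeField (G : SimpleGraph ℕ) (q : (ℕ → I) × (ℕ × ℕ → I)) : ↥G.edgeSet × ℕ → I :=
  fun c => edgeVal G q.1 q.2 (c.1 : Sym2 ℕ) c.2

lemma measurable_edgeField (G : SimpleGraph ℕ) : Measurable (edgeField G) := by
  rw [measurable_pi_iff]
  intro c
  exact measurable_edgeVal (Γ := fun _ => G) (fun _ _ => MeasurableSet.const _)
    measurable_fst measurable_snd _ _

theorem map_edgeField (G : SimpleGraph ℕ) (hl : ∀ v, (G.neighborSet v).Finite) :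
    (PXi ℕ).map (edgeField G) = Lam (↥G.edgeSet × ℕ) := by
  refine Measure.ext fun A hA => ?_
  rw [Measure.map_apply (measurable_edgeField G) hA]
  unfold PXi
  rw [Measure.prod_apply (measurable_edgeField G hA)]
  have hae : ∀ᵐ p ∂(Lam ℕ), (Lam (ℕ × ℕ)) (Prod.mk p ⁻¹' (edgeField G ⁻¹' A)) = Lam (↥G.edgeSet × ℕ) A := by
    filter_upwards [ae_injective] with p hp
    have hκ := idx_injective G hl hp
    have hm : Measurable (fun z : ℕ × ℕ → I => z ∘ (fun c : ↥G.edgeSet × ℕ => idx G p (c.1 : Sym2 ℕ) c.2)) := by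
      rw [measurable_pi_iff]
      intro j
      exact measurable_pi_apply _
    have hset : Prod.mk p ⁻¹' (edgeField G ⁻¹' A) =
        (fun z : ℕ × ℕ → I => z ∘ (fun c : ↥G.edgeSet × ℕ => idx G p (c.1 : Sym2 ℕ) c.2)) ⁻¹' A := by
      ext z
      have : edgeField G (p, z) = z ∘ (fun c : ↥G.edgeSet × ℕ => idx G p (c.1 : Sym2 ℕ) c.2) := by
        funext c
        exact edgeVal_eq_idx G hp z c.1.1 c.1.2 c.2
      simp [this]
    rw [hset, ← Measure.map_apply hm hA, map_comp_injective _ hκ]
  rw [lintegral_congr_ae hae]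
  simp

/-- On a locally finite graph the noise on the edges is i.i.d. -/
theorem edgeNoise_law (G : SimpleGraph ℕ) (hl : ∀ v, (G.neighborSet v).Finite) :
    (Lam ℕ).map (fun x => resXi G.edgeSet (edgeNoise G x)) = PXi ↥G.edgeSet := by
  have h : (fun x => resXi G.edgeSet (edgeNoise G x)) = unfoldXi ∘ edgeField G ∘ split := rfl
  rw [h, ← Measure.map_map (measurable_unfoldXi) ((measurable_edgeField G).comp measurable_split),
    ← Measure.map_map (measurable_edgeField G) measurable_split, map_split, map_edgeField G hl,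
    map_unfoldXi]

end Crest.Agent.Lib.FiidEdgeNoise
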