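import Crest.Agent.Lib.FiidBall

/-!
# The free uniform spanning forest as a measure, and its tilted means

The measure `ν` is obtained as a limit point (Prokhorov: `ProbabilityMeasure` of a compact space is compact) of the
uniform spanning tree measures on an exhaustion.
-/

set_option autoImplicit false

namespace Crest.Agent.Lib.FiidFUSF

open MeasureTheory Filter Topology
open scoped ENNReal
open Crest.ProbabilityR.SpanningTrees
open Crest.Agent.Lib.FiidPlanted Crest.Agent.Lib.FiidStablePoly Crest.Agent.Lib.FiidKirchhoff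
  Crest.Agent.Lib.FiidRayleighMono
  Crest.Agent.Lib.FiidRun Crest.Agent.Lib.FiidCauchy Crest.Agent.Lib.FiidBall

/-- The space of configurations. -/
abbrev Om := Sym2 ℕ → Bool

open Classical in
/-- The indicator of a finite set of edges, as a configuration. -/
noncomputable def bits (A : Finset (Sym2 ℕ)) : Om := fun e => decide (e ∈ A)

open Classical in
lemma b2r_bits (A : Finset (Sym2 ℕ)) (e : Sym2 ℕ) : b2r (bits A e) = if e ∈ A then 1 else 0 := by
  by_cases h : e ∈ A <;> simp [bits, b2r, h]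

open Classical in
/-- The spanning trees of a piece. -/
noncomputable def trees (G : SimpleGraph ℕ) (S : Finset ℕ) : Finset (Finset (Sym2 ℕ)) :=
  (edgesIn G S).powerset.filter (fun A => IsSpanningTreeOn G S A)

lemma mem_trees {G : SimpleGraph ℕ} {S : Finset ℕ} {A : Finset (Sym2 ℕ)} :
    A ∈ trees G S ↔ IsSpanningTreeOn G S A := by
  classical
  simp only [trees, Finset.mem_filter, Finset.mem_powerset, and_iff_right_iff_imp]
  exact fun h => h.1

lemma trees_nonempty {G : SimpleGraph ℕ} {S : Finset ℕ} (hS : (G.induce (S : Set ℕ)).Connected) :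
    (trees G S).Nonempty := by
  obtain ⟨A, hA⟩ := exists_tree G S hS
  exact ⟨A, mem_trees.2 hA⟩

/-- The uniform spanning tree of a piece, as a measure on configurations. -/
noncomputable def ust (G : SimpleGraph ℕ) (S : Finset ℕ) : Measure Om :=
  ((trees G S).card : ℝ≥0∞)⁻¹ • ∑ A ∈ trees G S, Measure.dirac (bits A)

lemma ust_prob {G : SimpleGraph ℕ} {S : Finset ℕ} (hS : (G.induce (S : Set ℕ)).Connected) :
    IsProbabilityMeasure (ust G S) := by
  constructor
  have hc : ((trees G S).card : ℝ≥0∞) ≠ 0 := by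
    simpa using (trees_nonempty hS).ne_empty
  simp only [ust, Measure.smul_apply, Measure.finsetSum_apply, measure_univ, Finset.sum_const,
    nsmul_eq_mul, mul_one, smul_eq_mul]
  exact ENNReal.inv_mul_cancel hc (by simp)

lemma integral_ust (G : SimpleGraph ℕ) (S : Finset ℕ) (f : Om → ℝ) :
    ∫ ω, f ω ∂(ust G S) = (∑ A ∈ trees G S, f (bits A)) / (trees G S).card := by
  unfold ust
  rw [integral_smul_measure, integral_finsetSum_measure]
  · simp only [integral_dirac, ENNReal.toReal_inv, ENNReal.toReal_natCast, smul_eq_mul]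
    rw [div_eq_inv_mul]
  · intro A _
    exact integrable_dirac (by simp)

lemma sum_cut (W : Finset (Sym2 ℕ)) (h : Sym2 ℕ → ℝ) (A : Finset (Sym2 ℕ)) :
    ∑ e ∈ A, cutTilt W h e = ∑ u ∈ W, b2r (bits A u) * h u := by
  classical
  simp only [cutTilt, b2r_bits, ite_mul, one_mul, zero_mul]
  rw [Finset.sum_ite_mem, Finset.sum_ite_mem, Finset.inter_comm]

lemma tmean_ust {G : SimpleGraph ℕ} {S : Finset ℕ} (hS : (G.induce (S : Set ℕ)).Connected)
    (W : Finset (Sym2 ℕ)) (h : Sym2 ℕ → ℝ) (v : Sym2 ℕ) :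
    tmean (ust G S) W h v = tiltMean (edgesIn G S) (treeCoeff G S) (cutTilt W h) v := by
  classical
  have hc : ((trees G S).card : ℝ) ≠ 0 := by
    simpa using (trees_nonempty hS).ne_empty
  unfold tmean tiltMean tiltZ
  rw [integral_ust, integral_ust, div_div_div_cancel_right₀ hc]
  simp only [tw, ← sum_cut]
  congr 1
  · simp only [trees, treeCoeff, b2r_bits, Finset.sum_filter]
    refine Finset.sum_congr rfl (fun A _ => ?_)
    by_cases h1 : IsSpanningTreeOn G S A <;> by_cases h2 : v ∈ A <;> simp [h1, h2]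
  · simp only [trees, treeCoeff, Finset.sum_filter]
    refine Finset.sum_congr rfl (fun A _ => ?_)
    by_cases h1 : IsSpanningTreeOn G S A <;> simp [h1]

lemma ust_lip {G : SimpleGraph ℕ} {S : Finset ℕ} (hS : (G.induce (S : Set ℕ)).Connected)
    (W : Finset (Sym2 ℕ)) (v : Sym2 ℕ) (hv : v ∈ W) (h h' : Sym2 ℕ → ℝ) (Δ : ℝ)
    (hΔ : ∀ u ∈ W, |h u - h' u| ≤ Δ) :
    |tmean (ust G S) W h v - tmean (ust G S) W h' v| ≤ (1 / 2) * Δ := by
  classical
  rw [tmean_ust hS, tmean_ust hS]
  have hΔ0 : 0 ≤ Δ := (abs_nonneg _).trans (hΔ v hv)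
  refine tiltMean_lipschitz (edgesIn G S) (treeCoeff G S) (fun A _ => treeCoeff_nonneg G S A) ?_
    (tree_stable G S hS) v _ _ Δ hΔ0 (fun e _ => ?_)
  · obtain ⟨A, hA⟩ := exists_tree G S hS
    refine ⟨A, Finset.mem_powerset.2 hA.1, ?_⟩
    simp [treeCoeff, hA]
  · by_cases he : e ∈ W
    · simpa [cutTilt, he] using hΔ e he
    · simpa [cutTilt, he] using hΔ0

/-! ### Continuity on the compact space of configurations -/

lemma cont_b2r (v : Sym2 ℕ) : Continuous (fun ω : Om => b2r (ω v)) :=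
  (continuous_of_discreteTopology (f := b2r)).comp (continuous_apply v)

lemma cont_tw (W : Finset (Sym2 ℕ)) (h : Sym2 ℕ → ℝ) : Continuous (tw W h : Om → ℝ) := by
  unfold tw
  refine Real.continuous_exp.comp (continuous_finsetSum _ (fun u _ => ?_))
  exact (cont_b2r u).mul continuous_const

lemma cont_prod (F : Finset (Sym2 ℕ)) : Continuous (fun ω : Om => ∏ e ∈ F, b2r (ω e)) :=
  continuous_finsetProd _ (fun e _ => cont_b2r e)

/-- The cylinder where all edges of `F` are present. -/
def cyl (F : Finset (Sym2 ℕ)) : Set Om := {ω | ∀ e ∈ F, ω e = true}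

lemma measurableSet_cyl (F : Finset (Sym2 ℕ)) : MeasurableSet (cyl F) := by
  have : cyl F = ⋂ e ∈ F, {ω : Om | ω e = true} := by
    ext ω; simp [cyl]
  rw [this]
  refine Finset.measurableSet_biInter _ (fun e _ => ?_)
  exact measurableSet_eq_fun (measurable_pi_apply e) measurable_const

lemma prod_b2r (F : Finset (Sym2 ℕ)) (ω : Om) :
    ∏ e ∈ F, b2r (ω e) = (cyl F).indicator 1 ω := by
  classical
  by_cases h : ω ∈ cyl F
  · rw [Set.indicator_of_mem h]
    refine Finset.prod_eq_one (fun e he => ?_)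
    simp [b2r, h e he]
  · rw [Set.indicator_of_notMem h]
    simp only [cyl, Set.mem_ofPred_eq, not_forall] at h
    obtain ⟨e, he, hne⟩ := h
    refine Finset.prod_eq_zero he ?_
    simp [b2r, hne]

lemma integral_prod (μ : Measure Om) [IsFiniteMeasure μ] (F : Finset (Sym2 ℕ)) :
    ∫ ω, ∏ e ∈ F, b2r (ω e) ∂μ = (μ (cyl F)).toReal := by
  simp_rw [prod_b2r]
  rw [integral_indicator_one (measurableSet_cyl F)]
  rfl

lemma integrable_of_cont (μ : Measure Om) [IsFiniteMeasure μ] {f : Om → ℝ} (hf : Continuous f) :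
    Integrable f μ :=
  hf.integrable_of_hasCompactSupport (HasCompactSupport.of_compactSpace f)

/-- Probability under the UST of the cylinder. -/
lemma ust_cyl {G : SimpleGraph ℕ} {S : Finset ℕ} (hS : (G.induce (S : Set ℕ)).Connected)
    (F : Finset (Sym2 ℕ)) : ((ust G S) (cyl F)).toReal = ustContains G S F := by
  classical
  have := ust_prob hS
  rw [← integral_prod, integral_ust]
  unfold ustContains
  have e1 : ∑ A ∈ trees G S, ∏ e ∈ F, b2r (bits A e)
      = (((edgesIn G S).powerset.filter (fun A => IsSpanningTreeOn G S A ∧ F ⊆ A)).card : ℝ) := by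
    have e2 : ∀ A : Finset (Sym2 ℕ), ∏ e ∈ F, b2r (bits A e) = if F ⊆ A then 1 else 0 := by
      intro A
      simp only [b2r_bits]
      split_ifs with h
      · exact Finset.prod_eq_one (fun e he => by simp [h he])
      · obtain ⟨e, he, hne⟩ := Finset.not_subset.1 h
        exact Finset.prod_eq_zero he (by simp [hne])
    simp only [e2]
    rw [Finset.sum_boole, trees, Finset.filter_filter]
  rw [e1]
  congr 2
  congr!

/-! ### Expansion of the tilt weight over cylinders -/

lemma tw_expand (W : Finset (Sym2 ℕ)) (h : Sym2 ℕ → ℝ) (ω : Om) :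
    tw W h ω = ∑ F ∈ W.powerset, (∏ u ∈ F, (Real.exp (h u) - 1)) * ∏ u ∈ F, b2r (ω u) := by
  classical
  unfold tw
  rw [Real.exp_sum]
  have : ∀ u ∈ W, Real.exp (b2r (ω u) * h u) = 1 + (Real.exp (h u) - 1) * b2r (ω u) := by
    intro u _
    cases hb : ω u <;> simp [b2r]
  rw [Finset.prod_congr rfl this, Finset.prod_one_add]
  refine Finset.sum_congr rfl (fun F _ => ?_)
  rw [Finset.prod_mul_distrib]

lemma b2r_mul_prod (F : Finset (Sym2 ℕ)) (v : Sym2 ℕ) (ω : Om) :
    b2r (ω v) * ∏ u ∈ F, b2r (ω u) = ∏ u ∈ insert v F, b2r (ω u) := by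
  classical
  by_cases hv : v ∈ F
  · rw [Finset.insert_eq_of_mem hv, ← Finset.mul_prod_erase F _ hv, ← mul_assoc]
    congr 1
    cases hb : ω v <;> simp [b2r]
  · rw [Finset.prod_insert hv]

lemma occ_tw_expand (W : Finset (Sym2 ℕ)) (h : Sym2 ℕ → ℝ) (v : Sym2 ℕ) (ω : Om) :
    b2r (ω v) * tw W h ω =
      ∑ F ∈ W.powerset, (∏ u ∈ F, (Real.exp (h u) - 1)) * ∏ u ∈ insert v F, b2r (ω u) := by
  classical
  rw [tw_expand, Finset.mul_sum]
  refine Finset.sum_congr rfl (fun F _ => ?_)
  rw [← b2r_mul_prod]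
  ring

/-- Tilted means are determined by, and continuous in, the cylinder probabilities. -/
lemma tmean_tendsto_of_cyl {μn : ℕ → Measure Om} [∀ n, IsProbabilityMeasure (μn n)]
    {ν : Measure Om} [IsProbabilityMeasure ν] (W : Finset (Sym2 ℕ)) (v : Sym2 ℕ) (hv : v ∈ W)
    (h : Sym2 ℕ → ℝ)
    (hlim : ∀ F ∈ W.powerset, Tendsto (fun n => ((μn n) (cyl F)).toReal) atTop (𝓝 (ν (cyl F)).toReal)) :
    Tendsto (fun n => tmean (μn n) W h v) atTop (𝓝 (tmean ν W h v)) := by
  classical
  have denom : ∀ μ : Measure Om, IsProbabilityMeasure μ → ∫ ω, tw W h ω ∂μ =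
      ∑ F ∈ W.powerset, (∏ u ∈ F, (Real.exp (h u) - 1)) * (μ (cyl F)).toReal := by
    intro μ _
    simp_rw [tw_expand]
    rw [integral_finsetSum]
    · refine Finset.sum_congr rfl (fun F _ => ?_)
      rw [integral_const_mul, integral_prod]
    · intro F _
      exact (integrable_of_cont μ (cont_prod F)).const_mul _
  have numer : ∀ μ : Measure Om, IsProbabilityMeasure μ → ∫ ω, b2r (ω v) * tw W h ω ∂μ =
      ∑ F ∈ W.powerset, (∏ u ∈ F, (Real.exp (h u) - 1)) * (μ (cyl (insert v F))).toReal := by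
    intro μ _
    simp_rw [occ_tw_expand]
    rw [integral_finsetSum]
    · refine Finset.sum_congr rfl (fun F _ => ?_)
      rw [integral_const_mul, integral_prod]
    · intro F _
      exact (integrable_of_cont μ (cont_prod _)).const_mul _
  unfold tmean
  simp_rw [denom _ inferInstance, numer _ inferInstance]
  rw [show (fun n => (∑ F ∈ W.powerset, (∏ u ∈ F, (Real.exp (h u) - 1)) * ((μn n) (cyl (insert v F))).toReal) /
        ∑ F ∈ W.powerset, (∏ u ∈ F, (Real.exp (h u) - 1)) * ((μn n) (cyl F)).toReal) =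
      (fun n => (∑ F ∈ W.powerset, (∏ u ∈ F, (Real.exp (h u) - 1)) * ((μn n) (cyl (insert v F))).toReal) /
        ∑ F ∈ W.powerset, (∏ u ∈ F, (Real.exp (h u) - 1)) * ((μn n) (cyl F)).toReal) from rfl]
  refine Tendsto.div ?_ ?_ ?_
  · refine tendsto_finsetSum _ (fun F hF => ?_)
    refine Tendsto.const_mul _ (hlim _ ?_)
    refine Finset.mem_powerset.2 (Finset.insert_subset hv (Finset.mem_powerset.1 hF))
  · refine tendsto_finsetSum _ (fun F hF => ?_)
    exact Tendsto.const_mul _ (hlim _ hF)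
  · rw [← denom ν inferInstance]
    exact (integral_tw_pos ν W h).ne'

/-! ### Exhaustions -/

/-- An exhaustion by connected pieces. -/
structure Exh (G : SimpleGraph ℕ) (S : ℕ → Finset ℕ) : Prop where
  mono : Monotone S
  cover : ∀ v : ℕ, ∃ n, v ∈ S n
  conn : ∀ n, (G.induce (S n : Set ℕ)).Connected

lemma Exh.eventually_mem {G : SimpleGraph ℕ} {S : ℕ → Finset ℕ} (hS : Exh G S) (T : Finset ℕ) :
    ∃ n₁, ∀ n ≥ n₁, T ⊆ S n := by
  classical
  have : ∀ᶠ n in atTop, ∀ v ∈ T, v ∈ S n := by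
    rw [Filter.eventually_all_finset]
    intro v _
    obtain ⟨n, hn⟩ := hS.cover v
    exact eventually_atTop.2 ⟨n, fun m hm => hS.mono hm hn⟩
  obtain ⟨n₁, h⟩ := eventually_atTop.1 this
  exact ⟨n₁, fun n hn v hv => h n hn v hv⟩

lemma Exh.eventually_edges {G : SimpleGraph ℕ} {S : ℕ → Finset ℕ} (hS : Exh G S)
    (F : Finset (Sym2 ℕ)) (hF : (F : Set (Sym2 ℕ)) ⊆ G.edgeSet) :
    ∃ n₁, ∀ n ≥ n₁, F ⊆ edgesIn G (S n) := by
  classical
  have : ∀ᶠ n in atTop, ∀ e ∈ F, e ∈ edgesIn G (S n) := by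
    rw [Filter.eventually_all_finset]
    intro e he
    induction e using Sym2.ind with
    | _ a b =>
      obtain ⟨n₁, h₁⟩ := hS.eventually_mem {a, b}
      refine eventually_atTop.2 ⟨n₁, fun n hn => ?_⟩
      have hab := h₁ n hn
      simp only [edgesIn, Finset.mem_filter, Finset.mk_mem_sym2_iff]
      exact ⟨⟨hab (by simp), hab (by simp)⟩, hF he⟩
  obtain ⟨n₁, h⟩ := eventually_atTop.1 this
  exact ⟨n₁, fun n hn e he => h n hn e he⟩

lemma ustContains_nonneg (G : SimpleGraph ℕ) (S : Finset ℕ) (F : Finset (Sym2 ℕ)) :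
    0 ≤ ustContains G S F := by
  unfold ustContains
  positivity

/-- The inclusion probabilities along an exhaustion converge. -/
lemma Exh.exists_limit {G : SimpleGraph ℕ} {S : ℕ → Finset ℕ} (hS : Exh G S)
    (F : Finset (Sym2 ℕ)) (hF : (F : Set (Sym2 ℕ)) ⊆ G.edgeSet) :
    ∃ L, Tendsto (fun n => ustContains G (S n) F) atTop (𝓝 L) := by
  obtain ⟨n₁, h₁⟩ := hS.eventually_edges F hF
  have anti : Antitone (fun k => ustContains G (S (k + n₁)) F) := by
    intro k l hkl
    exact ustContains_mono G (S (k + n₁)) (S (l + n₁)) (hS.conn _) (hS.conn _)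
      (hS.mono (by omega)) F (h₁ _ (by omega))
  have hb : BddBelow (Set.range fun k => ustContains G (S (k + n₁)) F) :=
    ⟨0, by rintro _ ⟨k, rfl⟩; exact ustContains_nonneg _ _ _⟩
  exact ⟨_, (tendsto_add_atTop_iff_nat n₁).1 (tendsto_atTop_ciInf anti hb)⟩

/-- The limits along two exhaustions are comparable. -/
lemma Exh.limit_le {G : SimpleGraph ℕ} {S S' : ℕ → Finset ℕ} (hS : Exh G S) (hS' : Exh G S')
    (F : Finset (Sym2 ℕ)) (hF : (F : Set (Sym2 ℕ)) ⊆ G.edgeSet) {L L' : ℝ}
    (hL : Tendsto (fun n => ustContains G (S n) F) atTop (𝓝 L))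
    (hL' : Tendsto (fun n => ustContains G (S' n) F) atTop (𝓝 L')) : L ≤ L' := by
  obtain ⟨n₁, h₁⟩ := hS'.eventually_edges F hF
  refine ge_of_tendsto hL' ?_
  refine eventually_atTop.2 ⟨n₁, fun m hm => ?_⟩
  refine le_of_tendsto hL ?_
  obtain ⟨n₂, h₂⟩ := hS.eventually_mem (S' m)
  refine eventually_atTop.2 ⟨n₂, fun n hn => ?_⟩
  exact ustContains_mono G (S' m) (S n) (hS'.conn _) (hS.conn _) (h₂ n hn) F (h₁ m hm)

/-! ### The limit -/

/-- **The limit law.** On a connected locally finite graph there is a law `ν` on sets of pairs with `1/2`-Lipschitz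
tilted means, whose inclusion probabilities are the limits of those of uniform spanning trees along every
exhaustion, and whose tilted means are the ones of the rule `fusfOracle`. -/
theorem exists_fusf (G : SimpleGraph ℕ) (hc : G.Connected) (hl : ∀ v, (G.neighborSet v).Finite) :
    ∃ ν : Measure (Sym2 ℕ → Bool), IsProbabilityMeasure ν ∧ TiltLip ν ∧
      (∀ S : ℕ → Finset ℕ, Monotone S → (∀ v : ℕ, ∃ n, v ∈ S n) →
          (∀ n, (G.induce (S n : Set ℕ)).Connected) →
          ∀ F : Finset (Sym2 ℕ), (↑F : Set (Sym2 ℕ)) ⊆ G.edgeSet →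
            Filter.Tendsto (fun n => ustContains G (S n) F) Filter.atTop
              (nhds (ν {ω | ∀ e ∈ F, ω e = true}).toReal)) ∧
      (∀ W : Finset (Sym2 ℕ), (↑W : Set (Sym2 ℕ)) ⊆ G.edgeSet → W.Nonempty → ∀ (h : Sym2 ℕ → ℝ), ∀ v ∈ W,
        fusfOracle G W h v = tmean ν W h v) := by
  classical
  -- balls around a nonempty set of edges form an exhaustion, after a shift
  have hball : ∀ W : Finset (Sym2 ℕ), W.Nonempty → ∃ n₀, Exh G (fun n => ball G W (n + n₀)) := by
    intro W hW
    obtain ⟨n₀, h₀⟩ := ball_connected hc hl hW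
    refine ⟨n₀, ⟨?_, ?_, ?_⟩⟩
    · intro a b hab
      exact ball_mono hl W (by omega)
    · intro v
      obtain ⟨n, hn⟩ := ball_exhaust hc hl hW v
      exact ⟨n, ball_mono hl W (by omega) hn⟩
    · intro n
      exact h₀ _ (by omega)
  -- some edge
  obtain ⟨a, b, hab⟩ : ∃ a b, G.Adj a b := by
    obtain ⟨p⟩ := hc.preconnected 0 1
    cases p with
    | cons h _ => exact ⟨_, _, h⟩
  obtain ⟨n₀, hS0⟩ := hball {s(a, b)} (by simp)
  set S0 : ℕ → Finset ℕ := fun n => ball G {s(a, b)} (n + n₀) with hS0def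
  have prob : ∀ n, IsProbabilityMeasure (ust G (S0 n)) := fun n => ust_prob (hS0.conn n)
  set P : ℕ → ProbabilityMeasure Om := fun n => ⟨ust G (S0 n), prob n⟩ with hP
  -- a weak limit along an ultrafilter
  set U : Ultrafilter ℕ := Filter.hyperfilter ℕ with hU
  have hUle : (U : Filter ℕ) ≤ atTop := by
    rw [← Nat.cofinite_eq_atTop]
    exact Filter.hyperfilter_le_cofinite
  obtain ⟨ν', -, hν'⟩ := isCompact_univ.ultrafilter_le_nhds (U.map P)
    (by simp only [Filter.principal_univ]; exact le_top)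
  have hlim : Tendsto P U (𝓝 ν') := hν'
  have hint : ∀ f : Om → ℝ, Continuous f →
      Tendsto (fun n => ∫ ω, f ω ∂(ust G (S0 n))) U (𝓝 (∫ ω, f ω ∂(ν' : Measure Om))) := by
    intro f hf
    have := (ProbabilityMeasure.tendsto_iff_forall_integral_tendsto.1 hlim)
      (BoundedContinuousFunction.mkOfCompact ⟨f, hf⟩)
    exact this
  set ν : Measure Om := (ν' : Measure Om) with hν
  have hνprob : IsProbabilityMeasure ν := ν'.2
  -- cylinders
  have hcyl : ∀ F : Finset (Sym2 ℕ),
      Tendsto (fun n => ustContains G (S0 n) F) U (𝓝 (ν (cyl F)).toReal) := by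
    intro F
    have := hint _ (cont_prod F)
    rw [integral_prod] at this
    refine this.congr (fun n => ?_)
    have := prob n
    rw [integral_prod, ust_cyl (hS0.conn n)]
  -- the tilted means along the ultrafilter
  have htm : ∀ (W : Finset (Sym2 ℕ)) (h : Sym2 ℕ → ℝ) (v : Sym2 ℕ),
      Tendsto (fun n => tmean (ust G (S0 n)) W h v) U (𝓝 (tmean ν W h v)) := by
    intro W h v
    unfold tmean
    refine Tendsto.div ?_ (hint _ (cont_tw W h)) (integral_tw_pos ν W h).ne'
    exact hint _ ((cont_b2r v).mul (cont_tw W h))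
  -- convergence along all exhaustions
  have hall : ∀ S : ℕ → Finset ℕ, Exh G S → ∀ F : Finset (Sym2 ℕ),
      (F : Set (Sym2 ℕ)) ⊆ G.edgeSet →
      Tendsto (fun n => ustContains G (S n) F) atTop (𝓝 (ν (cyl F)).toReal) := by
    intro S hS F hF
    obtain ⟨L, hL⟩ := hS.exists_limit F hF
    obtain ⟨L₀, hL₀⟩ := hS0.exists_limit F hF
    have e0 : L₀ = (ν (cyl F)).toReal := tendsto_nhds_unique (hL₀.mono_left hUle) (hcyl F)
    have e1 : L = L₀ := le_antisymm (hS.limit_le hS0 F hF hL hL₀) (hS0.limit_le hS F hF hL₀ hL)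
    rw [← e0, ← e1]
    exact hL
  refine ⟨ν, hνprob, ?_, ?_, ?_⟩
  · -- Lipschitz
    intro W v hv h h' Δ hΔ
    have := ((htm W h v).sub (htm W h' v)).abs
    refine le_of_tendsto this (Eventually.of_forall fun n => ?_)
    exact ust_lip (hS0.conn n) W v hv h h' Δ hΔ
  · intro S h1 h2 h3 F hF
    exact hall S ⟨h1, h2, h3⟩ F hF
  · intro W hW hWn h v hv
    obtain ⟨m₀, hSm⟩ := hball W hWn
    have probm : ∀ n, IsProbabilityMeasure (ust G (ball G W (n + m₀))) := fun n => ust_prob (hSm.conn n)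
    have key : Tendsto (fun n => tmean (ust G (ball G W (n + m₀))) W h v) atTop (𝓝 (tmean ν W h v)) := by
      refine tmean_tendsto_of_cyl W v hv h (fun F hF => ?_)
      have hFW : (F : Set (Sym2 ℕ)) ⊆ G.edgeSet :=
        (Finset.coe_subset.2 (Finset.mem_powerset.1 hF)).trans hW
      refine (hall _ hSm F hFW).congr (fun n => ?_)
      rw [ust_cyl (hSm.conn n)]
    have key2 : Tendsto (fun n => tiltMean (edgesIn G (ball G W n)) (treeCoeff G (ball G W n))
        (cutTilt W h) v) atTop (𝓝 (tmean ν W h v)) := by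
      rw [← tendsto_add_atTop_iff_nat m₀]
      refine key.congr (fun n => ?_)
      rw [tmean_ust (hSm.conn n)]
    exact key2.limsup_eq

end Crest.Agent.Lib.FiidFUSF
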