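import Crest.Agent.Lib.FiidLimit
import Crest.Agent.Lib.FiidEdgeNoise
import Crest.Agent.Lib.FiidFUSF

/-!
# The factor of i.i.d. rule for the free uniform spanning forest
-/

set_option autoImplicit false

namespace Crest.Agent.Lib.FiidGraph

open MeasureTheory Set Filter Topology
open scoped unitInterval
open Crest.Agent.Lib.FiidPlanted Crest.Agent.Lib.FiidRun
  Crest.Agent.Lib.FiidCauchy Crest.Agent.Lib.FiidLimit Crest.Agent.Lib.FiidNoise
  Crest.Agent.Lib.FiidEdgeNoise Crest.Agent.Lib.FiidBall Crest.Agent.Lib.FiidFUSF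
open Crest.ProbabilityR.SpanningTrees Crest.ProbabilityR.GraphTables

/-! ### Congruences for runs -/

section congr

variable {ι : Type*}

lemma iter_congr {a a' : Oracle ι} (ha : Local a) {F : Finset ι}
    (hoa : ∀ (h : ι → ℝ), ∀ v ∈ F, a F h v = a' F h v) {U U' : ι → I} {W W' : ι × ℕ → I}
    (hU : ∀ u ∈ F, U u = U' u) (hW : ∀ c : ι × ℕ, c.1 ∈ F → W c = W' c) (n : ℕ) :
    ∀ c : ι × ℕ, c.1 ∈ F → iter a F U W n c = iter a' F U' W' n c := by
  induction n with
  | zero => intro c _; rfl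
  | succ n ih =>
    intro c hc
    unfold iter
    rw [Function.iterate_succ_apply', Function.iterate_succ_apply']
    change step a F U W (iter a F U W n) c = step a' F U' W' (iter a' F U' W' n) c
    unfold step
    rw [hW c hc, ← hoa _ c.1 hc]
    congr 1
    apply ha
    intro u hu
    unfold stageTilt
    rw [hU u hu, hU c.1 hc]
    congr 1
    · exact Finset.sum_congr rfl fun i _ => by rw [ih (u, i) hu]
    · split_ifs
      · rw [ih (u, c.2) hu]
      · rfl

lemma runY_congr {a a' : Oracle ι} (ha : Local a) {F : Finset ι}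
    (hoa : ∀ (h : ι → ℝ), ∀ v ∈ F, a F h v = a' F h v) {U U' : ι → I} {W W' : ι × ℕ → I}
    (hU : ∀ u ∈ F, U u = U' u) (hW : ∀ c : ι × ℕ, c.1 ∈ F → W c = W' c) {c : ι × ℕ} (hc : c.1 ∈ F) :
    runY a F U W c = runY a' F U' W' c :=
  iter_congr ha hoa hU hW _ c hc

end congr

lemma fusfOracle_local (G : SimpleGraph ℕ) : Local (fusfOracle G) := by
  intro W h h' v hh
  have : cutTilt W h = cutTilt W h' := by
    funext u
    unfold cutTilt
    split_ifs with hu
    · exact hh u hu
    · rfl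
  unfold fusfOracle
  rw [this]

/-! ### Measurability tools -/

section tools

lemma measurable_countable_index {P Ω X κ : Type*} [MeasurableSpace P] [MeasurableSpace Ω] [MeasurableSpace X]
    [Countable κ] (i : P → κ) (hi : ∀ k, MeasurableSet {p | i p = k}) (f : κ → P × Ω → X)
    (hf : ∀ k, Measurable (f k)) : Measurable (fun p : P × Ω => f (i p.1) p) := by
  intro s hs
  have : (fun p : P × Ω => f (i p.1) p) ⁻¹' s = ⋃ k, (({p | i p = k} ×ˢ Set.univ) ∩ (f k) ⁻¹' s) := by
    ext p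
    simp
  rw [this]
  exact MeasurableSet.iUnion fun k => ((hi k).prod MeasurableSet.univ).inter (hf k hs)

lemma measurable_sInf_nat {P : Type*} [MeasurableSpace P] (A : P → ℕ → Prop)
    (hA : ∀ N, MeasurableSet {p | A p N}) : ∀ N, MeasurableSet {p | sInf {N | A p N} = N} := by
  intro N
  have hnone : MeasurableSet {p | ∀ M, ¬ A p M} := by
    have : {p | ∀ M, ¬ A p M} = ⋂ M, {p | A p M}ᶜ := by
      ext p; simp
    rw [this]
    exact MeasurableSet.iInter fun M => (hA M).compl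
  rcases Nat.eq_zero_or_pos N with rfl | hN
  · have : {p | sInf {N | A p N} = 0} = {p | A p 0} ∪ {p | ∀ M, ¬ A p M} := by
      ext p
      simp only [mem_setOf_eq, mem_union, Nat.sInf_eq_zero, Set.eq_empty_iff_forall_notMem]
    rw [this]
    exact (hA 0).union hnone
  · have : {p | sInf {N | A p N} = N} = {p | A p N} ∩ ⋂ M ∈ Finset.range N, {p | A p M}ᶜ := by
      ext p
      simp only [mem_setOf_eq, mem_inter_iff, mem_iInter, Finset.mem_range, mem_compl_iff]
      constructor
      · intro h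
        have hne : {N | A p N}.Nonempty := by
          by_contra hemp
          rw [Set.not_nonempty_iff_eq_empty] at hemp
          rw [hemp, Nat.sInf_empty] at h
          omega
        have hmem := Nat.sInf_mem hne
        rw [h] at hmem
        refine ⟨hmem, fun M hM hAM => ?_⟩
        have := Nat.sInf_le (s := {N | A p N}) hAM
        omega
      · rintro ⟨h1, h2⟩
        apply le_antisymm (Nat.sInf_le h1)
        by_contra hlt
        push Not at hlt
        have hne : {N | A p N}.Nonempty := ⟨N, h1⟩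
        exact h2 _ hlt (Nat.sInf_mem hne)
    rw [this]
    exact (hA N).inter (Finset.measurableSet_biInter _ fun M _ => (hA M).compl)

end tools

abbrev Sy := Sym2 ℕ

/-! ### The rule -/

/-- The run on the ball of radius `n` around the site of `c`, at `c`. -/
noncomputable def runN (G : SimpleGraph ℕ) (q : Xi Sy) (c : Sy × ℕ) (n : ℕ) : I :=
  runY (fusfOracle G) (Fs G c.1 n) q.1 q.2 c

/-- The L¹ distance of two runs. -/
noncomputable def dN (G : SimpleGraph ℕ) (c : Sy × ℕ) (n n' : ℕ) : ℝ :=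
  ∫ q, |(runN G q c n : ℝ) - runN G q c n'| ∂PXi Sy

/-- The property that defines the rate. -/
def RateProp (G : SimpleGraph ℕ) (c : Sy × ℕ) (j N : ℕ) : Prop :=
  j ≤ N ∧ ∀ n ≥ N, ∀ n' ≥ N, dN G c n n' ≤ (1 / 4) ^ j

/-- The rate. -/
noncomputable def rateN (G : SimpleGraph ℕ) (c : Sy × ℕ) (j : ℕ) : ℕ := sInf {N | RateProp G c j N}

/-- The limit field. -/
noncomputable def Ylim (G : SimpleGraph ℕ) (q : Xi Sy) (c : Sy × ℕ) : I :=
  limI (fun j => runN G q c (rateN G c j))

/-- The rule. -/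
noncomputable def PhiG (G : SimpleGraph ℕ) (x : ℕ → I) : Sy → Bool :=
  fun e => Dec (Ylim G (edgeNoise G x)) e

/-! ### Measurability -/

section measurability

lemma measurable_run_fixed (F : Finset Sy) :
    Measurable (fun p : (ℕ → ℕ → Bool) × Xi Sy => runY (fusfOracle (graphOfTable p.1)) F p.2.1 p.2.2) :=
  measurable_runY (P := ℕ → ℕ → Bool) (fun t => fusfOracle (graphOfTable t))
    (fun W v => measurable_fusfOracle W v) F

lemma measurable_runN (c : Sy × ℕ) (n : ℕ) :
    Measurable (fun p : (ℕ → ℕ → Bool) × Xi Sy => runN (graphOfTable p.1) p.2 c n) := by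
  have h1 := measurable_countable_index (Ω := Xi Sy) (fun t : ℕ → ℕ → Bool => Fs (graphOfTable t) c.1 n)
    (fun F => measurableSet_Fs c.1 n F)
    (fun F (p : (ℕ → ℕ → Bool) × Xi Sy) => runY (fusfOracle (graphOfTable p.1)) F p.2.1 p.2.2 c)
    (fun F => measurable_pi_iff.mp (measurable_run_fixed F) c)
  exact h1

lemma graphOfTable_tableOf (G : SimpleGraph ℕ) : graphOfTable (tableOf G) = G := by
  classical
  ext a b
  unfold graphOfTable tableOf
  rw [SimpleGraph.fromRel_adj]
  simp only [decide_eq_true_eq]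
  constructor
  · rintro ⟨_, h | h⟩
    · exact h
    · exact h.symm
  · intro h
    exact ⟨h.ne, Or.inl h⟩

lemma measurable_runN_fixed (G : SimpleGraph ℕ) (c : Sy × ℕ) (m : ℕ) :
    Measurable (fun q : Xi Sy => runN G q c m) := by
  have h := Measurable.comp (g := fun r : (ℕ → ℕ → Bool) × Xi Sy => runN (graphOfTable r.1) r.2 c m)
    (f := fun q : Xi Sy => (tableOf G, q)) (measurable_runN c m) measurable_prodMk_left
  simp only [Function.comp_def, graphOfTable_tableOf] at h
  exact h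

lemma measurable_dN (c : Sy × ℕ) (n n' : ℕ) :
    Measurable (fun t : ℕ → ℕ → Bool => dN (graphOfTable t) c n n') := by
  have hb : BM (fun p : (ℕ → ℕ → Bool) × Xi Sy =>
      |(runN (graphOfTable p.1) p.2 c n : ℝ) - runN (graphOfTable p.1) p.2 c n'|) := by
    refine ⟨((measurable_subtype_coe.comp (measurable_runN c n)).sub
      (measurable_subtype_coe.comp (measurable_runN c n'))).abs, 1, fun p => ?_⟩
    rw [abs_abs, abs_le]
    have h1 := (runN (graphOfTable p.1) p.2 c n).2
    have h2 := (runN (graphOfTable p.1) p.2 c n').2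
    constructor <;> linarith [h1.1, h1.2, h2.1, h2.2]
  exact (BM.integral_right (PXi Sy) hb).1

lemma measurableSet_rateN (c : Sy × ℕ) (j N : ℕ) :
    MeasurableSet {t : ℕ → ℕ → Bool | rateN (graphOfTable t) c j = N} := by
  refine measurable_sInf_nat (fun t N => RateProp (graphOfTable t) c j N) (fun N => ?_) N
  have : {t : ℕ → ℕ → Bool | RateProp (graphOfTable t) c j N} =
      {t | j ≤ N} ∩ ⋂ n, ⋂ n', {t | n ≥ N → n' ≥ N → dN (graphOfTable t) c n n' ≤ (1 / 4) ^ j} := by
    ext t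
    simp [RateProp]
    tauto
  rw [this]
  refine (MeasurableSet.const _).inter (MeasurableSet.iInter fun n => MeasurableSet.iInter fun n' => ?_)
  by_cases h : n ≥ N ∧ n' ≥ N
  · have : {t : ℕ → ℕ → Bool | n ≥ N → n' ≥ N → dN (graphOfTable t) c n n' ≤ (1 / 4) ^ j} =
        {t | dN (graphOfTable t) c n n' ≤ (1 / 4) ^ j} := by
      ext t
      simp [h.1, h.2]
    rw [this]
    exact measurableSet_le (measurable_dN c n n') measurable_const
  · have : {t : ℕ → ℕ → Bool | n ≥ N → n' ≥ N → dN (graphOfTable t) c n n' ≤ (1 / 4) ^ j} = Set.univ := by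
      ext t
      simp only [mem_setOf_eq, mem_univ, iff_true]
      intro h1 h2
      exact absurd ⟨h1, h2⟩ h
    rw [this]
    exact MeasurableSet.univ

lemma measurable_runRate (c : Sy × ℕ) (j : ℕ) :
    Measurable (fun p : (ℕ → ℕ → Bool) × Xi Sy =>
      runN (graphOfTable p.1) p.2 c (rateN (graphOfTable p.1) c j)) :=
  measurable_countable_index (Ω := Xi Sy) (fun t : ℕ → ℕ → Bool => rateN (graphOfTable t) c j)
    (fun N => measurableSet_rateN c j N)
    (fun N (p : (ℕ → ℕ → Bool) × Xi Sy) => runN (graphOfTable p.1) p.2 c N)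
    (fun N => measurable_runN c N)

lemma measurable_Ylim :
    Measurable (fun p : (ℕ → ℕ → Bool) × Xi Sy => Ylim (graphOfTable p.1) p.2) := by
  rw [measurable_pi_iff]
  intro c
  exact measurable_limI fun j => measurable_runRate c j

/-- **Joint measurability of the rule.** -/
theorem measurable_PhiG :
    Measurable (fun p : (ℕ → ℕ → Bool) × (ℕ → I) => PhiG (graphOfTable p.1) p.2) := by
  rw [measurable_pi_iff]
  intro e
  have h1 : Measurable (fun p : (ℕ → ℕ → Bool) × (ℕ → I) =>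
      ((p.1, edgeNoise (graphOfTable p.1) p.2) : (ℕ → ℕ → Bool) × Xi Sy)) :=
    measurable_fst.prodMk measurable_edgeNoise
  have h2 := measurable_Ylim.comp h1
  exact (measurable_Dec e).comp h2

end measurability

/-! ### Equivariance -/

section equivariance

variable (p : Equiv.Perm ℕ) (G : SimpleGraph ℕ)

lemma runN_comap (q : Xi Sy) (c : Sy × ℕ) (n : ℕ) :
    runN G (relabelXi (symEquiv p) q) (symEquiv p c.1, c.2) n = runN (G.comap p) q c n := by
  have h := runY_equivariant (symEquiv p) (fusfOracle_comap p G) (Fs (G.comap p) c.1 n) q.1 q.2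
  rw [Fs_comap] at h
  have h2 := congrFun h (symEquiv p c.1, c.2)
  have h3 : (symEquiv p).symm (symEquiv p c.1) = c.1 := Equiv.symm_apply_apply _ _
  show runY (fusfOracle G) (Fs G (symEquiv p c.1) n) (q.1 ∘ (symEquiv p).symm) (reField (symEquiv p) q.2)
    (symEquiv p c.1, c.2) = runY (fusfOracle (G.comap p)) (Fs (G.comap p) c.1 n) q.1 q.2 c
  rw [h2]
  show runY _ _ _ _ ((symEquiv p).symm (symEquiv p c.1), c.2) = _
  rw [h3]

lemma dN_comap (c : Sy × ℕ) (n n' : ℕ) :
    dN (G.comap p) c n n' = dN G (symEquiv p c.1, c.2) n n' := by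
  unfold dN
  conv_rhs => rw [← map_relabelXi (symEquiv p)]
  have hm : Measurable (fun q : Xi Sy => |(runN G q (symEquiv p c.1, c.2) n : ℝ) -
      runN G q (symEquiv p c.1, c.2) n'|) := by
    have hm0 : ∀ m, Measurable (fun q : Xi Sy => runN G q (symEquiv p c.1, c.2) m) := fun m =>
      measurable_runN_fixed G _ m
    exact ((measurable_subtype_coe.comp (hm0 n)).sub (measurable_subtype_coe.comp (hm0 n'))).abs
  rw [integral_map (measurable_relabelXi _).aemeasurable hm.aestronglyMeasurable]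
  simp_rw [runN_comap]

lemma rateN_comap (c : Sy × ℕ) (j : ℕ) : rateN (G.comap p) c j = rateN G (symEquiv p c.1, c.2) j := by
  unfold rateN RateProp
  simp_rw [dN_comap]

lemma Ylim_comap (q : Xi Sy) (c : Sy × ℕ) :
    Ylim (G.comap p) q c = Ylim G (relabelXi (symEquiv p) q) (symEquiv p c.1, c.2) := by
  unfold Ylim
  simp_rw [rateN_comap, runN_comap]

lemma relabel_edgeNoise (x : ℕ → I) :
    relabelXi (symEquiv p) (edgeNoise (G.comap p) (x ∘ p)) = edgeNoise G x := by
  rw [edgeNoise_comap]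
  refine Prod.ext (funext fun e => ?_) (funext fun c => ?_)
  · show (edgeNoise G x).1 (Sym2.map p ((symEquiv p).symm e)) = _
    rw [show Sym2.map p ((symEquiv p).symm e) = e from (symEquiv p).apply_symm_apply e]
  · show (edgeNoise G x).2 (Sym2.map p ((symEquiv p).symm c.1), c.2) = _
    rw [show Sym2.map p ((symEquiv p).symm c.1) = c.1 from (symEquiv p).apply_symm_apply c.1]

/-- **Equivariance of the rule.** -/
theorem PhiG_comap (x : ℕ → I) : PhiG (G.comap p) (x ∘ p) = PhiG G x ∘ Sym2.map p := by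
  funext e
  show Dec (Ylim (G.comap p) (edgeNoise (G.comap p) (x ∘ p))) e = Dec (Ylim G (edgeNoise G x)) (Sym2.map p e)
  have h : ∀ k, Ylim (G.comap p) (edgeNoise (G.comap p) (x ∘ p)) (e, k) =
      Ylim G (edgeNoise G x) (Sym2.map p e, k) := by
    intro k
    rw [Ylim_comap, relabel_edgeNoise]
    rfl
  unfold Dec avg
  simp_rw [h]

end equivariance

/-! ### The law -/

section law

variable {G : SimpleGraph ℕ}

lemma measurable_Ylim_fixed (G : SimpleGraph ℕ) : Measurable (Ylim G) := by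
  rw [measurable_pi_iff]
  intro c
  exact measurable_limI fun j => measurable_runN_fixed G c _

lemma measurable_dec_Ylim (G : SimpleGraph ℕ) (e : Sy) : Measurable (fun q => Dec (Ylim G q) e) :=
  (measurable_Dec e).comp (measurable_Ylim_fixed G)

lemma measurableSet_event (G : SimpleGraph ℕ) (F : Finset Sy) :
    MeasurableSet {q : Xi Sy | ∀ e ∈ F, Dec (Ylim G q) e = true} := by
  have : {q : Xi Sy | ∀ e ∈ F, Dec (Ylim G q) e = true} = ⋂ e ∈ F, (fun q => Dec (Ylim G q) e) ⁻¹' {true} := by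
    ext q
    simp
  rw [this]
  exact Finset.measurableSet_biInter F fun e _ => measurable_dec_Ylim G e (measurableSet_singleton _)

variable (hl : ∀ v, (G.neighborSet v).Finite)

include hl in
lemma runN_congr {q q' : Xi Sy} (hq : resXi G.edgeSet q = resXi G.edgeSet q') {e : Sy} (he : e ∈ G.edgeSet)
    (k n : ℕ) : runN G q (e, k) n = runN G q' (e, k) n := by
  have h1 : ∀ u ∈ Fs G e n, q.1 u = q'.1 u := fun u hu =>
    congrFun (congrArg Prod.fst hq) ⟨u, Fs_subset e n hu⟩
  have h2 : ∀ c : Sy × ℕ, c.1 ∈ Fs G e n → q.2 c = q'.2 c := fun c hc =>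
    congrFun (congrArg Prod.snd hq) (⟨c.1, Fs_subset e n hc⟩, c.2)
  exact runY_congr (fusfOracle_local G) (fun _ _ _ => rfl) h1 h2 (mem_Fs_self hl he n)

include hl in
lemma Ylim_congr {q q' : Xi Sy} (hq : resXi G.edgeSet q = resXi G.edgeSet q') {e : Sy} (he : e ∈ G.edgeSet)
    (k : ℕ) : Ylim G q (e, k) = Ylim G q' (e, k) := by
  unfold Ylim
  simp_rw [runN_congr hl hq he k]

open Classical in
/-- Extension by zero of noise on the edges. -/
noncomputable def ext0 (E : Set Sy) (r : Xi ↥E) : Xi Sy :=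
  (fun u => if h : u ∈ E then r.1 ⟨u, h⟩ else 0, fun c => if h : c.1 ∈ E then r.2 (⟨c.1, h⟩, c.2) else 0)

lemma measurable_ext0 (E : Set Sy) : Measurable (ext0 E) := by
  classical
  refine Measurable.prodMk ?_ ?_
  · rw [measurable_pi_iff]
    intro u
    by_cases h : u ∈ E
    · simp only [ext0, h, dite_true]
      exact (measurable_pi_apply _).comp measurable_fst
    · simp only [ext0, h, dite_false]
      exact measurable_const
  · rw [measurable_pi_iff]
    intro c
    by_cases h : c.1 ∈ E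
    · simp only [ext0, h, dite_true]
      exact (measurable_pi_apply _).comp measurable_snd
    · simp only [ext0, h, dite_false]
      exact measurable_const

lemma resXi_ext0 (E : Set Sy) (r : Xi ↥E) : resXi E (ext0 E r) = r := by
  classical
  refine Prod.ext (funext fun u => ?_) (funext fun c => ?_)
  · simp [resXi, ext0]
  · simp [resXi, ext0]

include hl in
/-- The noise from labels can replace independent noise. -/
lemma noise_transfer (F : Finset Sy) (hF : (↑F : Set Sy) ⊆ G.edgeSet) :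
    Lam ℕ {x | ∀ e ∈ F, Dec (Ylim G (edgeNoise G x)) e = true} =
      PXi Sy {q | ∀ e ∈ F, Dec (Ylim G q) e = true} := by
  set E := G.edgeSet with hE
  set Sq : Set (Xi Sy) := {q | ∀ e ∈ F, Dec (Ylim G q) e = true} with hSq
  have hSqm : MeasurableSet Sq := measurableSet_event G F
  have hmem : ∀ q, q ∈ Sq ↔ resXi E q ∈ ext0 E ⁻¹' Sq := by
    intro q
    simp only [hSq, mem_setOf_eq, mem_preimage]
    refine forall₂_congr fun e he => ?_
    have hq : resXi E (ext0 E (resXi E q)) = resXi E q := resXi_ext0 E _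
    have h1 : Dec (Ylim G (ext0 E (resXi E q))) e = Dec (Ylim G q) e :=
      Dec_congr fun k => Ylim_congr hl hq (hF he) k
    rw [h1]
  have hS'm : MeasurableSet (ext0 E ⁻¹' Sq) := measurable_ext0 E hSqm
  have hmeas : Measurable (fun x => resXi E (edgeNoise G x)) := by
    have h := Measurable.comp (g := fun r : (ℕ → ℕ → Bool) × (ℕ → I) => edgeNoise (graphOfTable r.1) r.2)
      (f := fun x : ℕ → I => (tableOf G, x)) measurable_edgeNoise measurable_prodMk_left
    simp only [Function.comp_def, graphOfTable_tableOf] at h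
    exact (measurable_resXi E).comp h
  have h1 : Lam ℕ {x | ∀ e ∈ F, Dec (Ylim G (edgeNoise G x)) e = true} = PXi ↥E (ext0 E ⁻¹' Sq) := by
    rw [← edgeNoise_law G hl, Measure.map_apply hmeas hS'm]
    have : {x | ∀ e ∈ F, Dec (Ylim G (edgeNoise G x)) e = true} =
        (fun x => resXi E (edgeNoise G x)) ⁻¹' (ext0 E ⁻¹' Sq) := by
      ext x
      exact hmem (edgeNoise G x)
    rw [this]
  have h2 : PXi Sy Sq = PXi ↥E (ext0 E ⁻¹' Sq) := by
    rw [← map_resXi E, Measure.map_apply (measurable_resXi E) hS'm]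
    have : Sq = resXi E ⁻¹' (ext0 E ⁻¹' Sq) := by
      ext q
      exact hmem q
    rw [← this]
  rw [h1, h2]

variable (hc : G.Connected)
variable {ν : Measure (Sy → Bool)} [IsProbabilityMeasure ν] (hLip : TiltLip ν)
  (hor : ∀ W : Finset Sy, (↑W : Set Sy) ⊆ G.edgeSet → W.Nonempty → ∀ (h : Sy → ℝ), ∀ v ∈ W,
    fusfOracle G W h v = tmean ν W h v)

include hl hor in
lemma runN_eq_Yr {e : Sy} (he : e ∈ G.edgeSet) (q : Xi Sy) (k n : ℕ) :
    runN G q (e, k) n = Yr ν (Fs G e n) q (e, k) :=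
  runY_congr (fusfOracle_local G)
    (fun h v hv => hor _ (Fs_subset e n) ⟨e, mem_Fs_self hl he n⟩ h v hv)
    (fun _ _ => rfl) (fun _ _ => rfl) (mem_Fs_self hl he n)

include hc hl in
lemma exists_mem_Fs (e₀ : Sy) {e : Sy} (he : e ∈ G.edgeSet) : ∃ n, e ∈ Fs G e₀ n := by
  classical
  induction e using Sym2.ind with
  | _ a b =>
    obtain ⟨n₀, hn₀⟩ := exists_subset_Fs hc hl e₀ {a, b}
    refine ⟨n₀, hn₀ n₀ le_rfl ?_⟩
    unfold edgesIn
    simp only [Finset.mem_filter, Finset.mk_mem_sym2_iff]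
    exact ⟨by simp, he⟩

include hc hl hLip hor in
lemma rate_nonempty {e₀ e : Sy} (he : e ∈ G.edgeSet) (k j : ℕ) : {N | RateProp G (e, k) j N}.Nonempty := by
  have hV := Fs_mono hl e₀
  obtain ⟨n₀, h⟩ := run_cauchy ν (Fs G e₀) hV hLip e (exists_mem_Fs hl hc e₀ he) k ((1 / 4) ^ j) (by positivity)
  obtain ⟨N₀, hN₀⟩ := exists_subset_Fs hc hl e (ball G {e₀} n₀)
  refine ⟨max j N₀, le_max_left _ _, fun n hn n' hn' => ?_⟩
  have hn1 : N₀ ≤ n := (le_max_right _ _).trans hn
  have hn2 : N₀ ≤ n' := (le_max_right _ _).trans hn'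
  unfold dN
  simp_rw [runN_eq_Yr hl hor he]
  exact h _ _ (hN₀ n hn1) (hN₀ n' hn2)
    (fun u hu => exists_mem_Fs hl hc e₀ (Fs_subset e n hu))
    (fun u hu => exists_mem_Fs hl hc e₀ (Fs_subset e n' hu))

include hc hl hLip hor in
lemma rate_spec {e₀ e : Sy} (he : e ∈ G.edgeSet) (k j : ℕ) : RateProp G (e, k) j (rateN G (e, k) j) :=
  Nat.sInf_mem (rate_nonempty hl hc hLip hor (e₀ := e₀) he k j)

include hc hl hLip hor in
lemma rate_mono {e₀ e : Sy} (he : e ∈ G.edgeSet) (k : ℕ) {j i : ℕ} (hij : j ≤ i) :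
    rateN G (e, k) j ≤ rateN G (e, k) i := by
  apply Nat.sInf_le
  have h := rate_spec hl hc hLip hor (e₀ := e₀) he k i
  refine ⟨hij.trans h.1, fun n hn n' hn' => (h.2 n hn n' hn').trans ?_⟩
  exact pow_le_pow_of_le_one (by norm_num) (by norm_num) hij

include hc hl hLip hor in
lemma Ylim_fast {e₀ e : Sy} (he : e ∈ G.edgeSet) (k j : ℕ) :
    ∫ q, |(Ylim G q (e, k) : ℝ) - runN G q (e, k) (rateN G (e, k) j)| ∂PXi Sy ≤ (1 / 4) ^ j := by
  have h := fast_limit (PXi Sy) (fun j q => runN G q (e, k) (rateN G (e, k) j))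
    (fun j => measurable_runN_fixed G _ _) (fun j i hij => by
      have h2 := rate_spec hl hc hLip hor (e₀ := e₀) he k j
      exact h2.2 _ (rate_mono hl hc hLip hor (e₀ := e₀) he k hij) _ le_rfl)
  exact h.2 j

include hc hl hLip hor in
lemma Ylim_limit {e₀ e : Sy} (he : e ∈ G.edgeSet) (k : ℕ) (δ : ℝ) (hδ : 0 < δ) :
    ∃ n, ∀ m ≥ n, ∫ q, |(Ylim G q (e, k) : ℝ) - Yr ν (Fs G e₀ m) q (e, k)| ∂PXi Sy ≤ δ := by
  have hV := Fs_mono hl e₀
  obtain ⟨n₀, h⟩ := run_cauchy ν (Fs G e₀) hV hLip e (exists_mem_Fs hl hc e₀ he) k (δ / 2) (by positivity)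
  obtain ⟨N₀, hN₀⟩ := exists_subset_Fs hc hl e (ball G {e₀} n₀)
  have hj1 : ∀ᶠ j in atTop, (1 / 4 : ℝ) ^ j ≤ δ / 2 := by
    have := tendsto_pow_atTop_nhds_zero_of_lt_one (r := (1 / 4 : ℝ)) (by norm_num) (by norm_num)
    exact this.eventually (gt_mem_nhds (by positivity)) |>.mono fun _ h => h.le
  obtain ⟨j, hjδ, hjN⟩ := (hj1.and (eventually_ge_atTop N₀)).exists
  refine ⟨n₀, fun m hm => ?_⟩
  set n := rateN G (e, k) j with hn
  have hnN : N₀ ≤ n := hjN.trans (rate_spec hl hc hLip hor (e₀ := e₀) he k j).1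
  have h5 := h (Fs G e n) (Fs G e₀ m) (hN₀ n hnN) (hV hm)
    (fun u hu => exists_mem_Fs hl hc e₀ (Fs_subset e n hu))
    (fun u hu => exists_mem_Fs hl hc e₀ (Fs_subset e₀ m hu))
  have h6 := Ylim_fast hl hc hLip hor (e₀ := e₀) he k j
  simp_rw [runN_eq_Yr hl hor he] at h6
  -- triangle inequality
  have hmc : ∀ (Y : Xi Sy → Sy × ℕ → I) (_ : Measurable Y) (c : Sy × ℕ), Measurable (fun q => (Y q c : ℝ)) :=
    fun Y hY c => measurable_subtype_coe.comp ((measurable_pi_apply c).comp hY)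
  have hbd : ∀ (a b : I), ‖|(a : ℝ) - b|‖ ≤ 1 := fun a b => by
    rw [Real.norm_eq_abs, abs_abs, abs_le]
    constructor <;> linarith [a.2.1, a.2.2, b.2.1, b.2.2]
  have hYm := measurable_Ylim_fixed G
  have i1 : Integrable (fun q => |(Ylim G q (e, k) : ℝ) - Yr ν (Fs G e n) q (e, k)|) (PXi Sy) :=
    Integrable.of_bound ((hmc _ hYm _).sub (hmc _ (measurable_Yr ν _) _)).abs.aestronglyMeasurable 1
      (Eventually.of_forall fun q => hbd _ _)
  have i2 : Integrable (fun q => |(Yr ν (Fs G e n) q (e, k) : ℝ) - Yr ν (Fs G e₀ m) q (e, k)|) (PXi Sy) :=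
    Integrable.of_bound ((hmc _ (measurable_Yr ν _) _).sub (hmc _ (measurable_Yr ν _) _)).abs.aestronglyMeasurable 1
      (Eventually.of_forall fun q => hbd _ _)
  have i0 : Integrable (fun q => |(Ylim G q (e, k) : ℝ) - Yr ν (Fs G e₀ m) q (e, k)|) (PXi Sy) :=
    Integrable.of_bound ((hmc _ hYm _).sub (hmc _ (measurable_Yr ν _) _)).abs.aestronglyMeasurable 1
      (Eventually.of_forall fun q => hbd _ _)
  have h7 : ∫ q, |(Ylim G q (e, k) : ℝ) - Yr ν (Fs G e₀ m) q (e, k)| ∂PXi Sy ≤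
      ∫ q, |(Ylim G q (e, k) : ℝ) - Yr ν (Fs G e n) q (e, k)| ∂PXi Sy +
        ∫ q, |(Yr ν (Fs G e n) q (e, k) : ℝ) - Yr ν (Fs G e₀ m) q (e, k)| ∂PXi Sy := by
    have i12 : Integrable (fun q => |(Ylim G q (e, k) : ℝ) - Yr ν (Fs G e n) q (e, k)| +
        |(Yr ν (Fs G e n) q (e, k) : ℝ) - Yr ν (Fs G e₀ m) q (e, k)|) (PXi Sy) := i1.add i2
    rw [← integral_add i1 i2]
    exact integral_mono i0 i12 fun q => abs_sub_le _ _ _
  linarith

include hc hl hLip hor in
/-- The law of the rule. -/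
theorem PhiG_law (F : Finset Sy) (hF : (↑F : Set Sy) ⊆ G.edgeSet) :
    Lam ℕ {x | ∀ e ∈ F, PhiG G x e = true} = ν {ω | ∀ e ∈ F, ω e = true} := by
  -- a base edge
  obtain ⟨y, hy⟩ := Crest.Agent.Lib.FiidRayleighMono.exists_adj_of_reachable_ne G (hc.preconnected 0 1)
    (by norm_num)
  have he₀ : s(0, y) ∈ G.edgeSet := hy
  have h1 := noise_transfer hl F hF
  refine h1.trans ?_
  exact limit_law ν (Fs G s(0, y)) (Fs_mono hl _) (Ylim G) (measurable_Ylim_fixed G) {c | c.1 ∈ G.edgeSet}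
    (fun c hc' => exists_mem_Fs hl hc _ hc')
    (fun c hc' δ hδ => Ylim_limit hl hc hLip hor (e₀ := s(0, y)) (e := c.1) hc' c.2 δ hδ) F
    (fun e he k => hF he)

end law

/-- The theorem on graphs. -/
theorem exists_rule :
    ∃ Φ : SimpleGraph ℕ → (ℕ → I) → (Sym2 ℕ → Bool),
      Measurable (fun p : (ℕ → ℕ → Bool) × (ℕ → I) => Φ (graphOfTable p.1) p.2) ∧
      (∀ (p : Equiv.Perm ℕ) (G : SimpleGraph ℕ) (x : ℕ → I),
          Φ (G.comap ⇑p) (x ∘ ⇑p) = Φ G x ∘ Sym2.map ⇑p) ∧
      ∀ G : SimpleGraph ℕ, G.Connected → (∀ v : ℕ, (G.neighborSet v).Finite) →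
        ∀ S : ℕ → Finset ℕ, Monotone S → (∀ v : ℕ, ∃ n, v ∈ S n) →
          (∀ n, (G.induce (S n : Set ℕ)).Connected) →
          ∀ F : Finset (Sym2 ℕ), (↑F : Set (Sym2 ℕ)) ⊆ G.edgeSet →
            Filter.Tendsto (fun n => ustContains G (S n) F) Filter.atTop
              (nhds (((Lam ℕ).map (Φ G) {ω | ∀ e ∈ F, ω e = true}).toReal)) := by
  refine ⟨PhiG, measurable_PhiG, fun p G x => PhiG_comap p G x, ?_⟩
  intro G hc hl S hS1 hS2 hS3 F hF
  obtain ⟨ν, hν, hLip, htend, hor⟩ := exists_fusf G hc hl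
  have hmPhi : Measurable (PhiG G) := by
    have h := Measurable.comp (g := fun r : (ℕ → ℕ → Bool) × (ℕ → I) => PhiG (graphOfTable r.1) r.2)
      (f := fun x : ℕ → I => (tableOf G, x)) measurable_PhiG measurable_prodMk_left
    simp only [Function.comp_def, graphOfTable_tableOf] at h
    exact h
  have hS : MeasurableSet {ω : Sy → Bool | ∀ e ∈ F, ω e = true} := by
    have : {ω : Sy → Bool | ∀ e ∈ F, ω e = true} = ⋂ e ∈ F, (fun ω : Sy → Bool => ω e) ⁻¹' {true} := by
      ext ω
      simp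
    rw [this]
    exact Finset.measurableSet_biInter F fun e _ => measurable_pi_apply e (measurableSet_singleton _)
  have h1 : (Lam ℕ).map (PhiG G) {ω | ∀ e ∈ F, ω e = true} = ν {ω | ∀ e ∈ F, ω e = true} := by
    rw [Measure.map_apply hmPhi hS]
    exact PhiG_law hl hc hLip hor F hF
  rw [h1]
  exact htend S hS1 hS2 hS3 F hF

end Crest.Agent.Lib.FiidGraph
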