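import Crest.Agent.Lib.FiidLimit
import Crest.Agent.Lib.FiidNoise
import Crest.Agent.Lib.FiidBridge

/-!
# Shift invariant laws with Lipschitz tilted means are factors of i.i.d.
-/

set_option autoImplicit false

namespace Crest.Agent.Lib.FiidGroup

open MeasureTheory Set Filter Topology
open scoped unitInterval
open Crest.Agent.Lib.FiidPlanted Crest.Agent.Lib.FiidRun
  Crest.Agent.Lib.FiidCauchy Crest.Agent.Lib.FiidLimit Crest.Agent.Lib.FiidNoise
open Crest.ProbabilityR.StronglyRayleigh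

variable {Γ : Type*} [Group Γ]

/-- Left multiplication. -/
def eL (g : Γ) : Γ ≃ Γ where
  toFun x := g * x
  invFun x := g⁻¹ * x
  left_inv x := by simp
  right_inv x := by simp

lemma relabel_relabel (a b : Γ) (q : Xi Γ) :
    relabelXi (eL a) (relabelXi (eL b) q) = relabelXi (eL (a * b)) q := by
  refine Prod.ext (funext fun c => ?_) (funext fun c => ?_)
  · show q.1 (b⁻¹ * (a⁻¹ * c)) = q.1 ((a * b)⁻¹ * c)
    rw [mul_inv_rev, mul_assoc]
  · show q.2 (b⁻¹ * (a⁻¹ * c.1), c.2) = q.2 ((a * b)⁻¹ * c.1, c.2)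
    rw [mul_inv_rev, mul_assoc]

lemma relabel_one (q : Xi Γ) : relabelXi (eL (1 : Γ)) q = q := by
  refine Prod.ext (funext fun c => ?_) (funext fun c => ?_)
  · show q.1 (1⁻¹ * c) = q.1 c
    simp
  · show q.2 (1⁻¹ * c.1, c.2) = q.2 c
    simp

lemma split_shift (a : Γ) (x : Γ → I) : split (leftShift a x) = relabelXi (eL a) (split x) := rfl

lemma map_leftShift {ν : Measure (Γ → Bool)} (hinv : IsShiftInvariant ν) (g : Γ) :
    ν.map (leftShift g) = ν := by
  have hm : Measurable (leftShift g : (Γ → Bool) → Γ → Bool) :=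
    measurable_pi_lambda _ fun h => measurable_pi_apply _
  ext A hA
  rw [Measure.map_apply hm hA]
  exact hinv g A hA

section main

variable [DecidableEq Γ] (ν : Measure (Γ → Bool)) [IsProbabilityMeasure ν]

lemma tw_shift (g : Γ) (F : Finset Γ) (h : Γ → ℝ) (ω : Γ → Bool) :
    tw (F.map (eL g).toEmbedding) (h ∘ (eL g).symm) ω = tw F h (leftShift g⁻¹ ω) := by
  unfold tw
  congr 1
  rw [Finset.sum_map]
  refine Finset.sum_congr rfl fun u _ => ?_
  show b2r (ω (g * u)) * h (g⁻¹ * (g * u)) = b2r (ω (g⁻¹⁻¹ * u)) * h u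
  simp

lemma tmean_shift (hinv : IsShiftInvariant ν) (g : Γ) (F : Finset Γ) (h : Γ → ℝ) (v : Γ) :
    tmean ν (F.map (eL g).toEmbedding) (h ∘ (eL g).symm) (eL g v) = tmean ν F h v := by
  have hm : Measurable (leftShift g⁻¹ : (Γ → Bool) → Γ → Bool) :=
    measurable_pi_lambda _ fun h => measurable_pi_apply _
  unfold tmean
  simp_rw [tw_shift]
  have hm2 : Measurable (fun ω : Γ → Bool => tw F h ω) :=
    Measurable.comp (g := fun p : (Γ → ℝ) × (Γ → Bool) => tw F p.1 p.2)
      (f := fun ω' : Γ → Bool => (h, ω')) (measurable_tw_pair F) measurable_prodMk_left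
  have hm1 : Measurable (fun ω : Γ → Bool => b2r (ω v) * tw F h ω) :=
    (measurable_b2r.comp (measurable_pi_apply v)).mul hm2
  have e1 : ∫ ω, b2r (ω (eL g v)) * tw F h (leftShift g⁻¹ ω) ∂ν = ∫ ω, b2r (ω v) * tw F h ω ∂ν := by
    conv_rhs => rw [← map_leftShift hinv g⁻¹]
    rw [integral_map hm.aemeasurable hm1.aestronglyMeasurable]
    refine integral_congr_ae (Eventually.of_forall fun ω => ?_)
    show b2r (ω (g * v)) * _ = b2r (ω (g⁻¹⁻¹ * v)) * _
    simp
  have e2 : ∫ ω, tw F h (leftShift g⁻¹ ω) ∂ν = ∫ ω, tw F h ω ∂ν := by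
    conv_rhs => rw [← map_leftShift hinv g⁻¹]
    rw [integral_map hm.aemeasurable hm2.aestronglyMeasurable]
  rw [e1, e2]

/-- Runs commute with the shift. -/
lemma Yr_shift (hinv : IsShiftInvariant ν) (g : Γ) (F : Finset Γ) (q : Xi Γ) :
    Yr ν (F.map (eL g).toEmbedding) (relabelXi (eL g) q) = reField (eL g) (Yr ν F q) := by
  unfold Yr relabelXi
  exact runY_equivariant (eL g) (tmean_shift ν hinv g) F q.1 q.2

variable (V : ℕ → Finset Γ)

/-- A fixed choice of the rate along the exhaustion. -/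
structure Rate (r : ℕ → ℕ → ℕ) : Prop where
  mono : ∀ k, Monotone (r k)
  ge : ∀ k j, j ≤ r k j
  cauchy : ∀ k j, ∀ i ≥ j,
    ∫ q, |(Yr ν (V (r k i)) q (1, k) : ℝ) - Yr ν (V (r k j)) q (1, k)| ∂PXi Γ ≤ (1 / 4) ^ j

variable (hV : Monotone V) (hex : ∀ u : Γ, ∃ n, u ∈ V n)

include hV hex in
lemma exists_rate (hLip : TiltLip ν) : ∃ r, Rate ν V r := by
  have h := fun (k j : ℕ) => run_cauchy ν V hV hLip (1 : Γ) (hex 1) k ((1 / 4) ^ j) (by positivity)
  choose n hn using h
  refine ⟨fun k j => (Finset.range (j + 1)).sup (n k) + j, fun k a b hab => ?_, fun k j => by omega, ?_⟩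
  · have : (Finset.range (a + 1)).sup (n k) ≤ (Finset.range (b + 1)).sup (n k) :=
      Finset.sup_mono (Finset.range_mono (by omega))
    omega
  · intro k j i hij
    have hs : ∀ a b, a ≤ b → n k a ≤ (Finset.range (b + 1)).sup (n k) := fun a b h =>
      Finset.le_sup (f := n k) (Finset.mem_range.mpr (by omega))
    have h1 : n k j ≤ (Finset.range (j + 1)).sup (n k) + j := (hs j j le_rfl).trans (by omega)
    have h2 : n k j ≤ (Finset.range (i + 1)).sup (n k) + i := (hs j i hij).trans (by omega)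
    exact hn k j _ _ (hV h2) (hV h1) (fun u _ => hex u) (fun u _ => hex u)

variable {ν V}

/-- The root variable. -/
noncomputable def Yroot (ν : Measure (Γ → Bool)) (V : ℕ → Finset Γ) (r : ℕ → ℕ → ℕ) (q : Xi Γ) (k : ℕ) : I :=
  limI (fun j => Yr ν (V (r k j)) q (1, k))

/-- The field. -/
noncomputable def Yfield (ν : Measure (Γ → Bool)) (V : ℕ → Finset Γ) (r : ℕ → ℕ → ℕ) (q : Xi Γ) (c : Γ × ℕ) : I :=
  Yroot ν V r (relabelXi (eL c.1⁻¹) q) c.2

/-- The output. -/
noncomputable def PhiX (ν : Measure (Γ → Bool)) (V : ℕ → Finset Γ) (r : ℕ → ℕ → ℕ) (q : Xi Γ) (g : Γ) : Bool :=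
  Dec (Yfield ν V r q) g

lemma measurable_Yroot (r : ℕ → ℕ → ℕ) (k : ℕ) : Measurable (fun q => Yroot ν V r q k) :=
  measurable_limI fun j => (measurable_pi_apply ((1 : Γ), k)).comp (measurable_Yr ν _)

lemma measurable_Yfield (r : ℕ → ℕ → ℕ) : Measurable (Yfield ν V r) := by
  rw [measurable_pi_iff]
  intro c
  exact (measurable_Yroot r c.2).comp (measurable_relabelXi _)

lemma measurable_PhiX (r : ℕ → ℕ → ℕ) : Measurable (PhiX ν V r) := by
  rw [measurable_pi_iff]
  intro g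
  exact (measurable_Dec g).comp (measurable_Yfield r)

lemma Yfield_shift (r : ℕ → ℕ → ℕ) (a : Γ) (q : Xi Γ) :
    Yfield ν V r (relabelXi (eL a) q) = reField (eL a) (Yfield ν V r q) := by
  funext c
  show Yroot ν V r (relabelXi (eL c.1⁻¹) (relabelXi (eL a) q)) c.2 =
    Yroot ν V r (relabelXi (eL (a⁻¹ * c.1)⁻¹) q) c.2
  rw [relabel_relabel]
  congr 2
  simp

lemma PhiX_shift (r : ℕ → ℕ → ℕ) (a : Γ) (q : Xi Γ) :
    PhiX ν V r (relabelXi (eL a) q) = leftShift a (PhiX ν V r q) := by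
  funext g
  unfold PhiX
  rw [Yfield_shift]
  rfl

include hV hex in
/-- The field is a limit of the runs on the exhaustion. -/
lemma Yfield_limit (hLip : TiltLip ν) (hinv : IsShiftInvariant ν) {r : ℕ → ℕ → ℕ} (hr : Rate ν V r) (c : Γ × ℕ)
    (δ : ℝ) (hδ : 0 < δ) :
    ∃ n, ∀ m ≥ n, ∫ q, |(Yfield ν V r q c : ℝ) - Yr ν (V m) q c| ∂PXi Γ ≤ δ := by
  obtain ⟨g, k⟩ := c
  obtain ⟨n₁, hn₁⟩ := run_cauchy ν V hV hLip g (hex g) k (δ / 2) (by positivity)
  refine ⟨n₁, fun m hm => ?_⟩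
  -- choosing `j`
  have hj1 : ∀ᶠ j in atTop, (1 / 4 : ℝ) ^ j ≤ δ / 2 := by
    have := tendsto_pow_atTop_nhds_zero_of_lt_one (r := (1 / 4 : ℝ)) (by norm_num) (by norm_num)
    exact this.eventually (gt_mem_nhds (by positivity)) |>.mono fun _ h => h.le
  have hj2 : ∀ᶠ j in atTop, V n₁ ⊆ (V (r k j)).map (eL g).toEmbedding := by
    have h1 : ∀ᶠ j in atTop, ∀ u ∈ V n₁, u ∈ (V (r k j)).map (eL g).toEmbedding := by
      rw [Filter.eventually_all_finset]
      intro u _
      obtain ⟨N, hN⟩ := hex (g⁻¹ * u)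
      filter_upwards [eventually_ge_atTop N] with j hj
      rw [Finset.mem_map]
      refine ⟨g⁻¹ * u, hV (hj.trans (hr.ge k j)) hN, ?_⟩
      show g * (g⁻¹ * u) = u
      simp
    exact h1.mono fun j hj u hu => hj u hu
  obtain ⟨j, hjδ, hjV⟩ := (hj1.and hj2).exists
  set F₁ := (V (r k j)).map (eL g).toEmbedding with hF₁
  -- first comparison
  have hfl := fast_limit (PXi Γ) (fun j q => Yr ν (V (r k j)) q (1, k))
    (fun j => (measurable_pi_apply ((1 : Γ), k)).comp (measurable_Yr ν _)) (hr.cauchy k)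
  have hG : Measurable (fun q : Xi Γ => |(Yroot ν V r q k : ℝ) - Yr ν (V (r k j)) q (1, k)|) :=
    ((measurable_subtype_coe.comp (measurable_Yroot r k)).sub
      (measurable_subtype_coe.comp ((measurable_pi_apply ((1 : Γ), k)).comp (measurable_Yr ν _)))).abs
  have h1 : ∫ q, |(Yfield ν V r q (g, k) : ℝ) - Yr ν F₁ q (g, k)| ∂PXi Γ =
      ∫ q, |(Yroot ν V r q k : ℝ) - Yr ν (V (r k j)) q (1, k)| ∂PXi Γ := by
    conv_rhs => rw [← map_relabelXi (eL g⁻¹)]
    rw [integral_map (measurable_relabelXi _).aemeasurable hG.aestronglyMeasurable]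
    refine integral_congr_ae (Eventually.of_forall fun q => ?_)
    have h2 : q = relabelXi (eL g) (relabelXi (eL g⁻¹) q) := by
      rw [relabel_relabel]
      simp [relabel_one]
    have h3 : Yr ν F₁ q (g, k) = Yr ν (V (r k j)) (relabelXi (eL g⁻¹) q) (1, k) := by
      conv_lhs => rw [h2]
      rw [hF₁, Yr_shift ν hinv g]
      show Yr ν (V (r k j)) (relabelXi (eL g⁻¹) q) (g⁻¹ * g, k) = _
      simp
    show |(Yroot ν V r (relabelXi (eL g⁻¹) q) k : ℝ) - Yr ν F₁ q (g, k)| = _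
    rw [h3]
  have h4 : ∫ q, |(Yfield ν V r q (g, k) : ℝ) - Yr ν F₁ q (g, k)| ∂PXi Γ ≤ (1 / 4) ^ j := by
    rw [h1]
    exact hfl.2 j
  have h5 := hn₁ F₁ (V m) hjV (hV hm) (fun u _ => hex u) (fun u _ => hex u)
  -- triangle inequality
  have hc : ∀ (Y : Xi Γ → Γ × ℕ → I) (_ : Measurable Y) (c : Γ × ℕ), Measurable (fun q => (Y q c : ℝ)) :=
    fun Y hY c => measurable_subtype_coe.comp ((measurable_pi_apply c).comp hY)
  have hbd : ∀ (a b : I), ‖|(a : ℝ) - b|‖ ≤ 1 := fun a b => by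
    rw [Real.norm_eq_abs, abs_abs, abs_le]
    constructor <;> linarith [a.2.1, a.2.2, b.2.1, b.2.2]
  have i1 : Integrable (fun q => |(Yfield ν V r q (g, k) : ℝ) - Yr ν F₁ q (g, k)|) (PXi Γ) :=
    Integrable.of_bound ((hc _ (measurable_Yfield r) _).sub (hc _ (measurable_Yr ν _) _)).abs.aestronglyMeasurable 1
      (Eventually.of_forall fun q => hbd _ _)
  have i2 : Integrable (fun q => |(Yr ν F₁ q (g, k) : ℝ) - Yr ν (V m) q (g, k)|) (PXi Γ) :=
    Integrable.of_bound ((hc _ (measurable_Yr ν _) _).sub (hc _ (measurable_Yr ν _) _)).abs.aestronglyMeasurable 1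
      (Eventually.of_forall fun q => hbd _ _)
  have i0 : Integrable (fun q => |(Yfield ν V r q (g, k) : ℝ) - Yr ν (V m) q (g, k)|) (PXi Γ) :=
    Integrable.of_bound ((hc _ (measurable_Yfield r) _).sub (hc _ (measurable_Yr ν _) _)).abs.aestronglyMeasurable 1
      (Eventually.of_forall fun q => hbd _ _)
  have h6 : ∫ q, |(Yfield ν V r q (g, k) : ℝ) - Yr ν (V m) q (g, k)| ∂PXi Γ ≤
      ∫ q, |(Yfield ν V r q (g, k) : ℝ) - Yr ν F₁ q (g, k)| ∂PXi Γ +
        ∫ q, |(Yr ν F₁ q (g, k) : ℝ) - Yr ν (V m) q (g, k)| ∂PXi Γ := by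
    have i12 : Integrable (fun q => |(Yfield ν V r q (g, k) : ℝ) - Yr ν F₁ q (g, k)| +
        |(Yr ν F₁ q (g, k) : ℝ) - Yr ν (V m) q (g, k)|) (PXi Γ) := i1.add i2
    rw [← integral_add i1 i2]
    exact integral_mono i0 i12 fun q => abs_sub_le _ _ _
  linarith

/-- Positive cylinders generate. -/
lemma pi_eq_generateFrom :
    (MeasurableSpace.pi : MeasurableSpace (Γ → Bool)) =
      MeasurableSpace.generateFrom (Set.range fun F : Finset Γ => {ω : Γ → Bool | ∀ e ∈ F, ω e = true}) := by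
  apply le_antisymm
  · refine iSup_le fun e => ?_
    rw [← measurable_iff_comap_le]
    refine @measurable_to_bool _ (MeasurableSpace.generateFrom _) _ ?_
    apply MeasurableSpace.measurableSet_generateFrom
    refine ⟨{e}, ?_⟩
    ext ω
    simp
  · apply MeasurableSpace.generateFrom_le
    rintro _ ⟨F, rfl⟩
    show MeasurableSet {ω : Γ → Bool | ∀ e ∈ F, ω e = true}
    have : {ω : Γ → Bool | ∀ e ∈ F, ω e = true} = ⋂ e ∈ F, (fun ω : Γ → Bool => ω e) ⁻¹' {true} := by
      ext ω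
      simp
    rw [this]
    exact Finset.measurableSet_biInter F fun e _ => measurable_pi_apply e (measurableSet_singleton _)

lemma isPiSystem_cyl :
    IsPiSystem (Set.range fun F : Finset Γ => {ω : Γ → Bool | ∀ e ∈ F, ω e = true}) := by
  rintro _ ⟨F, rfl⟩ _ ⟨F', rfl⟩ _
  refine ⟨F ∪ F', ?_⟩
  ext ω
  simp only [mem_setOf_eq, Finset.mem_union, mem_inter_iff]
  constructor
  · intro h
    exact ⟨fun e he => h e (Or.inl he), fun e he => h e (Or.inr he)⟩
  · rintro ⟨h1, h2⟩ e (he | he)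
    · exact h1 e he
    · exact h2 e he

include hV hex in
/-- The law of the output. -/
theorem map_PhiX (hLip : TiltLip ν) (hinv : IsShiftInvariant ν) {r : ℕ → ℕ → ℕ} (hr : Rate ν V r) :
    (PXi Γ).map (PhiX ν V r) = ν := by
  have hm := measurable_PhiX (ν := ν) (V := V) r
  haveI : IsProbabilityMeasure ((PXi Γ).map (PhiX ν V r)) := Measure.isProbabilityMeasure_map hm.aemeasurable
  refine ext_of_generate_finite _ pi_eq_generateFrom isPiSystem_cyl ?_ (by simp)
  rintro _ ⟨F, rfl⟩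
  have hS : MeasurableSet {ω : Γ → Bool | ∀ e ∈ F, ω e = true} := by
    have : {ω : Γ → Bool | ∀ e ∈ F, ω e = true} = ⋂ e ∈ F, (fun ω : Γ → Bool => ω e) ⁻¹' {true} := by
      ext ω
      simp
    rw [this]
    exact Finset.measurableSet_biInter F fun e _ => measurable_pi_apply e (measurableSet_singleton _)
  rw [Measure.map_apply hm hS]
  exact limit_law ν V hV (Yfield ν V r) (measurable_Yfield r) Set.univ (fun c _ => hex c.1)
    (fun c _ δ hδ => Yfield_limit hV hex hLip hinv hr c δ hδ) F (fun _ _ _ => Set.mem_univ _)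

end main

/-- **The theorem for groups.** -/
theorem exists_factor [Countable Γ] (ν : Measure (Γ → Bool)) [IsProbabilityMeasure ν] (hLip : TiltLip ν)
    (hinv : IsShiftInvariant ν) :
    ∃ Φ : (Γ → I) → (Γ → Bool), Measurable Φ ∧
      (∀ (g : Γ) (u : Γ → I), Φ (leftShift g u) = leftShift g (Φ u)) ∧
      (Lam Γ).map Φ = ν := by
  classical
  obtain ⟨e, he⟩ := exists_surjective_nat Γ
  let V : ℕ → Finset Γ := fun n => (Finset.range (n + 1)).image e
  have hV : Monotone V := fun a b hab =>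
    Finset.image_subset_image (Finset.range_mono (by omega))
  have hex : ∀ u : Γ, ∃ n, u ∈ V n := fun u => by
    obtain ⟨n, rfl⟩ := he u
    exact ⟨n, Finset.mem_image_of_mem _ (Finset.mem_range.mpr (by omega))⟩
  obtain ⟨r, hr⟩ := exists_rate ν V hV hex hLip
  refine ⟨fun x => PhiX ν V r (split x), (measurable_PhiX r).comp measurable_split, fun g u => ?_, ?_⟩
  · show PhiX ν V r (split (leftShift g u)) = _
    rw [split_shift, PhiX_shift]
  · have h1 := map_PhiX hV hex hLip hinv hr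
    have h2 : (Lam Γ).map (PhiX ν V r ∘ split) = ν := by
      rw [← Measure.map_map (measurable_PhiX r) measurable_split, map_split, h1]
    exact h2

end Crest.Agent.Lib.FiidGroup
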