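import Crest.Agent.Lib.FiidStablePoly
import Crest.Agent.Lib.CauchyBinetW
import Crest.Prelude.Def_SpanningTrees

/-!
The spanning tree polynomial of a finite connected piece of a graph does not vanish on products of upper
half planes (Kirchhoff matrix-tree theorem, Cauchy-Binet, imaginary part positive definite).
-/

set_option autoImplicit false

namespace Crest.Agent.Lib.FiidKirchhoff

open Crest.ProbabilityR.SpanningTrees Crest.Agent.Lib.FiidStablePoly Crest.Agent.Lib.CauchyBinetW

variable {V : Type*} [DecidableEq V]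

open Classical in
/-- Indicator of spanning trees as coefficient function. -/
noncomputable def treeCoeff (G : SimpleGraph V) (S : Finset V) (A : Finset (Sym2 V)) : ℝ :=
  if IsSpanningTreeOn G S A then 1 else 0

/-- A choice of orientation of an unordered pair. -/
noncomputable def orient (e : Sym2 V) : V × V := Quot.out e

omit [DecidableEq V] in
lemma orient_spec (e : Sym2 V) : s((orient e).1, (orient e).2) = e := Quot.out_eq e

/-- The incidence number of a vertex and an oriented pair. -/
noncomputable def inc (v : V) (e : Sym2 V) : ℤ :=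
  (if v = (orient e).1 then 1 else 0) - (if v = (orient e).2 then 1 else 0)

/-- The graph on `S` with edge set `A`. -/
abbrev treeGraph (S : Finset V) (A : Finset (Sym2 V)) : SimpleGraph (S : Set V) :=
  (SimpleGraph.fromEdgeSet (A : Set (Sym2 V))).induce (S : Set V)

omit [DecidableEq V] in
/-- The number of edges of the piece equals `A.card`, when the edges in `A` lie inside `S`. -/
lemma card_treeGraph_edgeSet (G : SimpleGraph V) (S : Finset V) (A : Finset (Sym2 V))
    (hA : A ⊆ edgesIn G S) : Nat.card (treeGraph S A).edgeSet = A.card := by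
  classical
  have hinj : Function.Injective (Sym2.map (Subtype.val : ↥(S : Set V) → V)) :=
    Sym2.map.injective Subtype.val_injective
  have himg : (Sym2.map (Subtype.val : ↥(S : Set V) → V)) '' (treeGraph S A).edgeSet = (A : Set (Sym2 V)) := by
    ext e
    constructor
    · rintro ⟨e', he', rfl⟩
      induction e' using Sym2.ind with
      | _ a b =>
        have : (treeGraph S A).Adj a b := he'
        have h2 : (SimpleGraph.fromEdgeSet (A : Set (Sym2 V))).Adj a b := this
        rw [SimpleGraph.fromEdgeSet_adj] at h2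
        simpa using h2.1
    · intro he
      have hE : e ∈ edgesIn G S := hA he
      induction e using Sym2.ind with
      | _ a b =>
        have h3 := hE
        rw [edgesIn, Finset.mem_filter, Finset.mk_mem_sym2_iff] at h3
        have hadj : G.Adj a b := h3.2
        refine ⟨s(⟨a, by simpa using h3.1.1⟩, ⟨b, by simpa using h3.1.2⟩), ?_, rfl⟩
        change (treeGraph S A).Adj _ _
        change (SimpleGraph.fromEdgeSet (A : Set (Sym2 V))).Adj a b
        rw [SimpleGraph.fromEdgeSet_adj]
        exact ⟨he, hadj.ne⟩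
  rw [Nat.card_coe_set_eq, ← Set.ncard_image_of_injective _ hinj, himg, Set.ncard_coe_finset]

omit [DecidableEq V] in
lemma isSpanningTreeOn_iff (G : SimpleGraph V) (S : Finset V) (A : Finset (Sym2 V))
    (hA : A ⊆ edgesIn G S) :
    IsSpanningTreeOn G S A ↔ (treeGraph S A).Connected ∧ A.card + 1 = S.card := by
  unfold IsSpanningTreeOn
  rw [SimpleGraph.isTree_iff_connected_and_card, card_treeGraph_edgeSet G S A hA]
  simp [hA]

omit [DecidableEq V] in
lemma orient_mem {G : SimpleGraph V} {S : Finset V} {e : Sym2 V} (he : e ∈ edgesIn G S) :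
    (orient e).1 ∈ S ∧ (orient e).2 ∈ S ∧ G.Adj (orient e).1 (orient e).2 := by
  classical
  have h := he
  rw [← orient_spec e, edgesIn, Finset.mem_filter, Finset.mk_mem_sym2_iff] at h
  exact ⟨h.1.1, h.1.2, h.2⟩

lemma exists_flow (S : Finset V) (A : Finset (Sym2 V)) (a b : (S : Set V))
    (h : (treeGraph S A).Reachable a b) :
    ∃ φ : Sym2 V → ℤ, ∀ v : V, ∑ e ∈ A, inc v e * φ e =
      (if v = a then 1 else 0) - (if v = b then 1 else 0) := by
  obtain ⟨p⟩ := h
  induction p with
  | nil => exact ⟨0, by simp⟩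
  | @cons a c b hadj p ih =>
    obtain ⟨φ, hφ⟩ := ih
    have hedge : s((a : V), (c : V)) ∈ A ∧ (a : V) ≠ c := by
      have h2 : (SimpleGraph.fromEdgeSet (A : Set (Sym2 V))).Adj a c := hadj
      rw [SimpleGraph.fromEdgeSet_adj] at h2
      simpa using h2
    set e0 : Sym2 V := s((a : V), (c : V)) with he0
    set ε : ℤ := if (orient e0).1 = a then 1 else -1 with hε
    refine ⟨fun e => (if e = e0 then ε else 0) + φ e, ?_⟩
    intro v
    have h1 : ∑ e ∈ A, inc v e * (if e = e0 then ε else 0) = inc v e0 * ε := by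
      simp [mul_ite, Finset.sum_ite_eq', hedge.1]
    have h2 : inc v e0 * ε = (if v = a then 1 else 0) - (if v = c then 1 else 0) := by
      have hspec := orient_spec e0
      rw [he0, Sym2.eq_iff, ← he0] at hspec
      rcases hspec with ⟨h3, h4⟩ | ⟨h3, h4⟩
      · have : ε = 1 := by simp [hε, h3]
        rw [this, mul_one, inc, h3, h4]
      · have hca : (c : V) ≠ a := hedge.2.symm
        have : ε = -1 := by simp [hε, h3, hca]
        rw [this, inc, h3, h4]
        ring
    simp_rw [mul_add, Finset.sum_add_distrib, h1, h2, hφ]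
    ring

open Function in
lemma det_sq_of_connected (S : Finset V) (A : Finset (Sym2 V)) {r : V} (hr : r ∈ S)
    (hconn : (treeGraph S A).Connected)
    (g : ↥(S.erase r) → Sym2 V) (hg : Injective g) (him : Finset.univ.image g = A) :
    (colM (fun (i : ↥(S.erase r)) e => inc (i : V) e) g).det ^ 2 = 1 := by
  have hrefl : ∀ w : ↥(S.erase r), ∃ φ : Sym2 V → ℤ, ∀ v : V, ∑ e ∈ A, inc v e * φ e =
      (if v = w then 1 else 0) - (if v = r then 1 else 0) := by
    intro w
    have hw : (w : V) ∈ (S : Set V) := by
      simpa using (Finset.mem_erase.mp w.2).2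
    exact exists_flow S A ⟨w, hw⟩ ⟨r, by simpa using hr⟩ (hconn.preconnected _ _)
  choose φ hφ using hrefl
  set C : Matrix ↥(S.erase r) ↥(S.erase r) ℤ := Matrix.of fun j w => φ w (g j) with hC
  have hmul : colM (fun (i : ↥(S.erase r)) e => inc (i : V) e) g * C = 1 := by
    ext v w
    rw [Matrix.mul_apply, Matrix.one_apply]
    simp only [colM, hC, Matrix.of_apply]
    have : ∑ j, inc (v : V) (g j) * φ w (g j) = ∑ e ∈ A, inc (v : V) e * φ w e := by
      rw [← him, Finset.sum_image (fun a _ b _ h => hg h)]
    rw [this, hφ]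
    have hvr : (v : V) ≠ r := (Finset.mem_erase.mp v.2).1
    rw [if_neg hvr, sub_zero]
    by_cases h : v = w
    · subst h
      simp
    · have h' : (v : V) ≠ w := fun h2 => h (Subtype.ext h2)
      rw [if_neg h, if_neg h']
  have hdet : (colM (fun (i : ↥(S.erase r)) e => inc (i : V) e) g).det * C.det = 1 := by
    rw [← Matrix.det_mul, hmul, Matrix.det_one]
  rcases Int.eq_one_or_neg_one_of_mul_eq_one hdet with h | h <;> simp [h]

/-- Row sums of the incidence matrix. -/
lemma sum_erase_mul_inc {R : Type*} [CommRing R] (S : Finset V) {r : V} (hr : r ∈ S) (x : V → R)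
    (hx : x r = 0) (e : Sym2 V) (ha : (orient e).1 ∈ S) (hb : (orient e).2 ∈ S) :
    ∑ i : ↥(S.erase r), x i * (inc (i : V) e : R) = x (orient e).1 - x (orient e).2 := by
  rw [Finset.sum_coe_sort (S.erase r) (fun v => x v * (inc v e : R))]
  rw [Finset.sum_erase S (by simp [hx])]
  simp only [inc]
  push_cast
  simp only [mul_sub, Finset.sum_sub_distrib, mul_ite, mul_one, mul_zero, Finset.sum_ite_eq', ha,
    hb, if_true]

open Function in
lemma det_eq_zero_of_not_connected (G : SimpleGraph V) (S : Finset V) (A : Finset (Sym2 V))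
    (hA : A ⊆ edgesIn G S) {r : V} (hr : r ∈ S) (hconn : ¬ (treeGraph S A).Connected)
    (g : ↥(S.erase r) → Sym2 V) (him : Finset.univ.image g = A) :
    (colM (fun (i : ↥(S.erase r)) e => inc (i : V) e) g).det = 0 := by
  classical
  have hr' : r ∈ (S : Set V) := by simpa using hr
  obtain ⟨w, hw⟩ : ∃ w : (S : Set V), ¬ (treeGraph S A).Reachable ⟨r, hr'⟩ w := by
    by_contra h
    push Not at h
    apply hconn
    haveI : Nonempty (S : Set V) := ⟨⟨r, hr'⟩⟩
    refine ⟨fun a b => ((h a).symm).trans (h b)⟩
  set y : V → ℤ := fun v => if hv : v ∈ (S : Set V) then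
    (if (treeGraph S A).Reachable ⟨r, hr'⟩ ⟨v, hv⟩ then 0 else 1) else 0 with hy
  have hyr : y r = 0 := by
    simp only [hy, hr', dif_pos]
    simp
  have hyw : y w = 1 := by
    simp only [hy, w.2, dif_pos]
    simp [hw]
  have hwne : (w : V) ≠ r := by
    intro h
    apply hw
    have : w = ⟨r, hr'⟩ := Subtype.ext h
    rw [this]
  have hwmem : (w : V) ∈ S.erase r := Finset.mem_erase.mpr ⟨hwne, by simpa using w.2⟩
  rw [← Matrix.exists_vecMul_eq_zero_iff]
  refine ⟨fun i => y i, ?_, ?_⟩
  · intro h
    have := congrFun h ⟨w, hwmem⟩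
    simp only [Pi.zero_apply] at this
    rw [hyw] at this
    exact one_ne_zero this
  · ext j
    simp only [Matrix.vecMul, dotProduct, Pi.zero_apply, colM, Matrix.of_apply]
    have hgj : g j ∈ A := by
      rw [← him]
      exact Finset.mem_image_of_mem _ (Finset.mem_univ _)
    obtain ⟨ha, hb, hadj⟩ := orient_mem (hA hgj)
    have hsum := sum_erase_mul_inc (R := ℤ) S hr y hyr (g j) ha hb
    simp only [Int.cast_id] at hsum
    rw [hsum]
    have ha' : (orient (g j)).1 ∈ (S : Set V) := by simpa using ha
    have hb' : (orient (g j)).2 ∈ (S : Set V) := by simpa using hb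
    have hHadj : (treeGraph S A).Adj ⟨_, ha'⟩ ⟨_, hb'⟩ := by
      change (SimpleGraph.fromEdgeSet (A : Set (Sym2 V))).Adj _ _
      rw [SimpleGraph.fromEdgeSet_adj]
      refine ⟨?_, hadj.ne⟩
      change s((orient (g j)).1, (orient (g j)).2) ∈ (A : Set (Sym2 V))
      rw [orient_spec]
      exact hgj
    have hiff : (treeGraph S A).Reachable ⟨r, hr'⟩ ⟨_, ha'⟩ ↔
        (treeGraph S A).Reachable ⟨r, hr'⟩ ⟨_, hb'⟩ :=
      ⟨fun h => h.trans hHadj.reachable, fun h => h.trans hHadj.reachable.symm⟩
    simp only [hy, ha', hb', dif_pos, hiff]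
    simp

/-- Kirchhoff's matrix tree theorem for the piece. -/
theorem mvPoly_eq_det (G : SimpleGraph V) (S : Finset V) {r : V} (hr : r ∈ S) (z : Sym2 V → ℂ) :
    mvPoly (edgesIn G S) (treeCoeff G S) z =
      (wLap (edgesIn G S) (fun (i : ↥(S.erase r)) e => ((inc (i : V) e : ℤ) : ℂ)) z).det := by
  classical
  rw [det_wLap_eq (c := fun A => ((treeCoeff G S A : ℝ) : ℂ))]
  · rfl
  · intro A hA g hg him
    have hA' : A ⊆ edgesIn G S := Finset.mem_powerset.mp hA
    have h1 : colM (fun (i : ↥(S.erase r)) e => ((inc (i : V) e : ℤ) : ℂ)) g =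
        (Int.castRingHom ℂ).mapMatrix (colM (fun (i : ↥(S.erase r)) e => inc (i : V) e) g) := by
      ext i j
      simp [colM]
    rw [h1, ← RingHom.map_det]
    have hcard : A.card + 1 = S.card := by
      rw [← him, Finset.card_image_of_injective _ hg, Finset.card_univ, Fintype.card_coe,
        Finset.card_erase_of_mem hr]
      have : 0 < S.card := Finset.card_pos.mpr ⟨r, hr⟩
      omega
    by_cases hc : (treeGraph S A).Connected
    · have hT : IsSpanningTreeOn G S A := (isSpanningTreeOn_iff G S A hA').mpr ⟨hc, hcard⟩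
      have := det_sq_of_connected S A hr hc g hg him
      simp only [treeCoeff, if_pos hT]
      rw [← map_pow, this]
      simp
    · have hT : ¬ IsSpanningTreeOn G S A := fun h => hc ((isSpanningTreeOn_iff G S A hA').mp h).1
      have := det_eq_zero_of_not_connected G S A hA' hr hc g him
      simp only [treeCoeff, if_neg hT]
      rw [this]
      simp
  · intro A hA hne
    have hA' : A ⊆ edgesIn G S := Finset.mem_powerset.mp hA
    have hT : ¬ IsSpanningTreeOn G S A := by
      intro h
      have h2 := ((isSpanningTreeOn_iff G S A hA').mp h).2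
      apply hne
      rw [Fintype.card_coe, Finset.card_erase_of_mem hr]
      omega
    simp [treeCoeff, if_neg hT]

theorem tree_stable (G : SimpleGraph V) (S : Finset V) (hconn : (G.induce (S : Set V)).Connected)
    (z : Sym2 V → ℂ) (hz : ∀ e ∈ edgesIn G S, 0 < (z e).im) :
    mvPoly (edgesIn G S) (treeCoeff G S) z ≠ 0 := by
  classical
  obtain ⟨⟨r, hr'⟩⟩ := hconn.nonempty
  have hr : r ∈ S := by simpa using hr'
  intro h0
  rw [mvPoly_eq_det G S hr z] at h0
  obtain ⟨x, hxne, hx⟩ := Matrix.exists_mulVec_eq_zero_iff.mpr h0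
  -- the extension by zero
  set xt : V → ℂ := fun v => if hv : v ∈ S.erase r then x ⟨v, hv⟩ else 0 with hxt
  have hxt_coe : ∀ i : ↥(S.erase r), xt i = x i := by
    intro i
    simp only [hxt]
    rw [dif_pos i.2]
  have hxtr : xt r = 0 := by simp [hxt]
  -- the edge differences
  set y : Sym2 V → ℂ := fun e => ∑ j : ↥(S.erase r), x j * ((inc (j : V) e : ℤ) : ℂ) with hy
  have hyconj : ∀ e, (starRingEnd ℂ) (y e) = ∑ j : ↥(S.erase r), (starRingEnd ℂ) (x j) *
      ((inc (j : V) e : ℤ) : ℂ) := by
    intro e
    simp [hy, map_sum, map_mul]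
  -- quadratic form
  have hquad : ∑ e ∈ edgesIn G S, z e * ((starRingEnd ℂ) (y e) * y e) = 0 := by
    have h1 : ∑ i, (starRingEnd ℂ) (x i) * ((wLap (edgesIn G S)
        (fun (i : ↥(S.erase r)) e => ((inc (i : V) e : ℤ) : ℂ)) z).mulVec x) i = 0 := by
      rw [hx]
      simp
    rw [← h1]
    simp only [Matrix.mulVec, dotProduct, wLap, Matrix.of_apply]
    simp_rw [hyconj, hy, Finset.sum_mul_sum, Finset.mul_sum, Finset.sum_mul, Finset.mul_sum]
    rw [Finset.sum_comm]
    apply Finset.sum_congr rfl
    intro i _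
    rw [Finset.sum_comm]
    apply Finset.sum_congr rfl
    intro j _
    apply Finset.sum_congr rfl
    intro e _
    ring
  -- imaginary part
  have him : ∑ e ∈ edgesIn G S, (z e).im * Complex.normSq (y e) = 0 := by
    have := congrArg Complex.im hquad
    rw [Complex.im_sum] at this
    simp_rw [← Complex.normSq_eq_conj_mul_self, Complex.im_mul_ofReal] at this
    simpa using this
  have hyzero : ∀ e ∈ edgesIn G S, y e = 0 := by
    intro e he
    have hnn : ∀ e ∈ edgesIn G S, 0 ≤ (z e).im * Complex.normSq (y e) := fun e he =>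
      mul_nonneg (hz e he).le (Complex.normSq_nonneg _)
    have := (Finset.sum_eq_zero_iff_of_nonneg hnn).mp him e he
    rcases mul_eq_zero.mp this with h | h
    · exact absurd h (hz e he).ne'
    · exact Complex.normSq_eq_zero.mp h
  -- differences vanish
  have hdiff : ∀ e ∈ edgesIn G S, xt (orient e).1 = xt (orient e).2 := by
    intro e he
    obtain ⟨ha, hb, _⟩ := orient_mem he
    have h1 := sum_erase_mul_inc (R := ℂ) S hr xt hxtr e ha hb
    have h2 : y e = ∑ i : ↥(S.erase r), xt i * ((inc (i : V) e : ℤ) : ℂ) := by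
      simp only [hy, hxt_coe]
    rw [← h2, hyzero e he] at h1
    exact (sub_eq_zero.mp h1.symm)
  have hadj : ∀ a b : (S : Set V), (G.induce (S : Set V)).Adj a b → xt a = xt b := by
    intro a b hab
    have hab' : G.Adj a b := hab
    have he : s((a : V), (b : V)) ∈ edgesIn G S := by
      rw [edgesIn, Finset.mem_filter, Finset.mk_mem_sym2_iff]
      exact ⟨⟨by simpa using a.2, by simpa using b.2⟩, hab'⟩
    have h1 := hdiff _ he
    have hspec := orient_spec (s((a : V), (b : V)))
    rw [Sym2.eq_iff] at hspec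
    rcases hspec with ⟨h3, h4⟩ | ⟨h3, h4⟩
    · rw [h3, h4] at h1
      exact h1
    · rw [h3, h4] at h1
      exact h1.symm
  have hreach : ∀ a b : (S : Set V), (G.induce (S : Set V)).Reachable a b → xt a = xt b := by
    intro a b h
    obtain ⟨p⟩ := h
    induction p with
    | nil => rfl
    | cons h p ih => exact (hadj _ _ h).trans ih
  apply hxne
  ext i
  have hi : (i : V) ∈ (S : Set V) := by simpa using (Finset.mem_erase.mp i.2).2
  have := hreach ⟨i, hi⟩ ⟨r, hr'⟩ (hconn.preconnected _ _)
  simp only [hxtr, hxt_coe] at this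
  simpa using this

end Crest.Agent.Lib.FiidKirchhoff
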