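import Crest.Agent.Lib.FiidRun

/-!
# Exact law of the run
-/

set_option autoImplicit false

namespace Crest.Agent.Lib.FiidLaw

open MeasureTheory Set
open scoped unitInterval
open Crest.Agent.Lib.FiidChannel Crest.Agent.Lib.FiidPlanted Crest.Agent.Lib.FiidRun

variable {ι : Type*}

/-- Lexicographic key of a stage. -/
def key (U : ι → I) (c : ι × ℕ) : ℕ ×ₗ I := toLex (c.2, U c.1)

lemma key_lt_iff {U : ι → I} {c d : ι × ℕ} :
    key U c < key U d ↔ c.2 < d.2 ∨ (c.2 = d.2 ∧ U c.1 < U d.1) := by
  unfold key
  exact Prod.Lex.toLex_lt_toLex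

lemma key_inj {U : ι → I} {F : Finset ι} (hU : Set.InjOn U F) {c d : ι × ℕ} (hc : c.1 ∈ F) (hd : d.1 ∈ F)
    (h : key U c = key U d) : c = d := by
  unfold key at h
  have h' := toLex.injective h
  simp only [Prod.mk.injEq] at h'
  exact Prod.ext (hU hc hd h'.2) h'.1

/-- An initial segment of the stages of the run on `F`. -/
structure IsInit (F : Finset ι) (U : ι → I) (A : Finset (ι × ℕ)) : Prop where
  sub : ∀ c ∈ A, c.1 ∈ F
  low : ∀ c ∈ A, ∀ d : ι × ℕ, d.1 ∈ F → key U d < key U c → d ∈ A

variable (ν : Measure (ι → Bool)) [IsProbabilityMeasure ν]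

lemma measurable_runY_W (F : Finset ι) (U : ι → I) :
    Measurable (fun W : ι × ℕ → I => runY (tmean ν) F U W) := by
  have h := measurable_runY (P := Unit) (fun _ => tmean ν)
    (fun F v => (measurable_tmean ν F v).comp measurable_snd) F
  have hf : Measurable (fun W : ι × ℕ → I => (((), U, W) : Unit × (ι → I) × (ι × ℕ → I))) :=
    measurable_const.prodMk (measurable_const.prodMk measurable_id)
  exact Measurable.comp (f := fun W : ι × ℕ → I => (((), U, W) : Unit × (ι → I) × (ι × ℕ → I)))
    (g := fun q : Unit × (ι → I) × (ι × ℕ → I) => runY (tmean ν) F q.2.1 q.2.2) h hf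

lemma measurable_runY_UW (F : Finset ι) :
    Measurable (fun q : (ι → I) × (ι × ℕ → I) => runY (tmean ν) F q.1 q.2) := by
  have h := measurable_runY (P := Unit) (fun _ => tmean ν)
    (fun F v => (measurable_tmean ν F v).comp measurable_snd) F
  have hf : Measurable (fun q : (ι → I) × (ι × ℕ → I) => (((), q) : Unit × (ι → I) × (ι × ℕ → I))) :=
    measurable_const.prodMk measurable_id
  exact Measurable.comp (f := fun q : (ι → I) × (ι × ℕ → I) => (((), q) : Unit × (ι → I) × (ι × ℕ → I)))
    (g := fun q : Unit × (ι → I) × (ι × ℕ → I) => runY (tmean ν) F q.2.1 q.2.2) h hf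

variable [DecidableEq ι]

lemma rk_lt_of_mem_stagesBefore {F : Finset ι} {U : ι → I} {k : ℕ} {v : ι} {c : ι × ℕ}
    (hc : c ∈ stagesBefore F U k v) : rk F U c < rk F U (v, k) := by
  rw [mem_stagesBefore] at hc
  rcases hc.2 with h | ⟨h1, h2⟩
  · exact rk_lt_of_round_lt F U h
  · have := rk_lt_of_label_lt (v := v) F U k hc.1 h2
    have e : c = (c.1, k) := Prod.ext rfl h1
    rw [e]
    exact this

theorem run_law_init (F : Finset ι) (U : ι → I) (hU : Set.InjOn U F) (A : Finset (ι × ℕ)) :
    IsInit F U A → ∀ φ : (ι × ℕ → I) → ℝ, BM φ → Dep φ A →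
      ∫ W, φ (runY (tmean ν) F U W) ∂Lam (ι × ℕ) = ∫ y, φ y * Zd ν A y ∂Lam (ι × ℕ) := by
  classical
  induction A using Finset.induction_on_max_value (key U) with
  | empty =>
    intro _ φ _ hdep
    have hc : ∀ y y', φ y = φ y' := fun y y' => hdep y y' (by simp)
    have hZ : ∀ y, Zd ν ∅ y = 1 := by
      intro y; simp [Zd, M, obsW]
    simp_rw [hZ, mul_one]
    have e1 : ∀ W, φ (runY (tmean ν) F U W) = φ (fun _ => 0) := fun W => hc _ _
    have e2 : ∀ y, φ y = φ (fun _ => 0) := fun y => hc _ _
    simp_rw [e1]
    simp_rw [e2 _]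
  | insert a s ha hmax ih =>
    intro hinit φ hφ hdep
    obtain ⟨v, k⟩ := a
    have haF : v ∈ F := hinit.sub (v, k) (Finset.mem_insert_self _ _)
    have hinit' : IsInit F U s := by
      refine ⟨fun c hc => hinit.sub c (Finset.mem_insert_of_mem hc), fun c hc d hd hlt => ?_⟩
      have := hinit.low c (Finset.mem_insert_of_mem hc) d hd hlt
      rcases Finset.mem_insert.mp this with rfl | h
      · exact absurd (hmax c hc) (not_le.mpr hlt)
      · exact h
    have hs : stagesBefore F U k v = s := by
      ext c
      rw [mem_stagesBefore]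
      constructor
      · rintro ⟨hcF, hc⟩
        have hlt : key U c < key U (v, k) := key_lt_iff.mpr hc
        have := hinit.low (v, k) (Finset.mem_insert_self _ _) c hcF hlt
        rcases Finset.mem_insert.mp this with rfl | h
        · exact absurd hlt (lt_irrefl _)
        · exact h
      · intro hc
        have hcF := hinit.sub c (Finset.mem_insert_of_mem hc)
        refine ⟨hcF, ?_⟩
        have hle := hmax c hc
        have hne : key U c ≠ key U (v, k) := by
          intro e
          have := key_inj hU hcF haF e
          rw [this] at hc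
          exact ha hc
        exact key_lt_iff.mp (lt_of_le_of_ne hle hne)
    -- the reduced test function
    set φt : (ι × ℕ → I) → ℝ := fun y => ∫ t : I, φ (Function.update y (v, k) (T (post ν s v y) t))
      with hφt
    have hφt_eq : ∀ y, φt y = ∫ t : I, φ (Function.update y (v, k) t) * dens (sOf (post ν s v y)) t := by
      intro y
      exact integral_comp_T (post ν s v y) (fun t => φ (Function.update y (v, k) t))
    have hφt_bm : BM φt := by
      have h1 : Measurable (fun p : (ι × ℕ → I) × I =>
          Function.update p.1 (v, k) (T (post ν s v p.1) p.2)) := by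
        have h2 : Measurable (fun p : (ι × ℕ → I) × I => (p.1, T (post ν s v p.1) p.2)) :=
          measurable_fst.prodMk (measurable_T.comp
            (((measurable_post ν s v).comp measurable_fst).prodMk measurable_snd))
        exact (measurable_update_pair (v, k)).comp h2
      exact (hφ.comp h1).integral_right (volume : Measure I)
    have hφt_dep : Dep φt s := by
      intro y y' hyy
      simp only [hφt]
      have hp : post ν s v y = post ν s v y' := post_dep ν s v y y' hyy
      rw [hp]
      congr 1
      funext t
      apply hdep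
      intro c hc
      by_cases hca : c = (v, k)
      · subst hca; simp
      · rw [Function.update_of_ne hca, Function.update_of_ne hca]
        exact hyy c ((Finset.mem_insert.mp hc).resolve_left hca)
    have hih := ih hinit' φt hφt_bm hφt_dep
    -- the left hand side
    have hY : ∀ W, (∫ t : I, φ (runY (tmean ν) F U (Function.update W (v, k) t))) =
        φt (runY (tmean ν) F U W) := by
      intro W
      simp only [hφt]
      congr 1
      funext t
      apply hdep
      intro c hc
      have hag : ∀ d ∈ s, runY (tmean ν) F U (Function.update W (v, k) t) d = runY (tmean ν) F U W d := by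
        intro d hd
        have hd' : d ∈ stagesBefore F U k v := hs ▸ hd
        exact runY_update_noise (tmean_local ν) F U W (v, k) t (rk F U d + 1) d
          (mem_stagesBefore.mp hd').1 (Nat.lt_succ_self _) (rk_lt_of_mem_stagesBefore hd')
      by_cases hca : c = (v, k)
      · subst hca
        simp only [Function.update_self]
        rw [runY_eq (tmean_local ν) F U]
        simp only [Function.update_self]
        rw [← post_stagesBefore ν F U k v, hs]
        rw [post_dep ν s v _ _ hag]
      · rw [Function.update_of_ne hca]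
        exact hag c ((Finset.mem_insert.mp hc).resolve_left hca)
    have hbm : BM (fun W => φ (runY (tmean ν) F U W)) := hφ.comp (measurable_runY_W ν F U)
    rw [← integral_resample (v, k) hbm]
    simp_rw [hY]
    rw [hih]
    -- the right hand side
    have hbm2 : BM (fun y => φ y * Zd ν (insert (v, k) s) y) := hφ.mul (bm_Zd ν _)
    rw [← integral_resample (v, k) hbm2]
    congr 1
    funext y
    rw [hφt_eq, ← integral_mul_const]
    congr 1
    funext t
    rw [Zd_insert_update ν s (v, k) ha y t]
    simp only
    ring

/-- The law of the run on any set of stages of the finite set `F`. -/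
theorem run_law (F : Finset ι) (U : ι → I) (hU : Set.InjOn U F) (A : Finset (ι × ℕ)) (hA : ∀ c ∈ A, c.1 ∈ F)
    (φ : (ι × ℕ → I) → ℝ) (hφ : BM φ) (hdep : Dep φ A) :
    ∫ W, φ (runY (tmean ν) F U W) ∂Lam (ι × ℕ) = ∫ y, φ y * Zd ν A y ∂Lam (ι × ℕ) := by
  classical
  -- enlarge to an initial segment
  set T := A.sup (fun c => c.2) + 1 with hT
  have hAB : A ⊆ F ×ˢ Finset.range T := by
    intro c hc
    rw [Finset.mem_product, Finset.mem_range]
    refine ⟨hA c hc, ?_⟩
    have : c.2 ≤ A.sup (fun c => c.2) := Finset.le_sup (f := fun c : ι × ℕ => c.2) hc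
    omega
  have hinit : IsInit F U (F ×ˢ Finset.range T) := by
    refine ⟨fun c hc => (Finset.mem_product.mp hc).1, fun c hc d hd hlt => ?_⟩
    rw [Finset.mem_product, Finset.mem_range] at hc ⊢
    refine ⟨hd, ?_⟩
    have := key_lt_iff.mp hlt
    omega
  rw [run_law_init ν F U hU _ hinit φ hφ (hdep.mono hAB)]
  exact integral_mul_M_mono ν hAB bm_one hφ hdep

/-- **L² locality of the posterior.** -/
theorem run_post_gap (F W₀ : Finset ι) (hW : W₀ ⊆ F) (U : ι → I) (hU : Set.InjOn U F) (k : ℕ) (v : ι) :
    ∫ W, (tmean ν F (stageTilt U (runY (tmean ν) F U W) k v) v -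
        tmean ν W₀ (stageTilt U (runY (tmean ν) F U W) k v) v) ^ 2 ∂Lam (ι × ℕ) =
      energy ν (stagesBefore F U k v) v - energy ν (stagesBefore W₀ U k v) v := by
  have hsub : stagesBefore W₀ U k v ⊆ stagesBefore F U k v := by
    intro c hc
    rw [mem_stagesBefore] at hc ⊢
    exact ⟨hW hc.1, hc.2⟩
  have hlaw := run_law ν F U hU (stagesBefore F U k v) (fun c hc => (mem_stagesBefore.mp hc).1)
    (fun y => (post ν (stagesBefore F U k v) v y - post ν (stagesBefore W₀ U k v) v y) ^ 2)
    (by
      have := (bm_post ν (stagesBefore F U k v) v).sub (bm_post ν (stagesBefore W₀ U k v) v)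
      simpa [pow_two] using this.mul this)
    (by
      intro y y' hyy
      simp only
      rw [post_dep ν _ v y y' hyy,
        post_dep ν _ v y y' (fun c hc => hyy c (hsub hc))])
  simp_rw [post_stagesBefore] at hlaw
  rw [hlaw]
  simp_rw [← post_stagesBefore]
  exact pythagoras ν hsub v

end Crest.Agent.Lib.FiidLaw
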