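import Crest.Agent.Lib.FiidCauchy

/-!
# The law of limits of runs, and decoding the bits
-/

set_option autoImplicit false

namespace Crest.Agent.Lib.FiidLimit

open MeasureTheory Set Filter Topology
open scoped unitInterval
open Crest.Agent.Lib.FiidChannel Crest.Agent.Lib.FiidPlanted Crest.Agent.Lib.FiidRun
  Crest.Agent.Lib.FiidLaw Crest.Agent.Lib.FiidCauchy

variable {ι : Type*}

/-! ### Fast limits -/

/-- The limit of a sequence in the unit interval (a junk value if there is no limit). -/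
noncomputable def limI (u : ℕ → I) : I :=
  Set.projIcc 0 1 zero_le_one (limsup (fun j => (u j : ℝ)) atTop)

lemma limI_of_tendsto {u : ℕ → I} {l : ℝ} (h : Tendsto (fun j => (u j : ℝ)) atTop (𝓝 l)) :
    (limI u : ℝ) = l := by
  unfold limI
  rw [h.limsup_eq]
  have h0 : 0 ≤ l := ge_of_tendsto' h fun j => (u j).2.1
  have h1 : l ≤ 1 := le_of_tendsto' h fun j => (u j).2.2
  rw [projIcc_of_mem zero_le_one ⟨h0, h1⟩]

lemma measurable_limI {Ω : Type*} [MeasurableSpace Ω] {f : ℕ → Ω → I} (hf : ∀ j, Measurable (f j)) :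
    Measurable (fun x => limI (fun j => f j x)) := by
  unfold limI
  have h1 : Measurable (fun x => limsup (fun j => (f j x : ℝ)) atTop) :=
    Measurable.limsup fun j => measurable_subtype_coe.comp (hf j)
  exact continuous_projIcc.measurable.comp h1

/-- If the integrals are summable then the functions tend to zero a.e. -/
lemma ae_summable_of_summable_integral {Ω : Type*} [MeasurableSpace Ω] {μ : Measure Ω}
    {g : ℕ → Ω → ℝ} (hm : ∀ j, Measurable (g j)) (h0 : ∀ j x, 0 ≤ g j x) (hi : ∀ j, Integrable (g j) μ)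
    {b : ℕ → ℝ} (hb : Summable b) (hle : ∀ j, ∫ x, g j x ∂μ ≤ b j) :
    ∀ᵐ x ∂μ, Summable (fun j => g j x) := by
  have hb0 : ∀ j, 0 ≤ b j := fun j => (integral_nonneg (h0 j)).trans (hle j)
  have hm' : Measurable (fun x => ∑' j, ENNReal.ofReal (g j x)) :=
    Measurable.ennreal_tsum fun j => (hm j).ennreal_ofReal
  have hint : ∫⁻ x, ∑' j, ENNReal.ofReal (g j x) ∂μ ≠ ⊤ := by
    rw [lintegral_tsum fun j => (hm j).ennreal_ofReal.aemeasurable]
    have h1 : ∀ j, ∫⁻ x, ENNReal.ofReal (g j x) ∂μ ≤ ENNReal.ofReal (b j) := by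
      intro j
      rw [← ofReal_integral_eq_lintegral_ofReal (hi j) (Eventually.of_forall (h0 j))]
      exact ENNReal.ofReal_le_ofReal (hle j)
    refine ne_top_of_le_ne_top ?_ (ENNReal.tsum_le_tsum h1)
    exact hb.tsum_ofReal_ne_top
  filter_upwards [ae_lt_top hm' hint] with x hx
  have h2 := ENNReal.summable_toReal hx.ne
  refine h2.congr fun j => ?_
  rw [ENNReal.toReal_ofReal (h0 j x)]

lemma summable_quarter : Summable (fun j : ℕ => (1 / 4 : ℝ) ^ j) :=
  summable_geometric_of_lt_one (by norm_num) (by norm_num)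

/-- Sequences with a fast rate converge a.e. and in `L¹` to their `limI`. -/
theorem fast_limit {Ω : Type*} [MeasurableSpace Ω] (μ : Measure Ω) [IsProbabilityMeasure μ] (f : ℕ → Ω → I)
    (hf : ∀ j, Measurable (f j))
    (hrate : ∀ j, ∀ i ≥ j, ∫ x, |(f i x : ℝ) - f j x| ∂μ ≤ (1 / 4) ^ j) :
    (∀ᵐ x ∂μ, Tendsto (fun j => (f j x : ℝ)) atTop (𝓝 (limI (fun j => f j x)))) ∧
      ∀ j, ∫ x, |(limI (fun i => f i x) : ℝ) - f j x| ∂μ ≤ (1 / 4) ^ j := by
  have hcoe : ∀ j, Measurable (fun x => (f j x : ℝ)) := fun j => measurable_subtype_coe.comp (hf j)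
  have hbd : ∀ (a b : I), |(a : ℝ) - b| ≤ 1 := fun a b => by
    rw [abs_le]
    constructor <;> linarith [a.2.1, a.2.2, b.2.1, b.2.2]
  have hint : ∀ i j, Integrable (fun x => |(f i x : ℝ) - f j x|) μ := fun i j =>
    Integrable.of_bound ((hcoe i).sub (hcoe j)).abs.aestronglyMeasurable 1
      (Eventually.of_forall fun x => by rw [Real.norm_eq_abs, abs_abs]; exact hbd _ _)
  have hae : ∀ᵐ x ∂μ, Tendsto (fun j => (f j x : ℝ)) atTop (𝓝 (limI (fun j => f j x))) := by
    have hs := ae_summable_of_summable_integral (μ := μ) (g := fun j x => |(f (j + 1) x : ℝ) - f j x|)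
      (fun j => ((hcoe (j + 1)).sub (hcoe j)).abs) (fun j x => abs_nonneg _) (fun j => hint _ _)
      summable_quarter (fun j => hrate j (j + 1) (Nat.le_succ j))
    filter_upwards [hs] with x hx
    have hc : CauchySeq (fun j => (f j x : ℝ)) := by
      apply cauchySeq_of_summable_dist
      refine hx.congr fun j => ?_
      rw [Real.dist_eq, abs_sub_comm]
    obtain ⟨l, hl⟩ := cauchySeq_tendsto_of_complete hc
    rw [limI_of_tendsto hl]
    exact hl
  refine ⟨hae, fun j => ?_⟩
  have hlimm : Measurable (fun x => limI (fun i => f i x)) := measurable_limI hf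
  have hT : Tendsto (fun i => ∫ x, |(f i x : ℝ) - f j x| ∂μ) atTop
      (𝓝 (∫ x, |(limI (fun i => f i x) : ℝ) - f j x| ∂μ)) := by
    refine tendsto_integral_of_dominated_convergence (fun _ => (1:ℝ)) (fun i => ?_)
      (integrable_const _) (fun i => Eventually.of_forall fun x => ?_) ?_
    · exact ((hcoe i).sub (hcoe j)).abs.aestronglyMeasurable
    · rw [Real.norm_eq_abs, abs_abs]; exact hbd _ _
    · filter_upwards [hae] with x hx
      exact (hx.sub tendsto_const_nhds).abs
  exact le_of_tendsto hT ((eventually_ge_atTop j).mono fun i hi => hrate j i hi)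

/-! ### The planted field -/

/-- The planted field: observations of the configuration `ω` read from the noise `ξ`. -/
noncomputable def tau (ω : ι → Bool) (ξ : ι × ℕ → I) : ι × ℕ → I := fun c => T (b2r (ω c.1)) (ξ c)

lemma measurable_tau : Measurable (fun p : (ι → Bool) × (ι × ℕ → I) => tau p.1 p.2) := by
  rw [measurable_pi_iff]
  intro c
  unfold tau
  have h1 : Measurable (fun p : (ι → Bool) × (ι × ℕ → I) => (b2r (p.1 c.1), p.2 c)) :=
    (measurable_b2r.comp ((measurable_pi_apply c.1).comp measurable_fst)).prodMk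
      ((measurable_pi_apply c).comp measurable_snd)
  exact measurable_T.comp h1

lemma tmean_dirac (ω : ι → Bool) (F : Finset ι) (h : ι → ℝ) (v : ι) :
    tmean (Measure.dirac ω) F h v = b2r (ω v) := by
  unfold tmean
  have hm2 : Measurable (fun ω' : ι → Bool => tw F h ω') :=
    Measurable.comp (g := fun p : (ι → ℝ) × (ι → Bool) => tw F p.1 p.2)
      (f := fun ω' : ι → Bool => (h, ω')) (measurable_tw_pair F) measurable_prodMk_left
  have hm1 : Measurable (fun ω' : ι → Bool => b2r (ω' v) * tw F h ω') :=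
    (measurable_b2r.comp (measurable_pi_apply v)).mul hm2
  rw [integral_dirac' _ _ hm1.stronglyMeasurable, integral_dirac' _ _ hm2.stronglyMeasurable]
  rw [mul_div_assoc, div_self (tw_pos F h ω).ne', mul_one]

lemma runY_dirac (ω : ι → Bool) (F : Finset ι) (U : ι → I) (W : ι × ℕ → I) :
    runY (tmean (Measure.dirac ω)) F U W = tau ω W := by
  funext c
  rw [runY_eq (tmean_local _)]
  rw [tmean_dirac]
  rfl

lemma Zd_dirac (ω : ι → Bool) (A : Finset (ι × ℕ)) (y : ι × ℕ → I) :
    Zd (Measure.dirac ω) A y = obsW ω A y := by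
  unfold Zd M
  have hm0 : Measurable (fun ω' : ι → Bool => obsW ω' A y) :=
    Measurable.comp (g := fun p : (ι → Bool) × (ι × ℕ → I) => obsW p.1 A p.2)
      (f := fun ω' : ι → Bool => (ω', y)) (measurable_obsW A) measurable_prodMk_right
  have hm : Measurable (fun ω' : ι → Bool => 1 * obsW ω' A y) := measurable_const.mul hm0
  rw [integral_dirac' _ _ hm.stronglyMeasurable, one_mul]

theorem planted_law_fixed (ω : ι → Bool) (A : Finset (ι × ℕ)) {φ : (ι × ℕ → I) → ℝ} (hφ : BM φ)
    (hdep : Dep φ A) :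
    ∫ ξ, φ (tau ω ξ) ∂Lam (ι × ℕ) = ∫ y, φ y * obsW ω A y ∂Lam (ι × ℕ) := by
  classical
  set F := A.image Prod.fst with hF
  obtain ⟨U, hU⟩ := (ae_injOn (F := F) (ι := ι)).exists
  have h := run_law (Measure.dirac ω) F U hU A
    (fun c hc => Finset.mem_image_of_mem _ hc) φ hφ hdep
  simp_rw [runY_dirac, Zd_dirac] at h
  exact h

theorem planted_law (ν : Measure (ι → Bool)) [IsProbabilityMeasure ν] (A : Finset (ι × ℕ))
    {φ : (ι × ℕ → I) → ℝ} (hφ : BM φ) (hdep : Dep φ A) :
    ∫ ω, ∫ ξ, φ (tau ω ξ) ∂Lam (ι × ℕ) ∂ν = ∫ y, φ y * Zd ν A y ∂Lam (ι × ℕ) := by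
  simp_rw [planted_law_fixed _ A hφ hdep]
  unfold Zd M
  simp_rw [one_mul, ← integral_const_mul]
  have hb : BM (fun p : (ι → Bool) × (ι × ℕ → I) => φ p.2 * obsW p.1 A p.2) :=
    (hφ.comp measurable_snd).mul (bm_obsW A)
  exact integral_integral_swap (f := fun ω y => φ y * obsW ω A y) (hb.integrable _)

section runs

variable (ν : Measure (ι → Bool)) [IsProbabilityMeasure ν] [DecidableEq ι]

theorem run_law_avg (F : Finset ι) (A : Finset (ι × ℕ)) (hA : ∀ c ∈ A, c.1 ∈ F) {φ : (ι × ℕ → I) → ℝ}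
    (hφ : BM φ) (hdep : Dep φ A) :
    ∫ q, φ (Yr ν F q) ∂PXi ι = ∫ y, φ y * Zd ν A y ∂Lam (ι × ℕ) := by
  unfold PXi
  have hb : BM (fun q : Xi ι => φ (Yr ν F q)) := hφ.comp (measurable_Yr ν F)
  rw [integral_prod _ (hb.integrable _)]
  have : ∀ᵐ U ∂Lam ι, ∫ W, φ (Yr ν F (U, W)) ∂Lam (ι × ℕ) = ∫ y, φ y * Zd ν A y ∂Lam (ι × ℕ) := by
    filter_upwards [ae_injOn F] with U hU
    exact run_law ν F U hU A hA φ hφ hdep
  rw [integral_congr_ae this]
  simp

/-- **The law of a limit field.** -/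
theorem field_law (V : ℕ → Finset ι) (hV : Monotone V) (Yinf : Xi ι → ι × ℕ → I) (hY : Measurable Yinf)
    (J : Set (ι × ℕ)) (hJ : ∀ c ∈ J, ∃ n, c.1 ∈ V n)
    (hlim : ∀ c ∈ J, ∀ δ > (0:ℝ), ∃ n, ∀ m ≥ n, ∫ q, |(Yinf q c : ℝ) - Yr ν (V m) q c| ∂PXi ι ≤ δ) :
    (PXi ι).map (fun q (c : J) => Yinf q c) =
      (ν.prod (Lam (ι × ℕ))).map (fun p (c : J) => tau p.1 p.2 c) := by
  have hm1 : Measurable (fun q (c : J) => Yinf q c) :=
    measurable_pi_lambda _ fun c => (measurable_pi_apply (c : ι × ℕ)).comp hY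
  have hm2 : Measurable (fun (p : (ι → Bool) × (ι × ℕ → I)) (c : J) => tau p.1 p.2 c) :=
    measurable_pi_lambda _ fun c => (measurable_pi_apply (c : ι × ℕ)).comp measurable_tau
  haveI : IsProbabilityMeasure ((PXi ι).map (fun q (c : J) => Yinf q c)) :=
    Measure.isProbabilityMeasure_map hm1.aemeasurable
  haveI : IsProbabilityMeasure ((ν.prod (Lam (ι × ℕ))).map
      (fun (p : (ι → Bool) × (ι × ℕ → I)) (c : J) => tau p.1 p.2 c)) :=
    Measure.isProbabilityMeasure_map hm2.aemeasurable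
  refine IsProjectiveLimit.unique (P := fun I' : Finset J =>
    (((ν.prod (Lam (ι × ℕ))).map (fun (p : (ι → Bool) × (ι × ℕ → I)) (c : J) => tau p.1 p.2 c)).map
      I'.restrict)) ?_ (fun _ => rfl)
  intro I'
  have hr : Measurable (I'.restrict : (J → I) → (I' → I)) := Finset.measurable_restrict _
  haveI : IsProbabilityMeasure (((PXi ι).map (fun q (c : J) => Yinf q c)).map I'.restrict) :=
    Measure.isProbabilityMeasure_map hr.aemeasurable
  haveI : IsProbabilityMeasure (((ν.prod (Lam (ι × ℕ))).map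
      (fun (p : (ι → Bool) × (ι × ℕ → I)) (c : J) => tau p.1 p.2 c)).map I'.restrict) :=
    Measure.isProbabilityMeasure_map hr.aemeasurable
  apply ext_of_forall_integral_eq_of_IsFiniteMeasure
  intro f
  -- the test function
  set φ : (ι × ℕ → I) → ℝ := fun y => f (fun i : I' => y i.1.1) with hφdef
  have hφm : Measurable φ := by
    have h2 : Measurable (fun y : ι × ℕ → I => (fun i : I' => y i.1.1)) :=
      measurable_pi_lambda _ fun i => measurable_pi_apply _
    exact f.continuous.measurable.comp h2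
  have hφ : BM φ := ⟨hφm, ‖f‖, fun y => f.norm_coe_le_norm _⟩
  classical
  set A : Finset (ι × ℕ) := I'.image (fun i : J => i.1) with hA
  have hdep : Dep φ A := by
    intro y y' hyy
    simp only [hφdef]
    have : (fun i : I' => y i.1.1) = fun i : I' => y' i.1.1 := by
      funext i
      exact hyy _ (Finset.mem_image_of_mem _ i.2)
    rw [this]
  -- left hand side
  have hL : ∫ x, f x ∂(((PXi ι).map (fun q (c : J) => Yinf q c)).map I'.restrict) =
      ∫ q, φ (Yinf q) ∂PXi ι := by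
    rw [integral_map hr.aemeasurable f.continuous.measurable.aestronglyMeasurable,
      integral_map (f := fun x => f (I'.restrict x)) hm1.aemeasurable
        (f.continuous.measurable.comp hr).aestronglyMeasurable]
    rfl
  have hR : ∫ x, f x ∂(((ν.prod (Lam (ι × ℕ))).map
      (fun (p : (ι → Bool) × (ι × ℕ → I)) (c : J) => tau p.1 p.2 c)).map I'.restrict) =
      ∫ ω, ∫ ξ, φ (tau ω ξ) ∂Lam (ι × ℕ) ∂ν := by
    rw [integral_map hr.aemeasurable f.continuous.measurable.aestronglyMeasurable,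
      integral_map (f := fun x => f (I'.restrict x)) hm2.aemeasurable
        (f.continuous.measurable.comp hr).aestronglyMeasurable]
    have hb : BM (fun p : (ι → Bool) × (ι × ℕ → I) => φ (tau p.1 p.2)) := hφ.comp measurable_tau
    exact integral_prod (fun p : (ι → Bool) × (ι × ℕ → I) => φ (tau p.1 p.2)) (hb.integrable _)
  rw [hL, hR, planted_law ν A hφ hdep]
  -- a base index
  have hbase : ∃ n₀, ∀ c ∈ A, c.1 ∈ V n₀ := by
    have h1 : ∀ᶠ n in atTop, ∀ c ∈ A, c.1 ∈ V n := by
      rw [Filter.eventually_all_finset]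
      intro c hc
      obtain ⟨i, _, rfl⟩ := Finset.mem_image.mp hc
      obtain ⟨n, hn⟩ := hJ i.1 i.2
      exact (eventually_ge_atTop n).mono fun m hm => hV hm hn
    exact h1.exists
  obtain ⟨n₀, hn₀⟩ := hbase
  -- the fast subsequence
  have hsub : ∀ i : ℕ, ∃ N, n₀ ≤ N ∧ ∀ c ∈ I', ∀ m ≥ N,
      ∫ q, |(Yinf q (c : ι × ℕ) : ℝ) - Yr ν (V m) q (c : ι × ℕ)| ∂PXi ι ≤ (1 / 4) ^ i := by
    intro i
    have h1 : ∀ᶠ N in atTop, ∀ c ∈ I', ∀ m ≥ N,
        ∫ q, |(Yinf q (c : ι × ℕ) : ℝ) - Yr ν (V m) q (c : ι × ℕ)| ∂PXi ι ≤ (1 / 4) ^ i := by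
      rw [Filter.eventually_all_finset]
      intro c _
      obtain ⟨n, hn⟩ := hlim c.1 c.2 ((1 / 4) ^ i) (by positivity)
      exact (eventually_ge_atTop n).mono fun N hN m hm => hn m (hN.trans hm)
    exact (h1.and (eventually_ge_atTop n₀)).exists.imp fun N h => ⟨h.2, h.1⟩
  choose Mt hMt0 hMt using hsub
  -- pointwise convergence
  have hcoe : ∀ (G : Xi ι → ι × ℕ → I) (_ : Measurable G) (c : ι × ℕ), Measurable (fun q => (G q c : ℝ)) :=
    fun G hG c => measurable_subtype_coe.comp ((measurable_pi_apply c).comp hG)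
  have hae : ∀ᵐ q ∂PXi ι, ∀ c ∈ I',
      Tendsto (fun i => (Yr ν (V (Mt i)) q (c : ι × ℕ) : ℝ)) atTop (𝓝 (Yinf q (c : ι × ℕ))) := by
    rw [Filter.eventually_all_finset]
    intro c hc
    have hs := ae_summable_of_summable_integral (μ := PXi ι)
      (g := fun i q => |(Yinf q (c : ι × ℕ) : ℝ) - Yr ν (V (Mt i)) q (c : ι × ℕ)|)
      (fun i => ((hcoe _ hY _).sub (hcoe _ (measurable_Yr ν _) _)).abs)
      (fun i q => abs_nonneg _)
      (fun i => Integrable.of_bound ((hcoe _ hY _).sub (hcoe _ (measurable_Yr ν _) _)).abs.aestronglyMeasurable 1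
        (Eventually.of_forall fun q => by
          rw [Real.norm_eq_abs, abs_abs, abs_le]
          have h1 := (Yinf q (c : ι × ℕ)).2
          have h2 := (Yr ν (V (Mt i)) q (c : ι × ℕ)).2
          constructor <;> linarith [h1.1, h1.2, h2.1, h2.2]))
      summable_quarter (fun i => hMt i c hc (Mt i) le_rfl)
    filter_upwards [hs] with q hq
    have h0 := hq.tendsto_atTop_zero
    have h1 : Tendsto (fun i => (Yinf q (c : ι × ℕ) : ℝ) - Yr ν (V (Mt i)) q (c : ι × ℕ)) atTop (𝓝 0) :=
      (tendsto_zero_iff_abs_tendsto_zero _).mpr h0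
    have h2 := (tendsto_const_nhds (x := (Yinf q (c : ι × ℕ) : ℝ))).sub h1
    simpa using h2
  have hT : Tendsto (fun i => ∫ q, φ (Yr ν (V (Mt i)) q) ∂PXi ι) atTop (𝓝 (∫ q, φ (Yinf q) ∂PXi ι)) := by
    refine tendsto_integral_of_dominated_convergence (fun _ => ‖f‖) (fun i => ?_)
      (integrable_const _) (fun i => Eventually.of_forall fun q => f.norm_coe_le_norm _) ?_
    · exact (hφm.comp (measurable_Yr ν _)).aestronglyMeasurable
    · filter_upwards [hae] with q hq
      show Tendsto (fun i => f (fun k : I' => Yr ν (V (Mt i)) q k.1.1)) atTop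
        (𝓝 (f (fun k : I' => Yinf q k.1.1)))
      apply f.continuous.continuousAt.tendsto.comp
      rw [tendsto_pi_nhds]
      intro k
      rw [tendsto_subtype_rng]
      exact hq k.1 k.2
  have hconst : ∀ i, ∫ q, φ (Yr ν (V (Mt i)) q) ∂PXi ι = ∫ y, φ y * Zd ν A y ∂Lam (ι × ℕ) := fun i =>
    run_law_avg ν (V (Mt i)) A (fun c hc => hV (hMt0 i) (hn₀ c hc)) hφ hdep
  simp_rw [hconst] at hT
  exact tendsto_nhds_unique hT tendsto_const_nhds

end runs

/-! ### Decoding -/

/-- The averages of the observations at a site. -/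
noncomputable def avg (y : ι × ℕ → I) (u : ι) (n : ℕ) : ℝ := (∑ k ∈ Finset.range n, (y (u, k) : ℝ)) / n

/-- The decoded bit. -/
noncomputable def Dec (y : ι × ℕ → I) (u : ι) : Bool :=
  decide ((1 / 2 : ℝ) < limsup (fun n => avg y u n) atTop)

lemma measurable_avg (u : ι) (n : ℕ) : Measurable (fun y : ι × ℕ → I => avg y u n) := by
  unfold avg
  refine Measurable.div_const (Finset.measurable_sum _ fun k _ => ?_) _
  exact measurable_subtype_coe.comp (measurable_pi_apply (u, k))

lemma measurable_Dec (u : ι) : Measurable (fun y : ι × ℕ → I => Dec y u) := by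
  apply measurable_to_bool
  have h1 : Measurable (fun y : ι × ℕ → I => limsup (fun n => avg y u n) atTop) :=
    Measurable.limsup fun n => measurable_avg u n
  have : (fun y : ι × ℕ → I => Dec y u) ⁻¹' {true} = {y | (1 / 2 : ℝ) < limsup (fun n => avg y u n) atTop} := by
    ext y
    simp [Dec]
  rw [this]
  exact measurableSet_lt measurable_const h1

lemma Dec_congr {y y' : ι × ℕ → I} {u : ι} (h : ∀ k, y (u, k) = y' (u, k)) : Dec y u = Dec y' u := by
  unfold Dec avg
  simp_rw [h]

lemma integral_T_mean (a : ℝ) : ∫ w : I, (T a w : ℝ) = 1 / 2 + sOf a / 6 := by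
  rw [integral_comp_T a (fun y : I => (y : ℝ))]
  have hI : ∀ f : ℝ → ℝ, ∫ x : I, f x = ∫ x in Icc (0:ℝ) 1, f x := by
    intro f
    exact integral_subtype_comap measurableSet_Icc f
  set s := sOf a with hs
  rw [hI (fun y => y * dens s y)]
  rw [integral_Icc_eq_integral_Ioc, ← intervalIntegral.integral_of_le zero_le_one]
  have : ∀ x ∈ uIcc (0:ℝ) 1, HasDerivAt (fun x : ℝ => x ^ 2 / 2 + s * (2 * (x ^ 3 / 3) - x ^ 2 / 2))
      (x * dens s x) x := by
    intro x _
    have h2 : HasDerivAt (fun x : ℝ => x ^ 2 / 2) x x :=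
      ((hasDerivAt_pow 2 x).div_const 2).congr_deriv (by norm_num)
    have h3 : HasDerivAt (fun x : ℝ => x ^ 3 / 3) (x ^ 2) x :=
      ((hasDerivAt_pow 3 x).div_const 3).congr_deriv (by norm_num)
    have h4 := h2.add (((h3.const_mul 2).sub h2).const_mul s)
    refine h4.congr_deriv ?_
    unfold dens
    ring
  rw [intervalIntegral.integral_eq_sub_of_hasDerivAt this]
  · norm_num
    ring
  · apply Continuous.intervalIntegrable
    unfold dens
    fun_prop

lemma sOf_b2r_true : sOf (b2r true) = 1 / 3 := by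
  simp [sOf, b2r, clamp]
  norm_num

lemma sOf_b2r_false : sOf (b2r false) = -1 / 3 := by
  simp [sOf, b2r, clamp]

lemma Dec_tau (ω : ι → Bool) (u : ι) : ∀ᵐ ξ ∂Lam (ι × ℕ), Dec (tau ω ξ) u = ω u := by
  set b := b2r (ω u) with hb
  set g : I → ℝ := fun r => (T b r : ℝ) with hg
  have hgm : Measurable g := by
    have h2 : Measurable (fun r : I => T b r) :=
      Measurable.comp (g := fun p : ℝ × I => T p.1 p.2) (f := fun r : I => (b, r)) measurable_T
        measurable_prodMk_left
    exact measurable_subtype_coe.comp h2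
  set X : ℕ → (ι × ℕ → I) → ℝ := fun k ξ => g (ξ (u, k)) with hX
  have hXm : ∀ k, Measurable (X k) := fun k => hgm.comp (measurable_pi_apply (u, k))
  have hindep0 : ProbabilityTheory.iIndepFun (fun (c : ι × ℕ) (ξ : ι × ℕ → I) => g (ξ c)) (Lam (ι × ℕ)) :=
    ProbabilityTheory.iIndepFun_infinitePi (P := fun _ : ι × ℕ => (volume : Measure I))
      (X := fun _ r => g r) (fun _ => hgm)
  have hinj : Function.Injective (fun k : ℕ => (u, k)) := fun a b h => (Prod.mk.inj h).2
  have hindep : ProbabilityTheory.iIndepFun X (Lam (ι × ℕ)) := hindep0.precomp hinj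
  have hmap : ∀ k, (Lam (ι × ℕ)).map (X k) = (volume : Measure I).map g := by
    intro k
    have h1 : X k = g ∘ (fun ξ : ι × ℕ → I => ξ (u, k)) := rfl
    rw [h1, ← Measure.map_map hgm (measurable_pi_apply (u, k))]
    unfold Lam
    rw [Measure.infinitePi_map_eval]
  have hident : ∀ k, ProbabilityTheory.IdentDistrib (X k) (X 0) (Lam (ι × ℕ)) (Lam (ι × ℕ)) := fun k =>
    ⟨(hXm k).aemeasurable, (hXm 0).aemeasurable, by rw [hmap k, hmap 0]⟩
  have hbd : ∀ ξ, ‖X 0 ξ‖ ≤ 1 := fun ξ => by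
    rw [Real.norm_eq_abs, abs_le]
    have h := (T b (ξ (u, 0))).2
    constructor <;> linarith [h.1, h.2]
  have hint : Integrable (X 0) (Lam (ι × ℕ)) :=
    Integrable.of_bound (hXm 0).aestronglyMeasurable 1 (Eventually.of_forall hbd)
  have hmean : ∫ ξ, X 0 ξ ∂Lam (ι × ℕ) = 1 / 2 + sOf b / 6 := by
    have h1 : ∫ ξ, X 0 ξ ∂Lam (ι × ℕ) = ∫ y, y ∂((Lam (ι × ℕ)).map (X 0)) :=
      (integral_map (f := fun y : ℝ => y) (hXm 0).aemeasurable aestronglyMeasurable_id).symm
    rw [h1, hmap 0, integral_map (f := fun y : ℝ => y) hgm.aemeasurable aestronglyMeasurable_id]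
    exact integral_T_mean b
  have hlaw := ProbabilityTheory.strong_law_ae_real X hint
    (fun i j hij => hindep.indepFun hij) hident
  filter_upwards [hlaw] with ξ hξ
  rw [hmean] at hξ
  have e : (fun n => avg (tau ω ξ) u n) = fun n : ℕ => (∑ i ∈ Finset.range n, X i ξ) / n := rfl
  unfold Dec
  rw [e, hξ.limsup_eq]
  cases hω : ω u with
  | true =>
    have : b = b2r true := by rw [hb, hω]
    rw [this, sOf_b2r_true]
    norm_num
  | false =>
    have : b = b2r false := by rw [hb, hω]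
    rw [this, sOf_b2r_false]
    norm_num

/-- **The law of the decoded bits of a limit field.** -/
theorem limit_law (ν : Measure (ι → Bool)) [IsProbabilityMeasure ν] [DecidableEq ι]
    (V : ℕ → Finset ι) (hV : Monotone V) (Yinf : Xi ι → ι × ℕ → I) (hY : Measurable Yinf)
    (J : Set (ι × ℕ)) (hJ : ∀ c ∈ J, ∃ n, c.1 ∈ V n)
    (hlim : ∀ c ∈ J, ∀ δ > (0:ℝ), ∃ n, ∀ m ≥ n, ∫ q, |(Yinf q c : ℝ) - Yr ν (V m) q c| ∂PXi ι ≤ δ)
    (F : Finset ι) (hF : ∀ e ∈ F, ∀ k : ℕ, (e, k) ∈ J) :
    PXi ι {q | ∀ e ∈ F, Dec (Yinf q) e = true} = ν {ω | ∀ e ∈ F, ω e = true} := by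
  classical
  have hlaw := field_law ν V hV Yinf hY J hJ hlim
  -- extension by zero
  let ext0 : (J → I) → ι × ℕ → I := fun w c => if h : c ∈ J then w ⟨c, h⟩ else 0
  have hext : Measurable ext0 := by
    rw [measurable_pi_iff]
    intro c
    by_cases h : c ∈ J
    · have : (fun w : J → I => ext0 w c) = fun w => w ⟨c, h⟩ := by
        funext w
        simp [ext0, h]
      rw [this]
      exact measurable_pi_apply _
    · have : (fun w : J → I => ext0 w c) = fun _ => 0 := by
        funext w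
        simp [ext0, h]
      rw [this]
      exact measurable_const
  set S' : Set (J → I) := {w | ∀ e ∈ F, Dec (ext0 w) e = true} with hS'
  have hS'm : MeasurableSet S' := by
    have : S' = ⋂ e ∈ F, (fun w => Dec (ext0 w) e) ⁻¹' {true} := by
      ext w
      simp [hS']
    rw [this]
    exact Finset.measurableSet_biInter F fun e _ => ((measurable_Dec e).comp hext) (measurableSet_singleton _)
  have hDec : ∀ (y : ι × ℕ → I), ∀ e ∈ F, Dec (ext0 (fun c : J => y c)) e = Dec y e := by
    intro y e he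
    apply Dec_congr
    intro k
    simp [ext0, hF e he k]
  have hm1 : Measurable (fun q (c : J) => Yinf q c) :=
    measurable_pi_lambda _ fun c => (measurable_pi_apply (c : ι × ℕ)).comp hY
  have hm2 : Measurable (fun (p : (ι → Bool) × (ι × ℕ → I)) (c : J) => tau p.1 p.2 c) :=
    measurable_pi_lambda _ fun c => (measurable_pi_apply (c : ι × ℕ)).comp measurable_tau
  have h1 : PXi ι {q | ∀ e ∈ F, Dec (Yinf q) e = true} = ((PXi ι).map (fun q (c : J) => Yinf q c)) S' := by
    rw [Measure.map_apply hm1 hS'm]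
    congr 1
    ext q
    simp only [mem_setOf_eq, mem_preimage, hS']
    exact forall₂_congr fun e he => by rw [hDec (Yinf q) e he]
  have h2 : ((ν.prod (Lam (ι × ℕ))).map (fun (p : (ι → Bool) × (ι × ℕ → I)) (c : J) => tau p.1 p.2 c)) S' =
      (ν.prod (Lam (ι × ℕ))) {p | ∀ e ∈ F, Dec (tau p.1 p.2) e = true} := by
    rw [Measure.map_apply hm2 hS'm]
    congr 1
    ext p
    simp only [mem_setOf_eq, mem_preimage, hS']
    exact forall₂_congr fun e he => by rw [hDec (tau p.1 p.2) e he]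
  rw [h1, hlaw, h2]
  -- the decoded bits are the planted bits
  have hae : ∀ᵐ p ∂(ν.prod (Lam (ι × ℕ))), ∀ e ∈ F, Dec (tau p.1 p.2) e = p.1 e := by
    have hs : MeasurableSet {p : (ι → Bool) × (ι × ℕ → I) | ∀ e ∈ F, Dec (tau p.1 p.2) e = p.1 e} := by
      have : {p : (ι → Bool) × (ι × ℕ → I) | ∀ e ∈ F, Dec (tau p.1 p.2) e = p.1 e} =
          ⋂ e ∈ F, {p | Dec (tau p.1 p.2) e = p.1 e} := by
        ext p
        simp
      rw [this]
      refine Finset.measurableSet_biInter F fun e _ => measurableSet_eq_fun ?_ ?_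
      · exact (measurable_Dec e).comp measurable_tau
      · exact (measurable_pi_apply e).comp measurable_fst
    refine (Measure.ae_prod_mem_iff_ae_ae_mem hs).mpr ?_
    filter_upwards with ω
    have : ∀ᵐ ξ ∂Lam (ι × ℕ), ∀ e ∈ F, Dec (tau ω ξ) e = ω e := by
      rw [Filter.eventually_all_finset]
      exact fun e _ => Dec_tau ω e
    exact this
  have hset : (ν.prod (Lam (ι × ℕ))) {p | ∀ e ∈ F, Dec (tau p.1 p.2) e = true} =
      (ν.prod (Lam (ι × ℕ))) ({ω | ∀ e ∈ F, ω e = true} ×ˢ Set.univ) := by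
    apply measure_congr
    filter_upwards [hae] with p hp
    apply propext
    constructor
    · intro h
      refine ⟨fun e he => ?_, trivial⟩
      rw [← hp e he]
      exact h e he
    · rintro ⟨h, _⟩ e he
      rw [hp e he]
      exact h e he
  rw [hset, Measure.prod_prod, measure_univ, mul_one]

end Crest.Agent.Lib.FiidLimit
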