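import Crest.Agent.Lib.FiidChannel

/-!
# Planted observations

`obsW ω A y` is the likelihood of the observations `y` at the stages in `A` given the configuration `ω`,
`M ν A G y` the integral of `G ω * obsW ω A y` against `ν`.
-/

set_option autoImplicit false

namespace Crest.Agent.Lib.FiidPlanted

open MeasureTheory Set
open scoped unitInterval
open Crest.Agent.Lib.FiidChannel

/-! ### Bounded measurable functions -/

/-- Bounded measurable real functions. -/
def BM {Ω : Type*} [MeasurableSpace Ω] (φ : Ω → ℝ) : Prop := Measurable φ ∧ ∃ C : ℝ, ∀ x, |φ x| ≤ C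

namespace BM
variable {Ω : Type*} [MeasurableSpace Ω] {φ ψ : Ω → ℝ}

lemma const (c : ℝ) : BM (fun _ : Ω => c) := ⟨measurable_const, |c|, fun _ => le_rfl⟩

lemma add (h1 : BM φ) (h2 : BM ψ) : BM (fun x => φ x + ψ x) := by
  obtain ⟨m1, C1, hC1⟩ := h1
  obtain ⟨m2, C2, hC2⟩ := h2
  exact ⟨m1.add m2, C1 + C2, fun x => (abs_add_le _ _).trans (add_le_add (hC1 x) (hC2 x))⟩

lemma sub (h1 : BM φ) (h2 : BM ψ) : BM (fun x => φ x - ψ x) := by
  obtain ⟨m1, C1, hC1⟩ := h1
  obtain ⟨m2, C2, hC2⟩ := h2
  exact ⟨m1.sub m2, C1 + C2, fun x => (abs_sub _ _).trans (add_le_add (hC1 x) (hC2 x))⟩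

lemma mul (h1 : BM φ) (h2 : BM ψ) : BM (fun x => φ x * ψ x) := by
  obtain ⟨m1, C1, hC1⟩ := h1
  obtain ⟨m2, C2, hC2⟩ := h2
  refine ⟨m1.mul m2, C1 * C2, fun x => ?_⟩
  rw [abs_mul]
  exact mul_le_mul (hC1 x) (hC2 x) (abs_nonneg _) ((abs_nonneg _).trans (hC1 x))

lemma neg (h1 : BM φ) : BM (fun x => - φ x) := by
  obtain ⟨m1, C1, hC1⟩ := h1
  exact ⟨m1.neg, C1, fun x => by simpa using hC1 x⟩

lemma comp {Ω' : Type*} [MeasurableSpace Ω'] {f : Ω' → Ω} (h : BM φ) (hf : Measurable f) :
    BM (fun x => φ (f x)) := by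
  obtain ⟨m1, C1, hC1⟩ := h
  exact ⟨m1.comp hf, C1, fun x => hC1 _⟩

lemma integrable (h : BM φ) (μ : Measure Ω) [IsFiniteMeasure μ] : Integrable φ μ := by
  obtain ⟨m1, C1, hC1⟩ := h
  exact Integrable.of_bound m1.aestronglyMeasurable C1 (Filter.Eventually.of_forall hC1)

lemma finset_prod {κ : Type*} (s : Finset κ) {f : κ → Ω → ℝ} (h : ∀ i ∈ s, BM (f i)) :
    BM (fun x => ∏ i ∈ s, f i x) := by
  classical
  induction s using Finset.induction_on with
  | empty => simpa using const 1
  | insert a s ha ih =>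
    simp only [Finset.prod_insert ha]
    exact (h a (Finset.mem_insert_self _ _)).mul
      (ih (fun i hi => h i (Finset.mem_insert_of_mem hi)))

lemma finset_sum {κ : Type*} (s : Finset κ) {f : κ → Ω → ℝ} (h : ∀ i ∈ s, BM (f i)) :
    BM (fun x => ∑ i ∈ s, f i x) := by
  classical
  induction s using Finset.induction_on with
  | empty => simpa using const 0
  | insert a s ha ih =>
    simp only [Finset.sum_insert ha]
    exact (h a (Finset.mem_insert_self _ _)).add
      (ih (fun i hi => h i (Finset.mem_insert_of_mem hi)))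

/-- Parametric integrals of bounded jointly measurable functions. -/
lemma integral_right {Ω' : Type*} [MeasurableSpace Ω'] (μ : Measure Ω') [IsFiniteMeasure μ]
    {f : Ω × Ω' → ℝ} (h : BM f) : BM (fun x => ∫ t, f (x, t) ∂μ) := by
  obtain ⟨m1, C1, hC1⟩ := h
  refine ⟨(m1.stronglyMeasurable.integral_prod_right').measurable, C1 * (μ Set.univ).toReal, fun x => ?_⟩
  have := norm_integral_le_of_norm_le_const (μ := μ) (f := fun t => f (x, t)) (C := C1)
    (Filter.Eventually.of_forall (fun t => by simpa using hC1 (x, t)))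
  simpa [Measure.real] using this

end BM

/-! ### Independent uniform coordinates, resampling one coordinate -/

/-- Independent uniform coordinates. -/
noncomputable def Lam (J : Type*) : Measure (J → I) :=
  Measure.infinitePi (fun _ : J => (volume : Measure I))

instance (J : Type*) : IsProbabilityMeasure (Lam J) := by
  unfold Lam; infer_instance

section resample

variable {J : Type*} [DecidableEq J]

lemma measurable_update_pair (a : J) :
    Measurable (fun p : (J → I) × I => Function.update p.1 a p.2) := by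
  rw [measurable_pi_iff]
  intro j
  by_cases h : j = a
  · subst h; simpa using measurable_snd
  · have : (fun p : (J → I) × I => Function.update p.1 a p.2 j) = fun p => p.1 j := by
      funext p; rw [Function.update_of_ne h]
    rw [this]; exact (measurable_pi_apply j).comp measurable_fst

lemma map_update_prod (a : J) :
    ((Lam J).prod (volume : Measure I)).map (fun p => Function.update p.1 a p.2) = Lam J := by
  classical
  refine Measure.eq_infinitePi _ fun s t ht => ?_
  rw [Measure.map_apply (measurable_update_pair a) (.pi s.countable_toSet fun _ _ => ht _)]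
  by_cases ha : a ∈ s
  · have hset : (fun p : (J → I) × I => Function.update p.1 a p.2) ⁻¹' (s : Set J).pi t =
        ((s.erase a : Finset J) : Set J).pi t ×ˢ t a := by
      ext ⟨y, r⟩
      simp only [mem_preimage, Set.mem_pi, Finset.mem_coe, Set.mem_prod, Finset.mem_erase]
      constructor
      · intro h
        refine ⟨fun i hi => ?_, ?_⟩
        · have := h i hi.2
          rwa [Function.update_of_ne hi.1] at this
        · have := h a ha
          rwa [Function.update_self] at this
      · rintro ⟨h1, h2⟩ i hi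
        by_cases hia : i = a
        · subst hia; simpa using h2
        · rw [Function.update_of_ne hia]; exact h1 i ⟨hia, hi⟩
    rw [hset, Measure.prod_prod]
    unfold Lam
    rw [Measure.infinitePi_pi _ (fun i _ => ht i)]
    rw [← Finset.prod_erase_mul s _ ha]
  · have hset : (fun p : (J → I) × I => Function.update p.1 a p.2) ⁻¹' (s : Set J).pi t =
        (s : Set J).pi t ×ˢ Set.univ := by
      ext ⟨y, r⟩
      simp only [mem_preimage, Set.mem_pi, Finset.mem_coe, Set.mem_prod, mem_univ, and_true]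
      constructor
      · intro h i hi
        have := h i hi
        have hia : i ≠ a := fun e => ha (e ▸ hi)
        rwa [Function.update_of_ne hia] at this
      · intro h i hi
        have hia : i ≠ a := fun e => ha (e ▸ hi)
        rw [Function.update_of_ne hia]; exact h i hi
    rw [hset, Measure.prod_prod, measure_univ, mul_one]
    unfold Lam
    rw [Measure.infinitePi_pi _ (fun i _ => ht i)]

/-- **Resampling**: integrating out one coordinate. -/
lemma integral_resample (a : J) {g : (J → I) → ℝ} (hg : BM g) :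
    ∫ y, (∫ r : I, g (Function.update y a r)) ∂Lam J = ∫ y, g y ∂Lam J := by
  have hm := measurable_update_pair a
  have h1 : ∫ y, g y ∂Lam J =
      ∫ p, g (Function.update p.1 a p.2) ∂((Lam J).prod (volume : Measure I)) := by
    conv_lhs => rw [← map_update_prod a]
    exact integral_map hm.aemeasurable hg.1.aestronglyMeasurable
  rw [h1, integral_prod]
  exact (hg.comp hm).integrable _

/-- Version with a product against another function. -/
lemma integral_resample_of_dep (a : J) {g k : (J → I) → ℝ} (hg : BM g) (hk : BM k)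
    (hdep : ∀ y r, g (Function.update y a r) = g y) :
    ∫ y, g y * k y ∂Lam J = ∫ y, g y * (∫ r : I, k (Function.update y a r)) ∂Lam J := by
  rw [← integral_resample a (hg.mul hk)]
  congr 1
  ext y
  rw [← integral_const_mul]
  congr 1
  ext r
  rw [hdep]

end resample

/-! ### Likelihoods -/

/-- The indicator of a Boolean as a real number. -/
def b2r (b : Bool) : ℝ := if b then 1 else 0

lemma b2r_nonneg (b : Bool) : 0 ≤ b2r b := by cases b <;> simp [b2r]
lemma b2r_le_one (b : Bool) : b2r b ≤ 1 := by cases b <;> simp [b2r]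

@[fun_prop] lemma measurable_b2r : Measurable b2r := measurable_of_countable _

/-- The channel density given the bit `b`. -/
noncomputable def fb (b : Bool) (y : I) : ℝ := dens ((2 * b2r b - 1) / 3) y

lemma fb_true (y : I) : fb true y = 1 + (1 / 3) * (2 * (y : ℝ) - 1) := by
  simp [fb, dens, b2r]; norm_num

lemma fb_false (y : I) : fb false y = 1 - (1 / 3) * (2 * (y : ℝ) - 1) := by
  simp [fb, dens, b2r]; ring

lemma fb_ge (b : Bool) (y : I) : 2 / 3 ≤ fb b y := by
  have h0 := y.2.1
  have h1 := y.2.2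
  cases b
  · rw [fb_false]; linarith
  · rw [fb_true]; linarith

lemma fb_le (b : Bool) (y : I) : fb b y ≤ 4 / 3 := by
  have h0 := y.2.1
  have h1 := y.2.2
  cases b
  · rw [fb_false]; linarith
  · rw [fb_true]; linarith

lemma fb_pos (b : Bool) (y : I) : 0 < fb b y := lt_of_lt_of_le (by norm_num) (fb_ge b y)

@[fun_prop] lemma measurable_fb (b : Bool) : Measurable (fb b) := by
  unfold fb dens
  fun_prop

lemma measurable_fb_pair : Measurable (fun p : Bool × I => fb p.1 p.2) := by
  refine measurable_from_prod_countable_right (fun b => measurable_fb b)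

lemma bm_fb (b : Bool) : BM (fb b) :=
  ⟨measurable_fb b, 4 / 3, fun y => by
    rw [abs_of_pos (fb_pos b y)]; exact fb_le b y⟩

lemma integral_fb (b : Bool) : ∫ y : I, fb b y = 1 := integral_dens_one

/-- Log likelihood ratio of an observation. -/
noncomputable def ell (y : I) : ℝ := Real.log (fb true y / fb false y)

@[fun_prop] lemma measurable_ell : Measurable ell := by
  unfold ell
  exact ((measurable_fb true).div (measurable_fb false)).log

lemma fb_eq_exp (b : Bool) (y : I) : fb b y = fb false y * Real.exp (b2r b * ell y) := by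
  cases b
  · simp [b2r]
  · simp only [b2r, if_true, one_mul, ell]
    rw [Real.exp_log (div_pos (fb_pos _ _) (fb_pos _ _))]
    field_simp [(fb_pos false y).ne']

lemma abs_log_sub_log_le {x x' c : ℝ} (hc : 0 < c) (hx : c ≤ x) (hx' : c ≤ x') :
    |Real.log x - Real.log x'| ≤ |x - x'| / c := by
  have hxp : 0 < x := lt_of_lt_of_le hc hx
  have hxp' : 0 < x' := lt_of_lt_of_le hc hx'
  have key : ∀ {u v : ℝ}, c ≤ u → c ≤ v → Real.log u - Real.log v ≤ |u - v| / c := by
    intro u v hu hv
    have hup : 0 < u := lt_of_lt_of_le hc hu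
    have hvp : 0 < v := lt_of_lt_of_le hc hv
    have h1 : Real.log u - Real.log v = Real.log (u / v) := (Real.log_div hup.ne' hvp.ne').symm
    have h2 := Real.log_le_sub_one_of_pos (div_pos hup hvp)
    rw [h1]
    refine h2.trans ?_
    have h3 : u / v - 1 = (u - v) / v := by field_simp
    rw [h3]
    rcases le_total 0 (u - v) with h | h
    · rw [abs_of_nonneg h]
      exact div_le_div_of_nonneg_left h hc hv
    · have h4 : (u - v) / v ≤ 0 := div_nonpos_of_nonpos_of_nonneg h hvp.le
      have h5 : 0 ≤ |u - v| / c := by positivity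
      linarith
  rw [abs_le]
  constructor
  · have := key hx' hx
    rw [abs_sub_comm] at this
    linarith
  · exact key hx hx'

lemma ell_lipschitz (y y' : I) : |ell y - ell y'| ≤ 2 * |(y : ℝ) - y'| := by
  unfold ell
  rw [Real.log_div (fb_pos _ _).ne' (fb_pos _ _).ne', Real.log_div (fb_pos _ _).ne' (fb_pos _ _).ne']
  have h1 := abs_log_sub_log_le (by norm_num : (0:ℝ) < 2 / 3) (fb_ge true y) (fb_ge true y')
  have h2 := abs_log_sub_log_le (by norm_num : (0:ℝ) < 2 / 3) (fb_ge false y) (fb_ge false y')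
  have e1 : |fb true y - fb true y'| = (2 / 3) * |(y : ℝ) - y'| := by
    rw [fb_true, fb_true]
    have : 1 + (1 / 3) * (2 * (y : ℝ) - 1) - (1 + (1 / 3) * (2 * (y' : ℝ) - 1)) =
        (2 / 3) * ((y : ℝ) - y') := by ring
    rw [this, abs_mul, abs_of_pos (by norm_num : (0:ℝ) < 2 / 3)]
  have e2 : |fb false y - fb false y'| = (2 / 3) * |(y : ℝ) - y'| := by
    rw [fb_false, fb_false]
    have : 1 - (1 / 3) * (2 * (y : ℝ) - 1) - (1 - (1 / 3) * (2 * (y' : ℝ) - 1)) =
        -((2 / 3) * ((y : ℝ) - y')) := by ring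
    rw [this, abs_neg, abs_mul, abs_of_pos (by norm_num : (0:ℝ) < 2 / 3)]
  rw [e1] at h1
  rw [e2] at h2
  have h3 : |(2 / 3) * |(y : ℝ) - y'| / (2 / 3)| = |(y : ℝ) - y'| := by
    rw [mul_div_cancel_left₀ _ (by norm_num : (2 / 3 : ℝ) ≠ 0), abs_abs]
  have e3 : (2 / 3) * |(y : ℝ) - y'| / (2 / 3) = |(y : ℝ) - y'| := by
    field_simp
  rw [e3] at h1 h2
  have : Real.log (fb true y) - Real.log (fb false y) - (Real.log (fb true y') - Real.log (fb false y')) =
      (Real.log (fb true y) - Real.log (fb true y')) - (Real.log (fb false y) - Real.log (fb false y')) := by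
    ring
  rw [this]
  calc _ ≤ |Real.log (fb true y) - Real.log (fb true y')| + |Real.log (fb false y) - Real.log (fb false y')| :=
        abs_sub _ _
    _ ≤ _ := by linarith

/-- The observation from the posterior mean `a`: the log-likelihood increments are `1/2`-Lipschitz in `a`. -/
lemma ell_T_lipschitz (a b : ℝ) (w : I) : |ell (T a w) - ell (T b w)| ≤ (1 / 2) * |a - b| := by
  have h1 := ell_lipschitz (T a w) (T b w)
  have h2 := T_sub_abs_le a b w
  linarith

lemma dens_mix {a : ℝ} (h0 : 0 ≤ a) (h1 : a ≤ 1) (y : I) :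
    a * fb true y + (1 - a) * fb false y = dens (sOf a) y := by
  rw [fb_true, fb_false]
  unfold dens sOf
  rw [clamp_of_mem h0 h1]
  ring

/-- Likelihood of the observations at stages `A` given the configuration. -/
noncomputable def obsW {ι : Type*} (ω : ι → Bool) (A : Finset (ι × ℕ)) (y : ι × ℕ → I) : ℝ :=
  ∏ c ∈ A, fb (ω c.1) (y c)

section planted

variable {ι : Type*}

lemma obsW_pos (ω : ι → Bool) (A : Finset (ι × ℕ)) (y : ι × ℕ → I) : 0 < obsW ω A y :=
  Finset.prod_pos fun c _ => fb_pos _ _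

lemma obsW_le (ω : ι → Bool) (A : Finset (ι × ℕ)) (y : ι × ℕ → I) :
    obsW ω A y ≤ (4 / 3 : ℝ) ^ A.card := by
  calc obsW ω A y ≤ ∏ _c ∈ A, (4 / 3 : ℝ) :=
        Finset.prod_le_prod (fun c _ => (fb_pos _ _).le) (fun c _ => fb_le _ _)
    _ = _ := by rw [Finset.prod_const]

lemma obsW_ge (ω : ι → Bool) (A : Finset (ι × ℕ)) (y : ι × ℕ → I) :
    (2 / 3 : ℝ) ^ A.card ≤ obsW ω A y := by
  calc (2 / 3 : ℝ) ^ A.card = ∏ _c ∈ A, (2 / 3 : ℝ) := by rw [Finset.prod_const]
    _ ≤ obsW ω A y := Finset.prod_le_prod (fun c _ => by norm_num) (fun c _ => fb_ge _ _)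

lemma measurable_obsW (A : Finset (ι × ℕ)) :
    Measurable (fun p : (ι → Bool) × (ι × ℕ → I) => obsW p.1 A p.2) := by
  unfold obsW
  refine Finset.measurable_prod _ fun c _ => ?_
  have h1 : Measurable (fun p : (ι → Bool) × (ι × ℕ → I) => (p.1 c.1, p.2 c)) :=
    ((measurable_pi_apply c.1).comp measurable_fst).prodMk ((measurable_pi_apply c).comp measurable_snd)
  exact measurable_fb_pair.comp h1

lemma bm_obsW (A : Finset (ι × ℕ)) :
    BM (fun p : (ι → Bool) × (ι × ℕ → I) => obsW p.1 A p.2) :=
  ⟨measurable_obsW A, (4 / 3 : ℝ) ^ A.card, fun p => by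
    rw [abs_of_pos (obsW_pos _ _ _)]; exact obsW_le _ _ _⟩

/-- `M ν A G y` is the integral of `G ω * obsW ω A y` against `ν`. -/
noncomputable def M (ν : Measure (ι → Bool)) (A : Finset (ι × ℕ)) (G : (ι → Bool) → ℝ)
    (y : ι × ℕ → I) : ℝ := ∫ ω, G ω * obsW ω A y ∂ν

variable (ν : Measure (ι → Bool)) [IsProbabilityMeasure ν]

lemma bm_M (A : Finset (ι × ℕ)) {G : (ι → Bool) → ℝ} (hG : BM G) : BM (M ν A G) := by
  have h1 : BM (fun p : (ι × ℕ → I) × (ι → Bool) => G p.2) := hG.comp measurable_snd
  have h2 : BM (fun p : (ι × ℕ → I) × (ι → Bool) => obsW p.2 A p.1) :=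
    (bm_obsW A).comp (f := fun p : (ι × ℕ → I) × (ι → Bool) => (p.2, p.1))
      (measurable_snd.prodMk measurable_fst)
  exact (h1.mul h2).integral_right ν

lemma M_congr (A : Finset (ι × ℕ)) (G : (ι → Bool) → ℝ) {y y' : ι × ℕ → I}
    (h : ∀ c ∈ A, y c = y' c) : M ν A G y = M ν A G y' := by
  unfold M obsW
  congr 1
  ext ω
  congr 1
  exact Finset.prod_congr rfl fun c hc => by rw [h c hc]

lemma bm_one : BM (fun _ : ι → Bool => (1:ℝ)) := BM.const 1

lemma bm_occ (v : ι) : BM (fun ω : ι → Bool => b2r (ω v)) :=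
  ⟨measurable_b2r.comp (measurable_pi_apply v), 1, fun ω => by
    rw [abs_of_nonneg (b2r_nonneg _)]; exact b2r_le_one _⟩

/-- `Z`: the marginal density of the observations at the stages in `A`. -/
noncomputable def Zd (A : Finset (ι × ℕ)) (y : ι × ℕ → I) : ℝ := M ν A (fun _ => 1) y

/-- `N`: mass with `v` occupied. -/
noncomputable def Nd (A : Finset (ι × ℕ)) (v : ι) (y : ι × ℕ → I) : ℝ :=
  M ν A (fun ω => b2r (ω v)) y

/-- The posterior mean of the bit at `v` given the observations at `A`. -/
noncomputable def post (A : Finset (ι × ℕ)) (v : ι) (y : ι × ℕ → I) : ℝ :=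
  Nd ν A v y / Zd ν A y

lemma Zd_pos (A : Finset (ι × ℕ)) (y : ι × ℕ → I) : 0 < Zd ν A y := by
  unfold Zd M
  simp only [one_mul]
  have : (2 / 3 : ℝ) ^ A.card ≤ ∫ ω, obsW ω A y ∂ν := by
    have h := integral_mono (μ := ν) (f := fun _ => (2 / 3 : ℝ) ^ A.card)
      (g := fun ω => obsW ω A y) (integrable_const _)
      (((bm_obsW A).comp (measurable_id.prodMk measurable_const)).integrable ν)
      (fun ω => obsW_ge ω A y)
    simpa using h
  exact lt_of_lt_of_le (by positivity) this

lemma Nd_nonneg (A : Finset (ι × ℕ)) (v : ι) (y : ι × ℕ → I) : 0 ≤ Nd ν A v y := by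
  unfold Nd M
  exact integral_nonneg fun ω => mul_nonneg (b2r_nonneg _) (obsW_pos _ _ _).le

lemma Nd_le_Zd (A : Finset (ι × ℕ)) (v : ι) (y : ι × ℕ → I) : Nd ν A v y ≤ Zd ν A y := by
  unfold Nd Zd M
  apply integral_mono
  · exact ((bm_occ v).comp measurable_id |>.mul
      ((bm_obsW A).comp (measurable_id.prodMk measurable_const))).integrable ν
  · exact ((BM.const 1).mul ((bm_obsW A).comp (measurable_id.prodMk measurable_const))).integrable ν
  · intro ω
    exact mul_le_mul_of_nonneg_right (b2r_le_one _) (obsW_pos _ _ _).le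

lemma post_nonneg (A : Finset (ι × ℕ)) (v : ι) (y : ι × ℕ → I) : 0 ≤ post ν A v y :=
  div_nonneg (Nd_nonneg ν A v y) (Zd_pos ν A y).le

lemma post_le_one (A : Finset (ι × ℕ)) (v : ι) (y : ι × ℕ → I) : post ν A v y ≤ 1 :=
  (div_le_one (Zd_pos ν A y)).mpr (Nd_le_Zd ν A v y)

lemma post_mul_Zd (A : Finset (ι × ℕ)) (v : ι) (y : ι × ℕ → I) :
    post ν A v y * Zd ν A y = Nd ν A v y :=
  div_mul_cancel₀ _ (Zd_pos ν A y).ne'

lemma measurable_post (A : Finset (ι × ℕ)) (v : ι) : Measurable (post ν A v) :=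
  (bm_M ν A (bm_occ v)).1.div (bm_M ν A bm_one).1

lemma bm_Zd (A : Finset (ι × ℕ)) : BM (Zd ν A) := bm_M ν A bm_one

lemma bm_post (A : Finset (ι × ℕ)) (v : ι) : BM (post ν A v) :=
  ⟨measurable_post ν A v, 1, fun y => by
    rw [abs_of_nonneg (post_nonneg ν A v y)]; exact post_le_one ν A v y⟩

variable [DecidableEq ι]

/-- Splitting off a new stage. -/
lemma M_insert_update (A : Finset (ι × ℕ)) (a : ι × ℕ) (ha : a ∉ A) {G : (ι → Bool) → ℝ} (hG : BM G)
    (y : ι × ℕ → I) (t : I) :
    M ν (insert a A) G (Function.update y a t) =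
      fb true t * M ν A (fun ω => G ω * b2r (ω a.1)) y +
        fb false t * M ν A (fun ω => G ω * (1 - b2r (ω a.1))) y := by
  unfold M
  have hint : ∀ {H : (ι → Bool) → ℝ}, BM H → Integrable (fun ω => H ω * obsW ω A y) ν := fun hH =>
    (hH.mul ((bm_obsW A).comp (measurable_id.prodMk measurable_const))).integrable ν
  rw [← integral_const_mul, ← integral_const_mul, ← integral_add]
  · congr 1
    ext ω
    have h1 : obsW ω (insert a A) (Function.update y a t) = fb (ω a.1) t * obsW ω A y := by
      unfold obsW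
      rw [Finset.prod_insert ha]
      congr 1
      · simp
      · refine Finset.prod_congr rfl fun c hc => ?_
        have hca : c ≠ a := fun e => ha (e ▸ hc)
        rw [Function.update_of_ne hca]
    rw [h1]
    cases h : ω a.1
    · simp [b2r, h]; ring
    · simp [b2r, h]; ring
  · exact (hint (hG.mul (bm_occ a.1))).const_mul _
  · have : BM (fun ω : ι → Bool => G ω * (1 - b2r (ω a.1))) := hG.mul ((BM.const 1).sub (bm_occ a.1))
    exact (hint this).const_mul _

lemma M_split (A : Finset (ι × ℕ)) (a : ι) {G : (ι → Bool) → ℝ} (hG : BM G) (y : ι × ℕ → I) :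
    M ν A (fun ω => G ω * b2r (ω a)) y + M ν A (fun ω => G ω * (1 - b2r (ω a))) y = M ν A G y := by
  unfold M
  have hint : ∀ {H : (ι → Bool) → ℝ}, BM H → Integrable (fun ω => H ω * obsW ω A y) ν := fun hH =>
    (hH.mul ((bm_obsW A).comp (measurable_id.prodMk measurable_const))).integrable ν
  rw [← integral_add (hint (hG.mul (bm_occ a))) (hint (hG.mul ((BM.const 1).sub (bm_occ a))))]
  congr 1
  ext ω
  ring

/-- Integrating out a new stage. -/
lemma integral_M_insert_update (A : Finset (ι × ℕ)) (a : ι × ℕ) (ha : a ∉ A) {G : (ι → Bool) → ℝ}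
    (hG : BM G) (y : ι × ℕ → I) :
    ∫ t : I, M ν (insert a A) G (Function.update y a t) = M ν A G y := by
  simp_rw [M_insert_update ν A a ha hG y]
  rw [integral_add, integral_mul_const, integral_mul_const, integral_fb, integral_fb, one_mul,
    one_mul, M_split ν A a.1 hG y]
  · exact ((bm_fb true).integrable _).mul_const _
  · exact ((bm_fb false).integrable _).mul_const _

/-- The density of the new observation given the past. -/
lemma Zd_insert_update (A : Finset (ι × ℕ)) (a : ι × ℕ) (ha : a ∉ A) (y : ι × ℕ → I) (t : I) :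
    Zd ν (insert a A) (Function.update y a t) = dens (sOf (post ν A a.1 y)) t * Zd ν A y := by
  unfold Zd
  rw [M_insert_update ν A a ha bm_one y t]
  have h1 : M ν A (fun ω => 1 * b2r (ω a.1)) y = post ν A a.1 y * Zd ν A y := by
    rw [post_mul_Zd]; unfold Nd; simp
  have h2 : M ν A (fun ω => 1 * (1 - b2r (ω a.1))) y = (1 - post ν A a.1 y) * Zd ν A y := by
    have := M_split ν A a.1 bm_one y
    rw [h1] at this
    unfold Zd
    unfold Zd at this
    linarith
  rw [h1, h2]
  have := dens_mix (post_nonneg ν A a.1 y) (post_le_one ν A a.1 y) t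
  unfold Zd
  rw [← this]
  ring

/-! ### Consistency and the Pythagoras identity -/

/-- `ψ` depends only on the coordinates in `A`. -/
def Dep {J : Type*} (ψ : (J → I) → ℝ) (A : Finset J) : Prop :=
  ∀ y y' : J → I, (∀ c ∈ A, y c = y' c) → ψ y = ψ y'

lemma Dep.mono {J : Type*} {ψ : (J → I) → ℝ} {A B : Finset J} (h : Dep ψ A) (hAB : A ⊆ B) : Dep ψ B :=
  fun y y' hy => h y y' (fun c hc => hy c (hAB hc))

lemma Dep.update {J : Type*} [DecidableEq J] {ψ : (J → I) → ℝ} {A : Finset J} (h : Dep ψ A) {a : J}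
    (ha : a ∉ A) (y : J → I) (t : I) : ψ (Function.update y a t) = ψ y :=
  h _ _ (fun c hc => Function.update_of_ne (fun (e : c = a) => ha (e ▸ hc)) _ _)

lemma integral_mul_M_insert (A : Finset (ι × ℕ)) (a : ι × ℕ) (ha : a ∉ A) {G : (ι → Bool) → ℝ}
    (hG : BM G) {ψ : (ι × ℕ → I) → ℝ} (hψ : BM ψ) (hdep : Dep ψ A) :
    ∫ y, ψ y * M ν (insert a A) G y ∂Lam (ι × ℕ) = ∫ y, ψ y * M ν A G y ∂Lam (ι × ℕ) := by
  rw [integral_resample_of_dep a hψ (bm_M ν _ hG) (fun y r => hdep.update ha y r)]
  congr 1
  ext y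
  rw [integral_M_insert_update ν A a ha hG y]

/-- Consistency of the planted integrals. -/
lemma integral_mul_M_mono {A B : Finset (ι × ℕ)} (hAB : A ⊆ B) {G : (ι → Bool) → ℝ}
    (hG : BM G) {ψ : (ι × ℕ → I) → ℝ} (hψ : BM ψ) (hdep : Dep ψ A) :
    ∫ y, ψ y * M ν B G y ∂Lam (ι × ℕ) = ∫ y, ψ y * M ν A G y ∂Lam (ι × ℕ) := by
  classical
  have key : ∀ C : Finset (ι × ℕ), Disjoint A C →
      ∫ y, ψ y * M ν (A ∪ C) G y ∂Lam (ι × ℕ) = ∫ y, ψ y * M ν A G y ∂Lam (ι × ℕ) := by
    intro C
    induction C using Finset.induction_on with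
    | empty => simp
    | insert a C ha ih =>
      intro hd
      rw [Finset.disjoint_insert_right] at hd
      rw [Finset.union_insert, integral_mul_M_insert ν (A ∪ C) a
        (by simp [hd.1, ha]) hG hψ (hdep.mono Finset.subset_union_left)]
      exact ih hd.2
  have := key (B \ A) Finset.disjoint_sdiff
  rwa [Finset.union_sdiff_of_subset hAB] at this

/-- The energy of the posterior. -/
noncomputable def energy (A : Finset (ι × ℕ)) (v : ι) : ℝ :=
  ∫ y, post ν A v y ^ 2 * Zd ν A y ∂Lam (ι × ℕ)

lemma post_dep (A : Finset (ι × ℕ)) (v : ι) : Dep (post ν A v) A := by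
  intro y y' h
  unfold post Nd Zd
  rw [M_congr ν A _ h, M_congr ν A _ h]

/-- **Pythagoras**: the L² distance of posteriors is the difference of energies. -/
lemma pythagoras {A B : Finset (ι × ℕ)} (hAB : A ⊆ B) (v : ι) :
    ∫ y, (post ν B v y - post ν A v y) ^ 2 * Zd ν B y ∂Lam (ι × ℕ) =
      energy ν B v - energy ν A v := by
  have hZ : ∀ C : Finset (ι × ℕ), BM (Zd ν C) := fun C => bm_Zd ν C
  have hN : ∀ C : Finset (ι × ℕ), BM (Nd ν C v) := fun C => bm_M ν C (bm_occ v)
  have hp : ∀ C : Finset (ι × ℕ), BM (post ν C v) := fun C => bm_post ν C v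
  -- cross term
  have h1 : ∫ y, post ν A v y * post ν B v y * Zd ν B y ∂Lam (ι × ℕ) = energy ν A v := by
    have e1 : ∀ y, post ν A v y * post ν B v y * Zd ν B y = post ν A v y * M ν B (fun ω => b2r (ω v)) y := by
      intro y
      rw [mul_assoc, post_mul_Zd]; rfl
    simp_rw [e1]
    rw [integral_mul_M_mono ν hAB (bm_occ v) (hp A) (post_dep ν A v)]
    unfold energy
    congr 1
    ext y
    have := post_mul_Zd ν A v y
    unfold Nd at this
    rw [← this]; ring
  have h2 : ∫ y, post ν A v y ^ 2 * Zd ν B y ∂Lam (ι × ℕ) = energy ν A v := by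
    have hdep : Dep (fun y => post ν A v y ^ 2) A := by
      intro y y' h
      simp only [post_dep ν A v y y' h]
    have := integral_mul_M_mono ν hAB bm_one (ψ := fun y => post ν A v y ^ 2)
      (by simpa [pow_two] using (hp A).mul (hp A)) hdep
    exact this
  have e : ∀ y, (post ν B v y - post ν A v y) ^ 2 * Zd ν B y =
      post ν B v y ^ 2 * Zd ν B y - 2 * (post ν A v y * post ν B v y * Zd ν B y) +
        post ν A v y ^ 2 * Zd ν B y := by
    intro y; ring
  simp_rw [e]
  have i1 : Integrable (fun y => post ν B v y ^ 2 * Zd ν B y) (Lam (ι × ℕ)) := by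
    have : BM (fun y => post ν B v y ^ 2 * Zd ν B y) := by
      simpa [pow_two] using ((hp B).mul (hp B)).mul (hZ B)
    exact this.integrable _
  have i2 : Integrable (fun y => 2 * (post ν A v y * post ν B v y * Zd ν B y)) (Lam (ι × ℕ)) := by
    have : BM (fun y => 2 * (post ν A v y * post ν B v y * Zd ν B y)) :=
      (BM.const 2).mul (((hp A).mul (hp B)).mul (hZ B))
    exact this.integrable _
  have i3 : Integrable (fun y => post ν A v y ^ 2 * Zd ν B y) (Lam (ι × ℕ)) := by
    have : BM (fun y => post ν A v y ^ 2 * Zd ν B y) := by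
      simpa [pow_two] using ((hp A).mul (hp A)).mul (hZ B)
    exact this.integrable _
  have i12 : Integrable (fun y => post ν B v y ^ 2 * Zd ν B y -
      2 * (post ν A v y * post ν B v y * Zd ν B y)) (Lam (ι × ℕ)) := i1.sub i2
  rw [integral_add i12 i3, integral_sub i1 i2, integral_const_mul, h1, h2]
  unfold energy
  ring

lemma energy_mono {A B : Finset (ι × ℕ)} (hAB : A ⊆ B) (v : ι) : energy ν A v ≤ energy ν B v := by
  have := pythagoras ν hAB v
  have h0 : 0 ≤ ∫ y, (post ν B v y - post ν A v y) ^ 2 * Zd ν B y ∂Lam (ι × ℕ) :=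
    integral_nonneg fun y => mul_nonneg (sq_nonneg _) (Zd_pos ν B y).le
  linarith

lemma integral_Zd (A : Finset (ι × ℕ)) : ∫ y, Zd ν A y ∂Lam (ι × ℕ) = 1 := by
  have := integral_mul_M_mono ν (Finset.empty_subset A) bm_one (ψ := fun _ => 1) (BM.const 1)
    (fun _ _ _ => rfl)
  simp only [one_mul] at this
  unfold Zd
  rw [this]
  simp [M, obsW]

lemma energy_nonneg (A : Finset (ι × ℕ)) (v : ι) : 0 ≤ energy ν A v :=
  integral_nonneg fun y => mul_nonneg (sq_nonneg _) (Zd_pos ν A y).le

lemma energy_le_one (A : Finset (ι × ℕ)) (v : ι) : energy ν A v ≤ 1 := by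
  unfold energy
  calc ∫ y, post ν A v y ^ 2 * Zd ν A y ∂Lam (ι × ℕ) ≤ ∫ y, Zd ν A y ∂Lam (ι × ℕ) := by
        apply integral_mono
        · have : BM (fun y => post ν A v y ^ 2 * Zd ν A y) := by
            simpa [pow_two] using ((bm_post ν A v).mul (bm_post ν A v)).mul (bm_Zd ν A)
          exact this.integrable _
        · exact (bm_Zd ν A).integrable _
        · intro y
          have h1 := post_nonneg ν A v y
          have h2 := post_le_one ν A v y
          have h3 := Zd_pos ν A y
          simp only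
          have : post ν A v y ^ 2 ≤ 1 := by nlinarith
          nlinarith
    _ = 1 := integral_Zd ν A

end planted

end Crest.Agent.Lib.FiidPlanted
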