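import Crest.Agent.Lib.FiidKirchhoff

/-!
Rayleigh monotonicity for the probability that the uniform spanning tree of a finite connected piece
contains a given edge set: the probability can only grow when the piece shrinks.
-/

set_option autoImplicit false

namespace Crest.Agent.Lib.FiidRayleighMono

open Finset Filter Topology
open Crest.ProbabilityR.SpanningTrees Crest.Agent.Lib.FiidStablePoly Crest.Agent.Lib.FiidKirchhoff

variable {V : Type*} [DecidableEq V]

/-- Weighted count of spanning trees containing `I` and avoiding `O`. -/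
noncomputable def cnt (G : SimpleGraph V) (S : Finset V) (I O : Finset (Sym2 V)) : ℝ :=
  ∑ A ∈ (edgesIn G S).powerset with I ⊆ A ∧ Disjoint A O, treeCoeff G S A

theorem treeCoeff_nonneg (G : SimpleGraph V) (S : Finset V) (A : Finset (Sym2 V)) :
    0 ≤ treeCoeff G S A := by
  unfold treeCoeff
  split_ifs <;> norm_num

theorem cnt_nonneg (G : SimpleGraph V) (S : Finset V) (I O : Finset (Sym2 V)) :
    0 ≤ cnt G S I O :=
  Finset.sum_nonneg (fun A _ => treeCoeff_nonneg G S A)

/-- Splitting according to a further edge. -/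
theorem cnt_split (G : SimpleGraph V) (S : Finset V) (I O : Finset (Sym2 V)) (f : Sym2 V) :
    cnt G S I O = cnt G S I (insert f O) + cnt G S (insert f I) O := by
  unfold cnt
  rw [← Finset.sum_filter_add_sum_filter_not
    (((edgesIn G S).powerset).filter (fun A => I ⊆ A ∧ Disjoint A O)) (fun A => f ∉ A)]
  rw [Finset.filter_filter, Finset.filter_filter]
  congr 1
  · refine Finset.sum_congr ?_ (fun _ _ => rfl)
    ext A
    simp only [mem_filter, Finset.disjoint_insert_right]
    tauto
  · refine Finset.sum_congr ?_ (fun _ _ => rfl)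
    ext A
    simp only [mem_filter, Finset.insert_subset_iff]
    tauto

theorem cnt_insert_le (G : SimpleGraph V) (S : Finset V) (I O : Finset (Sym2 V)) (f : Sym2 V) :
    cnt G S (insert f I) O ≤ cnt G S I O := by
  rw [cnt_split G S I O f]
  linarith [cnt_nonneg G S I (insert f O)]

section Limit

variable (I O : Finset (Sym2 V))

/-- The test point. -/
noncomputable def pt (lam : ℝ) (a : Sym2 V) : ℝ :=
  if a ∈ I then lam else if a ∈ O then lam⁻¹ else 1

theorem prod_pt (hIO : Disjoint I O) (lam : ℝ) (A : Finset (Sym2 V)) :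
    ∏ a ∈ A, pt I O lam a = lam ^ (A ∩ I).card * lam⁻¹ ^ (A ∩ O).card := by
  unfold pt
  rw [Finset.prod_ite, Finset.prod_ite]
  simp only [Finset.prod_const, one_pow, mul_one]
  have h1 : A.filter (· ∈ I) = A ∩ I := by
    ext a; simp
  have h2 : (A.filter (· ∉ I)).filter (· ∈ O) = A ∩ O := by
    ext a
    simp only [mem_filter, mem_inter]
    constructor
    · rintro ⟨⟨h1, -⟩, h3⟩; exact ⟨h1, h3⟩
    · rintro ⟨h1, h3⟩
      exact ⟨⟨h1, fun h => (Finset.disjoint_left.1 hIO h) h3⟩, h3⟩
  rw [h1, h2]

/-- Limit of a normalised monomial. -/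
theorem tendsto_monomial (hIO : Disjoint I O) (A : Finset (Sym2 V)) :
    Tendsto (fun lam : ℝ => (∏ a ∈ A, pt I O lam a) / lam ^ I.card) atTop
      (𝓝 (if I ⊆ A ∧ Disjoint A O then 1 else 0)) := by
  have hle : (A ∩ I).card ≤ I.card := Finset.card_le_card Finset.inter_subset_right
  set m := (I.card - (A ∩ I).card) + (A ∩ O).card with hm
  have heq : ∀ᶠ lam : ℝ in atTop, lam⁻¹ ^ m = (∏ a ∈ A, pt I O lam a) / lam ^ I.card := by
    filter_upwards [eventually_gt_atTop (0 : ℝ)] with lam hlam
    rw [prod_pt I O hIO, hm, pow_add]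
    have hI : I.card = (I.card - (A ∩ I).card) + (A ∩ I).card := by omega
    conv_rhs => rw [hI, pow_add]
    have h1 : lam ≠ 0 := hlam.ne'
    simp only [inv_pow]
    field_simp
  have hlim : Tendsto (fun lam : ℝ => lam⁻¹ ^ m) atTop (𝓝 ((0 : ℝ) ^ m)) :=
    tendsto_inv_atTop_zero.pow m
  have hval : (0 : ℝ) ^ m = if I ⊆ A ∧ Disjoint A O then 1 else 0 := by
    by_cases h : I ⊆ A ∧ Disjoint A O
    · rw [if_pos h]
      have h1 : A ∩ I = I := Finset.inter_eq_right.2 h.1
      have h2 : A ∩ O = ∅ := Finset.disjoint_iff_inter_eq_empty.1 h.2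
      have : m = 0 := by
        rw [hm, h1, h2]
        simp
      rw [this, pow_zero]
    · rw [if_neg h]
      have : m ≠ 0 := by
        intro h0
        apply h
        have h1 : (A ∩ O).card = 0 := by omega
        have h2 : (A ∩ I).card = I.card := by omega
        refine ⟨?_, Finset.disjoint_iff_inter_eq_empty.2 (Finset.card_eq_zero.1 h1)⟩
        have h3 : A ∩ I = I := Finset.eq_of_subset_of_card_le Finset.inter_subset_right h2.ge
        exact Finset.inter_eq_right.1 h3
      exact zero_pow this
  rw [← hval]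
  exact hlim.congr' heq

/-- Limit of a normalised sum over a pattern. -/
theorem tendsto_pattern (hIO : Disjoint I O) (E : Finset (Sym2 V)) (c : Finset (Sym2 V) → ℝ)
    (p : Finset (Sym2 V) → Prop) [DecidablePred p] :
    Tendsto (fun lam : ℝ =>
        (∑ A ∈ E.powerset with p A, c A * ∏ a ∈ A, pt I O lam a) / lam ^ I.card) atTop
      (𝓝 (∑ A ∈ E.powerset with p A ∧ I ⊆ A ∧ Disjoint A O, c A)) := by
  classical
  have h1 : ∀ lam : ℝ, (∑ A ∈ E.powerset with p A, c A * ∏ a ∈ A, pt I O lam a) / lam ^ I.card =
      ∑ A ∈ E.powerset with p A, c A * ((∏ a ∈ A, pt I O lam a) / lam ^ I.card) := by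
    intro lam
    rw [Finset.sum_div]
    refine Finset.sum_congr rfl (fun A _ => ?_)
    ring
  simp_rw [h1]
  have h2 : ∑ A ∈ E.powerset with p A ∧ I ⊆ A ∧ Disjoint A O, c A =
      ∑ A ∈ E.powerset with p A, c A * (if I ⊆ A ∧ Disjoint A O then 1 else 0) := by
    rw [← Finset.filter_filter, Finset.sum_filter _ (fun A => c A)]
    refine Finset.sum_congr rfl (fun A _ => ?_)
    split_ifs <;> simp
  rw [h2]
  exact tendsto_finsetSum _ (fun A _ => (tendsto_monomial I O hIO A).const_mul _)

end Limit

/-- The limiting Rayleigh inequality for counts. -/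
theorem cnt_rayleigh (G : SimpleGraph V) (S : Finset V) (hconn : (G.induce (S : Set V)).Connected)
    (I O : Finset (Sym2 V)) (hIO : Disjoint I O) (e f : Sym2 V)
    (he : e ∈ edgesIn G S) (hf : f ∈ edgesIn G S) (hef : e ≠ f) :
    cnt G S I (insert e (insert f O)) * cnt G S (insert e (insert f I)) O ≤
      cnt G S (insert e I) (insert f O) * cnt G S (insert f I) (insert e O) := by
  classical
  have hc0 : ∀ A ∈ (edgesIn G S).powerset, 0 ≤ treeCoeff G S A :=
    fun A _ => treeCoeff_nonneg G S A
  have hst : ∀ z : Sym2 V → ℂ, (∀ e ∈ edgesIn G S, 0 < (z e).im) →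
      mvPoly (edgesIn G S) (treeCoeff G S) z ≠ 0 :=
    fun z hz => tree_stable G S hconn z hz
  have hray : ∀ᶠ lam : ℝ in atTop,
      ((∑ A ∈ (edgesIn G S).powerset with e ∉ A ∧ f ∉ A,
          treeCoeff G S A * ∏ a ∈ A, pt I O lam a) / lam ^ I.card) *
        ((∑ A ∈ (edgesIn G S).powerset with e ∈ A ∧ f ∈ A,
          treeCoeff G S A * ∏ a ∈ A, pt I O lam a) / lam ^ I.card) ≤
      ((∑ A ∈ (edgesIn G S).powerset with e ∈ A ∧ f ∉ A,
          treeCoeff G S A * ∏ a ∈ A, pt I O lam a) / lam ^ I.card) *
        ((∑ A ∈ (edgesIn G S).powerset with e ∉ A ∧ f ∈ A,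
          treeCoeff G S A * ∏ a ∈ A, pt I O lam a) / lam ^ I.card) := by
    filter_upwards [eventually_gt_atTop (0 : ℝ)] with lam hlam
    have hpos : ∀ a ∈ edgesIn G S, 0 < pt I O lam a := by
      intro a _
      unfold pt
      split_ifs
      · exact hlam
      · exact inv_pos.2 hlam
      · exact one_pos
    have h := rayleigh (edgesIn G S) (treeCoeff G S) hc0 hst e f he hf hef (pt I O lam) hpos
    have hd : 0 < lam ^ I.card * lam ^ I.card := mul_pos (pow_pos hlam _) (pow_pos hlam _)
    rw [div_mul_div_comm, div_mul_div_comm]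
    exact div_le_div_of_nonneg_right h hd.le
  have h00 := tendsto_pattern I O hIO (edgesIn G S) (treeCoeff G S) (fun A => e ∉ A ∧ f ∉ A)
  have h11 := tendsto_pattern I O hIO (edgesIn G S) (treeCoeff G S) (fun A => e ∈ A ∧ f ∈ A)
  have h10 := tendsto_pattern I O hIO (edgesIn G S) (treeCoeff G S) (fun A => e ∈ A ∧ f ∉ A)
  have h01 := tendsto_pattern I O hIO (edgesIn G S) (treeCoeff G S) (fun A => e ∉ A ∧ f ∈ A)
  have hfin := le_of_tendsto_of_tendsto (h00.mul h11) (h10.mul h01) hray
  have e1 : cnt G S I (insert e (insert f O)) =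
      ∑ A ∈ (edgesIn G S).powerset with (e ∉ A ∧ f ∉ A) ∧ I ⊆ A ∧ Disjoint A O,
        treeCoeff G S A := by
    unfold cnt
    refine Finset.sum_congr ?_ (fun _ _ => rfl)
    ext A
    simp only [mem_filter, Finset.disjoint_insert_right]
    tauto
  have e2 : cnt G S (insert e (insert f I)) O =
      ∑ A ∈ (edgesIn G S).powerset with (e ∈ A ∧ f ∈ A) ∧ I ⊆ A ∧ Disjoint A O,
        treeCoeff G S A := by
    unfold cnt
    refine Finset.sum_congr ?_ (fun _ _ => rfl)
    ext A
    simp only [mem_filter, Finset.insert_subset_iff]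
    tauto
  have e3 : cnt G S (insert e I) (insert f O) =
      ∑ A ∈ (edgesIn G S).powerset with (e ∈ A ∧ f ∉ A) ∧ I ⊆ A ∧ Disjoint A O,
        treeCoeff G S A := by
    unfold cnt
    refine Finset.sum_congr ?_ (fun _ _ => rfl)
    ext A
    simp only [mem_filter, Finset.insert_subset_iff, Finset.disjoint_insert_right]
    tauto
  have e4 : cnt G S (insert f I) (insert e O) =
      ∑ A ∈ (edgesIn G S).powerset with (e ∉ A ∧ f ∈ A) ∧ I ⊆ A ∧ Disjoint A O,
        treeCoeff G S A := by
    unfold cnt
    refine Finset.sum_congr ?_ (fun _ _ => rfl)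
    ext A
    simp only [mem_filter, Finset.insert_subset_iff, Finset.disjoint_insert_right]
    tauto
  rw [e1, e2, e3, e4]
  exact hfin

/-- Conditional negative correlation in the form of the cross product of ratios. -/
theorem cnt_step (G : SimpleGraph V) (S : Finset V) (hconn : (G.induce (S : Set V)).Connected)
    (I O : Finset (Sym2 V)) (hIO : Disjoint I O) (e f : Sym2 V)
    (he : e ∈ edgesIn G S) (hf : f ∈ edgesIn G S) (hef : e ≠ f) :
    cnt G S (insert e I) O * cnt G S I (insert f O) ≤
      cnt G S (insert e I) (insert f O) * cnt G S I O := by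
  have hstar := cnt_rayleigh G S hconn I O hIO e f he hf hef
  have h1 := cnt_split G S I O f
  have h2 := cnt_split G S I (insert f O) e
  have h3 := cnt_split G S (insert f I) O e
  have h4 := cnt_split G S (insert e I) O f
  rw [Finset.insert_comm f e I] at h4
  rw [h4, h1, h2, h3]
  nlinarith [hstar]

/-- Conditioning on avoiding a further edge does not decrease the probability of containing `F`. -/
theorem cnt_F_chain (G : SimpleGraph V) (S : Finset V) (hconn : (G.induce (S : Set V)).Connected)
    (O : Finset (Sym2 V)) (f : Sym2 V) (hf : f ∈ edgesIn G S) (F : Finset (Sym2 V))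
    (hFE : F ⊆ edgesIn G S) (hFO : Disjoint F O) (hfF : f ∉ F) :
    cnt G S F O * cnt G S ∅ (insert f O) ≤ cnt G S F (insert f O) * cnt G S ∅ O := by
  induction F using Finset.induction_on with
  | empty => exact le_of_eq (mul_comm _ _)
  | insert e I heI ih =>
    have hFE' : I ⊆ edgesIn G S := fun x hx => hFE (Finset.mem_insert_of_mem hx)
    have he : e ∈ edgesIn G S := hFE (Finset.mem_insert_self _ _)
    have hIO : Disjoint I O := Finset.disjoint_of_subset_left (Finset.subset_insert _ _) hFO
    have hfI : f ∉ I := fun h => hfF (Finset.mem_insert_of_mem h)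
    have hef : e ≠ f := fun h => hfF (h ▸ Finset.mem_insert_self _ _)
    have ih' := ih hFE' hIO hfI
    have hstep := cnt_step G S hconn I O hIO e f he hf hef
    have hn1 := cnt_nonneg G S I O
    have hn2 := cnt_nonneg G S I (insert f O)
    have hn3 := cnt_nonneg G S (insert e I) (insert f O)
    have hn4 := cnt_nonneg G S ∅ O
    have hn5 := cnt_nonneg G S ∅ (insert f O)
    have hn6 := cnt_nonneg G S (insert e I) O
    rcases hn1.eq_or_lt with h0 | hpos1
    · have : cnt G S (insert e I) O ≤ 0 := by
        have := cnt_insert_le G S I O e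
        linarith
      have h6 : cnt G S (insert e I) O = 0 := le_antisymm this hn6
      rw [h6, zero_mul]
      exact mul_nonneg hn3 hn4
    · rcases hn2.eq_or_lt with h0 | hpos2
      · have h7 : cnt G S I O * cnt G S ∅ (insert f O) ≤ 0 := by
          rw [← h0, zero_mul] at ih'
          exact ih'
        have h8 : cnt G S ∅ (insert f O) ≤ 0 := by
          by_contra hcon
          push Not at hcon
          have := mul_pos hpos1 hcon
          linarith
        have h9 : cnt G S ∅ (insert f O) = 0 := le_antisymm h8 hn5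
        rw [h9, mul_zero]
        exact mul_nonneg hn3 hn4
      · have hmul := mul_le_mul hstep ih' (mul_nonneg hn1 hn5) (mul_nonneg hn3 hn1)
        have hpos : 0 < cnt G S I (insert f O) * cnt G S I O := mul_pos hpos2 hpos1
        refine le_of_mul_le_mul_right ?_ hpos
        calc cnt G S (insert e I) O * cnt G S ∅ (insert f O) *
              (cnt G S I (insert f O) * cnt G S I O)
            = cnt G S (insert e I) O * cnt G S I (insert f O) *
                (cnt G S I O * cnt G S ∅ (insert f O)) := by ring
          _ ≤ cnt G S (insert e I) (insert f O) * cnt G S I O *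
                (cnt G S I (insert f O) * cnt G S ∅ O) := hmul
          _ = cnt G S (insert e I) (insert f O) * cnt G S ∅ O *
                (cnt G S I (insert f O) * cnt G S I O) := by ring

/-- Chain over a set of avoided edges. -/
theorem cnt_O_chain (G : SimpleGraph V) (S : Finset V) (hconn : (G.induce (S : Set V)).Connected)
    (F D : Finset (Sym2 V)) (hFE : F ⊆ edgesIn G S) (hDE : D ⊆ edgesIn G S) (hFD : Disjoint F D)
    (hpos : ∀ O, O ⊆ D → 0 < cnt G S ∅ O) :
    ∀ O, O ⊆ D → cnt G S F ∅ * cnt G S ∅ O ≤ cnt G S F O * cnt G S ∅ ∅ := by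
  intro O
  induction O using Finset.induction_on with
  | empty => intro _; exact le_of_eq rfl
  | insert f O hfO ih =>
    intro hsub
    have hO : O ⊆ D := fun x hx => hsub (Finset.mem_insert_of_mem hx)
    have hfD : f ∈ D := hsub (Finset.mem_insert_self _ _)
    have ih' := ih hO
    have hFO : Disjoint F O := Finset.disjoint_of_subset_right hO hFD
    have hfF : f ∉ F := fun h => (Finset.disjoint_left.1 hFD h) hfD
    have hch := cnt_F_chain G S hconn O f (hDE hfD) F hFE hFO hfF
    have hp := hpos O hO
    have hn0 := cnt_nonneg G S ∅ (∅ : Finset (Sym2 V))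
    have hn1 := cnt_nonneg G S ∅ (insert f O)
    refine le_of_mul_le_mul_right ?_ hp
    calc cnt G S F ∅ * cnt G S ∅ (insert f O) * cnt G S ∅ O
        = (cnt G S F ∅ * cnt G S ∅ O) * cnt G S ∅ (insert f O) := by ring
      _ ≤ (cnt G S F O * cnt G S ∅ ∅) * cnt G S ∅ (insert f O) :=
          mul_le_mul_of_nonneg_right ih' hn1
      _ = (cnt G S F O * cnt G S ∅ (insert f O)) * cnt G S ∅ ∅ := by ring
      _ ≤ (cnt G S F (insert f O) * cnt G S ∅ O) * cnt G S ∅ ∅ :=
          mul_le_mul_of_nonneg_right hch hn0
      _ = cnt G S F (insert f O) * cnt G S ∅ ∅ * cnt G S ∅ O := by ring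

theorem exists_tree (G : SimpleGraph V) (S : Finset V) (hconn : (G.induce (S : Set V)).Connected) :
    ∃ A, IsSpanningTreeOn G S A := by
  classical
  by_contra hcon
  push Not at hcon
  apply tree_stable G S hconn (fun _ => Complex.I) (fun e _ => by simp)
  unfold mvPoly treeCoeff
  refine Finset.sum_eq_zero (fun A _ => ?_)
  rw [if_neg (hcon A)]
  simp

theorem cnt_eq_card (G : SimpleGraph V) (S : Finset V) (I O : Finset (Sym2 V)) [DecidablePred fun A : Finset (Sym2 V) => IsSpanningTreeOn G S A ∧ I ⊆ A ∧ Disjoint A O] :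
    cnt G S I O = ((((edgesIn G S).powerset.filter
      (fun A => IsSpanningTreeOn G S A ∧ I ⊆ A ∧ Disjoint A O)).card : ℕ) : ℝ) := by
  classical
  unfold cnt treeCoeff
  rw [Finset.sum_ite, Finset.sum_const_zero, add_zero, Finset.sum_const, nsmul_eq_mul, mul_one,
    Finset.filter_filter]
  congr 2
  ext A
  simp only [mem_filter]
  tauto

theorem ustContains_eq (G : SimpleGraph V) (S : Finset V) (F : Finset (Sym2 V)) :
    ustContains G S F = cnt G S F ∅ / cnt G S ∅ ∅ := by
  classical
  rw [cnt_eq_card, cnt_eq_card]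
  unfold ustContains
  congr 2
  · congr 1
    ext A
    simp
  · congr 1
    ext A
    simp

theorem edgesIn_mono (G : SimpleGraph V) {S S' : Finset V} (h : S ⊆ S') :
    edgesIn G S ⊆ edgesIn G S' := by
  intro e he
  induction e with
  | h a b =>
    unfold edgesIn at he ⊢
    simp only [Finset.mem_filter, Finset.mk_mem_sym2_iff] at he ⊢
    exact ⟨⟨h he.1.1, h he.1.2⟩, he.2⟩

theorem mem_edgesIn (G : SimpleGraph V) (S : Finset V) (a b : V) :
    s(a, b) ∈ edgesIn G S ↔ a ∈ S ∧ b ∈ S ∧ G.Adj a b := by
  unfold edgesIn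
  simp only [Finset.mem_filter, Finset.mk_mem_sym2_iff, SimpleGraph.mem_edgeSet]
  tauto

section Pendant

variable (G : SimpleGraph V) (S : Finset V) (v a : V)

theorem tree_insert (hv : v ∉ S) (ha : a ∈ S) (hadj : G.Adj v a) (A : Finset (Sym2 V))
    (hA : IsSpanningTreeOn G S A) :
    IsSpanningTreeOn G (insert v S) (insert s(v, a) A) := by
  have hAE : A ⊆ edgesIn G S := hA.1
  have hsub : insert s(v, a) A ⊆ edgesIn G (insert v S) := by
    intro e he
    rcases Finset.mem_insert.1 he with rfl | he
    · rw [mem_edgesIn]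
      exact ⟨Finset.mem_insert_self _ _, Finset.mem_insert_of_mem ha, hadj⟩
    · exact edgesIn_mono G (Finset.subset_insert _ _) (hAE he)
  have hw : s(v, a) ∉ A := by
    intro h
    have := hAE h
    rw [mem_edgesIn] at this
    exact hv this.1
  rw [isSpanningTreeOn_iff G _ _ hsub]
  have hT := (isSpanningTreeOn_iff G S A hAE).1 hA
  constructor
  · let a' : ↥((insert v S : Finset V) : Set V) := ⟨a, by simp [ha]⟩
    let incl : treeGraph S A →g treeGraph (insert v S) (insert s(v, a) A) :=
      { toFun := fun y => ⟨y.1, by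
          have := y.2
          simp only [Finset.coe_insert, Set.mem_insert_iff, Finset.mem_coe] at this ⊢
          exact Or.inr this⟩
        map_rel' := by
          intro p q hpq
          have h2 : (SimpleGraph.fromEdgeSet (A : Set (Sym2 V))).Adj p.1 q.1 := hpq
          rw [SimpleGraph.fromEdgeSet_adj] at h2
          change (SimpleGraph.fromEdgeSet _).Adj p.1 q.1
          rw [SimpleGraph.fromEdgeSet_adj]
          exact ⟨by simpa using Or.inr (by simpa using h2.1), h2.2⟩ }
    have hreach : ∀ x, (treeGraph (insert v S) (insert s(v, a) A)).Reachable x a' := by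
      rintro ⟨x, hx⟩
      by_cases hxv : x = v
      · subst hxv
        apply SimpleGraph.Adj.reachable
        change (SimpleGraph.fromEdgeSet _).Adj x a
        rw [SimpleGraph.fromEdgeSet_adj]
        exact ⟨by simp, hadj.ne⟩
      · have hxS : x ∈ (S : Set V) := by
          simp only [Finset.coe_insert, Set.mem_insert_iff, Finset.mem_coe] at hx
          rcases hx with h | h
          · exact absurd h hxv
          · exact h
        exact (hT.1.preconnected ⟨x, hxS⟩ ⟨a, ha⟩).map incl
    exact (SimpleGraph.connected_iff _).2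
      ⟨fun p q => (hreach p).trans (hreach q).symm, ⟨a'⟩⟩
  · rw [Finset.card_insert_of_notMem hw, Finset.card_insert_of_notMem hv, hT.2]

theorem reachable_eq {W X : Type*} (H : SimpleGraph W) (f : W → X)
    (hf : ∀ p q, H.Adj p q → f p = f q) (p q : W) (h : H.Reachable p q) : f p = f q := by
  obtain ⟨w⟩ := h
  induction w with
  | nil => rfl
  | cons hadj _ ih => exact (hf _ _ hadj).trans ih

theorem exists_adj_of_reachable_ne {W : Type*} (H : SimpleGraph W) {p q : W}
    (h : H.Reachable p q) (hne : p ≠ q) : ∃ y, H.Adj p y := by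
  obtain ⟨w⟩ := h
  cases w with
  | nil => exact absurd rfl hne
  | cons hadj _ => exact ⟨_, hadj⟩

theorem tree_erase (hv : v ∉ S) (ha : a ∈ S) (B : Finset (Sym2 V))
    (hB : IsSpanningTreeOn G (insert v S) B)
    (hsub : ∀ e ∈ B, e ∈ edgesIn G S ∨ e = s(v, a)) :
    s(v, a) ∈ B ∧ IsSpanningTreeOn G S (B.erase s(v, a)) := by
  classical
  have hBE : B ⊆ edgesIn G (insert v S) := hB.1
  have hT := (isSpanningTreeOn_iff G _ B hBE).1 hB
  have hva : v ≠ a := fun h => hv (h ▸ ha)
  have hw : s(v, a) ∈ B := by
    by_contra hcon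
    let v' : ↥((insert v S : Finset V) : Set V) := ⟨v, by simp⟩
    let a' : ↥((insert v S : Finset V) : Set V) := ⟨a, by simp [ha]⟩
    have hne : v' ≠ a' := fun h => hva (congrArg Subtype.val h)
    obtain ⟨y, hadj⟩ := exists_adj_of_reachable_ne _ (hT.1.preconnected v' a') hne
    have h2 : (SimpleGraph.fromEdgeSet (B : Set (Sym2 V))).Adj v y.1 := hadj
    rw [SimpleGraph.fromEdgeSet_adj] at h2
    have h3 : s(v, y.1) ∈ B := by simpa using h2.1
    rcases hsub _ h3 with h4 | h4
    · rw [mem_edgesIn] at h4
      exact hv h4.1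
    · exact hcon (h4 ▸ h3)
  refine ⟨hw, ?_⟩
  have hsub' : B.erase s(v, a) ⊆ edgesIn G S := by
    intro e he
    rw [Finset.mem_erase] at he
    rcases hsub e he.2 with h | h
    · exact h
    · exact absurd h he.1
  rw [isSpanningTreeOn_iff G S _ hsub']
  constructor
  · let H₀ := treeGraph S (B.erase s(v, a))
    let a₀ : ↥(S : Set V) := ⟨a, ha⟩
    let φ : ↥((insert v S : Finset V) : Set V) → ↥(S : Set V) := fun x =>
      if h : x.1 ∈ (S : Set V) then ⟨x.1, h⟩ else a₀
    have hφS : ∀ x (h : x.1 ∈ (S : Set V)), φ x = ⟨x.1, h⟩ := fun x h => dif_pos h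
    have hφv : ∀ x : ↥((insert v S : Finset V) : Set V), x.1 = v → φ x = a₀ := by
      intro x hx
      have : x.1 ∉ (S : Set V) := by
        rw [hx]
        exact hv
      exact dif_neg this
    have hadj : ∀ p q, (treeGraph (insert v S) B).Adj p q →
        H₀.connectedComponentMk (φ p) = H₀.connectedComponentMk (φ q) := by
      intro p q hpq
      have h2 : (SimpleGraph.fromEdgeSet (B : Set (Sym2 V))).Adj p.1 q.1 := hpq
      rw [SimpleGraph.fromEdgeSet_adj] at h2
      have h3 : s(p.1, q.1) ∈ B := by simpa using h2.1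
      by_cases h4 : s(p.1, q.1) = s(v, a)
      · rw [Sym2.eq_iff] at h4
        rcases h4 with ⟨h5, h6⟩ | ⟨h5, h6⟩
        · rw [hφv p h5, hφS q (by rw [h6]; exact ha)]
          exact congrArg _ (Subtype.ext h6.symm)
        · rw [hφv q h6, hφS p (by rw [h5]; exact ha)]
          exact congrArg _ (Subtype.ext h5)
      · have h5 : s(p.1, q.1) ∈ edgesIn G S := by
          rcases hsub _ h3 with h | h
          · exact h
          · exact absurd h h4
        rw [mem_edgesIn] at h5
        rw [hφS p h5.1, hφS q h5.2.1]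
        apply SimpleGraph.ConnectedComponent.sound
        apply SimpleGraph.Adj.reachable
        change (SimpleGraph.fromEdgeSet _).Adj p.1 q.1
        rw [SimpleGraph.fromEdgeSet_adj]
        refine ⟨?_, h2.2⟩
        simp only [Finset.coe_erase, Set.mem_sdiff, Finset.mem_coe, Set.mem_singleton_iff]
        exact ⟨h3, h4⟩
    refine (SimpleGraph.connected_iff _).2 ⟨?_, ⟨a₀⟩⟩
    rintro ⟨x, hx⟩ ⟨y, hy⟩
    have hx' : x ∈ ((insert v S : Finset V) : Set V) := by
      simp only [Finset.coe_insert, Set.mem_insert_iff]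
      exact Or.inr hx
    have hy' : y ∈ ((insert v S : Finset V) : Set V) := by
      simp only [Finset.coe_insert, Set.mem_insert_iff]
      exact Or.inr hy
    have h5 : H₀.connectedComponentMk (φ ⟨x, hx'⟩) = H₀.connectedComponentMk (φ ⟨y, hy'⟩) :=
      reachable_eq (treeGraph (insert v S) B)
        (fun p => H₀.connectedComponentMk (φ p)) hadj ⟨x, hx'⟩ ⟨y, hy'⟩ (hT.1.preconnected _ _)
    rw [hφS ⟨x, hx'⟩ hx, hφS ⟨y, hy'⟩ hy] at h5
    exact SimpleGraph.ConnectedComponent.exact h5
  · have h5 := hT.2
    rw [Finset.card_insert_of_notMem hv] at h5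
    have h6 := Finset.card_erase_add_one hw
    omega

/-- The edges to be avoided in the pendant step. -/
noncomputable def delSet : Finset (Sym2 V) :=
  (edgesIn G (insert v S)).filter (fun e => e ∉ edgesIn G S ∧ e ≠ s(v, a))

theorem cnt_pendant (hv : v ∉ S) (ha : a ∈ S) (hadj : G.Adj v a) (I : Finset (Sym2 V))
    (hI : I ⊆ edgesIn G S) :
    cnt G (insert v S) I (delSet G S v a) = cnt G S I ∅ := by
  classical
  rw [cnt_eq_card, cnt_eq_card]
  congr 1
  have hwS : s(v, a) ∉ edgesIn G S := by
    intro h
    rw [mem_edgesIn] at h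
    exact hv h.1
  refine Finset.card_nbij' (fun B => B.erase s(v, a)) (fun A => insert s(v, a) A) ?_ ?_ ?_ ?_
  · intro B hB
    simp only [Finset.mem_coe, mem_filter, mem_powerset] at hB ⊢
    obtain ⟨hB1, hB2, hB3, hB4⟩ := hB
    have hsub : ∀ e ∈ B, e ∈ edgesIn G S ∨ e = s(v, a) := by
      intro e he
      by_contra hcon
      push Not at hcon
      refine (Finset.disjoint_left.1 hB4 he) ?_
      unfold delSet
      rw [mem_filter]
      exact ⟨hB1 he, hcon⟩
    obtain ⟨hw, htree⟩ := tree_erase G S v a hv ha B hB2 hsub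
    refine ⟨htree.1, htree, ?_, Finset.disjoint_empty_right _⟩
    intro e he
    rw [Finset.mem_erase]
    exact ⟨fun h => hwS (h ▸ hI he), hB3 he⟩
  · intro A hA
    simp only [Finset.mem_coe, mem_filter, mem_powerset] at hA ⊢
    obtain ⟨hA1, hA2, hA3, -⟩ := hA
    have htree := tree_insert G S v a hv ha hadj A hA2
    refine ⟨htree.1, htree, hA3.trans (Finset.subset_insert _ _), ?_⟩
    rw [Finset.disjoint_left]
    intro e he hed
    unfold delSet at hed
    rw [mem_filter] at hed
    rcases Finset.mem_insert.1 he with h | h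
    · exact hed.2.2 h
    · exact hed.2.1 (hA1 h)
  · intro B hB
    simp only [Finset.mem_coe, mem_filter, mem_powerset] at hB
    obtain ⟨hB1, hB2, hB3, hB4⟩ := hB
    have hsub : ∀ e ∈ B, e ∈ edgesIn G S ∨ e = s(v, a) := by
      intro e he
      by_contra hcon
      push Not at hcon
      refine (Finset.disjoint_left.1 hB4 he) ?_
      unfold delSet
      rw [mem_filter]
      exact ⟨hB1 he, hcon⟩
    obtain ⟨hw, -⟩ := tree_erase G S v a hv ha B hB2 hsub
    exact Finset.insert_erase hw
  · intro A hA
    simp only [Finset.mem_coe, mem_filter, mem_powerset] at hA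
    exact Finset.erase_insert (fun h => hwS (hA.1 h))

theorem pendant_mono (hv : v ∉ S) (ha : a ∈ S) (hadj : G.Adj v a)
    (hS : (G.induce (S : Set V)).Connected)
    (hS' : (G.induce ((insert v S : Finset V) : Set V)).Connected)
    (F : Finset (Sym2 V)) (hF : F ⊆ edgesIn G S) :
    ustContains G (insert v S) F ≤ ustContains G S F := by
  classical
  have hpos : ∀ O, O ⊆ delSet G S v a → 0 < cnt G (insert v S) ∅ O := by
    intro O hO
    obtain ⟨A, hA⟩ := exists_tree G S hS
    have htree := tree_insert G S v a hv ha hadj A hA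
    rw [cnt_eq_card]
    have hmem : insert s(v, a) A ∈ (edgesIn G (insert v S)).powerset.filter
        (fun A => IsSpanningTreeOn G (insert v S) A ∧ ∅ ⊆ A ∧ Disjoint A O) := by
      rw [mem_filter, mem_powerset]
      refine ⟨htree.1, htree, Finset.empty_subset _, ?_⟩
      rw [Finset.disjoint_left]
      intro e he heO
      have hed := hO heO
      unfold delSet at hed
      rw [mem_filter] at hed
      rcases Finset.mem_insert.1 he with h | h
      · exact hed.2.2 h
      · exact hed.2.1 (hA.1 h)
    exact_mod_cast Finset.card_pos.2 ⟨_, hmem⟩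
  have hDE : delSet G S v a ⊆ edgesIn G (insert v S) := Finset.filter_subset _ _
  have hFE : F ⊆ edgesIn G (insert v S) := hF.trans (edgesIn_mono G (Finset.subset_insert _ _))
  have hFD : Disjoint F (delSet G S v a) := by
    rw [Finset.disjoint_left]
    intro e he hed
    unfold delSet at hed
    rw [mem_filter] at hed
    exact hed.2.1 (hF he)
  have hch := cnt_O_chain G (insert v S) hS' F (delSet G S v a) hFE hDE hFD hpos _ subset_rfl
  rw [ustContains_eq, ustContains_eq, ← cnt_pendant G S v a hv ha hadj F hF,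
    ← cnt_pendant G S v a hv ha hadj ∅ (Finset.empty_subset _)]
  rw [div_le_div_iff₀ (hpos ∅ (Finset.empty_subset _)) (hpos _ subset_rfl)]
  exact hch

end Pendant

/-- **Rayleigh monotonicity**: the probability that the uniform spanning tree of a connected piece
contains `F` can only grow when the piece shrinks to a smaller connected piece containing `F`. -/
theorem ustContains_mono (G : SimpleGraph V) (S S' : Finset V)
    (hS : (G.induce (S : Set V)).Connected) (hS' : (G.induce (S' : Set V)).Connected)
    (h : S ⊆ S') (F : Finset (Sym2 V)) (hF : F ⊆ edgesIn G S) :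
    ustContains G S' F ≤ ustContains G S F := by
  classical
  induction hn : (S' \ S).card generalizing S with
  | zero =>
    have : S' ⊆ S := by
      rw [Finset.card_eq_zero, Finset.sdiff_eq_empty_iff_subset] at hn
      exact hn
    rw [Finset.Subset.antisymm h this]
  | succ n ih =>
    -- find a crossing edge
    have hne : (S' \ S).Nonempty := by
      rw [← Finset.card_pos]
      omega
    obtain ⟨x, hx⟩ := hne
    rw [Finset.mem_sdiff] at hx
    obtain ⟨⟨a₀, ha₀⟩⟩ := hS.nonempty
    obtain ⟨w⟩ := hS'.preconnected ⟨a₀, h ha₀⟩ ⟨x, hx.1⟩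
    obtain ⟨d, -, hd1, hd2⟩ := w.exists_boundary_dart {y | y.1 ∈ S} ha₀ hx.2
    set a := d.fst.1 with ha
    set v := d.snd.1 with hv
    have hadj : G.Adj v a := d.adj.symm
    have haS : a ∈ S := hd1
    have hvS : v ∉ S := hd2
    have hvS' : v ∈ S' := d.snd.2
    have hS1 : (G.induce ((insert v S : Finset V) : Set V)).Connected := by
      let a' : ↥((insert v S : Finset V) : Set V) := ⟨a, by simp [haS]⟩
      let incl : G.induce (S : Set V) →g G.induce ((insert v S : Finset V) : Set V) :=
        { toFun := fun y => ⟨y.1, by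
            have := y.2
            simp only [Finset.coe_insert, Set.mem_insert_iff, Finset.mem_coe] at this ⊢
            exact Or.inr this⟩
          map_rel' := fun {p q} hpq => hpq }
      have hreach : ∀ y, (G.induce ((insert v S : Finset V) : Set V)).Reachable y a' := by
        rintro ⟨y, hy⟩
        by_cases hyv : y = v
        · subst hyv
          exact SimpleGraph.Adj.reachable hadj
        · have hyS : y ∈ (S : Set V) := by
            simp only [Finset.coe_insert, Set.mem_insert_iff, Finset.mem_coe] at hy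
            rcases hy with h | h
            · exact absurd h hyv
            · exact h
          exact (hS.preconnected ⟨y, hyS⟩ ⟨a, haS⟩).map incl
      exact (SimpleGraph.connected_iff _).2
        ⟨fun p q => (hreach p).trans (hreach q).symm, ⟨a'⟩⟩
    have hsub1 : insert v S ⊆ S' := Finset.insert_subset hvS' h
    have hcard : (S' \ insert v S).card = n := by
      have h1 : (S' \ S) = insert v (S' \ insert v S) := by
        ext y
        simp only [Finset.mem_sdiff, Finset.mem_insert]
        constructor
        · rintro ⟨h2, h3⟩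
          by_cases hyv : y = v
          · exact Or.inl hyv
          · exact Or.inr ⟨h2, by tauto⟩
        · rintro (h2 | ⟨h2, h3⟩)
          · exact h2 ▸ ⟨hvS', hvS⟩
          · exact ⟨h2, by tauto⟩
      rw [h1, Finset.card_insert_of_notMem (by simp)] at hn
      omega
    have hF1 : F ⊆ edgesIn G (insert v S) := hF.trans (edgesIn_mono G (Finset.subset_insert _ _))
    exact (ih (insert v S) hS1 hsub1 hF1 hcard).trans
      (pendant_mono G S v a hvS haS hadj hS hS1 F hF)

end Crest.Agent.Lib.FiidRayleighMono
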