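import Crest.Agent.Lib.FiidPlanted

/-!
# The sequential run on a finite set of sites

Observations are produced round after round, in each round in the order of the labels `U`. The output is defined as
a fixed point of a Gauss-Seidel iteration (so no sorting and no case distinction on ties are needed).
-/

set_option autoImplicit false

namespace Crest.Agent.Lib.FiidRun

open MeasureTheory Set
open scoped unitInterval
open Crest.Agent.Lib.FiidChannel Crest.Agent.Lib.FiidPlanted

variable {ι : Type*}

/-- The tilt at the stage `(k, v)`, coordinate `u`: log likelihood ratios of all earlier observations of `u`. -/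
noncomputable def stageTilt (U : ι → I) (Y : ι × ℕ → I) (k : ℕ) (v u : ι) : ℝ :=
  ∑ i ∈ Finset.range k, ell (Y (u, i)) + if U u < U v then ell (Y (u, k)) else 0

/-- An oracle gives the posterior mean of a site given a tilt on a finite set. -/
abbrev Oracle (ι : Type*) := Finset ι → (ι → ℝ) → ι → ℝ

/-- The oracle value depends only on the tilt on the finite set. -/
def Local (a : Oracle ι) : Prop := ∀ (F : Finset ι) (h h' : ι → ℝ) (v : ι), (∀ u ∈ F, h u = h' u) → a F h v = a F h' v

/-- One Gauss-Seidel sweep. -/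
noncomputable def step (a : Oracle ι) (F : Finset ι) (U : ι → I) (W : ι × ℕ → I) (Y : ι × ℕ → I) :
    ι × ℕ → I :=
  fun b => T (a F (stageTilt U Y b.2 b.1) b.1) (W b)

/-- Iterated sweeps from `0`. -/
noncomputable def iter (a : Oracle ι) (F : Finset ι) (U : ι → I) (W : ι × ℕ → I) (n : ℕ) : ι × ℕ → I :=
  (step a F U W)^[n] (fun _ => 0)

open Classical in
/-- Rank of a stage. -/
noncomputable def rk (F : Finset ι) (U : ι → I) (b : ι × ℕ) : ℕ :=
  b.2 * (F.card + 1) + (F.filter (fun u => U u < U b.1)).card

/-- The run. -/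
noncomputable def runY (a : Oracle ι) (F : Finset ι) (U : ι → I) (W : ι × ℕ → I) (b : ι × ℕ) : I :=
  iter a F U W ((b.2 + 1) * (F.card + 1)) b

lemma rk_lt_of_round_lt (F : Finset ι) (U : ι → I) {b c : ι × ℕ} (h : c.2 < b.2) : rk F U c < rk F U b := by
  classical
  unfold rk
  have h1 : (F.filter (fun u => U u < U c.1)).card ≤ F.card := Finset.card_filter_le _ _
  have h2 : (c.2 + 1) * (F.card + 1) ≤ b.2 * (F.card + 1) := Nat.mul_le_mul_right _ h
  nlinarith

lemma rk_lt_of_label_lt (F : Finset ι) (U : ι → I) {v u : ι} (k : ℕ) (hu : u ∈ F) (h : U u < U v) :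
    rk F U (u, k) < rk F U (v, k) := by
  classical
  unfold rk
  simp only
  have : (F.filter (fun w => U w < U u)).card < (F.filter (fun w => U w < U v)).card := by
    apply Finset.card_lt_card
    rw [Finset.ssubset_iff_of_subset]
    · exact ⟨u, by simp [hu, h], by simp⟩
    · intro w hw
      simp only [Finset.mem_filter] at hw ⊢
      exact ⟨hw.1, hw.2.trans h⟩
  omega

lemma rk_lt_bound (F : Finset ι) (U : ι → I) (b : ι × ℕ) : rk F U b < (b.2 + 1) * (F.card + 1) := by
  classical
  unfold rk
  have h1 : (F.filter (fun u => U u < U b.1)).card ≤ F.card := Finset.card_filter_le _ _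
  nlinarith

/-- Two functions agreeing on the earlier stages give the same oracle argument. -/
lemma step_congr {a : Oracle ι} (ha : Local a) (F : Finset ι) (U : ι → I) (W : ι × ℕ → I)
    {Y Y' : ι × ℕ → I} (b : ι × ℕ) (h : ∀ c, c.1 ∈ F → rk F U c < rk F U b → Y c = Y' c) :
    step a F U W Y b = step a F U W Y' b := by
  unfold step
  congr 1
  apply ha
  intro u hu
  unfold stageTilt
  congr 1
  · refine Finset.sum_congr rfl fun i hi => ?_
    rw [h (u, i) hu (rk_lt_of_round_lt F U (by simpa using hi))]
  · split_ifs with hlt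
    · rw [h (u, b.2) hu (rk_lt_of_label_lt F U b.2 hu hlt)]
    · rfl

lemma iter_stable {a : Oracle ι} (ha : Local a) (F : Finset ι) (U : ι → I) (W : ι × ℕ → I) (n : ℕ) :
    ∀ b, rk F U b < n → ∀ m, n ≤ m → iter a F U W m b = iter a F U W n b := by
  induction n with
  | zero => intro b hb; omega
  | succ n ih =>
    intro b hb m hm
    obtain ⟨m', rfl⟩ : ∃ m', m = m' + 1 := ⟨m - 1, by omega⟩
    unfold iter
    rw [Function.iterate_succ_apply', Function.iterate_succ_apply']
    apply step_congr ha
    intro c hc hcb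
    exact ih c (by omega) m' (by omega)

lemma iter_eq_of_gt {a : Oracle ι} (ha : Local a) (F : Finset ι) (U : ι → I) (W : ι × ℕ → I) {b : ι × ℕ}
    {n m : ℕ} (hn : rk F U b < n) (hm : rk F U b < m) : iter a F U W n b = iter a F U W m b := by
  rcases le_total n m with h | h
  · exact (iter_stable ha F U W n b hn m h).symm
  · exact iter_stable ha F U W m b hm n h

lemma runY_eq_iter {a : Oracle ι} (ha : Local a) (F : Finset ι) (U : ι → I) (W : ι × ℕ → I) {b : ι × ℕ}
    {n : ℕ} (hn : rk F U b < n) : runY a F U W b = iter a F U W n b :=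
  iter_eq_of_gt ha F U W (rk_lt_bound F U b) hn

/-- **Fixed point equation** for the run. -/
lemma runY_eq {a : Oracle ι} (ha : Local a) (F : Finset ι) (U : ι → I) (W : ι × ℕ → I) (b : ι × ℕ) :
    runY a F U W b = T (a F (stageTilt U (runY a F U W) b.2 b.1) b.1) (W b) := by
  have h1 : runY a F U W b = iter a F U W (rk F U b + 1) b := runY_eq_iter ha F U W (Nat.lt_succ_self _)
  rw [h1]
  show (step a F U W)^[rk F U b + 1] _ b = _
  rw [Function.iterate_succ_apply']
  change step a F U W (iter a F U W (rk F U b)) b = step a F U W (runY a F U W) b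
  apply step_congr ha
  intro c _ hc
  exact (runY_eq_iter ha F U W hc).symm

/-- The run does not look at the noise of stages that are not earlier. -/
lemma runY_update_noise {a : Oracle ι} (ha : Local a) (F : Finset ι) (U : ι → I) (W : ι × ℕ → I)
    [DecidableEq ι] (d : ι × ℕ) (t : I) :
    ∀ n, ∀ c : ι × ℕ, c.1 ∈ F → rk F U c < n → rk F U c < rk F U d →
      runY a F U (Function.update W d t) c = runY a F U W c := by
  intro n
  induction n with
  | zero => intro c _ hc; omega
  | succ n ih =>
    intro c hcF hc hcd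
    rw [runY_eq ha, runY_eq ha F U W c]
    have hne : c ≠ d := by
      rintro rfl; omega
    rw [Function.update_of_ne hne]
    congr 1
    apply ha
    intro u hu
    unfold stageTilt
    congr 1
    · refine Finset.sum_congr rfl fun i hi => ?_
      have hlt := rk_lt_of_round_lt F U (b := c) (c := (u, i)) (by simpa using hi)
      rw [ih (u, i) hu (by omega) (by omega)]
    · split_ifs with hlt
      · have hlt' : rk F U (u, c.2) < rk F U c := rk_lt_of_label_lt F U c.2 hu hlt
        rw [ih (u, c.2) hu (by omega) (by omega)]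
      · rfl

/-! ### Measurability -/

lemma measurable_stageTilt {Q : Type*} [MeasurableSpace Q] {U : Q → ι → I} {Y : Q → ι × ℕ → I}
    (hU : Measurable U) (hY : Measurable Y) (k : ℕ) (v : ι) :
    Measurable (fun q => stageTilt (U q) (Y q) k v) := by
  rw [measurable_pi_iff]
  intro u
  unfold stageTilt
  refine Measurable.add ?_ ?_
  · refine Finset.measurable_sum _ fun i _ => ?_
    exact measurable_ell.comp ((measurable_pi_apply (u, i)).comp hY)
  · refine Measurable.ite ?_ ?_ measurable_const
    · exact measurableSet_lt ((measurable_pi_apply u).comp hU) ((measurable_pi_apply v).comp hU)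
    · exact measurable_ell.comp ((measurable_pi_apply (u, k)).comp hY)

lemma measurable_iter {P : Type*} [MeasurableSpace P] (a : P → Oracle ι)
    (ha : ∀ (F : Finset ι) (v : ι), Measurable (fun q : P × (ι → ℝ) => a q.1 F q.2 v)) (F : Finset ι)
    (n : ℕ) :
    Measurable (fun q : P × (ι → I) × (ι × ℕ → I) => iter (a q.1) F q.2.1 q.2.2 n) := by
  induction n with
  | zero =>
    unfold iter
    simp
  | succ n ih =>
    have : (fun q : P × (ι → I) × (ι × ℕ → I) => iter (a q.1) F q.2.1 q.2.2 (n + 1)) =
        fun q => step (a q.1) F q.2.1 q.2.2 (iter (a q.1) F q.2.1 q.2.2 n) := by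
      funext q
      unfold iter
      rw [Function.iterate_succ_apply']
    rw [this]
    rw [measurable_pi_iff]
    intro b
    unfold step
    have h1 : Measurable (fun q : P × (ι → I) × (ι × ℕ → I) =>
        a q.1 F (stageTilt q.2.1 (iter (a q.1) F q.2.1 q.2.2 n) b.2 b.1) b.1) := by
      have h2 := measurable_stageTilt (Q := P × (ι → I) × (ι × ℕ → I)) (U := fun q => q.2.1)
        (Y := fun q => iter (a q.1) F q.2.1 q.2.2 n) (measurable_fst.comp measurable_snd) ih b.2 b.1
      exact (ha F b.1).comp (measurable_fst.prodMk h2)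
    have h3 : Measurable (fun q : P × (ι → I) × (ι × ℕ → I) => q.2.2 b) :=
      (measurable_pi_apply b).comp (measurable_snd.comp measurable_snd)
    exact measurable_T.comp (h1.prodMk h3)

lemma measurable_runY {P : Type*} [MeasurableSpace P] (a : P → Oracle ι)
    (ha : ∀ (F : Finset ι) (v : ι), Measurable (fun q : P × (ι → ℝ) => a q.1 F q.2 v)) (F : Finset ι) :
    Measurable (fun q : P × (ι → I) × (ι × ℕ → I) => runY (a q.1) F q.2.1 q.2.2) := by
  rw [measurable_pi_iff]
  intro b
  unfold runY
  exact (measurable_pi_apply b).comp (measurable_iter a ha F _)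

/-! ### Equivariance -/

section equivariance

variable [DecidableEq ι]

/-- The relabelled field. -/
def reField {X : Type*} (e : ι ≃ ι) (Y : ι × ℕ → X) : ι × ℕ → X := fun c => Y (e.symm c.1, c.2)

lemma iter_equivariant (e : ι ≃ ι) {a a' : Oracle ι}
    (haa : ∀ (F : Finset ι) (h : ι → ℝ) (v : ι), a' (F.map e.toEmbedding) (h ∘ e.symm) (e v) = a F h v)
    (F : Finset ι) (U : ι → I) (W : ι × ℕ → I) (n : ℕ) :
    iter a' (F.map e.toEmbedding) (U ∘ e.symm) (reField e W) n = reField e (iter a F U W n) := by
  induction n with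
  | zero => rfl
  | succ n ih =>
    unfold iter at *
    rw [Function.iterate_succ_apply', Function.iterate_succ_apply', ih]
    funext ⟨x, k⟩
    obtain ⟨v, rfl⟩ := e.surjective x
    set Y := (step a F U W)^[n] fun _ => 0 with hY
    have htilt : stageTilt (U ∘ e.symm) (reField e Y) k (e v) = stageTilt U Y k v ∘ e.symm := by
      funext u
      obtain ⟨u', rfl⟩ := e.surjective u
      simp [stageTilt, reField]
    have hW : reField e W (e v, k) = W (v, k) := by simp [reField]
    have hrhs : reField e (step a F U W Y) (e v, k) = step a F U W Y (v, k) := by simp [reField]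
    rw [hrhs]
    simp only [step]
    rw [htilt, hW, haa]

lemma runY_equivariant (e : ι ≃ ι) {a a' : Oracle ι}
    (haa : ∀ (F : Finset ι) (h : ι → ℝ) (v : ι), a' (F.map e.toEmbedding) (h ∘ e.symm) (e v) = a F h v)
    (F : Finset ι) (U : ι → I) (W : ι × ℕ → I) :
    runY a' (F.map e.toEmbedding) (U ∘ e.symm) (reField e W) = reField e (runY a F U W) := by
  funext b
  unfold runY
  rw [iter_equivariant e haa F U W]
  simp [reField, Finset.card_map]

end equivariance

/-! ### The tilted mean oracle -/

/-- Tilt weight. -/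
noncomputable def tw (F : Finset ι) (h : ι → ℝ) (ω : ι → Bool) : ℝ :=
  Real.exp (∑ u ∈ F, b2r (ω u) * h u)

/-- The tilted mean oracle of a law `ν`. -/
noncomputable def tmean (ν : Measure (ι → Bool)) (F : Finset ι) (h : ι → ℝ) (v : ι) : ℝ :=
  (∫ ω, b2r (ω v) * tw F h ω ∂ν) / ∫ ω, tw F h ω ∂ν

lemma tmean_local (ν : Measure (ι → Bool)) : Local (tmean ν) := by
  intro F h h' v hh
  unfold tmean tw
  have : ∀ ω : ι → Bool, ∑ u ∈ F, b2r (ω u) * h u = ∑ u ∈ F, b2r (ω u) * h' u := fun ω =>
    Finset.sum_congr rfl fun u hu => by rw [hh u hu]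
  simp_rw [this]

lemma measurable_tw_pair (F : Finset ι) :
    Measurable (fun p : (ι → ℝ) × (ι → Bool) => tw F p.1 p.2) := by
  unfold tw
  refine Real.measurable_exp.comp (Finset.measurable_sum _ fun u _ => ?_)
  exact (measurable_b2r.comp ((measurable_pi_apply u).comp measurable_snd)).mul
    ((measurable_pi_apply u).comp measurable_fst)

lemma measurable_tmean (ν : Measure (ι → Bool)) [SFinite ν] (F : Finset ι) (v : ι) :
    Measurable (fun h : ι → ℝ => tmean ν F h v) := by
  unfold tmean
  refine Measurable.div ?_ ?_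
  · have : Measurable (fun p : (ι → ℝ) × (ι → Bool) => b2r (p.2 v) * tw F p.1 p.2) :=
      (measurable_b2r.comp ((measurable_pi_apply v).comp measurable_snd)).mul (measurable_tw_pair F)
    exact (this.stronglyMeasurable.integral_prod_right').measurable
  · exact ((measurable_tw_pair F).stronglyMeasurable.integral_prod_right').measurable

section stages

variable [DecidableEq ι]

/-- The log-likelihood tilt of the observations at stages `A`. -/
noncomputable def tiltOf (A : Finset (ι × ℕ)) (y : ι × ℕ → I) (u : ι) : ℝ :=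
  ∑ c ∈ A with c.1 = u, ell (y c)

lemma obsW_eq_tw (F : Finset ι) (A : Finset (ι × ℕ)) (hA : ∀ c ∈ A, c.1 ∈ F) (ω : ι → Bool) (y : ι × ℕ → I) :
    obsW ω A y = (∏ c ∈ A, fb false (y c)) * tw F (tiltOf A y) ω := by
  unfold obsW tw tiltOf
  have h1 : ∏ c ∈ A, fb (ω c.1) (y c) = ∏ c ∈ A, (fb false (y c) * Real.exp (b2r (ω c.1) * ell (y c))) :=
    Finset.prod_congr rfl fun c _ => fb_eq_exp _ _
  rw [h1, Finset.prod_mul_distrib, ← Real.exp_sum]
  congr 2
  have h2 : ∑ u ∈ F, b2r (ω u) * ∑ c ∈ A with c.1 = u, ell (y c) =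
      ∑ u ∈ F, ∑ c ∈ A with c.1 = u, b2r (ω c.1) * ell (y c) := by
    refine Finset.sum_congr rfl fun u _ => ?_
    rw [Finset.mul_sum]
    refine Finset.sum_congr rfl fun c hc => ?_
    rw [(Finset.mem_filter.mp hc).2]
  rw [h2]
  exact (Finset.sum_fiberwise_of_maps_to (g := fun c : ι × ℕ => c.1) hA _).symm

lemma post_eq_tmean (ν : Measure (ι → Bool)) [IsProbabilityMeasure ν] (F : Finset ι) (A : Finset (ι × ℕ))
    (hA : ∀ c ∈ A, c.1 ∈ F) (v : ι) (y : ι × ℕ → I) :
    post ν A v y = tmean ν F (tiltOf A y) v := by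
  unfold post Nd Zd M tmean
  simp_rw [obsW_eq_tw F A hA _ y]
  have hpos : (0:ℝ) < ∏ c ∈ A, fb false (y c) := Finset.prod_pos fun c _ => fb_pos _ _
  have e1 : ∀ ω : ι → Bool, b2r (ω v) * ((∏ c ∈ A, fb false (y c)) * tw F (tiltOf A y) ω) =
      (∏ c ∈ A, fb false (y c)) * (b2r (ω v) * tw F (tiltOf A y) ω) := fun ω => by ring
  have e2 : ∀ ω : ι → Bool, 1 * ((∏ c ∈ A, fb false (y c)) * tw F (tiltOf A y) ω) =
      (∏ c ∈ A, fb false (y c)) * (tw F (tiltOf A y) ω) := fun ω => by ring
  simp_rw [e1, e2, integral_const_mul]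
  rw [mul_div_mul_left _ _ hpos.ne']

open Classical in
/-- The stages before `(k, v)` in the run on `F`. -/
noncomputable def stagesBefore (F : Finset ι) (U : ι → I) (k : ℕ) (v : ι) : Finset (ι × ℕ) :=
  F ×ˢ Finset.range k ∪ (F.filter (fun u => U u < U v)) ×ˢ {k}

lemma mem_stagesBefore {F : Finset ι} {U : ι → I} {k : ℕ} {v : ι} {c : ι × ℕ} :
    c ∈ stagesBefore F U k v ↔ c.1 ∈ F ∧ (c.2 < k ∨ (c.2 = k ∧ U c.1 < U v)) := by
  classical
  unfold stagesBefore
  simp only [Finset.mem_union, Finset.mem_product, Finset.mem_range, Finset.mem_filter,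
    Finset.mem_singleton]
  tauto

lemma tiltOf_stagesBefore (F : Finset ι) (U : ι → I) (k : ℕ) (v : ι) (y : ι × ℕ → I) {u : ι} (hu : u ∈ F) :
    tiltOf (stagesBefore F U k v) y u = stageTilt U y k v u := by
  classical
  unfold tiltOf stageTilt
  have hfil : (stagesBefore F U k v).filter (fun c => c.1 = u) =
      (Finset.range k).image (fun i => (u, i)) ∪ (if U u < U v then {(u, k)} else ∅) := by
    ext ⟨x, i⟩
    simp only [Finset.mem_filter, mem_stagesBefore, Finset.mem_union, Finset.mem_image, Finset.mem_range,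
      Prod.mk.injEq]
    constructor
    · rintro ⟨⟨hx, hi⟩, rfl⟩
      rcases hi with hi | ⟨rfl, hlt⟩
      · exact Or.inl ⟨i, hi, rfl, rfl⟩
      · right; simp [hlt]
    · rintro (⟨i', hi', rfl, rfl⟩ | h)
      · exact ⟨⟨hu, Or.inl hi'⟩, rfl⟩
      · split_ifs at h with hlt
        · simp only [Finset.mem_singleton, Prod.mk.injEq] at h
          obtain ⟨rfl, rfl⟩ := h
          exact ⟨⟨hu, Or.inr ⟨rfl, hlt⟩⟩, rfl⟩
        · simp at h
  rw [hfil, Finset.sum_union]
  · congr 1
    · rw [Finset.sum_image]
      intro i _ j _ h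
      simpa using h
    · split_ifs <;> simp
  · rw [Finset.disjoint_left]
    rintro ⟨x, j⟩ h1 h2
    simp only [Finset.mem_image, Finset.mem_range, Prod.mk.injEq] at h1
    obtain ⟨i, hi, rfl, rfl⟩ := h1
    split_ifs at h2 with hlt
    · simp only [Finset.mem_singleton, Prod.mk.injEq] at h2
      omega
    · simp at h2

lemma post_stagesBefore (ν : Measure (ι → Bool)) [IsProbabilityMeasure ν] (F : Finset ι) (U : ι → I) (k : ℕ)
    (v : ι) (y : ι × ℕ → I) :
    post ν (stagesBefore F U k v) v y = tmean ν F (stageTilt U y k v) v := by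
  rw [post_eq_tmean ν F _ (fun c hc => (mem_stagesBefore.mp hc).1)]
  apply tmean_local
  intro u hu
  exact tiltOf_stagesBefore F U k v y hu

end stages

end Crest.Agent.Lib.FiidRun
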