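import Crest.Prelude.Def_PairPotential
import Crest.Prelude.Def_UnitPacking

/-!
# Foundations for the gas model: pair energies and configuration integrals (row 149)

`pairE w x` is the pair energy of a labelled configuration for a symmetric pair function `w`,
`Zw w Λ N` the (extended nonnegative) canonical partition function `(1/N!) ∫_{Λ^N} exp(-pairE)`.
-/

set_option autoImplicit false

namespace Crest.Agent.Lib.GasBasic

open MeasureTheory Crest.ProbabilityR.Continuum
open scoped ENNReal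

/-- Pair energy of a labelled configuration (sum over unordered pairs, written as half of the
sum over ordered pairs). -/
noncomputable def pairE {ι : Type*} [Fintype ι] [DecidableEq ι] (w : Pt → Pt → ℝ) (x : ι → Pt) : ℝ :=
  (1 / 2) * ∑ i, ∑ j, if i = j then 0 else w (x i) (x j)

/-- The weight `exp(-pairE)` as an extended nonnegative real. -/
noncomputable def wgt {ι : Type*} [Fintype ι] [DecidableEq ι] (w : Pt → Pt → ℝ) (x : ι → Pt) : ℝ≥0∞ :=
  ENNReal.ofReal (Real.exp (-pairE w x))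

/-- Configuration integral over `Λ^N`. -/
noncomputable def confInt (w : Pt → Pt → ℝ) (Λ : Set Pt) (N : ℕ) : ℝ≥0∞ :=
  ∫⁻ x in Set.pi Set.univ (fun _ : Fin N => Λ), wgt w x

/-- Canonical partition function. -/
noncomputable def Zw (w : Pt → Pt → ℝ) (Λ : Set Pt) (N : ℕ) : ℝ≥0∞ :=
  (N.factorial : ℝ≥0∞)⁻¹ * confInt w Λ N

/-- radial pair function from a potential -/
noncomputable def rad (φ : ℝ → ℝ) : Pt → Pt → ℝ := fun a b => φ (dist a b)

/-- Symmetric measurable pair function -/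
structure GoodPair (w : Pt → Pt → ℝ) : Prop where
  symm : ∀ a b, w a b = w b a
  meas : Measurable (fun p : Pt × Pt => w p.1 p.2)

lemma goodPair_rad {φ : ℝ → ℝ} (hφ : Measurable φ) : GoodPair (rad φ) where
  symm a b := by simp [rad, dist_comm]
  meas := hφ.comp (measurable_fst.dist measurable_snd)

lemma pairE_comp_equiv {ι κ : Type*} [Fintype ι] [DecidableEq ι] [Fintype κ] [DecidableEq κ]
    (w : Pt → Pt → ℝ) (e : κ ≃ ι) (x : ι → Pt) : pairE w (x ∘ e) = pairE w x := by
  unfold pairE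
  congr 1
  rw [← Equiv.sum_comp e]
  refine Finset.sum_congr rfl fun i _ => ?_
  rw [← Equiv.sum_comp e]
  refine Finset.sum_congr rfl fun j _ => ?_
  simp [e.apply_eq_iff_eq]

lemma pairE_sum {ι κ : Type*} [Fintype ι] [DecidableEq ι] [Fintype κ] [DecidableEq κ]
    (w : Pt → Pt → ℝ) (hw : ∀ a b, w a b = w b a) (x : ι → Pt) (y : κ → Pt) :
    pairE w (Sum.elim x y) = pairE w x + pairE w y + ∑ i, ∑ j, w (x i) (y j) := by
  have h : (∑ a : κ, ∑ b : ι, w (y a) (x b)) = ∑ i : ι, ∑ j : κ, w (x i) (y j) := by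
    rw [Finset.sum_comm]
    refine Finset.sum_congr rfl fun i _ => Finset.sum_congr rfl fun j _ => hw _ _
  unfold pairE
  simp only [Fintype.sum_sum_type, Sum.elim_inl, Sum.elim_inr, Sum.inl.injEq, Sum.inr.injEq,
    reduceCtorEq, if_false, Finset.sum_add_distrib, h]
  ring

lemma wgt_sum {ι κ : Type*} [Fintype ι] [DecidableEq ι] [Fintype κ] [DecidableEq κ]
    (w : Pt → Pt → ℝ) (hw : ∀ a b, w a b = w b a) (x : ι → Pt) (y : κ → Pt) :
    wgt w (Sum.elim x y) = wgt w x * wgt w y *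
      ENNReal.ofReal (Real.exp (-∑ i, ∑ j, w (x i) (y j))) := by
  unfold wgt
  rw [pairE_sum w hw, ← ENNReal.ofReal_mul (Real.exp_pos _).le,
    ← ENNReal.ofReal_mul (by positivity), ← Real.exp_add, ← Real.exp_add]
  congr 2
  ring

lemma measurable_pairE {ι : Type*} [Fintype ι] [DecidableEq ι] {w : Pt → Pt → ℝ}
    (hw : GoodPair w) : Measurable (pairE w : (ι → Pt) → ℝ) := by
  unfold pairE
  refine Measurable.const_mul ?_ _
  refine Finset.measurable_sum _ fun i _ => Finset.measurable_sum _ fun j _ => ?_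
  by_cases h : i = j
  · simp [h]
  · simp only [h, if_false]
    have hm : Measurable (fun x : ι → Pt => (x i, x j)) :=
      (measurable_pi_apply i).prodMk (measurable_pi_apply j)
    exact hw.meas.comp hm

lemma measurable_wgt {ι : Type*} [Fintype ι] [DecidableEq ι] {w : Pt → Pt → ℝ}
    (hw : GoodPair w) : Measurable (wgt w : (ι → Pt) → ℝ≥0∞) := by
  unfold wgt
  exact ENNReal.measurable_ofReal.comp (Real.measurable_exp.comp (measurable_pairE hw).neg)

/-- The integral over a box of the form `∏ Λ_{side i}` in terms of an iterated integral. -/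
lemma box_integral {ι κ : Type*} [Fintype ι] [DecidableEq ι] [Fintype κ] [DecidableEq κ]
    {w : Pt → Pt → ℝ} (hw : GoodPair w) {N : ℕ} (e : ι ⊕ κ ≃ Fin N) (Λ₁ Λ₂ : Set Pt)
    (hΛ₁ : MeasurableSet Λ₁) (hΛ₂ : MeasurableSet Λ₂) :
    ∫⁻ x in Set.pi Set.univ (fun i : Fin N => Sum.elim (fun _ : ι => Λ₁) (fun _ : κ => Λ₂) (e.symm i)),
        wgt w x
      = ∫⁻ u in Set.pi Set.univ (fun _ : ι => Λ₁), ∫⁻ v in Set.pi Set.univ (fun _ : κ => Λ₂),
          wgt w (Sum.elim u v) := by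
  classical
  -- first change of variables: relabel by `e`
  let G : (ι ⊕ κ → Pt) ≃ᵐ (Fin N → Pt) := MeasurableEquiv.piCongrLeft (fun _ : Fin N => Pt) e
  have hG : MeasurePreserving G volume volume :=
    volume_measurePreserving_piCongrLeft (fun _ : Fin N => Pt) e
  have hGapp : ∀ (y : ι ⊕ κ → Pt) (b : ι ⊕ κ), G y (e b) = y b := fun y b =>
    MeasurableEquiv.piCongrLeft_apply_apply (β := fun _ : Fin N => Pt) e y b
  have hGcomp : ∀ y, (G y) ∘ e = y := fun y => funext fun b => hGapp y b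
  have hwG : ∀ y, wgt w (G y) = wgt w y := by
    intro y
    unfold wgt
    rw [← pairE_comp_equiv w e (G y), hGcomp]
  rw [← hG.setLIntegral_comp_preimage_emb G.measurableEmbedding]
  simp_rw [hwG]
  -- second change of variables: split the product
  let H : (ι → Pt) × (κ → Pt) ≃ᵐ (ι ⊕ κ → Pt) :=
    (MeasurableEquiv.sumPiEquivProdPi (fun _ : ι ⊕ κ => Pt)).symm
  have hH : MeasurePreserving H volume volume :=
    volume_measurePreserving_sumPiEquivProdPi_symm (fun _ : ι ⊕ κ => Pt)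
  rw [← hH.setLIntegral_comp_preimage_emb H.measurableEmbedding]
  have hHapp : ∀ p : (ι → Pt) × (κ → Pt), H p = Sum.elim p.1 p.2 := by
    intro p
    funext b
    cases b <;> rfl
  have hset : H ⁻¹' (G ⁻¹' Set.pi Set.univ
      (fun i : Fin N => Sum.elim (fun _ : ι => Λ₁) (fun _ : κ => Λ₂) (e.symm i)))
      = Set.pi Set.univ (fun _ : ι => Λ₁) ×ˢ Set.pi Set.univ (fun _ : κ => Λ₂) := by
    ext ⟨u, v⟩
    simp only [Set.mem_preimage, Set.mem_pi, Set.mem_univ, true_implies, Set.mem_prod]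
    constructor
    · intro h
      constructor
      · intro i
        have := h (e (Sum.inl i))
        rw [hGapp, hHapp] at this
        simpa using this
      · intro i
        have := h (e (Sum.inr i))
        rw [hGapp, hHapp] at this
        simpa using this
    · rintro ⟨h1, h2⟩ i
      obtain ⟨b, rfl⟩ := e.surjective i
      rw [hGapp, hHapp]
      rcases b with b | b
      · simpa using h1 b
      · simpa using h2 b
  rw [hset, Measure.volume_eq_prod, ← Measure.prod_restrict]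
  have hm : AEMeasurable (fun a : (ι → Pt) × (κ → Pt) => wgt w (H a))
      ((volume.restrict (Set.pi Set.univ (fun _ : ι => Λ₁))).prod
        (volume.restrict (Set.pi Set.univ (fun _ : κ => Λ₂)))) :=
    ((measurable_wgt hw).comp H.measurable).aemeasurable
  rw [lintegral_prod _ hm]
  simp_rw [hHapp]

/-- Iterated integral appearing in the two region decomposition. -/
noncomputable def splitInt (w : Pt → Pt → ℝ) (Λ₁ Λ₂ : Set Pt) (n₁ n₂ : ℕ) : ℝ≥0∞ :=
  ∫⁻ u in Set.pi Set.univ (fun _ : Fin n₁ => Λ₁), ∫⁻ v in Set.pi Set.univ (fun _ : Fin n₂ => Λ₂),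
    wgt w (Sum.elim u v)

/-- The box integral depends only on the number of coordinates in the first region. -/
lemma box_integral_finset {w : Pt → Pt → ℝ} (hw : GoodPair w) {N : ℕ} (S : Finset (Fin N))
    (Λ₁ Λ₂ : Set Pt) (hΛ₁ : MeasurableSet Λ₁) (hΛ₂ : MeasurableSet Λ₂) :
    ∫⁻ x in Set.pi Set.univ (fun i : Fin N => if i ∈ S then Λ₁ else Λ₂), wgt w x
      = splitInt w Λ₁ Λ₂ S.card (N - S.card) := by
  classical
  have h1 : Fintype.card {i // i ∈ S} = S.card := Fintype.card_coe S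
  have h2 : Fintype.card {i // ¬ (i ∈ S)} = N - S.card := by
    rw [Fintype.card_subtype_compl, Fintype.card_fin, Fintype.card_coe]
  let e₁ : Fin S.card ≃ {i // i ∈ S} := (Fintype.equivFinOfCardEq h1).symm
  let e₂ : Fin (N - S.card) ≃ {i // ¬ (i ∈ S)} := (Fintype.equivFinOfCardEq h2).symm
  let e : Fin S.card ⊕ Fin (N - S.card) ≃ Fin N :=
    (Equiv.sumCongr e₁ e₂).trans (Equiv.sumCompl (fun i => i ∈ S))
  have hbox := box_integral hw e Λ₁ Λ₂ hΛ₁ hΛ₂
  unfold splitInt
  rw [← hbox]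
  have hset : (fun i : Fin N => if i ∈ S then Λ₁ else Λ₂)
      = (fun i : Fin N => Sum.elim (fun _ : Fin S.card => Λ₁) (fun _ : Fin (N - S.card) => Λ₂)
          (e.symm i)) := by
    funext i
    obtain ⟨b, rfl⟩ := e.surjective i
    rw [Equiv.symm_apply_apply]
    rcases b with b | b
    · have : e (Sum.inl b) ∈ S := (e₁ b).2
      simp [this]
    · have : ¬ e (Sum.inr b) ∈ S := (e₂ b).2
      simp [this]
  rw [hset]

/-- Two-region decomposition of the configuration integral. -/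
theorem confInt_union {w : Pt → Pt → ℝ} (hw : GoodPair w) {Λ₁ Λ₂ : Set Pt}
    (hΛ₁ : MeasurableSet Λ₁) (hΛ₂ : MeasurableSet Λ₂) (hd : Disjoint Λ₁ Λ₂) (N : ℕ) :
    confInt w (Λ₁ ∪ Λ₂) N
      = ∑ m ∈ Finset.range (N + 1), (N.choose m : ℝ≥0∞) * splitInt w Λ₁ Λ₂ m (N - m) := by
  classical
  have hU : Set.pi Set.univ (fun _ : Fin N => Λ₁ ∪ Λ₂)
      = ⋃ S : Finset (Fin N), Set.pi Set.univ (fun i : Fin N => if i ∈ S then Λ₁ else Λ₂) := by
    ext x
    simp only [Set.mem_pi, Set.mem_univ, true_implies, Set.mem_union, Set.mem_iUnion]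
    constructor
    · intro h
      refine ⟨Finset.univ.filter (fun i => x i ∈ Λ₁), fun i => ?_⟩
      by_cases hi : x i ∈ Λ₁
      · simp [hi]
      · have := (h i).resolve_left hi
        simp [hi, this]
    · rintro ⟨S, hS⟩ i
      by_cases hi : i ∈ S
      · left; simpa [hi] using hS i
      · right; simpa [hi] using hS i
  have hdisj : Pairwise (Function.onFun Disjoint fun S : Finset (Fin N) =>
      Set.pi Set.univ (fun i : Fin N => if i ∈ S then Λ₁ else Λ₂)) := by
    intro S T hST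
    rw [Function.onFun, Set.disjoint_left]
    intro x hxS hxT
    obtain ⟨i, hi⟩ : ∃ i, ¬ (i ∈ S ↔ i ∈ T) := by
      by_contra hcon
      push Not at hcon
      exact hST (Finset.ext hcon)
    have h1 := hxS i (Set.mem_univ i)
    have h2 := hxT i (Set.mem_univ i)
    by_cases hS : i ∈ S
    · have hT : i ∉ T := fun hT => hi ⟨fun _ => hT, fun _ => hS⟩
      simp only [hS, if_true, hT, if_false] at h1 h2
      exact Set.disjoint_left.1 hd h1 h2
    · have hT : i ∈ T := by
        by_contra hT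
        exact hi ⟨fun h => absurd h hS, fun h => absurd h hT⟩
      simp only [hS, if_false, hT, if_true] at h1 h2
      exact Set.disjoint_left.1 hd h2 h1
  have hmeas : ∀ S : Finset (Fin N),
      MeasurableSet (Set.pi Set.univ (fun i : Fin N => if i ∈ S then Λ₁ else Λ₂)) := by
    intro S
    refine MeasurableSet.univ_pi fun i => ?_
    by_cases hi : i ∈ S
    · simpa [hi] using hΛ₁
    · simpa [hi] using hΛ₂
  unfold confInt
  rw [hU, lintegral_iUnion hmeas hdisj, tsum_fintype]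
  simp_rw [box_integral_finset hw _ Λ₁ Λ₂ hΛ₁ hΛ₂]
  have := Finset.sum_powerset_apply_card (fun m => splitInt w Λ₁ Λ₂ m (N - m))
    (x := (Finset.univ : Finset (Fin N)))
  simp only [Finset.powerset_univ, Finset.card_univ, Fintype.card_fin, nsmul_eq_mul] at this
  exact this

lemma factorial_choose_inv (N m : ℕ) (hm : m ≤ N) :
    (N.factorial : ℝ≥0∞)⁻¹ * (N.choose m : ℝ≥0∞)
      = (m.factorial : ℝ≥0∞)⁻¹ * ((N - m).factorial : ℝ≥0∞)⁻¹ := by
  have hfac : ((N.choose m * m.factorial * (N - m).factorial : ℕ) : ℝ≥0∞) = (N.factorial : ℝ≥0∞) := by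
    rw [Nat.choose_mul_factorial_mul_factorial hm]
  have hm0 : (m.factorial : ℝ≥0∞) ≠ 0 := by exact_mod_cast (Nat.factorial_ne_zero m)
  have hn0 : ((N - m).factorial : ℝ≥0∞) ≠ 0 := by exact_mod_cast (Nat.factorial_ne_zero _)
  have hm1 : (m.factorial : ℝ≥0∞) ≠ ⊤ := ENNReal.natCast_ne_top _
  have hn1 : ((N - m).factorial : ℝ≥0∞) ≠ ⊤ := ENNReal.natCast_ne_top _
  rw [← hfac]
  push_cast
  have hc0 : (N.choose m : ℝ≥0∞) ≠ 0 := by exact_mod_cast (Nat.choose_pos hm).ne'
  have hc1 : (N.choose m : ℝ≥0∞) ≠ ⊤ := ENNReal.natCast_ne_top _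
  rw [ENNReal.mul_inv (Or.inl (mul_ne_zero hc0 hm0)) (Or.inr hn0),
      ENNReal.mul_inv (Or.inl hc0) (Or.inr hm0)]
  calc (N.choose m : ℝ≥0∞)⁻¹ * (m.factorial : ℝ≥0∞)⁻¹ * ((N - m).factorial : ℝ≥0∞)⁻¹ * (N.choose m : ℝ≥0∞)
      = ((N.choose m : ℝ≥0∞)⁻¹ * (N.choose m : ℝ≥0∞)) * ((m.factorial : ℝ≥0∞)⁻¹ * ((N - m).factorial : ℝ≥0∞)⁻¹) := by
        ring
    _ = _ := by rw [ENNReal.inv_mul_cancel hc0 hc1, one_mul]

lemma splitInt_le {w : Pt → Pt → ℝ} (hw : GoodPair w) {Λ₁ Λ₂ : Set Pt}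
    (hcross : ∀ a ∈ Λ₁, ∀ b ∈ Λ₂, 0 ≤ w a b) (n₁ n₂ : ℕ) (hΛ₁ : MeasurableSet Λ₁)
    (hΛ₂ : MeasurableSet Λ₂) :
    splitInt w Λ₁ Λ₂ n₁ n₂ ≤ confInt w Λ₁ n₁ * confInt w Λ₂ n₂ := by
  unfold splitInt confInt
  have hU : MeasurableSet (Set.pi Set.univ (fun _ : Fin n₁ => Λ₁)) :=
    MeasurableSet.univ_pi fun _ => hΛ₁
  have hV : MeasurableSet (Set.pi Set.univ (fun _ : Fin n₂ => Λ₂)) :=
    MeasurableSet.univ_pi fun _ => hΛ₂
  calc ∫⁻ u in Set.pi Set.univ (fun _ : Fin n₁ => Λ₁), ∫⁻ v in Set.pi Set.univ (fun _ : Fin n₂ => Λ₂),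
          wgt w (Sum.elim u v)
      ≤ ∫⁻ u in Set.pi Set.univ (fun _ : Fin n₁ => Λ₁), ∫⁻ v in Set.pi Set.univ (fun _ : Fin n₂ => Λ₂),
          wgt w u * wgt w v := by
        refine setLIntegral_mono' hU fun u hu => setLIntegral_mono' hV fun v hv => ?_
        rw [wgt_sum w hw.symm]
        have : ENNReal.ofReal (Real.exp (-∑ i, ∑ j, w (u i) (v j))) ≤ 1 := by
          rw [← ENNReal.ofReal_one]
          apply ENNReal.ofReal_le_ofReal
          rw [Real.exp_le_one_iff, neg_nonpos]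
          exact Finset.sum_nonneg fun i _ => Finset.sum_nonneg fun j _ =>
            hcross _ (hu i (Set.mem_univ i)) _ (hv j (Set.mem_univ j))
        calc wgt w u * wgt w v * ENNReal.ofReal (Real.exp (-∑ i, ∑ j, w (u i) (v j)))
            ≤ wgt w u * wgt w v * 1 := by gcongr
          _ = wgt w u * wgt w v := mul_one _
    _ = ∫⁻ u in Set.pi Set.univ (fun _ : Fin n₁ => Λ₁), wgt w u *
          ∫⁻ v in Set.pi Set.univ (fun _ : Fin n₂ => Λ₂), wgt w v := by
        refine lintegral_congr fun u => ?_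
        rw [lintegral_const_mul _ (measurable_wgt hw)]
    _ = _ := by
        rw [lintegral_mul_const _ (measurable_wgt hw)]

lemma le_splitInt {w : Pt → Pt → ℝ} (hw : GoodPair w) {Λ₁ Λ₂ : Set Pt}
    (hcross : ∀ a ∈ Λ₁, ∀ b ∈ Λ₂, w a b ≤ 0) (n₁ n₂ : ℕ) (hΛ₁ : MeasurableSet Λ₁)
    (hΛ₂ : MeasurableSet Λ₂) :
    confInt w Λ₁ n₁ * confInt w Λ₂ n₂ ≤ splitInt w Λ₁ Λ₂ n₁ n₂ := by
  unfold splitInt confInt
  have hU : MeasurableSet (Set.pi Set.univ (fun _ : Fin n₁ => Λ₁)) :=
    MeasurableSet.univ_pi fun _ => hΛ₁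
  have hV : MeasurableSet (Set.pi Set.univ (fun _ : Fin n₂ => Λ₂)) :=
    MeasurableSet.univ_pi fun _ => hΛ₂
  calc _ = ∫⁻ u in Set.pi Set.univ (fun _ : Fin n₁ => Λ₁), wgt w u *
          ∫⁻ v in Set.pi Set.univ (fun _ : Fin n₂ => Λ₂), wgt w v := by
        rw [lintegral_mul_const _ (measurable_wgt hw)]
    _ = ∫⁻ u in Set.pi Set.univ (fun _ : Fin n₁ => Λ₁), ∫⁻ v in Set.pi Set.univ (fun _ : Fin n₂ => Λ₂),
          wgt w u * wgt w v := by
        refine lintegral_congr fun u => ?_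
        rw [lintegral_const_mul _ (measurable_wgt hw)]
    _ ≤ _ := by
        refine setLIntegral_mono' hU fun u hu => setLIntegral_mono' hV fun v hv => ?_
        rw [wgt_sum w hw.symm]
        have : 1 ≤ ENNReal.ofReal (Real.exp (-∑ i, ∑ j, w (u i) (v j))) := by
          rw [← ENNReal.ofReal_one]
          apply ENNReal.ofReal_le_ofReal
          rw [Real.one_le_exp_iff, neg_nonneg]
          exact Finset.sum_nonpos fun i _ => Finset.sum_nonpos fun j _ =>
            hcross _ (hu i (Set.mem_univ i)) _ (hv j (Set.mem_univ j))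
        calc wgt w u * wgt w v = wgt w u * wgt w v * 1 := (mul_one _).symm
          _ ≤ _ := by gcongr

/-- Upper bound when cross interactions are nonnegative. -/
theorem Zw_union_le {w : Pt → Pt → ℝ} (hw : GoodPair w) {Λ₁ Λ₂ : Set Pt}
    (hΛ₁ : MeasurableSet Λ₁) (hΛ₂ : MeasurableSet Λ₂) (hd : Disjoint Λ₁ Λ₂)
    (hcross : ∀ a ∈ Λ₁, ∀ b ∈ Λ₂, 0 ≤ w a b) (N : ℕ) :
    Zw w (Λ₁ ∪ Λ₂) N ≤ ∑ m ∈ Finset.range (N + 1), Zw w Λ₁ m * Zw w Λ₂ (N - m) := by
  unfold Zw
  rw [confInt_union hw hΛ₁ hΛ₂ hd, Finset.mul_sum]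
  refine Finset.sum_le_sum fun m hm => ?_
  have hm' : m ≤ N := Nat.lt_succ_iff.mp (Finset.mem_range.mp hm)
  rw [← mul_assoc, factorial_choose_inv N m hm']
  have key := splitInt_le hw hcross m (N - m) hΛ₁ hΛ₂
  calc _ ≤ (m.factorial : ℝ≥0∞)⁻¹ * ((N - m).factorial : ℝ≥0∞)⁻¹ * (confInt w Λ₁ m * confInt w Λ₂ (N - m)) := by
        gcongr
    _ = _ := by ring

/-- Lower bound when cross interactions are nonpositive. -/
theorem Zw_union_ge {w : Pt → Pt → ℝ} (hw : GoodPair w) {Λ₁ Λ₂ : Set Pt}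
    (hΛ₁ : MeasurableSet Λ₁) (hΛ₂ : MeasurableSet Λ₂) (hd : Disjoint Λ₁ Λ₂)
    (hcross : ∀ a ∈ Λ₁, ∀ b ∈ Λ₂, w a b ≤ 0) (n₁ n₂ : ℕ) :
    Zw w Λ₁ n₁ * Zw w Λ₂ n₂ ≤ Zw w (Λ₁ ∪ Λ₂) (n₁ + n₂) := by
  unfold Zw
  rw [confInt_union hw hΛ₁ hΛ₂ hd, Finset.mul_sum]
  have hmem : n₁ ∈ Finset.range (n₁ + n₂ + 1) := Finset.mem_range.mpr (by omega)
  refine le_trans ?_ (Finset.single_le_sum (f := fun m => ((n₁ + n₂).factorial : ℝ≥0∞)⁻¹ *
    (((n₁ + n₂).choose m : ℝ≥0∞) * splitInt w Λ₁ Λ₂ m (n₁ + n₂ - m))) (fun _ _ => bot_le) hmem)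
  have hf := factorial_choose_inv (n₁ + n₂) n₁ (by omega)
  have e2 : n₁ + n₂ - n₁ = n₂ := by omega
  rw [e2] at hf ⊢
  have key := le_splitInt hw hcross n₁ n₂ hΛ₁ hΛ₂
  calc _ = (n₁.factorial : ℝ≥0∞)⁻¹ * (n₂.factorial : ℝ≥0∞)⁻¹ * (confInt w Λ₁ n₁ * confInt w Λ₂ n₂) := by
        ring
    _ ≤ (n₁.factorial : ℝ≥0∞)⁻¹ * (n₂.factorial : ℝ≥0∞)⁻¹ * splitInt w Λ₁ Λ₂ n₁ n₂ := by gcongr
    _ = _ := by rw [← hf, mul_assoc]

lemma Zw_zero (w : Pt → Pt → ℝ) (Λ : Set Pt) : Zw w Λ 0 = 1 := by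
  unfold Zw confInt
  have h1 : ∀ x : Fin 0 → Pt, wgt w x = 1 := by
    intro x
    simp [wgt, pairE]
  simp_rw [h1]
  rw [setLIntegral_one, volume_pi_pi]
  simp

lemma Zw_empty_zero (w : Pt → Pt → ℝ) : Zw w ∅ 0 = 1 := Zw_zero w ∅

lemma Zw_empty_succ (w : Pt → Pt → ℝ) (N : ℕ) : Zw w ∅ (N + 1) = 0 := by
  unfold Zw confInt
  have : Set.pi Set.univ (fun _ : Fin (N + 1) => (∅ : Set Pt)) = ∅ := by
    ext x
    simp only [Set.mem_pi, Set.mem_univ, true_implies, Set.mem_empty_iff_false, iff_false, not_forall,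
      not_false_eq_true]
    exact ⟨0, trivial⟩
  simp [this]

lemma Zw_mono (w : Pt → Pt → ℝ) {Λ Λ' : Set Pt} (h : Λ ⊆ Λ') (N : ℕ) : Zw w Λ N ≤ Zw w Λ' N := by
  unfold Zw confInt
  gcongr

/-- Lower bound over a finite family of regions with nonpositive cross interactions. -/
theorem Zw_biUnion_ge {α : Type*} [DecidableEq α] {w : Pt → Pt → ℝ} (hw : GoodPair w)
    (s : Finset α) (Λ : α → Set Pt) (hΛ : ∀ a ∈ s, MeasurableSet (Λ a))
    (hd : ∀ a ∈ s, ∀ b ∈ s, a ≠ b → Disjoint (Λ a) (Λ b))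
    (hcross : ∀ a ∈ s, ∀ b ∈ s, a ≠ b → ∀ x ∈ Λ a, ∀ y ∈ Λ b, w x y ≤ 0) (n : α → ℕ) :
    ∏ a ∈ s, Zw w (Λ a) (n a) ≤ Zw w (⋃ a ∈ s, Λ a) (∑ a ∈ s, n a) := by
  induction s using Finset.induction_on with
  | empty => simp [Zw_empty_zero]
  | insert a s ha ih =>
    rw [Finset.prod_insert ha, Finset.sum_insert ha, Finset.set_biUnion_insert]
    have hU : MeasurableSet (⋃ b ∈ s, Λ b) := Finset.measurableSet_biUnion s fun b hb =>
      hΛ b (Finset.mem_insert_of_mem hb)
    have hdis : Disjoint (Λ a) (⋃ b ∈ s, Λ b) := by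
      rw [Set.disjoint_iUnion₂_right]
      intro b hb
      exact hd a (Finset.mem_insert_self a s) b (Finset.mem_insert_of_mem hb)
        (fun h => ha (h ▸ hb))
    have hc : ∀ x ∈ Λ a, ∀ y ∈ ⋃ b ∈ s, Λ b, w x y ≤ 0 := by
      intro x hx y hy
      simp only [Set.mem_iUnion, exists_prop] at hy
      obtain ⟨b, hb, hy⟩ := hy
      exact hcross a (Finset.mem_insert_self a s) b (Finset.mem_insert_of_mem hb)
        (fun h => ha (h ▸ hb)) x hx y hy
    refine le_trans ?_ (Zw_union_ge hw (hΛ a (Finset.mem_insert_self a s)) hU hdis hc _ _)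
    gcongr
    exact ih (fun b hb => hΛ b (Finset.mem_insert_of_mem hb))
      (fun b hb c hc => hd b (Finset.mem_insert_of_mem hb) c (Finset.mem_insert_of_mem hc))
      (fun b hb c hc => hcross b (Finset.mem_insert_of_mem hb) c (Finset.mem_insert_of_mem hc))

lemma sum_multichoose (Q N : ℕ) :
    ∑ m ∈ Finset.range (N + 1), Nat.multichoose Q (N - m) = Nat.multichoose (Q + 1) N := by
  induction N with
  | zero => simp
  | succ N ih =>
    rw [Finset.sum_range_succ']
    simp only [Nat.sub_zero, Nat.add_sub_add_right]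
    rw [ih, Nat.multichoose_succ_succ, add_comm]

/-- Upper bound over a finite family of regions with nonnegative cross interactions, assuming an
exponential-affine bound in each region. -/
theorem Zw_biUnion_le {α : Type*} [DecidableEq α] {w : Pt → Pt → ℝ} (hw : GoodPair w)
    (s : Finset α) (Λ : α → Set Pt) (hΛ : ∀ a ∈ s, MeasurableSet (Λ a))
    (hd : ∀ a ∈ s, ∀ b ∈ s, a ≠ b → Disjoint (Λ a) (Λ b))
    (hcross : ∀ a ∈ s, ∀ b ∈ s, a ≠ b → ∀ x ∈ Λ a, ∀ y ∈ Λ b, 0 ≤ w x y)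
    (μ c : ℝ) (hb : ∀ a ∈ s, ∀ n : ℕ, Zw w (Λ a) n ≤ ENNReal.ofReal (Real.exp (μ * n + c))) (N : ℕ) :
    Zw w (⋃ a ∈ s, Λ a) N ≤
      (Nat.multichoose s.card N : ℝ≥0∞) * ENNReal.ofReal (Real.exp (μ * N + s.card * c)) := by
  induction s using Finset.induction_on generalizing N with
  | empty =>
    cases N with
    | zero => simp [Zw_empty_zero]
    | succ N => simp [Zw_empty_succ]
  | insert a s ha ih =>
    rw [Finset.set_biUnion_insert, Finset.card_insert_of_notMem ha]
    have hU : MeasurableSet (⋃ b ∈ s, Λ b) := Finset.measurableSet_biUnion s fun b hb =>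
      hΛ b (Finset.mem_insert_of_mem hb)
    have hdis : Disjoint (Λ a) (⋃ b ∈ s, Λ b) := by
      rw [Set.disjoint_iUnion₂_right]
      intro b hb
      exact hd a (Finset.mem_insert_self a s) b (Finset.mem_insert_of_mem hb)
        (fun h => ha (h ▸ hb))
    have hc : ∀ x ∈ Λ a, ∀ y ∈ ⋃ b ∈ s, Λ b, 0 ≤ w x y := by
      intro x hx y hy
      simp only [Set.mem_iUnion, exists_prop] at hy
      obtain ⟨b, hb, hy⟩ := hy
      exact hcross a (Finset.mem_insert_self a s) b (Finset.mem_insert_of_mem hb)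
        (fun h => ha (h ▸ hb)) x hx y hy
    have ih' := fun M => ih (fun b hb => hΛ b (Finset.mem_insert_of_mem hb))
      (fun b hb c hc => hd b (Finset.mem_insert_of_mem hb) c (Finset.mem_insert_of_mem hc))
      (fun b hb c hc => hcross b (Finset.mem_insert_of_mem hb) c (Finset.mem_insert_of_mem hc))
      (fun b hb' n => hb b (Finset.mem_insert_of_mem hb') n) M
    refine le_trans (Zw_union_le hw (hΛ a (Finset.mem_insert_self a s)) hU hdis hc N) ?_
    rw [← sum_multichoose]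
    push_cast
    rw [Finset.sum_mul]
    refine Finset.sum_le_sum fun m hm => ?_
    have hm' : m ≤ N := Nat.lt_succ_iff.mp (Finset.mem_range.mp hm)
    calc Zw w (Λ a) m * Zw w (⋃ b ∈ s, Λ b) (N - m)
        ≤ ENNReal.ofReal (Real.exp (μ * m + c)) * ((Nat.multichoose s.card (N - m) : ℝ≥0∞) *
            ENNReal.ofReal (Real.exp (μ * (N - m : ℕ) + s.card * c))) := by
          gcongr
          · exact hb a (Finset.mem_insert_self a s) m
          · exact ih' (N - m)
      _ = (Nat.multichoose s.card (N - m) : ℝ≥0∞) * (ENNReal.ofReal (Real.exp (μ * m + c)) *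
            ENNReal.ofReal (Real.exp (μ * (N - m : ℕ) + s.card * c))) := by ring
      _ = (Nat.multichoose s.card (N - m) : ℝ≥0∞) *
            ENNReal.ofReal (Real.exp (μ * N + ((s.card : ℝ) + 1) * c)) := by
          rw [← ENNReal.ofReal_mul (Real.exp_pos _).le, ← Real.exp_add]
          congr 3
          rw [Nat.cast_sub hm']
          ring

/-- Translation invariance of the configuration integral for a radial pair function. -/
lemma confInt_translate (φ : ℝ → ℝ) (hφ : Measurable φ) (t : Pt) (Λ : Set Pt) (hΛ : MeasurableSet Λ)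
    (N : ℕ) : confInt (rad φ) ((fun x => x + t) ⁻¹' Λ) N = confInt (rad φ) Λ N := by
  unfold confInt
  have hmp : MeasurePreserving (fun x : Fin N → Pt => fun i => x i + t) volume volume := by
    have := measurePreserving_pi (fun _ : Fin N => (volume : Measure Pt))
      (fun _ : Fin N => (volume : Measure Pt))
      (f := fun _ x => x + t) (fun _ => measurePreserving_add_right volume t)
    simpa [volume_pi] using this
  have hset : MeasurableSet (Set.pi Set.univ (fun _ : Fin N => Λ)) :=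
    MeasurableSet.univ_pi fun _ => hΛ
  have hpre : (fun x : Fin N → Pt => fun i => x i + t) ⁻¹' (Set.pi Set.univ (fun _ : Fin N => Λ))
      = Set.pi Set.univ (fun _ : Fin N => (fun x => x + t) ⁻¹' Λ) := by
    ext x
    simp
  rw [← hpre]
  have hw : ∀ x : Fin N → Pt, wgt (rad φ) (fun i => x i + t) = wgt (rad φ) x := by
    intro x
    unfold wgt pairE rad
    simp
  calc ∫⁻ x in (fun x : Fin N → Pt => fun i => x i + t) ⁻¹' Set.pi Set.univ (fun _ : Fin N => Λ),
        wgt (rad φ) x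
      = ∫⁻ x in (fun x : Fin N → Pt => fun i => x i + t) ⁻¹' Set.pi Set.univ (fun _ : Fin N => Λ),
        wgt (rad φ) (fun i => x i + t) := by simp_rw [hw]
    _ = _ := hmp.setLIntegral_comp_preimage hset (measurable_wgt (goodPair_rad hφ))

lemma Zw_translate (φ : ℝ → ℝ) (hφ : Measurable φ) (t : Pt) (Λ : Set Pt) (hΛ : MeasurableSet Λ)
    (N : ℕ) : Zw (rad φ) ((fun x => x + t) ⁻¹' Λ) N = Zw (rad φ) Λ N := by
  unfold Zw
  rw [confInt_translate φ hφ t Λ hΛ]

/-- The prelude's energy as a pair energy. -/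
lemma energy_eq_pairE (φ : ℝ → ℝ) {N : ℕ} (x : Fin N → Pt) : energy φ x = pairE (rad φ) x := by
  unfold energy pairE rad
  have h1 : (∑ p : {p : Fin N × Fin N // p.1 < p.2}, φ (dist (x p.1.1) (x p.1.2)))
      = ∑ i, ∑ j, if i < j then φ (dist (x i) (x j)) else 0 := by
    rw [← Finset.sum_product']
    have := Finset.sum_subtype (p := fun p : Fin N × Fin N => p.1 < p.2) (F := inferInstance)
      (Finset.univ.filter (fun p : Fin N × Fin N => p.1 < p.2)) (by simp)
      (fun p => φ (dist (x p.1) (x p.2)))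
    rw [← this, Finset.sum_filter]
    simp [Finset.univ_product_univ]
  have h2 : (∑ i, ∑ j, if j < i then φ (dist (x i) (x j)) else 0)
      = ∑ i, ∑ j, if i < j then φ (dist (x i) (x j)) else 0 := by
    rw [Finset.sum_comm]
    refine Finset.sum_congr rfl fun i _ => Finset.sum_congr rfl fun j _ => ?_
    rw [dist_comm]
  have h3 : (∑ i, ∑ j, if i = j then 0 else φ (dist (x i) (x j)))
      = (∑ i, ∑ j, if i < j then φ (dist (x i) (x j)) else 0)
        + ∑ i, ∑ j, if j < i then φ (dist (x i) (x j)) else 0 := by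
    rw [← Finset.sum_add_distrib]
    refine Finset.sum_congr rfl fun i _ => ?_
    rw [← Finset.sum_add_distrib]
    refine Finset.sum_congr rfl fun j _ => ?_
    rcases lt_trichotomy i j with h | h | h
    · simp [h, h.ne, h.le.not_gt]
    · simp [h]
    · simp [h, h.ne', h.le.not_gt]
  rw [h1, h3, h2]
  ring

lemma measurableSet_cube (L : ℝ) : MeasurableSet (cube L) := by
  have : cube L = ⋂ k : Fin 3, {x : Pt | 0 ≤ x k ∧ x k ≤ L} := by
    ext x
    simp [cube]
  rw [this]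
  refine MeasurableSet.iInter fun k => ?_
  have hk : Measurable (fun x : Pt => x k) := by
    exact (EuclideanSpace.proj (𝕜 := ℝ) k).continuous.measurable
  exact (measurableSet_le measurable_const hk).inter (measurableSet_le hk measurable_const)

/-- The prelude's partition function in terms of `Zw`. -/
lemma partitionFn_eq (φ : ℝ → ℝ) (hφ : Measurable φ) (L : ℝ) (N : ℕ) (β : ℝ) :
    partitionFn φ L N β = (Zw (rad (fun r => β * φ r)) (cube L) N).toReal := by
  unfold partitionFn Zw confInt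
  rw [ENNReal.toReal_mul, ENNReal.toReal_inv, ENNReal.toReal_natCast, one_div]
  congr 1
  have hw : GoodPair (rad (fun r => β * φ r)) := goodPair_rad (hφ.const_mul β)
  have hen : ∀ x : Fin N → Pt, -β * energy φ x = -pairE (rad (fun r => β * φ r)) x := by
    intro x
    rw [← energy_eq_pairE]
    unfold energy
    rw [neg_mul, Finset.mul_sum]
  simp_rw [hen]
  rw [integral_eq_lintegral_of_nonneg_ae]
  · simp_rw [wgt]
  · exact Filter.Eventually.of_forall fun x => (Real.exp_pos _).le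
  · exact (Real.measurable_exp.comp (measurable_pairE hw).neg).aestronglyMeasurable

end Crest.Agent.Lib.GasBasic
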