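import Crest.Agent.Lib.GasBasic

/-!
# Ball-overlap kernels (row 149)

`KK R r = vol(B(0,R) ∩ B(r e₁,R)) / vol(B_R)^2`: a continuous radial kernel with total mass `1`,
supported in `r < 2R`, bounded by `1/vol(B_R)`. Being a convolution square it obeys an exact lower
bound by Cauchy-Schwarz, and an upper bound by occupation numbers of any grid of cubes.
-/

set_option autoImplicit false
set_option linter.unusedVariables false

namespace Crest.Agent.Lib.GasKernel

open MeasureTheory Crest.ProbabilityR.Continuum Crest.Agent.Lib.GasBasic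
open scoped ENNReal

/-- Volume of the ball of radius `R`, as a real. -/
noncomputable def volB (R : ℝ) : ℝ := (volume (Metric.ball (0 : Pt) R)).toReal

/-- First basis vector. -/
noncomputable def e₁ : Pt := EuclideanSpace.single 0 1

/-- Overlap volume of two balls of radius `R` with centres at distance `r`. -/
noncomputable def ovl (R r : ℝ) : ℝ :=
  (volume (Metric.ball (0 : Pt) R ∩ Metric.ball (r • e₁) R)).toReal

/-- The kernel. -/
noncomputable def KK (R r : ℝ) : ℝ := ovl R r / volB R ^ 2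

lemma volume_ball_ne_top (x : Pt) (R : ℝ) : volume (Metric.ball x R) ≠ ⊤ :=
  measure_ball_lt_top.ne

lemma volB_pos {R : ℝ} (hR : 0 < R) : 0 < volB R := by
  unfold volB
  exact ENNReal.toReal_pos (Metric.measure_ball_pos volume 0 hR).ne' (volume_ball_ne_top _ _)

lemma volB_scale {R : ℝ} (hR : 0 ≤ R) : volB R = R ^ 3 * volB 1 := by
  unfold volB
  rw [Measure.addHaar_ball volume (0 : Pt) hR]
  simp [ENNReal.toReal_mul, ENNReal.toReal_ofReal, hR]

lemma volume_ball_center (x : Pt) (R : ℝ) : (volume (Metric.ball x R)).toReal = volB R := by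
  unfold volB
  rw [Measure.addHaar_ball_center]

lemma norm_e₁ : ‖e₁‖ = 1 := by simp [e₁]

/-- Radial symmetry. -/
lemma ovl_dist (R : ℝ) (x y : Pt) :
    (volume (Metric.ball x R ∩ Metric.ball y R)).toReal = ovl R (dist x y) := by
  -- the isometry `z ↦ ρ (z - x)`, `ρ` the reflection taking `y - x` to `dist x y • e₁`.
  set v : Pt := y - x with hv
  set w : Pt := dist x y • e₁ with hw
  have hnorm : ‖v‖ = ‖w‖ := by
    simp [hv, hw, norm_smul, norm_e₁, dist_eq_norm, norm_sub_rev]
  let ρ : Pt ≃ₗᵢ[ℝ] Pt := Submodule.reflection (ℝ ∙ (v - w))ᗮ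
  have hρ : ρ v = w := Submodule.reflection_sub hnorm
  have hmp : MeasurePreserving ρ volume volume := ρ.measurePreserving
  have hsub : MeasurePreserving (fun z : Pt => z - x) volume volume :=
    measurePreserving_sub_right volume x
  have hcomp : MeasurePreserving (fun z : Pt => ρ (z - x)) volume volume := hmp.comp hsub
  have hset : Metric.ball x R ∩ Metric.ball y R =
      (fun z : Pt => ρ (z - x)) ⁻¹' (Metric.ball (0 : Pt) R ∩ Metric.ball (dist x y • e₁) R) := by
    ext z
    simp only [Set.mem_inter_iff, Set.mem_preimage, Metric.mem_ball, dist_zero_right,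
      LinearIsometryEquiv.norm_map]
    have h1 : dist (ρ (z - x)) (dist x y • e₁) = dist z y := by
      rw [← hw, ← hρ, LinearIsometryEquiv.dist_map, hv, dist_sub_right]
    rw [h1, dist_eq_norm z x]
  unfold ovl
  rw [hset, hcomp.measure_preimage
    ((measurableSet_ball.inter measurableSet_ball).nullMeasurableSet)]

lemma KK_nonneg (R r : ℝ) : 0 ≤ KK R r := by
  unfold KK ovl
  positivity

lemma ovl_le (R r : ℝ) : ovl R r ≤ volB R := by
  unfold ovl volB
  exact ENNReal.toReal_mono (volume_ball_ne_top _ _) (measure_mono Set.inter_subset_left)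

lemma KK_le {R : ℝ} (hR : 0 < R) (r : ℝ) : KK R r ≤ 1 / volB R := by
  unfold KK
  have h := volB_pos hR
  rw [div_le_div_iff₀ (by positivity) h]
  nlinarith [ovl_le R r]

lemma KK_eq_zero {R r : ℝ} (hR : 0 < R) (hr : 2 * R ≤ r) : KK R r = 0 := by
  unfold KK ovl
  have : Metric.ball (0 : Pt) R ∩ Metric.ball (r • e₁) R = ∅ := by
    apply (Metric.ball_disjoint_ball _).inter_eq
    rw [dist_zero_left, norm_smul, norm_e₁, mul_one, Real.norm_eq_abs, abs_of_nonneg (by linarith)]
    linarith
  simp [this]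

/-- For `0 ≤ r < R` the overlap contains a ball of radius `R - r`. -/
lemma KK_lower {R r : ℝ} (hR : 0 < R) (hr : 0 ≤ r) (hrR : r ≤ R) :
    volB (R - r) / volB R ^ 2 ≤ KK R r := by
  unfold KK
  have h := volB_pos hR
  apply div_le_div_of_nonneg_right _ (by positivity)
  unfold ovl volB
  apply ENNReal.toReal_mono
  · exact ne_top_of_le_ne_top (volume_ball_ne_top 0 R) (measure_mono Set.inter_subset_left)
  · apply measure_mono
    intro z hz
    simp only [Metric.mem_ball, dist_zero_right] at hz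
    refine ⟨?_, ?_⟩
    · simp only [Metric.mem_ball, dist_zero_right]; linarith
    · simp only [Metric.mem_ball, dist_eq_norm]
      calc ‖z - r • e₁‖ ≤ ‖z‖ + ‖r • e₁‖ := norm_sub_le _ _
        _ = ‖z‖ + r := by rw [norm_smul, norm_e₁, mul_one, Real.norm_eq_abs, abs_of_nonneg hr]
        _ < R := by linarith

/-- Indicator of a ball, real valued. -/
noncomputable def Ind (x : Pt) (R : ℝ) : Pt → ℝ := (Metric.ball x R).indicator (fun _ => 1)

lemma Ind_nonneg (x : Pt) (R : ℝ) (z : Pt) : 0 ≤ Ind x R z := by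
  unfold Ind; exact Set.indicator_nonneg (fun _ _ => zero_le_one) z

lemma Ind_le_one (x : Pt) (R : ℝ) (z : Pt) : Ind x R z ≤ 1 := by
  unfold Ind; exact Set.indicator_le_self' (fun _ _ => zero_le_one) z

lemma Ind_mul (x y : Pt) (R : ℝ) (z : Pt) :
    Ind x R z * Ind y R z = (Metric.ball x R ∩ Metric.ball y R).indicator (fun _ => (1 : ℝ)) z := by
  unfold Ind
  by_cases h1 : z ∈ Metric.ball x R <;> by_cases h2 : z ∈ Metric.ball y R <;>
    simp [Set.indicator, h1, h2]

lemma integrable_Ind (x : Pt) (R : ℝ) : Integrable (Ind x R) := by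
  unfold Ind
  exact (integrable_indicator_iff measurableSet_ball).2
    ((integrableOn_const_iff (by simp)).2 (Or.inr measure_ball_lt_top))

lemma measurable_Ind (x : Pt) (R : ℝ) : Measurable (Ind x R) :=
  measurable_const.indicator measurableSet_ball

lemma integrable_Ind_mul (x y : Pt) (R : ℝ) : Integrable (fun z => Ind x R z * Ind y R z) := by
  refine (integrable_Ind x R).mono' ((measurable_Ind x R).mul (measurable_Ind y R)).aestronglyMeasurable ?_
  refine Filter.Eventually.of_forall fun z => ?_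
  rw [Real.norm_eq_abs, abs_of_nonneg (mul_nonneg (Ind_nonneg _ _ _) (Ind_nonneg _ _ _))]
  calc Ind x R z * Ind y R z ≤ Ind x R z * 1 :=
        mul_le_mul_of_nonneg_left (Ind_le_one _ _ _) (Ind_nonneg _ _ _)
    _ = Ind x R z := mul_one _

lemma integral_Ind_mul (x y : Pt) (R : ℝ) :
    ∫ z, Ind x R z * Ind y R z = ovl R (dist x y) := by
  simp_rw [Ind_mul]
  rw [integral_indicator_const _ (measurableSet_ball.inter measurableSet_ball), ← ovl_dist]
  simp [Measure.real]

lemma integral_Ind (x : Pt) (R : ℝ) : ∫ z, Ind x R z = volB R := by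
  unfold Ind
  rw [integral_indicator_const _ measurableSet_ball, ← volume_ball_center x R]
  simp [Measure.real]

lemma ovl_zero (R : ℝ) : ovl R 0 = volB R := by
  unfold ovl volB
  simp

lemma continuous_ovl (R : ℝ) : Continuous (ovl R) := by
  have hform : ∀ r : ℝ, ovl R r = ∫ z : Pt, Ind (0 : Pt) R z * Ind (r • e₁) R z := by
    intro r
    rw [integral_Ind_mul]
    rw [← ovl_dist]
    unfold ovl
    rfl
  have hfun : ovl R = fun r : ℝ => ∫ z : Pt, Ind (0 : Pt) R z * Ind (r • e₁) R z := funext hform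
  rw [hfun]
  refine continuous_iff_continuousAt.2 fun r₀ => ?_
  refine continuousAt_of_dominated (bound := Ind (0 : Pt) R) ?_ ?_ (integrable_Ind _ _) ?_
  · exact Filter.Eventually.of_forall fun r =>
      ((measurable_Ind _ _).mul (measurable_Ind _ _)).aestronglyMeasurable
  · refine Filter.Eventually.of_forall fun r => Filter.Eventually.of_forall fun z => ?_
    rw [Real.norm_eq_abs, abs_of_nonneg (mul_nonneg (Ind_nonneg _ _ _) (Ind_nonneg _ _ _))]
    calc Ind (0 : Pt) R z * Ind (r • e₁) R z ≤ Ind (0 : Pt) R z * 1 :=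
          mul_le_mul_of_nonneg_left (Ind_le_one _ _ _) (Ind_nonneg _ _ _)
      _ = Ind (0 : Pt) R z := mul_one _
  · have hs : (volume : Measure Pt) (Metric.sphere (r₀ • e₁) R) = 0 :=
      Measure.addHaar_sphere volume _ _
    have hae : ∀ᵐ z : Pt, z ∉ Metric.sphere (r₀ • e₁) R := measure_eq_zero_iff_ae_notMem.1 hs
    filter_upwards [hae] with z hz
    refine ContinuousAt.mul continuousAt_const ?_
    have hcont : Continuous (fun r : ℝ => dist z (r • e₁)) := by fun_prop
    rcases lt_or_gt_of_ne (show dist z (r₀ • e₁) ≠ R from fun h => hz (Metric.mem_sphere.2 h)) with h | h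
    · have : ∀ᶠ r in nhds r₀, dist z (r • e₁) < R :=
        hcont.continuousAt.eventually (gt_mem_nhds h)
      refine ContinuousAt.congr (f := fun _ => (1 : ℝ)) continuousAt_const ?_
      filter_upwards [this] with r hr
      simp [Ind, hr]
    · have : ∀ᶠ r in nhds r₀, R < dist z (r • e₁) :=
        hcont.continuousAt.eventually (lt_mem_nhds h)
      refine ContinuousAt.congr (f := fun _ => (0 : ℝ)) continuousAt_const ?_
      filter_upwards [this] with r hr
      simp [Ind, not_lt.2 hr.le]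

lemma continuous_KK {R : ℝ} (hR : 0 < R) : Continuous (KK R) := by
  unfold KK
  exact (continuous_ovl R).div_const _

section identity

variable {N : ℕ}

/-- occupation function -/
noncomputable def occ (x : Fin N → Pt) (R : ℝ) (z : Pt) : ℝ := ∑ i, Ind (x i) R z

lemma occ_nonneg (x : Fin N → Pt) (R : ℝ) (z : Pt) : 0 ≤ occ x R z :=
  Finset.sum_nonneg fun _ _ => Ind_nonneg _ _ _

lemma integrable_occ (x : Fin N → Pt) (R : ℝ) : Integrable (occ x R) :=
  integrable_finsetSum _ fun _ _ => integrable_Ind _ _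

lemma integral_occ (x : Fin N → Pt) (R : ℝ) : ∫ z, occ x R z = N * volB R := by
  unfold occ
  rw [integral_finsetSum _ fun _ _ => integrable_Ind _ _]
  simp [integral_Ind]

lemma occ_sq (x : Fin N → Pt) (R : ℝ) (z : Pt) :
    occ x R z ^ 2 = ∑ i, ∑ j, Ind (x i) R z * Ind (x j) R z := by
  unfold occ
  rw [sq, Finset.sum_mul_sum]

lemma integrable_occ_sq (x : Fin N → Pt) (R : ℝ) : Integrable (fun z => occ x R z ^ 2) := by
  simp_rw [occ_sq]
  exact integrable_finsetSum _ fun _ _ => integrable_finsetSum _ fun _ _ => integrable_Ind_mul _ _ _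

lemma integral_occ_sq (x : Fin N → Pt) (R : ℝ) :
    ∫ z, occ x R z ^ 2 = ∑ i, ∑ j, ovl R (dist (x i) (x j)) := by
  simp_rw [occ_sq]
  rw [integral_finsetSum _ fun _ _ => integrable_finsetSum _ fun _ _ => integrable_Ind_mul _ _ _]
  refine Finset.sum_congr rfl fun i _ => ?_
  rw [integral_finsetSum _ fun _ _ => integrable_Ind_mul _ _ _]
  exact Finset.sum_congr rfl fun j _ => integral_Ind_mul _ _ _

lemma pairE_KK_eq {R : ℝ} (hR : 0 < R) (x : Fin N → Pt) :
    pairE (rad (KK R)) x = ((∫ z, occ x R z ^ 2) - N * volB R) / (2 * volB R ^ 2) := by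
  have hV := volB_pos hR
  rw [integral_occ_sq]
  unfold pairE rad KK
  have h1 : ∀ i : Fin N, (∑ j, ovl R (dist (x i) (x j))) =
      (∑ j, if i = j then 0 else ovl R (dist (x i) (x j))) + volB R := by
    intro i
    rw [← Finset.add_sum_erase _ _ (Finset.mem_univ i),
      ← Finset.add_sum_erase (a := i) _ (fun j => if i = j then 0 else ovl R (dist (x i) (x j)))
        (Finset.mem_univ i)]
    simp only [dist_self, ovl_zero, if_true]
    rw [zero_add, add_comm]
    congr 1
    refine Finset.sum_congr rfl fun j hj => ?_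
    rw [if_neg (Finset.ne_of_mem_erase hj).symm]
  have h2 : ∑ i : Fin N, ∑ j, (if i = j then (0 : ℝ) else ovl R (dist (x i) (x j)) / volB R ^ 2) =
      (∑ i : Fin N, ∑ j, if i = j then 0 else ovl R (dist (x i) (x j))) / volB R ^ 2 := by
    rw [Finset.sum_div]
    refine Finset.sum_congr rfl fun i _ => ?_
    rw [Finset.sum_div]
    refine Finset.sum_congr rfl fun j _ => ?_
    split_ifs <;> simp
  rw [h2]
  simp_rw [h1]
  rw [Finset.sum_add_distrib]
  simp only [Finset.sum_const, Finset.card_univ, Fintype.card_fin, nsmul_eq_mul]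
  field_simp
  ring

end identity

/-- Box around the cube. -/
def bigBox (L R : ℝ) : Set Pt := {z | ∀ k : Fin 3, -R ≤ z k ∧ z k ≤ L + R}

lemma bigBox_eq (L R : ℝ) : bigBox L R =
    (WithLp.ofLp : Pt → (Fin 3 → ℝ)) ⁻¹' (Set.Icc (fun _ => -R) (fun _ => L + R)) := by
  ext z
  simp [bigBox, Set.mem_Icc, Pi.le_def, forall_and]

lemma measurableSet_bigBox (L R : ℝ) : MeasurableSet (bigBox L R) := by
  rw [bigBox_eq]
  exact (WithLp.measurable_ofLp 2 _) measurableSet_Icc

lemma volume_bigBox {L R : ℝ} (h : 0 ≤ L + 2 * R) :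
    volume (bigBox L R) = ENNReal.ofReal ((L + 2 * R) ^ 3) := by
  rw [bigBox_eq, (PiLp.volume_preserving_ofLp (Fin 3)).measure_preimage
    measurableSet_Icc.nullMeasurableSet, Real.volume_Icc_pi]
  simp only [Fin.prod_univ_three]
  have : L + R - -R = L + 2 * R := by ring
  rw [this, ← ENNReal.ofReal_mul h, ← ENNReal.ofReal_mul (mul_nonneg h h)]
  congr 1
  ring

lemma coord_lt {x z : Pt} {R : ℝ} (hz : z ∈ Metric.ball x R) (k : Fin 3) :
    |z k - x k| < R := by
  have h1 : ‖(z - x) k‖ ≤ ‖z - x‖ := PiLp.norm_apply_le (z - x) k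
  have h2 : ‖z - x‖ < R := by simpa [dist_eq_norm] using hz
  have h3 : ‖(z - x) k‖ = |z k - x k| := by simp [Real.norm_eq_abs]
  linarith

/-- Lower bound (Cauchy-Schwarz on the box of side `L + 2R` around the cube of side `L`). -/
theorem pairE_KK_ge {R L : ℝ} (hR : 0 < R) (hL : 0 ≤ L) {N : ℕ} (x : Fin N → Pt)
    (hx : ∀ i, x i ∈ cube L) :
    (1 / 2 : ℝ) * ((N : ℝ) ^ 2 / (L + 2 * R) ^ 3 - N / volB R) ≤ pairE (rad (KK R)) x := by
  have hV := volB_pos hR
  have hpos : 0 < L + 2 * R := by linarith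
  set A : ℝ := (L + 2 * R) ^ 3 with hA
  have hApos : 0 < A := by positivity
  set g : Pt → ℝ := occ x R with hg
  -- `g` vanishes off the box
  have hsupp : ∀ z, z ∉ bigBox L R → g z = 0 := by
    intro z hz
    refine Finset.sum_eq_zero fun i _ => ?_
    refine Set.indicator_of_notMem (fun hb => hz ?_) _
    intro k
    have h1 := coord_lt hb k
    have h2 := hx i k
    rw [abs_lt] at h1
    constructor <;> linarith [h2.1, h2.2, h1.1, h1.2]
  have hBoxInt : Integrable ((bigBox L R).indicator (fun _ => (1 : ℝ))) := by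
    refine (integrable_indicator_iff (measurableSet_bigBox L R)).2
      ((integrableOn_const_iff (by simp)).2 (Or.inr ?_))
    rw [volume_bigBox hpos.le]; exact ENNReal.ofReal_lt_top
  have hBoxVal : ∫ z, (bigBox L R).indicator (fun _ => (1 : ℝ)) z = A := by
    rw [integral_indicator_const _ (measurableSet_bigBox L R)]
    simp only [Measure.real, volume_bigBox hpos.le, smul_eq_mul, mul_one]
    exact ENNReal.toReal_ofReal hApos.le
  have hgInt : ∫ z, g z = N * volB R := integral_occ x R
  set a : ℝ := (N * volB R) / A with ha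
  have hnn : 0 ≤ ∫ z, (g z ^ 2 - 2 * a * g z + a ^ 2 * (bigBox L R).indicator (fun _ => (1 : ℝ)) z) := by
    refine integral_nonneg fun z => ?_
    change 0 ≤ g z ^ 2 - 2 * a * g z + a ^ 2 * (bigBox L R).indicator (fun _ => (1 : ℝ)) z
    by_cases hz : z ∈ bigBox L R
    · simp only [Set.indicator_of_mem hz]
      nlinarith [sq_nonneg (g z - a)]
    · simp only [Set.indicator_of_notMem hz, hsupp z hz]
      simp
  have hexp : ∫ z, (g z ^ 2 - 2 * a * g z + a ^ 2 * (bigBox L R).indicator (fun _ => (1 : ℝ)) z) =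
      (∫ z, g z ^ 2) - 2 * a * (N * volB R) + a ^ 2 * A := by
    have hI1 : Integrable (fun z => g z ^ 2) := integrable_occ_sq x R
    have hI2 : Integrable (fun z => 2 * a * g z) := (integrable_occ x R).const_mul _
    have hI3 : Integrable (fun z => g z ^ 2 - 2 * a * g z) := hI1.sub hI2
    have hI4 : Integrable (fun z => a ^ 2 * (bigBox L R).indicator (fun _ => (1 : ℝ)) z) :=
      hBoxInt.const_mul _
    rw [integral_add hI3 hI4, integral_sub hI1 hI2, integral_const_mul, integral_const_mul,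
      hBoxVal, hgInt]
  rw [hexp] at hnn
  have hT : (N * volB R) ^ 2 / A ≤ ∫ z, g z ^ 2 := by
    have : a ^ 2 * A = (N * volB R) ^ 2 / A := by rw [ha]; field_simp
    have h2 : 2 * a * (N * volB R) = 2 * ((N * volB R) ^ 2 / A) := by rw [ha]; ring
    rw [this, h2] at hnn
    linarith
  rw [pairE_KK_eq hR x]
  rw [le_div_iff₀ (by positivity)]
  have hlhs : (1 / 2 : ℝ) * ((N : ℝ) ^ 2 / A - N / volB R) * (2 * volB R ^ 2) =
      (N * volB R) ^ 2 / A - N * volB R := by
    field_simp
  rw [hlhs]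
  linarith

/-- A grid cell. -/
def cell (l : ℝ) (s : Fin 3 → ℝ) (c : Fin 3 → ℤ) : Set Pt :=
  {y | ∀ k, (c k : ℝ) * l + s k ≤ y k ∧ y k < ((c k : ℝ) + 1) * l + s k}

lemma cell_eq (l : ℝ) (s : Fin 3 → ℝ) (c : Fin 3 → ℤ) : cell l s c =
    (WithLp.ofLp : Pt → (Fin 3 → ℝ)) ⁻¹'
      (Set.pi Set.univ fun k => Set.Ico ((c k : ℝ) * l + s k) (((c k : ℝ) + 1) * l + s k)) := by
  ext z
  simp [cell, Set.mem_pi, Set.mem_Ico]

lemma measurableSet_cell (l : ℝ) (s : Fin 3 → ℝ) (c : Fin 3 → ℤ) : MeasurableSet (cell l s c) := by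
  rw [cell_eq]
  exact (WithLp.measurable_ofLp 2 _)
    (MeasurableSet.univ_pi fun _ => measurableSet_Ico)

lemma volume_cell {l : ℝ} (hl : 0 < l) (s : Fin 3 → ℝ) (c : Fin 3 → ℤ) :
    volume (cell l s c) = ENNReal.ofReal (l ^ 3) := by
  rw [cell_eq, (PiLp.volume_preserving_ofLp (Fin 3)).measure_preimage
    (MeasurableSet.univ_pi fun _ => measurableSet_Ico).nullMeasurableSet, Real.volume_pi_Ico]
  simp only [Fin.prod_univ_three]
  have : ∀ k : Fin 3, ((c k : ℝ) + 1) * l + s k - ((c k : ℝ) * l + s k) = l := fun k => by ring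
  rw [this, this, this, ← ENNReal.ofReal_mul hl.le, ← ENNReal.ofReal_mul (mul_nonneg hl.le hl.le)]
  congr 1
  ring

lemma cell_dist_lt {l : ℝ} (hl : 0 < l) {s : Fin 3 → ℝ} {c : Fin 3 → ℤ} {y y' : Pt}
    (hy : y ∈ cell l s c) (hy' : y' ∈ cell l s c) : dist y y' < Real.sqrt 3 * l := by
  rw [EuclideanSpace.dist_eq]
  have hk : ∀ k, dist (y k) (y' k) ^ 2 < l ^ 2 := by
    intro k
    have h1 := hy k
    have h2 := hy' k
    rw [Real.dist_eq, sq_abs]
    have : (((c k : ℝ) + 1) * l + s k) - ((c k : ℝ) * l + s k) = l := by ring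
    have h3 : |y k - y' k| < l := by
      rw [abs_lt]; constructor <;> linarith [h1.1, h1.2, h2.1, h2.2]
    have := sq_lt_sq' (by linarith [(abs_lt.1 h3).1]) (abs_lt.1 h3).2
    simpa using this
  rw [Real.sqrt_lt' (by positivity), mul_pow, Real.sq_sqrt (by norm_num), Fin.sum_univ_three]
  linarith [hk 0, hk 1, hk 2]

lemma cell_disjoint {l : ℝ} (hl : 0 < l) (s : Fin 3 → ℝ) {c c' : Fin 3 → ℤ} (hc : c ≠ c') :
    Disjoint (cell l s c) (cell l s c') := by
  rw [Set.disjoint_left]
  intro y hy hy'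
  apply hc
  funext k
  have h1 := hy k
  have h2 := hy' k
  have h3 : (c k : ℝ) * l < ((c' k : ℝ) + 1) * l := by linarith [h1.1, h2.2]
  have h4 : (c' k : ℝ) * l < ((c k : ℝ) + 1) * l := by linarith [h2.1, h1.2]
  have h5 : (c k : ℝ) < (c' k : ℝ) + 1 := lt_of_mul_lt_mul_right h3 hl.le
  have h6 : (c' k : ℝ) < (c k : ℝ) + 1 := lt_of_mul_lt_mul_right h4 hl.le
  have h7 : c k < c' k + 1 := by exact_mod_cast h5
  have h8 : c' k < c k + 1 := by exact_mod_cast h6
  omega

/-- Upper bound by occupation numbers of a grid of cubes of side `l`: `v i` is the (integer)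
cell index of particle `i`, for a grid shifted by `s`. Note that
`∑ i, ∑ j, if v i = v j then 1 else 0` is the sum of squares of the occupation numbers. -/
theorem pairE_KK_le {R l : ℝ} (hR : 0 < R) (hl : 0 < l) {N : ℕ} (x : Fin N → Pt)
    (s : Fin 3 → ℝ) (v : Fin N → Fin 3 → ℤ)
    (hv : ∀ i k, (v i k : ℝ) * l + s k ≤ x i k ∧ x i k < ((v i k : ℝ) + 1) * l + s k) :
    pairE (rad (KK R)) x ≤ (1 / 2 : ℝ) * (1 + Real.sqrt 3 * l / R) ^ 6 / l ^ 3 *
      ∑ i, ∑ j, if v i = v j then (1 : ℝ) else 0 := by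
  classical
  have hV := volB_pos hR
  set d : ℝ := Real.sqrt 3 * l with hd
  have hd0 : 0 < d := by positivity
  set V' : ℝ := volB (R + d) with hV'
  have hV'pos : 0 < V' := volB_pos (by linarith)
  have hxcell : ∀ i, x i ∈ cell l s (v i) := fun i k => hv i k
  let C : Finset (Fin 3 → ℤ) := Finset.univ.image v
  let thick : (Fin 3 → ℤ) → Set Pt := fun c => Metric.thickening R (cell l s c)
  let w : (Fin 3 → ℤ) → Pt → ℝ := fun c => (thick c).indicator (fun _ => 1)
  let n : (Fin 3 → ℤ) → ℝ := fun c => ((Finset.univ.filter fun i => v i = c).card : ℝ)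
  have hthick_meas : ∀ c, MeasurableSet (thick c) := fun c => Metric.isOpen_thickening.measurableSet
  have hw01 : ∀ c z, w c z = 0 ∨ w c z = 1 := by
    intro c z
    by_cases h : z ∈ thick c
    · right; simp [w, h]
    · left; simp [w, h]
  have hw_nonneg : ∀ c z, 0 ≤ w c z := fun c z => by
    rcases hw01 c z with h | h <;> simp [h]
  have hn_nonneg : ∀ c, 0 ≤ n c := fun c => by simp [n]
  -- thickening of a populated cell lies in a ball of radius `R + d`
  have hthick_sub : ∀ i, thick (v i) ⊆ Metric.ball (x i) (R + d) := by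
    intro i z hz
    obtain ⟨y, hy, hzy⟩ := Metric.mem_thickening_iff.1 hz
    have h1 := cell_dist_lt hl hy (hxcell i)
    rw [Metric.mem_ball]
    calc dist z (x i) ≤ dist z y + dist y (x i) := dist_triangle _ _ _
      _ < R + d := add_lt_add hzy h1
  have hthick_vol : ∀ c ∈ C, (volume (thick c)).toReal ≤ V' := by
    intro c hc
    obtain ⟨i, -, rfl⟩ := Finset.mem_image.1 hc
    rw [hV', ← volume_ball_center (x i)]
    exact ENNReal.toReal_mono (volume_ball_ne_top _ _) (measure_mono (hthick_sub i))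
  have hthick_fin : ∀ c ∈ C, volume (thick c) ≠ ⊤ := by
    intro c hc
    obtain ⟨i, -, rfl⟩ := Finset.mem_image.1 hc
    exact ne_top_of_le_ne_top (volume_ball_ne_top _ _) (measure_mono (hthick_sub i))
  have hw_int : ∀ c ∈ C, Integrable (w c) := by
    intro c hc
    refine (integrable_indicator_iff (hthick_meas c)).2
      ((integrableOn_const_iff (by simp)).2 (Or.inr (lt_top_iff_ne_top.2 (hthick_fin c hc))))
  have hw_val : ∀ c ∈ C, ∫ z, w c z ≤ V' := by
    intro c hc
    have : ∫ z, w c z = (volume (thick c)).toReal := by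
      simp only [w]
      rw [integral_indicator_const _ (hthick_meas c)]
      simp [Measure.real]
    rw [this]
    exact hthick_vol c hc
  -- counting: number of cells whose thickening contains `z`
  have hcount : ∀ z, (∑ c ∈ C, w c z) * l ^ 3 ≤ V' := by
    intro z
    set T := C.filter fun c => z ∈ thick c with hT
    have h1 : (∑ c ∈ C, w c z) = (T.card : ℝ) := by
      rw [Finset.card_eq_sum_ones, hT, Finset.sum_filter]
      push_cast
      refine Finset.sum_congr rfl fun c _ => ?_
      by_cases h : z ∈ thick c <;> simp [w, h]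
    have hsub : (⋃ c ∈ T, cell l s c) ⊆ Metric.ball z (R + d) := by
      intro y hy
      simp only [Set.mem_iUnion] at hy
      obtain ⟨c, hc, hy⟩ := hy
      have hzc : z ∈ thick c := (Finset.mem_filter.1 hc).2
      obtain ⟨y', hy', hzy'⟩ := Metric.mem_thickening_iff.1 hzc
      rw [Metric.mem_ball]
      calc dist y z ≤ dist y y' + dist y' z := dist_triangle _ _ _
        _ < d + R := add_lt_add (cell_dist_lt hl hy hy') (by rw [dist_comm]; exact hzy')
        _ = R + d := add_comm _ _
    have hvol : volume (⋃ c ∈ T, cell l s c) = T.card * ENNReal.ofReal (l ^ 3) := by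
      rw [measure_biUnion_finset
        (fun c _ c' _ hne => cell_disjoint hl s hne) (fun c _ => measurableSet_cell l s c)]
      simp [volume_cell hl]
    have hle := measure_mono (μ := (volume : Measure Pt)) hsub
    rw [hvol] at hle
    have hle' := ENNReal.toReal_mono (volume_ball_ne_top _ _) hle
    rw [volume_ball_center, ENNReal.toReal_mul, ENNReal.toReal_ofReal (by positivity)] at hle'
    rw [h1]
    simpa using hle'
  -- pointwise bound
  have hpt : ∀ z, occ x R z ^ 2 ≤ (V' / l ^ 3) * ∑ c ∈ C, n c ^ 2 * w c z := by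
    intro z
    have h1 : occ x R z ≤ ∑ c ∈ C, n c * w c z := by
      have h2 : ∀ i, Ind (x i) R z ≤ w (v i) z := by
        intro i
        by_cases hz : z ∈ Metric.ball (x i) R
        · have : z ∈ thick (v i) :=
            Metric.mem_thickening_iff.2 ⟨x i, hxcell i, hz⟩
          simp [w, Ind, this, hz]
        · simp only [Ind, Set.indicator_of_notMem hz]
          exact hw_nonneg _ _
      calc occ x R z ≤ ∑ i, w (v i) z := Finset.sum_le_sum fun i _ => h2 i
        _ = ∑ c ∈ C, n c * w c z := by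
            rw [Finset.sum_comp (fun c => w c z) v]
            refine Finset.sum_congr rfl fun c _ => ?_
            simp [n]
    have hCS : (∑ c ∈ C, w c z * (n c * w c z)) ^ 2 ≤
        (∑ c ∈ C, w c z ^ 2) * ∑ c ∈ C, (n c * w c z) ^ 2 :=
      Finset.sum_mul_sq_le_sq_mul_sq _ _ _
    have hww : ∀ c, w c z ^ 2 = w c z := fun c => by
      rcases hw01 c z with h | h <;> simp [h]
    have h3 : (∑ c ∈ C, w c z * (n c * w c z)) = ∑ c ∈ C, n c * w c z := by
      refine Finset.sum_congr rfl fun c _ => ?_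
      have := hww c
      calc w c z * (n c * w c z) = n c * w c z ^ 2 := by ring
        _ = n c * w c z := by rw [this]
    have h4 : (∑ c ∈ C, w c z ^ 2) = ∑ c ∈ C, w c z :=
      Finset.sum_congr rfl fun c _ => hww c
    have h5 : (∑ c ∈ C, (n c * w c z) ^ 2) = ∑ c ∈ C, n c ^ 2 * w c z := by
      refine Finset.sum_congr rfl fun c _ => ?_
      rw [mul_pow, hww]
    rw [h3, h4, h5] at hCS
    have hS : 0 ≤ ∑ c ∈ C, n c ^ 2 * w c z :=
      Finset.sum_nonneg fun c _ => mul_nonneg (sq_nonneg _) (hw_nonneg _ _)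
    have h6 : (∑ c ∈ C, w c z) ≤ V' / l ^ 3 := by
      rw [le_div_iff₀ (by positivity)]; exact hcount z
    calc occ x R z ^ 2 ≤ (∑ c ∈ C, n c * w c z) ^ 2 :=
          pow_le_pow_left₀ (occ_nonneg x R z) h1 2
      _ ≤ (∑ c ∈ C, w c z) * ∑ c ∈ C, n c ^ 2 * w c z := hCS
      _ ≤ (V' / l ^ 3) * ∑ c ∈ C, n c ^ 2 * w c z := mul_le_mul_of_nonneg_right h6 hS
  -- integrate
  have hsum_int : Integrable (fun z => (V' / l ^ 3) * ∑ c ∈ C, n c ^ 2 * w c z) :=
    (integrable_finsetSum _ fun c hc => (hw_int c hc).const_mul _).const_mul _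
  have hint : ∫ z, occ x R z ^ 2 ≤ (V' / l ^ 3) * ∑ c ∈ C, n c ^ 2 * V' := by
    calc ∫ z, occ x R z ^ 2 ≤ ∫ z, (V' / l ^ 3) * ∑ c ∈ C, n c ^ 2 * w c z :=
          integral_mono (integrable_occ_sq x R) hsum_int hpt
      _ = (V' / l ^ 3) * ∑ c ∈ C, n c ^ 2 * ∫ z, w c z := by
          rw [integral_const_mul, integral_finsetSum _ fun c hc => (hw_int c hc).const_mul _]
          congr 1
          refine Finset.sum_congr rfl fun c _ => ?_
          rw [integral_const_mul]
      _ ≤ (V' / l ^ 3) * ∑ c ∈ C, n c ^ 2 * V' := by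
          refine mul_le_mul_of_nonneg_left ?_ (by positivity)
          exact Finset.sum_le_sum fun c hc =>
            mul_le_mul_of_nonneg_left (hw_val c hc) (sq_nonneg _)
  -- sum of squares of the occupation numbers
  have hsq : ∑ c ∈ C, n c ^ 2 = ∑ i, ∑ j, if v i = v j then (1 : ℝ) else 0 := by
    have h1 : ∀ i : Fin N, (∑ j, if v i = v j then (1 : ℝ) else 0) = n (v i) := by
      intro i
      simp only [n]
      rw [Finset.card_eq_sum_ones, Finset.sum_filter]
      push_cast
      refine Finset.sum_congr rfl fun j _ => ?_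
      simp [eq_comm]
    simp_rw [h1]
    rw [Finset.sum_comp (fun c => n c) v]
    refine Finset.sum_congr rfl fun c _ => ?_
    simp only [nsmul_eq_mul]
    ring
  -- conclusion
  have hratio : V' = (1 + d / R) ^ 3 * volB R := by
    rw [hV', volB_scale (by linarith : 0 ≤ R + d), volB_scale hR.le]
    field_simp
  rw [pairE_KK_eq hR x, ← hsq]
  set Q : ℝ := ∑ c ∈ C, n c ^ 2 with hQ
  have hQ0 : 0 ≤ Q := Finset.sum_nonneg fun _ _ => sq_nonneg _
  have hint' : ∫ z, occ x R z ^ 2 ≤ (V' ^ 2 / l ^ 3) * Q := by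
    have : (V' / l ^ 3) * ∑ c ∈ C, n c ^ 2 * V' = (V' ^ 2 / l ^ 3) * Q := by
      rw [hQ, ← Finset.sum_mul]; ring
    rwa [this] at hint
  have hN0 : (0 : ℝ) ≤ N * volB R := by positivity
  calc ((∫ z, occ x R z ^ 2) - N * volB R) / (2 * volB R ^ 2)
      ≤ ((V' ^ 2 / l ^ 3) * Q) / (2 * volB R ^ 2) := by
        apply div_le_div_of_nonneg_right _ (by positivity)
        linarith
    _ = (1 / 2 : ℝ) * (1 + d / R) ^ 6 / l ^ 3 * Q := by
        rw [hratio]
        field_simp

end Crest.Agent.Lib.GasKernel
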