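import Crest.Prelude.Def_UnitPacking

/-!
# Packing constant and cliques (row 149)
-/

set_option autoImplicit false

namespace Crest.Agent.Lib.GasPacking

open Filter Topology Crest.ProbabilityR.Continuum

/-- Half-integer cell index of a point. -/
noncomputable def cell (x : Pt) : Fin 3 → ℤ := fun k => ⌊2 * x k⌋

lemma dist_lt_one_of_cell_eq {x y : Pt} (h : cell x = cell y) : dist x y < 1 := by
  have hk : ∀ k, dist (x k) (y k) ^ 2 < 1 / 4 := by
    intro k
    have h1 : ⌊2 * x k⌋ = ⌊2 * y k⌋ := congrFun h k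
    have h2 := Int.abs_sub_lt_one_of_floor_eq_floor h1
    rw [Real.dist_eq]
    have h3 : |x k - y k| < 1 / 2 := by
      have : 2 * x k - 2 * y k = 2 * (x k - y k) := by ring
      rw [this, abs_mul] at h2
      have h4 : |(2 : ℝ)| = 2 := by norm_num
      rw [h4] at h2
      linarith
    have h5 := abs_nonneg (x k - y k)
    nlinarith
  rw [EuclideanSpace.dist_eq, Fin.sum_univ_three]
  rw [show (1 : ℝ) = Real.sqrt 1 by simp]
  apply Real.sqrt_lt_sqrt
  · positivity
  · have h0 := hk 0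
    have h1 := hk 1
    have h2 := hk 2
    linarith

lemma card_le_real (L : ℝ) (hL : 0 ≤ L) (X : Finset Pt) (hX : ∀ x ∈ X, x ∈ cube L)
    (hsep : ∀ x ∈ X, ∀ y ∈ X, x ≠ y → 1 ≤ dist x y) : (X.card : ℝ) ≤ (2 * L + 2) ^ 3 := by
  classical
  let T : Finset (Fin 3 → ℤ) := Fintype.piFinset (fun _ => Finset.Icc (0 : ℤ) ⌊2 * L⌋)
  have hmaps : ∀ x ∈ X, cell x ∈ T := by
    intro x hx
    simp only [T, Fintype.mem_piFinset, Finset.mem_Icc]
    intro k
    have hxk := hX x hx k
    constructor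
    · apply Int.floor_nonneg.2
      linarith [hxk.1]
    · apply Int.floor_mono
      linarith [hxk.2]
  have hinj : Set.InjOn cell (X : Set Pt) := by
    intro x hx y hy hxy
    by_contra hne
    have h1 := hsep x hx y hy hne
    have h2 := dist_lt_one_of_cell_eq hxy
    linarith
  have hcard : X.card ≤ T.card := Finset.card_le_card_of_injOn cell hmaps hinj
  have hT : (T.card : ℝ) = (((⌊2 * L⌋ + 1).toNat : ℕ) : ℝ) ^ 3 := by
    simp [T, Fintype.card_piFinset, Int.card_Icc]
  have hfl : 0 ≤ ⌊2 * L⌋ := Int.floor_nonneg.2 (by linarith)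
  have h3 : (((⌊2 * L⌋ + 1).toNat : ℕ) : ℝ) ≤ 2 * L + 2 := by
    have h4 : (((⌊2 * L⌋ + 1).toNat : ℕ) : ℤ) = ⌊2 * L⌋ + 1 := Int.toNat_of_nonneg (by omega)
    have h5 : (((⌊2 * L⌋ + 1).toNat : ℕ) : ℝ) = (⌊2 * L⌋ : ℝ) + 1 := by
      have := congrArg (fun z : ℤ => (z : ℝ)) h4
      push_cast at this
      exact this
    rw [h5]
    have := Int.floor_le (2 * L)
    linarith
  calc (X.card : ℝ) ≤ (T.card : ℝ) := by exact_mod_cast hcard
    _ = (((⌊2 * L⌋ + 1).toNat : ℕ) : ℝ) ^ 3 := hT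
    _ ≤ (2 * L + 2) ^ 3 := by
        apply pow_le_pow_left₀ (by positivity) h3

lemma cube_mono {L L' : ℝ} (h : L ≤ L') : cube L ⊆ cube L' := fun _ hx k =>
  ⟨(hx k).1, (hx k).2.trans h⟩

lemma bddAbove_packingSet (L : ℝ) : BddAbove (packingSet L) := by
  refine ⟨⌈(2 * max L 0 + 2) ^ 3⌉₊, ?_⟩
  rintro n ⟨X, rfl, hX, hsep⟩
  have h := card_le_real (max L 0) (le_max_right _ _) X
    (fun x hx => cube_mono (le_max_left _ _) (hX x hx)) hsep
  have h2 : (X.card : ℝ) ≤ (⌈(2 * max L 0 + 2) ^ 3⌉₊ : ℝ) := h.trans (Nat.le_ceil _)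
  exact_mod_cast h2

lemma zero_mem_packingSet (L : ℝ) : (0 : ℕ) ∈ packingSet L :=
  ⟨∅, rfl, by simp, by simp⟩

/-- Attainment: there is a packing of the cube with `packingNumber L` points (for `0 ≤ L`). -/
theorem exists_packing (L : ℝ) (hL : 0 ≤ L) :
    ∃ X : Finset Pt, X.card = packingNumber L ∧ (∀ x ∈ X, x ∈ cube L) ∧
      ∀ x ∈ X, ∀ y ∈ X, x ≠ y → 1 ≤ dist x y := by
  have := Nat.sSup_mem (s := packingSet L) ⟨0, zero_mem_packingSet L⟩ (bddAbove_packingSet L)
  exact this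

/-- Any 1-separated finite subset of the cube has at most `packingNumber L` points. -/
theorem card_le_packing (L : ℝ) (X : Finset Pt) (hX : ∀ x ∈ X, x ∈ cube L)
    (hsep : ∀ x ∈ X, ∀ y ∈ X, x ≠ y → 1 ≤ dist x y) : X.card ≤ packingNumber L :=
  le_csSup (bddAbove_packingSet L) ⟨X, rfl, hX, hsep⟩

/-- Scaled version: an `s`-separated finite subset of the cube of side `L` has at most
`packingNumber (L/s)` points. -/
theorem card_le_packing_scaled (L s : ℝ) (hs : 0 < s) (X : Finset Pt) (hX : ∀ x ∈ X, x ∈ cube L)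
    (hsep : ∀ x ∈ X, ∀ y ∈ X, x ≠ y → s ≤ dist x y) : X.card ≤ packingNumber (L / s) := by
  classical
  have hs' : s⁻¹ ≠ 0 := inv_ne_zero hs.ne'
  have hinj : Function.Injective (fun x : Pt => s⁻¹ • x) := by
    intro x y hxy
    exact smul_right_injective _ hs' hxy
  have hcard : (X.image (fun x : Pt => s⁻¹ • x)).card = X.card :=
    Finset.card_image_of_injective _ hinj
  rw [← hcard]
  apply card_le_packing
  · intro y hy
    obtain ⟨x, hx, rfl⟩ := Finset.mem_image.1 hy
    intro k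
    have h := hX x hx k
    have hsi : 0 < s⁻¹ := inv_pos.2 hs
    have hval : (s⁻¹ • x) k = s⁻¹ * x k := by simp
    rw [hval]
    constructor
    · exact mul_nonneg hsi.le h.1
    · rw [div_eq_inv_mul]
      exact mul_le_mul_of_nonneg_left h.2 hsi.le
  · intro y hy z hz hne
    obtain ⟨x, hx, rfl⟩ := Finset.mem_image.1 hy
    obtain ⟨w, hw, rfl⟩ := Finset.mem_image.1 hz
    have hxw : x ≠ w := fun h => hne (by rw [h])
    have h1 := hsep x hx w hw hxw
    rw [dist_smul₀, Real.norm_of_nonneg (inv_pos.2 hs).le]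
    rw [inv_mul_eq_div, le_div_iff₀ hs]
    linarith

/-- Crude bound by pigeonhole. -/
theorem packing_le (L : ℝ) (hL : 0 ≤ L) : (packingNumber L : ℝ) ≤ (2 * L + 2) ^ 3 := by
  obtain ⟨X, hX, hc, hs⟩ := exists_packing L hL
  rw [← hX]
  exact card_le_real L hL X hc hs

lemma packing_mono {L L' : ℝ} (hL : 0 ≤ L) (h : L ≤ L') : packingNumber L ≤ packingNumber L' := by
  obtain ⟨X, hX, hc, hs⟩ := exists_packing L hL
  rw [← hX]
  exact card_le_packing L' X (fun x hx => cube_mono h (hc x hx)) hs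

lemma abs_coord_le_dist (x y : Pt) (k : Fin 3) : |x k - y k| ≤ dist x y := by
  have h := PiLp.norm_apply_le (x - y) k
  rw [dist_eq_norm]
  simpa [Real.norm_eq_abs] using h

/-- Superadditivity: `m^3` translated copies. -/
lemma packing_superadd (l : ℝ) (hl : 0 ≤ l) (m : ℕ) (hm : 1 ≤ m) :
    m ^ 3 * packingNumber l ≤ packingNumber (m * (l + 1) - 1) := by
  classical
  obtain ⟨X₀, hX₀, hc, hs⟩ := exists_packing l hl
  let shift : (Fin 3 → Fin m) → Pt := fun i => WithLp.toLp 2 (fun k => (l + 1) * ((i k : ℕ) : ℝ))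
  let f : (Fin 3 → Fin m) × Pt → Pt := fun q => q.2 + shift q.1
  have hfk : ∀ (q : (Fin 3 → Fin m) × Pt) k, f q k = q.2 k + (l + 1) * ((q.1 k : ℕ) : ℝ) := by
    intro q k
    simp [f, shift]
  let S : Finset ((Fin 3 → Fin m) × Pt) := Finset.univ ×ˢ X₀
  have hsep : ∀ p ∈ S, ∀ q ∈ S, p ≠ q → 1 ≤ dist (f p) (f q) := by
    rintro ⟨i, x⟩ hp ⟨j, y⟩ hq hne
    have hx : x ∈ X₀ := (Finset.mem_product.1 hp).2
    have hy : y ∈ X₀ := (Finset.mem_product.1 hq).2
    by_cases hij : i = j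
    · subst hij
      have hxy : x ≠ y := fun h => hne (by rw [h])
      have h1 := hs x hx y hy hxy
      simpa [f] using h1
    · obtain ⟨k, hk⟩ := Function.ne_iff.1 hij
      have h1 := abs_coord_le_dist (f (i, x)) (f (j, y)) k
      refine le_trans ?_ h1
      rw [hfk, hfk]
      simp only
      have hxk := hc x hx k
      have hyk := hc y hy k
      have hik : ((i k : ℕ) : ℝ) ≠ ((j k : ℕ) : ℝ) := by
        intro h
        apply hk
        exact Fin.ext (by exact_mod_cast h)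
      have hd : 1 ≤ |((i k : ℕ) : ℝ) - ((j k : ℕ) : ℝ)| := by
        have h2 : ((i k : ℕ) : ℤ) ≠ ((j k : ℕ) : ℤ) := by
          intro h
          apply hik
          exact_mod_cast h
        have h3 : (1 : ℤ) ≤ |((i k : ℕ) : ℤ) - ((j k : ℕ) : ℤ)| :=
          Int.one_le_abs (sub_ne_zero.2 h2)
        exact_mod_cast h3
      have hlp : 0 < l + 1 := by linarith
      have key : (l + 1) * 1 ≤ (l + 1) * |((i k : ℕ) : ℝ) - ((j k : ℕ) : ℝ)| :=
        mul_le_mul_of_nonneg_left hd hlp.le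
      rw [← abs_of_pos hlp, ← abs_mul] at key
      rw [abs_of_pos hlp] at key
      have h5 : |(l + 1) * (((i k : ℕ) : ℝ) - ((j k : ℕ) : ℝ))| ≤
          |x k + (l + 1) * ((i k : ℕ) : ℝ) - (y k + (l + 1) * ((j k : ℕ) : ℝ))| + |x k - y k| := by
        have : (l + 1) * (((i k : ℕ) : ℝ) - ((j k : ℕ) : ℝ)) =
            (x k + (l + 1) * ((i k : ℕ) : ℝ) - (y k + (l + 1) * ((j k : ℕ) : ℝ))) - (x k - y k) := by
          ring
        rw [this]
        exact abs_sub _ _
      have h6 : |x k - y k| ≤ l := by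
        rw [abs_le]
        constructor <;> linarith [hxk.1, hxk.2, hyk.1, hyk.2]
      linarith
  have hinj : Set.InjOn f (S : Set ((Fin 3 → Fin m) × Pt)) := by
    intro p hp q hq hpq
    by_contra hne
    have := hsep p hp q hq hne
    rw [hpq, dist_self] at this
    linarith
  have hcard : (S.image f).card = m ^ 3 * packingNumber l := by
    rw [Finset.card_image_of_injOn hinj, ← hX₀]
    simp [S, Finset.card_product]
  rw [← hcard]
  apply card_le_packing
  · intro z hz
    obtain ⟨⟨i, x⟩, hp, rfl⟩ := Finset.mem_image.1 hz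
    have hx : x ∈ X₀ := (Finset.mem_product.1 hp).2
    intro k
    rw [hfk]
    simp only
    have hxk := hc x hx k
    have hlp : 0 < l + 1 := by linarith
    have hik : ((i k : ℕ) : ℝ) ≤ (m : ℝ) - 1 := by
      have : (i k : ℕ) + 1 ≤ m := (i k).2
      have h2 : (((i k : ℕ) + 1 : ℕ) : ℝ) ≤ (m : ℝ) := by exact_mod_cast this
      push_cast at h2
      linarith
    have hi0 : (0 : ℝ) ≤ ((i k : ℕ) : ℝ) := Nat.cast_nonneg _
    constructor
    · have := mul_nonneg hlp.le hi0
      linarith [hxk.1]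
    · have := mul_le_mul_of_nonneg_left hik hlp.le
      nlinarith [hxk.2]
  · intro y hy z hz hne
    obtain ⟨p, hp, rfl⟩ := Finset.mem_image.1 hy
    obtain ⟨q, hq, rfl⟩ := Finset.mem_image.1 hz
    exact hsep p hp q hq (fun h => hne (by rw [h]))

/-- The normalized packing numbers. -/
noncomputable def aa (l : ℝ) : ℝ := (packingNumber l : ℝ) / (l + 1) ^ 3

lemma aa_le_eight {l : ℝ} (hl : 0 ≤ l) : aa l ≤ 8 := by
  unfold aa
  have hlp : 0 < (l + 1) ^ 3 := by positivity
  rw [div_le_iff₀ hlp]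
  have := packing_le l hl
  calc (packingNumber l : ℝ) ≤ (2 * l + 2) ^ 3 := this
    _ = 8 * (l + 1) ^ 3 := by ring

lemma packing_zero_pos : 1 ≤ packingNumber 0 := by
  have h : ({0} : Finset Pt).card ≤ packingNumber 0 := by
    apply card_le_packing
    · intro x hx k
      rw [Finset.mem_singleton.1 hx]
      simp
    · intro x hx y hy hxy
      rw [Finset.mem_singleton.1 hx, Finset.mem_singleton.1 hy] at hxy
      exact absurd rfl hxy
  simpa using h

/-- The limit exists and is positive. `p` is also the supremum of `packingNumber L/(L+1)^3`. -/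
theorem packing_limit : ∃ p : ℝ, 0 < p ∧
    Tendsto (fun L : ℝ => (packingNumber L : ℝ) / L ^ 3) atTop (𝓝 p) := by
  let A : Set ℝ := {a | ∃ l : ℝ, 0 ≤ l ∧ a = aa l}
  have hAbdd : BddAbove A := ⟨8, by rintro a ⟨l, hl, rfl⟩; exact aa_le_eight hl⟩
  have hAne : A.Nonempty := ⟨aa 0, 0, le_rfl, rfl⟩
  let p := sSup A
  have hle : ∀ l : ℝ, 0 ≤ l → aa l ≤ p := fun l hl => le_csSup hAbdd ⟨l, hl, rfl⟩
  have hp1 : 1 ≤ p := by
    refine le_trans ?_ (hle 0 le_rfl)
    unfold aa
    have : (1 : ℝ) ≤ (packingNumber 0 : ℝ) := by exact_mod_cast packing_zero_pos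
    simpa using this
  refine ⟨p, by linarith, ?_⟩
  rw [tendsto_order]
  constructor
  · -- lower bound
    intro a' ha'
    obtain ⟨b, ⟨l, hl, rfl⟩, hb⟩ := exists_lt_of_lt_csSup hAne ha'
    have hg : Tendsto (fun L : ℝ => (1 - l / L) ^ 3 * aa l) atTop (𝓝 ((1 - 0) ^ 3 * aa l)) := by
      apply Tendsto.mul_const
      apply Tendsto.pow
      apply Tendsto.sub tendsto_const_nhds
      exact tendsto_const_nhds.div_atTop tendsto_id
    have hg' : ((1 - 0 : ℝ)) ^ 3 * aa l = aa l := by norm_num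
    rw [hg'] at hg
    have hev := hg.eventually (lt_mem_nhds hb)
    filter_upwards [hev, eventually_gt_atTop (l + 1)] with L hL1 hL2
    refine lt_of_lt_of_le hL1 ?_
    -- the main inequality
    have hLpos : 0 < L := by linarith
    have hlp : 0 < l + 1 := by linarith
    set m := ⌊(L + 1) / (l + 1)⌋₊ with hm
    have hm1 : 1 ≤ m := by
      apply Nat.le_floor
      rw [le_div_iff₀ hlp]
      push_cast
      linarith
    have hmle : (m : ℝ) * (l + 1) - 1 ≤ L := by
      have : (m : ℝ) ≤ (L + 1) / (l + 1) := Nat.floor_le (by positivity)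
      rw [le_div_iff₀ hlp] at this
      linarith
    have hmgt : (L - l) / (l + 1) ≤ (m : ℝ) := by
      have : (L + 1) / (l + 1) < (m : ℝ) + 1 := Nat.lt_floor_add_one _
      rw [div_lt_iff₀ hlp] at this
      rw [div_le_iff₀ hlp]
      nlinarith
    have h0 : 0 ≤ (m : ℝ) * (l + 1) - 1 := by
      have : (1 : ℝ) ≤ (m : ℝ) := by exact_mod_cast hm1
      nlinarith
    have hP : ((m : ℝ)) ^ 3 * (packingNumber l : ℝ) ≤ (packingNumber L : ℝ) := by
      have h1 := packing_superadd l hl m hm1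
      have h2 := packing_mono h0 hmle
      have h3 := h1.trans h2
      exact_mod_cast h3
    rw [le_div_iff₀ (by positivity)]
    have hnn : (0 : ℝ) ≤ (packingNumber l : ℝ) := Nat.cast_nonneg _
    have hbase : 0 ≤ 1 - l / L := by
      rw [sub_nonneg, div_le_one hLpos]
      linarith
    have hcalc : (1 - l / L) ^ 3 * aa l * L ^ 3 = ((L - l) / (l + 1)) ^ 3 * (packingNumber l : ℝ) := by
      unfold aa
      field_simp
    rw [hcalc]
    refine le_trans ?_ hP
    apply mul_le_mul_of_nonneg_right _ hnn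
    apply pow_le_pow_left₀ _ hmgt
    apply div_nonneg <;> linarith
  · intro a' ha'
    have hh : Tendsto (fun L : ℝ => p * (1 + 1 / L) ^ 3) atTop (𝓝 (p * (1 + 0) ^ 3)) := by
      apply Tendsto.const_mul
      apply Tendsto.pow
      apply Tendsto.add tendsto_const_nhds
      exact tendsto_const_nhds.div_atTop tendsto_id
    have hh' : p * (1 + 0 : ℝ) ^ 3 = p := by norm_num
    rw [hh'] at hh
    have hev := hh.eventually (gt_mem_nhds ha')
    filter_upwards [hev, eventually_gt_atTop 0] with L hL1 hL2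
    refine lt_of_le_of_lt ?_ hL1
    have h1 := hle L hL2.le
    unfold aa at h1
    have hlp : 0 < L + 1 := by linarith
    rw [div_le_iff₀ (by positivity)] at h1
    rw [div_le_iff₀ (by positivity)]
    have : p * (1 + 1 / L) ^ 3 * L ^ 3 = p * (L + 1) ^ 3 := by
      field_simp
    rw [this]
    exact h1

/-- Packing density is at most 1 hmm: any explicit upper bound: `p ≤ 8` by pigeonhole. -/
theorem packing_limit_le {p : ℝ}
    (hp : Tendsto (fun L : ℝ => (packingNumber L : ℝ) / L ^ 3) atTop (𝓝 p)) : p ≤ 8 := by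
  have hh : Tendsto (fun L : ℝ => 8 * (1 + 1 / L) ^ 3) atTop (𝓝 (8 * (1 + 0) ^ 3)) := by
    apply Tendsto.const_mul
    apply Tendsto.pow
    apply Tendsto.add tendsto_const_nhds
    exact tendsto_const_nhds.div_atTop tendsto_id
  have hh' : (8 : ℝ) * (1 + 0 : ℝ) ^ 3 = 8 := by norm_num
  rw [hh'] at hh
  refine le_of_tendsto_of_tendsto hp hh ?_
  filter_upwards [eventually_gt_atTop 0] with L hL
  have h := packing_le L hL.le
  rw [div_le_iff₀ (by positivity)]
  have : 8 * (1 + 1 / L) ^ 3 * L ^ 3 = (2 * L + 2) ^ 3 := by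
    field_simp
    ring
  rw [this]
  exact h

/-- Cliques: the maximal size of a finite set with all mutual distances in `[r, 1]`. -/
noncomputable def cliqueNum (r : ℝ) : ℕ :=
  sSup {n | ∃ X : Finset Pt, X.card = n ∧ ∀ x ∈ X, ∀ y ∈ X, x ≠ y → r ≤ dist x y ∧ dist x y ≤ 1}

/-- Clique sizes are bounded for `r > 0`. -/
lemma clique_card_le {r : ℝ} (hr : 0 < r) (X : Finset Pt)
    (hX : ∀ x ∈ X, ∀ y ∈ X, x ≠ y → r ≤ dist x y ∧ dist x y ≤ 1) :
    X.card ≤ packingNumber (2 / r) := by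
  classical
  rcases X.eq_empty_or_nonempty with rfl | ⟨x₀, hx₀⟩
  · simp
  let c : Pt := WithLp.toLp 2 (fun _ => (1 : ℝ))
  have hck : ∀ k, c k = 1 := fun k => by simp [c]
  have hinj : Function.Injective (fun x : Pt => x + (c - x₀)) := add_left_injective _
  have hcard : (X.image (fun x : Pt => x + (c - x₀))).card = X.card :=
    Finset.card_image_of_injective _ hinj
  rw [← hcard]
  apply card_le_packing_scaled 2 r hr
  · intro y hy k
    obtain ⟨x, hx, rfl⟩ := Finset.mem_image.1 hy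
    have hval : (x + (c - x₀)) k = x k - x₀ k + 1 := by
      simp [hck]; ring
    rw [hval]
    have hb : |x k - x₀ k| ≤ 1 := by
      by_cases h : x = x₀
      · subst h; simp
      · exact (abs_coord_le_dist x x₀ k).trans (hX x hx x₀ hx₀ h).2
    have := abs_le.1 hb
    constructor <;> linarith [this.1, this.2]
  · intro y hy z hz hne
    obtain ⟨x, hx, rfl⟩ := Finset.mem_image.1 hy
    obtain ⟨w, hw, rfl⟩ := Finset.mem_image.1 hz
    have hxw : x ≠ w := fun h => hne (by rw [h])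
    have h1 := (hX x hx w hw hxw).1
    simpa [dist_add_right] using h1

lemma bddAbove_clique {r : ℝ} (hr : 0 < r) :
    BddAbove {n | ∃ X : Finset Pt, X.card = n ∧
      ∀ x ∈ X, ∀ y ∈ X, x ≠ y → r ≤ dist x y ∧ dist x y ≤ 1} := by
  refine ⟨packingNumber (2 / r), ?_⟩
  rintro n ⟨X, rfl, hX⟩
  exact clique_card_le hr X hX

lemma clique_attained {r : ℝ} (hr : 0 < r) :
    ∃ X : Finset Pt, X.card = cliqueNum r ∧
      ∀ x ∈ X, ∀ y ∈ X, x ≠ y → r ≤ dist x y ∧ dist x y ≤ 1 := by
  have hne : {n | ∃ X : Finset Pt, X.card = n ∧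
      ∀ x ∈ X, ∀ y ∈ X, x ≠ y → r ≤ dist x y ∧ dist x y ≤ 1}.Nonempty :=
    ⟨0, ∅, rfl, by simp⟩
  exact Nat.sSup_mem hne (bddAbove_clique hr)

lemma card_le_clique {r : ℝ} (hr : 0 < r) (X : Finset Pt)
    (hX : ∀ x ∈ X, ∀ y ∈ X, x ≠ y → r ≤ dist x y ∧ dist x y ≤ 1) : X.card ≤ cliqueNum r :=
  le_csSup (bddAbove_clique hr) ⟨X, rfl, hX⟩

lemma clique_anti {r s : ℝ} (hr : 0 < r) (hrs : r ≤ s) : cliqueNum s ≤ cliqueNum r := by
  have hs : 0 < s := lt_of_lt_of_le hr hrs
  obtain ⟨X, hc, hX⟩ := clique_attained hs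
  rw [← hc]
  exact card_le_clique hr X (fun x hx y hy hxy => ⟨hrs.trans (hX x hx y hy hxy).1, (hX x hx y hy hxy).2⟩)

lemma two_le_clique {r : ℝ} (hr : 0 < r) (hr1 : r ≤ 1) : 2 ≤ cliqueNum r := by
  classical
  let a : Pt := 0
  let b : Pt := EuclideanSpace.single 0 1
  have hab : dist a b = 1 := by
    simp [a, b, dist_eq_norm]
  have hne : a ≠ b := by
    intro h
    rw [h, dist_self] at hab
    norm_num at hab
  have h := card_le_clique hr ({a, b} : Finset Pt) (by
    intro x hx y hy hxy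
    simp only [Finset.mem_insert, Finset.mem_singleton] at hx hy
    rcases hx with rfl | rfl <;> rcases hy with rfl | rfl
    · exact absurd rfl hxy
    · rw [hab]; exact ⟨hr1, le_rfl⟩
    · rw [dist_comm, hab]; exact ⟨hr1, le_rfl⟩
    · exact absurd rfl hxy)
  rwa [Finset.card_pair hne] at h

lemma window_aux (n : ℕ) : ∀ a b : ℝ, 0 < a → a < b → b < 1 → cliqueNum a ≤ n →
    ∃ r₁ r₂ : ℝ, a ≤ r₁ ∧ r₁ < r₂ ∧ r₂ ≤ b ∧ cliqueNum r₁ = cliqueNum r₂ := by
  induction n with
  | zero =>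
    intro a b ha hab hb h
    have := two_le_clique ha (by linarith)
    omega
  | succ n ih =>
    intro a b ha hab hb h
    by_cases hc : cliqueNum a = cliqueNum ((a + b) / 2)
    · exact ⟨a, (a + b) / 2, le_rfl, by linarith, by linarith, hc⟩
    · have hle : cliqueNum ((a + b) / 2) ≤ cliqueNum a := clique_anti ha (by linarith)
      have hc' : cliqueNum ((a + b) / 2) ≤ n := by omega
      obtain ⟨r₁, r₂, h1, h2, h3, h4⟩ := ih ((a + b) / 2) b (by linarith) (by linarith) hb hc'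
      exact ⟨r₁, r₂, by linarith, h2, h3, h4⟩

/-- There is a window of ratios `r₁ < r₂` in `(0,1)` on which the clique number is constant
and at least two; cliques exist at the larger ratio, none larger at the smaller one. -/
theorem exists_clique_window : ∃ (r₁ r₂ : ℝ) (k : ℕ), 0 < r₁ ∧ r₁ < r₂ ∧ r₂ < 1 ∧ 2 ≤ k ∧
    (∃ X : Finset Pt, X.card = k ∧ ∀ x ∈ X, ∀ y ∈ X, x ≠ y → r₂ ≤ dist x y ∧ dist x y ≤ 1) ∧
    (∀ X : Finset Pt, (∀ x ∈ X, ∀ y ∈ X, x ≠ y → r₁ ≤ dist x y ∧ dist x y ≤ 1) → X.card ≤ k) := by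
  obtain ⟨r₁, r₂, h1, h2, h3, h4⟩ := window_aux (cliqueNum (1 / 2)) (1 / 2) (3 / 4)
    (by norm_num) (by norm_num) (by norm_num) le_rfl
  have hr1 : 0 < r₁ := by linarith
  have hr2 : 0 < r₂ := by linarith
  refine ⟨r₁, r₂, cliqueNum r₂, hr1, h2, by linarith, two_le_clique hr2 (by linarith), ?_, ?_⟩
  · exact clique_attained hr2
  · intro X hX
    rw [← h4]
    exact card_le_clique hr1 X hX

end Crest.Agent.Lib.GasPacking
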