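import Crest.Agent.Lib.GasThermo
import Crest.Agent.Lib.GasKernel
import Crest.Agent.Lib.GasPacking

/-!
# Test configurations: clusters on an expanded packing (row 149)

A general lower bound for the free energy density: place a cluster of `n` particles in each ball of
radius `r` around the points of an expanded optimal packing.
-/

set_option autoImplicit false

namespace Crest.Agent.Lib.GasClusterTest

open MeasureTheory Filter Topology Crest.ProbabilityR.Continuum Crest.Agent.Lib.GasBasic
  Crest.Agent.Lib.GasThermoAbs Crest.Agent.Lib.GasThermo Crest.Agent.Lib.GasKernel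
  Crest.Agent.Lib.GasPacking
open scoped ENNReal

/-- Constant vector. -/
noncomputable def diag (r : ℝ) : Pt := WithLp.toLp 2 (fun _ => r)

/-- Centres of the expanded packing. -/
noncomputable def center (r : ℝ) (x : Pt) : Pt := (1 + 2 * r) • x + diag r

lemma center_apply (r : ℝ) (x : Pt) (k : Fin 3) : center r x k = (1 + 2 * r) * x k + r := by
  simp [center, diag]

lemma ball_center_subset {r L : ℝ} (hr : 0 < r) {x : Pt} (hx : x ∈ cube L) :
    Metric.ball (center r x) r ⊆ cube ((1 + 2 * r) * L + 2 * r) := by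
  intro y hy k
  have h1 := abs_coord_le_dist y (center r x) k
  have h2 : dist y (center r x) < r := hy
  have h3 := abs_lt.mp (lt_of_le_of_lt h1 h2)
  rw [center_apply] at h3
  have h4 := hx k
  have hr' : 0 ≤ 1 + 2 * r := by linarith
  have h5 : 0 ≤ (1 + 2 * r) * x k := mul_nonneg hr' h4.1
  have h6 : (1 + 2 * r) * x k ≤ (1 + 2 * r) * L := mul_le_mul_of_nonneg_left h4.2 hr'
  constructor <;> linarith [h3.1, h3.2]

lemma dist_center {r : ℝ} (hr : 0 < r) (x y : Pt) :
    dist (center r x) (center r y) = (1 + 2 * r) * dist x y := by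
  have : (0:ℝ) ≤ 1 + 2 * r := by linarith
  unfold center
  rw [dist_add_right, dist_smul₀, Real.norm_eq_abs, abs_of_nonneg this]

lemma one_le_dist_of_mem_ball {r : ℝ} (hr : 0 < r) {x y a b : Pt} (hxy : 1 ≤ dist x y)
    (ha : a ∈ Metric.ball (center r x) r) (hb : b ∈ Metric.ball (center r y) r) : 1 ≤ dist a b := by
  have h1 : dist a (center r x) < r := ha
  have h2 : dist b (center r y) < r := hb
  have h3 := dist_triangle4 (center r x) a b (center r y)
  rw [dist_center hr, dist_comm (center r x) a] at h3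
  have h4 : (1 + 2 * r) * 1 ≤ (1 + 2 * r) * dist x y :=
    mul_le_mul_of_nonneg_left hxy (by linarith)
  linarith

/-- The finite volume lower bound. -/
lemma logZ_ge_cluster {φ : ℝ → ℝ} {B Φ : ℝ} (h : Adm φ B Φ) {r ζ : ℝ} {n : ℕ}
    (hr : 0 < r) (hζ : 0 < ζ)
    (hZ : ∀ y : Pt, ENNReal.ofReal ζ ≤ Zw (rad φ) (Metric.ball y r) n) {L : ℝ} (hL : 0 ≤ L) :
    (packingNumber L : ℝ) * Real.log ζ
      ≤ logZ φ ((1 + 2 * r) * L + 2 * r) (packingNumber L * n) := by
  classical
  obtain ⟨X, hXc, hXL, hXs⟩ := exists_packing L hL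
  have hw : GoodPair (rad φ) := goodPair_rad h.meas
  let Λ : Pt → Set Pt := fun x => Metric.ball (center r x) r
  have hbi := Zw_biUnion_ge hw X Λ (fun a _ => Metric.isOpen_ball.measurableSet)
    (fun a ha b hb hab => by
      rw [Set.disjoint_left]
      intro u hu hu'
      have := one_le_dist_of_mem_ball hr (hXs a ha b hb hab) hu hu'
      simp at this
      linarith)
    (fun a ha b hb hab x hx y hy => h.far _ (one_le_dist_of_mem_ball hr (hXs a ha b hb hab) hx hy))
    (fun _ => n)
  have hsub : (⋃ a ∈ X, Λ a) ⊆ cube ((1 + 2 * r) * L + 2 * r) := by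
    intro y hy
    simp only [Set.mem_iUnion, exists_prop] at hy
    obtain ⟨a, ha, hy⟩ := hy
    exact ball_center_subset hr (hXL a ha) hy
  have hmono := Zw_mono (rad φ) hsub (∑ a ∈ X, n)
  have hsum : ∑ a ∈ X, n = packingNumber L * n := by
    simp [hXc]
  rw [hsum] at hbi hmono
  have hpow : ENNReal.ofReal ζ ^ packingNumber L ≤ ∏ a ∈ X, Zw (rad φ) (Λ a) n := by
    rw [← hXc, ← Finset.prod_const]
    exact Finset.prod_le_prod' fun a _ => hZ _
  have hle := (hpow.trans hbi).trans hmono
  have hfin := Zw_ne_top h ((1 + 2 * r) * L + 2 * r) (packingNumber L * n)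
  have hreal := ENNReal.toReal_mono hfin hle
  rw [ENNReal.toReal_pow, ENNReal.toReal_ofReal hζ.le] at hreal
  have hlog := Real.log_le_log (pow_pos hζ _) hreal
  rw [Real.log_pow] at hlog
  exact hlog

/-- The general test bound. -/
theorem fe_cluster_test {φ : ℝ → ℝ} {B Φ : ℝ} (h : Adm φ B Φ) {p r ζ : ℝ} {n : ℕ} (hn : 1 ≤ n)
    (hp : Tendsto (fun L : ℝ => (packingNumber L : ℝ) / L ^ 3) atTop (𝓝 p))
    (hr : 0 < r) (hζ : 0 < ζ)
    (hZ : ∀ y : Pt, ENNReal.ofReal ζ ≤ Zw (rad φ) (Metric.ball y r) n) :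
    (p / (1 + 2 * r) ^ 3) * Real.log ζ ≤ fe φ ((n : ℝ) * (p / (1 + 2 * r) ^ 3)) := by
  have hp0 : 0 < p := by
    obtain ⟨q, hq, hq'⟩ := packing_limit
    rw [tendsto_nhds_unique hp hq']
    exact hq
  have hr1 : (0 : ℝ) < 1 + 2 * r := by linarith
  have hnR : (0 : ℝ) < n := by exact_mod_cast hn
  let Lf : ℝ → ℝ := fun L => (1 + 2 * r) * L + 2 * r
  have hLf : Tendsto Lf atTop atTop :=
    tendsto_atTop_add_const_right _ _ (tendsto_id.const_mul_atTop hr1)
  -- `L^3 / Lf L ^3 → 1/(1+2r)^3`
  have hratio : Tendsto (fun L : ℝ => L ^ 3 / (Lf L) ^ 3) atTop (𝓝 (1 / (1 + 2 * r) ^ 3)) := by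
    have h1 : Tendsto (fun L : ℝ => (2 * r) / L) atTop (𝓝 0) :=
      tendsto_const_nhds.div_atTop tendsto_id
    have h2 : Tendsto (fun L : ℝ => (1 / ((1 + 2 * r) + (2 * r) / L)) ^ 3) atTop
        (𝓝 ((1 / ((1 + 2 * r) + 0)) ^ 3)) :=
      (tendsto_const_nhds.div (tendsto_const_nhds.add h1) (by rw [add_zero]; exact hr1.ne')).pow 3
    have e : (1 / ((1 + 2 * r) + 0)) ^ 3 = 1 / (1 + 2 * r) ^ 3 := by
      rw [add_zero, div_pow, one_pow]
    rw [e] at h2
    refine h2.congr' ?_
    filter_upwards [eventually_gt_atTop (0 : ℝ)] with L hL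
    have h3 : (1 + 2 * r) + (2 * r) / L = Lf L / L := by
      simp only [Lf]; field_simp
    rw [h3, one_div_div, div_pow]
  have hdens : Tendsto (fun L : ℝ => (packingNumber L : ℝ) / (Lf L) ^ 3) atTop
      (𝓝 (p / (1 + 2 * r) ^ 3)) := by
    have := hp.mul hratio
    rw [mul_one_div] at this
    refine this.congr' ?_
    filter_upwards [eventually_gt_atTop (0 : ℝ)] with L hL
    have hL3 : L ^ 3 ≠ 0 := by positivity
    field_simp
  have hρ : 0 < (n : ℝ) * (p / (1 + 2 * r) ^ 3) := by positivity
  have hN : Tendsto (fun L : ℝ => ((packingNumber L * n : ℕ) : ℝ) / (Lf L) ^ 3) atTop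
      (𝓝 ((n : ℝ) * (p / (1 + 2 * r) ^ 3))) := by
    have := hdens.const_mul (n : ℝ)
    refine this.congr fun L => ?_
    push_cast
    ring
  have hlim := tendsto_limFn (thermoHyp h) hρ atTop Lf (fun L => packingNumber L * n) hLf hN
  have hlow := hdens.mul_const (Real.log ζ)
  refine le_of_tendsto_of_tendsto hlow hlim ?_
  filter_upwards [eventually_ge_atTop (0 : ℝ)] with L hL
  have hb := logZ_ge_cluster h hr hζ hZ hL
  have hpos : 0 < (Lf L) ^ 3 := by
    have : 0 < Lf L := by simp only [Lf]; positivity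
    positivity
  rw [div_mul_eq_mul_div]
  exact div_le_div_of_nonneg_right hb hpos.le

/-- One particle: the partition function is the volume. -/
lemma Zw_one (w : Pt → Pt → ℝ) (Λ : Set Pt) : Zw w Λ 1 = volume Λ := by
  unfold Zw confInt
  have h0 : ∀ x : Fin 1 → Pt, wgt w x = 1 := by
    intro x
    unfold wgt pairE
    simp
  simp only [h0]
  simp only [Nat.factorial_one, Nat.cast_one, inv_one, one_mul, lintegral_const, Measure.restrict_apply,
    MeasurableSet.univ, Set.univ_inter]
  rw [volume_pi_pi]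
  simp

/-- Volume of the set of cluster configurations. -/
lemma volume_cluster (k : ℕ) (y : Pt) {d η : ℝ} (c : Fin k → Pt) :
    volume {x : Fin (k + 1) → Pt | x 0 ∈ Metric.ball y d ∧
        ∀ i : Fin k, x i.succ ∈ Metric.ball (x 0 + c i) η}
      = ENNReal.ofReal (volB d) * ENNReal.ofReal (volB η) ^ k := by
  let e := MeasurableEquiv.piFinSuccAbove (fun _ : Fin (k + 1) => Pt) 0
  have he : MeasurePreserving e volume (volume.prod volume) :=
    volume_preserving_piFinSuccAbove (fun _ : Fin (k + 1) => Pt) 0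
  let S : Set (Pt × (Fin k → Pt)) :=
    {q | q.1 ∈ Metric.ball y d ∧ ∀ i : Fin k, q.2 i ∈ Metric.ball (q.1 + c i) η}
  have hS : IsOpen S := by
    have : S = (Prod.fst ⁻¹' Metric.ball y d) ∩
        ⋂ i : Fin k, {q : Pt × (Fin k → Pt) | dist (q.2 i) (q.1 + c i) < η} := by
      ext q
      simp [S]
    rw [this]
    refine (Metric.isOpen_ball.preimage continuous_fst).inter (isOpen_iInter_of_finite fun i => ?_)
    exact isOpen_lt (by fun_prop) continuous_const
  have hA : {x : Fin (k + 1) → Pt | x 0 ∈ Metric.ball y d ∧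
        ∀ i : Fin k, x i.succ ∈ Metric.ball (x 0 + c i) η} = e ⁻¹' S := by
    ext x
    simp [S, e, MeasurableEquiv.piFinSuccAbove_apply, Fin.insertNthEquiv, Fin.tail]
  rw [hA, he.measure_preimage hS.measurableSet.nullMeasurableSet,
    Measure.prod_apply hS.measurableSet]
  have hv : ∀ (x : Pt) (R : ℝ), volume (Metric.ball x R) = ENNReal.ofReal (volB R) := by
    intro x R
    rw [← volume_ball_center x R, ENNReal.ofReal_toReal (volume_ball_ne_top x R)]
  have hpre : ∀ x : Pt, volume (Prod.mk x ⁻¹' S)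
      = (Metric.ball y d).indicator (fun _ => ENNReal.ofReal (volB η) ^ k) x := by
    intro x
    by_cases hx : x ∈ Metric.ball y d
    · have : Prod.mk x ⁻¹' S = Set.pi Set.univ (fun i : Fin k => Metric.ball (x + c i) η) := by
        ext t
        have hx' : dist x y < d := hx
        simp [S, hx']
      rw [this, volume_pi_pi, Set.indicator_of_mem hx]
      simp [hv]
    · have : Prod.mk x ⁻¹' S = ∅ := by
        ext t
        have hx' : ¬ dist x y < d := hx
        simp [S, hx']
      rw [this, Set.indicator_of_notMem hx]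
      simp
  simp_rw [hpre]
  rw [lintegral_indicator Metric.isOpen_ball.measurableSet, lintegral_const]
  simp only [Measure.restrict_apply, MeasurableSet.univ, Set.univ_inter]
  rw [hv, mul_comm]

/-- Cluster partition function. -/
lemma Zw_cluster {φ : ℝ → ℝ} {k : ℕ} {d η rc : ℝ} (hη : 0 < η) (y : Pt) (z : Fin (k + 1) → Pt)
    (hz0 : ∀ i j, ‖z i - z j‖ + η + d ≤ rc)
    (hzero : ∀ (i j : Fin (k + 1)) (u v : Pt), i ≠ j → ‖u‖ < η → ‖v‖ < η →
      φ (dist (z i + u) (z j + v)) = 0) :
    ENNReal.ofReal (volB d * volB η ^ k / (k + 1).factorial)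
      ≤ Zw (rad φ) (Metric.ball y rc) (k + 1) := by
  classical
  have hvd : 0 ≤ volB d := ENNReal.toReal_nonneg
  have hvη : 0 ≤ volB η := ENNReal.toReal_nonneg
  let A : Set (Fin (k + 1) → Pt) := {x | x 0 ∈ Metric.ball y d ∧
        ∀ i : Fin k, x i.succ ∈ Metric.ball (x 0 + (z i.succ - z 0)) η}
  have hvol : volume A = ENNReal.ofReal (volB d) * ENNReal.ofReal (volB η) ^ k :=
    volume_cluster k y _
  -- the deviations
  have hdev : ∀ x ∈ A, ∀ i : Fin (k + 1), ‖x i - (x 0 + (z i - z 0))‖ < η := by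
    intro x hx i
    refine Fin.cases ?_ (fun j => ?_) i
    · simpa using hη
    · have := hx.2 j
      rwa [Metric.mem_ball, dist_eq_norm] at this
  have hsub : A ⊆ Set.pi Set.univ (fun _ : Fin (k + 1) => Metric.ball y rc) := by
    intro x hx i _
    have h1 := hdev x hx i
    have h2 : dist (x 0) y < d := hx.1
    have h3 := hz0 i 0
    rw [Metric.mem_ball, dist_eq_norm]
    have e : x i - y = (x i - (x 0 + (z i - z 0))) + (x 0 - y) + (z i - z 0) := by abel
    rw [e]
    rw [dist_eq_norm] at h2
    have h4 := norm_add₃_le (a := x i - (x 0 + (z i - z 0))) (b := x 0 - y) (c := z i - z 0)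
    linarith
  have hwgt : ∀ x ∈ A, wgt (rad φ) x = 1 := by
    intro x hx
    have : pairE (rad φ) x = 0 := by
      unfold pairE
      have : ∀ i j : Fin (k + 1), (if i = j then (0 : ℝ) else rad φ (x i) (x j)) = 0 := by
        intro i j
        split_ifs with hij
        · rfl
        · unfold rad
          have h1 := hdev x hx i
          have h2 := hdev x hx j
          have h3 := hzero i j _ _ hij h1 h2
          have e : dist (z i + (x i - (x 0 + (z i - z 0)))) (z j + (x j - (x 0 + (z j - z 0))))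
              = dist (x i) (x j) := by
            rw [dist_eq_norm, dist_eq_norm]
            congr 1
            abel
          rwa [e] at h3
      simp [this]
    simp [wgt, this]
  have hApos : MeasurableSet A := by
    have hS : IsOpen A := by
      have : A = ((fun x : Fin (k + 1) → Pt => x 0) ⁻¹' Metric.ball y d) ∩
          ⋂ i : Fin k, {x | dist (x i.succ) (x 0 + (z i.succ - z 0)) < η} := by
        ext x
        simp [A]
      rw [this]
      refine (Metric.isOpen_ball.preimage (continuous_apply 0)).inter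
        (isOpen_iInter_of_finite fun i => ?_)
      exact isOpen_lt (by fun_prop) (by fun_prop)
    exact hS.measurableSet
  have hle : volume A ≤ confInt (rad φ) (Metric.ball y rc) (k + 1) := by
    unfold confInt
    calc volume A = ∫⁻ x in A, 1 := by simp
      _ = ∫⁻ x in A, wgt (rad φ) x := by
          refine (setLIntegral_congr_fun hApos ?_).symm
          intro x hx
          exact hwgt x hx
      _ ≤ _ := lintegral_mono_set hsub
  unfold Zw
  have hf : (0 : ℝ) < (k + 1).factorial := by exact_mod_cast Nat.factorial_pos _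
  rw [div_eq_inv_mul, ENNReal.ofReal_mul (by positivity), ENNReal.ofReal_inv_of_pos hf,
    ENNReal.ofReal_natCast, ENNReal.ofReal_mul hvd, ENNReal.ofReal_pow hvη, ← hvol]
  gcongr

end Crest.Agent.Lib.GasClusterTest
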