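import Crest.Agent.Lib.GasCoreStab

/-!
# The core of the potential: upper base bounds (row 149, part 6b)

`fe_base_steep`, `fe_base_quad`: upper bounds of the free energy of a multiple of the core by
a pointwise lower bound of the energy on the configurations in the cube.
-/

set_option autoImplicit false

namespace Crest.Agent.Lib.GasCore

open MeasureTheory Filter Topology Crest.ProbabilityR.Continuum Crest.Agent.Lib.GasBasic
  Crest.Agent.Lib.GasKernel Crest.Agent.Lib.GasThermo Crest.Agent.Lib.GasLevel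
  Crest.Agent.Lib.GasPacking Crest.Agent.Lib.GasThermoAbs
open scoped ENNReal

/-- A uniform lower bound of the energy gives an upper bound of `log Z`. -/
lemma logZ_le_of_energy_ge {φ : ℝ → ℝ} {B Φ : ℝ} (h : Adm φ B Φ) {L : ℝ} (hL : 0 < L) (N : ℕ)
    (E : ℝ) (hE : ∀ x : Fin N → Pt, (∀ i, x i ∈ cube L) → E ≤ pairE (rad φ) x) :
    logZ φ L N ≤ L ^ 3 - E := by
  have hZ : Zw (rad φ) (cube L) N ≤ ENNReal.ofReal (Real.exp (L ^ 3 - E)) := by
    unfold Zw confInt
    have h1 : ∫⁻ x in Set.pi Set.univ (fun _ : Fin N => cube L), wgt (rad φ) x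
        ≤ ∫⁻ _ in Set.pi Set.univ (fun _ : Fin N => cube L), ENNReal.ofReal (Real.exp (-E)) := by
      refine setLIntegral_mono' (measurableSet_box L N) fun x hx => ?_
      unfold wgt
      refine ENNReal.ofReal_le_ofReal (Real.exp_le_exp.2 ?_)
      have := hE x (fun i => hx i (Set.mem_univ i))
      linarith
    rw [setLIntegral_const, box_volume hL.le] at h1
    have hV : 0 ≤ L ^ 3 := by positivity
    have h2 : ((N.factorial : ℝ≥0∞)⁻¹) * (ENNReal.ofReal (Real.exp (-E)) * ENNReal.ofReal (L ^ 3) ^ N)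
        = ENNReal.ofReal (Real.exp (-E) * ((L ^ 3) ^ N / N.factorial)) := by
      have hf : (0 : ℝ) < N.factorial := by exact_mod_cast N.factorial_pos
      rw [ENNReal.ofReal_mul (Real.exp_pos _).le, ENNReal.ofReal_div_of_pos hf,
        ENNReal.ofReal_pow hV, ENNReal.ofReal_natCast, div_eq_mul_inv]
      ring
    calc ((N.factorial : ℝ≥0∞)⁻¹) * ∫⁻ x in Set.pi Set.univ (fun _ : Fin N => cube L), wgt (rad φ) x
        ≤ ((N.factorial : ℝ≥0∞)⁻¹) * (ENNReal.ofReal (Real.exp (-E)) * ENNReal.ofReal (L ^ 3) ^ N) := by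
          gcongr
      _ = _ := h2
      _ ≤ _ := by
          refine ENNReal.ofReal_le_ofReal ?_
          rw [sub_eq_add_neg, Real.exp_add, mul_comm]
          exact mul_le_mul_of_nonneg_right (Real.pow_div_factorial_le_exp _ hV N) (Real.exp_pos _).le
  have h1 := ENNReal.toReal_mono ENNReal.ofReal_ne_top hZ
  rw [ENNReal.toReal_ofReal (Real.exp_pos _).le] at h1
  have h2 := Real.log_le_log (toReal_Zw_pos h hL N) h1
  rwa [Real.log_exp] at h2

/-- The free energy as a limit along the canonical sequence. -/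
lemma tendsto_fe {φ : ℝ → ℝ} {B Φ : ℝ} (h : Adm φ B Φ) {y : ℝ} (hy : 0 ≤ y) :
    Tendsto (fun L : ℝ => logZ φ L ⌊y * L ^ 3⌋₊ / L ^ 3) atTop (𝓝 (fe φ y)) := by
  rcases hy.eq_or_lt with rfl | hy
  · unfold fe
    rw [limFn_zero (thermoHyp h)]
    refine tendsto_const_nhds.congr' ?_
    filter_upwards [eventually_ge_atTop (1 : ℝ)] with L hL
    simp [(thermoHyp h).zero L hL]
  · exact tendsto_limFn (thermoHyp h) hy atTop (fun L : ℝ => L) (fun L : ℝ => ⌊y * L ^ 3⌋₊)
      tendsto_id (tendsto_canonical hy.le)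

/-- Upper bounds pass to the limit. -/
lemma fe_le_of_tendsto {φ : ℝ → ℝ} {B Φ : ℝ} (h : Adm φ B Φ) {y : ℝ} (hy : 0 ≤ y) {g : ℝ → ℝ}
    {c : ℝ} (hg : Tendsto g atTop (𝓝 c))
    (hle : ∀ᶠ L : ℝ in atTop, logZ φ L ⌊y * L ^ 3⌋₊ / L ^ 3 ≤ g L) : fe φ y ≤ c :=
  le_of_tendsto_of_tendsto (tendsto_fe h hy) hg hle

/-- Cauchy–Schwarz for the occupation numbers. -/
lemma occ_lower {N : ℕ} {β : Type*} [DecidableEq β] (v : Fin N → β) (C : Finset β)
    (hC : ∀ i, v i ∈ C) :
    (N : ℝ) ^ 2 ≤ C.card * ∑ i, ∑ j, if v i = v j then (1 : ℝ) else 0 := by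
  classical
  let S : β → Finset (Fin N) := fun b => Finset.univ.filter (fun i => v i = b)
  have hfib : ∀ f : Fin N → ℝ, ∑ b ∈ C, ∑ i ∈ S b, f i = ∑ i, f i := fun f =>
    Finset.sum_fiberwise_of_maps_to (fun i _ => hC i) f
  have hN : ∑ b ∈ C, ((S b).card : ℝ) = N := by
    have := hfib (fun _ => (1 : ℝ))
    simpa using this
  have hQ : (∑ i, ∑ j, if v i = v j then (1 : ℝ) else 0) = ∑ b ∈ C, ((S b).card : ℝ) ^ 2 := by
    rw [← hfib (fun i => ∑ j, if v i = v j then (1 : ℝ) else 0)]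
    refine Finset.sum_congr rfl fun b _ => ?_
    have : ∀ i ∈ S b, (∑ j, if v i = v j then (1 : ℝ) else 0) = ((S b).card : ℝ) := by
      intro i hi
      have hvi : v i = b := (Finset.mem_filter.1 hi).2
      rw [Finset.sum_boole]
      congr 2
      ext j
      simp [S, hvi, eq_comm]
    rw [Finset.sum_congr rfl this]
    simp [sq]
  rw [hQ, ← hN]
  exact sq_sum_le_card_mul_sum_sq

/-- The number of cells meeting the cube. -/
lemma cell_count {l L : ℝ} (hl : 0 < l) (hL : 0 ≤ L) :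
    ∃ C : Finset (Fin 3 → ℤ), (∀ y ∈ cube L, cellIdx l y ∈ C) ∧ (C.card : ℝ) ≤ (L / l + 1) ^ 3 := by
  classical
  let m : ℤ := ⌊L / l⌋
  have hm0 : 0 ≤ m := Int.floor_nonneg.2 (by positivity)
  refine ⟨Fintype.piFinset (fun _ : Fin 3 => Finset.Icc (0 : ℤ) m), ?_, ?_⟩
  · intro y hy
    rw [Fintype.mem_piFinset]
    intro k
    rw [Finset.mem_Icc]
    have h := hy k
    constructor
    · exact Int.floor_nonneg.2 (div_nonneg h.1 hl.le)
    · exact Int.floor_le_floor (div_le_div_of_nonneg_right h.2 hl.le)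
  · rw [Fintype.card_piFinset]
    simp only [Finset.prod_const, Finset.card_univ, Fintype.card_fin, Int.card_Icc]
    have h1 : ((m + 1 - 0).toNat : ℝ) = (m : ℝ) + 1 := by
      have : ((m + 1 - 0).toNat : ℤ) = m + 1 := by
        rw [Int.toNat_of_nonneg (by omega)]
        ring
      exact_mod_cast this
    push_cast
    rw [h1]
    have h2 : (m : ℝ) ≤ L / l := Int.floor_le _
    have h3 : (0 : ℝ) ≤ (m : ℝ) + 1 := by
      have : (0 : ℝ) ≤ m := by exact_mod_cast hm0
      linarith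
    exact pow_le_pow_left₀ h3 (by linarith) 3

/-- Energy bound from the occupation numbers, in the cube. -/
lemma energy_quad {φs : ℝ → ℝ} {a₁ a ξ W : ℝ} {k : ℕ} (hc : CoreHyp φs a₁ a ξ W k) {L : ℝ}
    (hL : 0 < L) {N : ℕ} (x : Fin N → Pt) (hx : ∀ i, x i ∈ cube L) :
    W * ((N : ℝ) ^ 2 / (2 * k * (L / sideS ξ + 1) ^ 3) - N) ≤ pairE (rad φs) x := by
  classical
  have hl := sideS_pos hc
  have hW := hc.hW
  have hk0 : (0 : ℝ) < k := by
    have := hc.hk
    exact_mod_cast (by omega : 0 < k)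
  obtain ⟨C, hC, hCc⟩ := cell_count hl hL.le
  let v : Fin N → Fin 3 → ℤ := fun i => cellIdx (sideS ξ) (x i)
  have h1 := energy_cells hc x v fun i j h => dist_lt_of_cellIdx_eq hc h
  have h2 := occ_lower v C (fun i => hC _ (hx i))
  set Q : ℝ := ∑ i, ∑ j, if v i = v j then (1 : ℝ) else 0 with hQ
  have hQ0 : 0 ≤ Q := Finset.sum_nonneg fun i _ => Finset.sum_nonneg fun j _ => by
    split_ifs <;> norm_num
  have hV : 0 < (L / sideS ξ + 1) ^ 3 := by positivity
  have h3 : (N : ℝ) ^ 2 ≤ (L / sideS ξ + 1) ^ 3 * Q :=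
    h2.trans (mul_le_mul_of_nonneg_right hCc hQ0)
  have h4 : (N : ℝ) ^ 2 / (L / sideS ξ + 1) ^ 3 ≤ Q := by
    rw [div_le_iff₀ hV]
    linarith
  have h5 : (N : ℝ) ^ 2 / (2 * k * (L / sideS ξ + 1) ^ 3) - N ≤ (1 / 2) * (Q / k - 2 * N) := by
    have e : (N : ℝ) ^ 2 / (2 * k * (L / sideS ξ + 1) ^ 3)
        = (1 / 2) * (((N : ℝ) ^ 2 / (L / sideS ξ + 1) ^ 3) / k) := by
      field_simp
    rw [e]
    have := div_le_div_of_nonneg_right h4 hk0.le
    linarith
  have h6 := mul_le_mul_of_nonneg_left h5 hW.le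
  have e2 : W * ((1 / 2) * (Q / k - 2 * N)) = (W / 2) * (Q / k - 2 * N) := by ring
  linarith

/-- Base bound (c): quadratic decrease at very high density. -/
theorem fe_base_quad {φs : ℝ → ℝ} {a₁ a ξ W : ℝ} {k : ℕ} (hc : CoreHyp φs a₁ a ξ W k) {σ : ℝ}
    (hσ : 0 < σ) {y : ℝ} (hy : 0 ≤ y) :
    fe (fun r => σ * φs r) y ≤ 1 + σ * W * y - σ * W * sideS ξ ^ 3 / (2 * k) * y ^ 2 := by
  obtain ⟨Φ, h⟩ := adm_core hc hσ.le
  have hl := sideS_pos hc
  have hW := hc.hW
  have hk0 : (0 : ℝ) < k := by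
    have := hc.hk
    exact_mod_cast (by omega : 0 < k)
  set l := sideS ξ with hldef
  let u : ℝ → ℝ := fun L => (⌊y * L ^ 3⌋₊ : ℝ) / L ^ 3
  have hu : Tendsto u atTop (𝓝 y) := tendsto_canonical hy
  let g : ℝ → ℝ := fun L => 1 + σ * W * u L - σ * W * (u L) ^ 2 / (2 * k * (1 / l + 1 / L) ^ 3)
  have hd : Tendsto (fun L : ℝ => (1 / l + 1 / L)) atTop (𝓝 (1 / l + 0)) :=
    tendsto_const_nhds.add (tendsto_const_nhds.div_atTop tendsto_id)
  have hg : Tendsto g atTop (𝓝 (1 + σ * W * y - σ * W * y ^ 2 / (2 * k * (1 / l + 0) ^ 3))) := by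
    refine ((tendsto_const_nhds.add (hu.const_mul _)).sub
      (((hu.pow 2).const_mul _).div ((hd.pow 3).const_mul _) ?_))
    positivity
  have e : 1 + σ * W * y - σ * W * y ^ 2 / (2 * k * (1 / l + 0) ^ 3)
      = 1 + σ * W * y - σ * W * l ^ 3 / (2 * k) * y ^ 2 := by
    field_simp
    ring
  rw [e] at hg
  refine fe_le_of_tendsto h hy hg ?_
  filter_upwards [eventually_gt_atTop (0 : ℝ)] with L hL
  set N := ⌊y * L ^ 3⌋₊ with hN
  have hL3 : 0 < L ^ 3 := by positivity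
  have h1 := logZ_le_of_energy_ge h hL N
    (σ * (W * ((N : ℝ) ^ 2 / (2 * k * (L / l + 1) ^ 3) - N))) (fun x hx => by
      rw [pairE_rad_const_mul]
      exact mul_le_mul_of_nonneg_left (energy_quad hc hL x hx) hσ.le)
  rw [div_le_iff₀ hL3]
  refine h1.trans (le_of_eq ?_)
  simp only [g, u]
  rw [← hN]
  have e3 : (1 / l + 1 / L) = (L / l + 1) / L := by
    field_simp
  rw [e3]
  field_simp
  ring

/-- Clusters: a configuration without bad pairs in the cube has at most `k P₀` points. -/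
lemma card_le_of_no_bad {φs : ℝ → ℝ} {a₁ a ξ W : ℝ} {k : ℕ} (hc : CoreHyp φs a₁ a ξ W k) {L : ℝ}
    (Y : Finset Pt) (hY : ∀ y ∈ Y, y ∈ cube L)
    (hnb : ∀ y ∈ Y, ∀ y' ∈ Y, y ≠ y' → a₁ < dist y y' ∧ (dist y y' ≤ 1 - ξ → dist y y' < a)) :
    Y.card ≤ k * packingNumber (L / (1 - ξ)) := by
  classical
  have hs := one_sub_pos' hc
  have ha₀ : 0 < a := hc.ha₁.trans hc.haa
  obtain ⟨A, hAY, hAind, hAmax⟩ := exists_max_indep (fun y y' : Pt => dist y y' < 1 - ξ)
    (fun y y' h => by rwa [dist_comm]) Y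
  have hA : A.card ≤ packingNumber (L / (1 - ξ)) := by
    refine card_le_packing_scaled L (1 - ξ) hs A (fun y hy => hY y (hAY hy)) ?_
    intro y hy y' hy' hne
    exact not_lt.1 (hAind y hy y' hy' hne)
  have hr : ∀ y ∈ Y, ∃ α, α ∈ A ∧ dist y α < a := by
    intro y hy
    by_cases hyA : y ∈ A
    · exact ⟨y, hyA, by simpa using ha₀⟩
    · obtain ⟨α, hα, hd⟩ := hAmax y hy hyA
      have hne : y ≠ α := fun h => hyA (h ▸ hα)
      exact ⟨α, hα, (hnb y hy α (hAY hα) hne).2 hd.le⟩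
  choose! r hrA hrd using hr
  have hcard : Y.card ≤ k * (Y.image r).card := by
    refine Finset.card_le_mul_card_image Y k ?_
    intro α _
    refine hc.clique _ ?_
    intro y hy y' hy' hne
    have hy1 := Finset.mem_filter.1 hy
    have hy2 := Finset.mem_filter.1 hy'
    have hd : dist y y' < 1 - ξ := by
      have h1 := hrd y hy1.1
      have h2 := hrd y' hy2.1
      rw [hy1.2] at h1
      rw [hy2.2] at h2
      have h3 := dist_triangle_right y y' α
      have := hc.ha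
      linarith
    have := hnb y hy1.1 y' hy2.1 hne
    exact ⟨this.1, this.2 hd.le⟩
  have hsub : (Y.image r).card ≤ A.card := by
    refine Finset.card_le_card ?_
    intro α hα
    obtain ⟨y, hy, rfl⟩ := Finset.mem_image.1 hα
    exact hrA y hy
  calc Y.card ≤ k * (Y.image r).card := hcard
    _ ≤ k * packingNumber (L / (1 - ξ)) := Nat.mul_le_mul_left _ (hsub.trans hA)

/-- The steep energy bound. -/
lemma energy_steep {φs : ℝ → ℝ} {a₁ a ξ W : ℝ} {k : ℕ} (hc : CoreHyp φs a₁ a ξ W k) {L : ℝ}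
    {N : ℕ} (x : Fin N → Pt) (hx : ∀ i, x i ∈ cube L) :
    W * ((N : ℝ) - k * packingNumber (L / (1 - ξ))) ≤ pairE (rad φs) x := by
  classical
  let rel : Fin N → Fin N → Prop := fun i j =>
    dist (x i) (x j) ≤ a₁ ∨ (a ≤ dist (x i) (x j) ∧ dist (x i) (x j) ≤ 1 - ξ)
  have hrel : ∀ i j, rel i j → rel j i := by
    intro i j h
    simpa only [rel, dist_comm] using h
  let c : Fin N → Fin N → ℝ := fun i j => if i = j then 0 else φs (dist (x i) (x j))
  have hc0 : ∀ i j, 0 ≤ c i j := by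
    intro i j
    simp only [c]
    split_ifs
    · exact le_rfl
    · exact hc.nonneg _
  have hc1 : ∀ i j, i ≠ j → rel i j → W ≤ c i j := by
    intro i j hij hr
    simp only [c, hij, if_false]
    exact hc.bad _ hr
  obtain ⟨T, -, hTind, hTmax⟩ := exists_max_indep rel hrel Finset.univ
  have hpair : ∀ i ∈ T, ∀ j ∈ T, i ≠ j →
      a₁ < dist (x i) (x j) ∧ (dist (x i) (x j) ≤ 1 - ξ → dist (x i) (x j) < a) := by
    intro i hi j hj hij
    have hnr := hTind i hi j hj hij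
    simp only [rel, not_or, not_and, not_le] at hnr
    refine ⟨hnr.1, fun hd => ?_⟩
    by_contra hge
    have := hnr.2 (not_lt.1 hge)
    linarith
  have hinj : Set.InjOn x T := by
    intro i hi j hj hxij
    by_contra hij
    have h := hpair i hi j hj hij
    rw [hxij, dist_self] at h
    linarith [h.1, hc.ha₁]
  have hTcard : T.card ≤ k * packingNumber (L / (1 - ξ)) := by
    rw [← Finset.card_image_of_injOn hinj]
    refine card_le_of_no_bad hc _ ?_ ?_
    · intro y hy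
      obtain ⟨i, -, rfl⟩ := Finset.mem_image.1 hy
      exact hx i
    · intro y hy y' hy' hne
      obtain ⟨i, hi, rfl⟩ := Finset.mem_image.1 hy
      obtain ⟨j, hj, rfl⟩ := Finset.mem_image.1 hy'
      exact hpair i hi j hj (fun h => hne (by rw [h]))
  -- the cross terms
  set S' := Finset.univ \ T with hS'
  have hcard : (S'.card : ℝ) = (N : ℝ) - T.card := by
    have : S'.card + T.card = N := by
      have := Finset.card_sdiff_add_card_eq_card (Finset.subset_univ T)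
      simpa using this
    have h2 : (S'.card : ℝ) + T.card = N := by exact_mod_cast this
    linarith
  have hcross1 : (S'.card : ℝ) * W ≤ ∑ i ∈ S', ∑ j ∈ T, c i j := by
    rw [← nsmul_eq_mul]
    refine Finset.card_nsmul_le_sum _ _ _ fun i hi => ?_
    have hiS := Finset.mem_sdiff.1 hi
    obtain ⟨j, hj, hr⟩ := hTmax i hiS.1 hiS.2
    have hij : i ≠ j := fun h => hiS.2 (h ▸ hj)
    calc W ≤ c i j := hc1 i j hij hr
      _ ≤ ∑ j ∈ T, c i j := Finset.single_le_sum (f := fun j => c i j) (fun j _ => hc0 i j) hj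
  have hcross2 : (S'.card : ℝ) * W ≤ ∑ i ∈ T, ∑ j ∈ S', c i j := by
    rw [Finset.sum_comm, ← nsmul_eq_mul]
    refine Finset.card_nsmul_le_sum _ _ _ fun i hi => ?_
    have hiS := Finset.mem_sdiff.1 hi
    obtain ⟨j, hj, hr⟩ := hTmax i hiS.1 hiS.2
    have hij : j ≠ i := fun h => hiS.2 (h ▸ hj)
    calc W ≤ c j i := hc1 j i hij (hrel _ _ hr)
      _ ≤ ∑ j ∈ T, c j i := Finset.single_le_sum (f := fun j => c j i) (fun j _ => hc0 j i) hj
  have hTT : 0 ≤ ∑ i ∈ T, ∑ j ∈ T, c i j :=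
    Finset.sum_nonneg fun i _ => Finset.sum_nonneg fun j _ => hc0 i j
  have hSS : 0 ≤ ∑ i ∈ S', ∑ j ∈ S', c i j :=
    Finset.sum_nonneg fun i _ => Finset.sum_nonneg fun j _ => hc0 i j
  have hsplit : ∑ i, ∑ j, c i j = ∑ i ∈ S', ∑ j ∈ S', c i j + ∑ i ∈ S', ∑ j ∈ T, c i j +
      (∑ i ∈ T, ∑ j ∈ S', c i j + ∑ i ∈ T, ∑ j ∈ T, c i j) := by
    have h1 : ∀ i, ∑ j, c i j = ∑ j ∈ S', c i j + ∑ j ∈ T, c i j := fun i =>
      (Finset.sum_sdiff (Finset.subset_univ T)).symm
    rw [← Finset.sum_sdiff (Finset.subset_univ T)]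
    simp_rw [h1, Finset.sum_add_distrib, hS']
  have hE : pairE (rad φs) x = (1 / 2) * ∑ i, ∑ j, c i j := rfl
  have hTR : (T.card : ℝ) ≤ k * packingNumber (L / (1 - ξ)) := by exact_mod_cast hTcard
  have h1 : W * ((N : ℝ) - k * packingNumber (L / (1 - ξ))) ≤ W * (S'.card : ℝ) := by
    refine mul_le_mul_of_nonneg_left ?_ hc.hW.le
    rw [hcard]
    linarith
  rw [hE, hsplit]
  linarith

/-- Base bound (b): steep decrease beyond the maximal density. -/
theorem fe_base_steep {φs : ℝ → ℝ} {a₁ a ξ W : ℝ} {k : ℕ} (hc : CoreHyp φs a₁ a ξ W k) {σ p : ℝ}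
    (hσ : 0 < σ) (hp : Tendsto (fun L : ℝ => (packingNumber L : ℝ) / L ^ 3) atTop (𝓝 p))
    {y : ℝ} (hy : 0 ≤ y) :
    fe (fun r => σ * φs r) y ≤ 1 - σ * W * max (y - k * (p / (1 - ξ) ^ 3)) 0 := by
  obtain ⟨Φ, h⟩ := adm_core hc hσ.le
  have hs := one_sub_pos' hc
  have hW := hc.hW
  set s := 1 - ξ with hsdef
  let u : ℝ → ℝ := fun L => (⌊y * L ^ 3⌋₊ : ℝ) / L ^ 3
  have hu : Tendsto u atTop (𝓝 y) := tendsto_canonical hy
  let q : ℝ → ℝ := fun L => (packingNumber (L / s) : ℝ) / L ^ 3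
  have hq : Tendsto q atTop (𝓝 (p / s ^ 3)) := by
    have h1 : Tendsto (fun L : ℝ => L / s) atTop atTop := tendsto_id.atTop_div_const hs
    have h2 := (hp.comp h1).div_const (s ^ 3)
    refine h2.congr' ?_
    filter_upwards [eventually_gt_atTop (0 : ℝ)] with L hL
    simp only [Function.comp, q]
    field_simp
  let g : ℝ → ℝ := fun L => 1 - σ * W * max (u L - k * q L) 0
  have hg : Tendsto g atTop (𝓝 (1 - σ * W * max (y - k * (p / s ^ 3)) 0)) := by
    refine tendsto_const_nhds.sub (Tendsto.const_mul _ ?_)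
    exact (hu.sub (hq.const_mul _)).max tendsto_const_nhds
  refine fe_le_of_tendsto h hy hg ?_
  filter_upwards [eventually_gt_atTop (0 : ℝ)] with L hL
  set N := ⌊y * L ^ 3⌋₊ with hN
  have hL3 : 0 < L ^ 3 := by positivity
  have h1 := logZ_le_of_energy_ge h hL N
    (σ * (W * max ((N : ℝ) - k * packingNumber (L / s)) 0)) (fun x hx => by
      rw [pairE_rad_const_mul]
      refine mul_le_mul_of_nonneg_left ?_ hσ.le
      rcases le_total ((N : ℝ) - k * packingNumber (L / s)) 0 with h0 | h0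
      · rw [max_eq_right h0, mul_zero]
        exact pairE_core_nonneg hc x
      · rw [max_eq_left h0]
        exact energy_steep hc x hx)
  rw [div_le_iff₀ hL3]
  refine h1.trans (le_of_eq ?_)
  simp only [g, u, q]
  rw [← hN]
  have e : (N : ℝ) / L ^ 3 - k * ((packingNumber (L / s) : ℝ) / L ^ 3)
      = ((N : ℝ) - k * packingNumber (L / s)) / L ^ 3 := by
    field_simp
  rw [e]
  have e2 : max (((N : ℝ) - k * packingNumber (L / s)) / L ^ 3) 0
      = max ((N : ℝ) - k * packingNumber (L / s)) 0 / L ^ 3 := by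
    rcases le_total ((N : ℝ) - k * packingNumber (L / s)) 0 with h0 | h0
    · rw [max_eq_right h0, max_eq_right (div_nonpos_of_nonpos_of_nonneg h0 hL3.le), zero_div]
    · rw [max_eq_left h0, max_eq_left (div_nonneg h0 hL3.le)]
  rw [e2]
  field_simp

end Crest.Agent.Lib.GasCore
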