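import Crest.Agent.Lib.GasCore

/-!
# Construction of the core (row 149)

Geometry of the clique window at scale one and at scale `a`, the continuous profile `psi`, the
hypothesis `CoreHyp` for `W * psi + D`.
-/

set_option autoImplicit false

namespace Crest.Agent.Lib.GasCoreBuild

open MeasureTheory Filter Topology Crest.ProbabilityR.Continuum Crest.Agent.Lib.GasBasic
  Crest.Agent.Lib.GasKernel Crest.Agent.Lib.GasThermo Crest.Agent.Lib.GasLevel
  Crest.Agent.Lib.GasPacking Crest.Agent.Lib.GasCore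
open scoped ENNReal

/-- Clamp to `[0,1]`. -/
noncomputable def ramp (x : ℝ) : ℝ := max 0 (min 1 x)

/-- The profile: `1` for `r ≤ a₁`, `0` on `[z₁, z₂]`, `1` on `[a, 1 - ξ]`, `0` for `r ≥ 1`. -/
noncomputable def psi (a₁ z₁ z₂ a ξ r : ℝ) : ℝ :=
  max (ramp ((z₁ - r) / (z₁ - a₁))) (min (ramp ((r - z₂) / (a - z₂))) (ramp ((1 - r) / ξ)))

lemma continuous_ramp : Continuous ramp := by
  unfold ramp
  fun_prop

lemma ramp_nonneg (x : ℝ) : 0 ≤ ramp x := le_max_left _ _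

lemma ramp_le_one (x : ℝ) : ramp x ≤ 1 := max_le zero_le_one (min_le_left _ _)

lemma ramp_of_one_le {x : ℝ} (h : 1 ≤ x) : ramp x = 1 := by
  unfold ramp
  rw [min_eq_left h, max_eq_right zero_le_one]

lemma ramp_of_le_zero {x : ℝ} (h : x ≤ 0) : ramp x = 0 := by
  unfold ramp
  rw [min_eq_right (h.trans zero_le_one), max_eq_left h]

lemma continuous_psi (a₁ z₁ z₂ a ξ : ℝ) : Continuous (psi a₁ z₁ z₂ a ξ) := by
  unfold psi
  have h1 : Continuous fun r : ℝ => ramp ((z₁ - r) / (z₁ - a₁)) :=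
    continuous_ramp.comp ((continuous_const.sub continuous_id).div_const _)
  have h2 : Continuous fun r : ℝ => ramp ((r - z₂) / (a - z₂)) :=
    continuous_ramp.comp ((continuous_id.sub continuous_const).div_const _)
  have h3 : Continuous fun r : ℝ => ramp ((1 - r) / ξ) :=
    continuous_ramp.comp ((continuous_const.sub continuous_id).div_const _)
  exact h1.max (h2.min h3)

lemma psi_nonneg (a₁ z₁ z₂ a ξ r : ℝ) : 0 ≤ psi a₁ z₁ z₂ a ξ r :=
  le_max_of_le_left (ramp_nonneg _)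

lemma psi_le_one (a₁ z₁ z₂ a ξ r : ℝ) : psi a₁ z₁ z₂ a ξ r ≤ 1 :=
  max_le (ramp_le_one _) (min_le_of_left_le (ramp_le_one _))

lemma psi_eq_one_left {a₁ z₁ z₂ a ξ r : ℝ} (h : a₁ < z₁) (hr : r ≤ a₁) : psi a₁ z₁ z₂ a ξ r = 1 := by
  have h0 : 0 < z₁ - a₁ := sub_pos.mpr h
  have h1 : 1 ≤ (z₁ - r) / (z₁ - a₁) := by
    rw [le_div_iff₀ h0]
    linarith
  unfold psi
  rw [ramp_of_one_le h1]
  exact max_eq_left (min_le_of_left_le (ramp_le_one _))

lemma psi_eq_one_mid {a₁ z₁ z₂ a ξ r : ℝ} (h : z₂ < a) (hξ : 0 < ξ) (hr1 : a ≤ r) (hr2 : r ≤ 1 - ξ) :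
    psi a₁ z₁ z₂ a ξ r = 1 := by
  have h0 : 0 < a - z₂ := sub_pos.mpr h
  have h1 : 1 ≤ (r - z₂) / (a - z₂) := by
    rw [le_div_iff₀ h0]
    linarith
  have h2 : 1 ≤ (1 - r) / ξ := by
    rw [le_div_iff₀ hξ]
    linarith
  unfold psi
  rw [ramp_of_one_le h1, ramp_of_one_le h2, min_self]
  exact max_eq_right (ramp_le_one _)

lemma psi_eq_zero_mid {a₁ z₁ z₂ a ξ r : ℝ} (h1 : a₁ < z₁) (h2 : z₂ < a) (hr1 : z₁ ≤ r) (hr2 : r ≤ z₂) :
    psi a₁ z₁ z₂ a ξ r = 0 := by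
  have h0 : 0 < z₁ - a₁ := sub_pos.mpr h1
  have h0' : 0 < a - z₂ := sub_pos.mpr h2
  have h3 : (z₁ - r) / (z₁ - a₁) ≤ 0 := div_nonpos_of_nonpos_of_nonneg (by linarith) h0.le
  have h4 : (r - z₂) / (a - z₂) ≤ 0 := div_nonpos_of_nonpos_of_nonneg (by linarith) h0'.le
  unfold psi
  rw [ramp_of_le_zero h3, ramp_of_le_zero h4, min_eq_left (ramp_nonneg _), max_self]

lemma psi_eq_zero_far {a₁ z₁ z₂ a ξ r : ℝ} (h1 : a₁ < z₁) (h2 : z₁ ≤ 1) (hξ : 0 < ξ) (hr : 1 ≤ r) :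
    psi a₁ z₁ z₂ a ξ r = 0 := by
  have h0 : 0 < z₁ - a₁ := sub_pos.mpr h1
  have h3 : (z₁ - r) / (z₁ - a₁) ≤ 0 := div_nonpos_of_nonpos_of_nonneg (by linarith) h0.le
  have h4 : (1 - r) / ξ ≤ 0 := div_nonpos_of_nonpos_of_nonneg (by linarith) hξ.le
  unfold psi
  rw [ramp_of_le_zero h3, ramp_of_le_zero h4, min_eq_right (ramp_nonneg _), max_self]

/-- Geometry at scale one: a clique window. -/
theorem exists_geo : ∃ (r₁ z₁ z₂ ι : ℝ) (k : ℕ) (z : Fin k → Pt), 0 < r₁ ∧ r₁ < z₁ ∧ z₁ < z₂ ∧ z₂ < 1 ∧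
    0 < ι ∧ 2 ≤ k ∧
    (∀ X : Finset Pt, (∀ x ∈ X, ∀ y ∈ X, x ≠ y → r₁ < dist x y ∧ dist x y < 1) → X.card ≤ k) ∧
    (∀ i j, ‖z i - z j‖ ≤ 1) ∧
    (∀ i j, i ≠ j → ∀ u v : Pt, ‖u‖ < ι → ‖v‖ < ι →
      z₁ ≤ dist (z i + u) (z j + v) ∧ dist (z i + u) (z j + v) ≤ z₂) := by
  obtain ⟨r₁, r₂, k, h0, h12, h21, hk, ⟨X, hXc, hX⟩, hup⟩ := exists_clique_window
  have hr2 : 0 < r₂ := h0.trans h12
  set m : ℝ := (r₁ + r₂) / 2 with hm
  have hm1 : r₁ < m := by rw [hm]; linarith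
  have hm2 : m < r₂ := by rw [hm]; linarith
  have hm0 : 0 < m := h0.trans hm1
  set s : ℝ := m / r₂ with hs
  have hs0 : 0 < s := div_pos hm0 hr2
  have hs1 : s < 1 := (div_lt_one hr2).2 hm2
  have hsr : s * r₂ = m := by rw [hs]; field_simp
  set z₁ : ℝ := (m + r₁) / 2 with hz1
  set z₂ : ℝ := (s + 1) / 2 with hz2
  have hz1m : z₁ < m := by rw [hz1]; linarith
  have hz1r : r₁ < z₁ := by rw [hz1]; linarith
  have hsz2 : s < z₂ := by rw [hz2]; linarith
  have hz21 : z₂ < 1 := by rw [hz2]; linarith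
  have hms : m < s := by
    rw [← hsr]
    nlinarith
  set ι : ℝ := min ((m - z₁) / 2) ((z₂ - s) / 2) with hι
  have hι0 : 0 < ι := lt_min (by linarith) (by linarith)
  have hι1 : ι ≤ (m - z₁) / 2 := min_le_left _ _
  have hι2 : ι ≤ (z₂ - s) / 2 := min_le_right _ _
  let e : Fin k ≃ X := (X.equivFinOfCardEq hXc).symm
  refine ⟨r₁, z₁, z₂, ι, k, fun i => s • (e i : Pt), h0, hz1r, by linarith, hz21, hι0, hk, ?_, ?_, ?_⟩
  · intro Y hY
    exact hup Y fun x hx y hy hxy => ⟨(hY x hx y hy hxy).1.le, (hY x hx y hy hxy).2.le⟩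
  · intro i j
    by_cases hij : i = j
    · subst hij; simp
    · have hne : (e i : Pt) ≠ (e j : Pt) := fun h => hij (e.injective (Subtype.ext h))
      have h1 := (hX _ (e i).2 _ (e j).2 hne).2
      have : ‖s • (e i : Pt) - s • (e j : Pt)‖ = s * dist (e i : Pt) (e j : Pt) := by
        rw [← smul_sub, norm_smul, Real.norm_of_nonneg hs0.le, dist_eq_norm]
      rw [this]
      nlinarith
  · intro i j hij u v hu hv
    have hne : (e i : Pt) ≠ (e j : Pt) := fun h => hij (e.injective (Subtype.ext h))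
    obtain ⟨h1, h2⟩ := hX _ (e i).2 _ (e j).2 hne
    have hd : dist (s • (e i : Pt)) (s • (e j : Pt)) = s * dist (e i : Pt) (e j : Pt) := by
      rw [dist_eq_norm, dist_eq_norm, ← smul_sub, norm_smul, Real.norm_of_nonneg hs0.le]
    have hlow : m ≤ dist (s • (e i : Pt)) (s • (e j : Pt)) := by
      rw [hd, ← hsr]
      exact mul_le_mul_of_nonneg_left h1 hs0.le
    have hhigh : dist (s • (e i : Pt)) (s • (e j : Pt)) ≤ s := by
      rw [hd]
      nlinarith
    have hdiff : |dist (s • (e i : Pt) + u) (s • (e j : Pt) + v) - dist (s • (e i : Pt)) (s • (e j : Pt))|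
        ≤ ‖u‖ + ‖v‖ := by
      have h1 : dist (s • (e i : Pt) + u) (s • (e j : Pt) + v)
          ≤ dist (s • (e i : Pt)) (s • (e j : Pt)) + (‖u‖ + ‖v‖) := by
        calc _ ≤ dist (s • (e i : Pt) + u) (s • (e i : Pt)) + dist (s • (e i : Pt)) (s • (e j : Pt))
              + dist (s • (e j : Pt)) (s • (e j : Pt) + v) := dist_triangle4 _ _ _ _
          _ = _ := by
              rw [dist_eq_norm, dist_eq_norm (s • (e j : Pt)) _]
              simp only [add_sub_cancel_left, sub_add_cancel_left, norm_neg]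
              ring
      have h2 : dist (s • (e i : Pt)) (s • (e j : Pt))
          ≤ dist (s • (e i : Pt) + u) (s • (e j : Pt) + v) + (‖u‖ + ‖v‖) := by
        calc _ ≤ dist (s • (e i : Pt)) (s • (e i : Pt) + u) + dist (s • (e i : Pt) + u) (s • (e j : Pt) + v)
              + dist (s • (e j : Pt) + v) (s • (e j : Pt)) := dist_triangle4 _ _ _ _
          _ = _ := by
              rw [dist_eq_norm (s • (e i : Pt)) _, dist_eq_norm (s • (e j : Pt) + v) _]
              simp only [add_sub_cancel_left, sub_add_cancel_left, norm_neg]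
              ring
      rw [abs_le]; constructor <;> linarith
    have := abs_le.1 hdiff
    constructor <;> linarith [this.1, this.2]

/-- Scaling of the clique bound. -/
lemma clique_scale {r₁ a : ℝ} {k : ℕ} (ha : 0 < a)
    (h : ∀ X : Finset Pt, (∀ x ∈ X, ∀ y ∈ X, x ≠ y → r₁ < dist x y ∧ dist x y < 1) → X.card ≤ k)
    (X : Finset Pt) (hX : ∀ x ∈ X, ∀ y ∈ X, x ≠ y → r₁ * a < dist x y ∧ dist x y < a) : X.card ≤ k := by
  classical
  have hinv : a⁻¹ ≠ 0 := inv_ne_zero ha.ne'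
  have hinj : Function.Injective (fun x : Pt => a⁻¹ • x) := smul_right_injective _ hinv
  have hd : ∀ x y : Pt, dist (a⁻¹ • x) (a⁻¹ • y) = a⁻¹ * dist x y := by
    intro x y
    rw [dist_eq_norm, dist_eq_norm, ← smul_sub, norm_smul, Real.norm_of_nonneg (inv_pos.2 ha).le]
  have := h (X.image fun x => a⁻¹ • x) ?_
  · rwa [Finset.card_image_of_injective _ hinj] at this
  · intro x hx y hy hxy
    obtain ⟨x', hx', rfl⟩ := Finset.mem_image.1 hx
    obtain ⟨y', hy', rfl⟩ := Finset.mem_image.1 hy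
    have hne : x' ≠ y' := fun e => hxy (by rw [e])
    obtain ⟨h1, h2⟩ := hX x' hx' y' hy' hne
    rw [hd]
    constructor
    · rw [← div_eq_inv_mul, lt_div_iff₀ ha]; exact h1
    · rw [← div_eq_inv_mul, div_lt_one ha]; exact h2

/-- Scaling of the clique itself. -/
lemma dist_scale {z₁ z₂ ι a : ℝ} {x y u v : Pt} (ha : 0 < a)
    (h : ∀ u v : Pt, ‖u‖ < ι → ‖v‖ < ι → z₁ ≤ dist (x + u) (y + v) ∧ dist (x + u) (y + v) ≤ z₂)
    (hu : ‖u‖ < ι * a) (hv : ‖v‖ < ι * a) :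
    z₁ * a ≤ dist (a • x + u) (a • y + v) ∧ dist (a • x + u) (a • y + v) ≤ z₂ * a := by
  have hinv : 0 < a⁻¹ := inv_pos.2 ha
  have hnorm : ∀ w : Pt, ‖w‖ < ι * a → ‖a⁻¹ • w‖ < ι := by
    intro w hw
    rw [norm_smul, Real.norm_of_nonneg hinv.le, ← div_eq_inv_mul, div_lt_iff₀ ha]
    exact hw
  obtain ⟨h1, h2⟩ := h (a⁻¹ • u) (a⁻¹ • v) (hnorm u hu) (hnorm v hv)
  have hd : dist (a • x + u) (a • y + v) = a * dist (x + a⁻¹ • u) (y + a⁻¹ • v) := by
    have h3 : a • x + u = a • (x + a⁻¹ • u) := by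
      rw [smul_add, smul_smul, mul_inv_cancel₀ ha.ne', one_smul]
    have h4 : a • y + v = a • (y + a⁻¹ • v) := by
      rw [smul_add, smul_smul, mul_inv_cancel₀ ha.ne', one_smul]
    rw [h3, h4, dist_eq_norm, ← smul_sub, norm_smul, Real.norm_of_nonneg ha.le, dist_eq_norm]
  rw [hd]
  constructor <;> nlinarith

/-- The singular part for the statement with divergent core. -/
noncomputable def Dsing (a₁ r : ℝ) : ℝ := max 0 (1 / r - 1 / a₁)

lemma measurable_Dsing (a₁ : ℝ) : Measurable (Dsing a₁) := by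
  unfold Dsing
  exact measurable_const.max ((measurable_const.div measurable_id).sub measurable_const)

lemma Dsing_nonneg (a₁ r : ℝ) : 0 ≤ Dsing a₁ r := le_max_left _ _

lemma Dsing_eq_zero {a₁ r : ℝ} (ha : 0 < a₁) (hr : a₁ ≤ r) : Dsing a₁ r = 0 := by
  unfold Dsing
  refine max_eq_left ?_
  have : 1 / r ≤ 1 / a₁ := one_div_le_one_div_of_le ha hr
  linarith

lemma Dsing_le {a₁ r : ℝ} (ha : 0 < a₁) (hr : 0 < r) : Dsing a₁ r ≤ 1 / r := by
  unfold Dsing
  have h1 : 0 < 1 / r := by positivity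
  have h2 : 0 < 1 / a₁ := by positivity
  exact max_le h1.le (by linarith)

lemma tendsto_Dsing (a₁ : ℝ) : Tendsto (Dsing a₁) (nhdsWithin 0 (Set.Ioi 0)) atTop := by
  have h : Tendsto (fun r : ℝ => 1 / r - 1 / a₁) (nhdsWithin 0 (Set.Ioi 0)) atTop := by
    simp only [one_div]
    exact tendsto_atTop_add_const_right _ _ tendsto_inv_nhdsGT_zero
  exact tendsto_atTop_mono (fun r => le_max_right _ _) h

/-- Integrability of the singular part in three dimensions. -/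
lemma lintegral_Dsing {a₁ : ℝ} (ha : 0 < a₁) : ∫⁻ y : Pt, ENNReal.ofReal (Dsing a₁ ‖y‖) < ∞ := by
  have hint : Integrable (fun y : Pt => Dsing a₁ ‖y‖) volume := by
    rw [MeasureTheory.integrable_fun_norm_addHaar (volume : Measure Pt)]
    -- the integrand is dominated by `y ↦ y` on `(0, a₁)` and vanishes beyond
    have hfin : Module.finrank ℝ Pt - 1 = 2 := by simp
    rw [hfin]
    have hdom : IntegrableOn (fun y : ℝ => Set.indicator (Set.Ioc 0 a₁) (fun y : ℝ => y) y)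
        (Set.Ioi 0) := by
      refine Integrable.integrableOn ?_
      rw [integrable_indicator_iff measurableSet_Ioc]
      exact (continuous_id.integrableOn_Icc (a := 0) (b := a₁)).mono_set Set.Ioc_subset_Icc_self
    refine Integrable.mono' hdom ?_ ?_
    · exact ((measurable_id.pow_const 2).smul (measurable_Dsing a₁)).aestronglyMeasurable
    · refine (ae_restrict_mem measurableSet_Ioi).mono fun y hy => ?_
      have hy0 : (0 : ℝ) < y := hy
      have hD0 : 0 ≤ Dsing a₁ y := Dsing_nonneg _ _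
      rw [smul_eq_mul, norm_mul, norm_pow, Real.norm_of_nonneg hy0.le, Real.norm_of_nonneg hD0]
      by_cases hya : y ≤ a₁
      · rw [Set.indicator_of_mem (show y ∈ Set.Ioc 0 a₁ from ⟨hy0, hya⟩)]
        have h1 := Dsing_le ha hy0
        calc y ^ 2 * Dsing a₁ y ≤ y ^ 2 * (1 / y) := by gcongr
          _ = y := by field_simp
      · rw [Set.indicator_of_notMem (fun h => hya h.2), Dsing_eq_zero ha (not_le.mp hya).le]
        simp
  exact hint.lintegral_lt_top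

/-- The core hypotheses for `W * psi + D`. -/
theorem coreHyp_of {a₁ z₁ z₂ a ξ W : ℝ} {k : ℕ} {D : ℝ → ℝ} (hD : Measurable D) (hD0 : ∀ r, 0 ≤ D r)
    (hD1 : ∀ r, a₁ ≤ r → D r = 0) (hDI : ∫⁻ y : Pt, ENNReal.ofReal (D ‖y‖) < ∞)
    (ha₁ : 0 < a₁) (h1 : a₁ < z₁) (h2 : z₁ ≤ z₂) (h3 : z₂ < a) (hξ : 0 < ξ) (ha : 2 * a ≤ 1 - ξ)
    (hW : 0 < W) (hk : 2 ≤ k)
    (hcl : ∀ X : Finset Pt, (∀ x ∈ X, ∀ y ∈ X, x ≠ y → a₁ < dist x y ∧ dist x y < a) → X.card ≤ k) :
    CoreHyp (fun r => W * psi a₁ z₁ z₂ a ξ r + D r) a₁ a ξ W k := by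
  have haa : a₁ < a := by linarith
  have h1a : a < 1 := by linarith
  have hz1 : z₁ ≤ 1 := by linarith
  have hfar : ∀ r, 1 ≤ r → W * psi a₁ z₁ z₂ a ξ r + D r = 0 := fun r hr => by
    rw [psi_eq_zero_far h1 hz1 hξ hr, hD1 r (by linarith)]
    simp
  have hnn : ∀ r, 0 ≤ W * psi a₁ z₁ z₂ a ξ r + D r := fun r =>
    add_nonneg (mul_nonneg hW.le (psi_nonneg _ _ _ _ _ _)) (hD0 r)
  refine ⟨((continuous_psi _ _ _ _ _).measurable.const_mul W).add hD, hnn, hfar, ?_, ?_, ha₁, haa,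
    hξ, ha, hW, hk, hcl⟩
  · rintro r (hr | ⟨hr1, hr2⟩)
    · rw [psi_eq_one_left h1 hr]
      have := hD0 r
      linarith
    · rw [psi_eq_one_mid h3 hξ hr1 hr2]
      have := hD0 r
      linarith
  · have hle : ∀ y : Pt, ENNReal.ofReal (W * psi a₁ z₁ z₂ a ξ ‖y‖ + D ‖y‖)
        ≤ Set.indicator (Metric.ball (0 : Pt) 1) (fun _ => ENNReal.ofReal W) y
          + ENNReal.ofReal (D ‖y‖) := fun y => by
      by_cases hy : ‖y‖ < 1
      · rw [Set.indicator_of_mem (by simpa using hy)]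
        rw [ENNReal.ofReal_add (mul_nonneg hW.le (psi_nonneg _ _ _ _ _ _)) (hD0 _)]
        gcongr
        have := psi_le_one a₁ z₁ z₂ a ξ ‖y‖
        nlinarith
      · rw [hfar _ (not_lt.mp hy)]
        simp
    calc ∫⁻ y : Pt, ENNReal.ofReal (W * psi a₁ z₁ z₂ a ξ ‖y‖ + D ‖y‖)
        ≤ ∫⁻ y : Pt, (Set.indicator (Metric.ball (0 : Pt) 1) (fun _ => ENNReal.ofReal W) y
          + ENNReal.ofReal (D ‖y‖)) := lintegral_mono hle
      _ = (∫⁻ y : Pt, Set.indicator (Metric.ball (0 : Pt) 1) (fun _ => ENNReal.ofReal W) y)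
          + ∫⁻ y : Pt, ENNReal.ofReal (D ‖y‖) := by
            refine lintegral_add_right _ ?_
            exact ENNReal.measurable_ofReal.comp (hD.comp measurable_norm)
      _ < ∞ := by
            refine ENNReal.add_lt_top.mpr ⟨?_, hDI⟩
            rw [lintegral_indicator measurableSet_ball, setLIntegral_const]
            exact ENNReal.mul_lt_top ENNReal.ofReal_lt_top measure_ball_lt_top

end Crest.Agent.Lib.GasCoreBuild
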