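import Crest.Agent.Lib.GasLevel
import Crest.Agent.Lib.GasPacking

/-!
# The core of the potential: definitions (row 149)

`CoreHyp`, the cell side `sideS`, the Schur constant `jj`, and the admissibility of multiples of
the core (shared by the files `GasCoreRep`, `GasCoreStab`, `GasCoreBase`, `GasCoreTest`).
-/

set_option autoImplicit false

namespace Crest.Agent.Lib.GasCore

open MeasureTheory Filter Topology Crest.ProbabilityR.Continuum Crest.Agent.Lib.GasBasic
  Crest.Agent.Lib.GasKernel Crest.Agent.Lib.GasThermo Crest.Agent.Lib.GasLevel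
  Crest.Agent.Lib.GasPacking
open scoped ENNReal

/-- Abstract properties of the core `φs`. Bad distances: `r ≤ a₁` or `a ≤ r ≤ 1 - ξ`. -/
structure CoreHyp (φs : ℝ → ℝ) (a₁ a ξ W : ℝ) (k : ℕ) : Prop where
  meas : Measurable φs
  nonneg : ∀ r, 0 ≤ φs r
  far : ∀ r, 1 ≤ r → φs r = 0
  bad : ∀ r, r ≤ a₁ ∨ (a ≤ r ∧ r ≤ 1 - ξ) → W ≤ φs r
  int : ∫⁻ y : Pt, ENNReal.ofReal (φs ‖y‖) < ∞
  ha₁ : 0 < a₁
  haa : a₁ < a
  hξ : 0 < ξ
  ha : 2 * a ≤ 1 - ξ
  hW : 0 < W
  hk : 2 ≤ k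
  /-- no clique larger than `k` among the non-bad distances -/
  clique : ∀ X : Finset Pt, (∀ x ∈ X, ∀ y ∈ X, x ≠ y → a₁ < dist x y ∧ dist x y < a) → X.card ≤ k

/-- Side of the small cells: any two points of such a cell are closer than `1 - ξ`. -/
noncomputable def sideS (ξ : ℝ) : ℝ := (1 - ξ) / 2

/-- The constant in the Schur bound at the small cells. -/
noncomputable def jj (ξ T : ℝ) : ℝ := T * (1 + Real.sqrt 3 * sideS ξ) ^ 6 / sideS ξ ^ 3

/-- A positive multiple of the core is admissible, with `B = 0`. -/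
theorem adm_core {φs : ℝ → ℝ} {a₁ a ξ W : ℝ} {k : ℕ} (hc : CoreHyp φs a₁ a ξ W k) {σ : ℝ}
    (hσ : 0 ≤ σ) : ∃ Φ, Adm (fun r => σ * φs r) 0 Φ := by
  set I : ℝ≥0∞ := ∫⁻ y : Pt, ENNReal.ofReal (φs ‖y‖) with hI
  have hIne : I ≠ ∞ := hc.int.ne
  refine ⟨σ * I.toReal, ?_⟩
  refine ⟨hc.meas.const_mul σ, fun r hr => by simp [hc.far r hr], fun N x => ?_, le_refl _,
    mul_nonneg hσ ENNReal.toReal_nonneg, ?_⟩
  · have : 0 ≤ pairE (rad (fun r => σ * φs r)) x := by
      unfold pairE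
      refine mul_nonneg (by norm_num) (Finset.sum_nonneg fun i _ => Finset.sum_nonneg fun j _ => ?_)
      split_ifs
      · exact le_rfl
      · exact mul_nonneg hσ (hc.nonneg _)
    simpa using this
  · have h1 : ∀ y : Pt, ENNReal.ofReal (σ * φs ‖y‖) = ENNReal.ofReal σ * ENNReal.ofReal (φs ‖y‖) :=
      fun y => ENNReal.ofReal_mul hσ
    simp_rw [h1]
    have hm : Measurable (fun y : Pt => ENNReal.ofReal (φs ‖y‖)) :=
      ENNReal.measurable_ofReal.comp (hc.meas.comp measurable_norm)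
    rw [lintegral_const_mul _ hm, ENNReal.ofReal_mul hσ, ENNReal.ofReal_toReal hIne]

end Crest.Agent.Lib.GasCore
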