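import Crest.Agent.Lib.GasCoreDefs

/-!
# The core of the potential: representatives and star integrals (row 149)

`Z(L,N) ≤ (P+1) e^{V+P} v^{(N-P)_+}` for the pure core, `P = packingNumber (L/(1-ξ))`, and the
resulting bound for the free energy density.
-/

set_option autoImplicit false

namespace Crest.Agent.Lib.GasCore

open MeasureTheory Filter Topology Crest.ProbabilityR.Continuum Crest.Agent.Lib.GasBasic
  Crest.Agent.Lib.GasKernel Crest.Agent.Lib.GasThermo Crest.Agent.Lib.GasLevel
  Crest.Agent.Lib.GasPacking Crest.Agent.Lib.GasThermoAbs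
open scoped ENNReal

/-! ### Fubini for products of functions of one coordinate -/

theorem lintegral_fin_prod {n : ℕ} (f : Fin n → Pt → ℝ≥0∞) (hf : ∀ i, Measurable (f i)) :
    ∫⁻ x : Fin n → Pt, ∏ i, f i (x i) = ∏ i, ∫⁻ t, f i t := by
  induction n with
  | zero =>
    have : (volume : Measure (Fin 0 → Pt)) = Measure.dirac isEmptyElim := by
      simpa [volume_pi] using Measure.pi_of_empty (fun _ : Fin 0 => (volume : Measure Pt)) isEmptyElim
    simp [this]
  | succ n ih =>
    have hmp := (volume_preserving_piFinSuccAbove (fun _ : Fin (n + 1) => Pt) 0).symm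
    have hm : Measurable (fun x : Fin (n + 1) → Pt => ∏ i, f i (x i)) :=
      Finset.measurable_prod _ fun i _ => (hf i).comp (measurable_pi_apply i)
    rw [← hmp.lintegral_comp hm]
    have h1 : ∀ p : Pt × (Fin n → Pt),
        (∏ i, f i ((MeasurableEquiv.piFinSuccAbove (fun _ : Fin (n + 1) => Pt) 0).symm p i))
          = f 0 p.1 * ∏ i : Fin n, f i.succ (p.2 i) := by
      intro p
      rw [Fin.prod_univ_succ]
      simp [MeasurableEquiv.piFinSuccAbove_symm_apply, Fin.insertNthEquiv]
    simp_rw [h1]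
    have := lintegral_prod_mul (μ := (volume : Measure Pt)) (ν := (volume : Measure (Fin n → Pt)))
      (f := f 0) (g := fun y : Fin n → Pt => ∏ i : Fin n, f i.succ (y i)) (hf 0).aemeasurable
      (Finset.measurable_prod _ fun i _ => (hf i.succ).comp (measurable_pi_apply i)).aemeasurable
    rw [Measure.volume_eq_prod, this, ih (fun i => f i.succ) (fun i => hf i.succ),
      Fin.prod_univ_succ]

theorem lintegral_fintype_prod {ι : Type*} [Fintype ι] [DecidableEq ι] (f : ι → Pt → ℝ≥0∞)
    (hf : ∀ i, Measurable (f i)) :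
    ∫⁻ x : ι → Pt, ∏ i, f i (x i) = ∏ i, ∫⁻ t, f i t := by
  classical
  let e : Fin (Fintype.card ι) ≃ ι := (Fintype.equivFin ι).symm
  have hmp := volume_measurePreserving_piCongrLeft (fun _ : ι => Pt) e
  have hm : Measurable (fun x : ι → Pt => ∏ i, f i (x i)) :=
    Finset.measurable_prod _ fun i _ => (hf i).comp (measurable_pi_apply i)
  rw [← hmp.lintegral_comp hm, ← e.prod_comp (fun i => ∫⁻ t, f i t)]
  have h1 : ∀ y : Fin (Fintype.card ι) → Pt,
      (∏ i, f i ((MeasurableEquiv.piCongrLeft (fun _ : ι => Pt) e) y i))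
        = ∏ j, f (e j) (y j) := by
    intro y
    rw [← e.prod_comp]
    refine Finset.prod_congr rfl fun j _ => ?_
    rw [MeasurableEquiv.piCongrLeft_apply_apply (β := fun _ : ι => Pt) e y j]
  simp_rw [h1]
  exact lintegral_fin_prod (fun j => f (e j)) (fun j => hf (e j))

/-! ### The star function -/

/-- Weight of a particle bound to its representative. -/
noncomputable def starG (φs : ℝ → ℝ) (σ s : ℝ) : Pt → ℝ≥0∞ :=
  (Metric.ball (0 : Pt) s).indicator (fun y => ENNReal.ofReal (Real.exp (-(σ * φs ‖y‖))))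

lemma measurable_starG {φs : ℝ → ℝ} (hφ : Measurable φs) (σ s : ℝ) : Measurable (starG φs σ s) :=
  (ENNReal.measurable_ofReal.comp
    (Real.measurable_exp.comp ((hφ.comp measurable_norm).const_mul σ).neg)).indicator
    measurableSet_ball

lemma lintegral_starG_le {φs : ℝ → ℝ} {a₁ a ξ W : ℝ} {k : ℕ} (hc : CoreHyp φs a₁ a ξ W k) {σ v : ℝ}
    (hσ : 0 ≤ σ) (hv : volB a + volB 1 * Real.exp (-σ * W) ≤ v) :
    ∫⁻ y, starG φs σ (1 - ξ) y ≤ ENNReal.ofReal v := by
  have hpt : ∀ y : Pt, starG φs σ (1 - ξ) y ≤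
      (Metric.ball (0 : Pt) a).indicator (fun _ => (1 : ℝ≥0∞)) y
        + (Metric.ball (0 : Pt) 1).indicator (fun _ => ENNReal.ofReal (Real.exp (-σ * W))) y := by
    intro y
    unfold starG
    by_cases hy : y ∈ Metric.ball (0 : Pt) (1 - ξ)
    · rw [Set.indicator_of_mem hy]
      have hyn : ‖y‖ < 1 - ξ := by simpa using hy
      by_cases hya : ‖y‖ < a
      · have hy' : y ∈ Metric.ball (0 : Pt) a := by simpa using hya
        rw [Set.indicator_of_mem hy']
        refine le_trans ?_ le_self_add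
        rw [← ENNReal.ofReal_one]
        apply ENNReal.ofReal_le_ofReal
        rw [Real.exp_le_one_iff, neg_nonpos]
        exact mul_nonneg hσ (hc.nonneg _)
      · have hy1 : y ∈ Metric.ball (0 : Pt) 1 := by
          have := hc.hξ
          simp only [mem_ball_zero_iff]
          linarith
        rw [Set.indicator_of_mem hy1]
        refine le_trans ?_ le_add_self
        apply ENNReal.ofReal_le_ofReal
        rw [Real.exp_le_exp]
        have := hc.bad ‖y‖ (Or.inr ⟨not_lt.1 hya, hyn.le⟩)
        nlinarith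
    · rw [Set.indicator_of_notMem hy]
      exact bot_le
  have hm1 : Measurable ((Metric.ball (0 : Pt) a).indicator (fun _ => (1 : ℝ≥0∞))) :=
    measurable_const.indicator measurableSet_ball
  have hm2 : Measurable ((Metric.ball (0 : Pt) 1).indicator
      (fun _ => ENNReal.ofReal (Real.exp (-σ * W)))) :=
    measurable_const.indicator measurableSet_ball
  calc ∫⁻ y, starG φs σ (1 - ξ) y
      ≤ ∫⁻ y, ((Metric.ball (0 : Pt) a).indicator (fun _ => (1 : ℝ≥0∞)) y
        + (Metric.ball (0 : Pt) 1).indicator (fun _ => ENNReal.ofReal (Real.exp (-σ * W))) y) :=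
        lintegral_mono hpt
    _ = ENNReal.ofReal (volB a + volB 1 * Real.exp (-σ * W)) := by
        rw [lintegral_add_left hm1, lintegral_indicator measurableSet_ball,
          lintegral_indicator measurableSet_ball, setLIntegral_const, setLIntegral_const, one_mul]
        have hv1 : 0 ≤ volB a := ENNReal.toReal_nonneg
        have hv2 : 0 ≤ volB 1 := ENNReal.toReal_nonneg
        rw [ENNReal.ofReal_add hv1 (mul_nonneg hv2 (Real.exp_pos _).le), ENNReal.ofReal_mul hv2]
        unfold volB
        rw [ENNReal.ofReal_toReal (volume_ball_ne_top _ _), ENNReal.ofReal_toReal (volume_ball_ne_top _ _),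
          mul_comm]
    _ ≤ _ := ENNReal.ofReal_le_ofReal hv

/-! ### Representatives -/

lemma exists_max_sep {N : ℕ} (x : Fin N → Pt) (s : ℝ) :
    ∃ A : Finset (Fin N), (∀ i ∈ A, ∀ j ∈ A, i ≠ j → s ≤ dist (x i) (x j)) ∧
      ∀ j, j ∉ A → ∃ i ∈ A, dist (x j) (x i) < s := by
  classical
  let F : Finset (Finset (Fin N)) :=
    Finset.univ.filter (fun A => ∀ i ∈ A, ∀ j ∈ A, i ≠ j → s ≤ dist (x i) (x j))
  have hF : F.Nonempty := ⟨∅, by simp [F]⟩
  obtain ⟨A, hA, hmax⟩ := F.exists_max_image Finset.card hF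
  have hA' : ∀ i ∈ A, ∀ j ∈ A, i ≠ j → s ≤ dist (x i) (x j) := (Finset.mem_filter.1 hA).2
  refine ⟨A, hA', fun j hj => ?_⟩
  by_contra hcon
  push Not at hcon
  have hins : insert j A ∈ F := by
    refine Finset.mem_filter.2 ⟨Finset.mem_univ _, fun a ha b hb hab => ?_⟩
    rcases Finset.mem_insert.1 ha with ha | ha
    · rcases Finset.mem_insert.1 hb with hb | hb
      · exact absurd (ha.trans hb.symm) hab
      · rw [ha]
        exact hcon b hb
    · rcases Finset.mem_insert.1 hb with hb | hb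
      · rw [hb, dist_comm]
        exact hcon a ha
      · exact hA' a ha b hb hab
  have := hmax _ hins
  rw [Finset.card_insert_of_notMem hj] at this
  omega

lemma pairE_ge_star {N : ℕ} (w : Pt → Pt → ℝ) (hw0 : ∀ a b, 0 ≤ w a b)
    (hsym : ∀ a b, w a b = w b a) (x : Fin N → Pt) (A : Finset (Fin N))
    (r : {j // j ∉ A} → {i // i ∈ A}) :
    ∑ j : {j // j ∉ A}, w (x j) (x (r j)) ≤ pairE w x := by
  classical
  set F : Fin N × Fin N → ℝ := fun p => if p.1 = p.2 then 0 else w (x p.1) (x p.2) with hF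
  have hF0 : ∀ p, 0 ≤ F p := by
    intro p
    simp only [hF]
    split_ifs
    · exact le_rfl
    · exact hw0 _ _
  have hne : ∀ j : {j // j ∉ A}, (j : Fin N) ≠ (r j : Fin N) := by
    intro j h
    exact j.2 (h ▸ (r j).2)
  let g : {j // j ∉ A} ⊕ {j // j ∉ A} → Fin N × Fin N :=
    Sum.elim (fun j => ((j : Fin N), (r j : Fin N))) (fun j => ((r j : Fin N), (j : Fin N)))
  have hg : Function.Injective g := by
    rintro (a | a) (b | b) h
    · simp only [g, Sum.elim_inl, Prod.mk.injEq] at h
      exact congrArg Sum.inl (Subtype.ext h.1)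
    · simp only [g, Sum.elim_inl, Sum.elim_inr, Prod.mk.injEq] at h
      exact absurd (h.1 ▸ (r b).2) a.2
    · simp only [g, Sum.elim_inl, Sum.elim_inr, Prod.mk.injEq] at h
      exact absurd (h.1.symm ▸ (r a).2) b.2
    · simp only [g, Sum.elim_inr, Prod.mk.injEq] at h
      exact congrArg Sum.inr (Subtype.ext h.2)
  have hsum : ∑ q, F (g q) ≤ ∑ p, F p := by
    rw [← Finset.sum_image (f := F) (s := Finset.univ) (g := g) (fun a _ b _ h => hg h)]
    exact Finset.sum_le_sum_of_subset_of_nonneg (Finset.subset_univ _) (fun p _ _ => hF0 p)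
  have h1 : ∑ q, F (g q) = 2 * ∑ j : {j // j ∉ A}, w (x j) (x (r j)) := by
    rw [Fintype.sum_sum_type, two_mul]
    congr 1
    · refine Finset.sum_congr rfl fun j _ => ?_
      simp [g, hF, hne j]
    · refine Finset.sum_congr rfl fun j _ => ?_
      simp [g, hF, (hne j).symm, hsym (x (r j)) (x j)]
  have h2 : pairE w x = (1 / 2) * ∑ p, F p := by
    unfold pairE
    rw [Fintype.sum_prod_type]
  rw [h2]
  linarith

section
variable {φs : ℝ → ℝ} {a₁ a ξ W : ℝ} {k : ℕ}

lemma one_sub_xi_pos (hc : CoreHyp φs a₁ a ξ W k) : 0 < 1 - ξ := by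
  have h1 := hc.ha₁
  have h2 := hc.haa
  have h3 := hc.ha
  linarith

/-- Pointwise bound of the weight by a sum over representatives. -/
lemma wgt_le_sum (hc : CoreHyp φs a₁ a ξ W k) {σ : ℝ} (hσ : 0 ≤ σ) {L : ℝ} {N : ℕ} (x : Fin N → Pt)
    (hx : ∀ i, x i ∈ cube L) :
    wgt (rad (fun r => σ * φs r)) x ≤
      ∑ A ∈ Finset.univ.filter (fun A : Finset (Fin N) => A.card ≤ packingNumber (L / (1 - ξ))),
        ∑ r : {j // j ∉ A} → {i // i ∈ A},
          ∏ j : {j // j ∉ A}, starG φs σ (1 - ξ) (x j - x (r j)) := by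
  classical
  have hs := one_sub_xi_pos hc
  obtain ⟨A, hsep, hcov⟩ := exists_max_sep x (1 - ξ)
  -- the separated set is small
  have hcard : A.card ≤ packingNumber (L / (1 - ξ)) := by
    have hinj : Set.InjOn x A := by
      intro i hi j hj hij
      by_contra hne
      have := hsep i hi j hj hne
      rw [hij, dist_self] at this
      linarith
    have := card_le_packing_scaled L (1 - ξ) hs (A.image x) (by
      intro y hy
      obtain ⟨i, _, rfl⟩ := Finset.mem_image.1 hy
      exact hx i) (by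
      intro y hy z hz hne
      obtain ⟨i, hi, rfl⟩ := Finset.mem_image.1 hy
      obtain ⟨j, hj, rfl⟩ := Finset.mem_image.1 hz
      exact hsep i hi j hj (fun h => hne (by rw [h])))
    rwa [Finset.card_image_of_injOn hinj] at this
  choose! r hr hrd using hcov
  let r' : {j // j ∉ A} → {i // i ∈ A} := fun j => ⟨r j, hr j j.2⟩
  refine le_trans ?_ (Finset.single_le_sum (f := fun A : Finset (Fin N) =>
    ∑ r : {j // j ∉ A} → {i // i ∈ A}, ∏ j : {j // j ∉ A}, starG φs σ (1 - ξ) (x j - x (r j)))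
    (fun _ _ => bot_le) (Finset.mem_filter.2 ⟨Finset.mem_univ A, hcard⟩))
  refine le_trans ?_ (Finset.single_le_sum (f := fun r : {j // j ∉ A} → {i // i ∈ A} =>
    ∏ j : {j // j ∉ A}, starG φs σ (1 - ξ) (x j - x (r j))) (fun _ _ => bot_le) (Finset.mem_univ r'))
  have hterm : ∀ j : {j // j ∉ A}, starG φs σ (1 - ξ) (x j - x (r' j))
      = ENNReal.ofReal (Real.exp (-(σ * φs (dist (x j) (x (r' j)))))) := by
    intro j
    have hmem : x j - x (r' j) ∈ Metric.ball (0 : Pt) (1 - ξ) := by
      simp only [mem_ball_zero_iff, ← dist_eq_norm]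
      exact hrd j j.2
    unfold starG
    rw [Set.indicator_of_mem hmem, dist_eq_norm]
  simp_rw [hterm]
  rw [← ENNReal.ofReal_prod_of_nonneg (fun _ _ => (Real.exp_pos _).le), ← Real.exp_sum]
  unfold wgt
  apply ENNReal.ofReal_le_ofReal
  rw [Real.exp_le_exp]
  have := pairE_ge_star (rad (fun r => σ * φs r)) (fun a b => mul_nonneg hσ (hc.nonneg _))
    (fun a b => by simp [rad, dist_comm]) x A r'
  simp only [rad] at this
  rw [Finset.sum_neg_distrib]
  linarith

/-- Star integral over the cube, general predicate. -/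
lemma star_integral_aux (hc : CoreHyp φs a₁ a ξ W k) (σ : ℝ) (L : ℝ) {N : ℕ} (p : Fin N → Prop)
    [DecidablePred p] (r : {j // ¬ p j} → {i // p i}) :
    ∫⁻ x in Set.pi Set.univ (fun _ : Fin N => cube L),
        ∏ j : {j // ¬ p j}, starG φs σ (1 - ξ) (x j - x (r j))
      ≤ volume (cube L) ^ Fintype.card {i // p i} *
          (∫⁻ y, starG φs σ (1 - ξ) y) ^ Fintype.card {i // ¬ p i} := by
  classical
  set g := starG φs σ (1 - ξ) with hg
  have hgm : Measurable g := measurable_starG hc.meas σ (1 - ξ)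
  let e := MeasurableEquiv.piEquivPiSubtypeProd (fun _ : Fin N => Pt) p
  have hmp : MeasurePreserving e volume volume :=
    volume_preserving_piEquivPiSubtypeProd (fun _ : Fin N => Pt) p
  let C : Set ({i // p i} → Pt) := Set.pi Set.univ (fun _ => cube L)
  have hC : MeasurableSet C := MeasurableSet.univ_pi fun _ => measurableSet_cube L
  let G : ({i // p i} → Pt) × ({i // ¬ p i} → Pt) → ℝ≥0∞ :=
    fun q => ∏ j : {i // ¬ p i}, g (q.2 j - q.1 (r j))
  have hGm : Measurable G := by
    refine Finset.measurable_prod _ fun j _ => hgm.comp ?_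
    exact ((measurable_pi_apply j).comp measurable_snd).sub
      ((measurable_pi_apply (r j)).comp measurable_fst)
  have hGe : ∀ x : Fin N → Pt, G (e x) = ∏ j : {j // ¬ p j}, g (x j - x (r j)) := fun x => rfl
  have hsub : Set.pi Set.univ (fun _ : Fin N => cube L) ⊆ e ⁻¹' (C ×ˢ Set.univ) := by
    intro x hx
    simp only [Set.mem_preimage, Set.mem_prod, Set.mem_univ, and_true]
    intro i _
    exact hx i (Set.mem_univ _)
  calc ∫⁻ x in Set.pi Set.univ (fun _ : Fin N => cube L), ∏ j : {j // ¬ p j}, g (x j - x (r j))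
      ≤ ∫⁻ x in e ⁻¹' (C ×ˢ Set.univ), ∏ j : {j // ¬ p j}, g (x j - x (r j)) :=
        lintegral_mono_set hsub
    _ = ∫⁻ x in e ⁻¹' (C ×ˢ Set.univ), G (e x) := by simp_rw [hGe]
    _ = ∫⁻ q in C ×ˢ Set.univ, G q :=
        hmp.setLIntegral_comp_preimage (hC.prod MeasurableSet.univ) hGm
    _ = ∫⁻ u in C, ∫⁻ y, G (u, y) := by
        rw [Measure.volume_eq_prod, ← Measure.prod_restrict, Measure.restrict_univ,
          lintegral_prod _ hGm.aemeasurable]
    _ = ∫⁻ u in C, (∫⁻ y, g y) ^ Fintype.card {i // ¬ p i} := by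
        refine lintegral_congr fun u => ?_
        have h1 := lintegral_fintype_prod (ι := {i // ¬ p i}) (fun j t => g (t - u (r j)))
          (fun j => hgm.comp (measurable_id.sub measurable_const))
        simp only [G]
        rw [h1]
        have h2 : ∀ j : {i // ¬ p i}, ∫⁻ t, g (t - u (r j)) = ∫⁻ y, g y :=
          fun j => lintegral_sub_right_eq_self g (u (r j))
        simp_rw [h2]
        rw [Finset.prod_const, Finset.card_univ]
    _ = (∫⁻ y, g y) ^ Fintype.card {i // ¬ p i} * volume C := setLIntegral_const _ _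
    _ = volume (cube L) ^ Fintype.card {i // p i} *
          (∫⁻ y, g y) ^ Fintype.card {i // ¬ p i} := by
        rw [mul_comm]
        congr 1
        rw [volume_pi_pi, Finset.prod_const, Finset.card_univ]

/-- Star integral over the cube. -/
lemma star_integral (hc : CoreHyp φs a₁ a ξ W k) (σ : ℝ) (L : ℝ) {N : ℕ} (A : Finset (Fin N))
    (r : {j // j ∉ A} → {i // i ∈ A}) :
    ∫⁻ x in Set.pi Set.univ (fun _ : Fin N => cube L),
        ∏ j : {j // j ∉ A}, starG φs σ (1 - ξ) (x j - x (r j))
      ≤ volume (cube L) ^ A.card * (∫⁻ y, starG φs σ (1 - ξ) y) ^ (N - A.card) := by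
  classical
  have h := star_integral_aux hc σ L (N := N) (fun i => i ∈ A) r
  have h1 : ∀ (inst : Fintype {i // i ∈ A}), @Fintype.card {i // i ∈ A} inst = A.card := fun inst =>
    Fintype.card_of_subtype A (fun _ => Iff.rfl)
  have h2 : ∀ (inst : Fintype {i // ¬ i ∈ A}), @Fintype.card {i // ¬ i ∈ A} inst = N - A.card := by
    intro inst
    rw [Fintype.card_subtype_compl, Fintype.card_fin, Fintype.card_coe]
  rw [h1, h2] at h
  convert h

/-- Elementary bound for a term of the sum. -/
lemma term_le {V v : ℝ} (hV : 0 ≤ V) (hv0 : 0 ≤ v) (hv1 : v ≤ 1) {N m P : ℕ} (hmP : m ≤ P) (hmN : m ≤ N) :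
    (V ^ m / m.factorial) * ((m : ℝ) ^ (N - m) / (N - m).factorial) * v ^ (N - m)
      ≤ Real.exp (V + P) * v ^ (N - P) := by
  have h1 : V ^ m / m.factorial ≤ Real.exp V := Real.pow_div_factorial_le_exp V hV m
  have h2 : (m : ℝ) ^ (N - m) / (N - m).factorial ≤ Real.exp P := by
    calc (m : ℝ) ^ (N - m) / (N - m).factorial ≤ Real.exp m :=
          Real.pow_div_factorial_le_exp _ (Nat.cast_nonneg _) _
      _ ≤ Real.exp P := by
          rw [Real.exp_le_exp]
          exact_mod_cast hmP
  have h3 : v ^ (N - m) ≤ v ^ (N - P) := pow_le_pow_of_le_one hv0 hv1 (by omega)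
  rw [Real.exp_add]
  have h4 : 0 ≤ V ^ m / m.factorial := by positivity
  have h5 : 0 ≤ (m : ℝ) ^ (N - m) / (N - m).factorial := by positivity
  have h6 : 0 ≤ v ^ (N - P) := by positivity
  have h7 : 0 ≤ v ^ (N - m) := by positivity
  calc _ ≤ Real.exp V * Real.exp P * v ^ (N - P) := by
        apply mul_le_mul (mul_le_mul h1 h2 h5 (Real.exp_pos _).le) h3 h7
        positivity
    _ = _ := by ring

/-- The main estimate for the pure core. -/
theorem Zw_core_le (hc : CoreHyp φs a₁ a ξ W k) {σ v : ℝ} (hσ : 0 ≤ σ)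
    (hv : volB a + volB 1 * Real.exp (-σ * W) ≤ v) (hv1 : v ≤ 1) {L : ℝ} (hL : 0 ≤ L) (N : ℕ) :
    Zw (rad (fun r => σ * φs r)) (cube L) N ≤
      ENNReal.ofReal (((packingNumber (L / (1 - ξ)) : ℝ) + 1) *
        (Real.exp (L ^ 3 + packingNumber (L / (1 - ξ))) * v ^ (N - packingNumber (L / (1 - ξ))))) := by
  classical
  set P := packingNumber (L / (1 - ξ)) with hP
  have hv0 : 0 ≤ v := by
    have h1 : 0 ≤ volB a := ENNReal.toReal_nonneg
    have h2 : 0 ≤ volB 1 := ENNReal.toReal_nonneg
    have h3 := Real.exp_pos (-σ * W)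
    have h4 : 0 ≤ volB 1 * Real.exp (-σ * W) := by positivity
    linarith
  set g := starG φs σ (1 - ξ) with hg
  set I := ∫⁻ y, g y with hI
  have hIv : I ≤ ENNReal.ofReal v := lintegral_starG_le hc hσ hv
  have hV : volume (cube L) = ENNReal.ofReal (L ^ 3) := by
    have h1 : cube L = bigBox L 0 := by
      ext x
      simp [cube, bigBox]
    rw [h1, volume_bigBox (by simpa using hL)]
    simp
  set V := volume (cube L) with hVdef
  have hmeas : ∀ (A : Finset (Fin N)) (r : {j // j ∉ A} → {i // i ∈ A}),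
      Measurable (fun x : Fin N → Pt => ∏ j : {j // j ∉ A}, g (x j - x (r j))) := by
    intro A r
    refine Finset.measurable_prod _ fun j _ => (measurable_starG hc.meas σ (1 - ξ)).comp ?_
    exact (measurable_pi_apply _).sub (measurable_pi_apply _)
  -- the integral
  let h : ℕ → ℝ≥0∞ := fun m => ((m : ℝ≥0∞) ^ (N - m)) * (V ^ m * I ^ (N - m))
  have hconf : confInt (rad (fun r => σ * φs r)) (cube L) N ≤
      ∑ A ∈ Finset.univ.filter (fun A : Finset (Fin N) => A.card ≤ P), h A.card := by
    unfold confInt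
    calc ∫⁻ x in Set.pi Set.univ (fun _ : Fin N => cube L), wgt (rad (fun r => σ * φs r)) x
        ≤ ∫⁻ x in Set.pi Set.univ (fun _ : Fin N => cube L),
            ∑ A ∈ Finset.univ.filter (fun A : Finset (Fin N) => A.card ≤ P),
              ∑ r : {j // j ∉ A} → {i // i ∈ A}, ∏ j : {j // j ∉ A}, g (x j - x (r j)) := by
          refine setLIntegral_mono' (MeasurableSet.univ_pi fun _ => measurableSet_cube L) fun x hx => ?_
          exact wgt_le_sum hc hσ x (fun i => hx i (Set.mem_univ i))
      _ = ∑ A ∈ Finset.univ.filter (fun A : Finset (Fin N) => A.card ≤ P),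
            ∑ r : {j // j ∉ A} → {i // i ∈ A}, ∫⁻ x in Set.pi Set.univ (fun _ : Fin N => cube L),
              ∏ j : {j // j ∉ A}, g (x j - x (r j)) := by
          rw [lintegral_finsetSum]
          · refine Finset.sum_congr rfl fun A _ => ?_
            rw [lintegral_finsetSum]
            exact fun r _ => hmeas A r
          · exact fun A _ => Finset.measurable_sum _ fun r _ => hmeas A r
      _ ≤ ∑ A ∈ Finset.univ.filter (fun A : Finset (Fin N) => A.card ≤ P),
            ∑ _r : {j // j ∉ A} → {i // i ∈ A}, V ^ A.card * I ^ (N - A.card) := by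
          refine Finset.sum_le_sum fun A _ => Finset.sum_le_sum fun r _ => ?_
          exact star_integral hc σ L A r
      _ = _ := by
          refine Finset.sum_congr rfl fun A _ => ?_
          rw [Finset.sum_const, Finset.card_univ, Fintype.card_fun, Fintype.card_coe,
            Fintype.card_subtype_compl, Fintype.card_fin, Fintype.card_coe, nsmul_eq_mul]
          simp only [h]
          push_cast
          rfl
  -- the sum over sets of a function of the cardinality
  have hsum : ∑ A ∈ Finset.univ.filter (fun A : Finset (Fin N) => A.card ≤ P), h A.card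
      = ∑ m ∈ Finset.range (N + 1), (N.choose m : ℝ≥0∞) * (if m ≤ P then h m else 0) := by
    rw [Finset.sum_filter]
    have := Finset.sum_powerset_apply_card (fun m => if m ≤ P then h m else 0)
      (x := (Finset.univ : Finset (Fin N)))
    simp only [Finset.powerset_univ, Finset.card_univ, Fintype.card_fin, nsmul_eq_mul] at this
    exact this
  -- termwise bound
  set T : ℝ := Real.exp (L ^ 3 + P) * v ^ (N - P) with hT
  have hT0 : 0 ≤ T := by positivity
  have hterm : ∀ m ∈ Finset.range (N + 1), (N.factorial : ℝ≥0∞)⁻¹ *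
      ((N.choose m : ℝ≥0∞) * (if m ≤ P then h m else 0)) ≤
        (if m ≤ P then ENNReal.ofReal T else 0) := by
    intro m hm
    have hmN : m ≤ N := Nat.lt_succ_iff.mp (Finset.mem_range.mp hm)
    by_cases hmP : m ≤ P
    · simp only [hmP, if_true]
      rw [← mul_assoc, factorial_choose_inv N m hmN]
      simp only [h]
      have hreal := term_le (V := L ^ 3) (by positivity) hv0 hv1 hmP hmN
      refine le_trans ?_ (ENNReal.ofReal_le_ofReal hreal)
      have hfm : ((m.factorial : ℝ≥0∞))⁻¹ = ENNReal.ofReal ((m.factorial : ℝ)⁻¹) := by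
        rw [ENNReal.ofReal_inv_of_pos (by positivity), ENNReal.ofReal_natCast]
      have hfn : (((N - m).factorial : ℝ≥0∞))⁻¹ = ENNReal.ofReal (((N - m).factorial : ℝ)⁻¹) := by
        rw [ENNReal.ofReal_inv_of_pos (by positivity), ENNReal.ofReal_natCast]
      have hmpow : ((m : ℝ≥0∞) ^ (N - m)) = ENNReal.ofReal ((m : ℝ) ^ (N - m)) := by
        rw [ENNReal.ofReal_pow (Nat.cast_nonneg _), ENNReal.ofReal_natCast]
      have hVpow : V ^ m = ENNReal.ofReal ((L ^ 3) ^ m) := by
        rw [hV, ENNReal.ofReal_pow (pow_nonneg hL 3 : 0 ≤ L ^ 3)]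
      have hIpow : I ^ (N - m) ≤ ENNReal.ofReal (v ^ (N - m)) := by
        rw [ENNReal.ofReal_pow hv0]
        exact pow_le_pow_left' hIv _
      calc (m.factorial : ℝ≥0∞)⁻¹ * ((N - m).factorial : ℝ≥0∞)⁻¹ *
            ((m : ℝ≥0∞) ^ (N - m) * (V ^ m * I ^ (N - m)))
          ≤ ENNReal.ofReal ((m.factorial : ℝ)⁻¹) * ENNReal.ofReal (((N - m).factorial : ℝ)⁻¹) *
            (ENNReal.ofReal ((m : ℝ) ^ (N - m)) * (ENNReal.ofReal ((L ^ 3) ^ m) *
              ENNReal.ofReal (v ^ (N - m)))) := by
            rw [hfm, hfn, hmpow, hVpow]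
            gcongr
        _ = _ := by
            rw [← ENNReal.ofReal_mul (by positivity), ← ENNReal.ofReal_mul (by positivity),
              ← ENNReal.ofReal_mul (by positivity), ← ENNReal.ofReal_mul (by positivity)]
            congr 1
            field_simp
    · simp [hmP]
  -- counting
  have hcount : ∑ m ∈ Finset.range (N + 1), (if m ≤ P then ENNReal.ofReal T else 0)
      ≤ ((P : ℝ≥0∞) + 1) * ENNReal.ofReal T := by
    rw [← Finset.sum_filter, Finset.sum_const, nsmul_eq_mul]
    gcongr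
    have hsub : (Finset.range (N + 1)).filter (fun m => m ≤ P) ⊆ Finset.range (P + 1) := by
      intro m hm
      exact Finset.mem_range.2 (Nat.lt_succ_iff.2 (Finset.mem_filter.1 hm).2)
    have := Finset.card_le_card hsub
    rw [Finset.card_range] at this
    exact_mod_cast this
  unfold Zw
  calc (N.factorial : ℝ≥0∞)⁻¹ * confInt (rad (fun r => σ * φs r)) (cube L) N
      ≤ (N.factorial : ℝ≥0∞)⁻¹ * ∑ m ∈ Finset.range (N + 1),
          (N.choose m : ℝ≥0∞) * (if m ≤ P then h m else 0) := by
        rw [← hsum]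
        gcongr
    _ = ∑ m ∈ Finset.range (N + 1), (N.factorial : ℝ≥0∞)⁻¹ *
          ((N.choose m : ℝ≥0∞) * (if m ≤ P then h m else 0)) := Finset.mul_sum _ _ _
    _ ≤ ∑ m ∈ Finset.range (N + 1), (if m ≤ P then ENNReal.ofReal T else 0) :=
        Finset.sum_le_sum hterm
    _ ≤ ((P : ℝ≥0∞) + 1) * ENNReal.ofReal T := hcount
    _ = _ := by
        rw [ENNReal.ofReal_mul (p := (P : ℝ) + 1) (q := T) (by positivity),
          ENNReal.ofReal_add (by positivity) (by positivity),
          ENNReal.ofReal_natCast, ENNReal.ofReal_one]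

lemma natCast_sub_eq_max (a b : ℕ) : ((a - b : ℕ) : ℝ) = max ((a : ℝ) - b) 0 := by
  rcases le_total a b with h | h
  · have h' : (a : ℝ) ≤ b := by exact_mod_cast h
    rw [Nat.sub_eq_zero_of_le h, max_eq_right (by linarith)]
    simp
  · have h' : (b : ℝ) ≤ a := by exact_mod_cast h
    rw [Nat.cast_sub h, max_eq_left (by linarith)]

/-- Base bound (a): representatives and star integrals. `p` is the packing density. -/
theorem fe_base_rep (hc : CoreHyp φs a₁ a ξ W k) {σ p : ℝ}
    (hσ : 0 < σ) (hp : Tendsto (fun L : ℝ => (packingNumber L : ℝ) / L ^ 3) atTop (𝓝 p))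
    {v : ℝ} (hv : volB a + volB 1 * Real.exp (-σ * W) ≤ v) (hv1 : v ≤ 1) {y : ℝ} (hy : 0 ≤ y) :
    fe (fun r => σ * φs r) y ≤ 1 + p / (1 - ξ) ^ 3 + max (y - p / (1 - ξ) ^ 3) 0 * Real.log v := by
  obtain ⟨Φ, hAdm⟩ := adm_core hc hσ.le
  have hth := thermoHyp hAdm
  have hs := one_sub_xi_pos hc
  set s := 1 - ξ with hsdef
  have hs3 : 0 < s ^ 3 := by positivity
  have ha0 : 0 < a := hc.ha₁.trans hc.haa
  have hv0 : 0 < v := by
    have h1 : 0 < volB a := volB_pos ha0
    have h2 : 0 ≤ volB 1 := ENNReal.toReal_nonneg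
    have h3 : 0 ≤ volB 1 * Real.exp (-σ * W) := mul_nonneg h2 (Real.exp_pos _).le
    linarith
  have hlogv : Real.log v ≤ 0 := Real.log_nonpos hv0.le hv1
  have hp0 : 0 ≤ p := by
    refine ge_of_tendsto hp ?_
    filter_upwards [eventually_gt_atTop (0 : ℝ)] with L hL
    positivity
  set p' := p / s ^ 3 with hp'
  have hp'0 : 0 ≤ p' := by positivity
  rcases hy.eq_or_lt with rfl | hy0
  · have h0 : fe (fun r => σ * φs r) 0 = 0 := limFn_zero hth
    rw [h0, max_eq_right (by linarith), zero_mul]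
    linarith
  have h1 := tendsto_limFn hth hy0 atTop (fun L : ℝ => L) (fun L : ℝ => ⌊y * L ^ 3⌋₊) tendsto_id
    (tendsto_canonical hy)
  -- limits
  have hL3 : Tendsto (fun L : ℝ => L ^ 3) atTop atTop := tendsto_pow_atTop (by norm_num)
  have hcP : Tendsto (fun L : ℝ => (packingNumber (L / s) : ℝ) / L ^ 3) atTop (𝓝 p') := by
    have hLs : Tendsto (fun L : ℝ => L / s) atTop atTop := tendsto_id.atTop_div_const hs
    have := (hp.comp hLs).div_const (s ^ 3)
    refine this.congr' ?_
    filter_upwards [eventually_gt_atTop (0 : ℝ)] with L hL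
    simp only [Function.comp]
    field_simp
  have hcN := tendsto_canonical hy
  have hd : Tendsto (fun L : ℝ => ((⌊y * L ^ 3⌋₊ - packingNumber (L / s) : ℕ) : ℝ) / L ^ 3) atTop
      (𝓝 (max (y - p') 0)) := by
    have := (hcN.sub hcP).max (tendsto_const_nhds (x := (0 : ℝ)))
    refine this.congr' ?_
    filter_upwards [eventually_gt_atTop (0 : ℝ)] with L hL
    have hL3' : 0 < L ^ 3 := by positivity
    rw [natCast_sub_eq_max]
    rcases le_total ((⌊y * L ^ 3⌋₊ : ℝ)) (packingNumber (L / s) : ℝ) with h | h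
    · have h1 : (⌊y * L ^ 3⌋₊ : ℝ) / L ^ 3 - (packingNumber (L / s) : ℝ) / L ^ 3 ≤ 0 := by
        rw [← sub_div]
        exact div_nonpos_of_nonpos_of_nonneg (by linarith) hL3'.le
      rw [max_eq_right h1, max_eq_right (by linarith)]
      simp
    · have h1 : 0 ≤ (⌊y * L ^ 3⌋₊ : ℝ) / L ^ 3 - (packingNumber (L / s) : ℝ) / L ^ 3 := by
        rw [← sub_div]
        exact div_nonneg (by linarith) hL3'.le
      rw [max_eq_left h1, max_eq_left (by linarith), sub_div]
  have ha : Tendsto (fun L : ℝ => Real.log ((packingNumber (L / s) : ℝ) + 1) / L ^ 3) atTop (𝓝 0) := by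
    have hlog : Tendsto (fun t : ℝ => Real.log t / t) atTop (𝓝 0) :=
      Real.isLittleO_log_id_atTop.tendsto_div_nhds_zero
    have hb1 : Tendsto (fun L : ℝ => Real.log (L ^ 3) / L ^ 3) atTop (𝓝 0) := hlog.comp hL3
    have hb2 : Tendsto (fun L : ℝ => Real.log (p' + 2) / L ^ 3) atTop (𝓝 0) :=
      hL3.const_div_atTop _
    have hb := hb2.add hb1
    rw [add_zero] at hb
    have hev : ∀ᶠ L : ℝ in atTop, (packingNumber (L / s) : ℝ) / L ^ 3 < p' + 1 :=
      hcP.eventually (gt_mem_nhds (by linarith))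
    refine squeeze_zero' ?_ ?_ hb
    · filter_upwards [eventually_gt_atTop (0 : ℝ)] with L hL
      apply div_nonneg _ (by positivity)
      apply Real.log_nonneg
      have : (0 : ℝ) ≤ packingNumber (L / s) := Nat.cast_nonneg _
      linarith
    · filter_upwards [eventually_ge_atTop (1 : ℝ), hev] with L hL hlt
      have hL3' : 1 ≤ L ^ 3 := one_le_pow₀ hL
      have hP : (packingNumber (L / s) : ℝ) ≤ (p' + 1) * L ^ 3 := by
        rw [div_lt_iff₀ (by positivity)] at hlt
        exact hlt.le
      have hP1 : (packingNumber (L / s) : ℝ) + 1 ≤ (p' + 2) * L ^ 3 := by nlinarith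
      have hPpos : 0 < (packingNumber (L / s) : ℝ) + 1 := by positivity
      have := Real.log_le_log hPpos hP1
      rw [Real.log_mul (by positivity) (by positivity)] at this
      rw [← add_div]
      exact div_le_div_of_nonneg_right this (by positivity)
  have h2 : Tendsto (fun L : ℝ => Real.log ((packingNumber (L / s) : ℝ) + 1) / L ^ 3
      + (1 + (packingNumber (L / s) : ℝ) / L ^ 3)
      + ((⌊y * L ^ 3⌋₊ - packingNumber (L / s) : ℕ) : ℝ) / L ^ 3 * Real.log v) atTop
      (𝓝 (0 + (1 + p') + max (y - p') 0 * Real.log v)) :=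
    (ha.add (tendsto_const_nhds.add hcP)).add (hd.mul_const _)
  rw [zero_add] at h2
  refine le_of_tendsto_of_tendsto h1 h2 ?_
  filter_upwards [eventually_ge_atTop (1 : ℝ)] with L hL
  have hL0 : 0 < L := by linarith
  have hL3' : 0 < L ^ 3 := by positivity
  set N := ⌊y * L ^ 3⌋₊ with hN
  set P := packingNumber (L / s) with hP
  have hZ := Zw_core_le hc hσ.le hv hv1 hL0.le N
  have hZpos := Zw_pos hAdm hL0 N
  have hZtop := Zw_ne_top hAdm L N
  have hZ0 : 0 < (Zw (rad (fun r => σ * φs r)) (cube L) N).toReal := ENNReal.toReal_pos hZpos.ne' hZtop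
  have hbd0 : 0 ≤ ((P : ℝ) + 1) * (Real.exp (L ^ 3 + P) * v ^ (N - P)) := by positivity
  have hZr := ENNReal.toReal_le_of_le_ofReal hbd0 hZ
  have hlog := Real.log_le_log hZ0 hZr
  have hP1 : (0 : ℝ) < (P : ℝ) + 1 := by positivity
  rw [Real.log_mul hP1.ne' (by positivity), Real.log_mul (Real.exp_pos _).ne' (by positivity),
    Real.log_exp, Real.log_pow] at hlog
  have h3 : logZ (fun r => σ * φs r) L N / L ^ 3 ≤
      (Real.log ((P : ℝ) + 1) + (L ^ 3 + P + ((N - P : ℕ) : ℝ) * Real.log v)) / L ^ 3 := by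
    apply div_le_div_of_nonneg_right _ hL3'.le
    unfold logZ
    linarith
  refine le_trans h3 (le_of_eq ?_)
  field_simp
  ring

end

end Crest.Agent.Lib.GasCore
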