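import Crest.Agent.Lib.GasCoreDefs

/-!
# The core of the potential: stability (row 149, part 6a)

Greedy (Turán type) count of bad pairs in small cells, Schur bound at the small cells, stability
of the potentials `pot φs R σ τ`, their admissibility and the a-priori bound of the free energy
by the free energy of half of the core.
-/

set_option autoImplicit false

namespace Crest.Agent.Lib.GasCore

open MeasureTheory Filter Topology Crest.ProbabilityR.Continuum Crest.Agent.Lib.GasBasic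
  Crest.Agent.Lib.GasKernel Crest.Agent.Lib.GasThermo Crest.Agent.Lib.GasLevel
  Crest.Agent.Lib.GasPacking
open scoped ENNReal

/-- A maximal independent subset for a symmetric relation. -/
lemma exists_max_indep {ι : Type*} [DecidableEq ι] (rel : ι → ι → Prop)
    (hs : ∀ i j, rel i j → rel j i) (S : Finset ι) :
    ∃ T ⊆ S, (∀ i ∈ T, ∀ j ∈ T, i ≠ j → ¬ rel i j) ∧ ∀ i ∈ S, i ∉ T → ∃ j ∈ T, rel i j := by
  classical
  let F := S.powerset.filter (fun T => ∀ i ∈ T, ∀ j ∈ T, i ≠ j → ¬ rel i j)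
  have hF : F.Nonempty := ⟨∅, by simp [F]⟩
  obtain ⟨T, hT, hmax⟩ := Finset.exists_max_image F Finset.card hF
  simp only [F, Finset.mem_filter, Finset.mem_powerset] at hT
  refine ⟨T, hT.1, hT.2, fun i hi hiT => ?_⟩
  by_contra hcon
  push Not at hcon
  have hmem : insert i T ∈ F := by
    simp only [F, Finset.mem_filter, Finset.mem_powerset]
    refine ⟨Finset.insert_subset hi hT.1, ?_⟩
    intro u hu w hw huw
    rcases Finset.mem_insert.1 hu with hu' | hu'
    · rcases Finset.mem_insert.1 hw with hw' | hw'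
      · exact absurd (hu'.trans hw'.symm) huw
      · rw [hu']; exact hcon w hw'
    · rcases Finset.mem_insert.1 hw with hw' | hw'
      · rw [hw']; exact fun h => hcon u hu' (hs _ _ h)
      · exact hT.2 u hu' w hw' huw
  have := hmax _ hmem
  rw [Finset.card_insert_of_notMem hiT] at this
  omega

/-- The greedy count of bad pairs: a weight `c ≥ 0`, at least `W` on the pairs related by the
symmetric relation `rel`, whose independent sets have at most `k` elements. -/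
lemma greedy_bad {ι : Type*} [DecidableEq ι] (rel : ι → ι → Prop) (hs : ∀ i j, rel i j → rel j i)
    {k : ℕ} (hk : 0 < k) {W : ℝ} (hW : 0 ≤ W) (c : ι → ι → ℝ) (hc0 : ∀ i j, 0 ≤ c i j)
    (hc1 : ∀ i j, i ≠ j → rel i j → W ≤ c i j) (S : Finset ι)
    (hind : ∀ T ⊆ S, (∀ i ∈ T, ∀ j ∈ T, i ≠ j → ¬ rel i j) → T.card ≤ k) :
    W * ((S.card : ℝ) ^ 2 / k - 2 * S.card) ≤ ∑ i ∈ S, ∑ j ∈ S, c i j := by
  classical
  induction' hn : S.card using Nat.strong_induction_on with n ih generalizing S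
  by_cases hSe : S.Nonempty
  swap
  · rw [Finset.not_nonempty_iff_eq_empty] at hSe
    subst hSe
    simp at hn
    subst hn
    simp
  obtain ⟨T, hTS, hTind, hTmax⟩ := exists_max_indep rel hs S
  have hTk := hind T hTS hTind
  have hTne : T.Nonempty := by
    obtain ⟨i, hi⟩ := hSe
    by_cases hiT : i ∈ T
    · exact ⟨i, hiT⟩
    · obtain ⟨j, hj, -⟩ := hTmax i hi hiT
      exact ⟨j, hj⟩
  set S' := S \ T with hS'
  have hcard : S'.card + T.card = S.card := Finset.card_sdiff_add_card_eq_card hTS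
  have hS'lt : S'.card < n := by
    have := hTne.card_pos
    omega
  have hIH := ih _ hS'lt S' (fun U hU hUi => hind U (hU.trans Finset.sdiff_subset) hUi) rfl
  have hcross1 : (S'.card : ℝ) * W ≤ ∑ i ∈ S', ∑ j ∈ T, c i j := by
    rw [← nsmul_eq_mul]
    refine Finset.card_nsmul_le_sum _ _ _ fun i hi => ?_
    have hiS := Finset.mem_sdiff.1 hi
    obtain ⟨j, hj, hr⟩ := hTmax i hiS.1 hiS.2
    have hij : i ≠ j := fun h => hiS.2 (h ▸ hj)
    calc W ≤ c i j := hc1 i j hij hr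
      _ ≤ ∑ j ∈ T, c i j := Finset.single_le_sum (f := fun j => c i j) (fun j _ => hc0 i j) hj
  have hcross2 : (S'.card : ℝ) * W ≤ ∑ i ∈ T, ∑ j ∈ S', c i j := by
    rw [Finset.sum_comm, ← nsmul_eq_mul]
    refine Finset.card_nsmul_le_sum _ _ _ fun i hi => ?_
    have hiS := Finset.mem_sdiff.1 hi
    obtain ⟨j, hj, hr⟩ := hTmax i hiS.1 hiS.2
    have hij : j ≠ i := fun h => hiS.2 (h ▸ hj)
    calc W ≤ c j i := hc1 j i hij (hs _ _ hr)
      _ ≤ ∑ j ∈ T, c j i := Finset.single_le_sum (f := fun j => c j i) (fun j _ => hc0 j i) hj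
  have hTT : 0 ≤ ∑ i ∈ T, ∑ j ∈ T, c i j :=
    Finset.sum_nonneg fun i _ => Finset.sum_nonneg fun j _ => hc0 i j
  have hsplit : ∑ i ∈ S, ∑ j ∈ S, c i j = ∑ i ∈ S', ∑ j ∈ S', c i j + ∑ i ∈ S', ∑ j ∈ T, c i j +
      (∑ i ∈ T, ∑ j ∈ S', c i j + ∑ i ∈ T, ∑ j ∈ T, c i j) := by
    have h1 : ∀ i, ∑ j ∈ S, c i j = ∑ j ∈ S', c i j + ∑ j ∈ T, c i j := fun i =>
      (Finset.sum_sdiff hTS).symm
    rw [← Finset.sum_sdiff hTS]
    simp_rw [h1, Finset.sum_add_distrib, hS']
  rw [hsplit]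
  have hkR : (0 : ℝ) < k := by exact_mod_cast hk
  set n' : ℝ := (S'.card : ℝ) with hn'
  set t : ℝ := (T.card : ℝ) with ht
  have hnR : (n : ℝ) = n' + t := by
    rw [hn', ht, ← hn, ← hcard]; push_cast; ring
  have htk : t ≤ k := by rw [ht]; exact_mod_cast hTk
  have ht0 : 0 ≤ t := by rw [ht]; positivity
  have hn0 : 0 ≤ n' := by rw [hn']; positivity
  have harith : (n : ℝ) ^ 2 / k - 2 * n ≤ n' ^ 2 / k := by
    rw [sub_le_iff_le_add, div_add' _ _ _ hkR.ne', div_le_div_iff_of_pos_right hkR, hnR]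
    nlinarith [mul_le_mul_of_nonneg_right htk (by linarith : 0 ≤ 2 * n' + t),
      mul_nonneg hkR.le ht0]
  have hfinal : W * (((n : ℕ) : ℝ) ^ 2 / k - 2 * n) ≤ W * (n' ^ 2 / k) :=
    mul_le_mul_of_nonneg_left harith hW
  have heq : W * (n' ^ 2 / k) = W * (n' ^ 2 / k - 2 * n') + n' * W + n' * W := by ring
  linarith

/-- Lower bound for the energy of the core through the occupation numbers of any partition into
pieces of diameter less than `1 - ξ`. -/
lemma energy_cells {φs : ℝ → ℝ} {a₁ a ξ W : ℝ} {k : ℕ} (hc : CoreHyp φs a₁ a ξ W k) {N : ℕ}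
    (x : Fin N → Pt) {β : Type*} [DecidableEq β] (v : Fin N → β)
    (hcell : ∀ i j, v i = v j → dist (x i) (x j) < 1 - ξ) :
    (W / 2) * ((∑ i, ∑ j, if v i = v j then (1 : ℝ) else 0) / k - 2 * N)
      ≤ pairE (rad φs) x := by
  classical
  have hk0 : 0 < k := by have := hc.hk; omega
  let rel : Fin N → Fin N → Prop := fun i j =>
    dist (x i) (x j) ≤ a₁ ∨ (a ≤ dist (x i) (x j) ∧ dist (x i) (x j) ≤ 1 - ξ)
  have hrel : ∀ i j, rel i j → rel j i := by
    intro i j h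
    simpa only [rel, dist_comm] using h
  let c : Fin N → Fin N → ℝ := fun i j => if i = j then 0 else φs (dist (x i) (x j))
  have hc0 : ∀ i j, 0 ≤ c i j := by
    intro i j
    simp only [c]
    split_ifs
    · exact le_rfl
    · exact hc.nonneg _
  have hc1 : ∀ i j, i ≠ j → rel i j → W ≤ c i j := by
    intro i j hij hr
    simp only [c, hij, if_false]
    exact hc.bad _ hr
  let C : Finset β := Finset.univ.image v
  let S : β → Finset (Fin N) := fun b => Finset.univ.filter (fun i => v i = b)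
  have hmaps : ∀ i ∈ (Finset.univ : Finset (Fin N)), v i ∈ C := fun i _ =>
    Finset.mem_image_of_mem v (Finset.mem_univ i)
  have hfib : ∀ f : Fin N → ℝ, ∑ b ∈ C, ∑ i ∈ S b, f i = ∑ i, f i := fun f =>
    Finset.sum_fiberwise_of_maps_to hmaps f
  have hgreedy : ∀ b ∈ C, W * (((S b).card : ℝ) ^ 2 / k - 2 * (S b).card)
      ≤ ∑ i ∈ S b, ∑ j ∈ S b, c i j := by
    intro b _
    refine greedy_bad rel hrel hk0 hc.hW.le c hc0 hc1 (S b) ?_
    intro T hT hTi
    have hpair : ∀ i ∈ T, ∀ j ∈ T, i ≠ j → a₁ < dist (x i) (x j) ∧ dist (x i) (x j) < a := by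
      intro i hi j hj hij
      have hvi : v i = b := (Finset.mem_filter.1 (hT hi)).2
      have hvj : v j = b := (Finset.mem_filter.1 (hT hj)).2
      have hd := hcell i j (hvi.trans hvj.symm)
      have hnr := hTi i hi j hj hij
      simp only [rel, not_or, not_and, not_le] at hnr
      refine ⟨hnr.1, ?_⟩
      by_contra hge
      have := hnr.2 (not_lt.1 hge)
      linarith
    have hinj : Set.InjOn x T := by
      intro i hi j hj hxij
      by_contra hij
      have h := hpair i hi j hj hij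
      rw [hxij, dist_self] at h
      linarith [h.1, hc.ha₁]
    rw [← Finset.card_image_of_injOn hinj]
    refine hc.clique _ ?_
    intro y hy y' hy' hne
    obtain ⟨i, hi, rfl⟩ := Finset.mem_image.1 hy
    obtain ⟨j, hj, rfl⟩ := Finset.mem_image.1 hy'
    exact hpair i hi j hj (fun h => hne (by rw [h]))
  have hE : pairE (rad φs) x = (1 / 2) * ∑ i, ∑ j, c i j := rfl
  have hlow : ∑ b ∈ C, ∑ i ∈ S b, ∑ j ∈ S b, c i j ≤ ∑ i, ∑ j, c i j := by
    rw [← hfib (fun i => ∑ j, c i j)]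
    refine Finset.sum_le_sum fun b _ => Finset.sum_le_sum fun i _ => ?_
    exact Finset.sum_le_sum_of_subset_of_nonneg (Finset.subset_univ _) fun j _ _ => hc0 i j
  have hN : ∑ b ∈ C, ((S b).card : ℝ) = N := by
    have := hfib (fun _ => (1 : ℝ))
    simpa using this
  have hQ : (∑ i, ∑ j, if v i = v j then (1 : ℝ) else 0) = ∑ b ∈ C, ((S b).card : ℝ) ^ 2 := by
    rw [← hfib (fun i => ∑ j, if v i = v j then (1 : ℝ) else 0)]
    refine Finset.sum_congr rfl fun b _ => ?_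
    have : ∀ i ∈ S b, (∑ j, if v i = v j then (1 : ℝ) else 0) = ((S b).card : ℝ) := by
      intro i hi
      have hvi : v i = b := (Finset.mem_filter.1 hi).2
      rw [Finset.sum_boole]
      congr 2
      ext j
      simp [S, hvi, eq_comm]
    rw [Finset.sum_congr rfl this]
    simp [sq]
  have hsum : W * ((∑ b ∈ C, ((S b).card : ℝ) ^ 2) / k - 2 * N) ≤ ∑ b ∈ C, ∑ i ∈ S b, ∑ j ∈ S b, c i j := by
    calc W * ((∑ b ∈ C, ((S b).card : ℝ) ^ 2) / k - 2 * N)
        = ∑ b ∈ C, W * (((S b).card : ℝ) ^ 2 / k - 2 * (S b).card) := by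
          rw [← hN, ← Finset.mul_sum, Finset.sum_sub_distrib, Finset.sum_div, Finset.mul_sum]
      _ ≤ _ := Finset.sum_le_sum hgreedy
  rw [hQ, hE]
  linarith

/-- The cell index in the grid of side `l`. -/
noncomputable def cellIdx (l : ℝ) (y : Pt) : Fin 3 → ℤ := fun k => ⌊y k / l⌋

lemma cellIdx_spec {l : ℝ} (hl : 0 < l) (y : Pt) (k : Fin 3) :
    (cellIdx l y k : ℝ) * l + (0 : Fin 3 → ℝ) k ≤ y k ∧
      y k < ((cellIdx l y k : ℝ) + 1) * l + (0 : Fin 3 → ℝ) k := by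
  have h1 := Int.floor_le (y k / l)
  have h2 := Int.lt_floor_add_one (y k / l)
  simp only [cellIdx, Pi.zero_apply, add_zero]
  rw [le_div_iff₀ hl] at h1
  rw [div_lt_iff₀ hl] at h2
  exact ⟨h1, h2⟩

lemma sideS_pos {φs : ℝ → ℝ} {a₁ a ξ W : ℝ} {k : ℕ} (hc : CoreHyp φs a₁ a ξ W k) :
    0 < sideS ξ := by
  have h1 := hc.ha
  have h2 := hc.haa
  have h3 := hc.ha₁
  unfold sideS
  linarith

lemma one_sub_pos' {φs : ℝ → ℝ} {a₁ a ξ W : ℝ} {k : ℕ} (hc : CoreHyp φs a₁ a ξ W k) :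
    0 < 1 - ξ := by
  have h1 := hc.ha
  have h2 := hc.haa
  have h3 := hc.ha₁
  linarith

lemma sqrt3_side_lt {φs : ℝ → ℝ} {a₁ a ξ W : ℝ} {k : ℕ} (hc : CoreHyp φs a₁ a ξ W k) :
    Real.sqrt 3 * sideS ξ < 1 - ξ := by
  have h := one_sub_pos' hc
  have h3 : Real.sqrt 3 < 2 := by
    rw [Real.sqrt_lt' (by norm_num)]
    norm_num
  unfold sideS
  nlinarith

/-- Points in one small cell are at distance less than `1 - ξ`. -/
lemma dist_lt_of_cellIdx_eq {φs : ℝ → ℝ} {a₁ a ξ W : ℝ} {k : ℕ} (hc : CoreHyp φs a₁ a ξ W k)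
    {y y' : Pt} (h : cellIdx (sideS ξ) y = cellIdx (sideS ξ) y') : dist y y' < 1 - ξ := by
  have hl := sideS_pos hc
  have h1 : y ∈ cell (sideS ξ) 0 (cellIdx (sideS ξ) y) := fun j => cellIdx_spec hl y j
  have h2 : y' ∈ cell (sideS ξ) 0 (cellIdx (sideS ξ) y) := by
    rw [h]
    exact fun j => cellIdx_spec hl y' j
  exact (cell_dist_lt hl h1 h2).trans (sqrt3_side_lt hc)

/-- Pair energy of the core is nonnegative. -/
lemma pairE_core_nonneg {φs : ℝ → ℝ} {a₁ a ξ W : ℝ} {k : ℕ} (hc : CoreHyp φs a₁ a ξ W k) {N : ℕ}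
    (x : Fin N → Pt) : 0 ≤ pairE (rad φs) x := by
  unfold pairE
  refine mul_nonneg (by norm_num) (Finset.sum_nonneg fun i _ => Finset.sum_nonneg fun j _ => ?_)
  split_ifs
  · exact le_rfl
  · exact hc.nonneg _

lemma pairE_KK_nonneg (R : ℝ) {N : ℕ} (x : Fin N → Pt) : 0 ≤ pairE (rad (KK R)) x := by
  unfold pairE
  refine mul_nonneg (by norm_num) (Finset.sum_nonneg fun i _ => Finset.sum_nonneg fun j _ => ?_)
  split_ifs
  · exact le_rfl
  · exact KK_nonneg _ _

lemma pairE_rad_const_mul (c : ℝ) (φ : ℝ → ℝ) {N : ℕ} (x : Fin N → Pt) :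
    pairE (rad (fun r => c * φ r)) x = c * pairE (rad φ) x := by
  unfold pairE rad
  have h : (∑ i, ∑ j, if i = j then (0 : ℝ) else c * φ (dist (x i) (x j)))
      = c * ∑ i, ∑ j, if i = j then (0 : ℝ) else φ (dist (x i) (x j)) := by
    rw [Finset.mul_sum]
    refine Finset.sum_congr rfl fun i _ => ?_
    rw [Finset.mul_sum]
    refine Finset.sum_congr rfl fun j _ => ?_
    split_ifs <;> simp
  rw [h]
  ring

/-- The stability bound: half of the core dominates the attraction, up to a linear term. -/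
theorem superstable {φs : ℝ → ℝ} {a₁ a ξ W : ℝ} {k : ℕ} (hc : CoreHyp φs a₁ a ξ W k) {R : ℕ → ℝ}
    (hR : ∀ j, 1 ≤ R j) {σ T : ℝ} (hσ : 0 ≤ σ) (hT : 0 ≤ T) (hσW : 4 * k * jj ξ T ≤ σ * W)
    {τ : ℕ → ℝ} (hτ : ∀ j, 0 ≤ τ j) (hsum : Summable τ) (hmass : ∑' j, τ j ≤ T) {N : ℕ}
    (x : Fin N → Pt) :
    (1 / 2) * σ * pairE (rad φs) x - 2 * k * jj ξ T * N ≤ pairE (rad (pot φs R σ τ)) x := by
  classical
  have hl := sideS_pos hc
  have hW := hc.hW
  have hk0 : (0 : ℝ) < k := by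
    have := hc.hk
    exact_mod_cast (by omega : 0 < k)
  set l := sideS ξ with hldef
  let v : Fin N → Fin 3 → ℤ := fun i => cellIdx l (x i)
  set Q : ℝ := ∑ i, ∑ j, if v i = v j then (1 : ℝ) else 0 with hQ
  have hQ0 : 0 ≤ Q := Finset.sum_nonneg fun i _ => Finset.sum_nonneg fun j _ => by
    split_ifs <;> norm_num
  set P := pairE (rad φs) x with hP
  have hP0 : 0 ≤ P := pairE_core_nonneg hc x
  have hkey : (W / 2) * (Q / k - 2 * N) ≤ P :=
    energy_cells hc x v fun i j h => dist_lt_of_cellIdx_eq hc h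
  -- level by level
  set M : ℝ := (1 / 2 : ℝ) * (1 + Real.sqrt 3 * l) ^ 6 / l ^ 3 * Q with hM
  have hM0 : 0 ≤ M := by rw [hM]; positivity
  have hlev : ∀ j, pairE (rad (KK (R j))) x ≤ M := by
    intro j
    have hRj := hR j
    have hRpos : 0 < R j := by linarith
    have h1 := pairE_KK_le hRpos hl x 0 v (fun i k => cellIdx_spec hl (x i) k)
    refine h1.trans ?_
    rw [hM]
    refine mul_le_mul_of_nonneg_right ?_ hQ0
    refine div_le_div_of_nonneg_right ?_ (by positivity)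
    refine mul_le_mul_of_nonneg_left ?_ (by norm_num)
    have hs : 0 ≤ Real.sqrt 3 * l := by positivity
    refine pow_le_pow_left₀ (by positivity) ?_ 6
    have : Real.sqrt 3 * l / R j ≤ Real.sqrt 3 * l := div_le_self hs hRj
    linarith
  have hsummable : Summable fun j => τ j * M := hsum.mul_right M
  have hle_tsum : ∑' j, τ j * pairE (rad (KK (R j))) x ≤ ∑' j, τ j * M := by
    have hs2 : Summable fun j => τ j * pairE (rad (KK (R j))) x := Summable.of_nonneg_of_le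
      (fun j => mul_nonneg (hτ j) (pairE_KK_nonneg _ x))
      (fun j => mul_le_mul_of_nonneg_left (hlev j) (hτ j)) hsummable
    exact hs2.tsum_le_tsum (fun j => mul_le_mul_of_nonneg_left (hlev j) (hτ j)) hsummable
  have hmassM : ∑' j, τ j * M ≤ T * M := by
    rw [tsum_mul_right]
    exact mul_le_mul_of_nonneg_right hmass hM0
  have hjj : T * M = (1 / 2) * jj ξ T * Q := by
    rw [hM]
    unfold jj
    rw [← hldef]
    ring
  have hjj0 : 0 ≤ jj ξ T := by
    unfold jj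
    rw [← hldef]
    positivity
  rw [pairE_pot φs R hR σ τ hsum x, ← hP]
  -- the bound for the attraction
  have hk2 : W * Q ≤ 2 * k * P + 2 * k * W * N := by
    have := mul_le_mul_of_nonneg_left hkey (by positivity : (0 : ℝ) ≤ 2 * k)
    have e : 2 * (k : ℝ) * ((W / 2) * (Q / k - 2 * N)) = W * Q - 2 * k * W * N := by
      field_simp
    rw [e] at this
    linarith
  have hQbound : (1 / 2) * jj ξ T * Q ≤ (σ / 4) * P + k * jj ξ T * N := by
    have h1 := mul_le_mul_of_nonneg_left hk2 hjj0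
    have h2 : 4 * (k : ℝ) * jj ξ T * P ≤ σ * W * P := mul_le_mul_of_nonneg_right hσW hP0
    have h3 : W * ((1 / 2) * jj ξ T * Q) ≤ W * ((σ / 4) * P + k * jj ξ T * N) := by
      nlinarith
    exact le_of_mul_le_mul_left h3 hW
  have hN0 : (0 : ℝ) ≤ N := by positivity
  have hσP : 0 ≤ σ * P := mul_nonneg hσ hP0
  have hjN : 0 ≤ (k : ℝ) * jj ξ T * N := by positivity
  nlinarith

/-- `KSum` is continuous. -/
lemma continuous_KSum {R : ℕ → ℝ} (hR : ∀ j, 1 ≤ R j) {τ : ℕ → ℝ} (hτ : ∀ j, 0 ≤ τ j)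
    (hsum : Summable τ) : Continuous (KSum R τ) := by
  have hV1 : 0 < volB 1 := volB_pos (by norm_num)
  refine continuous_tsum (u := fun j => τ j * (1 / volB 1)) ?_ (hsum.mul_right _) ?_
  · intro j
    exact continuous_const.mul (continuous_KK (by linarith [hR j]))
  · intro j r
    have hRj : 0 < R j := by linarith [hR j]
    rw [Real.norm_of_nonneg (mul_nonneg (hτ j) (KK_nonneg _ _))]
    refine mul_le_mul_of_nonneg_left ?_ (hτ j)
    refine (KK_le hRj r).trans ?_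
    refine one_div_le_one_div_of_le hV1 ?_
    rw [volB_scale hRj.le]
    have : (1 : ℝ) ≤ R j ^ 3 := one_le_pow₀ (hR j)
    nlinarith

lemma KSum_nonneg (R τ : ℕ → ℝ) (hτ : ∀ j, 0 ≤ τ j) (r : ℝ) : 0 ≤ KSum R τ r :=
  tsum_nonneg fun j => mul_nonneg (hτ j) (KK_nonneg _ _)

/-- Admissibility of the potentials. -/
theorem adm_pot {φs : ℝ → ℝ} {a₁ a ξ W : ℝ} {k : ℕ} (hc : CoreHyp φs a₁ a ξ W k) {R : ℕ → ℝ}
    (hR : ∀ j, 1 ≤ R j) {σ T : ℝ} (hσ : 0 ≤ σ) (hT : 0 ≤ T) (hσW : 4 * k * jj ξ T ≤ σ * W)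
    {τ : ℕ → ℝ} (hτ : ∀ j, 0 ≤ τ j) (hsum : Summable τ) (hmass : ∑' j, τ j ≤ T) :
    ∃ Φ, Adm (pot φs R σ τ) (2 * k * jj ξ T) Φ := by
  obtain ⟨Φ, hΦ⟩ := adm_core hc hσ
  have hjj0 : 0 ≤ jj ξ T := by
    have hl := sideS_pos hc
    unfold jj
    positivity
  refine ⟨Φ, ?_⟩
  refine ⟨?_, ?_, ?_, by positivity, hΦ.hΦ, ?_⟩
  · exact (hc.meas.const_mul σ).sub (continuous_KSum hR hτ hsum).measurable
  · intro r hr
    unfold pot
    rw [hc.far r hr, mul_zero, zero_sub]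
    linarith [KSum_nonneg R τ hτ r]
  · intro N x
    have h := superstable hc hR hσ hT hσW hτ hsum hmass x
    have hP0 := pairE_core_nonneg hc x
    have : 0 ≤ (1 / 2) * σ * pairE (rad φs) x := by positivity
    linarith
  · refine le_trans (lintegral_mono fun y => ?_) hΦ.int_pos
    refine ENNReal.ofReal_le_ofReal ?_
    unfold pot
    linarith [KSum_nonneg R τ hτ ‖y‖]

/-- A-priori bound: `bb σ τ y ≤ By + fe(σ/2 · φs) y`. -/
theorem fe_pot_le {φs : ℝ → ℝ} {a₁ a ξ W : ℝ} {k : ℕ} (hc : CoreHyp φs a₁ a ξ W k) {R : ℕ → ℝ}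
    (hR : ∀ j, 1 ≤ R j) {σ T : ℝ} (hσ : 0 < σ) (hT : 0 ≤ T) (hσW : 4 * k * jj ξ T ≤ σ * W)
    {τ : ℕ → ℝ} (hτ : ∀ j, 0 ≤ τ j) (hsum : Summable τ) (hmass : ∑' j, τ j ≤ T) {y : ℝ} (hy : 0 ≤ y) :
    fe (pot φs R σ τ) y ≤ 2 * k * jj ξ T * y + fe (fun r => (σ / 2) * φs r) y := by
  obtain ⟨Φ₁, h₁⟩ := adm_pot hc hR hσ.le hT hσW hτ hsum hmass
  obtain ⟨Φ₂, h₂⟩ := adm_core hc (by positivity : 0 ≤ σ / 2)
  have hjj0 : 0 ≤ jj ξ T := by
    have hl := sideS_pos hc
    unfold jj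
    positivity
  have key := fe_le_of_logZ_le h₁ h₂ (c := 2 * k * jj ξ T * y) hy ?_
  · linarith
  filter_upwards [eventually_gt_atTop (0 : ℝ)] with L hL
  set N := ⌊y * L ^ 3⌋₊ with hN
  have hNle : (N : ℝ) ≤ y * L ^ 3 := Nat.floor_le (by positivity)
  have h := logZ_le_of_pairE_le h₁ h₂ hL N (2 * k * jj ξ T * N) (fun x _ => by
    have h1 := superstable hc hR hσ.le hT hσW hτ hsum hmass x
    rw [pairE_rad_const_mul]
    linarith)
  have h3 : 2 * (k : ℝ) * jj ξ T * N ≤ 2 * k * jj ξ T * y * L ^ 3 := by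
    have : 0 ≤ 2 * (k : ℝ) * jj ξ T := by positivity
    nlinarith
  linarith

end Crest.Agent.Lib.GasCore
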