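import Crest.Agent.Lib.GasCoreDefs
import Crest.Agent.Lib.GasClusterTest

/-!
# Test bounds for the core system (row 149, part 6d)
-/

set_option autoImplicit false

namespace Crest.Agent.Lib.GasCore

open MeasureTheory Filter Topology Crest.ProbabilityR.Continuum Crest.Agent.Lib.GasBasic
  Crest.Agent.Lib.GasKernel Crest.Agent.Lib.GasThermo Crest.Agent.Lib.GasPacking
  Crest.Agent.Lib.GasClusterTest
open scoped ENNReal

/-- Test bound (d), liquid: expanded packing with rattling balls. -/
theorem fe_base_test_L {φs : ℝ → ℝ} {a₁ a ξ W : ℝ} {k : ℕ} (hc : CoreHyp φs a₁ a ξ W k) {σ p d : ℝ}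
    (hσ : 0 < σ) (hp : Tendsto (fun L : ℝ => (packingNumber L : ℝ) / L ^ 3) atTop (𝓝 p)) (hd : 0 < d) :
    (p / (1 + d) ^ 3) * Real.log (volB (d / 2)) ≤ fe (fun r => σ * φs r) (p / (1 + d) ^ 3) := by
  obtain ⟨Φ, hA⟩ := adm_core hc hσ.le
  have hr : 0 < d / 2 := by positivity
  have hv : 0 < volB (d / 2) := volB_pos hr
  have := fe_cluster_test hA (n := 1) le_rfl hp hr hv (fun y => by
    rw [Zw_one, ← volume_ball_center y (d / 2), ENNReal.ofReal_toReal (volume_ball_ne_top y _)])
  have e : 1 + 2 * (d / 2) = 1 + d := by ring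
  rw [e] at this
  simpa using this

/-- Test bound (e), clusters: `z` a clique in which the bullets of radius `η` around the points
stay at mutual distances where the core vanishes; first particle in a ball of radius `d/2`,
the others within `η` of the prescribed position relative to the first. -/
theorem fe_base_test_S {φs : ℝ → ℝ} {a₁ a ξ W : ℝ} {k : ℕ} (hc : CoreHyp φs a₁ a ξ W k) {σ p d η rc : ℝ}
    (hσ : 0 < σ) (hp : Tendsto (fun L : ℝ => (packingNumber L : ℝ) / L ^ 3) atTop (𝓝 p)) (hd : 0 < d)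
    (hη : 0 < η) (z : Fin k → Pt) (hz0 : ∀ i j, ‖z i - z j‖ + η + d / 2 ≤ rc)
    (hzero : ∀ (i j : Fin k) (u v : Pt), i ≠ j → ‖u‖ < η → ‖v‖ < η → φs (dist (z i + u) (z j + v)) = 0) :
    (p / (1 + 2 * rc) ^ 3) * (Real.log (volB (d / 2)) + (k - 1) * Real.log (volB η) - Real.log (k.factorial))
      ≤ fe (fun r => σ * φs r) (k * (p / (1 + 2 * rc) ^ 3)) := by
  obtain ⟨Φ, hA⟩ := adm_core hc hσ.le
  have hk : 1 ≤ k := le_trans (by norm_num) hc.hk
  obtain ⟨m, rfl⟩ : ∃ m, k = m + 1 := ⟨k - 1, by omega⟩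
  have hr : 0 < rc := by
    have := hz0 0 0
    simp only [sub_self, norm_zero, zero_add] at this
    have : 0 < d / 2 := by positivity
    linarith
  have hd2 : 0 < d / 2 := by positivity
  have hv1 : 0 < volB (d / 2) := volB_pos hd2
  have hv2 : 0 < volB η := volB_pos hη
  have hf : (0 : ℝ) < (m + 1).factorial := by exact_mod_cast Nat.factorial_pos _
  have hζ : 0 < volB (d / 2) * volB η ^ m / (m + 1).factorial := by positivity
  have := fe_cluster_test hA (n := m + 1) hk hp hr hζ (fun y => Zw_cluster hη y z hz0 (fun i j u v hij hu hv => by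
    have := hzero i j u v hij hu hv
    simp [this]))
  have e : Real.log (volB (d / 2) * volB η ^ m / (m + 1).factorial)
      = Real.log (volB (d / 2)) + (((m + 1 : ℕ) : ℝ) - 1) * Real.log (volB η) - Real.log ((m + 1).factorial) := by
    rw [Real.log_div (by positivity) hf.ne', Real.log_mul hv1.ne' (by positivity), Real.log_pow]
    push_cast
    ring
  rw [e] at this
  exact this

end Crest.Agent.Lib.GasCore
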