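import Crest.Agent.Lib.GasCore

/-!
# The sequences of radii, cell sizes and amplitudes (row 149)

All the sequences are powers of `v n = B ^ (3 ^ n)`, so that `v (n + 1) = v n ^ 3`:
radius `R n = v n ^ 48`, cell side `l n = v n ^ 32`, amplitude `c n ∝ v n ^ (-3)`.
The constants `C` below do not depend on `B`, and `B` is taken huge.
-/

set_option autoImplicit false

namespace Crest.Agent.Lib.GasParams

open MeasureTheory Filter Topology Crest.Agent.Lib.GasKernel Crest.Agent.Lib.GasLevel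

/-- The basic sequence. -/
noncomputable def vs (B : ℝ) (n : ℕ) : ℝ := B ^ (3 ^ n)

/-- radii -/
noncomputable def Rs (B : ℝ) (n : ℕ) : ℝ := vs B n ^ 48

/-- cell sides -/
noncomputable def ls (B : ℝ) (n : ℕ) : ℝ := vs B n ^ 32

/-- number of shifts -/
noncomputable def Ms (B : ℝ) (n : ℕ) : ℕ := ⌈vs B n ^ 16⌉₊

/-- amplitude inflation -/
noncomputable def zs (B : ℝ) (n : ℕ) : ℝ := 14 / vs B n ^ 16

/-- inflation of the upper block -/
noncomputable def ds (B : ℝ) (n : ℕ) : ℝ := 40 / vs B n ^ 16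

/-- fraction of separated shifts -/
noncomputable def z₀s (B : ℝ) (n : ℕ) : ℝ := 7 / vs B n ^ 16

/-- Normalisation of the amplitudes. -/
noncomputable def Ns (B : ℝ) : ℝ := ∑' j, 1 / vs B j ^ 3

/-- Amplitudes with total mass `J`. -/
noncomputable def cs (B J : ℝ) (n : ℕ) : ℝ := J / Ns B * (1 / vs B n ^ 3)

lemma vs_succ (B : ℝ) (n : ℕ) : vs B (n + 1) = vs B n ^ 3 := by
  unfold vs
  rw [pow_succ 3 n, pow_mul]

lemma vs_ge {B : ℝ} (hB : 1 ≤ B) (n : ℕ) : B ≤ vs B n := by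
  unfold vs
  exact le_self_pow₀ hB (by positivity)

lemma one_le_vs {B : ℝ} (hB : 1 ≤ B) (n : ℕ) : 1 ≤ vs B n := hB.trans (vs_ge hB n)

lemma vs_pos {B : ℝ} (hB : 1 ≤ B) (n : ℕ) : 0 < vs B n := by
  linarith [one_le_vs hB n]

/-- Super-exponential growth: `B ^ (n + 1) ≤ v n`. -/
lemma pow_le_vs {B : ℝ} (hB : 1 ≤ B) (n : ℕ) : B ^ (n + 1) ≤ vs B n := by
  unfold vs
  exact pow_le_pow_right₀ hB (Nat.lt_pow_self (by norm_num))

lemma mono_vs {B : ℝ} (hB : 1 ≤ B) : Monotone (vs B) := by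
  intro a b hab
  unfold vs
  exact pow_le_pow_right₀ hB (Nat.pow_le_pow_right (by norm_num) hab)

/-- Radii grow and are at least one. -/
lemma one_le_Rs {B : ℝ} (hB : 1 ≤ B) (n : ℕ) : 1 ≤ Rs B n := by
  unfold Rs
  exact one_le_pow₀ (one_le_vs hB n)

lemma mono_Rs {B : ℝ} (hB : 1 ≤ B) : Monotone (Rs B) := by
  intro a b hab
  unfold Rs
  exact pow_le_pow_left₀ (vs_pos hB a).le (mono_vs hB hab) _

/-- The radius at level zero is at least `B`. -/
lemma le_Rs {B : ℝ} (hB : 1 ≤ B) (n : ℕ) : B ≤ Rs B n := by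
  unfold Rs
  exact (vs_ge hB n).trans (le_self_pow₀ (one_le_vs hB n) (by norm_num))

lemma one_le_ls {B : ℝ} (hB : 1 ≤ B) (n : ℕ) : 1 ≤ ls B n := by
  unfold ls
  exact one_le_pow₀ (one_le_vs hB n)

/-- Shorthand: `1000 ≤ v ^ 16`. -/
lemma thousand_le {B : ℝ} (hB : 1000 ≤ B) (n : ℕ) : 1000 ≤ vs B n ^ 16 := by
  have h1 : (1 : ℝ) ≤ B := by linarith
  exact hB.trans ((vs_ge h1 n).trans (le_self_pow₀ (one_le_vs h1 n) (by norm_num)))

/-- For `j < n`, `R j ≤ v n ^ 16`. -/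
lemma Rs_le_of_lt {B : ℝ} (hB : 1 ≤ B) {j n : ℕ} (h : j < n) : Rs B j ≤ vs B n ^ 16 := by
  obtain ⟨m, rfl⟩ : ∃ m, n = m + 1 := ⟨n - 1, by omega⟩
  have hjm : j ≤ m := by omega
  have h1 : vs B j ≤ vs B m := mono_vs hB hjm
  have h2 : vs B (m + 1) ^ 16 = vs B m ^ 48 := by
    rw [vs_succ, ← pow_mul]
  rw [h2]
  unfold Rs
  exact pow_le_pow_left₀ (vs_pos hB j).le h1 _

/-- A polynomial inequality used for the parameters of `upper_level`. -/
lemma poly_small {e : ℝ} (h0 : 0 ≤ e) (h1 : e ≤ 1 / 1000) :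
    (1 + 2 * e) ^ 6 * (1 + e) ^ 3 ≤ 1 + 40 * e := by
  have a1 : (1 + 2 * e) ^ 2 ≤ 1 + 5 * e := by nlinarith
  have a2 : (1 + 2 * e) ^ 6 ≤ (1 + 5 * e) ^ 3 := by
    calc (1 + 2 * e) ^ 6 = ((1 + 2 * e) ^ 2) ^ 3 := by ring
      _ ≤ (1 + 5 * e) ^ 3 := pow_le_pow_left₀ (by positivity) a1 3
  have a3 : (1 + 5 * e) ^ 3 ≤ 1 + 16 * e := by
    have e2 : e ^ 2 ≤ e * (1 / 1000) := by nlinarith
    have e3 : e ^ 3 ≤ e * (1 / 1000) ^ 2 := by nlinarith [sq_nonneg e]
    nlinarith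
  have a4 : (1 + e) ^ 3 ≤ 1 + 4 * e := by
    have e2 : e ^ 2 ≤ e * (1 / 1000) := by nlinarith
    have e3 : e ^ 3 ≤ e * (1 / 1000) ^ 2 := by nlinarith [sq_nonneg e]
    nlinarith
  calc (1 + 2 * e) ^ 6 * (1 + e) ^ 3 ≤ (1 + 16 * e) * (1 + 4 * e) := by
        apply mul_le_mul (a2.trans a3) a4 (by positivity) (by positivity)
    _ ≤ 1 + 40 * e := by nlinarith

/-- The parameters of `upper_level`. -/
lemma level_ok {B : ℝ} (hB : 1000 ≤ B) (n : ℕ) :
    1 ≤ Ms B n ∧ z₀s B n < 1 ∧ 0 ≤ z₀s B n ∧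
    (∀ j, j < n → 2 * Real.sqrt 3 * Rs B j / ls B n + 3 / (Ms B n : ℝ) ≤ z₀s B n) ∧
    1 / (1 - z₀s B n) ≤ 1 + zs B n ∧
    (1 + Real.sqrt 3 * ls B n / Rs B n) ^ 6 * (1 + 1 / ls B n) ^ 3 ≤ 1 + ds B n := by
  have hB1 : (1 : ℝ) ≤ B := by linarith
  have hV := thousand_le hB n
  have hv := vs_pos hB1 n
  set v := vs B n with hvdef
  set V := v ^ 16 with hVdef
  have hVpos : 0 < V := by linarith
  have hlV : ls B n = V * V := by
    unfold ls
    rw [← hvdef, hVdef]
    ring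
  have hRV : Rs B n = V * V * V := by
    unfold Rs
    rw [← hvdef, hVdef]
    ring
  have hz0 : z₀s B n = 7 / V := rfl
  have hz : zs B n = 14 / V := rfl
  have hd : ds B n = 40 / V := rfl
  have hM : V ≤ (Ms B n : ℝ) := Nat.le_ceil _
  have hsqrt : Real.sqrt 3 ≤ 2 := by
    rw [Real.sqrt_le_left (by norm_num)]
    norm_num
  have hsqrt0 : 0 ≤ Real.sqrt 3 := Real.sqrt_nonneg 3
  have h7 : 7 / V ≤ 7 / 1000 := by
    apply div_le_div_of_nonneg_left (by norm_num) (by norm_num) hV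
  refine ⟨?_, ?_, ?_, ?_, ?_, ?_⟩
  · unfold Ms
    exact Nat.ceil_pos.2 hVpos
  · rw [hz0]
    linarith
  · rw [hz0]
    positivity
  · intro j hj
    have hRj : Rs B j ≤ V := Rs_le_of_lt hB1 hj
    have hRj0 : 0 ≤ Rs B j := by linarith [one_le_Rs hB1 j]
    rw [hz0, hlV]
    have hMpos : (0 : ℝ) < (Ms B n : ℝ) := by linarith
    have t1 : 2 * Real.sqrt 3 * Rs B j / (V * V) ≤ 4 / V := by
      rw [div_le_div_iff₀ (by positivity) hVpos]
      have : 2 * Real.sqrt 3 * Rs B j ≤ 4 * V := by nlinarith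
      nlinarith
    have t2 : 3 / (Ms B n : ℝ) ≤ 3 / V :=
      div_le_div_of_nonneg_left (by norm_num) hVpos hM
    calc 2 * Real.sqrt 3 * Rs B j / (V * V) + 3 / (Ms B n : ℝ) ≤ 4 / V + 3 / V := add_le_add t1 t2
      _ = 7 / V := by ring
  · rw [hz0, hz]
    have h1 : 0 < 1 - 7 / V := by linarith
    rw [div_le_iff₀ h1]
    have : (1 + 14 / V) * (1 - 7 / V) = 1 + 7 / V * (1 - 14 / V) := by
      field_simp
      ring
    rw [this]
    have h14 : 14 / V ≤ 14 / 1000 :=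
      div_le_div_of_nonneg_left (by norm_num) (by norm_num) hV
    have : 0 ≤ 7 / V * (1 - 14 / V) := by
      apply mul_nonneg (by positivity)
      linarith
    linarith
  · rw [hd, hlV, hRV]
    set e : ℝ := 1 / V with he
    have he0 : 0 ≤ e := by positivity
    have he1 : e ≤ 1 / 1000 := one_div_le_one_div_of_le (by norm_num) hV
    have h1 : Real.sqrt 3 * (V * V) / (V * V * V) ≤ 2 * e := by
      rw [he]
      have : Real.sqrt 3 * (V * V) / (V * V * V) = Real.sqrt 3 * (1 / V) := by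
        field_simp
      rw [this]
      exact mul_le_mul_of_nonneg_right hsqrt (by positivity)
    have h2 : 1 / (V * V) ≤ e := by
      rw [he]
      apply one_div_le_one_div_of_le hVpos
      nlinarith
    have h3 : (40 : ℝ) / V = 40 * e := by rw [he]; ring
    rw [h3]
    calc (1 + Real.sqrt 3 * (V * V) / (V * V * V)) ^ 6 * (1 + 1 / (V * V)) ^ 3
        ≤ (1 + 2 * e) ^ 6 * (1 + e) ^ 3 := by
          apply mul_le_mul
          · exact pow_le_pow_left₀ (by positivity) (by linarith) 6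
          · exact pow_le_pow_left₀ (by positivity) (by linarith) 3
          · positivity
          · positivity
      _ ≤ 1 + 40 * e := poly_small he0 he1

lemma zs_bound {B : ℝ} (hB : 1000 ≤ B) (n : ℕ) : 0 ≤ zs B n ∧ zs B n ≤ 1 := by
  have hV := thousand_le hB n
  unfold zs
  constructor
  · positivity
  · rw [div_le_one (by linarith)]
    linarith

lemma ds_bound {B : ℝ} (hB : 1000 ≤ B) (n : ℕ) : 0 ≤ ds B n ∧ ds B n ≤ 1 := by
  have hV := thousand_le hB n
  unfold ds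
  constructor
  · positivity
  · rw [div_le_one (by linarith)]
    linarith

/-- `1 - (l / (l + 1)) ^ 3 ≤ 3 / l`. -/
lemma one_sub_cube_le {l : ℝ} (hl : 1 ≤ l) : 1 - (l / (l + 1)) ^ 3 ≤ 3 / l := by
  have hlpos : 0 < l := by linarith
  have h1 : l / (l + 1) = 1 - 1 / (l + 1) := by
    field_simp
    ring
  set x : ℝ := 1 / (l + 1) with hx
  have hx0 : 0 ≤ x := by positivity
  have hx1 : x ≤ 1 := by
    rw [hx, div_le_one (by linarith)]
    linarith
  have hx2 : x ≤ 1 / l := by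
    rw [hx]
    exact one_div_le_one_div_of_le hlpos (by linarith)
  rw [h1]
  have h2 : (1 - x) ^ 3 ≥ 1 - 3 * x := by
    have : (1 - x) ^ 3 - (1 - 3 * x) = x ^ 2 * (3 - x) := by ring
    have h3 : 0 ≤ x ^ 2 * (3 - x) := mul_nonneg (sq_nonneg x) (by linarith)
    linarith
  have h4 : 3 / l = 3 * (1 / l) := by ring
  rw [h4]
  linarith

/-- The dilation parameter. -/
lemma ls_t_bound {B X : ℝ} (hB : 1000 ≤ B) (hX : 0 ≤ X) (hBX : 6 * (1 + X) ≤ B) (n : ℕ) :
    (1 - (ls B n / (ls B n + 1)) ^ 3) * (1 + X) ≤ 1 / 2 := by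
  have hB1 : (1 : ℝ) ≤ B := by linarith
  have hl1 := one_le_ls hB1 n
  have h := one_sub_cube_le hl1
  have hlB : B ≤ ls B n := by
    unfold ls
    exact (vs_ge hB1 n).trans (le_self_pow₀ (one_le_vs hB1 n) (by norm_num))
  have h3 : 3 / ls B n ≤ 3 / B := div_le_div_of_nonneg_left (by norm_num) (by linarith) hlB
  have h4 : (3 / B) * (1 + X) ≤ 1 / 2 := by
    have hBpos : 0 < B := by linarith
    rw [div_mul_eq_mul_div, div_le_iff₀ hBpos]
    linarith
  have h5 : 0 ≤ 1 + X := by linarith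
  calc (1 - (ls B n / (ls B n + 1)) ^ 3) * (1 + X) ≤ (3 / B) * (1 + X) :=
        mul_le_mul_of_nonneg_right (h.trans h3) h5
    _ ≤ 1 / 2 := h4

lemma ls_t_le {B : ℝ} (hB : 1000 ≤ B) (n : ℕ) :
    1 - (ls B n / (ls B n + 1)) ^ 3 ≤ 3 / vs B n ^ 16 := by
  have hB1 : (1 : ℝ) ≤ B := by linarith
  have hl1 := one_le_ls hB1 n
  have h := one_sub_cube_le hl1
  refine h.trans ?_
  have hv := one_le_vs hB1 n
  apply div_le_div_of_nonneg_left (by norm_num) (by positivity)
  unfold ls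
  exact pow_le_pow_right₀ hv (by norm_num)

lemma ls_t_pos {B : ℝ} (hB : 1000 ≤ B) (n : ℕ) :
    0 < (ls B n / (ls B n + 1)) ^ 3 ∧ (ls B n / (ls B n + 1)) ^ 3 < 1 := by
  have hB1 : (1 : ℝ) ≤ B := by linarith
  have hl1 := one_le_ls hB1 n
  have hlpos : 0 < ls B n := by linarith
  have h0 : 0 < ls B n / (ls B n + 1) := by positivity
  have h1 : ls B n / (ls B n + 1) < 1 := by
    rw [div_lt_one (by linarith)]
    linarith
  exact ⟨by positivity, pow_lt_one₀ h0.le h1 (by norm_num)⟩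

/-- The entropy error. -/
lemma ls_e_le {B X : ℝ} (hB : 1000 ≤ B) (hX : 0 ≤ X) (n : ℕ) :
    (1 + Real.log (1 + X * ls B n ^ 3)) / ls B n ^ 3 ≤ (5 + X) / vs B n ^ 16 := by
  have hB1 : (1 : ℝ) ≤ B := by linarith
  have hl1 := one_le_ls hB1 n
  have hlpos : 0 < ls B n := by linarith
  have hv := one_le_vs hB1 n
  set l := ls B n with hldef
  have hlv : vs B n ^ 16 ≤ l ^ 2 := by
    rw [hldef]
    unfold ls
    rw [← pow_mul]
    exact pow_le_pow_right₀ hv (by norm_num)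
  -- `log (1 + X l³) ≤ X + 3 l`
  have hlog : Real.log (1 + X * l ^ 3) ≤ X + 3 * l := by
    have h1 : (1 + X * l ^ 3) ≤ (1 + X) * (2 * l ^ 3) := by
      have : 1 ≤ l ^ 3 := one_le_pow₀ hl1
      nlinarith
    have h2 : 0 < 1 + X * l ^ 3 := by positivity
    have h3 : Real.log (1 + X * l ^ 3) ≤ Real.log ((1 + X) * (2 * l ^ 3)) :=
      Real.log_le_log h2 h1
    rw [Real.log_mul (by positivity) (by positivity), Real.log_mul (by norm_num) (by positivity),
      Real.log_pow] at h3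
    have h4 : Real.log (1 + X) ≤ X := by
      have := Real.log_le_sub_one_of_pos (by linarith : 0 < 1 + X)
      linarith
    have h5 : Real.log 2 ≤ 1 := by
      have := Real.log_two_lt_d9
      linarith
    have h6 : Real.log l ≤ l - 1 := Real.log_le_sub_one_of_pos hlpos
    push_cast at h3
    nlinarith
  have hnum : 1 + Real.log (1 + X * l ^ 3) ≤ (5 + X) * l := by nlinarith
  have hv16 : 0 < vs B n ^ 16 := by positivity
  rw [div_le_div_iff₀ (by positivity) hv16]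
  have h5X : 0 ≤ 5 + X := by linarith
  calc (1 + Real.log (1 + X * l ^ 3)) * vs B n ^ 16 ≤ ((5 + X) * l) * vs B n ^ 16 :=
        mul_le_mul_of_nonneg_right hnum hv16.le
    _ ≤ ((5 + X) * l) * l ^ 2 :=
        mul_le_mul_of_nonneg_left hlv (by positivity)
    _ = (5 + X) * l ^ 3 := by ring

lemma ls_e_nonneg {B X : ℝ} (hB : 1000 ≤ B) (hX : 0 ≤ X) (n : ℕ) :
    0 ≤ (1 + Real.log (1 + X * ls B n ^ 3)) / ls B n ^ 3 := by
  have hB1 : (1 : ℝ) ≤ B := by linarith
  have hl1 := one_le_ls hB1 n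
  have hlpos : 0 < ls B n := by linarith
  have h1 : 1 ≤ 1 + X * ls B n ^ 3 := by
    have : 0 ≤ X * ls B n ^ 3 := by positivity
    linarith
  have h2 := Real.log_nonneg h1
  positivity

/-- The volume error. -/
lemma volB_Rs_ge {B : ℝ} (hB : 1000 ≤ B) (n : ℕ) :
    1 / volB (Rs B n) ≤ (1 / volB 1) / vs B n ^ 16 := by
  have hB1 : (1 : ℝ) ≤ B := by linarith
  have hv := one_le_vs hB1 n
  have hV1 : 0 < volB 1 := volB_pos (by norm_num)
  have hR := one_le_Rs hB1 n
  rw [volB_scale (by linarith), div_div]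
  apply one_div_le_one_div_of_le (by positivity)
  have h : vs B n ^ 16 ≤ Rs B n ^ 3 := by
    unfold Rs
    rw [← pow_mul]
    exact pow_le_pow_right₀ hv (by norm_num)
  nlinarith

/-- Comparison with a geometric series. -/
lemma inv_vs_le {B : ℝ} (hB : 1 ≤ B) (k : ℕ) (j : ℕ) :
    1 / vs B j ^ k ≤ (1 / B ^ k) ^ (j + 1) := by
  have hBpos : 0 < B := by linarith
  rw [one_div_pow, one_div_le_one_div (by have := vs_pos hB j; positivity) (by positivity),
    ← pow_mul, mul_comm, pow_mul]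
  exact pow_le_pow_left₀ (by positivity) (pow_le_vs hB j) _

lemma summable_inv_vs_pow {B : ℝ} (hB : 1000 ≤ B) (k : ℕ) (hk : k ≠ 0) :
    Summable (fun j => 1 / vs B j ^ k) := by
  have hB1 : (1 : ℝ) ≤ B := by linarith
  have hlt : 1 / B ^ k < 1 := by
    rw [div_lt_one (by positivity)]
    exact one_lt_pow₀ (by linarith) hk
  have hg : Summable (fun j : ℕ => (1 / B ^ k) ^ (j + 1)) :=
    (summable_nat_add_iff 1).2 (summable_geometric_of_lt_one (by positivity) hlt)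
  refine Summable.of_nonneg_of_le (fun j => ?_) (fun j => inv_vs_le hB1 k j) hg
  have := vs_pos hB1 j
  positivity

/-- The geometric bound on the sums. -/
lemma tsum_inv_vs_pow_le {B : ℝ} (hB : 1000 ≤ B) (k : ℕ) (hk : k ≠ 0) :
    ∑' j, 1 / vs B j ^ k ≤ 2 / B ^ k := by
  have hB1 : (1 : ℝ) ≤ B := by linarith
  have hBpow : (1000 : ℝ) ≤ B ^ k := hB.trans (le_self_pow₀ hB1 hk)
  set r : ℝ := 1 / B ^ k with hr
  have hr0 : 0 ≤ r := by positivity
  have hr1 : r ≤ 1 / 1000 := one_div_le_one_div_of_le (by norm_num) hBpow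
  have hg : HasSum (fun j : ℕ => r ^ (j + 1)) (r * (1 - r)⁻¹) := by
    have := (hasSum_geometric_of_lt_one hr0 (by linarith : r < 1)).mul_left r
    simpa [pow_succ, mul_comm] using this
  have h1 : ∑' j, 1 / vs B j ^ k ≤ r * (1 - r)⁻¹ := by
    rw [← hg.tsum_eq]
    exact (summable_inv_vs_pow hB k hk).tsum_le_tsum (fun j => inv_vs_le hB1 k j) hg.summable
  refine h1.trans ?_
  have h2 : (1 - r)⁻¹ ≤ 2 := by
    rw [inv_le_comm₀ (by linarith) (by norm_num)]
    linarith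
  calc r * (1 - r)⁻¹ ≤ r * 2 := mul_le_mul_of_nonneg_left h2 hr0
    _ = 2 / B ^ k := by rw [hr]; ring

/-- The amplitudes. -/
lemma Ns_pos {B : ℝ} (hB : 1000 ≤ B) : 0 < Ns B ∧ Ns B ≤ 1 := by
  have hB1 : (1 : ℝ) ≤ B := by linarith
  have hs := summable_inv_vs_pow hB 3 (by norm_num)
  constructor
  · unfold Ns
    refine hs.tsum_pos (fun j => ?_) 0 ?_
    · have := vs_pos hB1 j
      positivity
    · have := vs_pos hB1 0
      positivity
  · refine (tsum_inv_vs_pow_le hB 3 (by norm_num)).trans ?_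
    rw [div_le_one (by positivity)]
    have : (1000 : ℝ) ≤ B ^ 3 := hB.trans (le_self_pow₀ hB1 (by norm_num))
    linarith

lemma summable_inv_vs {B : ℝ} (hB : 1000 ≤ B) : Summable (fun j => 1 / vs B j) := by
  simpa using summable_inv_vs_pow hB 1 (by norm_num)

lemma cs_pos {B J : ℝ} (hB : 1000 ≤ B) (hJ : 0 < J) (n : ℕ) : 0 < cs B J n := by
  have hB1 : (1 : ℝ) ≤ B := by linarith
  have := (Ns_pos hB).1
  have := vs_pos hB1 n
  unfold cs
  positivity

lemma summable_cs {B J : ℝ} (hB : 1000 ≤ B) : Summable (cs B J) := by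
  unfold cs
  exact (summable_inv_vs_pow hB 3 (by norm_num)).mul_left _

lemma tsum_cs {B J : ℝ} (hB : 1000 ≤ B) : ∑' n, cs B J n = J := by
  unfold cs
  rw [tsum_mul_left]
  have h := (Ns_pos hB).1
  change J / Ns B * Ns B = J
  field_simp

lemma cs_decay {B J : ℝ} (hB : 1000 ≤ B) (hJ : 0 < J) (n : ℕ) : 2 * cs B J (n + 1) ≤ cs B J n := by
  have hB1 : (1 : ℝ) ≤ B := by linarith
  have hN := (Ns_pos hB).1
  have hv := one_le_vs hB1 n
  have hvb : (1000 : ℝ) ≤ vs B n := hB.trans (vs_ge hB1 n)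
  unfold cs
  rw [vs_succ]
  have hJN : 0 < J / Ns B := by positivity
  have h1 : 2 * (1 / (vs B n ^ 3) ^ 3) ≤ 1 / vs B n ^ 3 := by
    have hp : 0 < vs B n ^ 3 := by positivity
    have h2 : (vs B n ^ 3) ^ 3 = vs B n ^ 3 * (vs B n ^ 3) ^ 2 := by ring
    rw [h2, mul_one_div, div_le_div_iff₀ (by positivity) hp]
    have h3 : (2 : ℝ) ≤ (vs B n ^ 3) ^ 2 := by
      have : (1000 : ℝ) ≤ vs B n ^ 3 := hvb.trans (le_self_pow₀ hv (by norm_num))
      nlinarith
    nlinarith [mul_pos hp hp]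
  calc 2 * (J / Ns B * (1 / (vs B n ^ 3) ^ 3)) = J / Ns B * (2 * (1 / (vs B n ^ 3) ^ 3)) := by ring
    _ ≤ J / Ns B * (1 / vs B n ^ 3) := mul_le_mul_of_nonneg_left h1 hJN.le

/-- The sum that governs the total displacement of the gaps and the slope bound. -/
lemma sum_err_le {B J C : ℝ} (hB : 1000 ≤ B) (hJ : 0 < J) (hC : 0 ≤ C) {E : ℕ → ℝ}
    (hE : ∀ n, E n ≤ C / vs B n ^ 16) (m : ℕ) :
    ∑ j ∈ Finset.range m, E j / cs B J (j + 1) ≤ 2 * C / (J * B ^ 7) := by
  have hB1 : (1 : ℝ) ≤ B := by linarith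
  have hN := Ns_pos hB
  have hBpos : 0 < B := by linarith
  have hterm : ∀ j, E j / cs B J (j + 1) ≤ (C / J) * (1 / vs B j ^ 7) := by
    intro j
    have hv := vs_pos hB1 j
    have hc := cs_pos hB hJ (j + 1)
    rw [div_le_iff₀ hc]
    refine (hE j).trans ?_
    unfold cs
    rw [vs_succ]
    have e : C / J * (1 / vs B j ^ 7) * (J / Ns B * (1 / (vs B j ^ 3) ^ 3))
        = (C / vs B j ^ 16) * (1 / Ns B) := by
      field_simp
    rw [e]
    have h1 : 1 ≤ 1 / Ns B := by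
      rw [le_div_iff₀ hN.1]
      linarith [hN.2]
    have h2 : 0 ≤ C / vs B j ^ 16 := by positivity
    nlinarith
  have hs := summable_inv_vs_pow hB 7 (by norm_num)
  have hsum : ∑ j ∈ Finset.range m, 1 / vs B j ^ 7 ≤ 2 / B ^ 7 := by
    refine le_trans ?_ (tsum_inv_vs_pow_le hB 7 (by norm_num))
    exact hs.sum_le_tsum _ (fun j _ => by have := vs_pos hB1 j; positivity)
  calc ∑ j ∈ Finset.range m, E j / cs B J (j + 1)
      ≤ ∑ j ∈ Finset.range m, (C / J) * (1 / vs B j ^ 7) :=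
        Finset.sum_le_sum (fun j _ => hterm j)
    _ = (C / J) * ∑ j ∈ Finset.range m, 1 / vs B j ^ 7 := by rw [Finset.mul_sum]
    _ ≤ (C / J) * (2 / B ^ 7) := mul_le_mul_of_nonneg_left hsum (by positivity)
    _ = 2 * C / (J * B ^ 7) := by field_simp

/-- Errors of the form `C / v ^ 16` tend to zero. -/
lemma tendsto_err {B C : ℝ} (hB : 1000 ≤ B) {E : ℕ → ℝ} (hE0 : ∀ n, 0 ≤ E n)
    (hE : ∀ n, E n ≤ C / vs B n ^ 16) : Tendsto E atTop (nhds 0) := by
  have hB1 : (1 : ℝ) ≤ B := by linarith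
  have hs := summable_inv_vs_pow hB 16 (by norm_num)
  have h0 := hs.tendsto_atTop_zero
  have h1 : Tendsto (fun n => C * (1 / vs B n ^ 16)) atTop (nhds 0) := by
    simpa using h0.const_mul C
  refine squeeze_zero hE0 (fun n => ?_) h1
  refine (hE n).trans (le_of_eq ?_)
  ring

/-- Boundedness and decay of the attraction. -/
lemma KSum_nonneg' {B J : ℝ} (hB : 1000 ≤ B) (hJ : 0 < J) (r : ℝ) : 0 ≤ KSum (Rs B) (cs B J) r :=
  Crest.Agent.Lib.GasCore.KSum_nonneg _ _ (fun j => (cs_pos hB hJ j).le) r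

lemma KK_le_one {R : ℝ} (hR : 1 ≤ R) (r : ℝ) : KK R r ≤ 1 / volB 1 := by
  have hV1 : 0 < volB 1 := volB_pos (by norm_num)
  have hRpos : 0 < R := by linarith
  refine (KK_le hRpos r).trans ?_
  refine one_div_le_one_div_of_le hV1 ?_
  rw [volB_scale hRpos.le]
  have : (1 : ℝ) ≤ R ^ 3 := one_le_pow₀ hR
  nlinarith

lemma summable_KSum {B J : ℝ} (hB : 1000 ≤ B) (hJ : 0 < J) (r : ℝ) :
    Summable (fun k => cs B J k * KK (Rs B k) r) := by
  have hB1 : (1 : ℝ) ≤ B := by linarith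
  refine Summable.of_nonneg_of_le (fun k => mul_nonneg (cs_pos hB hJ k).le (KK_nonneg _ _))
    (fun k => mul_le_mul_of_nonneg_left (KK_le_one (one_le_Rs hB1 k) r) (cs_pos hB hJ k).le)
    ((summable_cs hB).mul_right _)

lemma KSum_le {B J : ℝ} (hB : 1000 ≤ B) (hJ : 0 < J) (r : ℝ) :
    KSum (Rs B) (cs B J) r ≤ J / volB 1 := by
  have hB1 : (1 : ℝ) ≤ B := by linarith
  unfold KSum
  have h := (summable_KSum hB hJ r).tsum_le_tsum
    (fun k => mul_le_mul_of_nonneg_left (KK_le_one (one_le_Rs hB1 k) r) (cs_pos hB hJ k).le)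
    ((summable_cs hB).mul_right (1 / volB 1))
  refine h.trans (le_of_eq ?_)
  rw [tsum_mul_right, tsum_cs hB]
  ring

/-- Decay: the levels with `2 R n ≤ r` vanish at `r`; each of the others contributes at most a
constant times `r ^ (-3 - 1/32) / v n`. -/
lemma KSum_decay {B J : ℝ} (hB : 1000 ≤ B) (hJ : 0 < J) :
    ∃ C : ℝ, 0 ≤ C ∧ ∀ r : ℝ, 1 ≤ r → KSum (Rs B) (cs B J) r ≤ C * r ^ (-(3 + 1 / 32 : ℝ)) := by
  have hB1 : (1 : ℝ) ≤ B := by linarith
  have hN := Ns_pos hB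
  have hV1 : 0 < volB 1 := volB_pos (by norm_num)
  set s : ℝ := 3 + 1 / 32 with hs
  set A : ℝ := J / Ns B * (1 / volB 1) * 16 with hA
  have hA0 : 0 ≤ A := by
    have := hN.1
    positivity
  have hsum := summable_inv_vs hB
  refine ⟨A * ∑' j, 1 / vs B j, mul_nonneg hA0 (tsum_nonneg fun j => by
    have := vs_pos hB1 j
    positivity), ?_⟩
  intro r hr
  have hrpos : 0 < r := by linarith
  have hrs : 0 < r ^ (-s) := Real.rpow_pos_of_pos hrpos _
  -- termwise bound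
  have hterm : ∀ k, cs B J k * KK (Rs B k) r ≤ (A * r ^ (-s)) * (1 / vs B k) := by
    intro k
    have hv := one_le_vs hB1 k
    have hvpos := vs_pos hB1 k
    have hRpos : 0 < Rs B k := by linarith [one_le_Rs hB1 k]
    by_cases hk : 2 * Rs B k ≤ r
    · rw [KK_eq_zero hRpos hk, mul_zero]
      positivity
    · push Not at hk
      -- bound of `KK`
      have h1 : KK (Rs B k) r ≤ 1 / (vs B k ^ 144 * volB 1) := by
        refine (KK_le hRpos r).trans (le_of_eq ?_)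
        rw [volB_scale hRpos.le]
        unfold Rs
        rw [← pow_mul]
      -- `r ^ s ≤ 16 * v ^ (145.5)`
      have h2 : r ^ s ≤ 16 * vs B k ^ (146 : ℕ) := by
        have a1 : r ^ s ≤ (2 * vs B k ^ 48) ^ s :=
          Real.rpow_le_rpow hrpos.le hk.le (by rw [hs]; norm_num)
        have a2 : (2 * vs B k ^ 48) ^ s = 2 ^ s * (vs B k ^ 48) ^ s :=
          Real.mul_rpow (by norm_num) (by positivity)
        have a3 : (2 : ℝ) ^ s ≤ 2 ^ (4 : ℝ) :=
          Real.rpow_le_rpow_of_exponent_le (by norm_num) (by rw [hs]; norm_num)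
        have a4 : (2 : ℝ) ^ (4 : ℝ) = 16 := by norm_num
        have a5 : (vs B k ^ 48) ^ s ≤ vs B k ^ (146 : ℕ) := by
          rw [← Real.rpow_natCast (vs B k) 48, ← Real.rpow_mul hvpos.le,
            ← Real.rpow_natCast (vs B k) 146]
          apply Real.rpow_le_rpow_of_exponent_le hv
          rw [hs]
          norm_num
        have a6 : 0 ≤ (vs B k ^ 48) ^ s := by positivity
        calc r ^ s ≤ 2 ^ s * (vs B k ^ 48) ^ s := by rw [← a2]; exact a1
          _ ≤ 16 * vs B k ^ (146 : ℕ) := by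
              apply mul_le_mul (by rw [← a4]; exact a3) a5 a6 (by norm_num)
      have hrs2 : r ^ (-s) = 1 / r ^ s := by
        rw [Real.rpow_neg hrpos.le, one_div]
      have hrspos : 0 < r ^ s := Real.rpow_pos_of_pos hrpos _
      -- `1 / v^146 ≤ 16 r^{-s}`
      have h3 : 1 / vs B k ^ (146 : ℕ) ≤ 16 * r ^ (-s) := by
        rw [hrs2, mul_one_div, div_le_div_iff₀ (by positivity) hrspos]
        linarith
      have hc := (cs_pos hB hJ k).le
      have hNpos := hN.1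
      calc cs B J k * KK (Rs B k) r ≤ cs B J k * (1 / (vs B k ^ 144 * volB 1)) :=
            mul_le_mul_of_nonneg_left h1 hc
        _ = J / Ns B * (1 / volB 1) * (1 / vs B k ^ (146 : ℕ)) * (1 / vs B k) := by
            unfold cs
            field_simp
        _ ≤ J / Ns B * (1 / volB 1) * (16 * r ^ (-s)) * (1 / vs B k) := by
            apply mul_le_mul_of_nonneg_right _ (by positivity)
            exact mul_le_mul_of_nonneg_left h3 (by positivity)
        _ = (A * r ^ (-s)) * (1 / vs B k) := by rw [hA]; ring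
  unfold KSum
  have h := (summable_KSum hB hJ r).tsum_le_tsum hterm (hsum.mul_left (A * r ^ (-s)))
  refine h.trans (le_of_eq ?_)
  rw [tsum_mul_left]
  ring

/-- The attraction is strictly positive at distances in `[1,2]`: use `KK_lower` at level zero. -/
lemma KSum_pos {B J : ℝ} (hB : 1000 ≤ B) (hJ : 0 < J) :
    ∃ b : ℝ, 0 < b ∧ ∀ r : ℝ, 1 ≤ r → r ≤ 2 → b ≤ KSum (Rs B) (cs B J) r := by
  have hB1 : (1 : ℝ) ≤ B := by linarith
  have hR0 : 1000 ≤ Rs B 0 := hB.trans (le_Rs hB1 0)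
  have hRpos : 0 < Rs B 0 := by linarith
  have hR2 : 0 < Rs B 0 - 2 := by linarith
  have hV1 : 0 < volB 1 := volB_pos (by norm_num)
  refine ⟨cs B J 0 * (volB (Rs B 0 - 2) / volB (Rs B 0) ^ 2), ?_, ?_⟩
  · have := cs_pos hB hJ 0
    have := volB_pos hR2
    have := volB_pos hRpos
    positivity
  · intro r hr1 hr2
    have hc := cs_pos hB hJ 0
    have hterm : cs B J 0 * (volB (Rs B 0 - 2) / volB (Rs B 0) ^ 2) ≤ cs B J 0 * KK (Rs B 0) r := by
      apply mul_le_mul_of_nonneg_left _ hc.le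
      refine le_trans ?_ (KK_lower hRpos (by linarith) (by linarith))
      apply div_le_div_of_nonneg_right _ (by positivity)
      rw [volB_scale hR2.le, volB_scale (by linarith : 0 ≤ Rs B 0 - r)]
      apply mul_le_mul_of_nonneg_right _ hV1.le
      exact pow_le_pow_left₀ hR2.le (by linarith) 3
    refine hterm.trans ?_
    exact (summable_KSum hB hJ r).le_tsum 0
      (fun k _ => mul_nonneg (cs_pos hB hJ k).le (KK_nonneg _ _))

end Crest.Agent.Lib.GasParams
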