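import Crest.Agent.Lib.GasPhys
import Crest.Agent.Lib.GasCoreBuild
import Crest.Agent.Lib.GasParams

/-!
# Assembly (row 149): from the parameters to the kink.
-/

set_option autoImplicit false

namespace Crest.Agent.Lib.GasFinal

open MeasureTheory Filter Topology Crest.ProbabilityR.Continuum Crest.Agent.Lib.GasBasic
  Crest.Agent.Lib.GasKernel Crest.Agent.Lib.GasThermo Crest.Agent.Lib.GasLevel
  Crest.Agent.Lib.GasPacking Crest.Agent.Lib.GasCore Crest.Agent.Lib.GasThermoAbs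
  Crest.Agent.Lib.GasPhys Crest.Agent.Lib.GasCoreBuild Crest.Agent.Lib.GasParams
open scoped ENNReal

/-- The data of the physical system for given constants. -/
noncomputable def mkData (φs : ℝ → ℝ) (k : ℕ) (q L J X Cmax M₆ M' B : ℝ) : PhysData where
  φs := φs
  R := Rs B
  Tb := 6 * J
  X := X
  X₁ := k * q
  X₀ := (k - 1 / 1000) * q
  Cmax := Cmax
  M' := M'
  M₆ := M₆
  ζ := zs B
  δ := ds B
  l := ls B

/-- The constant in the error bound. -/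
noncomputable def Cerr (J X Cmax M' : ℝ) : ℝ :=
  14 * (Cmax + M') + 20 * ((6 * J) * X ^ 2)
    + 6 * ((1 + X) * ((2 * Cmax + M' + 2 * (6 * J) * X ^ 2) + M')) + (5 + X)
    + (1 / 2) * (6 * J) * X / volB 1

lemma Cerr_nonneg {J X Cmax M' : ℝ} (hJ : 0 ≤ J) (hX : 0 ≤ X) (hC : 0 ≤ Cmax) (hM : 0 ≤ M') :
    0 ≤ Cerr J X Cmax M' := by
  unfold Cerr
  have := volB_pos (R := 1) one_pos
  positivity

/-- The error bound for the physical system. -/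
lemma err_le {φs : ℝ → ℝ} {k : ℕ} {q L J X Cmax M₆ M' B : ℝ} (hB : 1000 ≤ B) (hJ : 0 ≤ J)
    (hX : 0 ≤ X) (hC : 0 ≤ Cmax) (hM : 0 ≤ M') (n : ℕ) :
    (mkData φs k q L J X Cmax M₆ M' B).toSys.EE n + (mkData φs k q L J X Cmax M₆ M' B).toSys.tb n
      ≤ Cerr J X Cmax M' / vs B n ^ 16 := by
  have hv : 0 < vs B n ^ 16 := by
    have := vs_ge (by linarith : (1 : ℝ) ≤ B) n
    have : 0 < vs B n := by linarith
    positivity
  have h1 := ls_t_le hB n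
  have h2 := ls_e_le hB hX n
  have h3 := volB_Rs_ge hB n
  have h4 : (1 / 2) * (6 * J) * X / volB (Rs B n) ≤ (1 / 2) * (6 * J) * X * ((1 / volB 1) / vs B n ^ 16) := by
    have e : (1 / 2) * (6 * J) * X / volB (Rs B n) = (1 / 2) * (6 * J) * X * (1 / volB (Rs B n)) := by
      ring
    rw [e]
    exact mul_le_mul_of_nonneg_left h3 (by positivity)
  set A₃ := (1 + X) * ((2 * Cmax + M' + 2 * (6 * J) * X ^ 2) + M') with hA₃
  have hA₃0 : 0 ≤ A₃ := by positivity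
  have h5 := mul_le_mul_of_nonneg_right h1 hA₃0
  show 14 / vs B n ^ 16 * (Cmax + M') + (1 / 2) * (40 / vs B n ^ 16) * (6 * J) * X ^ 2
      + 2 * (1 - (ls B n / (ls B n + 1)) ^ 3) * (1 + X) * ((2 * Cmax + M' + 2 * (6 * J) * X ^ 2) + M')
      + (1 + Real.log (1 + X * ls B n ^ 3)) / ls B n ^ 3
      + (1 / 2) * (6 * J) * X / volB (Rs B n) ≤ _
  have e : Cerr J X Cmax M' / vs B n ^ 16
      = 14 / vs B n ^ 16 * (Cmax + M') + (1 / 2) * (40 / vs B n ^ 16) * (6 * J) * X ^ 2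
        + 2 * ((3 / vs B n ^ 16) * A₃) + (5 + X) / vs B n ^ 16
        + (1 / 2) * (6 * J) * X * ((1 / volB 1) / vs B n ^ 16) := by
    unfold Cerr
    simp only [hA₃]
    ring
  rw [e]
  have e2 : 2 * (1 - (ls B n / (ls B n + 1)) ^ 3) * (1 + X) * ((2 * Cmax + M' + 2 * (6 * J) * X ^ 2) + M')
      = 2 * ((1 - (ls B n / (ls B n + 1)) ^ 3) * A₃) := by
    simp only [hA₃]
    ring
  rw [e2]
  linarith

/-- Stage one: from the estimates on the core and the numbers, the kink. -/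
theorem kink_of_params {φs : ℝ → ℝ} {a₁ a ξ W : ℝ} {k : ℕ} {q L U J X Cmax M₆ M' B θb : ℝ}
    (hc : CoreHyp φs a₁ a ξ W k) (hq : 0 < q) (hU : 0 ≤ U)
    (hJ : J = 2 * (L / (k * q))) (hJ0 : 0 < J)
    (hX : X = k * q * (1 + 2 * (1 / 1000)))
    (hCmax0 : 0 ≤ Cmax) (hCmax : U + 2 * (L / (k * q)) * (q * (1 + 1 / 1000)) ^ 2 ≤ Cmax)
    (hM₆ : 0 ≤ M₆) (hM' : 0 ≤ M')
    (hstab : 8 * k * jj ξ (6 * J) ≤ W)
    (hΦ : ∀ σ, 1 / 2 ≤ σ → σ ≤ 2 → ∀ y, X < y →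
      2 * k * jj ξ (6 * J) * y + fe (fun r => (σ / 2) * φs r) y + (1 / 2) * (6 * J) * y ^ 2
        ≤ -M₆ - ((Cmax + M₆) / (k * q - (k - 1 / 1000) * q)) * y)
    (hCm : ∀ σ, 1 / 2 ≤ σ → σ ≤ 2 → ∀ y, 0 ≤ y → y ≤ X →
      2 * k * jj ξ (6 * J) * y + fe (fun r => (σ / 2) * φs r) y ≤ Cmax)
    (hlowM' : ∀ σ, 1 / 2 ≤ σ → σ ≤ 2 → ∀ y, 0 ≤ y → y ≤ X + 1 → -M' ≤ fe (fun r => σ * φs r) y)
    (hlowM₆ : ∀ σ, 1 / 2 ≤ σ → σ ≤ 2 → -M₆ ≤ fe (fun r => σ * φs r) (k * q))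
    (hup : ∀ σ, 1 / 2 ≤ σ → σ ≤ 2 → ∀ y, 0 ≤ y → y ≤ X →
      fe (fun r => σ * φs r) y ≤ U - (L - U) * max (y - q * (1 + 1 / 1000)) 0)
    (hlowL : ∀ σ, 1 / 2 ≤ σ → σ ≤ 2 → -U ≤ fe (fun r => σ * φs r) q)
    (hlowS : ∀ σ, 1 / 2 ≤ σ → σ ≤ 2 → -((k - 1) * q * L) - U ≤ fe (fun r => σ * φs r) (k * q))
    (hnum : ((2 + X) * U + 1) * (2 * k) ≤ (1 / 1000) * (q * L))
    (hB : 1000 ≤ B) (hBX : 6 * (1 + X) ≤ B) (hBC : Cerr J X Cmax M' ≤ B)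
    (hθ0 : 0 < θb) (hθ1 : θb ≤ 1 / 4) (hθ2 : θb * J * X ^ 2 ≤ 1)
    (hδ1 : 4 * (2 * Cerr J X Cmax M' / (J * B ^ 7)) ≤ θb * (1 / 1000) * q ^ 2)
    (hδ2 : (L / (k * q)) * (2 * Cerr J X Cmax M' / (J * B ^ 7)) ≤ 1) :
    ∃ βc, 15 / 16 < βc ∧ βc ≤ 17 / 16 ∧ ∀ ρ, 8 / 5 * q ≤ ρ → ρ ≤ 9 / 5 * q →
      ∃ Dl Dr : ℝ,
        HasDerivWithinAt (fun β => -(fe (pot φs (Rs B) β (β • cs B J)) ρ / β)) Dl (Set.Iio βc) βc ∧
        HasDerivWithinAt (fun β => -(fe (pot φs (Rs B) β (β • cs B J)) ρ / β)) Dr (Set.Ioi βc) βc ∧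
        Dr < Dl := by
  have hk := hc.hk
  have hK : (2 : ℝ) ≤ k := by exact_mod_cast hk
  have hX0 : 0 < X := by
    rw [hX]
    positivity
  have hB1 : (1 : ℝ) ≤ B := by linarith
  have hlev := fun n => level_ok hB n
  set P : PhysData := mkData φs k q L J X Cmax M₆ M' B with hP
  have hPhys : PhysHyp P a₁ a ξ W k := by
    refine ⟨hc, one_le_Rs hB1, mono_Rs hB1, hX0, by show 0 ≤ 6 * J; positivity, ?_, ?_, ?_, hM', hM₆,
      hCmax0, hstab, hΦ, hCm, hlowM', hlowM₆, zs_bound hB, ds_bound hB, one_le_ls hB1, ?_, ?_⟩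
    · show 0 < ((k : ℝ) - 1 / 1000) * q
      have : 0 < (k : ℝ) - 1 / 1000 := by linarith
      positivity
    · show ((k : ℝ) - 1 / 1000) * q < k * q
      nlinarith
    · show (k : ℝ) * q ≤ X
      rw [hX]
      have : 0 < (k : ℝ) * q := by positivity
      nlinarith
    · intro n
      exact ls_t_bound hB hX0.le hBX n
    · intro n
      obtain ⟨h1, h2, h3, h4, h5, h6⟩ := hlev n
      exact ⟨Ms B n, z₀s B n, h1, h2, h3, h4, h5, h6⟩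
  have hGood := hPhys.good
  set S := P.toSys with hS
  have hcmass : ∑' n, cs B J n = J := tsum_cs hB
  have hE : ∀ n, S.EE n + S.tb n ≤ Cerr J X Cmax M' / vs B n ^ 16 := fun n =>
    err_le hB hJ0.le hX0.le hCmax0 hM' n
  have hE0 : ∀ n, 0 ≤ S.EE n + S.tb n := fun n =>
    add_nonneg (Crest.Agent.Lib.GasSys.Sys.EE_nonneg hGood n)
      (Crest.Agent.Lib.GasSys.Sys.tb_nonneg hGood n)
  have hCerr0 := Cerr_nonneg (J := J) (X := X) (Cmax := Cmax) (M' := M') hJ0.le hX0.le hCmax0 hM'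
  have hWin : Crest.Agent.Lib.GasWindow.WinHyp S (cs B J) k q (1 / 1000) L U
      (2 * Cerr J X Cmax M' / (J * B ^ 7)) θb := by
    refine ⟨hGood, rfl, rfl, hk, hq, by norm_num, le_rfl, hU, hX, rfl, rfl, hCmax,
      cs_pos hB hJ0, summable_cs hB, cs_decay hB hJ0, ?_, ?_, ?_, ?_, ?_, hnum, ?_, ?_, ?_, hθ0, hθ1, ?_, hδ1, hδ2⟩
    · show ∑' n, cs B J n = _
      rw [hcmass, hJ]
    · show 6 * (∑' n, cs B J n) ≤ 6 * J
      rw [hcmass]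
    · intro σ h1 h2 y hy hyX
      show fe (pot φs (Rs B) σ 0) y ≤ _
      rw [pot_zero]
      exact hup σ h1 h2 y hy hyX
    · intro σ h1 h2
      show _ ≤ fe (pot φs (Rs B) σ 0) q
      rw [pot_zero]
      exact hlowL σ h1 h2
    · intro σ h1 h2
      show _ ≤ fe (pot φs (Rs B) σ 0) (k * q)
      rw [pot_zero]
      exact hlowS σ h1 h2
    · exact tendsto_err hB hE0 hE
    · intro m
      exact sum_err_le hB hJ0 hCerr0 hE m
    · have h1 := hE 0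
      have h2 := vs_ge hB1 0
      have h3 : (1 : ℝ) ≤ vs B 0 := by linarith
      have h4 : B ≤ vs B 0 ^ 16 := by
        calc B ≤ vs B 0 := h2
          _ = vs B 0 ^ 1 := (pow_one _).symm
          _ ≤ vs B 0 ^ 16 := pow_le_pow_right₀ h3 (by norm_num)
      have h5 : Cerr J X Cmax M' / vs B 0 ^ 16 ≤ 1 := by
        rw [div_le_one (by linarith)]
        linarith
      linarith
    · show θb * (∑' n, cs B J n) * X ^ 2 ≤ 1
      rw [hcmass]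
      exact hθ2
  exact hWin.kink

/-! ### Estimates on the core -/

section core

variable {φs : ℝ → ℝ} {a₁ a ξ W : ℝ} {k : ℕ}

/-- More repulsion gives less free energy. -/
lemma fe_core_anti (hc : CoreHyp φs a₁ a ξ W k) {σ σ' : ℝ} (h0 : 0 ≤ σ) (h1 : σ ≤ σ') {y : ℝ}
    (hy : 0 ≤ y) : fe (fun r => σ' * φs r) y ≤ fe (fun r => σ * φs r) y := by
  obtain ⟨Φ, hA⟩ := adm_core hc (h0.trans h1)
  obtain ⟨Φ', hA'⟩ := adm_core hc h0
  have := fe_le_of_logZ_le (c := 0) hA hA' hy (by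
    filter_upwards [eventually_gt_atTop (0 : ℝ)] with L hL
    have h2 := logZ_le_of_pairE_le hA hA' hL ⌊y * L ^ 3⌋₊ 0 (fun x _ => by
      rw [pairE_rad_const_mul, pairE_rad_const_mul, add_zero]
      exact mul_le_mul_of_nonneg_right h1 (pairE_core_nonneg hc x))
    simpa using h2)
  simpa using this

/-- Steep upper bound beyond the cap. -/
lemma cap_phi (hc : CoreHyp φs a₁ a ξ W k) {p : ℝ}
    (hp : Tendsto (fun L : ℝ => (packingNumber L : ℝ) / L ^ 3) atTop (𝓝 p)) {A Λ Tb M₆ X gap s Y : ℝ}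
    (hA : 0 ≤ A) (hΛ : 0 ≤ Λ) (hTb : 0 ≤ Tb) (hM₆ : 0 ≤ M₆) (hgap : 0 < gap)
    (hX0 : 0 < X) (hX : k * (p / (1 - ξ) ^ 3) + gap ≤ X)
    (hs : s = sideS ξ ^ 3 / (2 * k)) (hs0 : 0 < s) (hY : Y = 2 / s)
    (hW2 : 1 + (A + Λ) * Y + (1 / 2) * Tb * Y ^ 2 + M₆ ≤ (1 / 4) * W * gap)
    (hW3 : (1 / 2) * Tb + (A + Λ) / Y + (1 + M₆) / Y ^ 2 ≤ W * s / 8) :
    ∀ σ, 1 / 2 ≤ σ → σ ≤ 2 → ∀ y, X < y →
      A * y + fe (fun r => (σ / 2) * φs r) y + (1 / 2) * Tb * y ^ 2 ≤ -M₆ - Λ * y := by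
  intro σ h1 h2 y hy
  have hW := hc.hW
  have hy0 : 0 < y := hX0.trans hy
  have hσ' : 0 < σ / 2 := by linarith
  have hY0 : 0 < Y := by rw [hY]; positivity
  rcases le_or_gt y Y with hyY | hyY
  · have h3 := fe_base_steep hc hσ' hp hy0.le
    have h4 : gap ≤ max (y - k * (p / (1 - ξ) ^ 3)) 0 := by
      apply le_max_of_le_left
      linarith
    have h5 : (1 / 4) * W * gap ≤ σ / 2 * W * max (y - k * (p / (1 - ξ) ^ 3)) 0 := by
      have h6 : (1 / 4) * W ≤ σ / 2 * W := by nlinarith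
      calc (1 / 4) * W * gap ≤ (σ / 2 * W) * gap := mul_le_mul_of_nonneg_right h6 hgap.le
        _ ≤ _ := mul_le_mul_of_nonneg_left h4 (by positivity)
    have h6 : A * y ≤ A * Y := mul_le_mul_of_nonneg_left hyY hA
    have h7 : Λ * y ≤ Λ * Y := mul_le_mul_of_nonneg_left hyY hΛ
    have h8 : y ^ 2 ≤ Y ^ 2 := pow_le_pow_left₀ hy0.le hyY 2
    have h9 : (1 / 2) * Tb * y ^ 2 ≤ (1 / 2) * Tb * Y ^ 2 :=
      mul_le_mul_of_nonneg_left h8 (by positivity)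
    have e : (A + Λ) * Y = A * Y + Λ * Y := by ring
    rw [e] at hW2
    linarith
  · have h3 := fe_base_quad hc hσ' hy0.le
    have hsy : 2 ≤ s * y := by
      rw [hY, div_lt_iff₀ hs0] at hyY
      linarith
    have h4 : y - s * y ^ 2 ≤ -((s / 2) * y ^ 2) := by nlinarith
    have h5 : σ / 2 * W * (y - s * y ^ 2) ≤ (W * s / 8) * (-(y ^ 2)) := by
      have h6 : σ / 2 * W * (y - s * y ^ 2) ≤ σ / 2 * W * (-((s / 2) * y ^ 2)) :=
        mul_le_mul_of_nonneg_left h4 (by positivity)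
      have h7 : 0 ≤ W * s * y ^ 2 := by positivity
      nlinarith
    have h6 : fe (fun r => (σ / 2) * φs r) y ≤ 1 + σ / 2 * W * (y - s * y ^ 2) := by
      rw [hs]
      have e : σ / 2 * W * (y - sideS ξ ^ 3 / (2 * k) * y ^ 2)
          = σ / 2 * W * y - σ / 2 * W * sideS ξ ^ 3 / (2 * k) * y ^ 2 := by ring
      rw [e]
      linarith
    -- lower bounds of the square term
    have h7 : (A + Λ) * y ≤ ((A + Λ) / Y) * y ^ 2 := by
      have h8 : (A + Λ) / Y * y ^ 2 = (A + Λ) * (y / Y) * y := by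
        field_simp
      rw [h8]
      have h9 : 1 ≤ y / Y := by rw [one_le_div hY0]; exact hyY.le
      have h10 : 0 ≤ (A + Λ) * y := by positivity
      nlinarith
    have h8 : 1 + M₆ ≤ ((1 + M₆) / Y ^ 2) * y ^ 2 := by
      have h9 : 1 ≤ y ^ 2 / Y ^ 2 := by
        rw [one_le_div (by positivity)]
        exact pow_le_pow_left₀ hY0.le hyY.le 2
      have e : (1 + M₆) / Y ^ 2 * y ^ 2 = (1 + M₆) * (y ^ 2 / Y ^ 2) := by ring
      rw [e]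
      have : 0 ≤ 1 + M₆ := by positivity
      nlinarith
    have h9 := mul_le_mul_of_nonneg_right hW3 (by positivity : 0 ≤ y ^ 2)
    nlinarith

/-- Simple upper bound below the cap. -/
lemma cap_max (hc : CoreHyp φs a₁ a ξ W k) {p : ℝ}
    (hp : Tendsto (fun L : ℝ => (packingNumber L : ℝ) / L ^ 3) atTop (𝓝 p)) {A X Cmax : ℝ}
    (hA : 0 ≤ A) (hC : A * X + 1 ≤ Cmax) :
    ∀ σ, 1 / 2 ≤ σ → σ ≤ 2 → ∀ y, 0 ≤ y → y ≤ X →
      A * y + fe (fun r => (σ / 2) * φs r) y ≤ Cmax := by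
  intro σ h1 h2 y hy hyX
  have hσ' : 0 < σ / 2 := by linarith
  have h3 := fe_base_steep hc hσ' hp hy
  have h4 : 0 ≤ σ / 2 * W * max (y - k * (p / (1 - ξ) ^ 3)) 0 := by
    have := hc.hW
    positivity
  have h5 : A * y ≤ A * X := mul_le_mul_of_nonneg_left hyX hA
  linarith

/-- Lower bound below `X + 1`. -/
lemma low_M (hc : CoreHyp φs a₁ a ξ W k) {X : ℝ} (hX : 0 < X) :
    ∀ σ, 1 / 2 ≤ σ → σ ≤ 2 → ∀ y, 0 ≤ y → y ≤ X + 1 →
      -(max 0 (-(fe (fun r => 2 * φs r) (X + 1)))) ≤ fe (fun r => σ * φs r) y := by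
  intro σ h1 h2 y hy hyX
  have h3 := fe_core_anti hc (by linarith : 0 ≤ σ) h2 hy
  obtain ⟨Φ, hA⟩ := adm_core hc (by norm_num : (0 : ℝ) ≤ 2)
  have hconc : ConcaveOn ℝ (Set.Ici 0) (fe (fun r => 2 * φs r)) := concaveOn_limFn (thermoHyp hA)
  have h0 : fe (fun r => 2 * φs r) 0 = 0 := limFn_zero (thermoHyp hA)
  set M := max 0 (-(fe (fun r => 2 * φs r) (X + 1))) with hM
  have hM0 : 0 ≤ M := le_max_left _ _
  have hM1 : -M ≤ fe (fun r => 2 * φs r) (X + 1) := by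
    have : -(fe (fun r => 2 * φs r) (X + 1)) ≤ M := le_max_right _ _
    linarith
  have hX1 : 0 < X + 1 := by linarith
  have ht0 : 0 ≤ y / (X + 1) := by positivity
  have ht1 : y / (X + 1) ≤ 1 := (div_le_one hX1).mpr hyX
  have h4 := hconc.2 (Set.mem_Ici.mpr (le_refl (0 : ℝ))) (Set.mem_Ici.mpr hX1.le)
    (sub_nonneg.mpr ht1) ht0 (by ring)
  simp only [smul_eq_mul, mul_zero, zero_add] at h4
  have e : y / (X + 1) * (X + 1) = y := by field_simp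
  rw [e, h0, mul_zero, zero_add] at h4
  have h5 : y / (X + 1) * (-M) ≤ y / (X + 1) * fe (fun r => 2 * φs r) (X + 1) :=
    mul_le_mul_of_nonneg_left hM1 ht0
  have h6 : -M ≤ y / (X + 1) * (-M) := by nlinarith
  linarith

/-- The upper bound in the form of the windows. -/
lemma up_bound (hc : CoreHyp φs a₁ a ξ W k) {p q U L ε : ℝ}
    (hp : Tendsto (fun L : ℝ => (packingNumber L : ℝ) / L ^ 3) atTop (𝓝 p))
    (hpp : p / (1 - ξ) ^ 3 ≤ q * (1 + ε)) (hv1 : 2 * volB a ≤ 1)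
    (hv2 : volB 1 * Real.exp (-(W / 2)) ≤ volB a) (hL : L = -Real.log (volB a))
    (hU1 : 1 + p / (1 - ξ) ^ 3 ≤ U) (hU2 : Real.log 2 ≤ U) (hUL : U ≤ L) :
    ∀ σ, 1 / 2 ≤ σ → σ ≤ 2 → ∀ y, 0 ≤ y →
      fe (fun r => σ * φs r) y ≤ U - (L - U) * max (y - q * (1 + ε)) 0 := by
  intro σ h1 h2 y hy
  have hσ : 0 < σ := by linarith
  have hW := hc.hW
  have hv0 : 0 < volB a := volB_pos (hc.ha₁.trans hc.haa)
  have hV1 : 0 < volB 1 := volB_pos one_pos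
  have hexp : Real.exp (-σ * W) ≤ Real.exp (-(W / 2)) := by
    apply Real.exp_le_exp.mpr
    nlinarith
  have hv : volB a + volB 1 * Real.exp (-σ * W) ≤ 2 * volB a := by
    have := mul_le_mul_of_nonneg_left hexp hV1.le
    linarith
  have h3 := fe_base_rep hc hσ hp hv hv1 hy
  have hlog : Real.log (2 * volB a) = Real.log 2 - L := by
    rw [Real.log_mul (by norm_num) hv0.ne', hL]
    ring
  rw [hlog] at h3
  set m₁ := max (y - p / (1 - ξ) ^ 3) 0 with hm₁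
  set m₂ := max (y - q * (1 + ε)) 0 with hm₂
  have hm : m₂ ≤ m₁ := by
    apply max_le_max _ le_rfl
    linarith
  have hm₁0 : 0 ≤ m₁ := le_max_right _ _
  have h4 : m₁ * (Real.log 2 - L) ≤ m₁ * (-(L - U)) :=
    mul_le_mul_of_nonneg_left (by linarith) hm₁0
  have h5 : m₁ * (-(L - U)) ≤ m₂ * (-(L - U)) :=
    mul_le_mul_of_nonpos_right hm (by linarith)
  linarith

/-- Liquid test bound. -/
lemma lowL_bound (hc : CoreHyp φs a₁ a ξ W k) {p t U : ℝ}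
    (hp : Tendsto (fun L : ℝ => (packingNumber L : ℝ) / L ^ 3) atTop (𝓝 p)) (ht : 0 < t)
    (hU : |p / (1 + t) ^ 3 * Real.log (volB (t / 2))| ≤ U) :
    ∀ σ, 1 / 2 ≤ σ → σ ≤ 2 → -U ≤ fe (fun r => σ * φs r) (p / (1 + t) ^ 3) := by
  intro σ h1 _
  have h3 := fe_base_test_L hc (by linarith : 0 < σ) hp ht
  have h4 := (abs_le.mp hU).1
  linarith

/-- Cluster test bound. -/
lemma lowS_bound (hc : CoreHyp φs a₁ a ξ W k) {p t U ι L : ℝ}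
    (hp : Tendsto (fun L : ℝ => (packingNumber L : ℝ) / L ^ 3) atTop (𝓝 p)) (ht : 0 < t)
    (hι : 0 < ι) (z : Fin k → Pt) (hz0 : ∀ i j, ‖z i - z j‖ + ι * a + t / 4 ≤ t / 2)
    (hzero : ∀ (i j : Fin k) (u v : Pt), i ≠ j → ‖u‖ < ι * a → ‖v‖ < ι * a →
      φs (dist (z i + u) (z j + v)) = 0)
    (hL : L = -Real.log (volB a))
    (hU : |p / (1 + t) ^ 3 * (Real.log (volB (t / 4)) + 3 * (k - 1) * Real.log ι
        - Real.log (k.factorial))| ≤ U) :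
    ∀ σ, 1 / 2 ≤ σ → σ ≤ 2 →
      -((k - 1) * (p / (1 + t) ^ 3) * L) - U ≤ fe (fun r => σ * φs r) (k * (p / (1 + t) ^ 3)) := by
  intro σ h1 _
  have ha0 : 0 < a := hc.ha₁.trans hc.haa
  have h3 := fe_base_test_S hc (σ := σ) (p := p) (d := t / 2) (η := ι * a) (rc := t / 2)
    (by linarith) hp (by positivity) (by positivity) z
    (fun i j => by
      have := hz0 i j
      have e : t / 2 / 2 = t / 4 := by ring
      rw [e]
      linarith) hzero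
  have e1 : (1 + 2 * (t / 2)) = 1 + t := by ring
  have e2 : t / 2 / 2 = t / 4 := by ring
  rw [e1, e2] at h3
  have hV1 : 0 < volB 1 := volB_pos one_pos
  have hlog : Real.log (volB (ι * a)) = 3 * Real.log ι - L := by
    rw [volB_scale (by positivity), hL, volB_scale ha0.le]
    have e : (ι * a) ^ 3 * volB 1 = ι ^ 3 * (a ^ 3 * volB 1) := by ring
    rw [e, Real.log_mul (by positivity) (by positivity), Real.log_pow]
    push_cast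
    ring
  rw [hlog] at h3
  have h4 := (abs_le.mp hU).1
  nlinarith

end core

/-- Elementary bound on the parameter `B`. -/
lemma frac_le {C J B θ : ℝ} (hJ : 0 < J) (hθ : 0 < θ) (hC : 0 ≤ C) (hB1 : 1 ≤ B)
    (hB : C / (J * θ) ≤ B) : C / (J * B ^ 7) ≤ θ := by
  have h1 : B ≤ B ^ 7 := by
    calc B = B ^ 1 := (pow_one _).symm
      _ ≤ B ^ 7 := pow_le_pow_right₀ hB1 (by norm_num)
  have hB0 : 0 < B := by linarith
  have h2 : C ≤ B * (J * θ) := by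
    rwa [div_le_iff₀ (by positivity)] at hB
  rw [div_le_iff₀ (by positivity)]
  have h3 : B * (J * θ) ≤ B ^ 7 * (J * θ) := mul_le_mul_of_nonneg_right h1 (by positivity)
  nlinarith

/-- Choice of the repulsion strength. -/
lemma choose_W {K Jj Aa Λ T M₆ Y gap ss V₁ v : ℝ} (hK : 0 ≤ K) (hJj : 0 ≤ Jj) (hAa : 0 ≤ Aa)
    (hΛ : 0 ≤ Λ) (hT : 0 ≤ T) (hM₆ : 0 ≤ M₆) (hY : 0 < Y) (hgap : 0 < gap) (hss : 0 < ss)
    (hV₁ : 0 < V₁) (hv : 0 < v) :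
    ∃ W : ℝ, 0 < W ∧ 8 * K * Jj ≤ W ∧
      1 + (Aa + Λ) * Y + (1 / 2) * T * Y ^ 2 + M₆ ≤ (1 / 4) * W * gap ∧
      (1 / 2) * T + (Aa + Λ) / Y + (1 + M₆) / Y ^ 2 ≤ W * ss / 8 ∧
      V₁ * Real.exp (-(W / 2)) ≤ v := by
  set W₁ := 8 * K * Jj with hW₁
  set W₂ := 4 * (1 + (Aa + Λ) * Y + (1 / 2) * T * Y ^ 2 + M₆) / gap with hW₂
  set W₃ := 8 * ((1 / 2) * T + (Aa + Λ) / Y + (1 + M₆) / Y ^ 2) / ss with hW₃
  set W₄ := 2 * |Real.log (V₁ / v)| with hW₄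
  have hW₁0 : 0 ≤ W₁ := by positivity
  have hW₂0 : 0 ≤ W₂ := by positivity
  have hW₃0 : 0 ≤ W₃ := by positivity
  have hW₄0 : 0 ≤ W₄ := by positivity
  refine ⟨W₁ + W₂ + W₃ + W₄ + 1, by positivity, by linarith, ?_, ?_, ?_⟩
  · have h4 : W₂ ≤ W₁ + W₂ + W₃ + W₄ + 1 := by linarith
    have h5 : W₂ * gap = 4 * (1 + (Aa + Λ) * Y + (1 / 2) * T * Y ^ 2 + M₆) := by
      simp only [hW₂]
      field_simp
    have h6 := mul_le_mul_of_nonneg_right h4 hgap.le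
    linarith
  · have h4 : W₃ ≤ W₁ + W₂ + W₃ + W₄ + 1 := by linarith
    have h5 : W₃ * ss = 8 * ((1 / 2) * T + (Aa + Λ) / Y + (1 + M₆) / Y ^ 2) := by
      simp only [hW₃]
      field_simp
    have h6 := mul_le_mul_of_nonneg_right h4 hss.le
    linarith
  · have h4 : Real.log (V₁ / v) ≤ (W₁ + W₂ + W₃ + W₄ + 1) / 2 := by
      have h5 := le_abs_self (Real.log (V₁ / v))
      simp only [hW₄] at *
      linarith
    have h5 : Real.exp (-((W₁ + W₂ + W₃ + W₄ + 1) / 2)) ≤ Real.exp (-Real.log (V₁ / v)) :=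
      Real.exp_le_exp.mpr (by linarith)
    have e : Real.exp (-Real.log (V₁ / v)) = v / V₁ := by
      rw [Real.exp_neg, Real.exp_log (by positivity), inv_div]
    rw [e] at h5
    have h7 := mul_le_mul_of_nonneg_left h5 hV₁.le
    have e2 : V₁ * (v / V₁) = v := by field_simp
    linarith

/-- Choice of the base of the scales. -/
lemma choose_B {J X θ A₀ C : ℝ} (hJ : 0 < J) (hX : 0 < X) (hθ : 0 < θ) (hA₀ : 0 < A₀) (hC : 0 ≤ C) :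
    ∃ B : ℝ, 1000 ≤ B ∧ 6 * (1 + X) ≤ B ∧ C ≤ B ∧ 4 * (2 * C / (J * B ^ 7)) ≤ θ ∧
      A₀ * (2 * C / (J * B ^ 7)) ≤ 1 := by
  have hterm1 : 0 ≤ (8 * C) / (J * θ) := by positivity
  have hterm2 : 0 ≤ (2 * C * A₀) / (J * 1) := by positivity
  have hterm3 : 0 ≤ 6 * (1 + X) := by positivity
  set B := 1000 + 6 * (1 + X) + C + (8 * C) / (J * θ) + (2 * C * A₀) / (J * 1) with hB
  have hB1 : 1 ≤ B := by simp only [hB]; linarith
  refine ⟨B, by simp only [hB]; linarith, by simp only [hB]; linarith, by simp only [hB]; linarith,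
    ?_, ?_⟩
  · have h4 := frac_le (C := 8 * C) (J := J) (B := B) (θ := θ) hJ hθ (by positivity) hB1 (by
      simp only [hB]; linarith)
    have e : 4 * (2 * C / (J * B ^ 7)) = 8 * C / (J * B ^ 7) := by ring
    rw [e]
    exact h4
  · have h4 := frac_le (C := 2 * C * A₀) (J := J) (B := B) (θ := 1) hJ one_pos (by positivity) hB1 (by
      simp only [hB]; linarith)
    have e : A₀ * (2 * C / (J * B ^ 7)) = 2 * C * A₀ / (J * B ^ 7) := by ring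
    rw [e]
    exact h4

/-- Choice of the scale of the core. -/
lemma choose_a {L₀ t ι : ℝ} (hL₀ : 1 ≤ L₀) (ht : 0 < t) (hι : 0 < ι) :
    ∃ a : ℝ, 0 < a ∧ a ≤ 1 / 8 ∧ a * (1 + ι) ≤ t / 4 ∧ L₀ ≤ -Real.log (volB a) ∧ 2 * volB a ≤ 1 := by
  have hV₁0 : 0 < volB 1 := volB_pos one_pos
  set a₀ := min (1 / 8) (t / (4 * (1 + ι))) with ha₀
  have ha₀0 : 0 < a₀ := lt_min (by norm_num) (by positivity)
  set a := min a₀ (Real.exp (-L₀) / (volB 1 + 1)) with ha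
  have ha0 : 0 < a := lt_min ha₀0 (by positivity)
  have ha1 : a ≤ 1 / 8 := (min_le_left _ _).trans (min_le_left _ _)
  have ha2 : a * (1 + ι) ≤ t / 4 := by
    have h1 : a ≤ t / (4 * (1 + ι)) := (min_le_left _ _).trans (min_le_right _ _)
    rw [le_div_iff₀ (by positivity)] at h1
    have e : a * (1 + ι) = (a * (4 * (1 + ι))) / 4 := by ring
    rw [e]
    exact div_le_div_of_nonneg_right h1 (by norm_num)
  have hvol : volB a ≤ Real.exp (-L₀) := by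
    rw [volB_scale ha0.le]
    have h1 : a ≤ Real.exp (-L₀) / (volB 1 + 1) := min_le_right _ _
    rw [le_div_iff₀ (by positivity)] at h1
    have h2 : a ^ 3 ≤ a := by
      have : a ^ 2 ≤ 1 := by nlinarith
      nlinarith
    have h3 : a ^ 3 * volB 1 ≤ a * volB 1 := mul_le_mul_of_nonneg_right h2 hV₁0.le
    nlinarith
  have hvola0 : 0 < volB a := volB_pos ha0
  refine ⟨a, ha0, ha1, ha2, ?_, ?_⟩
  · have h1 := Real.log_le_log hvola0 hvol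
    rw [Real.log_exp] at h1
    linarith
  · have h1 : Real.exp (-L₀) ≤ Real.exp (-1) := Real.exp_le_exp.mpr (by linarith)
    have h2 : Real.exp (-1) ≤ 1 / 2 := by
      rw [Real.exp_neg, ← one_div]
      apply one_div_le_one_div_of_le (by norm_num)
      have := Real.exp_one_gt_d9
      linarith
    linarith

/-- Fixed numbers. -/
lemma numbers_t {p : ℝ} (hp0 : 0 < p) : ∃ t q : ℝ, 0 < t ∧ t ≤ 1 / 10000 ∧ q = p / (1 + t) ^ 3 ∧
    0 < q ∧ q ≤ p ∧ p ≤ q * (1 + 1 / 1000) ∧ p / (1 - t) ^ 3 ≤ q * (1 + 1 / 1000) := by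
  have hq0 : 0 < p / (1 + (1 / 10000 : ℝ)) ^ 3 := by positivity
  refine ⟨1 / 10000, p / (1 + (1 / 10000 : ℝ)) ^ 3, by norm_num, le_rfl, rfl, hq0, ?_, ?_, ?_⟩
  · rw [div_le_iff₀ (by positivity)]
    have : (1 : ℝ) ≤ (1 + 1 / 10000) ^ 3 := by norm_num
    nlinarith
  · rw [div_mul_eq_mul_div, le_div_iff₀ (by positivity)]
    have : (1 + 1 / 10000 : ℝ) ^ 3 ≤ (1 : ℝ) + 1 / 1000 := by norm_num
    nlinarith
  · rw [div_mul_eq_mul_div, div_le_div_iff₀ (by norm_num) (by positivity)]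
    have : (1 + 1 / 10000 : ℝ) ^ 3 ≤ (1 + 1 / 1000) * (1 - 1 / 10000) ^ 3 := by norm_num
    nlinarith

/-- Second half of the main theorem: the scale `a` is chosen. -/
theorem main_aux (Dfam : ℝ → ℝ → ℝ)
    (hD : ∀ a₁, 0 < a₁ → Measurable (Dfam a₁) ∧ (∀ r, 0 ≤ Dfam a₁ r) ∧ (∀ r, a₁ ≤ r → Dfam a₁ r = 0) ∧
      ∫⁻ y : Pt, ENNReal.ofReal (Dfam a₁ ‖y‖) < ∞)
    {r₁ z₁₀ z₂₀ ι : ℝ} {k : ℕ} {z : Fin k → Pt} (hr₁ : 0 < r₁) (hrz : r₁ < z₁₀) (hzz : z₁₀ < z₂₀)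
    (hz1 : z₂₀ < 1) (hι : 0 < ι) (hk : 2 ≤ k)
    (hcl : ∀ X : Finset Pt, (∀ x ∈ X, ∀ y ∈ X, x ≠ y → r₁ < dist x y ∧ dist x y < 1) → X.card ≤ k)
    (hzd : ∀ i j, ‖z i - z j‖ ≤ 1)
    (hzdist : ∀ i j, i ≠ j → ∀ u v : Pt, ‖u‖ < ι → ‖v‖ < ι →
      z₁₀ ≤ dist (z i + u) (z j + v) ∧ dist (z i + u) (z j + v) ≤ z₂₀)
    {p t q X U L a : ℝ} (hp0 : 0 < p)
    (hp : Tendsto (fun L : ℝ => (packingNumber L : ℝ) / L ^ 3) atTop (𝓝 p))
    (ht0 : 0 < t) (ht1 : t ≤ 1 / 10000) (hqdef : q = p / (1 + t) ^ 3) (hq0 : 0 < q) (hqp : q ≤ p)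
    (hpq : p ≤ q * (1 + 1 / 1000)) (hpp : p / (1 - t) ^ 3 ≤ q * (1 + 1 / 1000))
    (hX : X = k * q * (1 + 2 * (1 / 1000)))
    (hU0 : 0 ≤ U) (hU1 : 1 + p / (1 - t) ^ 3 ≤ U) (hU2 : Real.log 2 ≤ U)
    (hUt1 : |q * Real.log (volB (t / 2))| ≤ U)
    (hUt2 : |q * (Real.log (volB (t / 4)) + 3 * (k - 1) * Real.log ι - Real.log (k.factorial))| ≤ U)
    (ha0 : 0 < a) (ha1 : a ≤ 1 / 8) (ha2 : a * (1 + ι) ≤ t / 4) (hL : L = -Real.log (volB a))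
    (hv1 : 2 * volB a ≤ 1) (hUL : U ≤ L) (hL0 : 0 < L)
    (hnum : ((2 + X) * U + 1) * (2 * k) ≤ (1 / 1000) * (q * L)) :
    ∃ (a₁ z₁ z₂ a ξ W J B : ℝ) (k : ℕ) (p q βc : ℝ),
      0 < a₁ ∧ a₁ < z₁ ∧ z₁ ≤ z₂ ∧ z₂ < a ∧ a ≤ 1 ∧ 0 < ξ ∧ 0 < J ∧ 1000 ≤ B ∧
      CoreHyp (fun r => W * psi a₁ z₁ z₂ a ξ r + Dfam a₁ r) a₁ a ξ W k ∧
      4 * k * jj ξ J ≤ W ∧
      0 < p ∧ Tendsto (fun L : ℝ => (packingNumber L : ℝ) / L ^ 3) atTop (𝓝 p) ∧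
      0 < q ∧ q ≤ p ∧ p ≤ q * (1 + 1 / 1000) ∧ 15 / 16 < βc ∧ βc ≤ 17 / 16 ∧
      ∀ ρ, 8 / 5 * q ≤ ρ → ρ ≤ 9 / 5 * q →
      ∃ Dl Dr : ℝ,
        HasDerivWithinAt (fun β => -(fe (pot (fun r => W * psi a₁ z₁ z₂ a ξ r + Dfam a₁ r) (Rs B) β
          (β • cs B J)) ρ / β)) Dl (Set.Iio βc) βc ∧
        HasDerivWithinAt (fun β => -(fe (pot (fun r => W * psi a₁ z₁ z₂ a ξ r + Dfam a₁ r) (Rs B) β
          (β • cs B J)) ρ / β)) Dr (Set.Ioi βc) βc ∧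
        Dr < Dl := by
  have hK : (2 : ℝ) ≤ k := by exact_mod_cast hk
  have hK0 : (0 : ℝ) < k := by linarith
  have hX0 : 0 < X := by
    rw [hX]
    positivity
  -- the geometry
  obtain ⟨a₁, ha₁⟩ : ∃ a₁, a₁ = r₁ * a := ⟨_, rfl⟩
  obtain ⟨z₁, hz₁⟩ : ∃ z₁, z₁ = z₁₀ * a := ⟨_, rfl⟩
  obtain ⟨z₂, hz₂⟩ : ∃ z₂, z₂ = z₂₀ * a := ⟨_, rfl⟩
  have ha₁0 : 0 < a₁ := by rw [ha₁]; positivity
  have h1 : a₁ < z₁ := by rw [ha₁, hz₁]; exact mul_lt_mul_of_pos_right hrz ha0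
  have h2 : z₁ ≤ z₂ := by rw [hz₁, hz₂]; exact (mul_lt_mul_of_pos_right hzz ha0).le
  have h3 : z₂ < a := by
    have := mul_lt_mul_of_pos_right hz1 ha0
    rw [hz₂]
    simpa using this
  obtain ⟨hDm, hD0, hD1, hDI⟩ := hD a₁ ha₁0
  -- the constants
  obtain ⟨A₀, hA₀⟩ : ∃ A₀, A₀ = L / ((k : ℝ) * q) := ⟨_, rfl⟩
  have hA₀0 : 0 < A₀ := by rw [hA₀]; positivity
  obtain ⟨J, hJ⟩ : ∃ J, J = 2 * A₀ := ⟨_, rfl⟩
  have hJ0 : 0 < J := by rw [hJ]; positivity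
  have hside : 0 < sideS t := by
    unfold sideS
    have : t < 1 := by linarith
    linarith
  obtain ⟨cj, hcj⟩ : ∃ cj, cj = (1 + Real.sqrt 3 * sideS t) ^ 6 / sideS t ^ 3 := ⟨_, rfl⟩
  have hjj : ∀ T, jj t T = T * cj := by
    intro T
    rw [hcj]
    unfold jj
    ring
  have hcj0 : 0 ≤ cj := by rw [hcj]; positivity
  obtain ⟨Jj, hJj⟩ : ∃ Jj, Jj = jj t (6 * J) := ⟨_, rfl⟩
  have hJj0 : 0 ≤ Jj := by
    rw [hJj, hjj]
    positivity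
  obtain ⟨Aa, hAa⟩ : ∃ Aa, Aa = 2 * (k : ℝ) * Jj := ⟨_, rfl⟩
  have hAa0 : 0 ≤ Aa := by rw [hAa]; positivity
  obtain ⟨Cmax, hCmax⟩ : ∃ Cmax, Cmax = Aa * X + 1 + U + 2 * A₀ * (q * (1 + 1 / 1000)) ^ 2 := ⟨_, rfl⟩
  have hCmax0 : 0 ≤ Cmax := by rw [hCmax]; positivity
  obtain ⟨M₆, hM₆⟩ : ∃ M₆, M₆ = ((k : ℝ) - 1) * q * L + U := ⟨_, rfl⟩
  have hK1 : 0 < (k : ℝ) - 1 := by linarith
  have hM₆0 : 0 ≤ M₆ := by rw [hM₆]; positivity
  have hdenom : (k : ℝ) * q - ((k : ℝ) - 1 / 1000) * q = q / 1000 := by ring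
  obtain ⟨Λ, hΛ⟩ : ∃ Λ, Λ = (Cmax + M₆) / ((k : ℝ) * q - ((k : ℝ) - 1 / 1000) * q) := ⟨_, rfl⟩
  have hΛ0 : 0 ≤ Λ := by
    rw [hΛ, hdenom]
    positivity
  obtain ⟨ss, hss⟩ : ∃ ss, ss = sideS t ^ 3 / (2 * (k : ℝ)) := ⟨_, rfl⟩
  have hss0 : 0 < ss := by rw [hss]; positivity
  obtain ⟨Y, hY⟩ : ∃ Y, Y = 2 / ss := ⟨_, rfl⟩
  have hY0 : 0 < Y := by rw [hY]; positivity
  obtain ⟨gap, hgap⟩ : ∃ gap, gap = (k : ℝ) * q * (1 / 1000) := ⟨_, rfl⟩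
  have hgap0 : 0 < gap := by rw [hgap]; positivity
  have hgapX : (k : ℝ) * (p / (1 - t) ^ 3) + gap ≤ X := by
    have h4 : (k : ℝ) * (p / (1 - t) ^ 3) ≤ (k : ℝ) * (q * (1 + 1 / 1000)) :=
      mul_le_mul_of_nonneg_left hpp hK0.le
    rw [hX, hgap]
    linarith
  have hvola0 : 0 < volB a := volB_pos ha0
  obtain ⟨W, hW0, hstab, hW2, hW3, hv2⟩ := choose_W (K := k) (Jj := Jj) (Aa := Aa) (Λ := Λ)
    (T := 6 * J) (M₆ := M₆) (Y := Y) (gap := gap) (ss := ss) (V₁ := volB 1) (v := volB a)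
    hK0.le hJj0 hAa0 hΛ0 (by positivity) hM₆0 hY0 hgap0 hss0 (volB_pos one_pos) hvola0
  have hξa : 2 * a ≤ 1 - t := by linarith
  have hcl' := clique_scale (r₁ := r₁) ha0 hcl
  have hc : CoreHyp (fun r => W * psi a₁ z₁ z₂ a t r + Dfam a₁ r) a₁ a t W k :=
    coreHyp_of hDm hD0 hD1 hDI ha₁0 h1 h2 h3 ht0 hξa hW0 hk (by rw [ha₁]; exact hcl')
  obtain ⟨φs, hφs⟩ : ∃ φs : ℝ → ℝ, φs = fun r => W * psi a₁ z₁ z₂ a t r + Dfam a₁ r := ⟨_, rfl⟩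
  rw [← hφs] at hc
  have hstab4 : 4 * (k : ℝ) * jj t J ≤ W := by
    have h4 : jj t J ≤ Jj := by
      rw [hJj, hjj, hjj]
      exact mul_le_mul_of_nonneg_right (by linarith) hcj0
    have h5 : 4 * (k : ℝ) * jj t J ≤ 4 * (k : ℝ) * Jj := mul_le_mul_of_nonneg_left h4 (by positivity)
    have h6 : 0 ≤ (k : ℝ) * Jj := by positivity
    linarith
  have hΦ := cap_phi hc hp (A := Aa) (Λ := Λ) (Tb := 6 * J) (M₆ := M₆) (X := X) (gap := gap)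
    (s := ss) (Y := Y) hAa0 hΛ0 (by positivity) hM₆0 hgap0 hX0 hgapX hss hss0 hY hW2 hW3
  have hCm := cap_max hc hp (A := Aa) (X := X) (Cmax := Cmax) hAa0 (by
    rw [hCmax]
    have : 0 ≤ 2 * A₀ * (q * (1 + 1 / 1000)) ^ 2 := by positivity
    linarith)
  obtain ⟨M', hM'⟩ : ∃ M', M' = max 0 (-(fe (fun r => 2 * φs r) (X + 1))) := ⟨_, rfl⟩
  have hM'0 : 0 ≤ M' := by rw [hM']; exact le_max_left _ _
  have hlowM' := low_M hc hX0
  rw [← hM'] at hlowM'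
  have hlowL := lowL_bound hc hp ht0 (U := U) (by rw [← hqdef]; exact hUt1)
  rw [← hqdef] at hlowL
  have hlowS := lowS_bound hc hp ht0 hι (fun i => a • z i) (L := L) (U := U)
    (fun i j => by
      have h4 : ‖a • z i - a • z j‖ ≤ a := by
        rw [← smul_sub, norm_smul, Real.norm_of_nonneg ha0.le]
        have := mul_le_mul_of_nonneg_left (hzd i j) ha0.le
        linarith
      linarith)
    (fun i j u v hij hu hv => by
      obtain ⟨h4, h5⟩ := dist_scale ha0 (hzdist i j hij) hu hv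
      rw [hφs]
      simp only
      rw [← hz₁] at h4
      rw [← hz₂] at h5
      rw [psi_eq_zero_mid h1 h3 h4 h5, hD1 _ (h1.le.trans h4)]
      ring)
    hL (by rw [← hqdef]; exact hUt2)
  rw [← hqdef] at hlowS
  have hup := up_bound hc hp (q := q) (ε := 1 / 1000) hpp hv1 hv2 hL hU1 hU2 hUL
  -- the last parameters
  obtain ⟨θb, hθb⟩ : ∃ θb, θb = min (1 / 4) (1 / (J * X ^ 2)) := ⟨_, rfl⟩
  have hθb0 : 0 < θb := by rw [hθb]; exact lt_min (by norm_num) (by positivity)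
  have hθb1 : θb ≤ 1 / 4 := by rw [hθb]; exact min_le_left _ _
  have hθb2 : θb * J * X ^ 2 ≤ 1 := by
    have h4 : θb ≤ 1 / (J * X ^ 2) := by rw [hθb]; exact min_le_right _ _
    rw [le_div_iff₀ (by positivity)] at h4
    calc θb * J * X ^ 2 = θb * (J * X ^ 2) := by ring
      _ ≤ 1 := h4
  have hC0 : 0 ≤ Cerr J X Cmax M' := Cerr_nonneg hJ0.le hX0.le hCmax0 hM'0
  obtain ⟨B, hB1000, hBX, hBC, hδ1, hδ2⟩ := choose_B (J := J) (X := X)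
    (θ := θb * (1 / 1000) * q ^ 2) (A₀ := A₀) (C := Cerr J X Cmax M') hJ0 hX0 (by positivity) hA₀0 hC0
  obtain ⟨βc, hβ1, hβ2, hkink⟩ := kink_of_params (φs := φs) (a₁ := a₁) (a := a) (ξ := t) (W := W)
    (k := k) (q := q) (L := L) (U := U) (J := J) (X := X) (Cmax := Cmax) (M₆ := M₆) (M' := M') (B := B)
    (θb := θb) hc hq0 hU0 (by rw [hJ, hA₀]) hJ0 hX hCmax0 (by
      rw [hCmax, ← hA₀]
      have : 0 ≤ Aa * X := by positivity
      linarith) hM₆0 hM'0 (by rw [← hJj]; exact hstab)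
    (by rw [← hJj, ← hΛ, ← hAa]; exact hΦ)
    (by rw [← hJj, ← hAa]; exact hCm) hlowM'
    (fun σ h4 h5 => by
      have := hlowS σ h4 h5
      rw [hM₆]
      linarith)
    (fun σ h4 h5 y hy _ => hup σ h4 h5 y hy) hlowL hlowS hnum hB1000 hBX hBC hθb0 hθb1 hθb2 hδ1
    (by rw [← hA₀]; exact hδ2)
  rw [hφs] at hkink
  rw [hφs] at hc
  exact ⟨a₁, z₁, z₂, a, t, W, J, B, k, p, q, βc, ha₁0, h1, h2, h3, by linarith, ht0, hJ0, hB1000, hc,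
    hstab4, hp0, hp, hq0, hqp, hpq, hβ1, hβ2, hkink⟩

/-- The main existence theorem for a family of singular parts. -/
theorem main (Dfam : ℝ → ℝ → ℝ)
    (hD : ∀ a₁, 0 < a₁ → Measurable (Dfam a₁) ∧ (∀ r, 0 ≤ Dfam a₁ r) ∧ (∀ r, a₁ ≤ r → Dfam a₁ r = 0) ∧
      ∫⁻ y : Pt, ENNReal.ofReal (Dfam a₁ ‖y‖) < ∞) :
    ∃ (a₁ z₁ z₂ a ξ W J B : ℝ) (k : ℕ) (p q βc : ℝ),
      0 < a₁ ∧ a₁ < z₁ ∧ z₁ ≤ z₂ ∧ z₂ < a ∧ a ≤ 1 ∧ 0 < ξ ∧ 0 < J ∧ 1000 ≤ B ∧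
      CoreHyp (fun r => W * psi a₁ z₁ z₂ a ξ r + Dfam a₁ r) a₁ a ξ W k ∧
      4 * k * jj ξ J ≤ W ∧
      0 < p ∧ Tendsto (fun L : ℝ => (packingNumber L : ℝ) / L ^ 3) atTop (𝓝 p) ∧
      0 < q ∧ q ≤ p ∧ p ≤ q * (1 + 1 / 1000) ∧ 15 / 16 < βc ∧ βc ≤ 17 / 16 ∧
      ∀ ρ, 8 / 5 * q ≤ ρ → ρ ≤ 9 / 5 * q →
      ∃ Dl Dr : ℝ,
        HasDerivWithinAt (fun β => -(fe (pot (fun r => W * psi a₁ z₁ z₂ a ξ r + Dfam a₁ r) (Rs B) β
          (β • cs B J)) ρ / β)) Dl (Set.Iio βc) βc ∧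
        HasDerivWithinAt (fun β => -(fe (pot (fun r => W * psi a₁ z₁ z₂ a ξ r + Dfam a₁ r) (Rs B) β
          (β • cs B J)) ρ / β)) Dr (Set.Ioi βc) βc ∧
        Dr < Dl := by
  obtain ⟨r₁, z₁₀, z₂₀, ι, k, z, hr₁, hrz, hzz, hz1, hι, hk, hcl, hzd, hzdist⟩ := exists_geo
  obtain ⟨p, hp0, hp⟩ := packing_limit
  obtain ⟨t, q, ht0, ht1, hqdef, hq0, hqp, hpq, hpp⟩ := numbers_t hp0
  have hK : (2 : ℝ) ≤ k := by exact_mod_cast hk
  obtain ⟨X, hX⟩ : ∃ X, X = (k : ℝ) * q * (1 + 2 * (1 / 1000)) := ⟨_, rfl⟩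
  have hX0 : 0 < X := by rw [hX]; positivity
  -- the constant `U`
  obtain ⟨U, hU⟩ : ∃ U, U = 1 + p / (1 - t) ^ 3 + Real.log 2 + |q * Real.log (volB (t / 2))|
      + |q * (Real.log (volB (t / 4)) + 3 * ((k : ℝ) - 1) * Real.log ι - Real.log (k.factorial))| :=
    ⟨_, rfl⟩
  have hlog2 : 0 < Real.log 2 := Real.log_pos (by norm_num)
  have hpt : 0 < p / (1 - t) ^ 3 := by
    have : 0 < 1 - t := by linarith
    positivity
  have hab1 := abs_nonneg (q * Real.log (volB (t / 2)))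
  have hab2 := abs_nonneg
    (q * (Real.log (volB (t / 4)) + 3 * ((k : ℝ) - 1) * Real.log ι - Real.log (k.factorial)))
  have hU0 : 0 ≤ U := by rw [hU]; linarith
  have hU1 : 1 + p / (1 - t) ^ 3 ≤ U := by rw [hU]; linarith
  have hU2 : Real.log 2 ≤ U := by rw [hU]; linarith
  have hUt1 : |q * Real.log (volB (t / 2))| ≤ U := by rw [hU]; linarith
  have hUt2 : |q * (Real.log (volB (t / 4)) + 3 * ((k : ℝ) - 1) * Real.log ι
      - Real.log (k.factorial))| ≤ U := by rw [hU]; linarith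
  -- the scale `a`
  obtain ⟨L₀, hL₀⟩ : ∃ L₀, L₀ = max 1 (max U (2000 * (k : ℝ) * ((2 + X) * U + 1) / q)) := ⟨_, rfl⟩
  have hL₀1 : 1 ≤ L₀ := by rw [hL₀]; exact le_max_left _ _
  have hL₀U : U ≤ L₀ := by rw [hL₀]; exact (le_max_left _ _).trans (le_max_right _ _)
  have hL₀Z : 2000 * (k : ℝ) * ((2 + X) * U + 1) / q ≤ L₀ := by
    rw [hL₀]; exact (le_max_right _ _).trans (le_max_right _ _)
  obtain ⟨a, ha0, ha1, ha2, haL, hv1⟩ := choose_a hL₀1 ht0 hι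
  obtain ⟨L, hL⟩ : ∃ L, L = -Real.log (volB a) := ⟨_, rfl⟩
  rw [← hL] at haL
  have hL0 : 0 < L := by linarith
  have hnum : ((2 + X) * U + 1) * (2 * (k : ℝ)) ≤ (1 / 1000) * (q * L) := by
    have h1 : 2000 * (k : ℝ) * ((2 + X) * U + 1) ≤ L₀ * q := by
      rwa [div_le_iff₀ hq0] at hL₀Z
    have h2 : L₀ * q ≤ L * q := mul_le_mul_of_nonneg_right haL hq0.le
    linarith
  exact main_aux Dfam hD hr₁ hrz hzz hz1 hι hk hcl hzd hzdist hp0 hp ht0 ht1 hqdef hq0 hqp hpq hpp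
    hX hU0 hU1 hU2 hUt1 hUt2 ha0 ha1 ha2 hL hv1 (hL₀U.trans haL) hL0 hnum

end Crest.Agent.Lib.GasFinal
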