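import Crest.Agent.Lib.GasFinal

/-!
# The two statements of row 149.
-/

set_option autoImplicit false

namespace Crest.Agent.Lib.GasFinal2

open MeasureTheory Filter Topology Crest.ProbabilityR.Continuum Crest.Agent.Lib.GasBasic
  Crest.Agent.Lib.GasKernel Crest.Agent.Lib.GasThermo Crest.Agent.Lib.GasLevel
  Crest.Agent.Lib.GasPacking Crest.Agent.Lib.GasCore Crest.Agent.Lib.GasThermoAbs
  Crest.Agent.Lib.GasPhys Crest.Agent.Lib.GasCoreBuild Crest.Agent.Lib.GasParams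
  Crest.Agent.Lib.GasFinal
open scoped ENNReal

lemma jj_smul (ξ β T : ℝ) : jj ξ (β * T) = β * jj ξ T := by
  unfold jj
  ring

/-- The potentials on the physical line are admissible. -/
lemma adm_line {φs : ℝ → ℝ} {a₁ a ξ W J B : ℝ} {k : ℕ} (hc : CoreHyp φs a₁ a ξ W k) (hB : 1000 ≤ B)
    (hJ : 0 < J) (hst : 4 * k * jj ξ J ≤ W) {β : ℝ} (hβ : 0 < β) :
    ∃ Φ, Adm (pot φs (Rs B) β (β • cs B J)) (2 * k * jj ξ (β * J)) Φ := by
  have hB1 : (1 : ℝ) ≤ B := by linarith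
  refine adm_pot hc (one_le_Rs hB1) hβ.le (mul_pos hβ hJ).le ?_ (fun j => ?_)
    ((summable_cs hB).mul_left β) ?_
  · rw [jj_smul]
    have := mul_le_mul_of_nonneg_left hst hβ.le
    nlinarith
  · have := cs_pos hB hJ j
    simp only [Pi.smul_apply, smul_eq_mul]
    positivity
  · have : ∑' j, (β • cs B J) j = β * ∑' j, cs B J j := by
      simpa using tsum_mul_left (a := β) (f := cs B J)
    rw [this, tsum_cs hB]

lemma energy_const_mul (β : ℝ) (φ : ℝ → ℝ) {N : ℕ} (x : Fin N → Pt) :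
    energy (fun r => β * φ r) x = β * energy φ x := by
  unfold energy
  rw [Finset.mul_sum]

lemma partitionFn_const_mul (β : ℝ) (φ : ℝ → ℝ) (L : ℝ) (N : ℕ) :
    partitionFn (fun r => β * φ r) L N 1 = partitionFn φ L N β := by
  unfold partitionFn
  congr 1
  refine setIntegral_congr_fun (measurableSet_box L N) fun x _ => ?_
  simp only [energy_const_mul, neg_mul, one_mul]

/-- Existence of the free energy at every positive density and temperature. -/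
lemma limit_fe {φs : ℝ → ℝ} {a₁ a ξ W J B : ℝ} {k : ℕ} (hc : CoreHyp φs a₁ a ξ W k) (hB : 1000 ≤ B)
    (hJ : 0 < J) (hst : 4 * k * jj ξ J ≤ W) {β ρ : ℝ} (hβ : 0 < β) (hρ : 0 < ρ) :
    Tendsto (fun L : ℝ => -(1 / (β * L ^ 3)) *
        Real.log (partitionFn (pot φs (Rs B) 1 (cs B J)) L ⌊ρ * L ^ 3⌋₊ β)) atTop
      (𝓝 (-(fe (pot φs (Rs B) β (β • cs B J)) ρ / β))) := by
  obtain ⟨Φ, hA⟩ := adm_line hc hB hJ hst hβ
  have h := (tendsto_partitionFn hA hρ).const_mul (-(1 / β))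
  have e : -(1 / β) * fe (pot φs (Rs B) β (β • cs B J)) ρ
      = -(fe (pot φs (Rs B) β (β • cs B J)) ρ / β) := by ring
  rw [e] at h
  refine h.congr fun L => ?_
  rw [pot_line, partitionFn_const_mul, one_div_mul_eq_div]
  have : 1 / (β * L ^ 3) = 1 / β * (1 / L ^ 3) := by
    rw [one_div_mul_one_div]
  rw [this]
  ring_nf

/-- Stability. -/
lemma stable_line {φs : ℝ → ℝ} {a₁ a ξ W J B : ℝ} {k : ℕ} (hc : CoreHyp φs a₁ a ξ W k) (hB : 1000 ≤ B)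
    (hJ : 0 < J) (hst : 4 * k * jj ξ J ≤ W) {N : ℕ} (x : Fin N → Pt) :
    -(2 * k * jj ξ J) * N ≤ energy (pot φs (Rs B) 1 (cs B J)) x := by
  have hB1 : (1 : ℝ) ≤ B := by linarith
  have h := superstable hc (one_le_Rs hB1) (σ := 1) (T := J) zero_le_one hJ.le (by linarith)
    (τ := cs B J) (fun j => (cs_pos hB hJ j).le) (summable_cs hB) (tsum_cs hB).le x
  rw [energy_eq_pairE]
  have h2 := pairE_core_nonneg hc x
  linarith

section

variable {φs : ℝ → ℝ} {a₁ z₁ z₂ a ξ W : ℝ}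

/-- The core vanishes beyond distance one. -/
lemma core_far {D : ℝ → ℝ} (hD : ∀ r, a₁ ≤ r → D r = 0) (h1 : a₁ < z₁) (h2 : z₁ ≤ z₂) (h3 : z₂ < a)
    (h4 : a ≤ 1) (hξ : 0 < ξ) {r : ℝ} (hr : 1 ≤ r) :
    W * psi a₁ z₁ z₂ a ξ r + D r = 0 := by
  have hz : z₁ ≤ 1 := by linarith
  rw [psi_eq_zero_far h1 hz hξ hr, hD r (by linarith)]
  ring

/-- The potential beyond distance one. -/
lemma pot_far {D : ℝ → ℝ} {R τ : ℕ → ℝ} (hD : ∀ r, a₁ ≤ r → D r = 0) (h1 : a₁ < z₁) (h2 : z₁ ≤ z₂)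
    (h3 : z₂ < a) (h4 : a ≤ 1) (hξ : 0 < ξ) {r : ℝ} (hr : 1 ≤ r) :
    pot (fun r => W * psi a₁ z₁ z₂ a ξ r + D r) R 1 τ r = -KSum R τ r := by
  unfold pot
  simp only
  rw [core_far hD h1 h2 h3 h4 hξ hr]
  ring

end

/-- Statement S0209. -/
theorem S0209_main :
    ∃ φ : ℝ → ℝ, Continuous φ ∧ (∃ M : ℝ, ∀ r : ℝ, |φ r| ≤ M) ∧
      (∃ B : ℝ, ∀ (N : ℕ) (x : Fin N → Crest.ProbabilityR.Continuum.Pt), -B * N ≤ Crest.ProbabilityR.Continuum.energy φ x) ∧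
      (∃ C : ℝ, ∀ r : ℝ, 1 ≤ r → |φ r| ≤ C * r ^ (-(3 + 1 / 32 : ℝ))) ∧
      ∃ p η βc : ℝ, 0 < p ∧
        Filter.Tendsto (fun L : ℝ => (Crest.ProbabilityR.Continuum.packingNumber L : ℝ) / L ^ 3)
          Filter.atTop (nhds p) ∧
        0 < η ∧ η ≤ 5 * p / 3 ∧ 7 / 8 ≤ βc ∧ βc ≤ 9 / 8 ∧
        ∃ f : ℝ → ℝ → ℝ,
          (∀ ρ : ℝ, 5 * p / 3 - η < ρ → ρ < 5 * p / 3 + η → ∀ β : ℝ, 0 < β →
            Filter.Tendsto (fun L : ℝ => -(1 / (β * L ^ 3)) *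
                Real.log (Crest.ProbabilityR.Continuum.partitionFn φ L ⌊ρ * L ^ 3⌋₊ β))
              Filter.atTop (nhds (f β ρ))) ∧
          (∀ ρ : ℝ, 5 * p / 3 - η < ρ → ρ < 5 * p / 3 + η → ∃ Dl Dr : ℝ,
            HasDerivWithinAt (fun β => f β ρ) Dl (Set.Iio βc) βc ∧
            HasDerivWithinAt (fun β => f β ρ) Dr (Set.Ioi βc) βc ∧ Dr < Dl) := by
  obtain ⟨a₁, z₁, z₂, a, ξ, W, J, B, k, p, q, βc, ha₁, h1, h2, h3, h4, hξ, hJ, hB, hc, hst, hp0, hp,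
    hq0, hqp, hpq, hβ1, hβ2, hkink⟩ := main (fun _ _ => 0) (fun a₁ _ => by
      refine ⟨measurable_const, fun _ => le_rfl, fun _ _ => rfl, ?_⟩
      simp)
  have hB1 : (1 : ℝ) ≤ B := by linarith
  have hW := hc.hW
  have hV : 0 < volB 1 := volB_pos one_pos
  have hKpos : ∀ r, 0 ≤ KSum (Rs B) (cs B J) r := KSum_nonneg' hB hJ
  have hKle : ∀ r, KSum (Rs B) (cs B J) r ≤ J / volB 1 := KSum_le hB hJ
  set φs : ℝ → ℝ := fun r => W * psi a₁ z₁ z₂ a ξ r + 0 with hφs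
  refine ⟨pot φs (Rs B) 1 (cs B J), ?_, ⟨W + J / volB 1, fun r => ?_⟩, ⟨2 * k * jj ξ J, fun N x => ?_⟩,
    ?_, ?_⟩
  · unfold pot
    exact (continuous_const.mul ((continuous_const.mul (continuous_psi _ _ _ _ _)).add
      continuous_const)).sub (continuous_KSum (one_le_Rs hB1) (fun j => (cs_pos hB hJ j).le)
        (summable_cs hB))
  · have h5 := psi_nonneg a₁ z₁ z₂ a ξ r
    have h6 := psi_le_one a₁ z₁ z₂ a ξ r
    have h7 := hKpos r
    have h8 := hKle r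
    have h9 : W * psi a₁ z₁ z₂ a ξ r ≤ W * 1 := mul_le_mul_of_nonneg_left h6 hW.le
    have h10 : 0 ≤ W * psi a₁ z₁ z₂ a ξ r := by positivity
    have h11 : 0 ≤ J / volB 1 := by positivity
    rw [abs_le]
    unfold pot
    simp only [hφs]
    constructor <;> linarith
  · exact stable_line hc hB hJ hst x
  · obtain ⟨C, hC0, hC⟩ := KSum_decay hB hJ
    refine ⟨C, fun r hr => ?_⟩
    rw [hφs, pot_far (fun _ _ => rfl) h1 h2 h3 h4 hξ hr, abs_neg, abs_of_nonneg (hKpos r)]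
    exact hC r hr
  · refine ⟨p, q / 20, βc, hp0, hp, by positivity, ?_, by linarith, by linarith,
      fun β ρ => -(fe (pot φs (Rs B) β (β • cs B J)) ρ / β), ?_, ?_⟩
    · linarith
    · intro ρ hρ1 _ β hβ
      have hρ0 : 0 < ρ := by linarith
      exact limit_fe hc hB hJ hst hβ hρ0
    · intro ρ hρ1 hρ2
      exact hkink ρ (by linarith) (by linarith)

/-- Statement S0210. -/
theorem S0210_main :
    ∃ φ : ℝ → ℝ, Measurable φ ∧
      (∀ a b : ℝ, 0 < a → a ≤ b → ∃ M : ℝ, ∀ r : ℝ, a ≤ r → r ≤ b → |φ r| ≤ M) ∧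
      Filter.Tendsto φ (nhdsWithin 0 (Set.Ioi 0)) Filter.atTop ∧
      (∃ r₁ r₂ a : ℝ, 0 < r₁ ∧ r₁ < r₂ ∧ 0 < a ∧ ∀ r : ℝ, r₁ ≤ r → r ≤ r₂ → φ r ≤ -a) ∧
      (∃ R : ℝ, 0 < R ∧ MeasureTheory.IntegrableOn (fun r : ℝ => r ^ 2 * |φ r|) (Set.Ioi R)) ∧
      Filter.Tendsto (fun r : ℝ => r ^ 3 * φ r) Filter.atTop (nhds 0) ∧
      (∃ B : ℝ, ∀ (N : ℕ) (x : Fin N → Crest.ProbabilityR.Continuum.Pt), Function.Injective x →
        -B * N ≤ Crest.ProbabilityR.Continuum.energy φ x) ∧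
      ∃ f : ℝ → ℝ → ℝ,
        (∀ ρ : ℝ, 0 < ρ → ∀ β : ℝ, 0 < β →
          Filter.Tendsto (fun L : ℝ => -(1 / (β * L ^ 3)) *
              Real.log (Crest.ProbabilityR.Continuum.partitionFn φ L ⌊ρ * L ^ 3⌋₊ β))
            Filter.atTop (nhds (f β ρ))) ∧
        ∃ ρ₁ ρ₂ βc : ℝ, 0 ≤ ρ₁ ∧ ρ₁ < ρ₂ ∧ 1 / 2 < βc ∧ βc < 3 / 2 ∧
          ∀ ρ : ℝ, ρ₁ < ρ → ρ < ρ₂ → ∃ Dl Dr : ℝ,
            HasDerivWithinAt (fun β => f β ρ) Dl (Set.Iio βc) βc ∧
            HasDerivWithinAt (fun β => f β ρ) Dr (Set.Ioi βc) βc ∧ Dr < Dl := by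
  obtain ⟨a₁, z₁, z₂, a, ξ, W, J, B, k, p, q, βc, ha₁, h1, h2, h3, h4, hξ, hJ, hB, hc, hst, hp0, hp,
    hq0, hqp, hpq, hβ1, hβ2, hkink⟩ := main Dsing (fun a₁ ha₁ =>
      ⟨measurable_Dsing a₁, Dsing_nonneg a₁, fun _ hr => Dsing_eq_zero ha₁ hr, lintegral_Dsing ha₁⟩)
  have hB1 : (1 : ℝ) ≤ B := by linarith
  have hW := hc.hW
  have hV : 0 < volB 1 := volB_pos one_pos
  have hKpos : ∀ r, 0 ≤ KSum (Rs B) (cs B J) r := KSum_nonneg' hB hJ
  have hKle : ∀ r, KSum (Rs B) (cs B J) r ≤ J / volB 1 := KSum_le hB hJ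
  set φs : ℝ → ℝ := fun r => W * psi a₁ z₁ z₂ a ξ r + Dsing a₁ r with hφs
  have hfar : ∀ r, 1 ≤ r → pot φs (Rs B) 1 (cs B J) r = -KSum (Rs B) (cs B J) r := fun r hr => by
    rw [hφs]
    exact pot_far (fun _ hr => Dsing_eq_zero ha₁ hr) h1 h2 h3 h4 hξ hr
  obtain ⟨Φ, hA⟩ := adm_line hc hB hJ hst (β := 1) one_pos
  have hmeas : Measurable (pot φs (Rs B) 1 (cs B J)) := by
    have := hA.meas
    rwa [one_smul] at this
  obtain ⟨C, hC0, hC⟩ := KSum_decay hB hJ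
  have hdec : ∀ r, 1 ≤ r → |pot φs (Rs B) 1 (cs B J) r| ≤ C * r ^ (-(3 + 1 / 32 : ℝ)) := fun r hr => by
    rw [hfar r hr, abs_neg, abs_of_nonneg (hKpos r)]
    exact hC r hr
  refine ⟨pot φs (Rs B) 1 (cs B J), hmeas, ?_, ?_, ?_, ?_, ?_, ⟨2 * k * jj ξ J, fun N x _ => ?_⟩, ?_⟩
  · -- locally bounded
    intro s t hs _
    refine ⟨W + 1 / s + J / volB 1, fun r hr1 _ => ?_⟩
    have hr0 : 0 < r := by linarith
    have h5 := psi_nonneg a₁ z₁ z₂ a ξ r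
    have h6 := psi_le_one a₁ z₁ z₂ a ξ r
    have h7 := hKpos r
    have h8 := hKle r
    have h9 : W * psi a₁ z₁ z₂ a ξ r ≤ W * 1 := mul_le_mul_of_nonneg_left h6 hW.le
    have h10 : 0 ≤ W * psi a₁ z₁ z₂ a ξ r := by positivity
    have h11 : 0 ≤ J / volB 1 := by positivity
    have h12 := Dsing_le ha₁ hr0
    have h13 : 1 / r ≤ 1 / s := one_div_le_one_div_of_le hs hr1
    have h14 := Dsing_nonneg a₁ r
    have h15 : 0 ≤ 1 / s := by positivity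
    rw [abs_le]
    unfold pot
    simp only [hφs]
    constructor <;> linarith
  · -- divergence at the origin
    have h5 := (tendsto_Dsing a₁).atTop_add (tendsto_const_nhds (x := -(J / volB 1)))
    refine tendsto_atTop_mono (fun r => ?_) h5
    have h6 := psi_nonneg a₁ z₁ z₂ a ξ r
    have h7 := hKle r
    have h10 : 0 ≤ W * psi a₁ z₁ z₂ a ξ r := by positivity
    unfold pot
    simp only [hφs]
    linarith
  · -- attraction somewhere
    obtain ⟨b, hb, hb2⟩ := KSum_pos hB hJ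
    refine ⟨1, 2, b, one_pos, by norm_num, hb, fun r hr1 hr2 => ?_⟩
    rw [hfar r hr1]
    have := hb2 r hr1 hr2
    linarith
  · -- integrability
    refine ⟨1, one_pos, ?_⟩
    have hint : IntegrableOn (fun r : ℝ => C * r ^ (-(1 + 1 / 32 : ℝ))) (Set.Ioi 1) :=
      (integrableOn_Ioi_rpow_of_lt (by norm_num) one_pos).const_mul C
    refine hint.mono' ?_ ?_
    · exact ((measurable_id.pow_const 2).mul hmeas.abs).aestronglyMeasurable
    · refine (ae_restrict_iff' measurableSet_Ioi).mpr (Eventually.of_forall fun r hr => ?_)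
      have hr1 : (1 : ℝ) < r := hr
      have hr0 : 0 < r := by linarith
      have h5 := hdec r hr1.le
      have h6 : 0 ≤ r ^ 2 * |pot φs (Rs B) 1 (cs B J) r| := by positivity
      rw [Real.norm_of_nonneg h6]
      have e : r ^ (-(1 + 1 / 32 : ℝ)) = r ^ 2 * r ^ (-(3 + 1 / 32 : ℝ)) := by
        rw [← Real.rpow_natCast, ← Real.rpow_add hr0]
        norm_num
      rw [e]
      calc r ^ 2 * |pot φs (Rs B) 1 (cs B J) r| ≤ r ^ 2 * (C * r ^ (-(3 + 1 / 32 : ℝ))) :=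
            mul_le_mul_of_nonneg_left h5 (by positivity)
        _ = _ := by ring
  · -- decay
    have hlim : Tendsto (fun r : ℝ => C * r ^ (-(1 / 32 : ℝ))) atTop (𝓝 (C * 0)) :=
      (tendsto_rpow_neg_atTop (by norm_num)).const_mul C
    rw [mul_zero] at hlim
    refine squeeze_zero_norm' ?_ hlim
    filter_upwards [eventually_ge_atTop (1 : ℝ)] with r hr
    have hr0 : 0 < r := by linarith
    have h5 := hdec r hr
    rw [norm_mul, Real.norm_eq_abs, Real.norm_eq_abs, abs_of_pos (by positivity : 0 < r ^ 3)]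
    have e : r ^ (-(1 / 32 : ℝ)) = r ^ 3 * r ^ (-(3 + 1 / 32 : ℝ)) := by
      rw [← Real.rpow_natCast, ← Real.rpow_add hr0]
      norm_num
    rw [e]
    calc r ^ 3 * |pot φs (Rs B) 1 (cs B J) r| ≤ r ^ 3 * (C * r ^ (-(3 + 1 / 32 : ℝ))) :=
          mul_le_mul_of_nonneg_left h5 (by positivity)
      _ = _ := by ring
  · exact stable_line hc hB hJ hst x
  · refine ⟨fun β ρ => -(fe (pot φs (Rs B) β (β • cs B J)) ρ / β), ?_, ?_⟩
    · intro ρ hρ β hβ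
      exact limit_fe hc hB hJ hst hβ hρ
    · refine ⟨8 / 5 * q, 9 / 5 * q, βc, by positivity, by linarith, by linarith, by linarith,
        fun ρ hρ1 hρ2 => hkink ρ hρ1.le hρ2.le⟩

end Crest.Agent.Lib.GasFinal2
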