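import Mathlib

/-!
# Least concave majorants on `[0,∞)` (row 149)
-/

set_option autoImplicit false

namespace Crest.Agent.Lib.GasHull

open Set

/-- Concave majorant of `f` on `[0,∞)`. -/
def IsCM (f g : ℝ → ℝ) : Prop := ConcaveOn ℝ (Ici 0) g ∧ ∀ t, 0 ≤ t → f t ≤ g t

/-- Least concave majorant of `f` on `[0,∞)`. -/
noncomputable def Hull (f : ℝ → ℝ) (x : ℝ) : ℝ := sInf {y | ∃ g, IsCM f g ∧ y = g x}

/-- `f` has a concave majorant (for instance a constant). -/
def HasCM (f : ℝ → ℝ) : Prop := ∃ g, IsCM f g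

lemma isCM_const {f : ℝ → ℝ} {M : ℝ} (h : ∀ t, 0 ≤ t → f t ≤ M) : IsCM f (fun _ => M) :=
  ⟨concaveOn_const M (convex_Ici 0), h⟩

lemma set_bdd (f : ℝ → ℝ) {x : ℝ} (hx : 0 ≤ x) : BddBelow {y | ∃ g, IsCM f g ∧ y = g x} :=
  ⟨f x, by rintro y ⟨g, hg, rfl⟩; exact hg.2 x hx⟩

lemma set_nonempty {f : ℝ → ℝ} (hf : HasCM f) (x : ℝ) : {y | ∃ g, IsCM f g ∧ y = g x}.Nonempty := by
  obtain ⟨g, hg⟩ := hf
  exact ⟨g x, g, hg, rfl⟩

/-- Minimality. -/
lemma Hull_le {f g : ℝ → ℝ} (hg : IsCM f g) {x : ℝ} (hx : 0 ≤ x) : Hull f x ≤ g x :=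
  csInf_le (set_bdd f hx) ⟨g, hg, rfl⟩

/-- Majorant. -/
lemma le_Hull {f : ℝ → ℝ} (hf : HasCM f) {x : ℝ} (hx : 0 ≤ x) : f x ≤ Hull f x :=
  le_csInf (set_nonempty hf x) (by rintro y ⟨g, hg, rfl⟩; exact hg.2 x hx)

/-- The hull is concave. -/
lemma concaveOn_Hull {f : ℝ → ℝ} (hf : HasCM f) : ConcaveOn ℝ (Ici 0) (Hull f) := by
  refine ⟨convex_Ici 0, ?_⟩
  intro x hx y hy a b ha hb hab
  have hx' : (0 : ℝ) ≤ x := hx
  have hy' : (0 : ℝ) ≤ y := hy
  have hz : 0 ≤ a • x + b • y := by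
    simp only [smul_eq_mul]; positivity
  refine le_csInf (set_nonempty hf _) ?_
  rintro w ⟨g, hg, rfl⟩
  have h1 := Hull_le hg hx'
  have h2 := Hull_le hg hy'
  have h3 := hg.1.2 hx hy ha hb hab
  simp only [smul_eq_mul] at h3 ⊢
  nlinarith [mul_le_mul_of_nonneg_left h1 ha, mul_le_mul_of_nonneg_left h2 hb]

lemma isCM_Hull {f : ℝ → ℝ} (hf : HasCM f) : IsCM f (Hull f) :=
  ⟨concaveOn_Hull hf, fun _ ht => le_Hull hf ht⟩

/-- Monotonicity in the function. -/
lemma Hull_mono {f f' : ℝ → ℝ} (hf' : HasCM f') (h : ∀ t, 0 ≤ t → f t ≤ f' t) {x : ℝ} (hx : 0 ≤ x) :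
    Hull f x ≤ Hull f' x :=
  Hull_le (g := Hull f') ⟨concaveOn_Hull hf', fun t ht => (h t ht).trans (le_Hull hf' ht)⟩ hx

/-- Chord property of concave functions, in slope-free form. -/
lemma ConcaveOn_three {h : ℝ → ℝ} (hh : ConcaveOn ℝ (Ici 0) h) {x y z : ℝ} (hx : 0 ≤ x) (hxy : x < y)
    (hyz : y < z) : (z - y) * h x + (y - x) * h z ≤ (z - x) * h y := by
  have hzx : 0 < z - x := by linarith
  have hz : z ∈ Ici (0 : ℝ) := by simp only [mem_Ici]; linarith
  have h1 : 0 ≤ (z - y) / (z - x) := div_nonneg (by linarith) hzx.le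
  have h2 : 0 ≤ (y - x) / (z - x) := div_nonneg (by linarith) hzx.le
  have := hh.2 hx hz h1 h2 (by field_simp; ring)
  have hy : ((z - y) / (z - x)) • x + ((y - x) / (z - x)) • z = y := by
    simp only [smul_eq_mul]; field_simp; ring
  rw [hy] at this
  simp only [smul_eq_mul] at this
  have h3 := mul_le_mul_of_nonneg_left this hzx.le
  have e : (z - x) * ((z - y) / (z - x) * h x + (y - x) / (z - x) * h z)
      = (z - y) * h x + (y - x) * h z := by field_simp
  rw [e] at h3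
  exact h3

lemma concaveOn_affine (m c : ℝ) : ConcaveOn ℝ (Ici 0) (fun t => m * t + c) := by
  refine ⟨convex_Ici 0, fun x _ y _ a b _ _ hab => ?_⟩
  simp only [smul_eq_mul]
  have : b = 1 - a := by linarith
  subst this
  apply le_of_eq
  ring

/-- The shaving lemma: if `f` stays below `Hull f` by a definite margin on `[p,q]`, the hull
is below (hence equal to) its chord on `[p,q]`. -/
theorem Hull_le_chord {f : ℝ → ℝ} {M : ℝ} (hfM : ∀ t, 0 ≤ t → f t ≤ M) {p q m : ℝ} (hp : 0 ≤ p)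
    (hpq : p < q) (hm : 0 < m)
    (hmargin : ∀ x, p ≤ x → x ≤ q → f x + m ≤ Hull f x) {x : ℝ} (hx1 : p ≤ x) (hx2 : x ≤ q) :
    (q - p) * Hull f x ≤ (q - x) * Hull f p + (x - p) * Hull f q := by
  classical
  have hf : HasCM f := ⟨_, isCM_const hfM⟩
  set h := Hull f with hh
  have hconc : ConcaveOn ℝ (Ici 0) h := concaveOn_Hull hf
  have hqp : 0 < q - p := by linarith
  have hleM : ∀ t, 0 ≤ t → h t ≤ M := fun t ht => Hull_le (isCM_const hfM) ht
  -- the chord
  set sl := (h q - h p) / (q - p) with hs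
  set c₀ := h p - sl * p with hc₀
  let ℓ : ℝ → ℝ := fun t => sl * t + c₀
  have hℓp : ℓ p = h p := by simp only [ℓ, hc₀]; ring
  have hℓq : ℓ q = h q := by simp only [ℓ, hs, hc₀]; field_simp; ring
  -- outside `[p,q]` the hull is below the chord line
  have hout : ∀ t, 0 ≤ t → (t < p ∨ q < t) → h t ≤ ℓ t := by
    intro t ht hcase
    rcases hcase with htp | hqt
    · have h3 := ConcaveOn_three hconc ht htp hpq
      have e1 : (q - t) * ℓ p = (q - p) * ℓ t + (p - t) * ℓ q := by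
        simp only [ℓ]; ring
      rw [← hℓp, ← hℓq] at h3
      nlinarith
    · have h3 := ConcaveOn_three hconc hp hpq hqt
      have e1 : (t - p) * ℓ q = (t - q) * ℓ p + (q - p) * ℓ t := by
        simp only [ℓ]; ring
      rw [← hℓp, ← hℓq] at h3
      nlinarith
  -- boundedness above of `h - ℓ` on `[p,q]`
  have hbdd : BddAbove ((fun t => h t - ℓ t) '' Icc p q) := by
    refine ⟨M + |sl| * q + |c₀|, ?_⟩
    rintro _ ⟨t, ⟨ht1, ht2⟩, rfl⟩
    have ht0 : 0 ≤ t := hp.trans ht1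
    have h1 := hleM t ht0
    have h2 : -(sl * t) ≤ |sl| * q := by
      have : |sl * t| ≤ |sl| * q := by
        rw [abs_mul, abs_of_nonneg ht0]
        exact mul_le_mul_of_nonneg_left ht2 (abs_nonneg _)
      linarith [neg_abs_le (sl * t)]
    have h3 := neg_abs_le c₀
    simp only [ℓ]
    linarith
  have hne : ((fun t => h t - ℓ t) '' Icc p q).Nonempty := ⟨_, p, ⟨le_rfl, hpq.le⟩, rfl⟩
  set S := sSup ((fun t => h t - ℓ t) '' Icc p q) with hS
  have hle_S : ∀ t, p ≤ t → t ≤ q → h t - ℓ t ≤ S := fun t h1 h2 =>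
    le_csSup hbdd ⟨t, ⟨h1, h2⟩, rfl⟩
  -- main claim: `S ≤ 0`
  have hS0 : S ≤ 0 := by
    by_contra hcon
    push Not at hcon
    set d := min m (S / 2) with hd
    have hdpos : 0 < d := lt_min hm (by linarith)
    have hdm : d ≤ m := min_le_left _ _
    have hdS : d ≤ S / 2 := min_le_right _ _
    set s := S - d with hs'
    have hspos : 0 < s := by simp only [hs']; linarith
    let g : ℝ → ℝ := fun t => h t ⊓ (sl * t + (c₀ + s))
    have hgc : ConcaveOn ℝ (Ici 0) g := hconc.inf (concaveOn_affine sl (c₀ + s))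
    have hgm : IsCM f g := by
      refine ⟨hgc, fun t ht => ?_⟩
      refine le_inf (le_Hull hf ht) ?_
      by_cases hcase : t < p ∨ q < t
      · have := hout t ht hcase
        have h5 := le_Hull hf ht
        simp only [ℓ] at this
        rw [← hh] at h5
        linarith
      · push Not at hcase
        have h6 := hle_S t hcase.1 hcase.2
        have h7 := hmargin t hcase.1 hcase.2
        simp only [ℓ] at h6
        linarith
    have hle : ∀ t, p ≤ t → t ≤ q → h t - ℓ t ≤ s := by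
      intro t h1 h2
      have := Hull_le hgm (hp.trans h1)
      have h3 : g t ≤ sl * t + (c₀ + s) := inf_le_right
      rw [← hh] at this
      simp only [ℓ]
      linarith
    have : S ≤ s := csSup_le hne (by rintro _ ⟨t, ⟨h1, h2⟩, rfl⟩; exact hle t h1 h2)
    simp only [hs'] at this
    linarith
  have hfin : h x - ℓ x ≤ 0 := (hle_S x hx1 hx2).trans hS0
  have e1 : (q - p) * ℓ x = (q - x) * ℓ p + (x - p) * ℓ q := by
    simp only [ℓ]; ring
  rw [hℓp, hℓq] at e1
  nlinarith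

/-- Existence of a supporting line of a concave function at an interior point. -/
theorem exists_support {g : ℝ → ℝ} (hg : ConcaveOn ℝ (Ici 0) g) {z : ℝ} (hz : 0 < z) :
    ∃ m c : ℝ, (∀ y, 0 ≤ y → g y ≤ m * y + c) ∧ g z = m * z + c := by
  classical
  -- slopes to the right of `z`
  let Sl : Set ℝ := (fun y => (g y - g z) / (y - z)) '' Ioi z
  have hne : Sl.Nonempty := ⟨_, z + 1, by simp, rfl⟩
  have hbdd : BddAbove Sl := by
    refine ⟨(g z - g 0) / z, ?_⟩
    rintro _ ⟨y, hy, rfl⟩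
    have hy' : z < y := hy
    have h3 := ConcaveOn_three hg le_rfl hz hy'
    rw [div_le_div_iff₀ (by linarith) hz]
    nlinarith
  set m := sSup Sl with hm
  have hright : ∀ y, z < y → (g y - g z) / (y - z) ≤ m := fun y hy => le_csSup hbdd ⟨y, hy, rfl⟩
  refine ⟨m, g z - m * z, ?_, by ring⟩
  intro y hy
  rcases lt_trichotomy y z with hyz | rfl | hzy
  · -- left of `z`: `m` is at most the slope from `y` to `z`
    have hm_le : m ≤ (g z - g y) / (z - y) := by
      refine csSup_le hne ?_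
      rintro _ ⟨w, hw, rfl⟩
      have hw' : z < w := hw
      have h3 := ConcaveOn_three hg hy hyz hw'
      rw [div_le_div_iff₀ (by linarith) (by linarith)]
      nlinarith
    rw [le_div_iff₀ (by linarith)] at hm_le
    nlinarith
  · simp
  · have := hright y hzy
    rw [div_le_iff₀ (by linarith)] at this
    nlinarith

/-- Dilation estimate: for concave `g` and `t` close to one, `g(tρ)/t ≤ g(ρ) + error`. -/
theorem dilate_le {g : ℝ → ℝ} (hg : ConcaveOn ℝ (Ici 0) g) {t ρ X M₅ M' : ℝ} (ht0 : 0 < t) (ht1 : t < 1)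
    (hρ : 0 < ρ) (hρX : ρ ≤ X) (hsmall : (1 - t) * (1 + X) ≤ 1 / 2) (hM₅ : 0 ≤ M₅) (hM' : 0 ≤ M')
    (hgρ : g ρ ≤ M₅) (hgX : -M' ≤ g (X + 1)) :
    g (t * ρ) / t ≤ g ρ + 2 * (1 - t) * (1 + X) * (M₅ + M') := by
  have hX : 0 < X := hρ.trans_le hρX
  have htρ : 0 < t * ρ := by positivity
  have hlt : t * ρ < ρ := by nlinarith
  have h3 := ConcaveOn_three hg htρ.le hlt (show ρ < X + 1 by linarith)
  -- abbreviations
  set a := X + 1 - ρ with ha
  set b := ρ - t * ρ with hb
  set c := X + 1 - t * ρ with hc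
  have hapos : 0 < a := by simp only [ha]; linarith
  have hbpos : 0 < b := by simp only [hb]; linarith
  have hcab : c = a + b := by simp only [ha, hb, hc]; ring
  have hcge : 1 ≤ c := by simp only [hc]; nlinarith
  have hb_le : b ≤ (1 - t) * X := by
    simp only [hb]; nlinarith
  have key : a * g (t * ρ) ≤ c * g ρ + b * M' := by
    nlinarith
  -- lower bound for `t * a / c`
  have hac : 1 - a / c = b / c := by
    rw [hcab]; field_simp; ring
  have hbc : b / c ≤ (1 - t) * X := by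
    rw [div_le_iff₀ (by linarith)]
    have : 0 ≤ (1 - t) * X := by apply mul_nonneg <;> linarith
    nlinarith
  have hmu : 1 - (1 - t) * X ≤ a / c := by linarith
  have htmu : 1 / 2 ≤ t * (a / c) := by nlinarith
  have hmu0 : 0 < a / c := by positivity
  have hg1 : g (t * ρ) ≤ (g ρ + (b / c) * M') / (a / c) := by
    rw [le_div_iff₀ hmu0]
    have : g (t * ρ) * (a / c) = (a * g (t * ρ)) / c := by field_simp
    rw [this, div_le_iff₀ (by linarith)]
    have e : (g ρ + b / c * M') * c = c * g ρ + b * M' := by field_simp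
    rw [e]
    exact key
  set μ := a / c with hμ
  have ht_mu_pos : 0 < t * μ := by linarith
  have hg2 : g (t * ρ) / t ≤ (g ρ + (b / c) * M') / (t * μ) := by
    rw [div_le_iff₀ ht0]
    calc g (t * ρ) ≤ (g ρ + (b / c) * M') / μ := hg1
      _ = (g ρ + b / c * M') / (t * μ) * t := by field_simp
  -- final estimate
  have h1mtm : 1 - t * μ ≤ (1 - t) * (1 + X) := by nlinarith
  have h1mtm0 : 0 ≤ 1 - t * μ := by
    have hμ1 : μ ≤ 1 := by
      simp only [hμ]; rw [div_le_one (by linarith)]; linarith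
    nlinarith
  have hinv : 1 / (t * μ) ≤ 2 := by
    rw [div_le_iff₀ ht_mu_pos]; linarith
  have hgoal : (g ρ + (b / c) * M') / (t * μ) - g ρ
      = g ρ * ((1 - t * μ) / (t * μ)) + (b / c) * M' * (1 / (t * μ)) := by
    field_simp
    ring
  have hbound1 : g ρ * ((1 - t * μ) / (t * μ)) ≤ 2 * (1 - t) * (1 + X) * M₅ := by
    have h0 : 0 ≤ (1 - t * μ) / (t * μ) := div_nonneg h1mtm0 ht_mu_pos.le
    have h1 : (1 - t * μ) / (t * μ) ≤ 2 * ((1 - t) * (1 + X)) := by
      rw [div_le_iff₀ ht_mu_pos]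
      nlinarith [mul_nonneg (mul_nonneg (sub_nonneg.mpr ht1.le) (by linarith : (0:ℝ) ≤ 1 + X)) ht_mu_pos.le]
    calc g ρ * ((1 - t * μ) / (t * μ)) ≤ M₅ * ((1 - t * μ) / (t * μ)) :=
          mul_le_mul_of_nonneg_right hgρ h0
      _ ≤ M₅ * (2 * ((1 - t) * (1 + X))) := mul_le_mul_of_nonneg_left h1 hM₅
      _ = _ := by ring
  have hbound2 : (b / c) * M' * (1 / (t * μ)) ≤ 2 * (1 - t) * (1 + X) * M' := by
    have h0 : 0 ≤ 1 / (t * μ) := by positivity
    calc (b / c) * M' * (1 / (t * μ)) ≤ ((1 - t) * X) * M' * 2 := by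
          apply mul_le_mul _ hinv h0 (by positivity)
          exact mul_le_mul_of_nonneg_right hbc hM'
      _ ≤ _ := by
          have : 0 ≤ (1 - t) * M' := by apply mul_nonneg <;> linarith
          nlinarith
  have : (g ρ + (b / c) * M') / (t * μ) ≤ g ρ + 2 * (1 - t) * (1 + X) * (M₅ + M') := by
    have := hgoal
    nlinarith
  exact hg2.trans this

end Crest.Agent.Lib.GasHull
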