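import Crest.Agent.Lib.GasSys

/-!
# The kink of the free energy at the triple point (row 149): pure convex analysis.
-/

set_option autoImplicit false

namespace Crest.Agent.Lib.GasKink

open Set Filter Topology Crest.Agent.Lib.GasHull Crest.Agent.Lib.GasSys Crest.Agent.Lib.GasSys.Sys

section QB

variable {E : Type*} [AddCommGroup E] [Module ℝ E]

/-- Directional upper bound for small steps. -/
def QB (D : Set E) (f : E → ℝ) (X u : E) (V : ℝ) : Prop :=
  ∃ h₀ : ℝ, 0 < h₀ ∧ ∀ h : ℝ, 0 < h → h < h₀ → X + h • u ∈ D ∧ f (X + h • u) ≤ f X + h * V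

lemma QB.of_point {D : Set E} {f : E → ℝ} (hf : ConvexOn ℝ D f) {X u : E} {V s : ℝ} (hX : X ∈ D)
    (hs : 0 < s) (hY : X + s • u ∈ D) (hV : f (X + s • u) ≤ f X + s * V) : QB D f X u V := by
  refine ⟨s, hs, fun h hh0 hhs => ?_⟩
  have ha : 0 ≤ 1 - h / s := by
    have : h / s ≤ 1 := (div_le_one hs).mpr hhs.le
    linarith
  have hb : 0 ≤ h / s := by positivity
  have hab : (1 - h / s) + h / s = 1 := by ring
  have e : X + h • u = (1 - h / s) • X + (h / s) • (X + s • u) := by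
    rw [smul_add, smul_smul, ← add_assoc, ← add_smul, hab, one_smul]
    congr 2
    field_simp
  rw [e]
  refine ⟨hf.1 hX hY ha hb hab, ?_⟩
  have h1 := hf.2 hX hY ha hb hab
  simp only [smul_eq_mul] at h1
  have h2 : h / s * f (X + s • u) ≤ h / s * (f X + s * V) := mul_le_mul_of_nonneg_left hV hb
  have e2 : h / s * (f X + s * V) = h / s * f X + h * V := by
    field_simp
  calc f ((1 - h / s) • X + (h / s) • (X + s • u))
      ≤ (1 - h / s) * f X + h / s * f (X + s • u) := h1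
    _ ≤ (1 - h / s) * f X + (h / s * f X + h * V) := by linarith
    _ = f X + h * V := by ring

lemma QB.mono {D : Set E} {f : E → ℝ} {X u : E} {V V' : ℝ} (h : QB D f X u V) (hV : V ≤ V') :
    QB D f X u V' := by
  obtain ⟨h₀, hh₀, H⟩ := h
  refine ⟨h₀, hh₀, fun h hh0 hh1 => ⟨(H h hh0 hh1).1, ?_⟩⟩
  have := (H h hh0 hh1).2
  have := mul_le_mul_of_nonneg_left hV hh0.le
  linarith

lemma QB.add {D : Set E} {f : E → ℝ} (hf : ConvexOn ℝ D f) {X u₁ u₂ : E} {V₁ V₂ : ℝ}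
    (h1 : QB D f X u₁ V₁) (h2 : QB D f X u₂ V₂) : QB D f X (u₁ + u₂) (V₁ + V₂) := by
  obtain ⟨h₁, hh₁, H₁⟩ := h1
  obtain ⟨h₂, hh₂, H₂⟩ := h2
  refine ⟨min h₁ h₂ / 2, by positivity, fun h hh0 hh1 => ?_⟩
  have hm : 2 * h < min h₁ h₂ := by linarith
  have h1' := H₁ (2 * h) (by positivity) (hm.trans_le (min_le_left _ _))
  have h2' := H₂ (2 * h) (by positivity) (hm.trans_le (min_le_right _ _))
  have e : X + h • (u₁ + u₂) = (1 / 2 : ℝ) • (X + (2 * h) • u₁) + (1 / 2 : ℝ) • (X + (2 * h) • u₂) := by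
    rw [smul_add, smul_add, smul_add, smul_smul, smul_smul]
    have e3 : (1 / 2 : ℝ) * (2 * h) = h := by ring
    rw [e3]
    have e4 : (1 / 2 : ℝ) • X + h • u₁ + ((1 / 2 : ℝ) • X + h • u₂)
        = ((1 / 2 : ℝ) + (1 / 2 : ℝ)) • X + (h • u₁ + h • u₂) := by
      rw [add_smul]; abel
    rw [e4]
    norm_num
  rw [e]
  have hab : (1 / 2 : ℝ) + 1 / 2 = 1 := by norm_num
  refine ⟨hf.1 h1'.1 h2'.1 (by norm_num) (by norm_num) hab, ?_⟩
  have h3 := hf.2 h1'.1 h2'.1 (by norm_num : (0 : ℝ) ≤ 1 / 2) (by norm_num : (0 : ℝ) ≤ 1 / 2) hab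
  simp only [smul_eq_mul] at h3
  have h4 := h1'.2
  have h5 := h2'.2
  nlinarith

lemma QB.smul {D : Set E} {f : E → ℝ} {X u : E} {V c : ℝ} (h : QB D f X u V) (hc : 0 < c) :
    QB D f X (c • u) (c * V) := by
  obtain ⟨h₀, hh₀, H⟩ := h
  refine ⟨h₀ / c, by positivity, fun h hh0 hh1 => ?_⟩
  have h2 : h * c < h₀ := by
    rwa [lt_div_iff₀ hc] at hh1
  have h3 := H (h * c) (by positivity) h2
  have e : h • c • u = (h * c) • u := by rw [smul_smul]
  rw [e]
  refine ⟨h3.1, ?_⟩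
  have := h3.2
  have e2 : h * (c * V) = h * c * V := by ring
  rw [e2]
  exact this

end QB

/-- A convex function with left slopes at most `V` and right slopes at least `W`, `V < W`, gives a
kink of `-g/β`. -/
theorem kink_of_slopes {g : ℝ → ℝ} {a b βc V W : ℝ} (hg : ConvexOn ℝ (Ioo a b) g)
    (hβ : βc ∈ Ioo a b) (hβ0 : 0 < βc)
    (hl : ∀ β, a < β → β < βc → g βc - g β ≤ (βc - β) * V)
    (hr : ∀ β, βc < β → β < b → (β - βc) * W ≤ g β - g βc) (hVW : V < W) :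
    ∃ Dl Dr : ℝ, HasDerivWithinAt (fun β => -(g β / β)) Dl (Iio βc) βc ∧
      HasDerivWithinAt (fun β => -(g β / β)) Dr (Ioi βc) βc ∧ Dr < Dl := by
  have hint : βc ∈ interior (Ioo a b) := by rwa [interior_Ioo]
  have h1 := hg.hasDerivWithinAt_sSup_slope_of_mem_interior hint
  have h2 := hg.hasDerivWithinAt_sInf_slope_of_mem_interior hint
  set dl := sSup (slope g βc '' {y ∈ Ioo a b | y < βc}) with hdl
  set dr := sInf (slope g βc '' {y ∈ Ioo a b | βc < y}) with hdr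
  have hdlV : dl ≤ V := by
    apply csSup_le
    · obtain ⟨y, hy1, hy2⟩ := exists_between hβ.1
      exact ⟨_, ⟨y, ⟨⟨hy1, hy2.trans hβ.2⟩, hy2⟩, rfl⟩⟩
    · rintro _ ⟨y, ⟨hy1, hy2⟩, rfl⟩
      rw [slope_def_field]
      have h3 := hl y hy1.1 hy2
      have h4 : y - βc < 0 := by linarith
      rw [div_le_iff_of_neg h4]
      nlinarith
  have hdrW : W ≤ dr := by
    apply le_csInf
    · obtain ⟨y, hy1, hy2⟩ := exists_between hβ.2
      exact ⟨_, ⟨y, ⟨⟨hβ.1.trans hy1, hy2⟩, hy1⟩, rfl⟩⟩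
    · rintro _ ⟨y, ⟨hy1, hy2⟩, rfl⟩
      rw [slope_def_field]
      have h3 := hr y hy2 hy1.2
      have h4 : 0 < y - βc := by linarith
      rw [le_div_iff₀ h4]
      nlinarith
  have hne : βc ≠ 0 := hβ0.ne'
  refine ⟨-((dl * βc - g βc * 1) / βc ^ 2), -((dr * βc - g βc * 1) / βc ^ 2), ?_, ?_, ?_⟩
  · exact (h1.div (hasDerivWithinAt_id βc _) hne).neg
  · exact (h2.div (hasDerivWithinAt_id βc _) hne).neg
  · have h5 : 0 < βc ^ 2 := by positivity
    have h6 : (dl * βc - g βc * 1) / βc ^ 2 < (dr * βc - g βc * 1) / βc ^ 2 := by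
      apply div_lt_div_of_pos_right _ h5
      have : dl < dr := by linarith
      nlinarith
    linarith

/-! ### Amplitude directions -/

lemma mass_add {τ τ' : Amp} (h : Summable τ) (h' : Summable τ') :
    mass (τ + τ') = mass τ + mass τ' := by
  unfold mass
  exact h.tsum_add h'

/-- Mass transfer from level `k + 1` to level `k`. -/
def dd (k : ℕ) : Amp := fun j => if j = k then 1 else if j = k + 1 then -1 else 0

/-- Partial masses. -/
noncomputable def kap (c : Amp) (k : ℕ) : ℝ := ∑ j ∈ Finset.range (k + 1), c j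

/-- The direction with the mass of the levels `≤ m` moved to level `m`. -/
noncomputable def top (c : Amp) (m : ℕ) : Amp :=
  fun k => if k < m then 0 else if k = m then kap c m else c k

lemma dd_eq_zero {k j : ℕ} (h1 : j ≠ k) (h2 : j ≠ k + 1) : dd k j = 0 := by
  simp [dd, h1, h2]

lemma summable_dd (k : ℕ) : Summable (dd k) := by
  refine summable_of_ne_finset_zero (s := {k, k + 1}) fun j hj => ?_
  simp only [Finset.mem_insert, Finset.mem_singleton, not_or] at hj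
  exact dd_eq_zero hj.1 hj.2

lemma mass_dd (k : ℕ) : mass (dd k) = 0 := by
  unfold mass
  rw [tsum_eq_sum (s := {k, k + 1})]
  · rw [Finset.sum_pair (by omega)]
    simp [dd]
  · intro j hj
    simp only [Finset.mem_insert, Finset.mem_singleton, not_or] at hj
    exact dd_eq_zero hj.1 hj.2

lemma top_succ (c : Amp) (m : ℕ) : top c m = kap c m • dd m + top c (m + 1) := by
  funext k
  simp only [top, dd, Pi.add_apply, Pi.smul_apply, smul_eq_mul]
  rcases lt_trichotomy k m with h | h | h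
  · have h1 : k < m + 1 := by omega
    have h2 : k ≠ m := by omega
    have h3 : k ≠ m + 1 := by omega
    simp [h, h1, h2, h3]
  · subst h
    simp
  · have h1 : ¬ k < m := by omega
    have h2 : k ≠ m := by omega
    by_cases h3 : k = m + 1
    · subst h3
      simp [kap, Finset.sum_range_succ]
      ring
    · have h4 : ¬ k < m + 1 := by omega
      simp [h1, h2, h3, h4]

lemma top_zero (c : Amp) : top c 0 = c := by
  funext k
  by_cases h : k = 0
  · subst h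
    simp [top, kap]
  · simp [top, h]

lemma summable_top {c : Amp} (hc : Summable c) (m : ℕ) : Summable (top c m) := by
  induction m with
  | zero => rwa [top_zero]
  | succ m ih =>
    have e : top c (m + 1) = top c m - kap c m • dd m := by
      rw [top_succ c m]; abel
    rw [e]
    exact ih.sub ((summable_dd m).mul_left _)

lemma mass_top {c : Amp} (hc : Summable c) (m : ℕ) : mass (top c m) = mass c := by
  induction m with
  | zero => rw [top_zero]
  | succ m ih =>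
    have e : top c (m + 1) = top c m - kap c m • dd m := by
      rw [top_succ c m]; abel
    have hsm : Summable (kap c m • dd m) := (summable_dd m).mul_left _
    have h1 : top c m = top c (m + 1) + kap c m • dd m := by rw [top_succ c m]; abel
    have hs1 : Summable (top c (m + 1)) := by
      rw [e]; exact (summable_top hc m).sub hsm
    have h2 := mass_add hs1 hsm
    rw [← h1, ih, mass_smul, mass_dd] at h2
    linarith

lemma kap_nonneg {c : Amp} (hc : ∀ k, 0 ≤ c k) (k : ℕ) : 0 ≤ kap c k :=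
  Finset.sum_nonneg fun j _ => hc j

lemma kap_pos {c : Amp} (hc : ∀ k, 0 < c k) (k : ℕ) : 0 < kap c k :=
  Finset.sum_pos (fun j _ => hc j) ⟨0, by simp⟩

lemma kap_le_mass {c : Amp} (hc : ∀ k, 0 ≤ c k) (hs : Summable c) (k : ℕ) : kap c k ≤ mass c := by
  unfold kap
  have := mass_eq hs (k + 1)
  have h2 := tail_nonneg hc (k + 1)
  linarith

lemma top_nonneg {c : Amp} (hc : ∀ k, 0 ≤ c k) (m k : ℕ) : 0 ≤ top c m k := by
  unfold top
  split_ifs
  · exact le_rfl
  · exact kap_nonneg hc m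
  · exact hc k

/-- Equal low part and equal upper mass give the same `Gam`. -/
lemma Gam_congr (S : Sys) {σ : ℝ} {τ τ' : Amp} {n : ℕ} (h1 : trunc n τ = trunc n τ')
    (h2 : tail n τ = tail n τ') : S.Gam σ τ n = S.Gam σ τ' n := by
  funext x
  simp [Sys.Gam, h1, h2]

lemma trunc_congr {τ τ' : Amp} {n : ℕ} (h : ∀ k, k < n → τ k = τ' k) : trunc n τ = trunc n τ' := by
  funext k
  unfold trunc
  split_ifs with hk
  · exact h k hk
  · rfl

/-- The parameter domain as a set. -/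
def DD (S : Sys) : Set (ℝ × Amp) := {X | S.OK X.1 X.2}

/-- Free energy as a function on the parameter domain. -/
noncomputable def ff (S : Sys) (ρ : ℝ) (X : ℝ × Amp) : ℝ := S.bb X.1 X.2 ρ

lemma ok_combo (S : Sys) {σ σ' a b : ℝ} {τ τ' : Amp} (h : S.OK σ τ) (h' : S.OK σ' τ') (ha : 0 ≤ a)
    (hb : 0 ≤ b) (hab : a + b = 1) : S.OK (a * σ + b * σ') (a • τ + b • τ') := by
  obtain ⟨h1, h2, h3, h4, h5⟩ := h
  obtain ⟨h1', h2', h3', h4', h5'⟩ := h'
  have hb' : b = 1 - a := by linarith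
  have hs1 : Summable (a • τ) := h4.mul_left a
  have hs2 : Summable (b • τ') := h4'.mul_left b
  refine ⟨?_, ?_, fun k => ?_, hs1.add hs2, ?_⟩
  · subst hb'; nlinarith
  · subst hb'; nlinarith
  · simp only [Pi.add_apply, Pi.smul_apply, smul_eq_mul]
    have := mul_nonneg ha (h3 k)
    have := mul_nonneg hb (h3' k)
    linarith
  · rw [mass_add hs1 hs2, mass_smul, mass_smul]
    subst hb'; nlinarith

lemma convex_DD (S : Sys) : Convex ℝ (DD S) := by
  intro X hX Y hY a b ha hb hab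
  exact ok_combo S hX hY ha hb hab

lemma convexOn_ff {S : Sys} (hS : S.Good) {ρ : ℝ} (hρ : 0 ≤ ρ) : ConvexOn ℝ (DD S) (ff S ρ) := by
  refine ⟨convex_DD S, fun X hX Y hY a b ha hb hab => ?_⟩
  exact hS.conv X.1 X.2 Y.1 Y.2 a b hX hY ha hb hab ρ hρ

/-! ### One-sided estimates -/

variable {S : Sys}

/-- The bound of `Gam` by `bb` at the same parameter (contained in the lower sandwich). -/
lemma Gam_le_bb (hS : S.Good) {σ : ℝ} {τ : Amp} (h : S.OK2 σ τ) (n : ℕ) {y : ℝ} (hy : 0 ≤ y)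
    (hyX : y ≤ S.X) : S.Gam σ τ n y ≤ S.bb σ τ y + S.tb n := by
  have e1 : S.Gam σ τ n y = S.bb σ (trunc n τ) y + (1 / 2) * tail n τ * y ^ 2 := by
    simp [Sys.Gam, hyX]
  rw [e1]
  have hTail0 := tail_nonneg h.2.2.1 n
  have hmass : mass τ - mass (trunc n τ) = tail n τ := by
    rw [mass_trunc, mass_eq h.2.2.2.1 n]; ring
  have h1 := hS.lower σ (trunc n τ) τ n y ((h.trunc n).ok hS) (h.ok hS)
    (trunc_le h.2.2.1 n) (fun k hk => by simp [trunc, hk]) hy
  rw [hmass] at h1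
  have h3 : (1 / 2) * tail n τ * (y / S.vv n) ≤ S.tb n := by
    unfold Sys.tb
    have hv := hS.hvv n
    have hT : tail n τ ≤ S.Tb := by
      have h4 := tail_le h.2.2.1 h.2.2.2.1 n
      have h5 := h.2.2.2.2
      linarith
    have : tail n τ * y ≤ S.Tb * S.X := mul_le_mul hT hyX hy hS.hTb
    have e : (1 / 2) * tail n τ * (y / S.vv n) = ((1 / 2) * (tail n τ * y)) / S.vv n := by ring
    rw [e]
    apply div_le_div_of_nonneg_right _ hv.le
    linarith
  nlinarith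

/-- Mass transfer between consecutive levels costs nearly nothing. -/
lemma chain_step (hS : S.Good) {σ : ℝ} {τ : Amp} (h : S.OK2 σ τ) (k : ℕ) (hτ : 0 < τ (k + 1)) {ρ : ℝ}
    (hρ : 0 < ρ) (hρX : ρ ≤ S.X₀) :
    S.OK2 σ (τ + (τ (k + 1) / 2) • dd k) ∧
      S.bb σ (τ + (τ (k + 1) / 2) • dd k) ρ ≤ S.bb σ τ ρ + (S.EE k + S.tb k) := by
  set τ' := τ + (τ (k + 1) / 2) • dd k with hτ'
  have hs : Summable ((τ (k + 1) / 2) • dd k) := (summable_dd k).mul_left _
  have hmass : mass τ' = mass τ := by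
    rw [hτ', mass_add h.2.2.2.1 hs, mass_smul, mass_dd]
    ring
  have hval : ∀ j, τ' j = τ j + τ (k + 1) / 2 * dd k j := by
    intro j
    simp [hτ']
  have hOK : S.OK2 σ τ' := by
    refine ⟨h.1, h.2.1, fun j => ?_, h.2.2.2.1.add hs, by rw [hmass]; exact h.2.2.2.2⟩
    rw [hval]
    by_cases h1 : j = k
    · subst h1
      have := h.2.2.1 j
      simp only [dd, if_true]
      linarith
    · by_cases h2 : j = k + 1
      · subst h2
        simp only [dd]
        have h3 : k + 1 ≠ k := by omega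
        simp only [h3, if_false, if_true]
        linarith
      · rw [dd_eq_zero h1 h2]
        have := h.2.2.1 j
        linarith
  refine ⟨hOK, ?_⟩
  have hlow : ∀ j, j < k → τ j = τ' j := by
    intro j hj
    rw [hval, dd_eq_zero (by omega) (by omega)]
    ring
  have htrunc : trunc k τ = trunc k τ' := trunc_congr hlow
  have htail : tail k τ = tail k τ' := by
    have h1 := mass_eq h.2.2.2.1 k
    have h2 := mass_eq hOK.2.2.2.1 k
    have h3 : ∑ j ∈ Finset.range k, τ j = ∑ j ∈ Finset.range k, τ' j :=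
      Finset.sum_congr rfl fun j hj => hlow j (Finset.mem_range.mp hj)
    linarith
  have hGam : S.Gam σ τ k = S.Gam σ τ' k := Gam_congr S htrunc htail
  have hX₀X : S.X₀ ≤ S.X := hS.hX₀₁.le.trans hS.hX₁
  have h1 := Sys.bb_le_HH hS hOK k hρ (hρX.trans hX₀X)
  have h2 := Sys.HH_le_bb hS h k hρ hρX
  have e : S.HH σ τ' k ρ = S.HH σ τ k ρ := by
    unfold Sys.HH
    rw [hGam]
  rw [e] at h1
  linarith

/-- Adding mass on levels at least `m`: the affine majorant estimate. -/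
lemma top_step (hS : S.Good) {σ : ℝ} {τ w : Amp} (h : S.OK2 σ τ) (m : ℕ) {ε J : ℝ} (hε : 0 < ε)
    (hw : ∀ k, 0 ≤ w k) (hws : Summable w) (hw0 : ∀ k, k < m → w k = 0) (hJ : mass w = J)
    (hroom : 2 * (mass τ + ε * J) ≤ S.Tb) {m₂ c₂ ρ A M : ℝ}
    (hline : ∀ y, 0 ≤ y → S.bb σ τ y ≤ m₂ * y + c₂) (hρ : S.bb σ τ ρ = m₂ * ρ + c₂)
    (hρ0 : 0 < ρ) (hρX : ρ ≤ S.X₀) (hA : 0 < A) (hAX : A ≤ S.X)
    (hM : ∀ y, 0 ≤ y → y ≤ A → M ≤ m₂ * y + c₂ - S.bb σ τ y)
    (hMA : (1 / 2) * (ε * J) * (A * S.X) ≤ M) :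
    S.OK2 σ (τ + ε • w) ∧
      S.bb σ (τ + ε • w) ρ ≤ S.bb σ τ ρ + ε * ((1 / 2) * J * ((A + S.X) * ρ - A * S.X))
        + (S.tb m + S.EE m) := by
  have hs : Summable (ε • w) := hws.mul_left _
  have hJ0 : 0 ≤ J := by rw [← hJ]; exact tsum_nonneg hw
  have hX := hS.hX
  have hval : ∀ j, (τ + ε • w) j = τ j + ε * w j := by
    intro j
    simp
  have hmass : mass (τ + ε • w) = mass τ + ε * J := by
    rw [mass_add h.2.2.2.1 hs, mass_smul, hJ]
  have hOK : S.OK2 σ (τ + ε • w) := by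
    refine ⟨h.1, h.2.1, fun j => ?_, h.2.2.2.1.add hs, by rw [hmass]; exact hroom⟩
    rw [hval]
    have := mul_nonneg hε.le (hw j)
    have := h.2.2.1 j
    linarith
  refine ⟨hOK, ?_⟩
  have hlow : ∀ j, j < m → τ j = (τ + ε • w) j := by
    intro j hj
    rw [hval, hw0 j hj]
    ring
  have htrunc : trunc m τ = trunc m (τ + ε • w) := trunc_congr hlow
  have htail : tail m (τ + ε • w) = tail m τ + ε * J := by
    have h1 := mass_eq h.2.2.2.1 m
    have h2 := mass_eq hOK.2.2.2.1 m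
    have h3 : ∑ j ∈ Finset.range m, τ j = ∑ j ∈ Finset.range m, (τ + ε • w) j :=
      Finset.sum_congr rfl fun j hj => hlow j (Finset.mem_range.mp hj)
    rw [hmass] at h2
    linarith
  have htb := Sys.tb_nonneg hS m
  have hX₀X : S.X₀ ≤ S.X := hS.hX₀₁.le.trans hS.hX₁
  have hmaj : IsCM (S.Gam σ (τ + ε • w) m)
      (fun y => (m₂ + (1 / 2) * (ε * J) * (A + S.X)) * y
        + (c₂ + S.tb m - (1 / 2) * (ε * J) * (A * S.X))) := by
    refine ⟨concaveOn_affine _ _, fun y hy => ?_⟩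
    have hεJ : 0 ≤ ε * J := by positivity
    by_cases hyX : y ≤ S.X
    · have e1 : S.Gam σ (τ + ε • w) m y = S.Gam σ τ m y + (1 / 2) * (ε * J) * y ^ 2 := by
        simp only [Sys.Gam, hyX, if_true]
        rw [← htrunc, htail]
        ring
      rw [e1]
      have h1 := Gam_le_bb hS h m hy hyX
      by_cases hyA : A ≤ y
      · have h2 := hline y hy
        have h3 : y ^ 2 ≤ (A + S.X) * y - A * S.X := by nlinarith
        have h4 := mul_le_mul_of_nonneg_left h3 (by positivity : 0 ≤ (1 / 2) * (ε * J))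
        nlinarith
      · push Not at hyA
        have h2 := hM y hy hyA.le
        have h3 : y ^ 2 - ((A + S.X) * y - A * S.X) ≤ A * S.X := by nlinarith [mul_nonneg hy hA.le, mul_nonneg hy hX.le]
        have h4 := mul_le_mul_of_nonneg_left h3 (by positivity : 0 ≤ (1 / 2) * (ε * J))
        nlinarith
    · push Not at hyX
      have e1 : S.Gam σ (τ + ε • w) m y = S.Φ y := by simp [Sys.Gam, not_le.mpr hyX]
      rw [e1]
      have h1 := Sys.Phi_le_support hS h hline hρ hρ0 hρX hyX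
      have h3 : 0 ≤ (A + S.X) * y - A * S.X := by nlinarith
      have h4 := mul_nonneg (by positivity : 0 ≤ (1 / 2) * (ε * J)) h3
      nlinarith
  have h1 := Sys.bb_le_HH hS hOK m hρ0 (hρX.trans hX₀X)
  have h2 : S.HH σ (τ + ε • w) m ρ ≤ _ := Hull_le hmaj hρ0.le
  rw [hρ]
  have e : ε * ((1 / 2) * J * ((A + S.X) * ρ - A * S.X))
      = (1 / 2) * (ε * J) * (A + S.X) * ρ - (1 / 2) * (ε * J) * (A * S.X) := by ring
  rw [e]
  nlinarith

/-- Convexity in the inverse temperature at fixed density. -/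
lemma convexOn_line (hS : S.Good) {c : Amp} (hc : ∀ k, 0 ≤ c k) (hcs : Summable c)
    (hroom : S.σ₁ * mass c ≤ S.Tb) (hσ1 : 0 ≤ S.σ₀) {ρ : ℝ} (hρ : 0 ≤ ρ) :
    ConvexOn ℝ (Icc S.σ₀ S.σ₁) (fun β => S.bb β (β • c) ρ) := by
  refine ⟨convex_Icc _ _, fun x hx y hy a b ha hb hab => ?_⟩
  have hOK : ∀ β, β ∈ Icc S.σ₀ S.σ₁ → S.OK β (β • c) := by
    intro β hβ
    refine ⟨hβ.1, hβ.2, fun k => ?_, hcs.mul_left β, ?_⟩
    · simpa using mul_nonneg (hσ1.trans hβ.1) (hc k)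
    · rw [mass_smul]
      have : 0 ≤ mass c := tsum_nonneg hc
      have := mul_le_mul_of_nonneg_right hβ.2 this
      linarith
  have h := hS.conv x (x • c) y (y • c) a b (hOK x hx) (hOK y hy) ha hb hab ρ hρ
  have e : a • x • c + b • y • c = (a * x + b * y) • c := by
    rw [smul_smul, smul_smul, add_smul]
  rw [e] at h
  simpa [smul_eq_mul] using h

/-- The free energy is strictly below the supporting line at the other gap. -/
lemma glue {F : ℝ → ℝ} (hF : ConcaveOn ℝ (Ici 0) F) {m c a₁ b₁ a₂ b₂ A ρ : ℝ} (ha₁ : 0 ≤ a₁)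
    (hline : ∀ y, 0 ≤ y → F y ≤ m * y + c) (hρ : F ρ = m * ρ + c)
    (hgap₁ : AffOn F a₁ b₁) (hgap₂ : AffOn F a₂ b₂) (hA1 : a₁ < A) (hA2 : A < b₁) (hb₁ : b₁ ≤ a₂)
    (hρ1 : a₂ < ρ) (hρ2 : ρ < b₂) (hFA : F A = m * A + c) : AffOn F a₁ b₂ := by
  have hA0 : 0 < A := ha₁.trans_lt hA1
  have hAρ : A < ρ := hA2.trans_le hb₁ |>.trans hρ1
  -- middle part
  have hmid : ∀ y, A ≤ y → y ≤ ρ → F y = m * y + c := by
    intro y hy1 hy2
    apply le_antisymm (hline y (hA0.le.trans hy1))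
    rcases eq_or_lt_of_le hy1 with h | h
    · rw [← h, hFA]
    rcases eq_or_lt_of_le hy2 with h' | h'
    · rw [h', hρ]
    have h3 := ConcaveOn_three hF hA0.le h h'
    rw [hFA, hρ] at h3
    have h4 : 0 < ρ - A := by linarith
    have : (ρ - A) * (m * y + c) ≤ (ρ - A) * F y := by nlinarith
    exact le_of_mul_le_mul_left this h4
  -- right part
  have hright : ∀ y, ρ < y → y < b₂ → F y = m * y + c := by
    intro y hy1 hy2
    set x := max A a₂ + (ρ - max A a₂) / 2 with hx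
    have hM1 : max A a₂ < ρ := max_lt hAρ hρ1
    have hx1 : max A a₂ < x := by simp only [hx]; linarith
    have hx2 : x < ρ := by simp only [hx]; linarith
    have hxA : A < x := (le_max_left _ _).trans_lt hx1
    have hxa : a₂ < x := (le_max_right _ _).trans_lt hx1
    have h3 := hgap₂ x ρ y hxa hx2 hy1 hy2
    rw [hρ, hmid x hxA.le hx2.le] at h3
    have h4 : 0 < ρ - x := by linarith
    have : (ρ - x) * F y = (ρ - x) * (m * y + c) := by linarith
    exact mul_left_cancel₀ h4.ne' this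
  -- left part
  have hleft : ∀ y, a₁ < y → y < A → F y = m * y + c := by
    intro y hy1 hy2
    set x := A + (min b₁ ρ - A) / 2 with hx
    have hM1 : A < min b₁ ρ := lt_min hA2 hAρ
    have hx1 : A < x := by simp only [hx]; linarith
    have hx2 : x < min b₁ ρ := by simp only [hx]; linarith
    have hxb : x < b₁ := hx2.trans_le (min_le_left _ _)
    have hxρ : x < ρ := hx2.trans_le (min_le_right _ _)
    have h3 := hgap₁ y A x hy1 hy2 hx1 hxb
    rw [hFA, hmid x hx1.le hxρ.le] at h3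
    have h4 : 0 < x - A := by linarith
    have : (x - A) * F y = (x - A) * (m * y + c) := by linarith
    exact mul_left_cancel₀ h4.ne' this
  have hall : ∀ y, a₁ < y → y < b₂ → F y = m * y + c := by
    intro y hy1 hy2
    rcases lt_trichotomy y A with h | h | h
    · exact hleft y hy1 h
    · rw [h, hFA]
    · rcases le_or_gt y ρ with h' | h'
      · exact hmid y h.le h'
      · exact hright y h' hy2
  intro x y z hx hxy hyz hz
  rw [hall x hx (by linarith), hall y (by linarith) (by linarith), hall z (by linarith) hz]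
  ring

/-- Distance from the supporting line is at least the value at `A` to the left of `A`. -/
lemma gap_left {F : ℝ → ℝ} (hF : ConcaveOn ℝ (Ici 0) F) {m c A ρ : ℝ} (hAρ : A < ρ)
    (hline : ∀ y, 0 ≤ y → F y ≤ m * y + c) (hρ : F ρ = m * ρ + c) {y : ℝ} (hy : 0 ≤ y)
    (hyA : y ≤ A) : m * A + c - F A ≤ m * y + c - F y := by
  rcases eq_or_lt_of_le hyA with h | h
  · rw [h]
  have h3 := ConcaveOn_three hF hy h hAρ
  rw [hρ] at h3
  have h4 := hline y hy
  have h5 : 0 < ρ - y := by linarith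
  have h6 : 0 < ρ - A := by linarith
  have h7 : 0 < A - y := by linarith
  -- `(ρ - y) * MA ≤ (ρ - A) * My`
  have h8 : (ρ - y) * (m * A + c - F A) ≤ (ρ - A) * (m * y + c - F y) := by nlinarith
  have h9 : 0 ≤ m * y + c - F y := by linarith
  have h10 : (ρ - A) * (m * y + c - F y) ≤ (ρ - y) * (m * y + c - F y) :=
    mul_le_mul_of_nonneg_right (by linarith) h9
  exact le_of_mul_le_mul_left (h8.trans h10) h5

/-- The chain of directions. -/
lemma chain_QB {D : Set (ℝ × Amp)} {f : ℝ × Amp → ℝ} (hf : ConvexOn ℝ D f) {X : ℝ × Amp} {c : Amp}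
    (hc : ∀ k, 0 < c k) {V : ℕ → ℝ} (m : ℕ) (hV : ∀ k, k < m → QB D f X (0, dd k) (V k)) {T : ℝ}
    (htop : QB D f X (0, top c m) T) :
    QB D f X (0, c) (∑ k ∈ Finset.range m, kap c k * V k + T) := by
  induction m generalizing T with
  | zero =>
    rw [top_zero] at htop
    simpa using htop
  | succ m ih =>
    have h1 := (hV m (by omega)).smul (kap_pos hc m)
    have h2 := h1.add hf htop
    have e : kap c m • ((0 : ℝ), dd m) + (0, top c (m + 1)) = (0, top c m) := by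
      rw [top_succ c m]
      simp
    rw [e] at h2
    have h3 := ih (fun k hk => hV k (by omega)) h2
    rw [Finset.sum_range_succ, add_assoc]
    exact h3

/-- Left slope bound at a point where the two gaps are not yet aligned. -/
theorem left_QB (hS : S.Good) {c : Amp} (hc : ∀ k, 0 < c k) (hcs : Summable c)
    (hroom : 2 * ((S.σ₁ + 1) * mass c) ≤ S.Tb) {β : ℝ} (hβ0 : 0 < β) (hβ1 : S.σ₀ ≤ β) (hβ2 : β < S.σ₁)
    {a₁ b₁ a₂ b₂ A ρ δ : ℝ} (ha₁ : 0 ≤ a₁) (hA1 : a₁ < A) (hA2 : A < b₁) (hb₁ : b₁ ≤ a₂)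
    (hρ1 : a₂ < ρ) (hρ2 : ρ < b₂) (hb₂ : b₂ ≤ S.X₀)
    (hgap₁ : AffOn (S.bb β (β • c)) a₁ b₁) (hgap₂ : AffOn (S.bb β (β • c)) a₂ b₂)
    (hnot : ¬ AffOn (S.bb β (β • c)) a₁ b₂)
    (herr : Tendsto (fun n => S.EE n + S.tb n) atTop (nhds 0))
    (hδ : ∀ m, ∑ k ∈ Finset.range m, (S.EE k + S.tb k) / c (k + 1) ≤ δ) :
    ∃ h₀ : ℝ, 0 < h₀ ∧ ∀ h : ℝ, 0 < h → h < h₀ →
      S.bb (β + h) ((β + h) • c) ρ ≤ S.bb β (β • c) ρ
        + h * ((1 / 2) * mass c * ((A + S.X) * ρ - A * S.X) + 2 * mass c * δ / β + 1) := by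
  set τ : Amp := β • c with hτ
  have hc0 : ∀ k, 0 ≤ c k := fun k => (hc k).le
  have hJ0 : 0 ≤ mass c := tsum_nonneg hc0
  have hJ1 : 0 < mass c := by
    have := kap_le_mass hc0 hcs 0
    have := kap_pos hc 0
    linarith
  have hτ0 : ∀ k, 0 ≤ τ k := fun k => by simpa [hτ] using mul_nonneg hβ0.le (hc0 k)
  have hτs : Summable τ := hcs.mul_left β
  have hτm : mass τ = β * mass c := mass_smul β c
  have hσ₁J : S.σ₁ * mass c ≥ β * mass c := mul_le_mul_of_nonneg_right hβ2.le hJ0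
  have hOK2 : S.OK2 β τ := by
    refine ⟨hβ1, hβ2.le, hτ0, hτs, ?_⟩
    rw [hτm]
    nlinarith
  have hX₀X : S.X₀ ≤ S.X := hS.hX₀₁.le.trans hS.hX₁
  have hρ0 : 0 < ρ := by linarith
  have hρX₀ : ρ ≤ S.X₀ := by linarith
  have hFc := hS.conc β τ (hOK2.ok hS)
  obtain ⟨m₂, c₂, hline, hρe⟩ := exists_support hFc hρ0
  -- the strict gap at `A`
  set M := m₂ * A + c₂ - S.bb β τ A with hM
  have hA0 : 0 < A := ha₁.trans_lt hA1
  have hAρ : A < ρ := (hA2.trans_le hb₁).trans hρ1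
  have hMpos : 0 < M := by
    have h1 := hline A hA0.le
    rcases eq_or_lt_of_le h1 with h2 | h2
    · exact absurd (glue hFc ha₁ hline hρe hgap₁ hgap₂ hA1 hA2 hb₁ hρ1 hρ2 h2) hnot
    · simp only [hM]; linarith
  have hX := hS.hX
  have hAX : A ≤ S.X := by linarith
  -- step of the top direction
  set ε := min 1 (2 * M / (mass c * (A * S.X))) with hε
  have hε0 : 0 < ε := by
    apply lt_min one_pos
    positivity
  have hε1 : ε ≤ 1 := min_le_left _ _
  have hε2 : (1 / 2) * (ε * mass c) * (A * S.X) ≤ M := by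
    have h1 : ε ≤ 2 * M / (mass c * (A * S.X)) := min_le_right _ _
    have h2 : 0 < mass c * (A * S.X) := by positivity
    rw [le_div_iff₀ h2] at h1
    nlinarith
  -- the level
  have hev : ∀ᶠ n in atTop, S.EE n + S.tb n < ε := herr.eventually (gt_mem_nhds hε0)
  obtain ⟨m, hm⟩ := hev.exists
  -- set up the function
  have hfc : ConvexOn ℝ (DD S) (ff S ρ) := convexOn_ff hS hρ0.le
  set X : ℝ × Amp := (β, τ) with hXdef
  have hXD : X ∈ DD S := hOK2.ok hS
  have hfX : ff S ρ X = S.bb β τ ρ := rfl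
  -- the transfer directions
  have hdirs : ∀ k, k < m → QB (DD S) (ff S ρ) X (0, dd k) ((S.EE k + S.tb k) / (τ (k + 1) / 2)) := by
    intro k _
    have hτk : 0 < τ (k + 1) := by simpa [hτ] using mul_pos hβ0 (hc (k + 1))
    obtain ⟨h1, h2⟩ := chain_step hS hOK2 k hτk hρ0 hρX₀
    refine QB.of_point hfc hXD (by positivity : 0 < τ (k + 1) / 2) ?_ ?_
    · have : X + (τ (k + 1) / 2) • ((0 : ℝ), dd k) = (β, τ + (τ (k + 1) / 2) • dd k) := by
        simp [hXdef]
      rw [this]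
      exact h1.ok hS
    · have : X + (τ (k + 1) / 2) • ((0 : ℝ), dd k) = (β, τ + (τ (k + 1) / 2) • dd k) := by
        simp [hXdef]
      rw [this, hfX]
      have e : τ (k + 1) / 2 * ((S.EE k + S.tb k) / (τ (k + 1) / 2)) = S.EE k + S.tb k := by
        field_simp
      rw [e]
      exact h2
  -- the top direction
  have htopQB : QB (DD S) (ff S ρ) X (0, top c m)
      ((1 / 2) * mass c * ((A + S.X) * ρ - A * S.X) + 1) := by
    have hroom' : 2 * (mass τ + ε * mass c) ≤ S.Tb := by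
      rw [hτm]
      have : ε * mass c ≤ 1 * mass c := mul_le_mul_of_nonneg_right hε1 hJ0
      nlinarith
    obtain ⟨h1, h2⟩ := top_step hS hOK2 m hε0 (top_nonneg hc0 m) (summable_top hcs m)
      (fun k hk => by simp [top, hk]) (mass_top hcs m) hroom' hline hρe hρ0 hρX₀ hA0 hAX
      (fun y hy hyA => gap_left hFc hAρ hline hρe hy hyA) hε2
    have e0 : X + ε • ((0 : ℝ), top c m) = (β, τ + ε • top c m) := by
      simp [hXdef]
    refine QB.of_point hfc hXD hε0 ?_ ?_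
    · rw [e0]
      exact h1.ok hS
    · rw [e0, hfX]
      have h3 : S.tb m + S.EE m ≤ ε := by linarith
      have e : ε * ((1 / 2) * mass c * ((A + S.X) * ρ - A * S.X) + 1)
          = ε * ((1 / 2) * mass c * ((A + S.X) * ρ - A * S.X)) + ε := by ring
      rw [e]
      have : ff S ρ (β, τ + ε • top c m) = S.bb β (τ + ε • top c m) ρ := rfl
      rw [this]
      linarith
  have hcQB := chain_QB hfc hc m hdirs htopQB
  -- the temperature direction
  have hσQB : QB (DD S) (ff S ρ) X (1, 0) 0 := by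
    have e0 : X + (S.σ₁ - β) • ((1 : ℝ), (0 : Amp)) = (S.σ₁, τ) := by
      simp [hXdef]
    have hOKσ : S.OK S.σ₁ τ := by
      refine ⟨hS.hσ, le_rfl, hτ0, hτs, ?_⟩
      rw [hτm]
      nlinarith
    refine QB.of_point hfc hXD (by linarith : 0 < S.σ₁ - β) ?_ ?_
    · rw [e0]
      exact hOKσ
    · rw [e0, hfX]
      have := hS.anti β S.σ₁ τ ρ (hOK2.ok hS) hOKσ hβ2.le hρ0.le
      have e1 : ff S ρ (S.σ₁, τ) = S.bb S.σ₁ τ ρ := rfl
      rw [e1]
      linarith
  have hall := hσQB.add hfc hcQB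
  -- the bound of the chain
  have hsum : ∑ k ∈ Finset.range m, kap c k * ((S.EE k + S.tb k) / (τ (k + 1) / 2))
      ≤ 2 * mass c * δ / β := by
    have h1 : ∀ k ∈ Finset.range m, kap c k * ((S.EE k + S.tb k) / (τ (k + 1) / 2))
        ≤ (2 * mass c / β) * ((S.EE k + S.tb k) / c (k + 1)) := by
      intro k _
      have hτk : τ (k + 1) = β * c (k + 1) := by simp [hτ]
      have hck := hc (k + 1)
      have hE : 0 ≤ S.EE k + S.tb k := add_nonneg (Sys.EE_nonneg hS k) (Sys.tb_nonneg hS k)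
      have e : kap c k * ((S.EE k + S.tb k) / (τ (k + 1) / 2))
          = (2 * kap c k / β) * ((S.EE k + S.tb k) / c (k + 1)) := by
        rw [hτk]
        field_simp
      rw [e]
      apply mul_le_mul_of_nonneg_right _ (div_nonneg hE hck.le)
      apply div_le_div_of_nonneg_right _ hβ0.le
      have := kap_le_mass hc0 hcs k
      linarith
    have h2 := Finset.sum_le_sum h1
    rw [← Finset.mul_sum] at h2
    have h3 := hδ m
    have h4 : (2 * mass c / β) * ∑ k ∈ Finset.range m, (S.EE k + S.tb k) / c (k + 1)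
        ≤ (2 * mass c / β) * δ := mul_le_mul_of_nonneg_left h3 (by positivity)
    calc _ ≤ _ := h2
      _ ≤ _ := h4
      _ = 2 * mass c * δ / β := by ring
  have hfin : QB (DD S) (ff S ρ) X ((1, 0) + (0, c))
      ((1 / 2) * mass c * ((A + S.X) * ρ - A * S.X) + 2 * mass c * δ / β + 1) :=
    hall.mono (by linarith)
  obtain ⟨h₀, hh₀, H⟩ := hfin
  refine ⟨h₀, hh₀, fun h hh0 hh1 => ?_⟩
  have := (H h hh0 hh1).2
  have e : X + h • ((1 : ℝ), (0 : Amp)) + h • ((0 : ℝ), c) = (β + h, (β + h) • c) := by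
    simp [hXdef, hτ, add_smul]
  have e' : X + h • (((1 : ℝ), (0 : Amp)) + ((0 : ℝ), c)) = (β + h, (β + h) • c) := by
    rw [smul_add, ← add_assoc, e]
  rw [e', hfX] at this
  exact this

/-- Continuity in the inverse temperature at fixed density. -/
lemma continuousOn_line (hS : S.Good) {c : Amp} (hc : ∀ k, 0 ≤ c k) (hcs : Summable c)
    (hroom : S.σ₁ * mass c ≤ S.Tb) (hσ1 : 0 ≤ S.σ₀) {ρ : ℝ} (hρ : 0 ≤ ρ) :
    ContinuousOn (fun β => S.bb β (β • c) ρ) (Ioo S.σ₀ S.σ₁) :=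
  ((convexOn_line hS hc hcs hroom hσ1 hρ).subset Ioo_subset_Icc_self (convex_Ioo _ _)).continuousOn
    isOpen_Ioo

/-- The triple point. -/
theorem triple_point (hS : S.Good) {c : Amp} (hc : ∀ k, 0 ≤ c k) (hcs : Summable c)
    (hroom : S.σ₁ * mass c ≤ S.Tb) (hσ1 : 0 ≤ S.σ₀) {β₁ β₂ a₁ b₂ : ℝ} (hβ₁ : S.σ₀ < β₁)
    (hβ₁₂ : β₁ ≤ β₂) (hβ₂ : β₂ < S.σ₁) (ha₁ : 0 ≤ a₁)
    (hnot : ¬ AffOn (S.bb β₁ (β₁ • c)) a₁ b₂) (haff : AffOn (S.bb β₂ (β₂ • c)) a₁ b₂) :
    ∃ βc, β₁ < βc ∧ βc ≤ β₂ ∧ AffOn (S.bb βc (βc • c)) a₁ b₂ ∧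
      ∀ β, β₁ ≤ β → β < βc → ¬ AffOn (S.bb β (β • c)) a₁ b₂ := by
  set E : Set ℝ := {β | β ∈ Icc β₁ β₂ ∧ AffOn (S.bb β (β • c)) a₁ b₂} with hE
  have hne : E.Nonempty := ⟨β₂, ⟨hβ₁₂, le_rfl⟩, haff⟩
  have hbdd : BddBelow E := ⟨β₁, fun β hβ => hβ.1.1⟩
  set βc := sInf E with hβc
  have h1 : β₁ ≤ βc := le_csInf hne fun β hβ => hβ.1.1
  have h2 : βc ≤ β₂ := csInf_le hbdd ⟨⟨hβ₁₂, le_rfl⟩, haff⟩
  have hcl : βc ∈ closure E := csInf_mem_closure hne hbdd
  have hsub : Icc β₁ β₂ ⊆ Ioo S.σ₀ S.σ₁ := fun β hβ => ⟨hβ₁.trans_le hβ.1, hβ.2.trans_lt hβ₂⟩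
  have hcont : ∀ x, 0 ≤ x → ContinuousOn (fun β => S.bb β (β • c) x) (Icc β₁ β₂) := fun x hx =>
    (continuousOn_line hS hc hcs hroom hσ1 hx).mono hsub
  have haffc : AffOn (S.bb βc (βc • c)) a₁ b₂ := by
    intro x y z hx hxy hyz hz
    have hx0 : 0 < x := ha₁.trans_lt hx
    have hcont' : ContinuousOn (fun β => (z - x) * S.bb β (β • c) y
        - ((z - y) * S.bb β (β • c) x + (y - x) * S.bb β (β • c) z)) (Icc β₁ β₂) :=
      ((hcont y (hx0.trans hxy).le).const_smul (z - x)).sub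
        (((hcont x hx0.le).const_smul (z - y)).add
          ((hcont z (hx0.trans (hxy.trans hyz)).le).const_smul (y - x)))
    have hclosed := hcont'.preimage_isClosed_of_isClosed isClosed_Icc
      (isClosed_singleton (x := (0 : ℝ)))
    have hEsub : E ⊆ Icc β₁ β₂ ∩ (fun β => (z - x) * S.bb β (β • c) y
        - ((z - y) * S.bb β (β • c) x + (y - x) * S.bb β (β • c) z)) ⁻¹' {0} := by
      intro β hβ
      refine ⟨hβ.1, ?_⟩
      simp only [mem_preimage, mem_singleton_iff]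
      rw [hβ.2 x y z hx hxy hyz hz]
      ring
    have h3 := closure_minimal hEsub hclosed hcl
    have h4 := h3.2
    simp only [mem_preimage, mem_singleton_iff] at h4
    linarith
  have hne₁ : β₁ ≠ βc := by
    intro h
    rw [← h] at haffc
    exact hnot haffc
  refine ⟨βc, lt_of_le_of_ne h1 hne₁, h2, haffc, fun β hβ1 hβ2 haffβ => ?_⟩
  have : βc ≤ β := csInf_le hbdd ⟨⟨hβ1, hβ2.le.trans h2⟩, haffβ⟩
  linarith

/-- The main abstract theorem: a kink at the triple point. -/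
theorem kink_main (hS : S.Good) {c : Amp} (hc : ∀ k, 0 < c k) (hcs : Summable c)
    (hroom : 2 * ((S.σ₁ + 1) * mass c) ≤ S.Tb) (hσ1 : 0 ≤ S.σ₀) {β' β₁ β₂ : ℝ}
    (hβ' : S.σ₀ ≤ β') (hβ'₁ : β' < β₁) (hβ₁₂ : β₁ ≤ β₂) (hβ₂ : β₂ < S.σ₁) (hβ₁0 : 0 < β₁)
    {a₁ b₁ a₂ b₂ A y₀ y₁ s₀ s₁ δ : ℝ} (ha₁ : 0 ≤ a₁) (hA1 : a₁ < A) (hA2 : A < b₁) (hb₁ : b₁ ≤ a₂)
    (hb₂ : b₂ ≤ S.X₀) (hy₀ : a₁ < y₀) (hy₀' : y₀ < b₁) (hy₁ : a₂ < y₁) (hy₁' : y₁ < b₂)
    (hgap₁ : ∀ β, β₁ ≤ β → β ≤ β₂ → AffOn (S.bb β (β • c)) a₁ b₁)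
    (hgap₂ : ∀ β, β₁ ≤ β → β ≤ β₂ → AffOn (S.bb β (β • c)) a₂ b₂)
    (hnot : ¬ AffOn (S.bb β₁ (β₁ • c)) a₁ b₂) (haff : AffOn (S.bb β₂ (β₂ • c)) a₁ b₂)
    (herr : Tendsto (fun n => S.EE n + S.tb n) atTop (nhds 0))
    (hδ : ∀ m, ∑ k ∈ Finset.range m, (S.EE k + S.tb k) / c (k + 1) ≤ δ)
    (hs₀ : ∀ β, β₁ ≤ β → β ≤ β₂ → (β - β') * s₀ ≤ S.bb β (β • c) y₀ - S.bb β' (β' • c) y₀)
    (hs₁ : ∀ β, β₁ ≤ β → β ≤ β₂ → (β - β') * s₁ ≤ S.bb β (β • c) y₁ - S.bb β' (β' • c) y₁) :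
    ∃ βc, β₁ < βc ∧ βc ≤ β₂ ∧ ∀ ρ, a₂ < ρ → ρ < y₁ →
      (1 / 2) * mass c * ((A + S.X) * ρ - A * S.X) + 2 * mass c * δ / β₁ + 1
        < ((y₁ - ρ) * s₀ + (ρ - y₀) * s₁) / (y₁ - y₀) →
      ∃ Dl Dr : ℝ, HasDerivWithinAt (fun β => -(S.bb β (β • c) ρ / β)) Dl (Iio βc) βc ∧
        HasDerivWithinAt (fun β => -(S.bb β (β • c) ρ / β)) Dr (Ioi βc) βc ∧ Dr < Dl := by
  have hc0 : ∀ k, 0 ≤ c k := fun k => (hc k).le
  have hJ0 : 0 ≤ mass c := tsum_nonneg hc0
  have hroom' : S.σ₁ * mass c ≤ S.Tb := by nlinarith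
  have hβ₁σ : S.σ₀ < β₁ := hβ'.trans_lt hβ'₁
  obtain ⟨βc, hc1, hc2, haffc, hnotc⟩ :=
    triple_point hS hc0 hcs hroom' hσ1 hβ₁σ hβ₁₂ hβ₂ ha₁ hnot haff
  refine ⟨βc, hc1, hc2, fun ρ hρ1 hρ2 hVW => ?_⟩
  have hy₀0 : 0 < y₀ := ha₁.trans_lt hy₀
  have hρy₀ : y₀ < ρ := hy₀'.trans_le hb₁ |>.trans hρ1
  have hρ0 : 0 < ρ := hy₀0.trans hρy₀
  have hy₁0 : 0 < y₁ := hρ0.trans hρ2
  have hδ0 : 0 ≤ δ := by simpa using hδ 0
  have hsub : Ioo β₁ S.σ₁ ⊆ Icc S.σ₀ S.σ₁ := fun β hβ => ⟨hβ₁σ.le.trans hβ.1.le, hβ.2.le⟩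
  have hconv : ∀ y, 0 ≤ y → ConvexOn ℝ (Icc S.σ₀ S.σ₁) (fun β => S.bb β (β • c) y) :=
    fun y hy => convexOn_line hS hc0 hcs hroom' hσ1 hy
  have hg : ConvexOn ℝ (Ioo β₁ S.σ₁) (fun β => S.bb β (β • c) ρ) :=
    (hconv ρ hρ0.le).subset hsub (convex_Ioo _ _)
  have hcI : βc ∈ Ioo β₁ S.σ₁ := ⟨hc1, hc2.trans_lt hβ₂⟩
  set V := (1 / 2) * mass c * ((A + S.X) * ρ - A * S.X) + 2 * mass c * δ / β₁ + 1 with hV
  set W := ((y₁ - ρ) * s₀ + (ρ - y₀) * s₁) / (y₁ - y₀) with hW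
  -- left slope
  have hleft : ∀ β, β₁ < β → β < βc →
      S.bb βc (βc • c) ρ - S.bb β (β • c) ρ ≤ (βc - β) * V := by
    intro β hβ1 hβ2
    have hstep : ∀ β'', β < β'' → β'' < βc →
        S.bb β'' (β'' • c) ρ - S.bb β (β • c) ρ ≤ (β'' - β) * V := by
      intro β'' h1 h2
      have hβ''0 : 0 < β'' := by linarith
      have hσ₁'' : β'' < S.σ₁ := by linarith
      obtain ⟨h₀, hh₀, H⟩ := left_QB hS hc hcs hroom hβ''0 (by linarith) hσ₁'' ha₁ hA1 hA2 hb₁ hρ1
        (hρ2.trans hy₁') hb₂ (hgap₁ β'' (by linarith) (by linarith))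
        (hgap₂ β'' (by linarith) (by linarith)) (hnotc β'' (by linarith) h2) herr hδ
      set h := min (h₀ / 2) ((S.σ₁ - β'') / 2) with hh
      have hh0 : 0 < h := lt_min (by positivity) (by linarith)
      have hh1 : h < h₀ := (min_le_left _ _).trans_lt (by linarith)
      have hh2 : β'' + h < S.σ₁ := by
        have : h ≤ (S.σ₁ - β'') / 2 := min_le_right _ _
        linarith
      have h3 := H h hh0 hh1
      have h4 := hg.slope_mono_adjacent (x := β) (y := β'') (z := β'' + h) ⟨hβ1, by linarith⟩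
        ⟨by linarith, hh2⟩ h1 (by linarith)
      have e : β'' + h - β'' = h := by ring
      rw [e] at h4
      have h5 : (S.bb (β'' + h) ((β'' + h) • c) ρ - S.bb β'' (β'' • c) ρ) / h
          ≤ (1 / 2) * mass c * ((A + S.X) * ρ - A * S.X) + 2 * mass c * δ / β'' + 1 := by
        rw [div_le_iff₀ hh0]
        linarith
      have h6 : 2 * mass c * δ / β'' ≤ 2 * mass c * δ / β₁ := by
        apply div_le_div_of_nonneg_left (by positivity) hβ₁0 (by linarith)
      have h7 := h4.trans h5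
      have h8 : (S.bb β'' (β'' • c) ρ - S.bb β (β • c) ρ) / (β'' - β) ≤ V := by
        simp only [hV]
        linarith
      rwa [div_le_iff₀ (by linarith), mul_comm] at h8
    have hcont : ContinuousAt (fun β => S.bb β (β • c) ρ) βc :=
      (hg.continuousOn isOpen_Ioo).continuousAt (isOpen_Ioo.mem_nhds hcI)
    have hlim : Tendsto (fun β'' => S.bb β'' (β'' • c) ρ - S.bb β (β • c) ρ - (β'' - β) * V)
        (nhdsWithin βc (Iio βc)) (nhds (S.bb βc (βc • c) ρ - S.bb β (β • c) ρ - (βc - β) * V)) := by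
      have hcont2 : ContinuousAt (fun β'' => S.bb β'' (β'' • c) ρ - S.bb β (β • c) ρ - (β'' - β) * V) βc :=
        (hcont.sub continuousAt_const).sub ((continuousAt_id.sub continuousAt_const).mul continuousAt_const)
      exact hcont2.tendsto.mono_left nhdsWithin_le_nhds
    have hev : ∀ᶠ β'' in nhdsWithin βc (Iio βc),
        S.bb β'' (β'' • c) ρ - S.bb β (β • c) ρ - (β'' - β) * V ≤ 0 := by
      filter_upwards [Ioo_mem_nhdsLT hβ2] with β'' h
      have := hstep β'' h.1 h.2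
      linarith
    have := le_of_tendsto hlim hev
    linarith
  -- right slope
  have hsec : ∀ y, 0 < y → ∀ s, (βc - β') * s ≤ S.bb βc (βc • c) y - S.bb β' (β' • c) y →
      ∀ β, βc < β → β < S.σ₁ → (β - βc) * s ≤ S.bb β (β • c) y - S.bb βc (βc • c) y := by
    intro y hy s hs β hβ1 hβ2
    have h1 : β' < βc := hβ'₁.trans hc1
    have h2 := (hconv y hy.le).slope_mono_adjacent (x := β') (y := βc) (z := β)
      ⟨hβ', (h1.trans hβ1).le.trans hβ2.le⟩ ⟨(hβ₁σ.trans hc1).le.trans hβ1.le, hβ2.le⟩ h1 hβ1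
    have h3 : s ≤ (S.bb βc (βc • c) y - S.bb β' (β' • c) y) / (βc - β') := by
      rw [le_div_iff₀ (by linarith), mul_comm]
      exact hs
    have h4 := h3.trans h2
    rwa [le_div_iff₀ (by linarith), mul_comm] at h4
  have hright : ∀ β, βc < β → β < S.σ₁ →
      (β - βc) * W ≤ S.bb β (β • c) ρ - S.bb βc (βc • c) ρ := by
    intro β hβ1 hβ2
    have hOK : S.OK β (β • c) := by
      have hβ0 : 0 < β := by linarith
      refine ⟨by linarith, hβ2.le, fun k => ?_, hcs.mul_left β, ?_⟩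
      · simpa using mul_nonneg hβ0.le (hc0 k)
      · rw [mass_smul]
        have := mul_le_mul_of_nonneg_right hβ2.le hJ0
        linarith
    have h1 := ConcaveOn_three (hS.conc β (β • c) hOK) hy₀0.le hρy₀ hρ2
    have h2 := haffc y₀ ρ y₁ hy₀ hρy₀ hρ2 hy₁'
    have h3 := hsec y₀ hy₀0 s₀ (hs₀ βc hc1.le hc2) β hβ1 hβ2
    have h4 := hsec y₁ hy₁0 s₁ (hs₁ βc hc1.le hc2) β hβ1 hβ2
    have hd : 0 < y₁ - y₀ := by linarith
    have hd1 : 0 ≤ y₁ - ρ := by linarith
    have hd2 : 0 ≤ ρ - y₀ := by linarith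
    have h5 := mul_le_mul_of_nonneg_left h3 hd1
    have h6 := mul_le_mul_of_nonneg_left h4 hd2
    have h7 : (y₁ - y₀) * ((β - βc) * W)
        ≤ (y₁ - y₀) * (S.bb β (β • c) ρ - S.bb βc (βc • c) ρ) := by
      have e : (y₁ - y₀) * ((β - βc) * W) = (β - βc) * ((y₁ - ρ) * s₀ + (ρ - y₀) * s₁) := by
        simp only [hW]
        field_simp
      rw [e]
      nlinarith
    exact le_of_mul_le_mul_left h7 hd
  exact kink_of_slopes hg hcI (by linarith) hleft hright hVW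

end Crest.Agent.Lib.GasKink
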