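import Mathlib

/-!
# Abstract thermodynamic limit (row 149)

`A L N` plays the role of `log Z(L,N)` for `N` particles in a cube of side `L`. From monotonicity in
`L`, superadditivity over a grid of `m^3` cubes with corridors of width one, an insertion lower
bound and a crude upper bound we get the limit of `A L N / L^3` along every way of letting `L → ∞`
with `N / L^3 → ρ`, a concave limit function, and the finite volume bound.
Pure real analysis: no measure theory here.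
-/

set_option autoImplicit false

namespace Crest.Agent.Lib.GasThermoAbs

open Filter Topology

/-- The hypotheses on `A`. -/
structure ThermoHyp (A : ℝ → ℕ → ℝ) (B Φ : ℝ) : Prop where
  /-- `Φ` bounds the integral of the positive part of the potential -/
  Φ_nonneg : 0 ≤ Φ
  B_nonneg : 0 ≤ B
  mono : ∀ L L' N, 1 ≤ L → L ≤ L' → A L N ≤ A L' N
  zero : ∀ L, 1 ≤ L → A L 0 = 0
  super : ∀ (ℓ : ℝ), 1 ≤ ℓ → ∀ (m : ℕ), 1 ≤ m → ∀ n : Fin (m ^ 3) → ℕ,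
    ∑ v, A ℓ (n v) ≤ A (m * (ℓ + 1) - 1) (∑ v, n v)
  insert : ∀ (L : ℝ) (N : ℕ), 1 ≤ L →
    A L N + Real.log (L ^ 3 / ((N : ℝ) + 1)) - ((N : ℝ) / L ^ 3) * Φ ≤ A L (N + 1)
  upper : ∀ (L : ℝ) (N : ℕ), 1 ≤ L → A L N ≤ B * N + L ^ 3

/-- The limit function: a limit along the canonical sequence. -/
noncomputable def limFn (A : ℝ → ℕ → ℝ) (ρ : ℝ) : ℝ :=
  limUnder atTop (fun L : ℝ => A L ⌊ρ * L ^ 3⌋₊ / L ^ 3)

lemma exists_cube_floor (n N : ℕ) (hn : 1 ≤ n) :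
    ∃ m r : ℕ, m ^ 3 * n + r = N ∧ r < (3 * m ^ 2 + 3 * m + 1) * n := by
  induction N with
  | zero => exact ⟨0, 0, by simp, by simp; omega⟩
  | succ N ih =>
    obtain ⟨m, r, h1, h2⟩ := ih
    by_cases hr : r + 1 < (3 * m ^ 2 + 3 * m + 1) * n
    · exact ⟨m, r + 1, by omega, hr⟩
    · refine ⟨m + 1, 0, ?_, ?_⟩
      · have : r + 1 = (3 * m ^ 2 + 3 * m + 1) * n := by omega
        have e : (m + 1) ^ 3 * n = m ^ 3 * n + (3 * m ^ 2 + 3 * m + 1) * n := by ring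
        omega
      · positivity

lemma sum_fin_ite {R : Type*} [CommSemiring R] (q s : ℕ) (a b : R) (M : ℕ) (hM : q + s = M) :
    ∑ v : Fin M, (if (v : ℕ) < q then a else b) = q * a + s * b := by
  subst hM
  rw [Fin.sum_univ_eq_sum_range (fun i => if i < q then a else b) (q + s),
    Finset.sum_range_add]
  congr 1
  · rw [Finset.sum_congr rfl (g := fun _ => a)]
    · simp
    · intro x hx
      simp [Finset.mem_range.mp hx]
  · rw [Finset.sum_congr rfl (g := fun _ => b)]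
    · simp
    · intro x _
      simp

lemma grid {A : ℝ → ℕ → ℝ} {B Φ : ℝ} (h : ThermoHyp A B Φ) {ℓ : ℝ} (hℓ : 1 ≤ ℓ) {m : ℕ}
    (hm : 1 ≤ m) (q s a b : ℕ) (hqs : q + s = m ^ 3) :
    (q : ℝ) * A ℓ a + s * A ℓ b ≤ A (m * (ℓ + 1) - 1) (q * a + s * b) := by
  have := h.super ℓ hℓ m hm (fun v => if (v : ℕ) < q then a else b)
  have e1 : (∑ v : Fin (m ^ 3), A ℓ (if (v : ℕ) < q then a else b)) = (q : ℝ) * A ℓ a + s * A ℓ b := by
    have : ∀ v : Fin (m ^ 3), A ℓ (if (v : ℕ) < q then a else b) =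
        if (v : ℕ) < q then A ℓ a else A ℓ b := fun v => apply_ite _ _ _ _
    simp_rw [this]
    exact sum_fin_ite q s _ _ _ hqs
  have e2 : (∑ v : Fin (m ^ 3), (if (v : ℕ) < q then a else b)) = q * a + s * b := by
    simpa using sum_fin_ite q s a b _ hqs
  rw [e1, e2] at this
  exact this

lemma insert_iter (A : ℝ → ℕ → ℝ) (L : ℝ) (N k : ℕ) (C : ℝ)
    (hstep : ∀ j < k, A L (N + j) - C ≤ A L (N + j + 1)) :
    A L N - k * C ≤ A L (N + k) := by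
  induction k with
  | zero => simp
  | succ k ih =>
    have h1 := ih (fun j hj => hstep j (by omega))
    have h2 := hstep k (by omega)
    rw [← add_assoc]
    push_cast
    linarith

lemma step_loss {A : ℝ → ℕ → ℝ} {B Φ : ℝ} (h : ThermoHyp A B Φ) {L X : ℝ} (hL : 1 ≤ L)
    (hX : 0 < X) {M : ℕ} (hM : (M : ℝ) + 1 ≤ X * L ^ 3) :
    A L M - X * (1 + Φ) ≤ A L (M + 1) := by
  have hi := h.insert L M hL
  have hL3 : 0 < L ^ 3 := by positivity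
  have hM1 : (0 : ℝ) < (M : ℝ) + 1 := by positivity
  have h1 : -X ≤ Real.log (L ^ 3 / ((M : ℝ) + 1)) := by
    have h2 : X⁻¹ ≤ L ^ 3 / ((M : ℝ) + 1) := by
      rw [le_div_iff₀ hM1, inv_mul_le_iff₀ hX]
      linarith
    have h3 : Real.log X⁻¹ ≤ Real.log (L ^ 3 / ((M : ℝ) + 1)) :=
      Real.log_le_log (by positivity) h2
    rw [Real.log_inv] at h3
    have h4 := Real.log_le_sub_one_of_pos hX
    linarith
  have h2 : ((M : ℝ) / L ^ 3) * Φ ≤ X * Φ := by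
    apply mul_le_mul_of_nonneg_right _ h.Φ_nonneg
    rw [div_le_iff₀ hL3]
    linarith
  nlinarith


/-- Lower bound along every admissible block. -/
lemma lower_bound {A : ℝ → ℕ → ℝ} {B Φ : ℝ} (h : ThermoHyp A B Φ) {ρ : ℝ} (hρ : 0 < ρ) {l : ℝ}
    (hl : 1 ≤ l) {n : ℕ} (hn : 1 ≤ n) (hadm : ρ * (l + 1) ^ 3 < n) {ι : Type*} (𝓕 : Filter ι)
    (Lf : ι → ℝ) (Nf : ι → ℕ) (hL : Tendsto Lf 𝓕 atTop)
    (hN : Tendsto (fun i => (Nf i : ℝ) / (Lf i) ^ 3) 𝓕 (𝓝 ρ)) {c : ℝ}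
    (hc : c < ρ * A l n / n) :
    ∀ᶠ i in 𝓕, c < A (Lf i) (Nf i) / (Lf i) ^ 3 := by
  classical
  choose mf rf hmr hr using fun i => exists_cube_floor n (Nf i) hn
  have hnR : (0 : ℝ) < n := by exact_mod_cast hn
  have hl3 : 0 < l ^ 3 := by positivity
  set C : ℝ := |Real.log (l ^ 3 / ((n : ℝ) + 1))| + ((n : ℝ) / l ^ 3) * Φ with hCdef
  have hC0 : 0 ≤ C := add_nonneg (abs_nonneg _) (mul_nonneg (by positivity) h.Φ_nonneg)
  have hstep : A l n - C ≤ A l (n + 1) := by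
    have h1 := h.insert l n hl
    have h2 := neg_abs_le (Real.log (l ^ 3 / ((n : ℝ) + 1)))
    simp only [hCdef]
    linarith
  have hL3 : Tendsto (fun i => (Lf i) ^ 3) 𝓕 atTop :=
    (tendsto_pow_atTop (by norm_num)).comp hL
  have hLge1 : ∀ᶠ i in 𝓕, 1 ≤ Lf i := hL.eventually_ge_atTop 1
  have hNtop : Tendsto (fun i => (Nf i : ℝ)) 𝓕 atTop := by
    have h1 := hN.pos_mul_atTop hρ hL3
    refine h1.congr' ?_
    filter_upwards [hLge1] with i hi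
    have : (Lf i) ^ 3 ≠ 0 := by positivity
    field_simp
  -- the block count is large
  have hmlarge : ∀ᶠ i in 𝓕, 7 * n + 1 ≤ mf i := by
    filter_upwards [hNtop.eventually_ge_atTop (((7 * n + 1) ^ 3 * n : ℕ) : ℝ)] with i hi
    have hi' : (7 * n + 1) ^ 3 * n ≤ Nf i := by exact_mod_cast hi
    by_contra hcon
    push Not at hcon
    have h1 : mf i + 1 ≤ 7 * n + 1 := by omega
    have h2 : (mf i + 1) ^ 3 ≤ (7 * n + 1) ^ 3 := Nat.pow_le_pow_left h1 3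
    have h3 : (mf i + 1) ^ 3 * n ≤ (7 * n + 1) ^ 3 * n := Nat.mul_le_mul_right n h2
    have e : (mf i + 1) ^ 3 * n = mf i ^ 3 * n + (3 * mf i ^ 2 + 3 * mf i + 1) * n := by ring
    have := hmr i
    have := hr i
    omega
  -- the blocks fit
  have hρ' : ρ < (n : ℝ) / (l + 1) ^ 3 := by
    rw [lt_div_iff₀ (by positivity)]
    exact hadm
  have hfit : ∀ᶠ i in 𝓕, (mf i : ℝ) * (l + 1) < Lf i := by
    filter_upwards [hN.eventually_lt_const hρ', hLge1] with i hi hLi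
    have hLi3 : 0 < (Lf i) ^ 3 := by positivity
    have hl13 : (0 : ℝ) < (l + 1) ^ 3 := by positivity
    rw [div_lt_div_iff₀ hLi3 hl13] at hi
    have hmr' : ((mf i : ℝ)) ^ 3 * n + rf i = Nf i := by exact_mod_cast hmr i
    have hr0 : (0 : ℝ) ≤ rf i := by positivity
    have h1 : ((mf i : ℝ) * (l + 1)) ^ 3 < (Lf i) ^ 3 := by
      have h2 : ((mf i : ℝ)) ^ 3 * n * (l + 1) ^ 3 ≤ (Nf i : ℝ) * (l + 1) ^ 3 :=
        mul_le_mul_of_nonneg_right (by linarith) hl13.le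
      have h3 : (n : ℝ) * ((mf i : ℝ) * (l + 1)) ^ 3 < n * (Lf i) ^ 3 := by
        calc (n : ℝ) * ((mf i : ℝ) * (l + 1)) ^ 3 = ((mf i : ℝ)) ^ 3 * n * (l + 1) ^ 3 := by ring
          _ ≤ (Nf i : ℝ) * (l + 1) ^ 3 := h2
          _ < n * (Lf i) ^ 3 := hi
      exact lt_of_mul_lt_mul_left h3 hnR.le
    exact lt_of_pow_lt_pow_left₀ 3 (by linarith) h1
  -- the main inequality
  have hmain : ∀ᶠ i in 𝓕, (mf i : ℝ) ^ 3 * A l n - (rf i : ℝ) * C ≤ A (Lf i) (Nf i) := by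
    filter_upwards [hmlarge, hfit] with i hm hf
    have hm1 : 1 ≤ mf i := by omega
    have hm1R : (1 : ℝ) ≤ mf i := by exact_mod_cast hm1
    have hrle : rf i ≤ mf i ^ 3 := by
      have h1 : (3 * mf i ^ 2 + 3 * mf i + 1) ≤ 7 * mf i ^ 2 := by nlinarith
      have h2 : (3 * mf i ^ 2 + 3 * mf i + 1) * n ≤ 7 * mf i ^ 2 * n :=
        Nat.mul_le_mul_right n h1
      have h3 : 7 * mf i ^ 2 * n ≤ mf i ^ 3 := by
        have : mf i ^ 2 * (7 * n) ≤ mf i ^ 2 * mf i := Nat.mul_le_mul_left _ (by omega)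
        nlinarith
      have := hr i
      omega
    obtain ⟨s, hs⟩ : ∃ s, rf i + s = mf i ^ 3 := ⟨mf i ^ 3 - rf i, by omega⟩
    have hg := grid h hl hm1 (rf i) s (n + 1) n hs
    have hNeq : rf i * (n + 1) + s * n = Nf i := by
      rw [← hmr i, ← hs]; ring
    rw [hNeq] at hg
    have hsR : (rf i : ℝ) + s = (mf i : ℝ) ^ 3 := by exact_mod_cast hs
    have hge1 : 1 ≤ (mf i : ℝ) * (l + 1) - 1 := by nlinarith
    have hmo := h.mono _ (Lf i) (Nf i) hge1 (by linarith)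
    have hr0 : (0 : ℝ) ≤ rf i := by positivity
    have h5 : (rf i : ℝ) * (A l n - C) ≤ (rf i : ℝ) * A l (n + 1) :=
      mul_le_mul_of_nonneg_left hstep hr0
    have h6 : (mf i : ℝ) ^ 3 * A l n = (rf i : ℝ) * A l n + s * A l n := by
      rw [← hsR]; ring
    nlinarith
  -- the error term
  have hy : Tendsto (fun i => (rf i : ℝ) / (Lf i) ^ 3) 𝓕 (𝓝 0) := by
    have hz : Tendsto (fun i => (7 * n : ℝ) / Lf i) 𝓕 (𝓝 0) :=
      hL.const_div_atTop _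
    refine squeeze_zero' ?_ ?_ hz
    · filter_upwards [hLge1] with i hLi
      have : 0 < Lf i := by linarith
      positivity
    · filter_upwards [hmlarge, hfit, hLge1] with i hm hf hLi
      have hm1 : 1 ≤ mf i := by omega
      have hm1R : (1 : ℝ) ≤ mf i := by exact_mod_cast hm1
      have hmL : (mf i : ℝ) ≤ Lf i := by nlinarith
      have hrR : (rf i : ℝ) ≤ 7 * (mf i : ℝ) ^ 2 * n := by
        have h1 : rf i ≤ (3 * mf i ^ 2 + 3 * mf i + 1) * n := (hr i).le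
        have h1R : (rf i : ℝ) ≤ (3 * (mf i : ℝ) ^ 2 + 3 * mf i + 1) * n := by exact_mod_cast h1
        have h2 : (3 * (mf i : ℝ) ^ 2 + 3 * mf i + 1) ≤ 7 * (mf i : ℝ) ^ 2 := by nlinarith
        exact h1R.trans (mul_le_mul_of_nonneg_right h2 hnR.le)
      have hm2 : (mf i : ℝ) ^ 2 ≤ (Lf i) ^ 2 := pow_le_pow_left₀ (by linarith) hmL 2
      have hLi3 : 0 < (Lf i) ^ 3 := by positivity
      have hLi0 : 0 < Lf i := by linarith
      rw [div_le_div_iff₀ hLi3 hLi0]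
      have : (rf i : ℝ) ≤ 7 * (Lf i) ^ 2 * n := by
        refine hrR.trans ?_
        have := mul_le_mul_of_nonneg_right hm2 hnR.le
        nlinarith
      have h7 := mul_le_mul_of_nonneg_right this hLi0.le
      nlinarith
  have hx : Tendsto (fun i => (mf i : ℝ) ^ 3 / (Lf i) ^ 3) 𝓕 (𝓝 (ρ / n)) := by
    have h1 : Tendsto (fun i => ((Nf i : ℝ) / (Lf i) ^ 3 - (rf i : ℝ) / (Lf i) ^ 3) / n) 𝓕
        (𝓝 ((ρ - 0) / n)) := (hN.sub hy).div_const _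
    rw [sub_zero] at h1
    refine h1.congr' ?_
    filter_upwards [hLge1] with i hLi
    have hmr' : ((mf i : ℝ)) ^ 3 * n + rf i = Nf i := by exact_mod_cast hmr i
    have : (Lf i) ^ 3 ≠ 0 := by positivity
    rw [← hmr']
    field_simp
    ring
  have hw : Tendsto (fun i => (mf i : ℝ) ^ 3 / (Lf i) ^ 3 * A l n - (rf i : ℝ) / (Lf i) ^ 3 * C) 𝓕
      (𝓝 (ρ * A l n / n)) := by
    have h1 := (hx.mul_const (A l n)).sub (hy.mul_const C)
    have e : ρ / n * A l n - 0 * C = ρ * A l n / n := by ring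
    rwa [e] at h1
  filter_upwards [hw.eventually_const_lt hc, hmain, hLge1] with i h1 h2 hLi
  have hLi3 : 0 < (Lf i) ^ 3 := by positivity
  refine lt_of_lt_of_le h1 ?_
  rw [le_div_iff₀ hLi3]
  have : ((mf i : ℝ) ^ 3 / (Lf i) ^ 3 * A l n - (rf i : ℝ) / (Lf i) ^ 3 * C) * (Lf i) ^ 3 =
      (mf i : ℝ) ^ 3 * A l n - (rf i : ℝ) * C := by
    field_simp
  rw [this]
  exact h2


/-- The set of block values. -/
def admSet (A : ℝ → ℕ → ℝ) (ρ : ℝ) : Set ℝ :=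
  {x | ∃ (l : ℝ) (n : ℕ), 1 ≤ l ∧ 1 ≤ n ∧ ρ * (l + 1) ^ 3 < n ∧ x = ρ * A l n / n}

/-- The supremum over blocks, which turns out to be the limit. -/
noncomputable def gFn (A : ℝ → ℕ → ℝ) (ρ : ℝ) : ℝ := sSup (admSet A ρ)

lemma admSet_bdd {A : ℝ → ℕ → ℝ} {B Φ : ℝ} (h : ThermoHyp A B Φ) {ρ : ℝ} (hρ : 0 < ρ) :
    BddAbove (admSet A ρ) := by
  refine ⟨ρ * B + 1, ?_⟩
  rintro x ⟨l, n, hl, hn, hadm, rfl⟩
  have hnR : (0 : ℝ) < n := by exact_mod_cast hn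
  rw [div_le_iff₀ hnR]
  have h1 := h.upper l n hl
  have h2 : l ^ 3 ≤ (l + 1) ^ 3 := pow_le_pow_left₀ (by linarith) (by linarith) 3
  have h3 : ρ * A l n ≤ ρ * (B * n + l ^ 3) := mul_le_mul_of_nonneg_left h1 hρ.le
  have h4 : ρ * l ^ 3 ≤ ρ * (l + 1) ^ 3 := mul_le_mul_of_nonneg_left h2 hρ.le
  nlinarith

lemma admSet_nonempty (A : ℝ → ℕ → ℝ) {ρ : ℝ} (hρ : 0 < ρ) : (admSet A ρ).Nonempty := by
  obtain ⟨n, hn⟩ := exists_nat_gt (ρ * (1 + 1) ^ 3)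
  have hn1 : 1 ≤ n := by
    have : (0 : ℝ) < n := lt_trans (by positivity) hn
    exact_mod_cast this
  exact ⟨_, 1, n, le_rfl, hn1, hn, rfl⟩

/-- Upper bound. -/
lemma upper_bound {A : ℝ → ℕ → ℝ} {B Φ : ℝ} (h : ThermoHyp A B Φ) {ρ : ℝ} (hρ : 0 < ρ)
    {ι : Type*} (𝓕 : Filter ι)
    (Lf : ι → ℝ) (Nf : ι → ℕ) (hL : Tendsto Lf 𝓕 atTop)
    (hN : Tendsto (fun i => (Nf i : ℝ) / (Lf i) ^ 3) 𝓕 (𝓝 ρ)) {c : ℝ}
    (hc : gFn A ρ < c) :
    ∀ᶠ i in 𝓕, A (Lf i) (Nf i) / (Lf i) ^ 3 < c := by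
  classical
  set g := gFn A ρ with hg
  have hΦ := h.Φ_nonneg
  set X : ℝ := ρ + 5 with hX
  have hXpos : 0 < X := by positivity
  set C' : ℝ := X * (1 + Φ) with hC'
  obtain ⟨η, hη0, hη1, hηc⟩ : ∃ η : ℝ, 0 < η ∧ η ≤ 1 ∧ g * (ρ + 3 * η) / ρ + 3 * η * C' < c := by
    set K : ℝ := |g / ρ + C'| + 1 with hK
    have hKpos : 0 < K := by positivity
    have hcg : 0 < c - g := by linarith
    refine ⟨min 1 ((c - g) / (6 * K)), lt_min one_pos (by positivity), min_le_left _ _, ?_⟩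
    set η := min 1 ((c - g) / (6 * K)) with hη
    have hη0 : 0 < η := lt_min one_pos (by positivity)
    have hη2 : η ≤ (c - g) / (6 * K) := min_le_right _ _
    have h1 : η * K ≤ (c - g) / 6 := by
      rw [le_div_iff₀ (by positivity)] at hη2
      have : η * (6 * K) = 6 * (η * K) := by ring
      linarith
    have e : g * (ρ + 3 * η) / ρ + 3 * η * C' = g + 3 * η * (g / ρ + C') := by
      field_simp
      ring
    rw [e]
    have h2 : g / ρ + C' ≤ K := by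
      have := le_abs_self (g / ρ + C')
      simp only [hK]
      linarith
    have h3 : η * (g / ρ + C') ≤ η * K := mul_le_mul_of_nonneg_left h2 hη0.le
    linarith
  have hL3 : Tendsto (fun i => (Lf i) ^ 3) 𝓕 atTop :=
    (tendsto_pow_atTop (by norm_num)).comp hL
  have hLge1 : ∀ᶠ i in 𝓕, 1 ≤ Lf i := hL.eventually_ge_atTop 1
  set kf : ι → ℕ := fun i => ⌈3 * η * (Lf i) ^ 3⌉₊ with hkf
  have hk : Tendsto (fun i => (kf i : ℝ) / (Lf i) ^ 3) 𝓕 (𝓝 (3 * η)) :=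
    (tendsto_nat_ceil_mul_div_atTop (R := ℝ) (a := 3 * η) (by positivity)).comp hL3
  -- admissibility holds eventually
  have hratio : Tendsto (fun i => ρ * (1 + 1 / Lf i) ^ 3) 𝓕 (𝓝 (ρ * (1 + 0) ^ 3)) := by
    have h1 : Tendsto (fun i => 1 / Lf i) 𝓕 (𝓝 0) := hL.const_div_atTop _
    exact ((tendsto_const_nhds.add h1).pow 3).const_mul ρ
  have hlt1 : ρ * (1 + 0) ^ 3 < ρ + 2 * η := by
    have : ρ * (1 + 0) ^ 3 = ρ := by ring
    linarith
  have hw : Tendsto (fun i => g * ((Nf i : ℝ) / (Lf i) ^ 3 + (kf i : ℝ) / (Lf i) ^ 3) / ρ +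
      (kf i : ℝ) / (Lf i) ^ 3 * C') 𝓕 (𝓝 (g * (ρ + 3 * η) / ρ + 3 * η * C')) :=
    (((hN.add hk).const_mul g).div_const ρ).add (hk.mul_const C')
  filter_upwards [hLge1, hN.eventually_lt_const (show ρ < ρ + 1 by linarith),
    hN.eventually_const_lt (show ρ - η < ρ by linarith), hratio.eventually_lt_const hlt1,
    hw.eventually_lt_const hηc] with i hLi hN1 hN2 hr hwi
  set L := Lf i with hLdef
  set N := Nf i with hNdef
  set k := kf i with hkdef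
  have hL0 : 0 < L := by linarith
  have hL3pos : 0 < L ^ 3 := by positivity
  have hL3ge : 1 ≤ L ^ 3 := one_le_pow₀ hLi
  have hk1 : 3 * η * L ^ 3 ≤ k := Nat.le_ceil _
  have hk2 : (k : ℝ) < 3 * η * L ^ 3 + 1 := Nat.ceil_lt_add_one (by positivity)
  have hN1' : (N : ℝ) < (ρ + 1) * L ^ 3 := (div_lt_iff₀ hL3pos).mp hN1
  have hN2' : (ρ - η) * L ^ 3 < N := (lt_div_iff₀ hL3pos).mp hN2
  have hr' : ρ * (L + 1) ^ 3 < (ρ + 2 * η) * L ^ 3 := by
    have e : ρ * (1 + 1 / L) ^ 3 * L ^ 3 = ρ * (L + 1) ^ 3 := by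
      field_simp
    rw [← e]
    exact mul_lt_mul_of_pos_right hr hL3pos
  have hadm : ρ * (L + 1) ^ 3 < ((N + k : ℕ) : ℝ) := by
    push_cast
    nlinarith
  have hn1 : 1 ≤ N + k := by
    have : (0 : ℝ) < ((N + k : ℕ) : ℝ) := lt_trans (by positivity) hadm
    exact_mod_cast this
  have hnR : (0 : ℝ) < ((N + k : ℕ) : ℝ) := by exact_mod_cast hn1
  have hstep : ∀ j < k, A L (N + j) - C' ≤ A L (N + j + 1) := by
    intro j hj
    refine step_loss h hLi hXpos ?_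
    have hj' : ((j : ℝ)) + 1 ≤ k := by exact_mod_cast hj
    push_cast
    nlinarith
  have hins := insert_iter A L N k C' hstep
  have hmem : ρ * A L (N + k) / ((N + k : ℕ) : ℝ) ≤ g :=
    le_csSup (admSet_bdd h hρ) ⟨L, N + k, hLi, hn1, hadm, rfl⟩
  have hAn : A L (N + k) ≤ g * ((N + k : ℕ) : ℝ) / ρ := by
    rw [div_le_iff₀ hnR] at hmem
    rw [le_div_iff₀ hρ]
    linarith
  refine lt_of_le_of_lt ?_ hwi
  rw [div_le_iff₀ hL3pos]
  have e : (g * ((N : ℝ) / L ^ 3 + (k : ℝ) / L ^ 3) / ρ + (k : ℝ) / L ^ 3 * C') * L ^ 3 =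
      g * ((N + k : ℕ) : ℝ) / ρ + k * C' := by
    push_cast
    field_simp
  rw [e]
  linarith

lemma tendsto_gFn {A : ℝ → ℕ → ℝ} {B Φ : ℝ} (h : ThermoHyp A B Φ) {ρ : ℝ} (hρ : 0 < ρ)
    {ι : Type*} (𝓕 : Filter ι) (Lf : ι → ℝ) (Nf : ι → ℕ) (hL : Tendsto Lf 𝓕 atTop)
    (hN : Tendsto (fun i => (Nf i : ℝ) / (Lf i) ^ 3) 𝓕 (𝓝 ρ)) :
    Tendsto (fun i => A (Lf i) (Nf i) / (Lf i) ^ 3) 𝓕 (𝓝 (gFn A ρ)) := by
  refine tendsto_order.2 ⟨fun c hc => ?_, fun c hc => upper_bound h hρ 𝓕 Lf Nf hL hN hc⟩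
  obtain ⟨x, ⟨l, n, hl, hn, hadm, rfl⟩, hcx⟩ := exists_lt_of_lt_csSup (admSet_nonempty A hρ) hc
  exact lower_bound h hρ hl hn hadm 𝓕 Lf Nf hL hN hcx

lemma tendsto_canonical {ρ : ℝ} (hρ : 0 ≤ ρ) :
    Tendsto (fun L : ℝ => (⌊ρ * L ^ 3⌋₊ : ℝ) / L ^ 3) atTop (𝓝 ρ) :=
  (tendsto_nat_floor_mul_div_atTop (R := ℝ) hρ).comp (tendsto_pow_atTop (by norm_num))

lemma limFn_eq_gFn {A : ℝ → ℕ → ℝ} {B Φ : ℝ} (h : ThermoHyp A B Φ) {ρ : ℝ} (hρ : 0 < ρ) :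
    limFn A ρ = gFn A ρ :=
  (tendsto_gFn h hρ atTop (fun L : ℝ => L) (fun L : ℝ => ⌊ρ * L ^ 3⌋₊) tendsto_id
    (tendsto_canonical hρ.le)).limUnder_eq

/-- Main theorem: the strong form of the limit. -/
theorem tendsto_limFn {A : ℝ → ℕ → ℝ} {B Φ : ℝ} (h : ThermoHyp A B Φ) {ρ : ℝ} (hρ : 0 < ρ)
    {ι : Type*} (𝓕 : Filter ι) (Lf : ι → ℝ) (Nf : ι → ℕ) (hL : Tendsto Lf 𝓕 atTop)
    (hN : Tendsto (fun i => (Nf i : ℝ) / (Lf i) ^ 3) 𝓕 (𝓝 ρ)) :
    Tendsto (fun i => A (Lf i) (Nf i) / (Lf i) ^ 3) 𝓕 (𝓝 (limFn A ρ)) := by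
  rw [limFn_eq_gFn h hρ]
  exact tendsto_gFn h hρ 𝓕 Lf Nf hL hN

theorem limFn_zero {A : ℝ → ℕ → ℝ} {B Φ : ℝ} (h : ThermoHyp A B Φ) : limFn A 0 = 0 := by
  unfold limFn
  refine Tendsto.limUnder_eq ?_
  refine tendsto_const_nhds.congr' ?_
  filter_upwards [eventually_ge_atTop (1 : ℝ)] with L hL
  simp [h.zero L hL]

/-- Finite volume bound. -/
theorem le_limFn {A : ℝ → ℕ → ℝ} {B Φ : ℝ} (h : ThermoHyp A B Φ) (ℓ : ℝ) (hℓ : 1 ≤ ℓ) (n : ℕ) :
    A ℓ n ≤ (ℓ + 1) ^ 3 * limFn A ((n : ℝ) / (ℓ + 1) ^ 3) := by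
  rcases Nat.eq_zero_or_pos n with rfl | hn
  · simp [h.zero ℓ hℓ, limFn_zero h]
  have hnR : (0 : ℝ) < n := by exact_mod_cast hn
  have hℓ1 : (0 : ℝ) < ℓ + 1 := by linarith
  set ρ : ℝ := (n : ℝ) / (ℓ + 1) ^ 3 with hρdef
  have hρ : 0 < ρ := by positivity
  -- the sequence
  have hM : Tendsto (fun m : ℕ => (m : ℝ) * (ℓ + 1) - 1) atTop atTop :=
    tendsto_atTop_add_const_right _ _
      ((tendsto_natCast_atTop_atTop).atTop_mul_const hℓ1)
  have hratio : Tendsto (fun m : ℕ => (m : ℝ) ^ 3 / ((m : ℝ) * (ℓ + 1) - 1) ^ 3) atTop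
      (𝓝 (1 / (ℓ + 1) ^ 3)) := by
    -- m / (m (ℓ+1) - 1) = 1 / ((ℓ+1) - 1/m)
    have h1 : Tendsto (fun m : ℕ => (1 : ℝ) / (m : ℝ)) atTop (𝓝 0) :=
      tendsto_natCast_atTop_atTop.const_div_atTop _
    have h2 : Tendsto (fun m : ℕ => (1 / ((ℓ + 1) - 1 / (m : ℝ))) ^ 3) atTop
        (𝓝 ((1 / ((ℓ + 1) - 0)) ^ 3)) :=
      (tendsto_const_nhds.div (tendsto_const_nhds.sub h1) (by rw [sub_zero]; exact hℓ1.ne')).pow 3
    have e : (1 / ((ℓ + 1) - 0)) ^ 3 = 1 / (ℓ + 1) ^ 3 := by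
      rw [sub_zero, div_pow, one_pow]
    rw [e] at h2
    refine h2.congr' ?_
    filter_upwards [eventually_ge_atTop 1] with m hm
    have hmR : (1 : ℝ) ≤ m := by exact_mod_cast hm
    have hm0 : (0 : ℝ) < m := by linarith
    have h3 : (0 : ℝ) < (m : ℝ) * (ℓ + 1) - 1 := by nlinarith
    have h4 : (ℓ + 1) - 1 / (m : ℝ) = ((m : ℝ) * (ℓ + 1) - 1) / m := by
      field_simp
    rw [h4, one_div_div, div_pow]
  have hNseq : Tendsto (fun m : ℕ => ((m ^ 3 * n : ℕ) : ℝ) / ((m : ℝ) * (ℓ + 1) - 1) ^ 3) atTop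
      (𝓝 ρ) := by
    have := hratio.mul_const (n : ℝ)
    have e : 1 / (ℓ + 1) ^ 3 * (n : ℝ) = ρ := by
      simp only [hρdef]; ring
    rw [e] at this
    refine this.congr fun m => ?_
    push_cast
    ring
  have hu := tendsto_limFn h hρ atTop _ _ hM hNseq
  have hlow : Tendsto (fun m : ℕ => (m : ℝ) ^ 3 / ((m : ℝ) * (ℓ + 1) - 1) ^ 3 * A ℓ n) atTop
      (𝓝 (1 / (ℓ + 1) ^ 3 * A ℓ n)) := hratio.mul_const _
  have hle : 1 / (ℓ + 1) ^ 3 * A ℓ n ≤ limFn A ρ := by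
    refine le_of_tendsto_of_tendsto hlow hu ?_
    filter_upwards [eventually_ge_atTop 1] with m hm
    have hmR : (1 : ℝ) ≤ m := by exact_mod_cast hm
    have h3 : (0 : ℝ) < (m : ℝ) * (ℓ + 1) - 1 := by nlinarith
    have h4 : (0 : ℝ) < ((m : ℝ) * (ℓ + 1) - 1) ^ 3 := by positivity
    have hg := grid h hℓ hm (m ^ 3) 0 n 0 (by simp)
    simp only [Nat.cast_zero, zero_mul, add_zero, mul_zero, Nat.cast_pow] at hg
    rw [div_mul_eq_mul_div]
    exact div_le_div_of_nonneg_right hg h4.le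
  have h5 : (0 : ℝ) < (ℓ + 1) ^ 3 := by positivity
  rw [div_mul_eq_mul_div, one_mul, div_le_iff₀ h5] at hle
  linarith

/-- Sequence along integers -/
lemma tendsto_seq {A : ℝ → ℕ → ℝ} {B Φ : ℝ} (h : ThermoHyp A B Φ) {y : ℝ} (hy : 0 ≤ y) :
    Tendsto (fun i : ℕ => A (i : ℝ) ⌊y * ((i : ℝ) + 1) ^ 3⌋₊ / (i : ℝ) ^ 3) atTop (𝓝 (limFn A y)) := by
  rcases hy.eq_or_lt with rfl | hy
  · rw [limFn_zero h]
    refine tendsto_const_nhds.congr' ?_
    filter_upwards [eventually_ge_atTop 1] with i hi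
    have hiR : (1 : ℝ) ≤ i := by exact_mod_cast hi
    simp [h.zero i hiR]
  · refine tendsto_limFn h hy atTop (fun i : ℕ => (i : ℝ)) _ tendsto_natCast_atTop_atTop ?_
    have h1 : Tendsto (fun i : ℕ => ((i : ℝ) + 1) ^ 3) atTop atTop :=
      (tendsto_pow_atTop (by norm_num)).comp
        (tendsto_atTop_add_const_right _ _ tendsto_natCast_atTop_atTop)
    have h2 := (tendsto_nat_floor_mul_div_atTop (R := ℝ) hy.le).comp h1
    have h3 : Tendsto (fun i : ℕ => (1 + 1 / (i : ℝ)) ^ 3) atTop (𝓝 ((1 + 0) ^ 3)) :=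
      (tendsto_const_nhds.add (tendsto_natCast_atTop_atTop.const_div_atTop _)).pow 3
    have h4 := h2.mul h3
    have e : y * (1 + 0) ^ 3 = y := by ring
    rw [e] at h4
    refine h4.congr' ?_
    filter_upwards [eventually_ge_atTop 1] with i hi
    have hiR : (1 : ℝ) ≤ i := by exact_mod_cast hi
    have hi0 : (i : ℝ) ≠ 0 := by positivity
    simp only [Function.comp]
    field_simp

/-- The limit function is concave on `[0,∞)`. -/
theorem concaveOn_limFn {A : ℝ → ℕ → ℝ} {B Φ : ℝ} (h : ThermoHyp A B Φ) :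
    ConcaveOn ℝ (Set.Ici 0) (limFn A) := by
  refine ⟨convex_Ici 0, ?_⟩
  intro y₁ hy₁ y₂ hy₂ a b ha hb hab
  simp only [Set.mem_Ici] at hy₁ hy₂
  simp only [smul_eq_mul]
  set ρ := a * y₁ + b * y₂ with hρdef
  have hρ0 : 0 ≤ ρ := by positivity
  rcases hρ0.eq_or_lt with hρ | hρ
  · have e1 : a * y₁ = 0 := by nlinarith [mul_nonneg ha hy₁, mul_nonneg hb hy₂]
    have e2 : b * y₂ = 0 := by nlinarith [mul_nonneg ha hy₁, mul_nonneg hb hy₂]
    have f1 : a * limFn A y₁ = 0 := by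
      rcases mul_eq_zero.mp e1 with h0 | h0
      · simp [h0]
      · simp [h0, limFn_zero h]
    have f2 : b * limFn A y₂ = 0 := by
      rcases mul_eq_zero.mp e2 with h0 | h0
      · simp [h0]
      · simp [h0, limFn_zero h]
    rw [f1, f2, ← hρ, limFn_zero h]
    simp
  -- sequences
  have hba : b = 1 - a := by linarith
  have ha1 : a ≤ 1 := by linarith
  set qf : ℕ → ℕ := fun i => ⌊a * (i : ℝ) ^ 3⌋₊ with hqf
  have hq3 : ∀ i, qf i ≤ i ^ 3 := by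
    intro i
    have : ((qf i : ℕ) : ℝ) ≤ ((i ^ 3 : ℕ) : ℝ) := by
      push_cast
      have h1 : ((qf i : ℕ) : ℝ) ≤ a * (i : ℝ) ^ 3 := Nat.floor_le (by positivity)
      have h2 : a * (i : ℝ) ^ 3 ≤ 1 * (i : ℝ) ^ 3 :=
        mul_le_mul_of_nonneg_right ha1 (by positivity)
      linarith
    exact_mod_cast this
  set n₁ : ℕ → ℕ := fun i => ⌊y₁ * ((i : ℝ) + 1) ^ 3⌋₊ with hn₁
  set n₂ : ℕ → ℕ := fun i => ⌊y₂ * ((i : ℝ) + 1) ^ 3⌋₊ with hn₂
  set sf : ℕ → ℕ := fun i => i ^ 3 - qf i with hsf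
  have hqs : ∀ i, qf i + sf i = i ^ 3 := fun i => by
    have := hq3 i
    simp only [hsf]
    omega
  set Mf : ℕ → ℝ := fun i => (i : ℝ) * ((i : ℝ) + 1) - 1 with hMf
  have hi3 : Tendsto (fun i : ℕ => (i : ℝ) ^ 3) atTop atTop :=
    (tendsto_pow_atTop (by norm_num)).comp tendsto_natCast_atTop_atTop
  have hqlim : Tendsto (fun i : ℕ => (qf i : ℝ) / (i : ℝ) ^ 3) atTop (𝓝 a) :=
    (tendsto_nat_floor_mul_div_atTop (R := ℝ) ha).comp hi3
  have hslim : Tendsto (fun i : ℕ => (sf i : ℝ) / (i : ℝ) ^ 3) atTop (𝓝 b) := by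
    have h1 : Tendsto (fun i : ℕ => 1 - (qf i : ℝ) / (i : ℝ) ^ 3) atTop (𝓝 (1 - a)) :=
      tendsto_const_nhds.sub hqlim
    rw [← hba] at h1
    refine h1.congr' ?_
    filter_upwards [eventually_ge_atTop 1] with i hi
    have hiR : (1 : ℝ) ≤ i := by exact_mod_cast hi
    have hi0 : (i : ℝ) ^ 3 ≠ 0 := by positivity
    have : ((qf i : ℝ) + sf i) = (i : ℝ) ^ 3 := by exact_mod_cast hqs i
    field_simp
    linarith
  have hinv : Tendsto (fun i : ℕ => (1 : ℝ) / (i : ℝ)) atTop (𝓝 0) :=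
    tendsto_natCast_atTop_atTop.const_div_atTop _
  -- `i² / M → 1` and `i (i+1) / M → 1`
  have hr1 : Tendsto (fun i : ℕ => ((i : ℝ) ^ 2 / Mf i) ^ 3) atTop (𝓝 1) := by
    have h1 : Tendsto (fun i : ℕ => (1 / (1 + 1 / (i : ℝ) - (1 / (i : ℝ)) ^ 2)) ^ 3) atTop
        (𝓝 ((1 / (1 + 0 - 0 ^ 2)) ^ 3)) := by
      refine Tendsto.pow (Tendsto.div tendsto_const_nhds ?_ (by norm_num)) 3
      exact (tendsto_const_nhds.add hinv).sub (hinv.pow 2)
    have e : ((1 : ℝ) / (1 + 0 - 0 ^ 2)) ^ 3 = 1 := by norm_num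
    rw [e] at h1
    refine h1.congr' ?_
    filter_upwards [eventually_ge_atTop 2] with i hi
    have hiR : (2 : ℝ) ≤ i := by exact_mod_cast hi
    have h3 : (0 : ℝ) < Mf i := by
      simp only [hMf]
      nlinarith
    have hi0 : (i : ℝ) ≠ 0 := by positivity
    congr 1
    simp only [hMf] at h3 ⊢
    have h4 : 1 + 1 / (i : ℝ) - (1 / (i : ℝ)) ^ 2 = ((i : ℝ) * ((i : ℝ) + 1) - 1) / (i : ℝ) ^ 2 := by
      field_simp
    rw [h4, one_div_div]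
  have hr2 : Tendsto (fun i : ℕ => ((i : ℝ) * ((i : ℝ) + 1) / Mf i) ^ 3) atTop (𝓝 1) := by
    have h1 : Tendsto (fun i : ℕ => (1 / (1 - 1 / (i : ℝ) * (1 / ((i : ℝ) + 1)))) ^ 3) atTop
        (𝓝 ((1 / (1 - 0 * 0)) ^ 3)) := by
      refine Tendsto.pow (Tendsto.div tendsto_const_nhds ?_ (by norm_num)) 3
      refine tendsto_const_nhds.sub (hinv.mul ?_)
      exact (tendsto_atTop_add_const_right _ _ tendsto_natCast_atTop_atTop).const_div_atTop _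
    have e : ((1 : ℝ) / (1 - 0 * 0)) ^ 3 = 1 := by norm_num
    rw [e] at h1
    refine h1.congr' ?_
    filter_upwards [eventually_ge_atTop 2] with i hi
    have hiR : (2 : ℝ) ≤ i := by exact_mod_cast hi
    have h3 : (0 : ℝ) < Mf i := by
      simp only [hMf]
      nlinarith
    have hi0 : (i : ℝ) ≠ 0 := by positivity
    have hi1 : (i : ℝ) + 1 ≠ 0 := by positivity
    congr 1
    simp only [hMf] at h3 ⊢
    have h4 : 1 - 1 / (i : ℝ) * (1 / ((i : ℝ) + 1)) =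
        ((i : ℝ) * ((i : ℝ) + 1) - 1) / ((i : ℝ) * ((i : ℝ) + 1)) := by
      field_simp
    rw [h4, one_div_div]
  have hMtop : Tendsto Mf atTop atTop := by
    have h1 : Tendsto (fun i : ℕ => (i : ℝ) * ((i : ℝ) + 1)) atTop atTop :=
      tendsto_natCast_atTop_atTop.atTop_mul_atTop₀
        (tendsto_atTop_add_const_right _ _ tendsto_natCast_atTop_atTop)
    exact tendsto_atTop_add_const_right _ _ h1
  have hfl : ∀ y : ℝ, 0 ≤ y → Tendsto (fun i : ℕ => (⌊y * ((i : ℝ) + 1) ^ 3⌋₊ : ℝ) / ((i : ℝ) + 1) ^ 3)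
      atTop (𝓝 y) := by
    intro y hy
    have h1 : Tendsto (fun i : ℕ => ((i : ℝ) + 1) ^ 3) atTop atTop :=
      (tendsto_pow_atTop (by norm_num)).comp
        (tendsto_atTop_add_const_right _ _ tendsto_natCast_atTop_atTop)
    exact (tendsto_nat_floor_mul_div_atTop (R := ℝ) hy).comp h1
  have hNlim : Tendsto (fun i : ℕ => ((qf i * n₁ i + sf i * n₂ i : ℕ) : ℝ) / (Mf i) ^ 3) atTop
      (𝓝 ρ) := by
    have h1 := ((hqlim.mul (hfl y₁ hy₁)).add (hslim.mul (hfl y₂ hy₂))).mul hr2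
    have e : (a * y₁ + b * y₂) * 1 = ρ := by simp [hρdef]
    rw [e] at h1
    refine h1.congr' ?_
    filter_upwards [eventually_ge_atTop 2] with i hi
    have hiR : (2 : ℝ) ≤ i := by exact_mod_cast hi
    have h3 : (0 : ℝ) < Mf i := by
      simp only [hMf]
      nlinarith
    have hi0 : (i : ℝ) ≠ 0 := by positivity
    have hi1 : (i : ℝ) + 1 ≠ 0 := by positivity
    push_cast
    simp only [hn₁, hn₂]
    field_simp
  have hu := tendsto_limFn h hρ atTop Mf _ hMtop hNlim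
  have hlow : Tendsto (fun i : ℕ => (qf i : ℝ) / (i : ℝ) ^ 3 * ((i : ℝ) ^ 2 / Mf i) ^ 3 *
      (A (i : ℝ) (n₁ i) / (i : ℝ) ^ 3) + (sf i : ℝ) / (i : ℝ) ^ 3 * ((i : ℝ) ^ 2 / Mf i) ^ 3 *
      (A (i : ℝ) (n₂ i) / (i : ℝ) ^ 3)) atTop
      (𝓝 (a * 1 * limFn A y₁ + b * 1 * limFn A y₂)) :=
    ((hqlim.mul hr1).mul (tendsto_seq h hy₁)).add ((hslim.mul hr1).mul (tendsto_seq h hy₂))
  have hle : a * 1 * limFn A y₁ + b * 1 * limFn A y₂ ≤ limFn A ρ := by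
    refine le_of_tendsto_of_tendsto hlow hu ?_
    filter_upwards [eventually_ge_atTop 2] with i hi
    have hiR : (2 : ℝ) ≤ i := by exact_mod_cast hi
    have h3 : (0 : ℝ) < Mf i := by
      simp only [hMf]
      nlinarith
    have hi0 : (i : ℝ) ≠ 0 := by positivity
    have hgr := grid h (show (1 : ℝ) ≤ i by linarith) (show 1 ≤ i by omega) (qf i) (sf i) (n₁ i) (n₂ i)
      (hqs i)
    have e : (qf i : ℝ) / (i : ℝ) ^ 3 * ((i : ℝ) ^ 2 / Mf i) ^ 3 *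
        (A (i : ℝ) (n₁ i) / (i : ℝ) ^ 3) + (sf i : ℝ) / (i : ℝ) ^ 3 * ((i : ℝ) ^ 2 / Mf i) ^ 3 *
        (A (i : ℝ) (n₂ i) / (i : ℝ) ^ 3) =
        ((qf i : ℝ) * A (i : ℝ) (n₁ i) + (sf i : ℝ) * A (i : ℝ) (n₂ i)) / (Mf i) ^ 3 := by
      field_simp
    rw [e]
    exact div_le_div_of_nonneg_right hgr (by positivity)
  simpa using hle

end Crest.Agent.Lib.GasThermoAbs
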