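import Crest.Agent.Lib.GasBasic
import Crest.Agent.Lib.GasThermoAbs

/-!
# Thermodynamic limit for admissible potentials (row 149)

Applies the abstract theorem of `GasThermoAbs` to `logZ φ L N = log Z(L,N)`, `β = 1`.
-/

set_option autoImplicit false

namespace Crest.Agent.Lib.GasThermo

open MeasureTheory Filter Topology Crest.ProbabilityR.Continuum Crest.Agent.Lib.GasBasic
  Crest.Agent.Lib.GasThermoAbs
open scoped ENNReal

/-- `log Z` as a real number (`β = 1`). -/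
noncomputable def logZ (φ : ℝ → ℝ) (L : ℝ) (N : ℕ) : ℝ :=
  Real.log (Zw (rad φ) (cube L) N).toReal

/-- Admissible potentials. -/
structure Adm (φ : ℝ → ℝ) (B Φ : ℝ) : Prop where
  meas : Measurable φ
  far : ∀ r, 1 ≤ r → φ r ≤ 0
  stable : ∀ (N : ℕ) (x : Fin N → Pt), -(B * N) ≤ pairE (rad φ) x
  hB : 0 ≤ B
  hΦ : 0 ≤ Φ
  /-- integral of the positive part -/
  int_pos : ∫⁻ y : Pt, ENNReal.ofReal (φ ‖y‖) ≤ ENNReal.ofReal Φ

lemma cube_eq (L : ℝ) : cube L =
    (WithLp.ofLp : Pt → (Fin 3 → ℝ)) ⁻¹' (Set.pi Set.univ fun _ => Set.Icc 0 L) := by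
  ext z
  simp only [cube, Set.mem_ofPred_eq, Set.mem_preimage, Set.mem_pi, Set.mem_univ, true_implies,
    Set.mem_Icc]

lemma volume_cube {L : ℝ} (hL : 0 ≤ L) : volume (cube L) = ENNReal.ofReal (L ^ 3) := by
  rw [cube_eq, (PiLp.volume_preserving_ofLp (Fin 3)).measure_preimage
    (MeasurableSet.univ_pi fun _ => measurableSet_Icc).nullMeasurableSet, volume_pi_pi]
  simp only [Fin.prod_univ_three, Real.volume_Icc, sub_zero]
  rw [← ENNReal.ofReal_mul hL, ← ENNReal.ofReal_mul (mul_nonneg hL hL)]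
  congr 1
  ring

lemma cube_subset_abs (L : ℝ) : cube L ⊆ cube |L| := by
  intro x hx k
  exact ⟨(hx k).1, (hx k).2.trans (le_abs_self L)⟩

lemma box_volume {L : ℝ} (hL : 0 ≤ L) (N : ℕ) :
    volume (Set.pi Set.univ (fun _ : Fin N => cube L)) = ENNReal.ofReal (L ^ 3) ^ N := by
  rw [volume_pi_pi]
  simp [volume_cube hL]

lemma measurableSet_box (L : ℝ) (N : ℕ) :
    MeasurableSet (Set.pi Set.univ (fun _ : Fin N => cube L)) :=
  MeasurableSet.univ_pi fun _ => measurableSet_cube L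

/-- Crude upper bound for the partition function. -/
lemma Zw_le {φ : ℝ → ℝ} {B Φ : ℝ} (h : Adm φ B Φ) {L : ℝ} (hL : 0 ≤ L) (N : ℕ) :
    Zw (rad φ) (cube L) N ≤ ENNReal.ofReal (Real.exp (B * N + L ^ 3)) := by
  unfold Zw confInt
  have h1 : ∫⁻ x in Set.pi Set.univ (fun _ : Fin N => cube L), wgt (rad φ) x
      ≤ ∫⁻ _ in Set.pi Set.univ (fun _ : Fin N => cube L), ENNReal.ofReal (Real.exp (B * N)) := by
    refine lintegral_mono fun x => ?_
    unfold wgt
    refine ENNReal.ofReal_le_ofReal (Real.exp_le_exp.2 ?_)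
    have := h.stable N x
    linarith
  rw [setLIntegral_const, box_volume hL] at h1
  have hV : 0 ≤ L ^ 3 := by positivity
  have h2 : ((N.factorial : ℝ≥0∞)⁻¹) * (ENNReal.ofReal (Real.exp (B * N)) * ENNReal.ofReal (L ^ 3) ^ N)
      = ENNReal.ofReal (Real.exp (B * N) * ((L ^ 3) ^ N / N.factorial)) := by
    have hf : (0 : ℝ) < N.factorial := by exact_mod_cast N.factorial_pos
    rw [ENNReal.ofReal_mul (Real.exp_pos _).le, ENNReal.ofReal_div_of_pos hf,
      ENNReal.ofReal_pow hV, ENNReal.ofReal_natCast, div_eq_mul_inv]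
    ring
  calc ((N.factorial : ℝ≥0∞)⁻¹) * ∫⁻ x in Set.pi Set.univ (fun _ : Fin N => cube L), wgt (rad φ) x
      ≤ ((N.factorial : ℝ≥0∞)⁻¹) * (ENNReal.ofReal (Real.exp (B * N)) * ENNReal.ofReal (L ^ 3) ^ N) := by
        gcongr
    _ = _ := h2
    _ ≤ _ := by
        refine ENNReal.ofReal_le_ofReal ?_
        rw [Real.exp_add]
        exact mul_le_mul_of_nonneg_left (Real.pow_div_factorial_le_exp _ hV N) (Real.exp_pos _).le

/-- Basic facts: `Z` is finite and, for `L > 0`, positive. -/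
theorem Zw_ne_top {φ : ℝ → ℝ} {B Φ : ℝ} (h : Adm φ B Φ) (L : ℝ) (N : ℕ) :
    Zw (rad φ) (cube L) N ≠ ∞ :=
  ne_top_of_le_ne_top ENNReal.ofReal_ne_top
    ((Zw_mono _ (cube_subset_abs L) N).trans (Zw_le h (abs_nonneg L) N))

lemma Zw_pos_of_meas {φ : ℝ → ℝ} (hφ : Measurable φ) {L : ℝ} (hL : 0 < L) (N : ℕ) :
    0 < Zw (rad φ) (cube L) N := by
  unfold Zw confInt
  refine ENNReal.mul_pos (by simp) ?_
  have hm := measurable_wgt (ι := Fin N) (goodPair_rad hφ)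
  rw [← pos_iff_ne_zero, setLIntegral_pos_iff hm]
  have hs : Function.support (wgt (rad φ) : (Fin N → Pt) → ℝ≥0∞) = Set.univ := by
    ext x
    simp [wgt, Function.mem_support, Real.exp_pos]
  rw [hs, Set.univ_inter, box_volume hL.le]
  have : 0 < ENNReal.ofReal (L ^ 3) := by
    rw [ENNReal.ofReal_pos]; positivity
  exact ENNReal.pow_pos this N

theorem Zw_pos {φ : ℝ → ℝ} {B Φ : ℝ} (h : Adm φ B Φ) {L : ℝ} (hL : 0 < L) (N : ℕ) :
    0 < Zw (rad φ) (cube L) N := Zw_pos_of_meas h.meas hL N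

lemma toReal_Zw_pos {φ : ℝ → ℝ} {B Φ : ℝ} (h : Adm φ B Φ) {L : ℝ} (hL : 0 < L) (N : ℕ) :
    0 < (Zw (rad φ) (cube L) N).toReal :=
  ENNReal.toReal_pos (Zw_pos h hL N).ne' (Zw_ne_top h L N)


/-! ### The grid of cubes -/

/-- Translation vector of the grid cube. -/
noncomputable def gridT {m : ℕ} (ℓ : ℝ) (v : Fin 3 → Fin m) : Pt :=
  WithLp.toLp 2 (fun k => (ℓ + 1) * ((v k : ℕ) : ℝ))

/-- The translated cube. -/
def gridC {m : ℕ} (ℓ : ℝ) (v : Fin 3 → Fin m) : Set Pt :=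
  (fun x : Pt => x + (-(gridT ℓ v))) ⁻¹' cube ℓ

lemma mem_gridC {m : ℕ} {ℓ : ℝ} {v : Fin 3 → Fin m} {x : Pt} :
    x ∈ gridC ℓ v ↔ ∀ k, (ℓ + 1) * ((v k : ℕ) : ℝ) ≤ x k ∧ x k ≤ (ℓ + 1) * ((v k : ℕ) : ℝ) + ℓ := by
  simp only [gridC, Set.mem_preimage, cube, Set.mem_ofPred_eq, gridT]
  refine forall_congr' fun k => ?_
  simp only [PiLp.add_apply, PiLp.neg_apply]
  constructor
  · rintro ⟨h1, h2⟩
    exact ⟨by linarith, by linarith⟩
  · rintro ⟨h1, h2⟩
    exact ⟨by linarith, by linarith⟩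

lemma coord_le_dist (x y : Pt) (k : Fin 3) : |x k - y k| ≤ dist x y := by
  rw [dist_eq_norm]
  have := PiLp.norm_apply_le (x - y) k
  simpa using this

lemma gridC_apart {m : ℕ} {ℓ : ℝ} (hℓ : 1 ≤ ℓ) {v w : Fin 3 → Fin m} (hvw : v ≠ w) {x y : Pt}
    (hx : x ∈ gridC ℓ v) (hy : y ∈ gridC ℓ w) : 1 ≤ dist x y := by
  obtain ⟨k, hk⟩ := Function.ne_iff.mp hvw
  refine le_trans ?_ (coord_le_dist x y k)
  have h1 := mem_gridC.mp hx k
  have h2 := mem_gridC.mp hy k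
  have hℓ1 : (0 : ℝ) < ℓ + 1 := by linarith
  rcases lt_or_gt_of_ne (Fin.val_ne_of_ne hk) with hlt | hlt
  · have : ((v k : ℕ) : ℝ) + 1 ≤ ((w k : ℕ) : ℝ) := by exact_mod_cast hlt
    have h3 : (ℓ + 1) * (((v k : ℕ) : ℝ) + 1) ≤ (ℓ + 1) * ((w k : ℕ) : ℝ) :=
      mul_le_mul_of_nonneg_left this hℓ1.le
    have : y k - x k ≥ 1 := by nlinarith [h1.1, h1.2, h2.1, h2.2]
    rw [abs_sub_comm]
    exact le_trans this (le_abs_self _)
  · have : ((w k : ℕ) : ℝ) + 1 ≤ ((v k : ℕ) : ℝ) := by exact_mod_cast hlt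
    have h3 : (ℓ + 1) * (((w k : ℕ) : ℝ) + 1) ≤ (ℓ + 1) * ((v k : ℕ) : ℝ) :=
      mul_le_mul_of_nonneg_left this hℓ1.le
    have : x k - y k ≥ 1 := by nlinarith [h1.1, h1.2, h2.1, h2.2]
    exact le_trans this (le_abs_self _)

lemma gridC_subset {m : ℕ} {ℓ : ℝ} (hℓ : 1 ≤ ℓ) (v : Fin 3 → Fin m) :
    gridC ℓ v ⊆ cube ((m : ℝ) * (ℓ + 1) - 1) := by
  intro x hx k
  have h1 := mem_gridC.mp hx k
  have hℓ1 : (0 : ℝ) < ℓ + 1 := by linarith
  have h2 : ((v k : ℕ) : ℝ) + 1 ≤ (m : ℝ) := by exact_mod_cast (v k).2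
  have h3 : (ℓ + 1) * (((v k : ℕ) : ℝ) + 1) ≤ (ℓ + 1) * (m : ℝ) :=
    mul_le_mul_of_nonneg_left h2 hℓ1.le
  have h4 : (0 : ℝ) ≤ (ℓ + 1) * ((v k : ℕ) : ℝ) := by positivity
  exact ⟨by linarith [h1.1], by nlinarith [h1.2]⟩

lemma gridC_disjoint {m : ℕ} {ℓ : ℝ} (hℓ : 1 ≤ ℓ) {v w : Fin 3 → Fin m} (hvw : v ≠ w) :
    Disjoint (gridC ℓ v) (gridC ℓ w) := by
  rw [Set.disjoint_left]
  intro x hx hy
  have := gridC_apart hℓ hvw hx hy
  simp at this
  linarith

lemma super_aux {φ : ℝ → ℝ} {B Φ : ℝ} (h : Adm φ B Φ) {ℓ : ℝ} (hℓ : 1 ≤ ℓ) {m : ℕ} (hm : 1 ≤ m)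
    (n : Fin (m ^ 3) → ℕ) :
    ∑ v, logZ φ ℓ (n v) ≤ logZ φ ((m : ℝ) * (ℓ + 1) - 1) (∑ v, n v) := by
  classical
  let e : (Fin 3 → Fin m) ≃ Fin (m ^ 3) := finFunctionFinEquiv
  have hg := goodPair_rad h.meas
  have hℓ0 : 0 < ℓ := by linarith
  have hL' : 0 < (m : ℝ) * (ℓ + 1) - 1 := by
    have : (1 : ℝ) ≤ m := by exact_mod_cast hm
    nlinarith
  have key := Zw_biUnion_ge (α := Fin 3 → Fin m) hg Finset.univ (gridC ℓ)
    (fun v _ => (measurableSet_cube ℓ).preimage (measurable_id.add_const _))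
    (fun v _ w _ hvw => gridC_disjoint hℓ hvw)
    (fun v _ w _ hvw x hx y hy => h.far _ (gridC_apart hℓ hvw hx hy))
    (fun v => n (e v))
  have hsub : (⋃ a ∈ (Finset.univ : Finset (Fin 3 → Fin m)), gridC ℓ a)
      ⊆ cube ((m : ℝ) * (ℓ + 1) - 1) := by
    intro x hx
    simp only [Finset.mem_univ, Set.iUnion_true, Set.mem_iUnion] at hx
    obtain ⟨v, hv⟩ := hx
    exact gridC_subset hℓ v hv
  have htrans : ∀ (v : Fin 3 → Fin m) (k : ℕ), Zw (rad φ) (gridC ℓ v) k = Zw (rad φ) (cube ℓ) k :=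
    fun v k => Zw_translate φ h.meas _ _ (measurableSet_cube ℓ) k
  have key2 : ∏ v : Fin 3 → Fin m, Zw (rad φ) (cube ℓ) (n (e v))
      ≤ Zw (rad φ) (cube ((m : ℝ) * (ℓ + 1) - 1)) (∑ v, n (e v)) := by
    refine le_trans ?_ (Zw_mono _ hsub _)
    simpa only [htrans] using key
  have hsum : ∑ v : Fin 3 → Fin m, n (e v) = ∑ v, n v := e.sum_comp n
  rw [hsum] at key2
  have hlog : ∑ v, logZ φ ℓ (n v) = ∑ v : Fin 3 → Fin m, logZ φ ℓ (n (e v)) :=
    (e.sum_comp (fun v => logZ φ ℓ (n v))).symm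
  rw [hlog]
  unfold logZ
  rw [← Real.log_prod (fun v _ => (toReal_Zw_pos h hℓ0 _).ne'), ← ENNReal.toReal_prod]
  refine Real.log_le_log ?_ (ENNReal.toReal_mono (Zw_ne_top h _ _) key2)
  rw [ENNReal.toReal_prod]
  exact Finset.prod_pos fun v _ => toReal_Zw_pos h hℓ0 _

/-! ### Insertion of one particle -/

lemma lintegral_pos_part_le {φ : ℝ → ℝ} {B Φ : ℝ} (h : Adm φ B Φ) (x : Pt) (Λ : Set Pt) :
    ∫⁻ y in Λ, ENNReal.ofReal (φ (dist x y)) ≤ ENNReal.ofReal Φ := by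
  refine le_trans (setLIntegral_le_lintegral _ _) (le_trans (le_of_eq ?_) h.int_pos)
  have := lintegral_sub_right_eq_self (μ := (volume : Measure Pt))
    (fun y : Pt => ENNReal.ofReal (φ ‖y‖)) x
  rw [← this]
  refine lintegral_congr fun y => ?_
  rw [dist_comm, dist_eq_norm]

/-- Jensen's inequality for the inserted particle, in its tangent line form. -/
lemma insert_inner {φ : ℝ → ℝ} {B Φ : ℝ} (h : Adm φ B Φ) {L : ℝ} (hL : 0 < L) {N : ℕ}
    (u : Fin N → Pt) :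
    ENNReal.ofReal (L ^ 3 * Real.exp (-((N : ℝ) / L ^ 3 * Φ)))
      ≤ ∫⁻ y in cube L, ENNReal.ofReal (Real.exp (-∑ i, φ (dist (u i) y))) := by
  have hV : 0 < L ^ 3 := by positivity
  set c : ℝ := (N : ℝ) / L ^ 3 * Φ with hc
  have hc0 : 0 ≤ c := by have := h.hΦ; positivity
  have hΦ := h.hΦ
  -- measurability
  have hmi : ∀ i, Measurable (fun y : Pt => φ (dist (u i) y)) := fun i =>
    h.meas.comp (measurable_const.dist measurable_id)
  let t : Pt → ℝ := fun y => ∑ i, max (φ (dist (u i) y)) 0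
  have ht0 : ∀ y, 0 ≤ t y := fun y => Finset.sum_nonneg fun i _ => le_max_right _ _
  have htm : Measurable t := Finset.measurable_sum _ fun i _ => (hmi i).max measurable_const
  have hexp : ∀ y, ENNReal.ofReal (Real.exp (-t y))
      ≤ ENNReal.ofReal (Real.exp (-∑ i, φ (dist (u i) y))) := by
    intro y
    refine ENNReal.ofReal_le_ofReal (Real.exp_le_exp.2 (neg_le_neg ?_))
    exact Finset.sum_le_sum fun i _ => le_max_left _ _
  -- integral of `t`
  have hint : ∫⁻ y in cube L, ENNReal.ofReal (t y) ≤ ENNReal.ofReal (N * Φ) := by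
    have h1 : ∀ y, ENNReal.ofReal (t y) = ∑ i, ENNReal.ofReal (φ (dist (u i) y)) := by
      intro y
      simp only [t]
      rw [ENNReal.ofReal_sum_of_nonneg fun i _ => le_max_right _ _]
      refine Finset.sum_congr rfl fun i _ => ?_
      rcases le_total (φ (dist (u i) y)) 0 with h0 | h0
      · rw [max_eq_right h0, ENNReal.ofReal_of_nonpos h0, ENNReal.ofReal_zero]
      · rw [max_eq_left h0]
    simp_rw [h1]
    rw [lintegral_finsetSum _ fun i _ => (hmi i).ennreal_ofReal]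
    calc ∑ i, ∫⁻ y in cube L, ENNReal.ofReal (φ (dist (u i) y))
        ≤ ∑ _i : Fin N, ENNReal.ofReal Φ :=
          Finset.sum_le_sum fun i _ => lintegral_pos_part_le h (u i) _
      _ = ENNReal.ofReal (N * Φ) := by
          simp [ENNReal.ofReal_mul]
  -- pointwise tangent line
  have htan : ∀ y, ENNReal.ofReal (Real.exp (-c) * (1 + c))
      ≤ ENNReal.ofReal (Real.exp (-t y)) + ENNReal.ofReal (Real.exp (-c)) * ENNReal.ofReal (t y) := by
    intro y
    rw [← ENNReal.ofReal_mul (Real.exp_pos _).le,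
      ← ENNReal.ofReal_add (Real.exp_pos _).le (mul_nonneg (Real.exp_pos _).le (ht0 y))]
    refine ENNReal.ofReal_le_ofReal ?_
    have h2 : (c - t y) + 1 ≤ Real.exp (c - t y) := Real.add_one_le_exp _
    have h3 : Real.exp (-t y) = Real.exp (-c) * Real.exp (c - t y) := by
      rw [← Real.exp_add]; congr 1; ring
    rw [h3]
    have := mul_le_mul_of_nonneg_left h2 (Real.exp_pos (-c)).le
    nlinarith
  have hvol : volume (cube L) = ENNReal.ofReal (L ^ 3) := volume_cube hL.le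
  have hintegrated : ENNReal.ofReal (Real.exp (-c) * (1 + c)) * ENNReal.ofReal (L ^ 3)
      ≤ (∫⁻ y in cube L, ENNReal.ofReal (Real.exp (-t y)))
        + ENNReal.ofReal (Real.exp (-c)) * ENNReal.ofReal (N * Φ) := by
    calc ENNReal.ofReal (Real.exp (-c) * (1 + c)) * ENNReal.ofReal (L ^ 3)
        = ∫⁻ _ in cube L, ENNReal.ofReal (Real.exp (-c) * (1 + c)) := by
          rw [setLIntegral_const, hvol]
      _ ≤ ∫⁻ y in cube L, (ENNReal.ofReal (Real.exp (-t y))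
            + ENNReal.ofReal (Real.exp (-c)) * ENNReal.ofReal (t y)) := lintegral_mono htan
      _ = (∫⁻ y in cube L, ENNReal.ofReal (Real.exp (-t y)))
            + ENNReal.ofReal (Real.exp (-c)) * ∫⁻ y in cube L, ENNReal.ofReal (t y) := by
          rw [lintegral_add_right _ (htm.ennreal_ofReal.const_mul _),
            lintegral_const_mul _ htm.ennreal_ofReal]
      _ ≤ _ := by gcongr
  -- conclude
  have hN : (N : ℝ) * Φ = c * L ^ 3 := by
    rw [hc]; field_simp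
  rw [hN] at hintegrated
  have hY : 0 ≤ Real.exp (-c) * (c * L ^ 3) := by positivity
  have hX : L ^ 3 * Real.exp (-c) = Real.exp (-c) * (1 + c) * L ^ 3 - Real.exp (-c) * (c * L ^ 3) := by
    ring
  rw [hX, ENNReal.ofReal_sub _ hY, tsub_le_iff_right]
  rw [← ENNReal.ofReal_mul (by positivity)] at hintegrated
  rw [← ENNReal.ofReal_mul (Real.exp_pos _).le] at hintegrated
  refine hintegrated.trans ?_
  gcongr
  exact Finset.sum_le_sum fun i _ => le_max_left _ _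

lemma wgt_fin_one (w : Pt → Pt → ℝ) (v : Fin 1 → Pt) : wgt w v = 1 := by
  unfold wgt pairE
  simp

lemma confInt_succ_ge {φ : ℝ → ℝ} {B Φ : ℝ} (h : Adm φ B Φ) {L : ℝ} (hL : 0 < L) (N : ℕ) :
    confInt (rad φ) (cube L) N * ENNReal.ofReal (L ^ 3 * Real.exp (-((N : ℝ) / L ^ 3 * Φ)))
      ≤ confInt (rad φ) (cube L) (N + 1) := by
  have hg := goodPair_rad h.meas
  have hbox := box_integral hg (finSumFinEquiv : Fin N ⊕ Fin 1 ≃ Fin (N + 1)) (cube L) (cube L)
    (measurableSet_cube L) (measurableSet_cube L)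
  have hconst : (fun i : Fin (N + 1) => Sum.elim (fun _ : Fin N => cube L) (fun _ : Fin 1 => cube L)
      ((finSumFinEquiv : Fin N ⊕ Fin 1 ≃ Fin (N + 1)).symm i)) = fun _ => cube L := by
    funext i
    rcases (finSumFinEquiv : Fin N ⊕ Fin 1 ≃ Fin (N + 1)).symm i with a | a <;> rfl
  rw [hconst] at hbox
  unfold confInt
  rw [hbox, ← lintegral_mul_const _ (measurable_wgt hg)]
  refine lintegral_mono fun u => ?_
  -- the inner integral
  have hmp := (volume_preserving_funUnique (Fin 1) Pt)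
  have hset : Set.pi Set.univ (fun _ : Fin 1 => cube L)
      = (MeasurableEquiv.funUnique (Fin 1) Pt) ⁻¹' cube L := by
    ext v
    simp [Set.mem_pi, MeasurableEquiv.funUnique]
  have hrew : ∀ v : Fin 1 → Pt, wgt (rad φ) (Sum.elim u v)
      = wgt (rad φ) u * ENNReal.ofReal (Real.exp (-∑ i, φ (dist (u i) (MeasurableEquiv.funUnique (Fin 1) Pt v)))) := by
    intro v
    rw [wgt_sum _ hg.symm, wgt_fin_one, mul_one]
    simp [rad, MeasurableEquiv.funUnique]
  simp_rw [hrew]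
  have hmf : Measurable (fun y : Pt => ENNReal.ofReal (Real.exp (-∑ i, φ (dist (u i) y)))) :=
    (Real.measurable_exp.comp (Finset.measurable_sum _ fun i _ =>
      h.meas.comp (measurable_const.dist measurable_id)).neg).ennreal_ofReal
  have hmf' : Measurable (fun v : Fin 1 → Pt => ENNReal.ofReal (Real.exp
      (-∑ i, φ (dist (u i) (MeasurableEquiv.funUnique (Fin 1) Pt v))))) :=
    hmf.comp (MeasurableEquiv.funUnique (Fin 1) Pt).measurable
  rw [lintegral_const_mul _ hmf']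
  gcongr
  rw [hset]
  have := hmp.setLIntegral_comp_preimage (measurableSet_cube L) hmf
  exact (insert_inner h hL u).trans_eq this.symm

/-- Grid of cubes with corridors of width one: geometric part of superadditivity, insertion via
Jensen, upper bound via stability and `V^N/N! ≤ e^V`. -/
theorem thermoHyp {φ : ℝ → ℝ} {B Φ : ℝ} (h : Adm φ B Φ) : ThermoHyp (logZ φ) B Φ where
  Φ_nonneg := h.hΦ
  B_nonneg := h.hB
  mono := by
    intro L L' N hL hLL'
    have hsub : cube L ⊆ cube L' := fun x hx k => ⟨(hx k).1, (hx k).2.trans hLL'⟩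
    refine Real.log_le_log (toReal_Zw_pos h (by linarith) N) ?_
    exact ENNReal.toReal_mono (Zw_ne_top h _ _) (Zw_mono _ hsub N)
  zero := by
    intro L _
    simp [logZ, Zw_zero]
  super := by
    intro ℓ hℓ m hm n
    exact super_aux h hℓ hm n
  insert := by
    intro L N hL
    have hL0 : 0 < L := by linarith
    have hV : 0 < L ^ 3 := by positivity
    have hN1 : (0 : ℝ) < (N : ℝ) + 1 := by positivity
    set c : ℝ := (N : ℝ) / L ^ 3 * Φ with hc
    have hge := confInt_succ_ge h hL0 N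
    have hZ : Zw (rad φ) (cube L) N * ENNReal.ofReal (L ^ 3 / ((N : ℝ) + 1) * Real.exp (-c))
        ≤ Zw (rad φ) (cube L) (N + 1) := by
      unfold Zw
      have e1 : ((N + 1).factorial : ℝ≥0∞)⁻¹ = (N.factorial : ℝ≥0∞)⁻¹ * (((N : ℝ≥0∞) + 1))⁻¹ := by
        rw [Nat.factorial_succ, Nat.cast_mul, Nat.cast_add, Nat.cast_one,
          ENNReal.mul_inv (by simp) (by simp), mul_comm]
      have e2 : ENNReal.ofReal (L ^ 3 / ((N : ℝ) + 1) * Real.exp (-c))
          = ((N : ℝ≥0∞) + 1)⁻¹ * ENNReal.ofReal (L ^ 3 * Real.exp (-c)) := by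
        have : L ^ 3 / ((N : ℝ) + 1) * Real.exp (-c) = ((N : ℝ) + 1)⁻¹ * (L ^ 3 * Real.exp (-c)) := by
          field_simp
        rw [this, ENNReal.ofReal_mul (by positivity), ENNReal.ofReal_inv_of_pos hN1,
          ENNReal.ofReal_add (by positivity) (by norm_num), ENNReal.ofReal_natCast, ENNReal.ofReal_one]
      rw [e1, e2]
      calc (N.factorial : ℝ≥0∞)⁻¹ * confInt (rad φ) (cube L) N *
            (((N : ℝ≥0∞) + 1)⁻¹ * ENNReal.ofReal (L ^ 3 * Real.exp (-c)))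
          = (N.factorial : ℝ≥0∞)⁻¹ * ((N : ℝ≥0∞) + 1)⁻¹ *
            (confInt (rad φ) (cube L) N * ENNReal.ofReal (L ^ 3 * Real.exp (-c))) := by ring
        _ ≤ _ := by gcongr
    have hZ' := ENNReal.toReal_mono (Zw_ne_top h L (N + 1)) hZ
    rw [ENNReal.toReal_mul, ENNReal.toReal_ofReal (by positivity)] at hZ'
    have hpos := toReal_Zw_pos h hL0 N
    have hl := Real.log_le_log (by positivity) hZ'
    rw [Real.log_mul hpos.ne' (by positivity), Real.log_mul (by positivity) (Real.exp_pos _).ne',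
      Real.log_exp] at hl
    unfold logZ
    linarith
  upper := by
    intro L N hL
    have hL0 : 0 < L := by linarith
    have h1 := ENNReal.toReal_mono ENNReal.ofReal_ne_top (Zw_le h hL0.le N)
    rw [ENNReal.toReal_ofReal (Real.exp_pos _).le] at h1
    have h2 := Real.log_le_log (toReal_Zw_pos h hL0 N) h1
    rwa [Real.log_exp] at h2

/-- The free energy density of an admissible potential. -/
noncomputable def fe (φ : ℝ → ℝ) : ℝ → ℝ := limFn (logZ φ)

lemma pairE_add_smul {ι : Type*} [Fintype ι] [DecidableEq ι] (φ₁ φ₂ : ℝ → ℝ) (a b : ℝ) (x : ι → Pt) :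
    pairE (rad (fun r => a * φ₁ r + b * φ₂ r)) x
      = a * pairE (rad φ₁) x + b * pairE (rad φ₂) x := by
  unfold pairE rad
  have : ∀ i j : ι, (if i = j then (0 : ℝ) else a * φ₁ (dist (x i) (x j)) + b * φ₂ (dist (x i) (x j)))
      = a * (if i = j then 0 else φ₁ (dist (x i) (x j)))
        + b * (if i = j then 0 else φ₂ (dist (x i) (x j))) := by
    intro i j
    split_ifs <;> simp
  simp_rw [this, Finset.sum_add_distrib, ← Finset.mul_sum]
  ring

/-- Hölder's inequality: `log Z` is convex in the potential. -/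
theorem logZ_convex {φ₁ φ₂ : ℝ → ℝ} {B₁ Φ₁ B₂ Φ₂ : ℝ} (h₁ : Adm φ₁ B₁ Φ₁) (h₂ : Adm φ₂ B₂ Φ₂)
    {a b : ℝ} (ha : 0 ≤ a) (hb : 0 ≤ b) (hab : a + b = 1) {L : ℝ} (hL : 0 < L) (N : ℕ) :
    logZ (fun r => a * φ₁ r + b * φ₂ r) L N ≤ a * logZ φ₁ L N + b * logZ φ₂ L N := by
  set ψ : ℝ → ℝ := fun r => a * φ₁ r + b * φ₂ r with hψ
  have hψm : Measurable ψ := (h₁.meas.const_mul a).add (h₂.meas.const_mul b)
  have hm₁ := measurable_wgt (ι := Fin N) (goodPair_rad h₁.meas)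
  have hm₂ := measurable_wgt (ι := Fin N) (goodPair_rad h₂.meas)
  have hw : ∀ x : Fin N → Pt, wgt (rad ψ) x = wgt (rad φ₁) x ^ a * wgt (rad φ₂) x ^ b := by
    intro x
    unfold wgt
    rw [pairE_add_smul, ENNReal.ofReal_rpow_of_pos (Real.exp_pos _),
      ENNReal.ofReal_rpow_of_pos (Real.exp_pos _), ← ENNReal.ofReal_mul (by positivity),
      ← Real.exp_mul, ← Real.exp_mul, ← Real.exp_add]
    congr 2
    ring
  have hH := ENNReal.lintegral_mul_norm_pow_le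
    (μ := (volume : Measure (Fin N → Pt)).restrict (Set.pi Set.univ (fun _ : Fin N => cube L)))
    hm₁.aemeasurable hm₂.aemeasurable ha hb hab
  have hfac : (N.factorial : ℝ≥0∞)⁻¹ = ((N.factorial : ℝ≥0∞)⁻¹) ^ a * ((N.factorial : ℝ≥0∞)⁻¹) ^ b := by
    rw [← ENNReal.rpow_add _ _ (by simp) (by simpa using N.factorial_ne_zero), hab,
      ENNReal.rpow_one]
  have hZ : Zw (rad ψ) (cube L) N ≤ Zw (rad φ₁) (cube L) N ^ a * Zw (rad φ₂) (cube L) N ^ b := by
    unfold Zw confInt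
    simp_rw [hw]
    rw [ENNReal.mul_rpow_of_nonneg _ _ ha, ENNReal.mul_rpow_of_nonneg _ _ hb]
    calc (N.factorial : ℝ≥0∞)⁻¹ * _
        ≤ (N.factorial : ℝ≥0∞)⁻¹ * _ := mul_le_mul_right hH _
      _ = _ := by
        conv_lhs => rw [hfac]
        ring
  have hp₁ := toReal_Zw_pos h₁ hL N
  have hp₂ := toReal_Zw_pos h₂ hL N
  have hne : Zw (rad φ₁) (cube L) N ^ a * Zw (rad φ₂) (cube L) N ^ b ≠ ∞ :=
    ENNReal.mul_ne_top (ENNReal.rpow_ne_top_of_nonneg ha (Zw_ne_top h₁ L N))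
      (ENNReal.rpow_ne_top_of_nonneg hb (Zw_ne_top h₂ L N))
  have hZ' := ENNReal.toReal_mono hne hZ
  rw [ENNReal.toReal_mul, ← ENNReal.toReal_rpow, ← ENNReal.toReal_rpow] at hZ'
  have hpsi : 0 < (Zw (rad ψ) (cube L) N).toReal :=
    ENNReal.toReal_pos (Zw_pos_of_meas hψm hL N).ne' (ne_top_of_le_ne_top hne hZ)
  have hl := Real.log_le_log hpsi hZ'
  rw [Real.log_mul (Real.rpow_pos_of_pos hp₁ _).ne' (Real.rpow_pos_of_pos hp₂ _).ne',
    Real.log_rpow hp₁, Real.log_rpow hp₂] at hl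
  exact hl

/-- Comparison: pointwise bounds on configurations transfer to `log Z`. If for all configurations
in the cube, `pairE (rad φ₁) x + c N ≥ pairE (rad φ₂) x`, then `log Z φ₂ ≥ log Z φ₁ - c N`. -/
theorem logZ_le_of_pairE_le {φ₁ φ₂ : ℝ → ℝ} {B₁ Φ₁ B₂ Φ₂ : ℝ} (h₁ : Adm φ₁ B₁ Φ₁) (h₂ : Adm φ₂ B₂ Φ₂)
    {L : ℝ} (hL : 0 < L) (N : ℕ) (c : ℝ)
    (hle : ∀ x : Fin N → Pt, (∀ i, x i ∈ cube L) → pairE (rad φ₂) x ≤ pairE (rad φ₁) x + c) :
    logZ φ₁ L N ≤ logZ φ₂ L N + c := by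
  have hm₂ := measurable_wgt (ι := Fin N) (goodPair_rad h₂.meas)
  have hZ : Zw (rad φ₁) (cube L) N ≤ ENNReal.ofReal (Real.exp c) * Zw (rad φ₂) (cube L) N := by
    unfold Zw confInt
    rw [mul_left_comm, ← lintegral_const_mul _ hm₂]
    refine mul_le_mul_right ?_ _
    refine setLIntegral_mono' (measurableSet_box L N) fun x hx => ?_
    unfold wgt
    rw [← ENNReal.ofReal_mul (Real.exp_pos _).le, ← Real.exp_add]
    refine ENNReal.ofReal_le_ofReal (Real.exp_le_exp.2 ?_)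
    have := hle x (fun i => hx i (Set.mem_univ i))
    linarith
  have hp₁ := toReal_Zw_pos h₁ hL N
  have hp₂ := toReal_Zw_pos h₂ hL N
  have hZ' := ENNReal.toReal_mono (ENNReal.mul_ne_top ENNReal.ofReal_ne_top (Zw_ne_top h₂ L N)) hZ
  rw [ENNReal.toReal_mul, ENNReal.toReal_ofReal (Real.exp_pos _).le] at hZ'
  have hl := Real.log_le_log hp₁ hZ'
  rw [Real.log_mul (Real.exp_pos _).ne' hp₂.ne', Real.log_exp] at hl
  unfold logZ
  linarith

/-- Limit along the prelude's normalisation. -/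
theorem tendsto_partitionFn {φ : ℝ → ℝ} {B Φ : ℝ} (h : Adm φ B Φ) {ρ : ℝ} (hρ : 0 < ρ) :
    Tendsto (fun L : ℝ => (1 / L ^ 3) * Real.log (partitionFn φ L ⌊ρ * L ^ 3⌋₊ 1)) atTop
      (𝓝 (fe φ ρ)) := by
  have := tendsto_limFn (thermoHyp h) hρ atTop (fun L : ℝ => L) (fun L : ℝ => ⌊ρ * L ^ 3⌋₊) tendsto_id
    (tendsto_canonical hρ.le)
  refine this.congr fun L => ?_
  rw [partitionFn_eq φ h.meas]
  simp only [one_mul, logZ, one_div]
  ring

/-- Passage to the limit of inequalities between `logZ`: if for all large `L` and all `N` with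
density near `x` one has `logZ φ₁ L N ≤ logZ φ₂ L N + c * L^3`, then `fe φ₁ x ≤ fe φ₂ x + c`. -/
theorem fe_le_of_logZ_le {φ₁ φ₂ : ℝ → ℝ} {B₁ Φ₁ B₂ Φ₂ : ℝ} (h₁ : Adm φ₁ B₁ Φ₁) (h₂ : Adm φ₂ B₂ Φ₂)
    {x c : ℝ} (hx : 0 ≤ x)
    (hle : ∀ᶠ L : ℝ in atTop, logZ φ₁ L ⌊x * L ^ 3⌋₊ ≤ logZ φ₂ L ⌊x * L ^ 3⌋₊ + c * L ^ 3) :
    fe φ₁ x ≤ fe φ₂ x + c := by
  rcases hx.eq_or_lt with rfl | hx
  · unfold fe
    rw [limFn_zero (thermoHyp h₁), limFn_zero (thermoHyp h₂)]
    obtain ⟨L, hL1, hL2⟩ := (hle.and (eventually_ge_atTop (1 : ℝ))).exists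
    simp only [zero_mul, Nat.floor_zero] at hL1
    rw [(thermoHyp h₁).zero L hL2, (thermoHyp h₂).zero L hL2] at hL1
    have hL3 : 0 < L ^ 3 := by
      have : 0 < L := by linarith
      positivity
    simp only [zero_add] at hL1 ⊢
    by_contra hc
    have hc' : c < 0 := not_le.mp hc
    nlinarith
  · have t₁ := tendsto_limFn (thermoHyp h₁) hx atTop (fun L : ℝ => L) (fun L : ℝ => ⌊x * L ^ 3⌋₊)
      tendsto_id (tendsto_canonical hx.le)
    have t₂ := tendsto_limFn (thermoHyp h₂) hx atTop (fun L : ℝ => L) (fun L : ℝ => ⌊x * L ^ 3⌋₊)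
      tendsto_id (tendsto_canonical hx.le)
    refine le_of_tendsto_of_tendsto t₁ (t₂.add_const c) ?_
    filter_upwards [hle, eventually_gt_atTop (0 : ℝ)] with L hL hL0
    have hL3 : 0 < L ^ 3 := by positivity
    rw [div_add' _ _ _ hL3.ne']
    exact div_le_div_of_nonneg_right hL hL3.le

end Crest.Agent.Lib.GasThermo
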