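import Crest.Agent.Lib.GasKernel
import Crest.Agent.Lib.GasThermo

/-!
# One level of attraction: lower and upper bound for the free energy (row 149)
-/

set_option autoImplicit false

namespace Crest.Agent.Lib.GasLevel

open MeasureTheory Filter Topology Crest.ProbabilityR.Continuum Crest.Agent.Lib.GasBasic
  Crest.Agent.Lib.GasKernel Crest.Agent.Lib.GasThermo
open scoped ENNReal

/-- Attractive part with amplitudes `τ` and radii `R`. -/
noncomputable def KSum (R τ : ℕ → ℝ) (r : ℝ) : ℝ := ∑' k, τ k * KK (R k) r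

/-- The potential with core `φs`, coupling `σ`, amplitudes `τ`, radii `R`. -/
noncomputable def pot (φs : ℝ → ℝ) (R : ℕ → ℝ) (σ : ℝ) (τ : ℕ → ℝ) (r : ℝ) : ℝ :=
  σ * φs r - KSum R τ r

/-- Truncation of the amplitudes. -/
def trunc (n : ℕ) (τ : ℕ → ℝ) : ℕ → ℝ := fun k => if k < n then τ k else 0

lemma volB_one_pos : 0 < volB 1 := volB_pos one_pos

lemma volB_mono {R R' : ℝ} (h0 : 0 < R) (h : R ≤ R') : volB R ≤ volB R' := by
  rw [volB_scale h0.le, volB_scale (h0.le.trans h)]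
  have : R ^ 3 ≤ R' ^ 3 := pow_le_pow_left₀ h0.le h 3
  exact mul_le_mul_of_nonneg_right this volB_one_pos.le

lemma summable_tau_KK {R τ : ℕ → ℝ} (hR : ∀ k, 1 ≤ R k) (hτ : Summable τ) (d : ℝ) :
    Summable (fun k => τ k * KK (R k) d) := by
  refine Summable.of_norm_bounded (g := fun k => |τ k| * (1 / volB 1)) (hτ.abs.mul_right _) fun k => ?_
  rw [Real.norm_eq_abs, abs_mul, abs_of_nonneg (KK_nonneg _ _)]
  refine mul_le_mul_of_nonneg_left ?_ (abs_nonneg _)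
  calc KK (R k) d ≤ 1 / volB (R k) := KK_le (by linarith [hR k]) d
    _ ≤ 1 / volB 1 := one_div_le_one_div_of_le volB_one_pos (volB_mono one_pos (hR k))

section pairE

variable {N : ℕ}

lemma pairE_mul (c : ℝ) (w : Pt → Pt → ℝ) (x : Fin N → Pt) :
    pairE (fun a b => c * w a b) x = c * pairE w x := by
  unfold pairE
  rw [mul_left_comm]
  congr 1
  rw [Finset.mul_sum]
  refine Finset.sum_congr rfl fun i _ => ?_
  rw [Finset.mul_sum]
  refine Finset.sum_congr rfl fun j _ => ?_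
  split_ifs <;> simp

lemma pairE_sub (w₁ w₂ : Pt → Pt → ℝ) (x : Fin N → Pt) :
    pairE (fun a b => w₁ a b - w₂ a b) x = pairE w₁ x - pairE w₂ x := by
  unfold pairE
  rw [← mul_sub]
  congr 1
  rw [← Finset.sum_sub_distrib]
  refine Finset.sum_congr rfl fun i _ => ?_
  rw [← Finset.sum_sub_distrib]
  refine Finset.sum_congr rfl fun j _ => ?_
  split_ifs <;> simp

lemma hasSum_pairE {w : ℕ → Pt → Pt → ℝ} {W : Pt → Pt → ℝ}
    (h : ∀ a b, HasSum (fun k => w k a b) (W a b)) (x : Fin N → Pt) :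
    HasSum (fun k => pairE (w k) x) (pairE W x) := by
  unfold pairE
  refine HasSum.mul_left _ ?_
  refine hasSum_sum fun i _ => hasSum_sum fun j _ => ?_
  by_cases hij : i = j
  · simp [hij, hasSum_zero]
  · simpa [hij] using h _ _

lemma pairE_nonneg_of_nonneg {w : Pt → Pt → ℝ} (h : ∀ a b, 0 ≤ w a b) (x : Fin N → Pt) :
    0 ≤ pairE w x := by
  unfold pairE
  refine mul_nonneg (by norm_num) (Finset.sum_nonneg fun i _ => Finset.sum_nonneg fun j _ => ?_)
  split_ifs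
  · exact le_rfl
  · exact h _ _

lemma pairE_KK_nonneg (R : ℝ) (x : Fin N → Pt) : 0 ≤ pairE (rad (KK R)) x :=
  pairE_nonneg_of_nonneg (fun _ _ => KK_nonneg _ _) x

/-- The attractive energy as a sum over the levels. -/
lemma hasSum_pairE_KSum {R τ : ℕ → ℝ} (hR : ∀ k, 1 ≤ R k) (hτ : Summable τ) (x : Fin N → Pt) :
    HasSum (fun k => τ k * pairE (rad (KK (R k))) x) (pairE (rad (KSum R τ)) x) := by
  have h := hasSum_pairE (w := fun k a b => τ k * rad (KK (R k)) a b) (W := rad (KSum R τ))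
    (fun a b => (summable_tau_KK hR hτ (dist a b)).hasSum) x
  simpa only [pairE_mul] using h

lemma pairE_pot_aux (φs : ℝ → ℝ) (R : ℕ → ℝ) (σ : ℝ) (τ : ℕ → ℝ) (x : Fin N → Pt) :
    pairE (rad (pot φs R σ τ)) x = σ * pairE (rad φs) x - pairE (rad (KSum R τ)) x := by
  rw [← pairE_mul, ← pairE_sub]
  rfl

/-- Pair energy of the attractive kernel is the sum over the levels. -/
lemma pairE_pot (φs : ℝ → ℝ) (R : ℕ → ℝ) (hR : ∀ k, 1 ≤ R k) (σ : ℝ) (τ : ℕ → ℝ)
    (hτ : Summable τ) {N : ℕ} (x : Fin N → Pt) :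
    pairE (rad (pot φs R σ τ)) x
      = σ * pairE (rad φs) x - ∑' k, τ k * pairE (rad (KK (R k))) x := by
  rw [pairE_pot_aux, (hasSum_pairE_KSum hR hτ x).tsum_eq]

end pairE

/-- The density limit along the canonical sequence. -/
lemma tendsto_density {x : ℝ} (hx : 0 ≤ x) :
    Tendsto (fun L : ℝ => ((⌊x * L ^ 3⌋₊ : ℕ) : ℝ) / L ^ 3) atTop (𝓝 x) := by
  have h3 : Tendsto (fun L : ℝ => L ^ 3) atTop atTop := tendsto_pow_atTop (by norm_num)
  exact (tendsto_nat_floor_mul_div_atTop hx).comp h3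

lemma tendsto_ratio (a : ℝ) : Tendsto (fun L : ℝ => L ^ 3 / (L + a) ^ 3) atTop (𝓝 1) := by
  have h1 : Tendsto (fun L : ℝ => a / L) atTop (𝓝 0) := tendsto_const_nhds.div_atTop tendsto_id
  have h2 : Tendsto (fun L : ℝ => (1 + a / L) ^ 3) atTop (𝓝 ((1 + 0) ^ 3)) :=
    (tendsto_const_nhds.add h1).pow 3
  have h3 : Tendsto (fun L : ℝ => 1 / (1 + a / L) ^ 3) atTop (𝓝 (1 / (1 + 0) ^ 3)) :=
    tendsto_const_nhds.div h2 (by norm_num)
  have h4 : Tendsto (fun L : ℝ => 1 / (1 + a / L) ^ 3) atTop (𝓝 1) := by simpa using h3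
  refine h4.congr' ?_
  filter_upwards [eventually_gt_atTop (0 : ℝ), eventually_gt_atTop (-a)] with L hL hLa
  have : 0 < L + a := by linarith
  field_simp

/-- Lower bound `(L)`: adding mass on levels `≥ n`.
Proof: `pairE_KK_ge` level by level (truncating the sum over levels), `logZ_le_of_pairE_le`,
`fe_le_of_logZ_le`, then let the truncation go to infinity. -/
theorem lower_level {φs : ℝ → ℝ} {R : ℕ → ℝ} (hR : ∀ k, 1 ≤ R k) (hRm : Monotone R) {σ : ℝ}
    {τ τ' : ℕ → ℝ} (hτ : ∀ k, 0 ≤ τ k) (hsum : Summable τ) (hsum' : Summable τ')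
    (hle : ∀ k, τ k ≤ τ' k) {n : ℕ} (hn : ∀ k, k < n → τ k = τ' k)
    {B Φ B' Φ' : ℝ} (hA : Adm (pot φs R σ τ) B Φ) (hA' : Adm (pot φs R σ τ') B' Φ') {x : ℝ} (hx : 0 ≤ x) :
    fe (pot φs R σ τ) x + (1 / 2) * ((∑' k, τ' k) - ∑' k, τ k) * (x ^ 2 - x / volB (R n))
      ≤ fe (pot φs R σ τ') x := by
  have hRpos : ∀ k, 0 < R k := fun k => by linarith [hR k]
  set V : ℝ := volB (R n) with hV
  have hVpos : 0 < V := volB_pos (hRpos n)
  -- the key inequality for a fixed truncation level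
  have key : ∀ (K : ℕ) (ε : ℝ), 0 < ε →
      fe (pot φs R σ τ) x + (1 / 2) * (∑ k ∈ Finset.range K, (τ' k - τ k)) * (x ^ 2 - x / V) - ε
        ≤ fe (pot φs R σ τ') x := by
    intro K ε hε
    set S : ℝ := ∑ k ∈ Finset.range K, (τ' k - τ k) with hS
    have hS0 : 0 ≤ S := Finset.sum_nonneg fun k _ => sub_nonneg.2 (hle k)
    set Rm : ℝ := R (K + n) with hRmdef
    have hRmpos : 0 < Rm := hRpos _
    -- pointwise comparison
    have hpt : ∀ (L : ℝ), 0 ≤ L → ∀ (N : ℕ) (y : Fin N → Pt), (∀ i, y i ∈ cube L) →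
        pairE (rad (pot φs R σ τ')) y ≤ pairE (rad (pot φs R σ τ)) y
          + (-(1 / 2) * S * ((N : ℝ) ^ 2 / (L + 2 * Rm) ^ 3 - N / V)) := by
      intro L hL N y hy
      rw [pairE_pot φs R hR σ τ' hsum', pairE_pot φs R hR σ τ hsum]
      have hs1 := (hasSum_pairE_KSum hR hsum y)
      have hs2 := (hasSum_pairE_KSum hR hsum' y)
      have hdiff := hs2.sub hs1
      have hsumm := hdiff.summable
      have hdiff_eq : (∑' k, τ' k * pairE (rad (KK (R k))) y) - ∑' k, τ k * pairE (rad (KK (R k))) y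
          = ∑' k, (τ' k * pairE (rad (KK (R k))) y - τ k * pairE (rad (KK (R k))) y) := by
        rw [hs1.tsum_eq, hs2.tsum_eq, hdiff.tsum_eq]
      have hterm : ∀ k, 0 ≤ τ' k * pairE (rad (KK (R k))) y - τ k * pairE (rad (KK (R k))) y := by
        intro k
        have := mul_le_mul_of_nonneg_right (hle k) (pairE_KK_nonneg (R k) y)
        linarith
      have hge : (∑ k ∈ Finset.range K, (τ' k * pairE (rad (KK (R k))) y - τ k * pairE (rad (KK (R k))) y))
          ≤ ∑' k, (τ' k * pairE (rad (KK (R k))) y - τ k * pairE (rad (KK (R k))) y) :=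
        hsumm.sum_le_tsum _ (fun k _ => hterm k)
      have hN0 : (0 : ℝ) ≤ N := Nat.cast_nonneg _
      have hlow : ∀ k ∈ Finset.range K, (τ' k - τ k) * ((1 / 2) * ((N : ℝ) ^ 2 / (L + 2 * Rm) ^ 3 - N / V))
          ≤ τ' k * pairE (rad (KK (R k))) y - τ k * pairE (rad (KK (R k))) y := by
        intro k hk
        by_cases hkn : k < n
        · rw [hn k hkn]; simp
        · have hkn' : n ≤ k := not_lt.mp hkn
          have hKk : k ≤ K + n := by
            have := Finset.mem_range.mp hk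
            omega
          have h1 := pairE_KK_ge (hRpos k) hL y hy
          have hRk : R k ≤ Rm := hRm hKk
          have hpos1 : 0 < L + 2 * R k := by linarith [hRpos k]
          have h2 : (N : ℝ) ^ 2 / (L + 2 * Rm) ^ 3 ≤ (N : ℝ) ^ 2 / (L + 2 * R k) ^ 3 := by
            apply div_le_div_of_nonneg_left (by positivity) (by positivity)
            exact pow_le_pow_left₀ hpos1.le (by linarith) 3
          have h3 : (N : ℝ) / volB (R k) ≤ N / V := by
            apply div_le_div_of_nonneg_left hN0 hVpos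
            exact volB_mono (hRpos n) (hRm hkn')
          have h4 : (1 / 2) * ((N : ℝ) ^ 2 / (L + 2 * Rm) ^ 3 - N / V) ≤ pairE (rad (KK (R k))) y := by
            refine le_trans ?_ h1
            have : (N : ℝ) ^ 2 / (L + 2 * Rm) ^ 3 - N / V ≤ (N : ℝ) ^ 2 / (L + 2 * R k) ^ 3 - N / volB (R k) := by
              linarith
            linarith
          have h5 := mul_le_mul_of_nonneg_left h4 (sub_nonneg.2 (hle k))
          calc _ ≤ (τ' k - τ k) * pairE (rad (KK (R k))) y := h5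
            _ = _ := by ring
      have hsumlow := Finset.sum_le_sum hlow
      rw [← Finset.sum_mul] at hsumlow
      have : -(1 / 2) * S * ((N : ℝ) ^ 2 / (L + 2 * Rm) ^ 3 - N / V) =
          -(S * ((1 / 2) * ((N : ℝ) ^ 2 / (L + 2 * Rm) ^ 3 - N / V))) := by ring
      rw [this]
      have e1 : S * ((1 / 2) * ((N : ℝ) ^ 2 / (L + 2 * Rm) ^ 3 - N / V)) ≤
          (∑' k, τ' k * pairE (rad (KK (R k))) y) - ∑' k, τ k * pairE (rad (KK (R k))) y := by
        rw [hdiff_eq]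
        exact le_trans hsumlow hge
      linarith
    -- pass to the limit
    have hlim : Tendsto (fun L : ℝ => (-(1 / 2) * S *
        (((⌊x * L ^ 3⌋₊ : ℕ) : ℝ) ^ 2 / (L + 2 * Rm) ^ 3 - ((⌊x * L ^ 3⌋₊ : ℕ) : ℝ) / V)) / L ^ 3) atTop
        (𝓝 (-(1 / 2) * S * (x ^ 2 - x / V))) := by
      have hu := tendsto_density hx
      have hr := tendsto_ratio (2 * Rm)
      have h1 : Tendsto (fun L : ℝ => -(1 / 2) * S * ((((⌊x * L ^ 3⌋₊ : ℕ) : ℝ) / L ^ 3) ^ 2 *
          (L ^ 3 / (L + 2 * Rm) ^ 3) - (((⌊x * L ^ 3⌋₊ : ℕ) : ℝ) / L ^ 3) / V)) atTop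
          (𝓝 (-(1 / 2) * S * (x ^ 2 * 1 - x / V))) :=
        tendsto_const_nhds.mul (((hu.pow 2).mul hr).sub (hu.div_const V))
      rw [mul_one] at h1
      refine h1.congr' ?_
      filter_upwards [eventually_gt_atTop (0 : ℝ)] with L hL
      have hL' : 0 < L + 2 * Rm := by linarith
      field_simp
    have hev : ∀ᶠ L : ℝ in atTop, (-(1 / 2) * S *
        (((⌊x * L ^ 3⌋₊ : ℕ) : ℝ) ^ 2 / (L + 2 * Rm) ^ 3 - ((⌊x * L ^ 3⌋₊ : ℕ) : ℝ) / V)) / L ^ 3
        < -(1 / 2) * S * (x ^ 2 - x / V) + ε :=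
      hlim.eventually_lt_const (by linarith)
    have hfe := fe_le_of_logZ_le (c := -(1 / 2) * S * (x ^ 2 - x / V) + ε) hA hA' hx (by
      filter_upwards [hev, eventually_gt_atTop (0 : ℝ)] with L hLev hL
      have h1 := logZ_le_of_pairE_le hA hA' hL ⌊x * L ^ 3⌋₊ (-(1 / 2) * S *
        (((⌊x * L ^ 3⌋₊ : ℕ) : ℝ) ^ 2 / (L + 2 * Rm) ^ 3 - ((⌊x * L ^ 3⌋₊ : ℕ) : ℝ) / V))
        (fun y hy => hpt L hL.le _ y hy)
      have hL3 : 0 < L ^ 3 := by positivity
      rw [div_lt_iff₀ hL3] at hLev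
      linarith)
    linarith
  -- let `ε → 0`
  have key2 : ∀ K : ℕ, fe (pot φs R σ τ) x + (1 / 2) * (∑ k ∈ Finset.range K, (τ' k - τ k)) * (x ^ 2 - x / V)
      ≤ fe (pot φs R σ τ') x := fun K => le_of_forall_pos_sub_le (fun ε hε => key K ε hε)
  -- let `K → ∞`
  have hS : Tendsto (fun K : ℕ => ∑ k ∈ Finset.range K, (τ' k - τ k)) atTop
      (𝓝 ((∑' k, τ' k) - ∑' k, τ k)) :=
    (hsum'.hasSum.sub hsum.hasSum).tendsto_sum_nat
  have hlim : Tendsto (fun K : ℕ => fe (pot φs R σ τ) x + (1 / 2) * (∑ k ∈ Finset.range K, (τ' k - τ k)) * (x ^ 2 - x / V))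
      atTop (𝓝 (fe (pot φs R σ τ) x + (1 / 2) * ((∑' k, τ' k) - ∑' k, τ k) * (x ^ 2 - x / V))) :=
    tendsto_const_nhds.add ((tendsto_const_nhds.mul hS).mul tendsto_const_nhds)
  exact le_of_tendsto' hlim key2

/-! ### Grids and shifts -/

/-- Cell index of a point in the grid of side `l` shifted by `j * h`. -/
noncomputable def vv (l h : ℝ) (j : ℕ) (p : Pt) : Fin 3 → ℤ := fun k => ⌊(p k - j * h) / l⌋

lemma vv_spec {l : ℝ} (hl : 0 < l) (h : ℝ) (j : ℕ) (p : Pt) (k : Fin 3) :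
    ((vv l h j p k : ℤ) : ℝ) * l + (j * h) ≤ p k ∧
      p k < (((vv l h j p k : ℤ) : ℝ) + 1) * l + (j * h) := by
  constructor
  · have h1 := Int.floor_le ((p k - j * h) / l)
    have h2 := (le_div_iff₀ hl).mp h1
    simp only [vv]; linarith
  · have h1 := Int.lt_floor_add_one ((p k - j * h) / l)
    have h2 := (div_lt_iff₀ hl).mp h1
    simp only [vv]; linarith

lemma vv_eq_of_mem_cell {l : ℝ} (hl : 0 < l) {h : ℝ} {j : ℕ} {p : Pt} {c : Fin 3 → ℤ}
    (hp : p ∈ cell l (fun _ => (j : ℝ) * h) c) : vv l h j p = c := by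
  funext k
  have h0 := hp k
  refine Int.floor_eq_iff.mpr ⟨?_, ?_⟩
  · rw [le_div_iff₀ hl]; linarith [h0.1]
  · rw [div_lt_iff₀ hl]; linarith [h0.2]

lemma measurable_coord (k : Fin 3) : Measurable (fun x : Pt => x k) :=
  (EuclideanSpace.proj (𝕜 := ℝ) k).continuous.measurable

lemma measurable_vv (l h : ℝ) (j : ℕ) : Measurable (vv l h j) := by
  rw [measurable_pi_iff]
  intro k
  exact Int.measurable_floor.comp (((measurable_coord k).sub_const _).div_const _)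

lemma card_sep_coord_aux {M : ℕ} (hM : 1 ≤ M) {l : ℝ} (hl : 0 < l) {a b : ℝ} (hab : a ≤ b) :
    (((Finset.range M).filter (fun j : ℕ =>
        ⌊(a - j * (l / M)) / l⌋ ≠ ⌊(b - j * (l / M)) / l⌋)).card : ℝ) ≤ M * (b - a) / l + 1 := by
  have hM0 : (0 : ℝ) < M := by exact_mod_cast hM
  set h : ℝ := l / M with hh
  have hh0 : 0 < h := div_pos hl hM0
  have hl' : (M : ℝ) * h = l := by rw [hh]; field_simp
  let t : ℕ → ℤ := fun j => ⌊(b - j * h) / l⌋ * (M : ℤ) + (j : ℤ)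
  have he : ∀ j : ℕ, ((t j : ℤ) : ℝ) * h = (⌊(b - j * h) / l⌋ : ℝ) * l + j * h := by
    intro j
    simp only [t]
    push_cast
    rw [← hl']
    ring
  have hmaps : ∀ j ∈ (Finset.range M).filter (fun j : ℕ =>
      ⌊(a - j * h) / l⌋ ≠ ⌊(b - j * h) / l⌋), t j ∈ Finset.Ioc ⌊a / h⌋ ⌊b / h⌋ := by
    intro j hj
    obtain ⟨-, hne⟩ := Finset.mem_filter.mp hj
    have hmono : ⌊(a - j * h) / l⌋ ≤ ⌊(b - j * h) / l⌋ := by
      apply Int.floor_le_floor
      apply div_le_div_of_nonneg_right _ hl.le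
      linarith
    have hlt := lt_of_le_of_ne hmono hne
    have h1 : ((⌊(b - j * h) / l⌋ : ℤ) : ℝ) ≤ (b - j * h) / l := Int.floor_le _
    have h2 : (a - j * h) / l < ((⌊(b - j * h) / l⌋ : ℤ) : ℝ) := Int.floor_lt.mp hlt
    have h1' := (le_div_iff₀ hl).mp h1
    have h2' := (div_lt_iff₀ hl).mp h2
    refine Finset.mem_Ioc.mpr ⟨?_, ?_⟩
    · apply Int.floor_lt.mpr
      rw [div_lt_iff₀ hh0, he]
      linarith
    · apply Int.le_floor.mpr
      rw [le_div_iff₀ hh0, he]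
      linarith
  have hinj : Set.InjOn t ((Finset.range M).filter (fun j : ℕ =>
      ⌊(a - j * h) / l⌋ ≠ ⌊(b - j * h) / l⌋) : Finset ℕ) := by
    intro j hj j' hj' htt
    have hj1 : j < M := Finset.mem_range.mp (Finset.mem_filter.mp hj).1
    have hj2 : j' < M := Finset.mem_range.mp (Finset.mem_filter.mp hj').1
    simp only [t] at htt
    set m := ⌊(b - j * h) / l⌋
    set m' := ⌊(b - j' * h) / l⌋
    have hM' : (0 : ℤ) < M := by exact_mod_cast hM
    have hmm : m = m' := by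
      by_contra hne
      rcases lt_or_gt_of_ne hne with hlt | hlt
      · have : (M : ℤ) ≤ (m' - m) * M := by nlinarith
        have h3 : (m' - m) * (M : ℤ) = (j : ℤ) - j' := by linarith
        omega
      · have : (M : ℤ) ≤ (m - m') * M := by nlinarith
        have h3 : (m - m') * (M : ℤ) = (j' : ℤ) - j := by linarith
        omega
    rw [hmm] at htt
    omega
  have hcard := Finset.card_le_card_of_injOn t hmaps hinj
  rw [Int.card_Ioc] at hcard
  have hfl : ⌊a / h⌋ ≤ ⌊b / h⌋ := Int.floor_le_floor (div_le_div_of_nonneg_right hab hh0.le)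
  have h3 : ((⌊b / h⌋ - ⌊a / h⌋).toNat : ℝ) = (⌊b / h⌋ : ℝ) - ⌊a / h⌋ := by
    have : (((⌊b / h⌋ - ⌊a / h⌋).toNat : ℤ) : ℤ) = ⌊b / h⌋ - ⌊a / h⌋ :=
      Int.toNat_of_nonneg (by omega)
    have h4 : (((⌊b / h⌋ - ⌊a / h⌋).toNat : ℤ) : ℝ) = ((⌊b / h⌋ - ⌊a / h⌋ : ℤ) : ℝ) := by
      rw [this]
    push_cast at h4
    exact_mod_cast h4
  have h5 : (⌊b / h⌋ : ℝ) ≤ b / h := Int.floor_le _
  have h6 : a / h < (⌊a / h⌋ : ℝ) + 1 := Int.lt_floor_add_one _
  have h7 : (b - a) / h = M * (b - a) / l := by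
    rw [hh]; field_simp
  calc _ ≤ ((⌊b / h⌋ - ⌊a / h⌋).toNat : ℝ) := by exact_mod_cast hcard
    _ = (⌊b / h⌋ : ℝ) - ⌊a / h⌋ := h3
    _ ≤ (b - a) / h + 1 := by
        have : (b - a) / h = b / h - a / h := by ring
        linarith
    _ = _ := by rw [h7]

lemma card_sep_coord {M : ℕ} (hM : 1 ≤ M) {l : ℝ} (hl : 0 < l) (a b : ℝ) :
    (((Finset.range M).filter (fun j : ℕ =>
        ⌊(a - j * (l / M)) / l⌋ ≠ ⌊(b - j * (l / M)) / l⌋)).card : ℝ) ≤ M * |a - b| / l + 1 := by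
  rcases le_total a b with hab | hab
  · rw [abs_of_nonpos (by linarith), neg_sub]
    exact card_sep_coord_aux hM hl hab
  · rw [abs_of_nonneg (by linarith)]
    have := card_sep_coord_aux hM hl hab
    simpa only [ne_comm] using this

lemma sum_abs_coord_le (p q : Pt) : ∑ k : Fin 3, |p k - q k| ≤ Real.sqrt 3 * dist p q := by
  have h1 : (∑ k : Fin 3, |p k - q k|) ^ 2 ≤ 3 * ∑ k : Fin 3, |p k - q k| ^ 2 := by
    have := sq_sum_le_card_mul_sum_sq (s := (Finset.univ : Finset (Fin 3))) (f := fun k => |p k - q k|)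
    simpa using this
  have h2 : dist p q = Real.sqrt (∑ k : Fin 3, |p k - q k| ^ 2) := by
    rw [EuclideanSpace.dist_eq]
    simp [Real.dist_eq]
  rw [h2, ← Real.sqrt_mul (by norm_num)]
  apply Real.le_sqrt_of_sq_le h1

lemma card_sep {M : ℕ} (hM : 1 ≤ M) {l : ℝ} (hl : 0 < l) (p q : Pt) :
    (((Finset.range M).filter (fun j : ℕ => vv l (l / M) j p ≠ vv l (l / M) j q)).card : ℝ)
      ≤ M * (Real.sqrt 3 * dist p q) / l + 3 := by
  have hsub : (Finset.range M).filter (fun j : ℕ => vv l (l / M) j p ≠ vv l (l / M) j q) ⊆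
      Finset.univ.biUnion (fun k : Fin 3 => (Finset.range M).filter (fun j : ℕ =>
        ⌊(p k - j * (l / M)) / l⌋ ≠ ⌊(q k - j * (l / M)) / l⌋)) := by
    intro j hj
    obtain ⟨hj1, hj2⟩ := Finset.mem_filter.mp hj
    obtain ⟨k, hk⟩ := Function.ne_iff.mp hj2
    exact Finset.mem_biUnion.mpr ⟨k, Finset.mem_univ _, Finset.mem_filter.mpr ⟨hj1, hk⟩⟩
  have h1 : (((Finset.range M).filter (fun j : ℕ => vv l (l / M) j p ≠ vv l (l / M) j q)).card : ℝ)
      ≤ ∑ k : Fin 3, (((Finset.range M).filter (fun j : ℕ =>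
        ⌊(p k - j * (l / M)) / l⌋ ≠ ⌊(q k - j * (l / M)) / l⌋)).card : ℝ) := by
    have := (Finset.card_le_card hsub).trans Finset.card_biUnion_le
    exact_mod_cast this
  have hM0 : (0 : ℝ) ≤ M := Nat.cast_nonneg _
  calc _ ≤ _ := h1
    _ ≤ ∑ k : Fin 3, ((M : ℝ) * |p k - q k| / l + 1) :=
        Finset.sum_le_sum fun k _ => card_sep_coord hM hl _ _
    _ = M * (∑ k : Fin 3, |p k - q k|) / l + 3 := by
        simp only [Fin.sum_univ_three]
        ring
    _ ≤ _ := by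
        have := sum_abs_coord_le p q
        have h2 : (M : ℝ) * (∑ k : Fin 3, |p k - q k|) / l ≤ M * (Real.sqrt 3 * dist p q) / l :=
          div_le_div_of_nonneg_right (mul_le_mul_of_nonneg_left this hM0) hl.le
        linarith

/-- Averaging over the shifts. -/
lemma exists_shift {ι : Type*} [Fintype ι] (f : ι → ℝ) (hf : ∀ i, 0 ≤ f i) {M : ℕ} (hM : 1 ≤ M)
    (same : ι → ℕ → Prop) [∀ i j, Decidable (same i j)] {a : ℝ}
    (hcount : ∀ i, f i ≠ 0 → (M : ℝ) * a ≤ (((Finset.range M).filter (same i)).card : ℝ)) :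
    ∃ j ∈ Finset.range M, a * ∑ i, f i ≤ ∑ i, if same i j then f i else 0 := by
  have hne : (Finset.range M).Nonempty := ⟨0, Finset.mem_range.mpr (by omega)⟩
  apply Finset.exists_le_of_sum_le hne
  rw [Finset.sum_const, Finset.card_range, nsmul_eq_mul, Finset.sum_comm]
  have h1 : ∀ i, (M : ℝ) * a * f i ≤ ∑ j ∈ Finset.range M, if same i j then f i else 0 := by
    intro i
    rw [Finset.sum_ite, Finset.sum_const_zero, add_zero, Finset.sum_const, nsmul_eq_mul]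
    by_cases h0 : f i = 0
    · simp [h0]
    · exact mul_le_mul_of_nonneg_right (hcount i h0) (hf i)
  calc (M : ℝ) * (a * ∑ i, f i) = ∑ i, (M : ℝ) * a * f i := by
        rw [Finset.mul_sum, Finset.mul_sum]
        refine Finset.sum_congr rfl fun i _ => ?_
        ring
    _ ≤ _ := Finset.sum_le_sum fun i _ => h1 i

/-! ### Low levels -/

lemma summable_trunc (n : ℕ) (τ : ℕ → ℝ) : Summable (trunc n τ) :=
  summable_of_ne_finset_zero (s := Finset.range n) (fun k hk => by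
    simp only [trunc]
    rw [if_neg]
    simpa using hk)

lemma trunc_nonneg {τ : ℕ → ℝ} (hτ : ∀ k, 0 ≤ τ k) (n k : ℕ) : 0 ≤ trunc n τ k := by
  simp only [trunc]
  split_ifs
  · exact hτ k
  · exact le_rfl

lemma KSum_trunc (R τ : ℕ → ℝ) (n : ℕ) (d : ℝ) :
    KSum R (trunc n τ) d = ∑ k ∈ Finset.range n, τ k * KK (R k) d := by
  unfold KSum
  rw [tsum_eq_sum (s := Finset.range n)]
  · refine Finset.sum_congr rfl fun k hk => ?_
    simp [trunc, Finset.mem_range.mp hk]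
  · intro k hk
    have : ¬ k < n := by simpa using hk
    simp [trunc, this]

lemma KSum_smul (R τ : ℕ → ℝ) (c d : ℝ) : KSum R (c • τ) d = c * KSum R τ d := by
  unfold KSum
  simp only [Pi.smul_apply, smul_eq_mul, mul_assoc]
  rw [tsum_mul_left]

lemma KSum_trunc_nonneg {R τ : ℕ → ℝ} (hτ : ∀ k, 0 ≤ τ k) (n : ℕ) (d : ℝ) :
    0 ≤ KSum R (trunc n τ) d := by
  rw [KSum_trunc]
  exact Finset.sum_nonneg fun k _ => mul_nonneg (hτ k) (KK_nonneg _ _)

lemma KSum_trunc_ne_zero {R τ : ℕ → ℝ} (hR : ∀ k, 0 < R k) {n : ℕ} {d : ℝ}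
    (h : KSum R (trunc n τ) d ≠ 0) : ∃ k, k < n ∧ d < 2 * R k := by
  by_contra hcon
  push Not at hcon
  apply h
  rw [KSum_trunc]
  refine Finset.sum_eq_zero fun k hk => ?_
  rw [KK_eq_zero (hR k) (hcon k (Finset.mem_range.mp hk)), mul_zero]

/-- The pair function of the grid with shift `j`. -/
noncomputable def wj (φs : ℝ → ℝ) (R : ℕ → ℝ) (σ : ℝ) (τ : ℕ → ℝ) (ζ : ℝ) (n : ℕ) (Tm l h : ℝ) (j : ℕ)
    (p q : Pt) : ℝ :=
  if vv l h j p = vv l h j q then pot φs R σ ((1 + ζ) • trunc n τ) (dist p q) - Tm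
  else σ * φs (dist p q)

lemma goodPair_wj {φs : ℝ → ℝ} (hφm : Measurable φs) {R : ℕ → ℝ} {σ : ℝ} {τ : ℕ → ℝ} {ζ : ℝ} {n : ℕ}
    {Tm l h : ℝ} {j : ℕ} (hm : Measurable (pot φs R σ ((1 + ζ) • trunc n τ))) :
    GoodPair (wj φs R σ τ ζ n Tm l h j) where
  symm a b := by
    unfold wj
    simp only [eq_comm (a := vv l h j a), dist_comm a b]
  meas := by
    unfold wj
    have hd : Measurable (fun p : Pt × Pt => dist p.1 p.2) := measurable_fst.dist measurable_snd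
    refine Measurable.ite ?_ ((hm.comp hd).sub_const _) ((hφm.comp hd).const_mul _)
    exact measurableSet_eq_fun ((measurable_vv l h j).comp measurable_fst)
      ((measurable_vv l h j).comp measurable_snd)

section energy

variable {N : ℕ}

/-- The energy of `wj` in terms of the within-cell sums. -/
lemma pairE_wj (φs : ℝ → ℝ) (R : ℕ → ℝ) (σ : ℝ) (τ : ℕ → ℝ) (ζ : ℝ) (n : ℕ) (Tm l h : ℝ) (j : ℕ)
    (x : Fin N → Pt) :
    pairE (wj φs R σ τ ζ n Tm l h j) x = σ * pairE (rad φs) x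
      - (1 + ζ) * ((1 / 2) * ∑ a, ∑ b, if a = b then 0 else
          if vv l h j (x a) = vv l h j (x b) then KSum R (trunc n τ) (dist (x a) (x b)) else 0)
      - Tm * ((1 / 2) * ∑ a, ∑ b, if a = b then (0 : ℝ) else
          if vv l h j (x a) = vv l h j (x b) then 1 else 0) := by
  unfold pairE
  have hterm : ∀ a b : Fin N, (if a = b then (0 : ℝ) else wj φs R σ τ ζ n Tm l h j (x a) (x b)) =
      σ * (if a = b then (0 : ℝ) else rad φs (x a) (x b))
      - (1 + ζ) * (if a = b then 0 else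
          if vv l h j (x a) = vv l h j (x b) then KSum R (trunc n τ) (dist (x a) (x b)) else 0)
      - Tm * (if a = b then (0 : ℝ) else
          if vv l h j (x a) = vv l h j (x b) then 1 else 0) := by
    intro a b
    by_cases hab : a = b
    · simp [hab]
    · simp only [hab, if_false]
      unfold wj
      by_cases hs : vv l h j (x a) = vv l h j (x b)
      · simp only [hs, if_true]
        unfold pot rad
        rw [KSum_smul]
        ring
      · simp only [hs, if_false]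
        unfold rad
        ring
  simp_rw [hterm, Finset.sum_sub_distrib, ← Finset.mul_sum]
  ring

lemma sum_same_eq (v : Fin N → Fin 3 → ℤ) :
    (∑ a, ∑ b, if v a = v b then (1 : ℝ) else 0) =
      N + ∑ a, ∑ b, if a = b then (0 : ℝ) else if v a = v b then 1 else 0 := by
  have h1 : ∀ a : Fin N, (∑ b, if v a = v b then (1 : ℝ) else 0) =
      1 + ∑ b, if a = b then (0 : ℝ) else if v a = v b then 1 else 0 := by
    intro a
    have h2 : ∀ b : Fin N, (if v a = v b then (1 : ℝ) else 0) = (if a = b then (1 : ℝ) else 0) +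
        if a = b then (0 : ℝ) else if v a = v b then 1 else 0 := by
      intro b
      by_cases hab : a = b
      · subst hab; simp
      · simp [hab]
    rw [Finset.sum_congr rfl (fun b _ => h2 b), Finset.sum_add_distrib]
    simp
  rw [Finset.sum_congr rfl (fun a _ => h1 a), Finset.sum_add_distrib]
  simp

end energy

section main

variable {φs : ℝ → ℝ} {R : ℕ → ℝ} {σ : ℝ} {τ : ℕ → ℝ} {n M N : ℕ} {l ζ₀ ζ : ℝ}

/-- For some shift, most of the low-level energy is within cells. -/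
lemma exists_shift_low (hR : ∀ k, 1 ≤ R k) (hτ : ∀ k, 0 ≤ τ k) (hl : 0 < l) (hM : 1 ≤ M)
    (hζ₀ : ∀ k, k < n → 2 * Real.sqrt 3 * R k / l + 3 / (M : ℝ) ≤ ζ₀) (hζ₀1 : ζ₀ < 1)
    (hζ : 1 / (1 - ζ₀) ≤ 1 + ζ) (x : Fin N → Pt) :
    ∃ j ∈ Finset.range M, pairE (rad (KSum R (trunc n τ))) x ≤
      (1 + ζ) * ((1 / 2) * ∑ a, ∑ b, if a = b then 0 else
        if vv l (l / M) j (x a) = vv l (l / M) j (x b) then
          KSum R (trunc n τ) (dist (x a) (x b)) else 0) := by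
  have hRpos : ∀ k, 0 < R k := fun k => by linarith [hR k]
  have hM0 : (0 : ℝ) < M := by exact_mod_cast hM
  have hz : 0 < 1 - ζ₀ := by linarith
  let f : Fin N × Fin N → ℝ := fun p =>
    if p.1 = p.2 then 0 else KSum R (trunc n τ) (dist (x p.1) (x p.2))
  have hf : ∀ p, 0 ≤ f p := by
    intro p
    simp only [f]
    split_ifs
    · exact le_rfl
    · exact KSum_trunc_nonneg hτ n _
  have hcount : ∀ p, f p ≠ 0 → (M : ℝ) * (1 - ζ₀) ≤ (((Finset.range M).filter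
      (fun j : ℕ => vv l (l / M) j (x p.1) = vv l (l / M) j (x p.2))).card : ℝ) := by
    intro p hp
    have hp' : KSum R (trunc n τ) (dist (x p.1) (x p.2)) ≠ 0 := by
      intro h0
      apply hp
      simp only [f]
      split_ifs
      · rfl
      · exact h0
    obtain ⟨k, hk, hd⟩ := KSum_trunc_ne_zero hRpos hp'
    have h1 := card_sep hM hl (x p.1) (x p.2)
    have h2 : (((Finset.range M).filter
        (fun j : ℕ => vv l (l / M) j (x p.1) = vv l (l / M) j (x p.2))).card : ℝ) +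
        (((Finset.range M).filter
        (fun j : ℕ => vv l (l / M) j (x p.1) ≠ vv l (l / M) j (x p.2))).card : ℝ) = M := by
      have := Finset.card_filter_add_card_filter_not (s := Finset.range M)
        (fun j : ℕ => vv l (l / M) j (x p.1) = vv l (l / M) j (x p.2))
      rw [Finset.card_range] at this
      exact_mod_cast this
    have h3 := hζ₀ k hk
    have h4 : (M : ℝ) * (Real.sqrt 3 * dist (x p.1) (x p.2)) / l + 3 ≤ M * ζ₀ := by
      have h5 : (M : ℝ) * (Real.sqrt 3 * dist (x p.1) (x p.2)) / l ≤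
          M * (2 * Real.sqrt 3 * R k / l) := by
        rw [mul_div_assoc]
        apply mul_le_mul_of_nonneg_left _ hM0.le
        apply div_le_div_of_nonneg_right _ hl.le
        have := Real.sqrt_nonneg 3
        nlinarith
      have h6 : (M : ℝ) * (3 / (M : ℝ)) = 3 := by field_simp
      nlinarith
    nlinarith
  obtain ⟨j, hj, hjle⟩ := exists_shift f hf hM
    (fun p j => vv l (l / M) j (x p.1) = vv l (l / M) j (x p.2)) hcount
  refine ⟨j, hj, ?_⟩
  have e1 : pairE (rad (KSum R (trunc n τ))) x = (1 / 2) * ∑ p, f p := by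
    rw [Fintype.sum_prod_type]
    rfl
  have e2 : (∑ p, if vv l (l / M) j (x p.1) = vv l (l / M) j (x p.2) then f p else 0) =
      ∑ a, ∑ b, if a = b then 0 else
        if vv l (l / M) j (x a) = vv l (l / M) j (x b) then
          KSum R (trunc n τ) (dist (x a) (x b)) else 0 := by
    rw [Fintype.sum_prod_type]
    refine Finset.sum_congr rfl fun a _ => Finset.sum_congr rfl fun b _ => ?_
    simp only [f]
    by_cases hab : a = b
    · simp [hab]
    · simp [hab]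
  rw [e1, ← e2]
  have hF : 0 ≤ ∑ p, f p := Finset.sum_nonneg fun p _ => hf p
  have h1 : 1 ≤ (1 + ζ) * (1 - ζ₀) := (div_le_iff₀ hz).mp hζ
  have h2 : 0 < 1 + ζ := lt_of_lt_of_le (one_div_pos.mpr hz) hζ
  have h3 : (1 + ζ) * ((1 - ζ₀) * ∑ p, f p) ≤ (1 + ζ) *
      ∑ p, if vv l (l / M) j (x p.1) = vv l (l / M) j (x p.2) then f p else 0 :=
    mul_le_mul_of_nonneg_left hjle h2.le
  nlinarith

/-- The high levels are bounded by the occupation numbers of any grid. -/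
lemma tail_le (hR : ∀ k, 1 ≤ R k) (hRm : Monotone R) (hτ : ∀ k, 0 ≤ τ k) (hsum : Summable τ)
    (hl : 0 < l) (h : ℝ) (j : ℕ) (x : Fin N → Pt) :
    ∑' k, τ (k + n) * pairE (rad (KK (R (k + n)))) x ≤ (∑' k, τ (k + n)) *
      ((1 / 2) * ((1 + Real.sqrt 3 * l / R n) ^ 6 / l ^ 3) *
        ∑ a, ∑ b, if vv l h j (x a) = vv l h j (x b) then (1 : ℝ) else 0) := by
  have hRpos : ∀ k, 0 < R k := fun k => by linarith [hR k]
  have hs1 : Summable (fun k => τ (k + n) * pairE (rad (KK (R (k + n)))) x) :=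
    (summable_nat_add_iff n).2 (hasSum_pairE_KSum hR hsum x).summable
  have hs2 : Summable (fun k => τ (k + n)) := (summable_nat_add_iff n).2 hsum
  rw [← tsum_mul_right]
  refine hs1.tsum_le_tsum (fun k => ?_) (hs2.mul_right _)
  refine mul_le_mul_of_nonneg_left ?_ (hτ _)
  have h1 := pairE_KK_le (hRpos (k + n)) hl x (fun _ => (j : ℝ) * h) (fun i => vv l h j (x i))
    (fun i k' => vv_spec hl h j (x i) k')
  refine le_trans h1 ?_
  have hSq : 0 ≤ ∑ a, ∑ b, if vv l h j (x a) = vv l h j (x b) then (1 : ℝ) else 0 :=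
    Finset.sum_nonneg fun a _ => Finset.sum_nonneg fun b _ => by split_ifs <;> norm_num
  have h2 : (1 + Real.sqrt 3 * l / R (k + n)) ^ 6 ≤ (1 + Real.sqrt 3 * l / R n) ^ 6 := by
    have hp0 : 0 < R (k + n) := hRpos (k + n)
    apply pow_le_pow_left₀ (by positivity)
    have h3 : R n ≤ R (k + n) := hRm (by omega)
    have h4 : Real.sqrt 3 * l / R (k + n) ≤ Real.sqrt 3 * l / R n :=
      div_le_div_of_nonneg_left (by positivity) (hRpos n) h3
    linarith
  have hl3 : 0 < l ^ 3 := by positivity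
  have e1 : (1 / 2 : ℝ) * (1 + Real.sqrt 3 * l / R (k + n)) ^ 6 / l ^ 3 =
      (1 / 2) * ((1 + Real.sqrt 3 * l / R (k + n)) ^ 6 / l ^ 3) := by ring
  rw [e1]
  refine mul_le_mul_of_nonneg_right ?_ hSq
  refine mul_le_mul_of_nonneg_left ?_ (by norm_num)
  exact div_le_div_of_nonneg_right h2 hl3.le

/-- The pointwise comparison. -/
lemma pairE_pot_ge (hR : ∀ k, 1 ≤ R k) (hRm : Monotone R) (hτ : ∀ k, 0 ≤ τ k) (hsum : Summable τ)
    (hl : 0 < l) (hM : 1 ≤ M)
    (hζ₀ : ∀ k, k < n → 2 * Real.sqrt 3 * R k / l + 3 / (M : ℝ) ≤ ζ₀) (hζ₀1 : ζ₀ < 1)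
    (hζ : 1 / (1 - ζ₀) ≤ 1 + ζ) (x : Fin N → Pt) :
    ∃ j ∈ Finset.range M,
      pairE (wj φs R σ τ ζ n ((∑' k, τ (k + n)) * ((1 + Real.sqrt 3 * l / R n) ^ 6 / l ^ 3)) l (l / M) j) x
        - (1 / 2) * ((∑' k, τ (k + n)) * ((1 + Real.sqrt 3 * l / R n) ^ 6 / l ^ 3)) * N
        ≤ pairE (rad (pot φs R σ τ)) x := by
  obtain ⟨j, hj, hlow⟩ := exists_shift_low (n := n) hR hτ hl hM hζ₀ hζ₀1 hζ x
  refine ⟨j, hj, ?_⟩
  rw [pairE_wj, pairE_pot_aux]
  set T : ℝ := ∑' k, τ (k + n) with hT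
  set C : ℝ := (1 + Real.sqrt 3 * l / R n) ^ 6 / l ^ 3 with hC
  have htail := tail_le (n := n) hR hRm hτ hsum hl (l / M) j x
  rw [← hT, ← hC, sum_same_eq (fun a => vv l (l / M) j (x a))] at htail
  have e1 : pairE (rad (KSum R τ)) x = ∑' k, τ k * pairE (rad (KK (R k))) x :=
    (hasSum_pairE_KSum hR hsum x).tsum_eq.symm
  have hsm := (hasSum_pairE_KSum hR hsum x).summable
  have e2 := hsm.sum_add_tsum_nat_add n
  have e3 : pairE (rad (KSum R (trunc n τ))) x =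
      ∑ k ∈ Finset.range n, τ k * pairE (rad (KK (R k))) x := by
    rw [← (hasSum_pairE_KSum hR (summable_trunc n τ) x).tsum_eq,
      tsum_eq_sum (s := Finset.range n)]
    · refine Finset.sum_congr rfl fun k hk => ?_
      simp [trunc, Finset.mem_range.mp hk]
    · intro k hk
      have : ¬ k < n := by simpa using hk
      simp [trunc, this]
  rw [← e3] at e2
  rw [e1, ← e2]
  set X : ℝ := (1 / 2) * ∑ a, ∑ b, if a = b then 0 else
        if vv l (l / M) j (x a) = vv l (l / M) j (x b) then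
          KSum R (trunc n τ) (dist (x a) (x b)) else 0 with hX
  set Y : ℝ := ∑ a, ∑ b, if a = b then (0 : ℝ) else
        if vv l (l / M) j (x a) = vv l (l / M) j (x b) then 1 else 0 with hY
  have e4 : T * ((1 / 2) * C * ((N : ℝ) + Y)) = (T * C) * ((1 / 2) * Y) + (1 / 2) * (T * C) * N := by
    ring
  linarith

end main

/-- Integrating a pointwise bound by a finite sum of weights. -/
lemma Zw_le_sum {N : ℕ} {w : Pt → Pt → ℝ} {ws : ℕ → Pt → Pt → ℝ} (hg : ∀ j, GoodPair (ws j)) (M : ℕ)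
    (C : ℝ≥0∞) (Λ : Set Pt)
    (h : ∀ x : Fin N → Pt, wgt w x ≤ C * ∑ j ∈ Finset.range M, wgt (ws j) x) :
    Zw w Λ N ≤ C * ∑ j ∈ Finset.range M, Zw (ws j) Λ N := by
  unfold Zw confInt
  have hm : ∀ j, Measurable (wgt (ws j) : (Fin N → Pt) → ℝ≥0∞) := fun j => measurable_wgt (hg j)
  have hms : Measurable (fun x : Fin N → Pt => ∑ j ∈ Finset.range M, wgt (ws j) x) :=
    Finset.measurable_sum _ fun j _ => hm j
  calc (N.factorial : ℝ≥0∞)⁻¹ * ∫⁻ x in Set.pi Set.univ (fun _ : Fin N => Λ), wgt w x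
      ≤ (N.factorial : ℝ≥0∞)⁻¹ * ∫⁻ x in Set.pi Set.univ (fun _ : Fin N => Λ),
          C * ∑ j ∈ Finset.range M, wgt (ws j) x := by
        gcongr with x
        exact h x
    _ = (N.factorial : ℝ≥0∞)⁻¹ * (C * ∑ j ∈ Finset.range M,
          ∫⁻ x in Set.pi Set.univ (fun _ : Fin N => Λ), wgt (ws j) x) := by
        rw [lintegral_const_mul _ hms, lintegral_finsetSum _ fun j _ => hm j]
    _ = C * ∑ j ∈ Finset.range M, (N.factorial : ℝ≥0∞)⁻¹ *
          ∫⁻ x in Set.pi Set.univ (fun _ : Fin N => Λ), wgt (ws j) x := by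
        rw [← Finset.mul_sum]
        ring

lemma sum_offdiag_one (N : ℕ) :
    (∑ a : Fin N, ∑ b : Fin N, if a = b then (0 : ℝ) else 1) = (N : ℝ) * ((N : ℝ) - 1) := by
  have h1 : ∀ a : Fin N, (∑ b : Fin N, if a = b then (0 : ℝ) else 1) = (N : ℝ) - 1 := by
    intro a
    have h2 : ∀ b : Fin N, (if a = b then (0 : ℝ) else 1) = 1 - if a = b then (1 : ℝ) else 0 := by
      intro b
      by_cases hab : a = b <;> simp [hab]
    rw [Finset.sum_congr rfl (fun b _ => h2 b), Finset.sum_sub_distrib]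
    simp
  rw [Finset.sum_congr rfl (fun a _ => h1 a)]
  simp
  ring

/-- `Z` from `log Z`. -/
lemma Zw_eq_exp_logZ {φ : ℝ → ℝ} {B Φ : ℝ} (h : Adm φ B Φ) {L : ℝ} (hL : 0 < L) (N : ℕ) :
    Zw (rad φ) (cube L) N = ENNReal.ofReal (Real.exp (logZ φ L N)) := by
  unfold logZ
  have h1 := Zw_ne_top h L N
  have h2 := Zw_pos h hL N
  have h3 : 0 < (Zw (rad φ) (cube L) N).toReal := ENNReal.toReal_pos h2.ne' h1
  rw [Real.exp_log h3, ENNReal.ofReal_toReal h1]

/-- A subset of a cell sits in a translate of the closed cube. -/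
lemma Zw_cell_le {φ : ℝ → ℝ} (hφ : Measurable φ) {l : ℝ} (s : Fin 3 → ℝ) (c0 : Fin 3 → ℤ) {Λ : Set Pt}
    (hΛ : Λ ⊆ cell l s c0) (N : ℕ) : Zw (rad φ) Λ N ≤ Zw (rad φ) (cube l) N := by
  let t : Pt := WithLp.toLp 2 (fun k => (c0 k : ℝ) * l + s k)
  have ht : ∀ k, t k = (c0 k : ℝ) * l + s k := fun k => rfl
  rw [← Zw_translate φ hφ (-t) (cube l) (measurableSet_cube l) N]
  refine Zw_mono _ ?_ N
  intro x hx k
  have h1 := hΛ hx k
  have h2 : (x + -t) k = x k - t k := by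
    simp [sub_eq_add_neg]
  show 0 ≤ (x + -t) k ∧ (x + -t) k ≤ l
  rw [h2, ht]
  constructor <;> linarith [h1.1, h1.2]

/-! ### One cell -/

section cell

variable {φs : ℝ → ℝ} {R : ℕ → ℝ} {σ : ℝ} {τ : ℕ → ℝ} {ζ : ℝ} {n : ℕ} {Tm l h : ℝ} {j : ℕ}

/-- The energy of `wj` in one cell. -/
lemma pairE_wj_cell {N : ℕ} {c0 : Fin 3 → ℤ} (y : Fin N → Pt) (hy : ∀ i, vv l h j (y i) = c0) :
    pairE (wj φs R σ τ ζ n Tm l h j) y = pairE (rad (pot φs R σ ((1 + ζ) • trunc n τ))) y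
      - Tm * ((1 / 2) * ((N : ℝ) * ((N : ℝ) - 1))) := by
  rw [← sum_offdiag_one]
  unfold pairE
  have hterm : ∀ a b : Fin N, (if a = b then (0 : ℝ) else wj φs R σ τ ζ n Tm l h j (y a) (y b)) =
      (if a = b then (0 : ℝ) else rad (pot φs R σ ((1 + ζ) • trunc n τ)) (y a) (y b))
      - Tm * (if a = b then (0 : ℝ) else 1) := by
    intro a b
    by_cases hab : a = b
    · simp [hab]
    · simp only [hab, if_false]
      unfold wj rad
      rw [hy a, hy b]
      simp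
  simp_rw [hterm, Finset.sum_sub_distrib, ← Finset.mul_sum]
  ring

/-- The bound in one cell. -/
lemma Zw_wj_cell (hl1 : 1 ≤ l) {B' Φ' : ℝ} (hA' : Adm (pot φs R σ ((1 + ζ) • trunc n τ)) B' Φ')
    {m c δ T : ℝ} (hT : 0 ≤ T)
    (hline : ∀ y, 0 ≤ y → fe (pot φs R σ ((1 + ζ) • trunc n τ)) y
      + (1 / 2) * (1 + δ) * T * y ^ 2 ≤ m * y + c)
    (hTm : Tm ≤ (1 + δ) * T / (l + 1) ^ 3)
    {c0 : Fin 3 → ℤ} {Λ : Set Pt} (hΛ : Λ ⊆ cell l (fun _ => (j : ℝ) * h) c0) (hΛm : MeasurableSet Λ)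
    (N : ℕ) :
    Zw (wj φs R σ τ ζ n Tm l h j) Λ N ≤
      ENNReal.ofReal (Real.exp ((m - Tm / 2) * N + c * (l + 1) ^ 3)) := by
  have hl0 : 0 < l := by linarith
  have hl1' : 0 < l + 1 := by linarith
  have hm := hA'.meas
  set C₀ : ℝ≥0∞ := ENNReal.ofReal (Real.exp (Tm * ((1 / 2) * ((N : ℝ) * ((N : ℝ) - 1))))) with hC₀
  -- step A
  have hA : Zw (wj φs R σ τ ζ n Tm l h j) Λ N ≤
      C₀ * Zw (rad (pot φs R σ ((1 + ζ) • trunc n τ))) Λ N := by
    unfold Zw confInt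
    have hbox : MeasurableSet (Set.pi Set.univ (fun _ : Fin N => Λ)) :=
      MeasurableSet.univ_pi fun _ => hΛm
    have hmw : Measurable (wgt (rad (pot φs R σ ((1 + ζ) • trunc n τ))) : (Fin N → Pt) → ℝ≥0∞) :=
      measurable_wgt (goodPair_rad hm)
    calc (N.factorial : ℝ≥0∞)⁻¹ * ∫⁻ x in Set.pi Set.univ (fun _ : Fin N => Λ),
          wgt (wj φs R σ τ ζ n Tm l h j) x
        ≤ (N.factorial : ℝ≥0∞)⁻¹ * ∫⁻ x in Set.pi Set.univ (fun _ : Fin N => Λ),
          C₀ * wgt (rad (pot φs R σ ((1 + ζ) • trunc n τ))) x := by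
          refine mul_le_mul_right (setLIntegral_mono' hbox fun y hy => ?_) _
          have hy' : ∀ i, vv l h j (y i) = c0 := fun i =>
            vv_eq_of_mem_cell hl0 (hΛ (hy i (Set.mem_univ i)))
          unfold wgt
          rw [pairE_wj_cell y hy', hC₀, ← ENNReal.ofReal_mul (Real.exp_pos _).le, ← Real.exp_add]
          apply le_of_eq
          congr 2
          ring
      _ = _ := by
          rw [lintegral_const_mul _ hmw]
          ring
  -- step B
  have hB := Zw_cell_le hm (fun _ => (j : ℝ) * h) c0 hΛ N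
  -- step C, D
  have hC : Zw (rad (pot φs R σ ((1 + ζ) • trunc n τ))) (cube l) N =
      ENNReal.ofReal (Real.exp (logZ (pot φs R σ ((1 + ζ) • trunc n τ)) l N)) :=
    Zw_eq_exp_logZ hA' hl0 N
  have hD := Crest.Agent.Lib.GasThermoAbs.le_limFn (thermoHyp hA') l hl1 N
  have hfe : Crest.Agent.Lib.GasThermoAbs.limFn (logZ (pot φs R σ ((1 + ζ) • trunc n τ))) =
      fe (pot φs R σ ((1 + ζ) • trunc n τ)) := rfl
  rw [hfe] at hD
  set y : ℝ := (N : ℝ) / (l + 1) ^ 3 with hy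
  have hy0 : 0 ≤ y := by positivity
  have hL := hline y hy0
  have hl3 : 0 < (l + 1) ^ 3 := by positivity
  have hNy : (l + 1) ^ 3 * y = N := by
    rw [hy]; field_simp
  -- exponent
  have hexp : Tm * ((1 / 2) * ((N : ℝ) * ((N : ℝ) - 1))) + logZ (pot φs R σ ((1 + ζ) • trunc n τ)) l N
      ≤ (m - Tm / 2) * N + c * (l + 1) ^ 3 := by
    have h1 : (l + 1) ^ 3 * fe (pot φs R σ ((1 + ζ) • trunc n τ)) y ≤
        m * N + c * (l + 1) ^ 3 - (1 / 2) * (1 + δ) * T * ((N : ℝ) * y) := by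
      have h2 := mul_le_mul_of_nonneg_left hL hl3.le
      have h3 : (l + 1) ^ 3 * (fe (pot φs R σ ((1 + ζ) • trunc n τ)) y + (1 / 2) * (1 + δ) * T * y ^ 2)
          = (l + 1) ^ 3 * fe (pot φs R σ ((1 + ζ) • trunc n τ)) y
            + (1 / 2) * (1 + δ) * T * (((l + 1) ^ 3 * y) * y) := by ring
      have h4 : (l + 1) ^ 3 * (m * y + c) = m * ((l + 1) ^ 3 * y) + c * (l + 1) ^ 3 := by ring
      rw [h3, h4, hNy] at h2
      linarith
    have h5 : Tm * ((N : ℝ) * (N : ℝ)) ≤ (1 + δ) * T * ((N : ℝ) * y) := by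
      have h6 : (1 + δ) * T * ((N : ℝ) * y) = ((1 + δ) * T / (l + 1) ^ 3) * ((N : ℝ) * (N : ℝ)) := by
        rw [hy]; field_simp
      rw [h6]
      exact mul_le_mul_of_nonneg_right hTm (by positivity)
    nlinarith
  calc Zw (wj φs R σ τ ζ n Tm l h j) Λ N
      ≤ C₀ * Zw (rad (pot φs R σ ((1 + ζ) • trunc n τ))) (cube l) N :=
        hA.trans (by gcongr)
    _ = ENNReal.ofReal (Real.exp (Tm * ((1 / 2) * ((N : ℝ) * ((N : ℝ) - 1))) +
          logZ (pot φs R σ ((1 + ζ) • trunc n τ)) l N)) := by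
        rw [hC, hC₀, ← ENNReal.ofReal_mul (Real.exp_pos _).le, ← Real.exp_add]
    _ ≤ _ := ENNReal.ofReal_le_ofReal (Real.exp_le_exp.mpr hexp)

/-- The bound in the cube of side `L`: cells intersected with the cube. -/
lemma Zw_wj_cube (hφ0 : ∀ r, 0 ≤ φs r) (hσ : 0 ≤ σ) (hg : GoodPair (wj φs R σ τ ζ n Tm l h j))
    (hl : 0 < l) (hjh : (j : ℝ) * h < l) (hj0 : 0 ≤ (j : ℝ) * h) {L : ℝ} (hL : 0 ≤ L) {μ c' : ℝ}
    (hb : ∀ (c0 : Fin 3 → ℤ) (Λ : Set Pt), Λ ⊆ cell l (fun _ => (j : ℝ) * h) c0 → MeasurableSet Λ →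
      ∀ N : ℕ, Zw (wj φs R σ τ ζ n Tm l h j) Λ N ≤ ENNReal.ofReal (Real.exp (μ * N + c')))
    (N : ℕ) :
    Zw (wj φs R σ τ ζ n Tm l h j) (cube L) N ≤
      (Nat.multichoose ((⌊L / l⌋₊ + 2) ^ 3) N : ℝ≥0∞) *
        ENNReal.ofReal (Real.exp (μ * N + (((⌊L / l⌋₊ + 2) ^ 3 : ℕ) : ℝ) * c')) := by
  classical
  set q : ℕ := ⌊L / l⌋₊ + 2 with hq
  let cc : (Fin 3 → Fin q) → (Fin 3 → ℤ) := fun i k => ((i k : ℕ) : ℤ) - 1
  have hcc : Function.Injective cc := by
    intro i i' hii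
    funext k
    have := congrFun hii k
    simp only [cc] at this
    apply Fin.ext
    omega
  let s : Fin 3 → ℝ := fun _ => (j : ℝ) * h
  let Λ : (Fin 3 → Fin q) → Set Pt := fun i => cell l s (cc i) ∩ cube L
  have hΛm : ∀ i, MeasurableSet (Λ i) := fun i => (measurableSet_cell l s _).inter (measurableSet_cube L)
  have hcard : (Finset.univ : Finset (Fin 3 → Fin q)).card = q ^ 3 := by simp
  have hcover : cube L ⊆ ⋃ i ∈ (Finset.univ : Finset (Fin 3 → Fin q)), Λ i := by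
    intro p hp
    have hlow : ∀ k, (-1 : ℤ) ≤ vv l h j p k := by
      intro k
      apply Int.le_floor.mpr
      rw [le_div_iff₀ hl]
      push_cast
      linarith [(hp k).1]
    have hup : ∀ k, vv l h j p k < ((⌊L / l⌋₊ : ℕ) : ℤ) + 1 := by
      intro k
      apply Int.floor_lt.mpr
      have h1 : L / l < (⌊L / l⌋₊ : ℝ) + 1 := Nat.lt_floor_add_one _
      have h2 : (p k - j * h) / l ≤ L / l := by
        apply div_le_div_of_nonneg_right _ hl.le
        linarith [(hp k).2]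
      push_cast
      linarith
    let i : Fin 3 → Fin q := fun k => ⟨(vv l h j p k + 1).toNat, by
      have h1 := hlow k
      have h2 := hup k
      omega⟩
    have hcci : cc i = vv l h j p := by
      funext k
      simp only [cc, i]
      have h1 := hlow k
      omega
    simp only [Set.mem_iUnion, exists_prop]
    refine ⟨i, Finset.mem_univ _, ?_, hp⟩
    show p ∈ cell l s (cc i)
    rw [hcci]
    intro k
    exact vv_spec hl h j p k
  have hbi := Zw_biUnion_le hg (Finset.univ : Finset (Fin 3 → Fin q)) Λ (fun i _ => hΛm i)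
    (fun i _ i' _ hii => (cell_disjoint hl s (hcc.ne hii)).mono Set.inter_subset_left Set.inter_subset_left)
    (fun i _ i' _ hii p hp p' hp' => by
      have h1 : vv l h j p = cc i := vv_eq_of_mem_cell hl hp.1
      have h2 : vv l h j p' = cc i' := vv_eq_of_mem_cell hl hp'.1
      unfold wj
      rw [h1, h2, if_neg (hcc.ne hii)]
      exact mul_nonneg hσ (hφ0 _))
    μ c' (fun i _ N' => hb (cc i) (Λ i) Set.inter_subset_left (hΛm i) N') N
  rw [hcard] at hbi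
  exact (Zw_mono _ hcover N).trans hbi

end cell

/-- The number of ways to distribute particles in cells. -/
lemma log_multichoose_le {Q : ℕ} (hQ : 1 ≤ Q) (N : ℕ) :
    Real.log (Nat.multichoose Q N) ≤ (Q : ℝ) * (1 + Real.log (1 + (N : ℝ) / Q)) := by
  have hQ0 : (0 : ℝ) < Q := by exact_mod_cast hQ
  have hpos : 0 < Nat.multichoose Q N := by
    rw [Nat.multichoose_eq]
    exact Nat.choose_pos (by omega)
  have hpos' : (0 : ℝ) < Nat.multichoose Q N := by exact_mod_cast hpos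
  rw [Real.log_le_iff_le_exp hpos']
  have h1 : Nat.multichoose Q N ≤ (Q + N).choose Q := by
    rw [Nat.multichoose_eq]
    obtain ⟨Q', rfl⟩ : ∃ Q', Q = Q' + 1 := ⟨Q - 1, by omega⟩
    have e : Q' + 1 + N - 1 = Q' + N := by omega
    rw [e]
    have e2 : (Q' + N).choose N = (Q' + N).choose Q' := by
      rw [Nat.choose_symm_add]
    rw [e2]
    have e3 : Q' + 1 + N = (Q' + N) + 1 := by omega
    rw [e3, Nat.choose_succ_succ]
    omega
  have h2 : (((Q + N).choose Q : ℕ) : ℝ) ≤ ((Q + N : ℕ) : ℝ) ^ Q / (Q.factorial : ℝ) :=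
    Nat.choose_le_pow_div Q (Q + N)
  have h3 : (Q : ℝ) ^ Q / (Q.factorial : ℝ) ≤ Real.exp Q := Real.pow_div_factorial_le_exp (Q : ℝ) hQ0.le Q
  have hfact : (0 : ℝ) < Q.factorial := by exact_mod_cast Nat.factorial_pos Q
  have h4 : 0 < 1 + (N : ℝ) / Q := by positivity
  have e5 : Real.exp ((Q : ℝ) * (1 + Real.log (1 + (N : ℝ) / Q))) =
      Real.exp Q * (1 + (N : ℝ) / Q) ^ Q := by
    rw [mul_add, mul_one, Real.exp_add]
    congr 1
    rw [mul_comm, Real.exp_mul, Real.exp_log h4, Real.rpow_natCast]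
  rw [e5]
  have e6 : ((Q + N : ℕ) : ℝ) ^ Q / (Q.factorial : ℝ) =
      ((Q : ℝ) ^ Q / (Q.factorial : ℝ)) * (1 + (N : ℝ) / Q) ^ Q := by
    have : ((Q + N : ℕ) : ℝ) = (Q : ℝ) * (1 + (N : ℝ) / Q) := by
      push_cast
      field_simp
    rw [this, mul_pow]
    ring
  calc (Nat.multichoose Q N : ℝ) ≤ ((Q + N).choose Q : ℕ) := by exact_mod_cast h1
    _ ≤ _ := h2
    _ = _ := e6
    _ ≤ _ := mul_le_mul_of_nonneg_right h3 (by positivity)

/-- Upper bound `(U)`. Cell side `l`, `M` shifts of the grid along the diagonal, `ζ₀` bounds the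
fraction of shifts separating two particles interacting through the levels below `n`.
See the blueprint: findings topic row149-blueprint, item (B4). -/
theorem upper_level {φs : ℝ → ℝ} (hφm : Measurable φs) (hφ0 : ∀ r, 0 ≤ φs r) {R : ℕ → ℝ}
    (hR : ∀ k, 1 ≤ R k) (hRm : Monotone R) {σ : ℝ} (hσ : 0 ≤ σ) {τ : ℕ → ℝ} (hτ : ∀ k, 0 ≤ τ k)
    (hsum : Summable τ) {n : ℕ} {l : ℝ} (hl : 1 ≤ l) {M : ℕ} (hM : 1 ≤ M) {ζ₀ ζ δ : ℝ}
    (hζ₀1 : ζ₀ < 1) (hζ₀ : ∀ k, k < n → 2 * Real.sqrt 3 * R k / l + 3 / (M : ℝ) ≤ ζ₀)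
    (hζ₀0 : 0 ≤ ζ₀) (hζ : 1 / (1 - ζ₀) ≤ 1 + ζ)
    (hδ : (1 + Real.sqrt 3 * l / R n) ^ 6 * (1 + 1 / l) ^ 3 ≤ 1 + δ)
    {B Φ B' Φ' : ℝ} (hA : Adm (pot φs R σ τ) B Φ)
    (hA' : Adm (pot φs R σ ((1 + ζ) • trunc n τ)) B' Φ') {m c : ℝ}
    (hline : ∀ y, 0 ≤ y → fe (pot φs R σ ((1 + ζ) • trunc n τ)) y
      + (1 / 2) * (1 + δ) * (∑' k, τ (k + n)) * y ^ 2 ≤ m * y + c)
    {ρ : ℝ} (hρ : 0 < ρ) :
    fe (pot φs R σ τ) ρ ≤ m * ρ + c * ((l + 1) / l) ^ 3
      + (1 + Real.log (1 + ρ * l ^ 3)) / l ^ 3 := by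
  have hl0 : 0 < l := by linarith
  have hl1' : 0 < l + 1 := by linarith
  have hRpos : ∀ k, 0 < R k := fun k => by linarith [hR k]
  have hM0 : (0 : ℝ) < M := by exact_mod_cast hM
  set T : ℝ := ∑' k, τ (k + n) with hT
  have hT0 : 0 ≤ T := tsum_nonneg fun k => hτ _
  set C : ℝ := (1 + Real.sqrt 3 * l / R n) ^ 6 / l ^ 3 with hC
  set Tm : ℝ := T * C with hTmdef
  have hCle : C ≤ (1 + δ) / (l + 1) ^ 3 := by
    rw [le_div_iff₀ (by positivity)]
    have e : C * (l + 1) ^ 3 = (1 + Real.sqrt 3 * l / R n) ^ 6 * (1 + 1 / l) ^ 3 := by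
      rw [hC]
      field_simp
    rw [e]
    exact hδ
  have hTm : Tm ≤ (1 + δ) * T / (l + 1) ^ 3 := by
    have h1 := mul_le_mul_of_nonneg_left hCle hT0
    calc Tm ≤ T * ((1 + δ) / (l + 1) ^ 3) := h1
      _ = _ := by ring
  have hg : ∀ j, GoodPair (wj φs R σ τ ζ n Tm l (l / M) j) := fun j => goodPair_wj hφm hA'.meas
  -- the finite volume bound
  have hkey : ∀ (L : ℝ), 0 < L → ∀ N : ℕ, logZ (pot φs R σ τ) L N ≤
      Real.log M + Real.log (Nat.multichoose ((⌊L / l⌋₊ + 2) ^ 3) N) + m * N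
        + (((⌊L / l⌋₊ + 2) ^ 3 : ℕ) : ℝ) * (c * (l + 1) ^ 3) := by
    intro L hL N
    set Q : ℕ := (⌊L / l⌋₊ + 2) ^ 3 with hQ
    have hQ1 : 1 ≤ Q := Nat.one_le_pow _ _ (by omega)
    have hmc : 0 < Nat.multichoose Q N := by
      rw [Nat.multichoose_eq]
      exact Nat.choose_pos (by omega)
    have hmc' : (0 : ℝ) < Nat.multichoose Q N := by exact_mod_cast hmc
    -- pointwise
    have hpt : ∀ x : Fin N → Pt, wgt (rad (pot φs R σ τ)) x ≤
        ENNReal.ofReal (Real.exp ((1 / 2) * Tm * N)) *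
          ∑ j ∈ Finset.range M, wgt (wj φs R σ τ ζ n Tm l (l / M) j) x := by
      intro x
      obtain ⟨j, hj, hle⟩ := pairE_pot_ge (φs := φs) (σ := σ) (n := n) (ζ := ζ) hR hRm hτ hsum hl0 hM hζ₀ hζ₀1 hζ x
      have h1 : wgt (rad (pot φs R σ τ)) x ≤ ENNReal.ofReal (Real.exp ((1 / 2) * Tm * N)) *
          wgt (wj φs R σ τ ζ n Tm l (l / M) j) x := by
        unfold wgt
        rw [← ENNReal.ofReal_mul (Real.exp_pos _).le, ← Real.exp_add]
        apply ENNReal.ofReal_le_ofReal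
        apply Real.exp_le_exp.mpr
        linarith
      refine h1.trans ?_
      gcongr
      exact Finset.single_le_sum (f := fun j => wgt (wj φs R σ τ ζ n Tm l (l / M) j) x)
        (fun _ _ => zero_le) hj
    have hZ1 := Zw_le_sum (N := N) (Λ := cube L) hg M _ hpt
    -- each shift
    have hj : ∀ j ∈ Finset.range M, Zw (wj φs R σ τ ζ n Tm l (l / M) j) (cube L) N ≤
        (Nat.multichoose Q N : ℝ≥0∞) *
          ENNReal.ofReal (Real.exp ((m - Tm / 2) * N + (Q : ℝ) * (c * (l + 1) ^ 3))) := by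
      intro j hj
      have hjM : j < M := Finset.mem_range.mp hj
      have hjh : (j : ℝ) * (l / M) < l := by
        have h1 : (j : ℝ) < M := by exact_mod_cast hjM
        calc (j : ℝ) * (l / M) < M * (l / M) := mul_lt_mul_of_pos_right h1 (div_pos hl0 hM0)
          _ = l := by field_simp
      have hj0 : 0 ≤ (j : ℝ) * (l / M) := by positivity
      exact Zw_wj_cube hφ0 hσ (hg j) hl0 hjh hj0 hL.le
        (fun c0 Λ hΛ hΛm N' => Zw_wj_cell hl hA' hT0 hline hTm hΛ hΛm N') N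
    have hZ2 : Zw (rad (pot φs R σ τ)) (cube L) N ≤ ENNReal.ofReal (Real.exp ((1 / 2) * Tm * N)) *
        ((M : ℝ≥0∞) * ((Nat.multichoose Q N : ℝ≥0∞) *
          ENNReal.ofReal (Real.exp ((m - Tm / 2) * N + (Q : ℝ) * (c * (l + 1) ^ 3))))) := by
      refine hZ1.trans ?_
      gcongr
      calc _ ≤ ∑ j ∈ Finset.range M, (Nat.multichoose Q N : ℝ≥0∞) *
            ENNReal.ofReal (Real.exp ((m - Tm / 2) * N + (Q : ℝ) * (c * (l + 1) ^ 3))) :=
            Finset.sum_le_sum hj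
        _ = _ := by
            rw [Finset.sum_const, Finset.card_range, nsmul_eq_mul]
    have hreal : ENNReal.ofReal (Real.exp ((1 / 2) * Tm * N)) *
        ((M : ℝ≥0∞) * ((Nat.multichoose Q N : ℝ≥0∞) *
          ENNReal.ofReal (Real.exp ((m - Tm / 2) * N + (Q : ℝ) * (c * (l + 1) ^ 3))))) =
        ENNReal.ofReal ((M : ℝ) * ((Nat.multichoose Q N : ℝ) *
          Real.exp (m * N + (Q : ℝ) * (c * (l + 1) ^ 3)))) := by
      have e1 : Real.exp (m * N + (Q : ℝ) * (c * (l + 1) ^ 3)) = Real.exp ((1 / 2) * Tm * N) *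
          Real.exp ((m - Tm / 2) * N + (Q : ℝ) * (c * (l + 1) ^ 3)) := by
        rw [← Real.exp_add]
        congr 1
        ring
      rw [e1]
      rw [ENNReal.ofReal_mul (by positivity), ENNReal.ofReal_mul (by positivity),
        ENNReal.ofReal_mul (by positivity), ENNReal.ofReal_natCast, ENNReal.ofReal_natCast]
      ring
    rw [hreal] at hZ2
    have hZpos := Zw_pos hA hL N
    have hZtop := Zw_ne_top hA L N
    have hZreal : (Zw (rad (pot φs R σ τ)) (cube L) N).toReal ≤ (M : ℝ) * ((Nat.multichoose Q N : ℝ) *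
        Real.exp (m * N + (Q : ℝ) * (c * (l + 1) ^ 3))) :=
      ENNReal.toReal_le_of_le_ofReal (by positivity) hZ2
    have hZreal0 : 0 < (Zw (rad (pot φs R σ τ)) (cube L) N).toReal :=
      ENNReal.toReal_pos hZpos.ne' hZtop
    unfold logZ
    refine (Real.log_le_log hZreal0 hZreal).trans (le_of_eq ?_)
    rw [Real.log_mul hM0.ne' (by positivity), Real.log_mul hmc'.ne' (Real.exp_pos _).ne', Real.log_exp]
    ring
  -- the limit
  have hlhs := Crest.Agent.Lib.GasThermoAbs.tendsto_limFn (thermoHyp hA) hρ atTop (fun L : ℝ => L)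
    (fun L : ℝ => ⌊ρ * L ^ 3⌋₊) tendsto_id (tendsto_density hρ.le)
  have hfe : Crest.Agent.Lib.GasThermoAbs.limFn (logZ (pot φs R σ τ)) = fe (pot φs R σ τ) := rfl
  rw [hfe] at hlhs
  -- number of cells
  have hq : Tendsto (fun L : ℝ => ((⌊L / l⌋₊ + 2 : ℕ) : ℝ) / L) atTop (𝓝 (l⁻¹)) := by
    have h1 : Tendsto (fun L : ℝ => ((⌊l⁻¹ * L⌋₊ : ℕ) : ℝ) / L) atTop (𝓝 (l⁻¹)) :=
      tendsto_nat_floor_mul_div_atTop (inv_nonneg.mpr hl0.le)
    have h2 : Tendsto (fun L : ℝ => (2 : ℝ) / L) atTop (𝓝 0) :=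
      tendsto_const_nhds.div_atTop tendsto_id
    have h3 := h1.add h2
    rw [add_zero] at h3
    refine h3.congr' ?_
    filter_upwards [eventually_gt_atTop (0 : ℝ)] with L hL
    have e : L / l = l⁻¹ * L := by rw [div_eq_inv_mul]
    rw [e]
    push_cast
    field_simp
  have hQ : Tendsto (fun L : ℝ => (((⌊L / l⌋₊ + 2) ^ 3 : ℕ) : ℝ) / L ^ 3) atTop (𝓝 (l⁻¹ ^ 3)) := by
    refine (hq.pow 3).congr' ?_
    filter_upwards with L
    push_cast
    rw [div_pow]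
  have hlinv : 0 < l⁻¹ ^ 3 := by positivity
  have hN := tendsto_density hρ.le
  have hNQ : Tendsto (fun L : ℝ => ((⌊ρ * L ^ 3⌋₊ : ℕ) : ℝ) / (((⌊L / l⌋₊ + 2) ^ 3 : ℕ) : ℝ)) atTop
      (𝓝 (ρ * l ^ 3)) := by
    have h1 := hN.div hQ hlinv.ne'
    have e : ρ / l⁻¹ ^ 3 = ρ * l ^ 3 := by
      field_simp
    rw [e] at h1
    refine h1.congr' ?_
    filter_upwards [eventually_gt_atTop (0 : ℝ)] with L hL
    have hQpos : (0 : ℝ) < (((⌊L / l⌋₊ + 2) ^ 3 : ℕ) : ℝ) := by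
      have : 0 < (⌊L / l⌋₊ + 2) ^ 3 := by positivity
      exact_mod_cast this
    simp only [Pi.div_apply]
    field_simp
  have hpos1 : 0 < 1 + ρ * l ^ 3 := by positivity
  have hlog : Tendsto (fun L : ℝ => Real.log (1 + ((⌊ρ * L ^ 3⌋₊ : ℕ) : ℝ) /
      (((⌊L / l⌋₊ + 2) ^ 3 : ℕ) : ℝ))) atTop (𝓝 (Real.log (1 + ρ * l ^ 3))) :=
    (tendsto_const_nhds.add hNQ).log hpos1.ne'
  have hlogM : Tendsto (fun L : ℝ => Real.log M / L ^ 3) atTop (𝓝 0) :=
    tendsto_const_nhds.div_atTop (tendsto_pow_atTop (by norm_num))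
  have hrhs : Tendsto (fun L : ℝ => Real.log M / L ^ 3
      + ((((⌊L / l⌋₊ + 2) ^ 3 : ℕ) : ℝ) / L ^ 3) * (1 + Real.log (1 + ((⌊ρ * L ^ 3⌋₊ : ℕ) : ℝ) /
          (((⌊L / l⌋₊ + 2) ^ 3 : ℕ) : ℝ)))
      + m * (((⌊ρ * L ^ 3⌋₊ : ℕ) : ℝ) / L ^ 3)
      + ((((⌊L / l⌋₊ + 2) ^ 3 : ℕ) : ℝ) / L ^ 3) * (c * (l + 1) ^ 3)) atTop
      (𝓝 (0 + l⁻¹ ^ 3 * (1 + Real.log (1 + ρ * l ^ 3)) + m * ρ + l⁻¹ ^ 3 * (c * (l + 1) ^ 3))) :=
    ((hlogM.add (hQ.mul (tendsto_const_nhds.add hlog))).add (tendsto_const_nhds.mul hN)).add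
      (hQ.mul tendsto_const_nhds)
  have hval : 0 + l⁻¹ ^ 3 * (1 + Real.log (1 + ρ * l ^ 3)) + m * ρ + l⁻¹ ^ 3 * (c * (l + 1) ^ 3) =
      m * ρ + c * ((l + 1) / l) ^ 3 + (1 + Real.log (1 + ρ * l ^ 3)) / l ^ 3 := by
    rw [div_pow, inv_pow]
    field_simp
    ring
  rw [hval] at hrhs
  refine le_of_tendsto_of_tendsto hlhs hrhs ?_
  filter_upwards [eventually_gt_atTop (0 : ℝ)] with L hL
  have hL3 : 0 < L ^ 3 := by positivity
  have h1 := hkey L hL ⌊ρ * L ^ 3⌋₊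
  have hQ1 : 1 ≤ (⌊L / l⌋₊ + 2) ^ 3 := Nat.one_le_pow _ _ (by omega)
  have h2 := log_multichoose_le hQ1 ⌊ρ * L ^ 3⌋₊
  rw [div_le_iff₀ hL3]
  have e : (Real.log M / L ^ 3
      + ((((⌊L / l⌋₊ + 2) ^ 3 : ℕ) : ℝ) / L ^ 3) * (1 + Real.log (1 + ((⌊ρ * L ^ 3⌋₊ : ℕ) : ℝ) /
          (((⌊L / l⌋₊ + 2) ^ 3 : ℕ) : ℝ)))
      + m * (((⌊ρ * L ^ 3⌋₊ : ℕ) : ℝ) / L ^ 3)
      + ((((⌊L / l⌋₊ + 2) ^ 3 : ℕ) : ℝ) / L ^ 3) * (c * (l + 1) ^ 3)) * L ^ 3 =
      Real.log M + (((⌊L / l⌋₊ + 2) ^ 3 : ℕ) : ℝ) * (1 + Real.log (1 + ((⌊ρ * L ^ 3⌋₊ : ℕ) : ℝ) /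
          (((⌊L / l⌋₊ + 2) ^ 3 : ℕ) : ℝ))) + m * ((⌊ρ * L ^ 3⌋₊ : ℕ) : ℝ)
        + (((⌊L / l⌋₊ + 2) ^ 3 : ℕ) : ℝ) * (c * (l + 1) ^ 3) := by
    field_simp
  rw [e]
  linarith

end Crest.Agent.Lib.GasLevel
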