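import Crest.Agent.Lib.GasWindow2
import Crest.Agent.Lib.GasCore

/-!
# The physical system as an abstract system (row 149)

`bb σ τ x = fe (pot φs R σ τ) x`. All hypotheses of `Sys.Good` reduce to the results of `GasThermo`,
`GasLevel`, `GasCore`, and to the numerical fields of `PhysHyp`.
-/

set_option autoImplicit false

namespace Crest.Agent.Lib.GasPhys

open MeasureTheory Filter Topology Crest.ProbabilityR.Continuum Crest.Agent.Lib.GasBasic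
  Crest.Agent.Lib.GasKernel Crest.Agent.Lib.GasThermo Crest.Agent.Lib.GasLevel
  Crest.Agent.Lib.GasPacking Crest.Agent.Lib.GasCore Crest.Agent.Lib.GasThermoAbs
  Crest.Agent.Lib.GasSys

/-- Numbers and sequences of the physical system. -/
structure PhysData where
  φs : ℝ → ℝ
  R : ℕ → ℝ
  Tb : ℝ
  X : ℝ
  X₁ : ℝ
  X₀ : ℝ
  Cmax : ℝ
  M' : ℝ
  M₆ : ℝ
  ζ : ℕ → ℝ
  δ : ℕ → ℝ
  l : ℕ → ℝ

/-- The abstract system. -/
noncomputable def PhysData.toSys (P : PhysData) : Sys where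
  bb σ τ x := fe (pot P.φs P.R σ τ) x
  σ₀ := 1 / 2
  σ₁ := 2
  Tb := P.Tb
  X := P.X
  Φ y := -P.M₆ - ((P.Cmax + P.M₆) / (P.X₁ - P.X₀)) * y
  ζ := P.ζ
  δ := P.δ
  t n := (P.l n / (P.l n + 1)) ^ 3
  e n := (1 + Real.log (1 + P.X * P.l n ^ 3)) / P.l n ^ 3
  vv n := volB (P.R n)
  Cmax := P.Cmax
  M' := P.M'
  X₁ := P.X₁
  M₆ := P.M₆
  X₀ := P.X₀

/-- The hypotheses on the physical system. -/
structure PhysHyp (P : PhysData) (a₁ a ξ W : ℝ) (k : ℕ) : Prop where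
  core : CoreHyp P.φs a₁ a ξ W k
  hR : ∀ j, 1 ≤ P.R j
  hRm : Monotone P.R
  hX : 0 < P.X
  hTb : 0 ≤ P.Tb
  hX₀ : 0 < P.X₀
  hX₀₁ : P.X₀ < P.X₁
  hX₁ : P.X₁ ≤ P.X
  hM' : 0 ≤ P.M'
  hM₆ : 0 ≤ P.M₆
  hCmax : 0 ≤ P.Cmax
  /-- stability of all the potentials with `1/2 ≤ σ`, total mass at most `Tb` -/
  stab : 8 * k * jj ξ P.Tb ≤ W
  /-- steepness beyond the cap, to be combined with `fe_pot_le` -/
  capΦ : ∀ σ, 1 / 2 ≤ σ → σ ≤ 2 → ∀ y, P.X < y →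
    2 * k * jj ξ P.Tb * y + fe (fun r => (σ / 2) * P.φs r) y + (1 / 2) * P.Tb * y ^ 2
      ≤ -P.M₆ - ((P.Cmax + P.M₆) / (P.X₁ - P.X₀)) * y
  capCmax : ∀ σ, 1 / 2 ≤ σ → σ ≤ 2 → ∀ y, 0 ≤ y → y ≤ P.X →
    2 * k * jj ξ P.Tb * y + fe (fun r => (σ / 2) * P.φs r) y ≤ P.Cmax
  lowM' : ∀ σ, 1 / 2 ≤ σ → σ ≤ 2 → ∀ y, 0 ≤ y → y ≤ P.X + 1 → -P.M' ≤ fe (fun r => σ * P.φs r) y
  lowM₆ : ∀ σ, 1 / 2 ≤ σ → σ ≤ 2 → -P.M₆ ≤ fe (fun r => σ * P.φs r) P.X₁
  hζ : ∀ n, 0 ≤ P.ζ n ∧ P.ζ n ≤ 1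
  hδ : ∀ n, 0 ≤ P.δ n ∧ P.δ n ≤ 1
  hl : ∀ n, 1 ≤ P.l n
  ht : ∀ n, (1 - (P.l n / (P.l n + 1)) ^ 3) * (1 + P.X) ≤ 1 / 2
  /-- the parameters of `upper_level` at each level -/
  level : ∀ n, ∃ (M : ℕ) (ζ₀ : ℝ), 1 ≤ M ∧ ζ₀ < 1 ∧ 0 ≤ ζ₀ ∧
    (∀ j, j < n → 2 * Real.sqrt 3 * P.R j / P.l n + 3 / (M : ℝ) ≤ ζ₀) ∧
    1 / (1 - ζ₀) ≤ 1 + P.ζ n ∧
    (1 + Real.sqrt 3 * P.l n / P.R n) ^ 6 * (1 + 1 / P.l n) ^ 3 ≤ 1 + P.δ n

/-- Without attraction `pot` is a multiple of the core. -/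
lemma pot_zero (φs : ℝ → ℝ) (R : ℕ → ℝ) (σ : ℝ) : pot φs R σ 0 = fun r => σ * φs r := by
  funext r
  simp [pot, KSum]

/-- Physical line: `β φ`, `φ = pot φs R 1 c`. -/
lemma pot_line (φs : ℝ → ℝ) (R : ℕ → ℝ) (c : ℕ → ℝ) (β : ℝ) :
    pot φs R β (β • c) = fun r => β * pot φs R 1 c r := by
  funext r
  simp only [pot, KSum, Pi.smul_apply, smul_eq_mul, mul_assoc, one_mul]
  rw [tsum_mul_left]
  ring

section aux

variable {P : PhysData} {a₁ a ξ W : ℝ} {k : ℕ}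

/-- Pair energies are monotone in the potential. -/
lemma pairE_rad_mono {φ₁ φ₂ : ℝ → ℝ} (h : ∀ r, φ₁ r ≤ φ₂ r) {N : ℕ} (x : Fin N → Pt) :
    pairE (rad φ₁) x ≤ pairE (rad φ₂) x := by
  unfold pairE rad
  refine mul_le_mul_of_nonneg_left (Finset.sum_le_sum fun i _ => Finset.sum_le_sum fun j _ => ?_) (by norm_num)
  split_ifs
  · exact le_rfl
  · exact h _

/-- Comparison of the free energies of two pointwise ordered admissible potentials. -/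
lemma fe_mono_of_le {φ₁ φ₂ : ℝ → ℝ} {B₁ Φ₁ B₂ Φ₂ : ℝ} (h₁ : Adm φ₁ B₁ Φ₁) (h₂ : Adm φ₂ B₂ Φ₂)
    (hle : ∀ r, φ₂ r ≤ φ₁ r) {x : ℝ} (hx : 0 ≤ x) : fe φ₁ x ≤ fe φ₂ x := by
  have key := fe_le_of_logZ_le h₁ h₂ (c := 0) hx ?_
  · linarith
  filter_upwards [eventually_gt_atTop (0 : ℝ)] with L hL
  have h := logZ_le_of_pairE_le h₁ h₂ hL ⌊x * L ^ 3⌋₊ 0 (fun y _ => by
    have := pairE_rad_mono hle y
    linarith)
  linarith

lemma sys_OK_iff {σ : ℝ} {τ : Amp} :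
    P.toSys.OK σ τ ↔ 1 / 2 ≤ σ ∧ σ ≤ 2 ∧ (∀ k, 0 ≤ τ k) ∧ Summable τ ∧ mass τ ≤ P.Tb := Iff.rfl

/-- Admissibility of the potentials of an admissible pair `(σ, τ)`. -/
lemma PhysHyp.adm (h : PhysHyp P a₁ a ξ W k) {σ : ℝ} {τ : Amp} (hok : P.toSys.OK σ τ) :
    ∃ Φ, Adm (pot P.φs P.R σ τ) (2 * k * jj ξ P.Tb) Φ := by
  obtain ⟨h1, _, h3, h4, h5⟩ := hok
  have h1' : (1 : ℝ) / 2 ≤ σ := h1
  refine adm_pot h.core h.hR (by linarith) h.hTb ?_ h3 h4 h5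
  have hW := h.core.hW
  have := h.stab
  nlinarith

lemma PhysHyp.σW (h : PhysHyp P a₁ a ξ W k) {σ : ℝ} (h1 : 1 / 2 ≤ σ) : 4 * k * jj ξ P.Tb ≤ σ * W := by
  have hW := h.core.hW
  have := h.stab
  nlinarith

/-- The potential is affine in `(σ, τ)`. -/
lemma pot_affine {R : ℕ → ℝ} (hR : ∀ k, 1 ≤ R k) (φs : ℝ → ℝ) {σ σ' : ℝ} {τ τ' : Amp} (hτ : Summable τ) (hτ' : Summable τ')
    (u v : ℝ) :
    pot φs R (u * σ + v * σ') (u • τ + v • τ') = fun r => u * pot φs R σ τ r + v * pot φs R σ' τ' r := by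
  funext r
  have h1 : KSum R (u • τ + v • τ') r = u * KSum R τ r + v * KSum R τ' r := by
    unfold KSum
    rw [← tsum_mul_left, ← tsum_mul_left, ← (summable_tau_KK hR hτ r).mul_left u |>.tsum_add
      ((summable_tau_KK hR hτ' r).mul_left v)]
    refine tsum_congr fun k => ?_
    simp only [Pi.add_apply, Pi.smul_apply, smul_eq_mul]
    ring
  unfold pot
  rw [h1]
  ring

end aux

/-- All the hypotheses of `Sys.Good` hold. -/
theorem PhysHyp.good {P : PhysData} {a₁ a ξ W : ℝ} {k : ℕ} (h : PhysHyp P a₁ a ξ W k) :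
    P.toSys.Good := by
  have hlpos : ∀ n, 0 < P.l n := fun n => by linarith [h.hl n]
  refine
    { hX := h.hX
      hTb := h.hTb
      hX₀ := h.hX₀
      hX₀₁ := h.hX₀₁
      hX₁ := h.hX₁
      hσ := by show (1 / 2 : ℝ) ≤ 2; norm_num
      hM' := h.hM'
      hM₆ := h.hM₆
      hCmax := h.hCmax
      conc := ?_
      zero := ?_
      conv := ?_
      anti := ?_
      mono := ?_
      lower := ?_
      upper := ?_
      capΦ := ?_
      capCmax := ?_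
      lowM' := ?_
      lowM₆ := ?_
      Φsteep := fun y _ => le_refl _
      hζ := h.hζ
      hδ := h.hδ
      ht := ?_
      he := ?_
      hvv := fun n => volB_pos (by linarith [h.hR n]) }
  · -- conc
    intro σ τ hok
    obtain ⟨Φ, hA⟩ := h.adm hok
    exact concaveOn_limFn (thermoHyp hA)
  · -- zero
    intro σ τ hok
    obtain ⟨Φ, hA⟩ := h.adm hok
    exact limFn_zero (thermoHyp hA)
  · -- conv
    intro σ τ σ' τ' u v hok hok' hu hv huv x hx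
    obtain ⟨Φ₁, hA₁⟩ := h.adm hok
    obtain ⟨Φ₂, hA₂⟩ := h.adm hok'
    have hokC : P.toSys.OK (u * σ + v * σ') (u • τ + v • τ') := by
      obtain ⟨h1, h2, h3, h4, h5⟩ := hok
      obtain ⟨h1', h2', h3', h4', h5'⟩ := hok'
      have h1a : (1 : ℝ) / 2 ≤ σ := h1
      have h1b : (1 : ℝ) / 2 ≤ σ' := h1'
      have h2a : σ ≤ 2 := h2
      have h2b : σ' ≤ 2 := h2'
      have h5a : mass τ ≤ P.Tb := h5
      have h5b : mass τ' ≤ P.Tb := h5'
      have hv' : v = 1 - u := by linarith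
      subst hv'
      refine ⟨?_, ?_, fun j => ?_, (h4.mul_left u).add (h4'.mul_left _), ?_⟩
      · show (1 : ℝ) / 2 ≤ _
        nlinarith
      · show _ ≤ (2 : ℝ)
        nlinarith
      · simp only [Pi.add_apply, Pi.smul_apply, smul_eq_mul]
        exact add_nonneg (mul_nonneg hu (h3 j)) (mul_nonneg hv (h3' j))
      · show mass _ ≤ P.Tb
        have : mass (u • τ + (1 - u) • τ') = u * mass τ + (1 - u) * mass τ' := by
          unfold mass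
          rw [← tsum_mul_left, ← tsum_mul_left, ← (h4.mul_left u).tsum_add (h4'.mul_left _)]
          rfl
        rw [this]
        nlinarith
    obtain ⟨Φ₃, hA₃⟩ := h.adm hokC
    have hpot := pot_affine h.hR P.φs hok.2.2.2.1 hok'.2.2.2.1 u v (σ := σ) (σ' := σ') (τ := τ) (τ' := τ')
    show fe (pot P.φs P.R (u * σ + v * σ') (u • τ + v • τ')) x ≤
      u * fe (pot P.φs P.R σ τ) x + v * fe (pot P.φs P.R σ' τ') x
    rcases hx.eq_or_lt with rfl | hx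
    · unfold fe
      rw [limFn_zero (thermoHyp hA₁), limFn_zero (thermoHyp hA₂), limFn_zero (thermoHyp hA₃)]
      simp
    · have t₁ := tendsto_limFn (thermoHyp hA₁) hx atTop (fun L : ℝ => L) (fun L : ℝ => ⌊x * L ^ 3⌋₊)
        tendsto_id (tendsto_canonical hx.le)
      have t₂ := tendsto_limFn (thermoHyp hA₂) hx atTop (fun L : ℝ => L) (fun L : ℝ => ⌊x * L ^ 3⌋₊)
        tendsto_id (tendsto_canonical hx.le)
      have t₃ := tendsto_limFn (thermoHyp hA₃) hx atTop (fun L : ℝ => L) (fun L : ℝ => ⌊x * L ^ 3⌋₊)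
        tendsto_id (tendsto_canonical hx.le)
      refine le_of_tendsto_of_tendsto t₃ ((t₁.const_mul u).add (t₂.const_mul v)) ?_
      filter_upwards [eventually_gt_atTop (0 : ℝ)] with L hL
      have hL3 : 0 < L ^ 3 := by positivity
      have hc := logZ_convex hA₁ hA₂ hu hv huv hL ⌊x * L ^ 3⌋₊
      rw [← hpot] at hc
      calc logZ (pot P.φs P.R (u * σ + v * σ') (u • τ + v • τ')) L ⌊x * L ^ 3⌋₊ / L ^ 3
          ≤ (u * logZ (pot P.φs P.R σ τ) L ⌊x * L ^ 3⌋₊ + v * logZ (pot P.φs P.R σ' τ') L ⌊x * L ^ 3⌋₊) / L ^ 3 :=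
            div_le_div_of_nonneg_right hc hL3.le
        _ = _ := by ring
  · -- anti
    intro σ σ' τ x hok hok' hσ hx
    obtain ⟨Φ₁, hA₁⟩ := h.adm hok
    obtain ⟨Φ₂, hA₂⟩ := h.adm hok'
    refine fe_mono_of_le hA₂ hA₁ (fun r => ?_) hx
    unfold pot
    have := mul_le_mul_of_nonneg_right hσ (h.core.nonneg r)
    linarith
  · -- mono
    intro σ τ τ' x hok hok' hτ hx
    obtain ⟨Φ₁, hA₁⟩ := h.adm hok
    obtain ⟨Φ₂, hA₂⟩ := h.adm hok'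
    refine fe_mono_of_le hA₁ hA₂ (fun r => ?_) hx
    unfold pot KSum
    have : ∑' j, τ j * KK (P.R j) r ≤ ∑' j, τ' j * KK (P.R j) r :=
      (summable_tau_KK h.hR hok.2.2.2.1 r).tsum_le_tsum
        (fun j => mul_le_mul_of_nonneg_right (hτ j) (KK_nonneg _ _)) (summable_tau_KK h.hR hok'.2.2.2.1 r)
    linarith
  · -- lower
    intro σ τ τ' n x hok hok' hτ hn hx
    obtain ⟨Φ₁, hA₁⟩ := h.adm hok
    obtain ⟨Φ₂, hA₂⟩ := h.adm hok'
    exact lower_level h.hR h.hRm hok.2.2.1 hok.2.2.2.1 hok'.2.2.2.1 hτ hn hA₁ hA₂ hx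
  · -- upper
    intro σ τ n m c hok hline ρ hρ hρX
    obtain ⟨h1, h2, h3, h4, h5⟩ := hok
    have h1a : (1 : ℝ) / 2 ≤ σ := h1
    have h2a : σ ≤ 2 := h2
    have h5a : 2 * mass τ ≤ P.Tb := h5
    have hmass0 : 0 ≤ mass τ := tsum_nonneg h3
    have hok1 : P.toSys.OK σ τ := ⟨h1, h2, h3, h4, by show mass τ ≤ P.Tb; linarith⟩
    obtain ⟨hζ0, hζ1⟩ := h.hζ n
    have hok2 : P.toSys.OK σ ((1 + P.ζ n) • GasSys.trunc n τ) := by
      refine ⟨h1, h2, fun j => ?_, (GasSys.summable_trunc n τ).mul_left _, ?_⟩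
      · simp only [Pi.smul_apply, smul_eq_mul]
        exact mul_nonneg (by linarith) (GasSys.trunc_nonneg h3 n j)
      · show mass _ ≤ P.Tb
        rw [mass_smul]
        have := mass_trunc_le h3 h4 n
        have h0 : 0 ≤ mass (GasSys.trunc n τ) := tsum_nonneg (GasSys.trunc_nonneg h3 n)
        nlinarith
    obtain ⟨Φ₁, hA₁⟩ := h.adm hok1
    obtain ⟨Φ₂, hA₂⟩ := h.adm hok2
    obtain ⟨M, ζ₀, hM, hζ₀1, hζ₀0, hζ₀, hζ, hδ⟩ := h.level n
    have hup := upper_level h.core.meas h.core.nonneg h.hR h.hRm (by linarith : 0 ≤ σ) h3 h4 (h.hl n) hM hζ₀1 hζ₀ hζ₀0 hζ hδ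
      hA₁ hA₂ (m := m) (c := c) hline hρ
    show fe (pot P.φs P.R σ τ) ρ ≤ m * ρ + c / (P.l n / (P.l n + 1)) ^ 3 + (1 + Real.log (1 + P.X * P.l n ^ 3)) / P.l n ^ 3
    have hl := hlpos n
    have e1 : c / (P.l n / (P.l n + 1)) ^ 3 = c * ((P.l n + 1) / P.l n) ^ 3 := by
      rw [div_pow, div_pow, div_div_eq_mul_div, mul_div_assoc]
    have e2 : (1 + Real.log (1 + ρ * P.l n ^ 3)) / P.l n ^ 3 ≤ (1 + Real.log (1 + P.X * P.l n ^ 3)) / P.l n ^ 3 := by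
      refine div_le_div_of_nonneg_right ?_ (by positivity)
      have hl3 : 0 < P.l n ^ 3 := by positivity
      have hρX' : ρ ≤ P.X := hρX
      have : Real.log (1 + ρ * P.l n ^ 3) ≤ Real.log (1 + P.X * P.l n ^ 3) :=
        Real.log_le_log (by positivity) (by nlinarith)
      linarith
    rw [e1]
    linarith
  · -- capΦ
    intro σ τ y hok hy
    obtain ⟨h1, h2, h3, h4, h5⟩ := hok
    have h1a : (1 : ℝ) / 2 ≤ σ := h1
    have hX := h.hX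
    have hy0 : 0 ≤ y := by
      have : P.X < y := hy
      linarith
    have h6 := fe_pot_le h.core h.hR (by linarith : 0 < σ) h.hTb (h.σW h1a) h3 h4 h5 hy0
    have h7 := h.capΦ σ h1a h2 y hy
    show fe (pot P.φs P.R σ τ) y + (1 / 2) * P.Tb * y ^ 2 ≤ -P.M₆ - ((P.Cmax + P.M₆) / (P.X₁ - P.X₀)) * y
    linarith
  · -- capCmax
    intro σ τ y hok hy0 hy
    obtain ⟨h1, h2, h3, h4, h5⟩ := hok
    have h1a : (1 : ℝ) / 2 ≤ σ := h1
    have h6 := fe_pot_le h.core h.hR (by linarith : 0 < σ) h.hTb (h.σW h1a) h3 h4 h5 hy0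
    have h7 := h.capCmax σ h1a h2 y hy0 hy
    show fe (pot P.φs P.R σ τ) y ≤ P.Cmax
    linarith
  · -- lowM'
    intro σ y h1 h2 hy0 hy
    show -P.M' ≤ fe (pot P.φs P.R σ 0) y
    rw [pot_zero]
    exact h.lowM' σ h1 h2 y hy0 hy
  · -- lowM₆
    intro σ h1 h2
    show -P.M₆ ≤ fe (pot P.φs P.R σ 0) P.X₁
    rw [pot_zero]
    exact h.lowM₆ σ h1 h2
  · -- ht
    intro n
    have hl := hlpos n
    have hq0 : 0 < P.l n / (P.l n + 1) := by positivity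
    have hq1 : P.l n / (P.l n + 1) < 1 := by
      rw [div_lt_one (by linarith)]
      linarith
    exact ⟨pow_pos hq0 3, pow_lt_one₀ hq0.le hq1 (by norm_num), h.ht n⟩
  · -- he
    intro n
    have hl := hlpos n
    have hX := h.hX
    show 0 ≤ (1 + Real.log (1 + P.X * P.l n ^ 3)) / P.l n ^ 3
    have : 0 ≤ Real.log (1 + P.X * P.l n ^ 3) := Real.log_nonneg (by
      have : 0 ≤ P.X * P.l n ^ 3 := by positivity
      linarith)
    positivity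

end Crest.Agent.Lib.GasPhys
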