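import Crest.Agent.Lib.GasHull

/-!
# Abstract system of free energies with sparse attractive levels: sandwich by hulls and exact
affinity on gaps (row 149). Pure real analysis.
-/

set_option autoImplicit false

namespace Crest.Agent.Lib.GasSys

open Set Crest.Agent.Lib.GasHull

/-- Amplitude vectors. -/
abbrev Amp := ℕ → ℝ

/-- Keep only the levels below `n`. -/
def trunc (n : ℕ) (τ : Amp) : Amp := fun k => if k < n then τ k else 0

/-- Total mass. -/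
noncomputable def mass (τ : Amp) : ℝ := ∑' k, τ k

/-- Mass of the levels `≥ n`. -/
noncomputable def tail (n : ℕ) (τ : Amp) : ℝ := ∑' k, τ (k + n)

lemma summable_trunc (n : ℕ) (τ : Amp) : Summable (trunc n τ) := by
  refine summable_of_ne_finset_zero (s := Finset.range n) fun k hk => ?_
  have : ¬ k < n := by simpa using hk
  simp [trunc, this]

lemma mass_trunc (n : ℕ) (τ : Amp) : mass (trunc n τ) = ∑ k ∈ Finset.range n, τ k := by
  unfold mass
  rw [tsum_eq_sum (s := Finset.range n)]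
  · refine Finset.sum_congr rfl fun k hk => ?_
    simp [trunc, Finset.mem_range.mp hk]
  · intro k hk
    have : ¬ k < n := by simpa using hk
    simp [trunc, this]

lemma mass_eq {τ : Amp} (hτ : Summable τ) (n : ℕ) :
    mass τ = ∑ k ∈ Finset.range n, τ k + tail n τ := by
  unfold mass tail
  exact (hτ.sum_add_tsum_nat_add n).symm

lemma tail_nonneg {τ : Amp} (hτ : ∀ k, 0 ≤ τ k) (n : ℕ) : 0 ≤ tail n τ :=
  tsum_nonneg fun k => hτ _

lemma trunc_nonneg {τ : Amp} (hτ : ∀ k, 0 ≤ τ k) (n k : ℕ) : 0 ≤ trunc n τ k := by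
  unfold trunc; split_ifs <;> simp [hτ]

lemma trunc_le {τ : Amp} (hτ : ∀ k, 0 ≤ τ k) (n k : ℕ) : trunc n τ k ≤ τ k := by
  unfold trunc; split_ifs <;> simp [hτ]

lemma trunc_trunc_succ (n : ℕ) (τ : Amp) : trunc n (trunc (n + 1) τ) = trunc n τ := by
  funext k
  unfold trunc
  by_cases h : k < n
  · have : k < n + 1 := by omega
    simp [h, this]
  · simp [h]

lemma tail_trunc_succ (n : ℕ) (τ : Amp) : tail n (trunc (n + 1) τ) = τ n := by
  unfold tail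
  rw [tsum_eq_single 0]
  · simp [trunc]
  · intro k hk
    have : ¬ (k + n < n + 1) := by omega
    simp [trunc, this]

lemma mass_smul (c : ℝ) (τ : Amp) : mass (c • τ) = c * mass τ := by
  unfold mass
  simpa using tsum_mul_left (a := c) (f := τ)

lemma mass_trunc_le {τ : Amp} (hτ : ∀ k, 0 ≤ τ k) (hs : Summable τ) (n : ℕ) :
    mass (trunc n τ) ≤ mass τ := by
  rw [mass_trunc, mass_eq hs n]
  linarith [tail_nonneg hτ n]

lemma tail_le {τ : Amp} (hτ : ∀ k, 0 ≤ τ k) (hs : Summable τ) (n : ℕ) : tail n τ ≤ mass τ := by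
  rw [mass_eq hs n]
  have : 0 ≤ ∑ k ∈ Finset.range n, τ k := Finset.sum_nonneg fun k _ => hτ k
  linarith

/-- Data of the abstract system. -/
structure Sys where
  /-- limit free energy `bb σ τ x` -/
  bb : ℝ → Amp → ℝ → ℝ
  σ₀ : ℝ
  σ₁ : ℝ
  /-- maximal total mass allowed -/
  Tb : ℝ
  /-- density cap -/
  X : ℝ
  /-- steep upper bound beyond the cap -/
  Φ : ℝ → ℝ
  ζ : ℕ → ℝ
  δ : ℕ → ℝ
  t : ℕ → ℝ
  e : ℕ → ℝ
  /-- volume of the ball at a given level -/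
  vv : ℕ → ℝ
  Cmax : ℝ
  M' : ℝ
  /-- test density below the cap, with lower bound `-M₆` -/
  X₁ : ℝ
  M₆ : ℝ
  /-- the sandwich at level `n` holds at densities up to `X₀ < X₁`. -/
  X₀ : ℝ

namespace Sys

variable (S : Sys)

/-- Admissible parameters. -/
def OK (σ : ℝ) (τ : Amp) : Prop :=
  S.σ₀ ≤ σ ∧ σ ≤ S.σ₁ ∧ (∀ k, 0 ≤ τ k) ∧ Summable τ ∧ mass τ ≤ S.Tb

/-- Admissible parameters with room for doubling the amplitudes. -/
def OK2 (σ : ℝ) (τ : Amp) : Prop :=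
  S.σ₀ ≤ σ ∧ σ ≤ S.σ₁ ∧ (∀ k, 0 ≤ τ k) ∧ Summable τ ∧ 2 * mass τ ≤ S.Tb

/-- Slope bound constant. -/
noncomputable def Λ₀ : ℝ := (S.Cmax + S.M₆) / (S.X₁ - S.X₀)

end Sys

/-- The hypotheses on the abstract system. -/
structure Sys.Good (S : Sys) : Prop where
  hX : 0 < S.X
  hTb : 0 ≤ S.Tb
  hX₀ : 0 < S.X₀
  hX₀₁ : S.X₀ < S.X₁
  hX₁ : S.X₁ ≤ S.X
  hσ : S.σ₀ ≤ S.σ₁
  hM' : 0 ≤ S.M'
  hM₆ : 0 ≤ S.M₆
  hCmax : 0 ≤ S.Cmax
  conc : ∀ σ τ, S.OK σ τ → ConcaveOn ℝ (Ici 0) (S.bb σ τ)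
  zero : ∀ σ τ, S.OK σ τ → S.bb σ τ 0 = 0
  conv : ∀ σ τ σ' τ' (a b : ℝ), S.OK σ τ → S.OK σ' τ' → 0 ≤ a → 0 ≤ b → a + b = 1 →
    ∀ x, 0 ≤ x → S.bb (a * σ + b * σ') (a • τ + b • τ') x ≤ a * S.bb σ τ x + b * S.bb σ' τ' x
  anti : ∀ σ σ' τ x, S.OK σ τ → S.OK σ' τ → σ ≤ σ' → 0 ≤ x → S.bb σ' τ x ≤ S.bb σ τ x
  mono : ∀ σ τ τ' x, S.OK σ τ → S.OK σ τ' → (∀ k, τ k ≤ τ' k) → 0 ≤ x → S.bb σ τ x ≤ S.bb σ τ' x
  /-- lower bound: adding mass on levels `≥ n` -/
  lower : ∀ σ τ τ' (n : ℕ) x, S.OK σ τ → S.OK σ τ' → (∀ k, τ k ≤ τ' k) → (∀ k, k < n → τ k = τ' k) →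
    0 ≤ x → S.bb σ τ x + (1 / 2) * (mass τ' - mass τ) * (x ^ 2 - x / S.vv n) ≤ S.bb σ τ' x
  /-- upper bound from an affine majorant -/
  upper : ∀ σ τ (n : ℕ) (m c : ℝ), S.OK2 σ τ →
    (∀ y, 0 ≤ y → S.bb σ ((1 + S.ζ n) • trunc n τ) y + (1 / 2) * (1 + S.δ n) * tail n τ * y ^ 2
      ≤ m * y + c) →
    ∀ ρ, 0 < ρ → ρ ≤ S.X → S.bb σ τ ρ ≤ m * ρ + c / S.t n + S.e n
  capΦ : ∀ σ τ y, S.OK σ τ → S.X < y → S.bb σ τ y + (1 / 2) * S.Tb * y ^ 2 ≤ S.Φ y
  capCmax : ∀ σ τ y, S.OK σ τ → 0 ≤ y → y ≤ S.X → S.bb σ τ y ≤ S.Cmax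
  lowM' : ∀ σ y, S.σ₀ ≤ σ → σ ≤ S.σ₁ → 0 ≤ y → y ≤ S.X + 1 → -S.M' ≤ S.bb σ 0 y
  lowM₆ : ∀ σ, S.σ₀ ≤ σ → σ ≤ S.σ₁ → -S.M₆ ≤ S.bb σ 0 S.X₁
  Φsteep : ∀ y, S.X < y → S.Φ y ≤ -S.M₆ - S.Λ₀ * y
  hζ : ∀ n, 0 ≤ S.ζ n ∧ S.ζ n ≤ 1
  hδ : ∀ n, 0 ≤ S.δ n ∧ S.δ n ≤ 1
  ht : ∀ n, 0 < S.t n ∧ S.t n < 1 ∧ (1 - S.t n) * (1 + S.X) ≤ 1 / 2
  he : ∀ n, 0 ≤ S.e n
  hvv : ∀ n, 0 < S.vv n

namespace Sys

variable {S : Sys}

/-- `Gam σ τ n`: the function whose hull approximates the limit free energy. -/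
noncomputable def Gam (S : Sys) (σ : ℝ) (τ : Amp) (n : ℕ) (x : ℝ) : ℝ :=
  if x ≤ S.X then S.bb σ (trunc n τ) x + (1 / 2) * tail n τ * x ^ 2 else S.Φ x

/-- Hull of `Gam`. -/
noncomputable def HH (S : Sys) (σ : ℝ) (τ : Amp) (n : ℕ) : ℝ → ℝ := Hull (S.Gam σ τ n)

/-- Upper bound constant of `Gam`. -/
noncomputable def M₃ (S : Sys) : ℝ := S.Cmax + (1 / 2) * S.Tb * S.X ^ 2

/-- big constant -/
noncomputable def Mb (S : Sys) : ℝ := 2 * S.Cmax + S.M' + 2 * S.Tb * S.X ^ 2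

/-- The error at level `n`. -/
noncomputable def EE (S : Sys) (n : ℕ) : ℝ :=
  S.ζ n * (S.Cmax + S.M') + (1 / 2) * S.δ n * S.Tb * S.X ^ 2
    + 2 * (1 - S.t n) * (1 + S.X) * (S.Mb + S.M') + S.e n

/-- The lower error at level `n`. -/
noncomputable def tb (S : Sys) (n : ℕ) : ℝ := (1 / 2) * S.Tb * S.X / S.vv n

lemma OK2.ok {σ : ℝ} {τ : Amp} (hS : S.Good) (h : S.OK2 σ τ) : S.OK σ τ := by
  obtain ⟨h1, h2, h3, h4, h5⟩ := h
  refine ⟨h1, h2, h3, h4, ?_⟩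
  have : 0 ≤ mass τ := tsum_nonneg h3
  linarith

lemma OK2.trunc {σ : ℝ} {τ : Amp} (h : S.OK2 σ τ) (n : ℕ) : S.OK2 σ (trunc n τ) := by
  obtain ⟨h1, h2, h3, h4, h5⟩ := h
  refine ⟨h1, h2, trunc_nonneg h3 n, summable_trunc n τ, ?_⟩
  have := mass_trunc_le h3 h4 n
  linarith

lemma OK_zero (hS : S.Good) {σ : ℝ} (h1 : S.σ₀ ≤ σ) (h2 : σ ≤ S.σ₁) : S.OK σ (0 : Amp) := by
  refine ⟨h1, h2, fun _ => le_rfl, summable_zero, ?_⟩
  simp [mass, hS.hTb]

lemma OK2.scale {σ : ℝ} {τ : Amp} (h : S.OK2 σ τ) {c : ℝ} (hc0 : 0 ≤ c) (hc : c ≤ 2) :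
    S.OK σ (c • τ) := by
  obtain ⟨h1, h2, h3, h4, h5⟩ := h
  refine ⟨h1, h2, fun k => ?_, h4.mul_left c, ?_⟩
  · simpa using mul_nonneg hc0 (h3 k)
  · rw [mass_smul]
    have : 0 ≤ mass τ := tsum_nonneg h3
    nlinarith

lemma M₃_nonneg (hS : S.Good) : 0 ≤ S.M₃ := by
  unfold M₃
  have := hS.hCmax
  have := hS.hTb
  positivity

lemma Gam_le_M₃ (hS : S.Good) {σ : ℝ} {τ : Amp} (h : S.OK2 σ τ) (n : ℕ) {x : ℝ} (hx : 0 ≤ x) :
    S.Gam σ τ n x ≤ S.M₃ := by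
  unfold Gam
  split_ifs with hxX
  · have h1 := hS.capCmax σ (Crest.Agent.Lib.GasSys.trunc n τ) x ((h.trunc n).ok hS) hx hxX
    have h2 : tail n τ ≤ S.Tb := by
      have h3 := tail_le h.2.2.1 h.2.2.2.1 n
      have h4 := h.2.2.2.2
      have h5 := tail_nonneg h.2.2.1 n
      linarith
    have h6 : x ^ 2 ≤ S.X ^ 2 := by
      apply pow_le_pow_left₀ hx hxX
    have h7 := tail_nonneg h.2.2.1 n
    unfold M₃
    have : tail n τ * x ^ 2 ≤ S.Tb * S.X ^ 2 := by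
      apply mul_le_mul h2 h6 (by positivity) hS.hTb
    linarith
  · push Not at hxX
    have h1 := hS.Φsteep x hxX
    have h2 : 0 ≤ S.Λ₀ := by
      unfold Λ₀
      apply div_nonneg
      · linarith [hS.hCmax, hS.hM₆]
      · linarith [hS.hX₀₁]
    have h3 := hS.hM₆
    have h4 : 0 ≤ S.Λ₀ * x := by
      apply mul_nonneg h2 hx
    have h5 := M₃_nonneg hS
    linarith

lemma hasCM_Gam (hS : S.Good) {σ : ℝ} {τ : Amp} (h : S.OK2 σ τ) (n : ℕ) : HasCM (S.Gam σ τ n) :=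
  ⟨_, isCM_const fun _ ht => Gam_le_M₃ hS h n ht⟩

lemma HH_le_M₃ (hS : S.Good) {σ : ℝ} {τ : Amp} (h : S.OK2 σ τ) (n : ℕ) {x : ℝ} (hx : 0 ≤ x) :
    S.HH σ τ n x ≤ S.M₃ :=
  Hull_le (isCM_const fun _ ht => Gam_le_M₃ hS h n ht) hx

lemma Gam_le_HH (hS : S.Good) {σ : ℝ} {τ : Amp} (h : S.OK2 σ τ) (n : ℕ) {x : ℝ} (hx : 0 ≤ x) :
    S.Gam σ τ n x ≤ S.HH σ τ n x :=
  le_Hull (hasCM_Gam hS h n) hx

lemma concaveOn_HH (hS : S.Good) {σ : ℝ} {τ : Amp} (h : S.OK2 σ τ) (n : ℕ) :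
    ConcaveOn ℝ (Ici 0) (S.HH σ τ n) :=
  concaveOn_Hull (hasCM_Gam hS h n)

/-- Amplitude comparison by convexity. -/
lemma amp_compare (hS : S.Good) {σ : ℝ} {τ : Amp} (h : S.OK2 σ τ) {z : ℝ} (hz0 : 0 ≤ z) (hz1 : z ≤ 1)
    {y : ℝ} (hy0 : 0 ≤ y) (hyX : y ≤ S.X) :
    S.bb σ ((1 + z) • τ) y ≤ S.bb σ τ y + z * (S.Cmax + S.M') := by
  have h1 : S.OK σ τ := h.ok hS
  have h2 : S.OK σ ((2 : ℝ) • τ) := h.scale (by norm_num) le_rfl
  have h3 := hS.conv σ τ σ ((2 : ℝ) • τ) (1 - z) z h1 h2 (by linarith) hz0 (by ring) y hy0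
  have e1 : (1 - z) * σ + z * σ = σ := by ring
  have e2 : (1 - z) • τ + z • ((2 : ℝ) • τ) = (1 + z) • τ := by
    funext k
    simp only [Pi.add_apply, Pi.smul_apply, smul_eq_mul]
    ring
  rw [e1, e2] at h3
  have h4 := hS.capCmax σ ((2 : ℝ) • τ) y h2 hy0 hyX
  have h5 : -S.M' ≤ S.bb σ τ y := by
    have h6 := hS.lowM' σ y h.1 h.2.1 hy0 (by linarith)
    have h7 := hS.mono σ 0 τ y (OK_zero hS h.1 h.2.1) h1 h.2.2.1 hy0
    linarith
  nlinarith

lemma Mb_nonneg (hS : S.Good) : 0 ≤ S.Mb := by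
  unfold Mb
  have := hS.hCmax
  have := hS.hTb
  have := hS.hM'
  positivity

/-- The basic upper estimate from a concave majorant of `G`. -/
theorem upper_step (hS : S.Good) {σ : ℝ} {τ : Amp} (h : S.OK2 σ τ) (n : ℕ) {g : ℝ → ℝ}
    (hg : ConcaveOn ℝ (Ici 0) g)
    (hG : ∀ y, 0 ≤ y → S.bb σ ((1 + S.ζ n) • trunc n τ) y
      + (1 / 2) * (1 + S.δ n) * tail n τ * y ^ 2 ≤ g y)
    {ρ : ℝ} (hρ : 0 < ρ) (hρX : ρ ≤ S.X) (hgρ : g ρ ≤ S.Mb) :
    S.bb σ τ ρ ≤ g ρ + 2 * (1 - S.t n) * (1 + S.X) * (S.Mb + S.M') + S.e n := by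
  obtain ⟨ht0, ht1, hts⟩ := hS.ht n
  have hz : 0 < S.t n * ρ := mul_pos ht0 hρ
  obtain ⟨m, c, hline, hlinez⟩ := exists_support hg hz
  have h1 := hS.upper σ τ n m c h (fun y hy => (hG y hy).trans (hline y hy)) ρ hρ hρX
  have hgX : -S.M' ≤ g (S.X + 1) := by
    have hX : 0 ≤ S.X + 1 := by linarith [hS.hX]
    have h2 := hG _ hX
    have hOK : S.OK σ ((1 + S.ζ n) • trunc n τ) :=
      (h.trunc n).scale (by linarith [(hS.hζ n).1]) (by linarith [(hS.hζ n).2])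
    have h3 := hS.lowM' σ (S.X + 1) h.1 h.2.1 hX le_rfl
    have h4 := hS.mono σ 0 ((1 + S.ζ n) • trunc n τ) (S.X + 1) (OK_zero hS h.1 h.2.1) hOK
      hOK.2.2.1 hX
    have h5 : 0 ≤ (1 / 2) * (1 + S.δ n) * tail n τ * (S.X + 1) ^ 2 := by
      have := (hS.hδ n).1
      have := tail_nonneg h.2.2.1 n
      positivity
    linarith
  have h6 := dilate_le hg ht0 ht1 hρ hρX hts (Mb_nonneg hS) hS.hM' hgρ hgX
  have e1 : m * ρ + c / S.t n = g (S.t n * ρ) / S.t n := by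
    rw [hlinez]
    field_simp
  rw [e1] at h1
  linarith

/-- Nonnegativity of the error. -/
lemma EE_nonneg (hS : S.Good) (n : ℕ) : 0 ≤ S.EE n := by
  unfold EE
  have h1 := (hS.hζ n).1
  have h2 := (hS.hδ n).1
  have h3 := hS.hTb
  have h4 := hS.hCmax
  have h5 := hS.hM'
  have h6 := hS.he n
  have h7 := Mb_nonneg hS
  have h8 := hS.hX
  have h9 := (hS.ht n).2.1
  have h10 : 0 ≤ 1 - S.t n := by linarith
  positivity

/-- Upper sandwich. -/
theorem bb_le_HH (hS : S.Good) {σ : ℝ} {τ : Amp} (h : S.OK2 σ τ) (n : ℕ) {ρ : ℝ} (hρ : 0 < ρ)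
    (hρX : ρ ≤ S.X) : S.bb σ τ ρ ≤ S.HH σ τ n ρ + S.EE n := by
  set η := S.ζ n * (S.Cmax + S.M') + (1 / 2) * S.δ n * S.Tb * S.X ^ 2 with hη
  have hζ0 := (hS.hζ n).1
  have hζ1 := (hS.hζ n).2
  have hδ0 := (hS.hδ n).1
  have hδ1 := (hS.hδ n).2
  have hη0 : 0 ≤ η := by
    have := hS.hCmax
    have := hS.hM'
    have := hS.hTb
    simp only [hη]
    positivity
  have hTail0 := tail_nonneg h.2.2.1 n
  have hTail : 2 * tail n τ ≤ S.Tb := by
    have := tail_le h.2.2.1 h.2.2.2.1 n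
    have := h.2.2.2.2
    linarith
  have hg : ConcaveOn ℝ (Ici 0) (fun y => S.HH σ τ n y + η) := by
    have := (concaveOn_HH hS h n).add (concaveOn_const η (convex_Ici 0))
    exact this
  have hG : ∀ y, 0 ≤ y → S.bb σ ((1 + S.ζ n) • trunc n τ) y
      + (1 / 2) * (1 + S.δ n) * tail n τ * y ^ 2 ≤ S.HH σ τ n y + η := by
    intro y hy
    have hGH := Gam_le_HH hS h n hy
    by_cases hyX : y ≤ S.X
    · have h1 := amp_compare hS (h.trunc n) hζ0 hζ1 hy hyX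
      have h2 : S.Gam σ τ n y = S.bb σ (trunc n τ) y + (1 / 2) * tail n τ * y ^ 2 := by
        simp [Gam, hyX]
      rw [h2] at hGH
      have h3 : S.δ n * tail n τ * y ^ 2 ≤ S.δ n * S.Tb * S.X ^ 2 := by
        have h4 : y ^ 2 ≤ S.X ^ 2 := pow_le_pow_left₀ hy hyX 2
        have h5 : tail n τ ≤ S.Tb := by linarith
        have h6 : tail n τ * y ^ 2 ≤ S.Tb * S.X ^ 2 :=
          mul_le_mul h5 h4 (by positivity) hS.hTb
        calc S.δ n * tail n τ * y ^ 2 = S.δ n * (tail n τ * y ^ 2) := by ring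
          _ ≤ S.δ n * (S.Tb * S.X ^ 2) := mul_le_mul_of_nonneg_left h6 hδ0
          _ = _ := by ring
      simp only [hη]
      nlinarith
    · push Not at hyX
      have hOK : S.OK σ ((1 + S.ζ n) • trunc n τ) :=
        (h.trunc n).scale (by linarith) (by linarith)
      have h1 := hS.capΦ σ _ y hOK hyX
      have h2 : S.Gam σ τ n y = S.Φ y := by
        simp [Gam, not_le.mpr hyX]
      rw [h2] at hGH
      have h3 : (1 + S.δ n) * tail n τ ≤ S.Tb := by nlinarith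
      have h4 : (1 + S.δ n) * tail n τ * y ^ 2 ≤ S.Tb * y ^ 2 :=
        mul_le_mul_of_nonneg_right h3 (by positivity)
      nlinarith
  have hM : S.HH σ τ n ρ + η ≤ S.Mb := by
    have h1 := HH_le_M₃ hS h n hρ.le
    unfold M₃ at h1
    have h2 : S.ζ n * (S.Cmax + S.M') ≤ S.Cmax + S.M' := by
      have : 0 ≤ S.Cmax + S.M' := by linarith [hS.hCmax, hS.hM']
      nlinarith
    have h3 : (1 / 2) * S.δ n * S.Tb * S.X ^ 2 ≤ (1 / 2) * S.Tb * S.X ^ 2 := by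
      have h4 : 0 ≤ S.Tb * S.X ^ 2 := by have := hS.hTb; positivity
      nlinarith
    have h5 : 0 ≤ S.Tb * S.X ^ 2 := by have := hS.hTb; positivity
    simp only [hη]
    unfold Mb
    linarith [hS.hCmax, hS.hM']
  have := upper_step hS h n hg hG hρ hρX hM
  unfold EE
  simp only [hη] at this ⊢
  linarith

lemma tail_succ {τ : Amp} (hs : Summable τ) (n : ℕ) : tail n τ = τ n + tail (n + 1) τ := by
  have h1 := mass_eq hs n
  have h2 := mass_eq hs (n + 1)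
  rw [Finset.sum_range_succ] at h2
  linarith

lemma tb_nonneg (hS : S.Good) (n : ℕ) : 0 ≤ S.tb n := by
  unfold tb
  have := hS.hTb
  have := hS.hX
  have := hS.hvv n
  positivity

/-- A supporting line of `bb` at a point below `X₀` stays above `Φ` beyond `X`. -/
lemma Phi_le_support (hS : S.Good) {σ : ℝ} {τ : Amp} (h : S.OK2 σ τ) {m c x : ℝ}
    (hline : ∀ y, 0 ≤ y → S.bb σ τ y ≤ m * y + c) (hx : S.bb σ τ x = m * x + c) (hx0 : 0 < x)
    (hxX : x ≤ S.X₀) {y : ℝ} (hy : S.X < y) : S.Φ y ≤ m * y + c := by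
  have hX₁0 : 0 ≤ S.X₁ := (hS.hX₀.trans hS.hX₀₁).le
  have h1 : -S.M₆ ≤ S.bb σ τ S.X₁ := by
    have h2 := hS.lowM₆ σ h.1 h.2.1
    have h3 := hS.mono σ 0 τ S.X₁ (OK_zero hS h.1 h.2.1) (h.ok hS) h.2.2.1 hX₁0
    linarith
  have hxX' : x ≤ S.X := hxX.trans (hS.hX₀₁.le.trans hS.hX₁)
  have h4 : S.bb σ τ x ≤ S.Cmax := hS.capCmax σ τ x (h.ok hS) hx0.le hxX'
  have h5 := hline S.X₁ hX₁0
  have hd : 0 < S.X₁ - S.X₀ := by linarith [hS.hX₀₁]
  have hd' : 0 < S.X₁ - x := by linarith [hS.hX₀₁]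
  have hnum : 0 ≤ S.Cmax + S.M₆ := by linarith [hS.hCmax, hS.hM₆]
  have hm : -S.Λ₀ ≤ m := by
    unfold Λ₀
    have h6 : -(S.Cmax + S.M₆) ≤ m * (S.X₁ - x) := by nlinarith
    have h7 : -((S.Cmax + S.M₆) / (S.X₁ - S.X₀)) * (S.X₁ - x) ≤ m * (S.X₁ - x) := by
      have h8 : (S.Cmax + S.M₆) / (S.X₁ - S.X₀) * (S.X₁ - x) ≥ (S.Cmax + S.M₆) := by
        rw [ge_iff_le, div_mul_eq_mul_div, le_div_iff₀ hd]
        nlinarith
      nlinarith
    exact le_of_mul_le_mul_right h7 hd'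
  have hΛ : 0 ≤ S.Λ₀ := by
    unfold Λ₀
    exact div_nonneg hnum hd.le
  have hyX₁ : S.X₁ ≤ y := hS.hX₁.trans hy.le
  have h9 := hS.Φsteep y hy
  have h10 : -S.Λ₀ * (y - S.X₁) ≤ m * (y - S.X₁) :=
    mul_le_mul_of_nonneg_right hm (by linarith)
  have h11 : 0 ≤ S.Λ₀ * S.X₁ := mul_nonneg hΛ hX₁0
  nlinarith

/-- Lower sandwich. -/
theorem HH_le_bb (hS : S.Good) {σ : ℝ} {τ : Amp} (h : S.OK2 σ τ) (n : ℕ) {x : ℝ} (hx0 : 0 < x)
    (hxX : x ≤ S.X₀) : S.HH σ τ n x ≤ S.bb σ τ x + S.tb n := by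
  obtain ⟨m, c, hline, hlinex⟩ := exists_support (hS.conc σ τ (h.ok hS)) hx0
  have htb := tb_nonneg hS n
  have hg : IsCM (S.Gam σ τ n) (fun y => m * y + (c + S.tb n)) := by
    refine ⟨concaveOn_affine _ _, fun y hy => ?_⟩
    by_cases hyX : y ≤ S.X
    · have e1 : S.Gam σ τ n y = S.bb σ (trunc n τ) y + (1 / 2) * tail n τ * y ^ 2 := by
        simp [Gam, hyX]
      rw [e1]
      have hTail0 := tail_nonneg h.2.2.1 n
      have hmass : mass τ - mass (trunc n τ) = tail n τ := by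
        rw [mass_trunc, mass_eq h.2.2.2.1 n]; ring
      have h1 := hS.lower σ (trunc n τ) τ n y ((h.trunc n).ok hS) (h.ok hS)
        (trunc_le h.2.2.1 n) (fun k hk => by simp [trunc, hk]) hy
      rw [hmass] at h1
      have h2 := hline y hy
      have h3 : (1 / 2) * tail n τ * (y / S.vv n) ≤ S.tb n := by
        unfold tb
        have hv := hS.hvv n
        have hT : tail n τ ≤ S.Tb := by
          have h4 := tail_le h.2.2.1 h.2.2.2.1 n
          have h5 := h.2.2.2.2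
          linarith
        have : tail n τ * y ≤ S.Tb * S.X := mul_le_mul hT hyX hy hS.hTb
        have e : (1 / 2) * tail n τ * (y / S.vv n) = ((1 / 2) * (tail n τ * y)) / S.vv n := by ring
        rw [e]
        apply div_le_div_of_nonneg_right _ hv.le
        linarith
      nlinarith
    · push Not at hyX
      have e1 : S.Gam σ τ n y = S.Φ y := by simp [Gam, not_le.mpr hyX]
      rw [e1]
      have := Phi_le_support hS h hline hlinex hx0 hxX hyX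
      linarith
  have := Hull_le hg hx0.le
  unfold HH
  linarith

/-- Concave quadratics. -/
lemma concaveOn_quad (c d e : ℝ) (hc : 0 ≤ c) :
    ConcaveOn ℝ (Ici 0) (fun y => -c * y ^ 2 + d * y + e) := by
  refine ⟨convex_Ici 0, fun x _ y _ a b ha hb hab => ?_⟩
  simp only [smul_eq_mul]
  have hb' : b = 1 - a := by linarith
  subst hb'
  nlinarith [mul_nonneg (mul_nonneg ha hb) (mul_nonneg hc (sq_nonneg (x - y)))]

/-- One step of the deficit recursion: upper bound for the next level. -/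
theorem Gam_succ_le (hS : S.Good) {σ : ℝ} {τ : Amp} (h : S.OK2 σ τ) (n : ℕ) {a b θ : ℝ}
    (ha : 0 ≤ a) (hb : b ≤ S.X) (hab : a ≤ b) (hθ0 : 0 ≤ θ) (hθ : 2 * θ ≤ tail (n + 1) τ)
    (hQ : ∀ y, 0 ≤ y → S.Gam σ τ n y + θ * ((y - a) * (b - y)) ≤ S.HH σ τ n y)
    {ρ : ℝ} (hρ : 0 < ρ) (hρX : ρ ≤ S.X) :
    S.Gam σ τ (n + 1) ρ ≤ S.HH σ τ n ρ - θ * ((ρ - a) * (b - ρ)) + S.EE n := by
  have h' : S.OK2 σ (trunc (n + 1) τ) := h.trunc (n + 1)
  have hs := h.2.2.2.1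
  have hτ0 := h.2.2.1
  set T₁ := tail (n + 1) τ with hT₁
  have hT₁0 : 0 ≤ T₁ := tail_nonneg hτ0 _
  have hζ0 := (hS.hζ n).1
  have hζ1 := (hS.hζ n).2
  have hδ0 := (hS.hδ n).1
  have hδ1 := (hS.hδ n).2
  set η := S.ζ n * (S.Cmax + S.M') + (1 / 2) * S.δ n * S.Tb * S.X ^ 2 with hη
  let g : ℝ → ℝ := fun y => S.HH σ τ n y
    + (-(T₁ / 2 - θ) * y ^ 2 + (-(θ * (a + b))) * y + (θ * (a * b) + η))
  have hg : ConcaveOn ℝ (Ici 0) g :=
    (concaveOn_HH hS h n).add (concaveOn_quad _ _ _ (by linarith))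
  have hgval : ∀ y, g y = S.HH σ τ n y - θ * ((y - a) * (b - y)) - (1 / 2) * T₁ * y ^ 2 + η := by
    intro y
    simp only [g]
    ring
  have hτn : τ n ≤ mass τ := by
    have h1 := tail_succ hs n
    have h2 := tail_le hτ0 hs n
    have h3 := tail_nonneg hτ0 (n + 1)
    linarith
  have hTailSum : τ n + T₁ ≤ mass τ := by
    have h1 := tail_succ hs n
    have h2 := tail_le hτ0 hs n
    linarith
  have hmass0 : 0 ≤ mass τ := tsum_nonneg hτ0
  have hG : ∀ y, 0 ≤ y → S.bb σ ((1 + S.ζ n) • trunc n (trunc (n + 1) τ)) y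
      + (1 / 2) * (1 + S.δ n) * tail n (trunc (n + 1) τ) * y ^ 2 ≤ g y := by
    intro y hy
    rw [trunc_trunc_succ, tail_trunc_succ, hgval]
    have hQy := hQ y hy
    by_cases hyX : y ≤ S.X
    · have h1 := amp_compare hS (h.trunc n) hζ0 hζ1 hy hyX
      have e1 : S.Gam σ τ n y = S.bb σ (trunc n τ) y + (1 / 2) * tail n τ * y ^ 2 := by
        simp [Gam, hyX]
      rw [e1, tail_succ hs n] at hQy
      have h3 : S.δ n * τ n * y ^ 2 ≤ S.δ n * S.Tb * S.X ^ 2 := by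
        have h4 : y ^ 2 ≤ S.X ^ 2 := pow_le_pow_left₀ hy hyX 2
        have h5 : τ n ≤ S.Tb := by linarith [h.2.2.2.2]
        have h6 : τ n * y ^ 2 ≤ S.Tb * S.X ^ 2 :=
          mul_le_mul h5 h4 (by positivity) hS.hTb
        calc S.δ n * τ n * y ^ 2 = S.δ n * (τ n * y ^ 2) := by ring
          _ ≤ S.δ n * (S.Tb * S.X ^ 2) := mul_le_mul_of_nonneg_left h6 hδ0
          _ = _ := by ring
      simp only [hη]
      nlinarith
    · push Not at hyX
      have hOK : S.OK σ ((1 + S.ζ n) • trunc n τ) :=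
        (h.trunc n).scale (by linarith) (by linarith)
      have h1 := hS.capΦ σ _ y hOK hyX
      have e1 : S.Gam σ τ n y = S.Φ y := by simp [Gam, not_le.mpr hyX]
      rw [e1] at hQy
      have h3 : (1 + S.δ n) * τ n + T₁ ≤ S.Tb := by
        have := h.2.2.2.2
        have h0 := hτ0 n
        nlinarith
      have h4 : ((1 + S.δ n) * τ n + T₁) * y ^ 2 ≤ S.Tb * y ^ 2 :=
        mul_le_mul_of_nonneg_right h3 (by positivity)
      have hη0 : 0 ≤ η := by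
        have := hS.hCmax
        have := hS.hM'
        have := hS.hTb
        simp only [hη]
        positivity
      nlinarith
  have hM : g ρ ≤ S.Mb := by
    rw [hgval]
    have h1 := HH_le_M₃ hS h n hρ.le
    unfold M₃ at h1
    have h2 : S.ζ n * (S.Cmax + S.M') ≤ S.Cmax + S.M' := by
      have : 0 ≤ S.Cmax + S.M' := by linarith [hS.hCmax, hS.hM']
      nlinarith
    have h5 : 0 ≤ S.Tb * S.X ^ 2 := by have := hS.hTb; positivity
    have h3 : (1 / 2) * S.δ n * S.Tb * S.X ^ 2 ≤ (1 / 2) * S.Tb * S.X ^ 2 := by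
      nlinarith
    have h6 : -(θ * ((ρ - a) * (b - ρ))) ≤ (1 / 2) * S.Tb * S.X ^ 2 := by
      have h7 : θ ≤ (1 / 2) * S.Tb := by
        have := h.2.2.2.2
        have := tail_le hτ0 hs (n + 1)
        linarith
      have h8 : (ρ - a) * (ρ - b) ≤ S.X ^ 2 := by
        have hX := hS.hX
        nlinarith [mul_nonneg hρ.le ha, mul_nonneg ha (hab.trans hb |> fun h => (by linarith : (0:ℝ) ≤ b)),
          mul_nonneg hρ.le (by linarith : (0:ℝ) ≤ b), mul_nonneg (sub_nonneg.mpr hρX) (by linarith : (0:ℝ) ≤ S.X + ρ),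
          mul_nonneg ha (by linarith : (0:ℝ) ≤ b), mul_nonneg (sub_nonneg.mpr hb) (by linarith : (0:ℝ) ≤ S.X + b)]
      have h9 : -(θ * ((ρ - a) * (b - ρ))) = θ * ((ρ - a) * (ρ - b)) := by ring
      rw [h9]
      have h10 : 0 ≤ S.X ^ 2 := by positivity
      calc θ * ((ρ - a) * (ρ - b)) ≤ θ * S.X ^ 2 := mul_le_mul_of_nonneg_left h8 hθ0
        _ ≤ (1 / 2) * S.Tb * S.X ^ 2 := mul_le_mul_of_nonneg_right h7 h10
    have h11 : 0 ≤ (1 / 2) * T₁ * ρ ^ 2 := by positivity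
    simp only [hη]
    unfold Mb
    linarith [hS.hCmax, hS.hM']
  have hfin := upper_step hS h' n hg hG hρ hρX hM
  rw [hgval] at hfin
  have e1 : S.Gam σ τ (n + 1) ρ = S.bb σ (trunc (n + 1) τ) ρ + (1 / 2) * T₁ * ρ ^ 2 := by
    simp [Gam, hρX, hT₁]
  rw [e1]
  unfold EE
  simp only [hη] at hfin ⊢
  linarith

/-- `HH` at the next level is not much smaller. -/
lemma HH_le_HH_succ (hS : S.Good) {σ : ℝ} {τ : Amp} (h : S.OK2 σ τ) (n : ℕ) {x : ℝ} (hx : 0 ≤ x) :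
    S.HH σ τ n x ≤ S.HH σ τ (n + 1) x + S.tb n := by
  have hg : IsCM (S.Gam σ τ n) (fun y => S.HH σ τ (n + 1) y + S.tb n) := by
    refine ⟨(concaveOn_HH hS h (n + 1)).add (concaveOn_const _ (convex_Ici 0)), fun y hy => ?_⟩
    have hGH := Gam_le_HH hS h (n + 1) hy
    have htb := tb_nonneg hS n
    by_cases hyX : y ≤ S.X
    · have e1 : S.Gam σ τ n y = S.bb σ (trunc n τ) y + (1 / 2) * tail n τ * y ^ 2 := by
        simp [Gam, hyX]
      have e2 : S.Gam σ τ (n + 1) y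
          = S.bb σ (trunc (n + 1) τ) y + (1 / 2) * tail (n + 1) τ * y ^ 2 := by
        simp [Gam, hyX]
      rw [e2] at hGH
      rw [e1, tail_succ h.2.2.2.1 n]
      have hmass : mass (trunc (n + 1) τ) - mass (trunc n τ) = τ n := by
        rw [mass_trunc, mass_trunc, Finset.sum_range_succ]; ring
      have hle : ∀ k, trunc n τ k ≤ trunc (n + 1) τ k := by
        intro k
        unfold trunc
        by_cases hk : k < n
        · have : k < n + 1 := by omega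
          simp [hk, this]
        · by_cases hk' : k < n + 1
          · simp [hk, hk', h.2.2.1 k]
          · simp [hk, hk']
      have hsame : ∀ k, k < n → trunc n τ k = trunc (n + 1) τ k := by
        intro k hk
        have : k < n + 1 := by omega
        simp [trunc, hk, this]
      have h1 := hS.lower σ (trunc n τ) (trunc (n + 1) τ) n y ((h.trunc n).ok hS)
        ((h.trunc (n + 1)).ok hS) hle hsame hy
      rw [hmass] at h1
      have h3 : (1 / 2) * τ n * (y / S.vv n) ≤ S.tb n := by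
        unfold tb
        have hv := hS.hvv n
        have hτn : τ n ≤ S.Tb := by
          have h1 := tail_succ h.2.2.2.1 n
          have h2 := tail_le h.2.2.1 h.2.2.2.1 n
          have h3 := tail_nonneg h.2.2.1 (n + 1)
          have h4 := h.2.2.2.2
          have h5 : 0 ≤ mass τ := tsum_nonneg h.2.2.1
          linarith
        have : τ n * y ≤ S.Tb * S.X := mul_le_mul hτn hyX hy hS.hTb
        have e : (1 / 2) * τ n * (y / S.vv n) = ((1 / 2) * (τ n * y)) / S.vv n := by ring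
        rw [e]
        apply div_le_div_of_nonneg_right _ hv.le
        linarith
      nlinarith
    · push Not at hyX
      have e1 : S.Gam σ τ n y = S.Φ y := by simp [Gam, not_le.mpr hyX]
      have e2 : S.Gam σ τ (n + 1) y = S.Φ y := by simp [Gam, not_le.mpr hyX]
      rw [e1]
      rw [e2] at hGH
      linarith
  exact Hull_le hg hx

/-- Deficit induction: no contact on the gaps at any level. -/
theorem no_contact (hS : S.Good) {σ : ℝ} {τ : Amp} (h : S.OK2 σ τ) (a b θ : ℕ → ℝ)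
    (ha : ∀ n, 0 ≤ a n) (hb : ∀ n, b n ≤ S.X) (hab : ∀ n, a n ≤ b n) (hθ0 : ∀ n, 0 ≤ θ n)
    (hθ : ∀ n, 2 * θ n ≤ tail (n + 1) τ)
    (hstep : ∀ n y, a (n + 1) < y → y < b (n + 1) →
      θ (n + 1) * ((y - a (n + 1)) * (b (n + 1) - y))
        ≤ θ n * ((y - a n) * (b n - y)) - (S.EE n + S.tb n))
    (hbase : ∀ y, a 0 < y → y < b 0 → S.Gam σ τ 0 y + θ 0 * ((y - a 0) * (b 0 - y)) ≤ S.HH σ τ 0 y)
    (n : ℕ) : ∀ y, a n < y → y < b n →
      S.Gam σ τ n y + θ n * ((y - a n) * (b n - y)) ≤ S.HH σ τ n y := by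
  induction n with
  | zero => exact hbase
  | succ n ih =>
    intro y hy1 hy2
    have hy0 : 0 < y := (ha _).trans_lt hy1
    have hyX : y ≤ S.X := (hy2.le).trans (hb _)
    have hQ : ∀ y, 0 ≤ y → S.Gam σ τ n y + θ n * ((y - a n) * (b n - y)) ≤ S.HH σ τ n y := by
      intro w hw
      by_cases hcase : a n < w ∧ w < b n
      · exact ih w hcase.1 hcase.2
      · have h1 := Gam_le_HH hS h n hw
        have h2 : (w - a n) * (b n - w) ≤ 0 := by
          by_cases hw1 : a n < w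
          · have hw2 : b n ≤ w := by
              by_contra hcon
              exact hcase ⟨hw1, not_le.mp hcon⟩
            exact mul_nonpos_of_nonneg_of_nonpos (by linarith) (by linarith)
          · push Not at hw1
            exact mul_nonpos_of_nonpos_of_nonneg (by linarith) (by linarith [hab n])
        have h3 := mul_nonpos_of_nonneg_of_nonpos (hθ0 n) h2
        linarith
    have h1 := Gam_succ_le hS h n (ha n) (hb n) (hab n) (hθ0 n) (hθ n) hQ hy0 hyX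
    have h2 := hstep n y hy1 hy2
    have h3 := HH_le_HH_succ hS h n hy0.le
    linarith

/-- Affine predicate. -/
def AffOn (F : ℝ → ℝ) (a b : ℝ) : Prop :=
  ∀ x y z, a < x → x < y → y < z → z < b → (z - x) * F y = (z - y) * F x + (y - x) * F z

/-- Exact affinity of the limit on the limiting gap. -/
theorem affOn_bb (hS : S.Good) {σ : ℝ} {τ : Amp} (h : S.OK2 σ τ) (a b θ : ℕ → ℝ) {aI bI : ℝ}
    (ha0 : 0 ≤ aI) (hbX₀ : bI ≤ S.X₀) (ha : ∀ n, a n ≤ aI) (hb : ∀ n, bI ≤ b n)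
    (hθ0 : ∀ n, 0 < θ n)
    (hcontact : ∀ n y, a n < y → y < b n →
      S.Gam σ τ n y + θ n * ((y - a n) * (b n - y)) ≤ S.HH σ τ n y)
    (herr : Filter.Tendsto (fun n => S.EE n + S.tb n) Filter.atTop (nhds 0)) :
    AffOn (S.bb σ τ) aI bI := by
  intro x y z hx hxy hyz hz
  have hX₀X : S.X₀ ≤ S.X := hS.hX₀₁.le.trans hS.hX₁
  have hx0 : 0 < x := ha0.trans_lt hx
  have hy0 : 0 < y := hx0.trans hxy
  have hz0 : 0 < z := hy0.trans hyz
  have hzX₀ : z ≤ S.X₀ := hz.le.trans hbX₀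
  have hyX₀ : y ≤ S.X₀ := hyz.le.trans hzX₀
  have hxX₀ : x ≤ S.X₀ := hxy.le.trans hyX₀
  apply le_antisymm
  · -- hull is affine at each level, pass to the limit
    have hle : ∀ n, (z - x) * S.bb σ τ y ≤ (z - y) * S.bb σ τ x + (y - x) * S.bb σ τ z
        + (z - x) * (S.EE n + S.tb n) := by
      intro n
      have hm : 0 < θ n * ((x - a n) * (b n - z)) := by
        apply mul_pos (hθ0 n)
        apply mul_pos
        · linarith [ha n]
        · linarith [hb n]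
      have hmargin : ∀ w, x ≤ w → w ≤ z →
          S.Gam σ τ n w + θ n * ((x - a n) * (b n - z)) ≤ Hull (S.Gam σ τ n) w := by
        intro w hw1 hw2
        have h1 := hcontact n w (by linarith [ha n]) (by linarith [hb n])
        have h2 : (x - a n) * (b n - z) ≤ (w - a n) * (b n - w) := by
          apply mul_le_mul <;> linarith [ha n, hb n]
        have h3 := mul_le_mul_of_nonneg_left h2 (hθ0 n).le
        unfold HH at h1
        linarith
      have hchord := Hull_le_chord (fun t ht => Gam_le_M₃ hS h n ht) hx0.le (hxy.trans hyz) hm hmargin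
        hxy.le hyz.le
      have h1 := bb_le_HH hS h n hy0 (hyX₀.trans hX₀X)
      have h2 := HH_le_bb hS h n hx0 hxX₀
      have h3 := HH_le_bb hS h n hz0 hzX₀
      unfold HH at h1 h2 h3
      have hzx : 0 < z - x := by linarith
      have hzy : 0 < z - y := by linarith
      have hyx : 0 < y - x := by linarith
      have h4 := mul_le_mul_of_nonneg_left h1 hzx.le
      have h5 := mul_le_mul_of_nonneg_left h2 hzy.le
      have h6 := mul_le_mul_of_nonneg_left h3 hyx.le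
      have htb := tb_nonneg hS n
      nlinarith
    have hlim : Filter.Tendsto (fun n => (z - y) * S.bb σ τ x + (y - x) * S.bb σ τ z
        + (z - x) * (S.EE n + S.tb n)) Filter.atTop
        (nhds ((z - y) * S.bb σ τ x + (y - x) * S.bb σ τ z + (z - x) * 0)) :=
      Filter.Tendsto.add tendsto_const_nhds (Filter.Tendsto.const_mul _ herr)
    have := ge_of_tendsto' hlim hle
    linarith
  · exact ConcaveOn_three (hS.conc σ τ (h.ok hS)) hx0.le hxy hyz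

end Sys

end Crest.Agent.Lib.GasSys
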