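import Crest.Agent.Lib.GasKink

/-!
# Base windows at level zero (row 149): from three base estimates on the system without attraction,
the kink at the triple point. Pure real analysis.
-/

set_option autoImplicit false

namespace Crest.Agent.Lib.GasWindow

open Set Filter Topology Crest.Agent.Lib.GasHull Crest.Agent.Lib.GasSys
  Crest.Agent.Lib.GasSys.Sys Crest.Agent.Lib.GasKink

/-- The hypotheses at level zero. `k` is the clique size, `q` the density of the liquid test state,
`L` the entropy cost per particle in a cluster, `U` a bound for the lower order terms. -/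
structure WinHyp (S : Sys) (c : Amp) (k : ℕ) (q ε L U δ θb : ℝ) : Prop where
  hS : S.Good
  hσ₀ : S.σ₀ = 1 / 2
  hσ₁ : S.σ₁ = 2
  hk : 2 ≤ k
  hq : 0 < q
  hε : 0 < ε
  hε' : ε ≤ 1 / 1000
  hU : 0 ≤ U
  hXeq : S.X = k * q * (1 + 2 * ε)
  hX₁ : S.X₁ = k * q
  hX₀ : S.X₀ = (k - ε) * q
  /-- room for the concave majorants below `Cmax` -/
  hCmax : U + 2 * (L / (k * q)) * (q * (1 + ε)) ^ 2 ≤ S.Cmax
  hc : ∀ n, 0 < c n
  hcs : Summable c
  hcd : ∀ n, 2 * c (n + 1) ≤ c n
  hmass : mass c = 2 * (L / (k * q))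
  hTb : 6 * mass c ≤ S.Tb
  /-- upper bound for the system without attraction -/
  up : ∀ σ, 1 / 2 ≤ σ → σ ≤ 2 → ∀ y, 0 ≤ y → y ≤ S.X →
    S.bb σ 0 y ≤ U - (L - U) * max (y - q * (1 + ε)) 0
  /-- liquid test bound -/
  lowL : ∀ σ, 1 / 2 ≤ σ → σ ≤ 2 → -U ≤ S.bb σ 0 q
  /-- cluster test bound -/
  lowS : ∀ σ, 1 / 2 ≤ σ → σ ≤ 2 → -((k - 1) * q * L) - U ≤ S.bb σ 0 (k * q)
  /-- the entropy cost dominates -/
  num : ((2 + S.X) * U + 1) * (2 * k) ≤ ε * (q * L)
  herr : Tendsto (fun n => S.EE n + S.tb n) atTop (nhds 0)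
  hδ : ∀ m, ∑ j ∈ Finset.range m, (S.EE j + S.tb j) / c (j + 1) ≤ δ
  hE0 : S.EE 0 + S.tb 0 ≤ 1
  hθb : 0 < θb
  hθb' : θb ≤ 1 / 4
  hθb2 : θb * mass c * S.X ^ 2 ≤ 1
  hδ1 : 4 * δ ≤ θb * ε * q ^ 2
  hδ2 : (L / (k * q)) * δ ≤ 1

lemma tail_le_two {c : Amp} (hc : ∀ n, 0 < c n) (hcs : Summable c) (hcd : ∀ n, 2 * c (n + 1) ≤ c n)
    (n : ℕ) : tail n c ≤ 2 * c n := by
  have h1 : ∀ j, c (j + n) ≤ c n * (1 / 2) ^ j := by
    intro j
    induction j with
    | zero => simp
    | succ j ih =>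
      have h2 := hcd (j + n)
      have e : j + 1 + n = j + n + 1 := by omega
      rw [e, pow_succ]
      nlinarith
  have h3 : Summable (fun j => c n * ((1 : ℝ) / 2) ^ j) := summable_geometric_two.mul_left _
  have h4 : tail n c ≤ ∑' j, c n * ((1 : ℝ) / 2) ^ j := by
    unfold tail
    exact ((summable_nat_add_iff n).mpr hcs).tsum_le_tsum h1 h3
  rw [tsum_mul_left, tsum_geometric_two] at h4
  linarith

lemma tail_pos {c : Amp} (hc : ∀ n, 0 < c n) (hcs : Summable c) (n : ℕ) : c n ≤ tail n c := by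
  have h1 := tail_succ hcs n
  have h2 := tail_nonneg (fun k => (hc k).le) (n + 1) (τ := c)
  linarith

variable {S : Sys} {c : Amp} {k : ℕ} {q ε L U δ θb : ℝ}

namespace WinHyp

variable (W : WinHyp S c k q ε L U δ θb)
include W

lemma hK : (2 : ℝ) ≤ k := by exact_mod_cast W.hk

lemma hJ : 0 ≤ mass c := tsum_nonneg fun n => (W.hc n).le

lemma hcpos : 0 < mass c := by
  have h1 := kap_le_mass (fun n => (W.hc n).le) W.hcs 0
  have h2 := kap_pos W.hc 0
  linarith

lemma hA : 0 < L / (k * q) := by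
  have := W.hcpos
  have := W.hmass
  linarith

lemma hL : 0 < L := by
  have h1 := W.hA
  have h2 := W.hK
  have h3 := W.hq
  have h4 : 0 < (k : ℝ) * q := by positivity
  by_contra h
  push Not at h
  have := div_nonpos_of_nonpos_of_nonneg h h4.le
  linarith

lemma hX : 0 < S.X := W.hS.hX

/-- Admissibility on the physical line. -/
lemma ok2 {β : ℝ} (h1 : 1 / 2 ≤ β) (h2 : β ≤ 2) : S.OK2 β (β • c) := by
  have hJ := W.hJ
  refine ⟨by rw [W.hσ₀]; exact h1, by rw [W.hσ₁]; exact h2, fun n => ?_, W.hcs.mul_left β, ?_⟩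
  · have := mul_nonneg (by linarith : 0 ≤ β) (W.hc n).le
    simpa using this
  · rw [mass_smul]
    have := W.hTb
    nlinarith

lemma ok_zero {σ : ℝ} (h1 : 1 / 2 ≤ σ) (h2 : σ ≤ 2) : S.OK σ (0 : Amp) :=
  OK_zero W.hS (by rw [W.hσ₀]; exact h1) (by rw [W.hσ₁]; exact h2)

/-- Level zero of `Gam` on the physical line. -/
lemma Gam_eq {β y : ℝ} (hy : y ≤ S.X) :
    S.Gam β (β • c) 0 y = S.bb β 0 y + β * (L / (k * q)) * y ^ 2 := by
  have e1 : trunc 0 (β • c) = 0 := by
    funext n
    simp [trunc]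
  have e2 : tail 0 (β • c) = mass (β • c) := by
    simp [tail, mass]
  simp only [Sys.Gam, hy, if_true]
  rw [e1, e2, mass_smul, W.hmass]
  ring

lemma qX : q ≤ S.X := by
  rw [W.hXeq]
  have h1 := W.hK
  have h2 := W.hq
  have h3 := W.hε
  nlinarith [mul_pos h2 h3]

lemma KqX : k * q ≤ S.X := by
  rw [W.hXeq]
  have h1 := W.hK
  have h2 := W.hq
  have h3 := W.hε
  have h4 : 0 < (k : ℝ) * q := by positivity
  nlinarith [mul_pos h4 h3]

lemma hKq : 0 < (k : ℝ) * q := by
  have h1 := W.hK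
  have h2 := W.hq
  positivity

/-- Value at `0`. -/
lemma Gam_zero {β : ℝ} (h1 : 1 / 2 ≤ β) (h2 : β ≤ 2) : S.Gam β (β • c) 0 0 = 0 := by
  rw [W.Gam_eq W.hX.le, W.hS.zero β 0 (W.ok_zero h1 h2)]
  ring

/-- Liquid test value. -/
lemma Gam_q {β : ℝ} (h1 : 1 / 2 ≤ β) (h2 : β ≤ 2) :
    -U + β * (L / (k * q)) * q ^ 2 ≤ S.Gam β (β • c) 0 q := by
  rw [W.Gam_eq W.qX]
  have := W.lowL β h1 h2
  linarith

/-- Cluster test value. -/
lemma Gam_Kq {β : ℝ} (h1 : 1 / 2 ≤ β) (h2 : β ≤ 2) :
    -((k - 1) * q * L) - U + β * (L / (k * q)) * (k * q) ^ 2 ≤ S.Gam β (β • c) 0 (k * q) := by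
  rw [W.Gam_eq W.KqX]
  have := W.lowS β h1 h2
  linarith

/-- Upper bound below the critical density. -/
lemma Gam_up₁ {β y : ℝ} (h1 : 1 / 2 ≤ β) (h2 : β ≤ 2) (hy : 0 ≤ y) (hyp : y ≤ q * (1 + ε)) :
    S.Gam β (β • c) 0 y ≤ U + β * (L / (k * q)) * y ^ 2 := by
  have hyX : y ≤ S.X := by
    refine hyp.trans ?_
    rw [W.hXeq]
    have h3 := W.hK
    have h4 := W.hq
    have h5 := W.hε
    have h6 : 0 < q * (1 + 2 * ε) := by positivity
    nlinarith [mul_pos h4 h5]
  rw [W.Gam_eq hyX]
  have h3 := W.up β h1 h2 y hy hyX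
  rw [max_eq_right (by linarith)] at h3
  linarith

/-- Upper bound above the critical density. -/
lemma Gam_up₂ {β y : ℝ} (h1 : 1 / 2 ≤ β) (h2 : β ≤ 2) (hyp : q * (1 + ε) ≤ y) (hyX : y ≤ S.X) :
    S.Gam β (β • c) 0 y ≤ U - (L - U) * (y - q * (1 + ε)) + β * (L / (k * q)) * y ^ 2 := by
  have hy0 : 0 ≤ y := by
    refine le_trans ?_ hyp
    have h4 := W.hq
    have h5 := W.hε
    positivity
  rw [W.Gam_eq hyX]
  have h3 := W.up β h1 h2 y hy0 hyX
  rw [max_eq_left (by linarith)] at h3
  linarith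

end WinHyp

/-- A concave quadratic nonnegative at the endpoints is nonnegative in between. -/
lemma concave_quad_nonneg {α γ d s t y : ℝ} (hα : 0 ≤ α) (hs : 0 ≤ -α * s ^ 2 + γ * s + d)
    (ht : 0 ≤ -α * t ^ 2 + γ * t + d) (hy1 : s ≤ y) (hy2 : y ≤ t) : 0 ≤ -α * y ^ 2 + γ * y + d := by
  rcases eq_or_lt_of_le (hy1.trans hy2) with h | h
  · have : y = s := by linarith
    rw [this]
    exact hs
  have h1 : 0 < t - s := by linarith
  have key : (t - s) * (-α * y ^ 2 + γ * y + d)
      = (t - y) * (-α * s ^ 2 + γ * s + d) + (y - s) * (-α * t ^ 2 + γ * t + d)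
        + (t - s) * (α * ((y - s) * (t - y))) := by ring
  have h2 : 0 ≤ (t - s) * (-α * y ^ 2 + γ * y + d) := by
    rw [key]
    have h3 : 0 ≤ α * ((y - s) * (t - y)) :=
      mul_nonneg hα (mul_nonneg (by linarith) (by linarith))
    have h4 := mul_nonneg (by linarith : 0 ≤ t - y) hs
    have h5 := mul_nonneg (by linarith : 0 ≤ y - s) ht
    have h6 := mul_nonneg h1.le h3
    linarith
  exact nonneg_of_mul_nonneg_right h2 h1

/-- The hull at level zero is above the chord of two lower bounds of `Gam`. -/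
lemma chord_le_HH (hS : S.Good) {σ : ℝ} {τ : Amp} (h : S.OK2 σ τ) {u v y vu vv : ℝ} (hu : 0 ≤ u)
    (huy : u ≤ y) (hyv : y ≤ v) (huv : u < v) (h1 : vu ≤ S.Gam σ τ 0 u) (h2 : vv ≤ S.Gam σ τ 0 v) :
    (v - y) * vu + (y - u) * vv ≤ (v - u) * S.HH σ τ 0 y := by
  have hv0 : 0 ≤ v := hu.trans huv.le
  have hG1 := (h1.trans (Gam_le_HH hS h 0 hu))
  have hG2 := (h2.trans (Gam_le_HH hS h 0 hv0))
  rcases eq_or_lt_of_le huy with e | e
  · subst e
    have : (v - u) * vu ≤ (v - u) * S.HH σ τ 0 u :=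
      mul_le_mul_of_nonneg_left hG1 (by linarith)
    nlinarith
  rcases eq_or_lt_of_le hyv with e' | e'
  · subst e'
    have : (y - u) * vv ≤ (y - u) * S.HH σ τ 0 y :=
      mul_le_mul_of_nonneg_left hG2 (by linarith)
    nlinarith
  have h3 := ConcaveOn_three (concaveOn_HH hS h 0) hu e e'
  have h4 := mul_le_mul_of_nonneg_left hG1 (by linarith : 0 ≤ v - y)
  have h5 := mul_le_mul_of_nonneg_left hG2 (by linarith : 0 ≤ y - u)
  linarith

lemma tail_smul (β : ℝ) (n : ℕ) (c : Amp) : tail n (β • c) = β * tail n c := by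
  unfold tail
  simpa using tsum_mul_left (a := β) (f := fun j => c (j + n))

/-- Exact affinity on the gap from the base estimate. -/
theorem WinHyp.affine_of_base (W : WinHyp S c k q ε L U δ θb) {β : ℝ} (h1 : 1 / 2 ≤ β) (h2 : β ≤ 2)
    {a₀ b₀ : ℝ} (ha₀ : 0 ≤ a₀) (hb₀ : b₀ ≤ S.X) (hw : q / 2 ≤ (b₀ - ε * q) - (a₀ + ε * q))
    (hb₀' : b₀ - ε * q ≤ S.X₀)
    (hbase : ∀ y, a₀ < y → y < b₀ → S.Gam β (β • c) 0 y + 1 ≤ S.HH β (β • c) 0 y) :
    AffOn (S.bb β (β • c)) (a₀ + ε * q) (b₀ - ε * q) := by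
  have hS := W.hS
  have hq := W.hq
  have hθb := W.hθb
  have hε := W.hε
  have hOK := W.ok2 h1 h2
  have hβ0 : 0 < β := by linarith
  set E : ℕ → ℝ := fun n => S.EE n + S.tb n with hE
  have hE0 : ∀ n, 0 ≤ E n := fun n => add_nonneg (EE_nonneg hS n) (tb_nonneg hS n)
  set x : ℕ → ℝ := fun n => 4 * E n / (θb * c (n + 1) * q) with hx
  have hc := W.hc
  have hx0 : ∀ n, 0 ≤ x n := fun n => by
    have := hc (n + 1)
    have := hE0 n
    simp only [hx]
    positivity
  set Sx : ℕ → ℝ := fun n => ∑ j ∈ Finset.range n, x j with hSx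
  have hSx0 : ∀ n, 0 ≤ Sx n := fun n => Finset.sum_nonneg fun j _ => hx0 j
  have hSxle : ∀ n, Sx n ≤ ε * q := by
    intro n
    have e : Sx n = (4 / (θb * q)) * ∑ j ∈ Finset.range n, E j / c (j + 1) := by
      simp only [hSx, hx]
      rw [Finset.mul_sum]
      refine Finset.sum_congr rfl fun j _ => ?_
      have := hc (j + 1)
      field_simp
    rw [e]
    have h3 := W.hδ n
    have h4 : (4 / (θb * q)) * ∑ j ∈ Finset.range n, E j / c (j + 1) ≤ (4 / (θb * q)) * δ :=
      mul_le_mul_of_nonneg_left h3 (by positivity)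
    refine h4.trans ?_
    have h5 := W.hδ1
    rw [div_mul_eq_mul_div, div_le_iff₀ (by positivity)]
    nlinarith
  have hSxsucc : ∀ n, Sx (n + 1) = Sx n + x n := fun n => Finset.sum_range_succ _ _
  set a : ℕ → ℝ := fun n => a₀ + Sx n with ha
  set b : ℕ → ℝ := fun n => b₀ - Sx n with hb
  set θ : ℕ → ℝ := fun n => θb * tail (n + 1) c with hθ
  have hcs := W.hcs
  have htailpos : ∀ n, c n ≤ tail n c := fun n => tail_pos hc hcs n
  have hθ0 : ∀ n, 0 < θ n := fun n => by
    have h3 := htailpos (n + 1)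
    have h4 := hc (n + 1)
    simp only [hθ]
    exact mul_pos hθb (by linarith)
  have hba : ∀ n, q / 2 ≤ b n - a n := fun n => by
    simp only [ha, hb]
    have := hSxle n
    linarith
  have hcontact : ∀ n y, a n < y → y < b n →
      S.Gam β (β • c) n y + θ n * ((y - a n) * (b n - y)) ≤ S.HH β (β • c) n y := by
    apply no_contact hS hOK a b θ
    · intro n
      simp only [ha]
      linarith [hSx0 n]
    · intro n
      simp only [hb]
      linarith [hSx0 n]
    · intro n
      have := hba n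
      linarith
    · intro n
      exact (hθ0 n).le
    · intro n
      rw [tail_smul]
      simp only [hθ]
      have h3 : 0 ≤ tail (n + 1) c := tail_nonneg (fun j => (hc j).le) _
      have h4 := W.hθb'
      nlinarith
    · intro n y hy1 hy2
      simp only [ha, hb, hSxsucc] at hy1 hy2 ⊢
      set s := y - (a₀ + Sx n) with hs
      set t := b₀ - Sx n - y with ht
      have hxn := hx0 n
      have hs1 : x n < s := by simp only [hs]; linarith
      have ht1 : x n < t := by simp only [ht]; linarith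
      have e1 : y - (a₀ + (Sx n + x n)) = s - x n := by simp only [hs]; ring
      have e2 : b₀ - (Sx n + x n) - y = t - x n := by simp only [ht]; ring
      rw [e1, e2]
      have hQ : (s - x n) * (t - x n) ≤ s * t := by nlinarith
      have hQ0 : 0 ≤ (s - x n) * (t - x n) := mul_nonneg (by linarith) (by linarith)
      have hst : s + t - x n ≥ q / 2 := by
        have h3 : s + t - x n = (b₀ - Sx (n + 1)) - (a₀ + Sx n) := by
          simp only [hs, ht, hSxsucc]; ring
        rw [h3]
        have := hSxle n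
        have := hSxle (n + 1)
        linarith
      have hQ2 : x n * (q / 2) ≤ s * t := by
        have h3 : x n * (s + t - x n) ≤ s * t := by nlinarith
        have h4 : x n * (q / 2) ≤ x n * (s + t - x n) := mul_le_mul_of_nonneg_left hst hxn
        linarith
      -- decay of the tails
      have htail : tail (n + 1 + 1) c ≤ (1 / 2) * tail (n + 1) c := by
        have h3 := tail_succ hcs (n + 1)
        have h4 := tail_le_two hc hcs W.hcd (n + 1 + 1)
        have h5 := W.hcd (n + 1)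
        linarith
      have hθs : θ (n + 1) ≤ (1 / 2) * θ n := by
        simp only [hθ]
        have := mul_le_mul_of_nonneg_left htail hθb.le
        linarith
      have hθn : θb * c (n + 1) ≤ θ n := by
        simp only [hθ]
        exact mul_le_mul_of_nonneg_left (htailpos _) hθb.le
      have h6 : E n ≤ (1 / 2) * (θ n * (s * t)) := by
        have hcc := hc (n + 1)
        have e5 : E n = (1 / 2) * (θb * c (n + 1) * (x n * (q / 2))) := by
          simp only [hx]
          field_simp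
          ring
        rw [e5]
        have h7 : θb * c (n + 1) * (x n * (q / 2)) ≤ θ n * (s * t) := by
          have h8 : 0 ≤ x n * (q / 2) := by positivity
          calc θb * c (n + 1) * (x n * (q / 2)) ≤ θ n * (x n * (q / 2)) :=
                mul_le_mul_of_nonneg_right hθn h8
            _ ≤ θ n * (s * t) := mul_le_mul_of_nonneg_left hQ2 (hθ0 n).le
        linarith
      have h7 : θ (n + 1) * ((s - x n) * (t - x n)) ≤ (1 / 2) * (θ n * (s * t)) := by
        calc θ (n + 1) * ((s - x n) * (t - x n)) ≤ ((1 / 2) * θ n) * ((s - x n) * (t - x n)) :=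
              mul_le_mul_of_nonneg_right hθs hQ0
          _ ≤ ((1 / 2) * θ n) * (s * t) := mul_le_mul_of_nonneg_left hQ (by have := hθ0 n; positivity)
          _ = _ := by ring
      simp only [hE] at h6
      linarith
    · intro y hy1 hy2
      simp only [ha, hb] at hy1 hy2 ⊢
      have e1 : Sx 0 = 0 := rfl
      rw [e1] at hy1 hy2 ⊢
      simp only [add_zero, sub_zero] at hy1 hy2 ⊢
      have h3 := hbase y hy1 hy2
      have hX := W.hX
      have hy0 : 0 < y := ha₀.trans_lt hy1
      have h4 : (y - a₀) * (b₀ - y) ≤ S.X ^ 2 := by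
        have h5 : y - a₀ ≤ S.X := by linarith
        have h6 : b₀ - y ≤ S.X := by linarith
        rw [sq]
        exact mul_le_mul h5 h6 (by linarith) hX.le
      have h5 : θ 0 ≤ θb * mass c := by
        simp only [hθ]
        exact mul_le_mul_of_nonneg_left (tail_le (fun j => (hc j).le) hcs _) hθb.le
      have h6 : θ 0 * ((y - a₀) * (b₀ - y)) ≤ 1 := by
        have h7 : 0 ≤ θb * mass c := mul_nonneg hθb.le W.hJ
        calc θ 0 * ((y - a₀) * (b₀ - y)) ≤ θ 0 * S.X ^ 2 :=
              mul_le_mul_of_nonneg_left h4 (hθ0 0).le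
          _ ≤ θb * mass c * S.X ^ 2 := mul_le_mul_of_nonneg_right h5 (by positivity)
          _ ≤ 1 := W.hθb2
      linarith
  refine affOn_bb hS hOK a b θ (by positivity) hb₀' (fun n => ?_) (fun n => ?_) hθ0 hcontact W.herr
  · simp only [ha]
    linarith [hSxle n]
  · simp only [hb]
    linarith [hSxle n]

namespace WinHyp

variable (W : WinHyp S c k q ε L U δ θb)
include W

lemma qL_eq : q * L = k * ((L / (k * q)) * q ^ 2) := by
  have h1 := W.hKq
  have h2 := W.hq
  have h3 : (k : ℝ) ≠ 0 := by have := W.hK; positivity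
  field_simp

lemma hZ : 2 * ((2 + S.X) * U + 1) ≤ ε * ((L / (k * q)) * q ^ 2) := by
  have h1 := W.num
  rw [W.qL_eq] at h1
  have h2 := W.hK
  have h3 : 0 < (k : ℝ) := by linarith
  have h4 : (2 * ((2 + S.X) * U + 1)) * k ≤ (ε * ((L / (k * q)) * q ^ 2)) * k := by
    calc (2 * ((2 + S.X) * U + 1)) * k = ((2 + S.X) * U + 1) * (2 * k) := by ring
      _ ≤ ε * (k * ((L / (k * q)) * q ^ 2)) := h1
      _ = _ := by ring
  exact le_of_mul_le_mul_right h4 h3

/-- Base estimate on the first gap. -/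
lemma base₁ {β : ℝ} (h1 : 15 / 16 ≤ β) (h2 : β ≤ 17 / 16) {y : ℝ} (hy1 : ε * q < y)
    (hy2 : y < (1 - ε) * q) : S.Gam β (β • c) 0 y + 1 ≤ S.HH β (β • c) 0 y := by
  have hq := W.hq
  have hε := W.hε
  have hε' := W.hε'
  have hS := W.hS
  have hU := W.hU
  have hX := W.hX
  have hOK := W.ok2 (β := β) (by linarith) (by linarith)
  have hβ0 : 0 < β := by linarith
  set A := L / (k * q) with hA
  have hA0 : 0 < A := W.hA
  set P := A * q ^ 2 with hP
  have hP0 : 0 < P := by positivity
  have hy0 : 0 < y := by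
    have : 0 < ε * q := by positivity
    linarith
  have hyq : y < q := by nlinarith
  have hch := chord_le_HH hS hOK (u := 0) (v := q) (y := y) le_rfl hy0.le hyq.le hq
    (W.Gam_zero (β := β) (by linarith) (by linarith)).ge
    (W.Gam_q (β := β) (by linarith) (by linarith))
  have hup := W.Gam_up₁ (β := β) (y := y) (by linarith) (by linarith) hy0.le
    (by nlinarith [mul_pos hq hε])
  have hZ := W.hZ
  rw [← hA, ← hP] at hZ
  have hXU : 0 ≤ S.X * U := by positivity
  -- the concave function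
  have hf : 0 ≤ -(β * A * q) * y ^ 2 + (β * P - U) * y + (-(q * (U + 1))) := by
    refine concave_quad_nonneg (s := ε * q) (t := (1 - ε) * q) (by positivity) ?_ ?_ hy1.le hy2.le
    · have e : -(β * A * q) * (ε * q) ^ 2 + (β * P - U) * (ε * q) + -(q * (U + 1))
          = q * (β * (ε * P) * (1 - ε) - ε * U - U - 1) := by
        simp only [hP]; ring
      rw [e]
      apply mul_nonneg hq.le
      have h3 : (15 / 16) * (999 / 1000) * (ε * P) ≤ β * (ε * P) * (1 - ε) := by
        have h4 : 0 ≤ ε * P := by positivity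
        have h5 : (15 / 16 : ℝ) * (999 / 1000) ≤ β * (1 - ε) := by nlinarith
        nlinarith
      nlinarith
    · have e : -(β * A * q) * ((1 - ε) * q) ^ 2 + (β * P - U) * ((1 - ε) * q) + -(q * (U + 1))
          = q * (β * (ε * P) * (1 - ε) - (1 - ε) * U - U - 1) := by
        simp only [hP]; ring
      rw [e]
      apply mul_nonneg hq.le
      have h3 : (15 / 16) * (999 / 1000) * (ε * P) ≤ β * (ε * P) * (1 - ε) := by
        have h4 : 0 ≤ ε * P := by positivity
        have h5 : (15 / 16 : ℝ) * (999 / 1000) ≤ β * (1 - ε) := by nlinarith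
        nlinarith
      nlinarith
  have e2 : (q - y) * 0 + (y - 0) * (-U + β * A * q ^ 2) - (q - 0) * (U + β * A * y ^ 2 + 1)
      = -(β * A * q) * y ^ 2 + (β * P - U) * y + (-(q * (U + 1))) := by
    simp only [hP]; ring
  have h5 : (q - 0) * (U + β * A * y ^ 2 + 1) ≤ (q - 0) * S.HH β (β • c) 0 y := by
    linarith
  have h6 := le_of_mul_le_mul_left h5 (by linarith : 0 < q - 0)
  linarith

/-- Base estimate on the second gap. -/
lemma base₂ {β : ℝ} (h1 : 15 / 16 ≤ β) (h2 : β ≤ 17 / 16) {y : ℝ} (hy1 : (1 + 4 * ε) * q < y)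
    (hy2 : y < (k - 4 * ε) * q) : S.Gam β (β • c) 0 y + 1 ≤ S.HH β (β • c) 0 y := by
  have hq := W.hq
  have hε := W.hε
  have hε' := W.hε'
  have hS := W.hS
  have hU := W.hU
  have hX := W.hX
  have hK := W.hK
  have hOK := W.ok2 (β := β) (by linarith) (by linarith)
  have hβ0 : 0 < β := by linarith
  have hqL := W.qL_eq
  set K : ℝ := (k : ℝ) with hKdef
  set A := L / (K * q) with hA
  have hA0 : 0 < A := W.hA
  set P := A * q ^ 2 with hP
  have hP0 : 0 < P := by positivity
  have hZ := W.hZ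
  rw [← hA, ← hP] at hZ
  have hXeq := W.hXeq
  have hεq : 0 < ε * q := by positivity
  have hy0 : 0 < y := by
    have : 0 < (1 + 4 * ε) * q := by positivity
    linarith
  have hyq : q < y := by nlinarith
  have hyK : y < K * q := by nlinarith
  have hyX : y ≤ S.X := by
    have h3 : (K - 4 * ε) * q ≤ K * q * (1 + 2 * ε) := by
      have : 0 < K * q := by positivity
      nlinarith [mul_pos this hε]
    rw [hXeq]
    linarith
  have hch : (K * q - y) * (-U + β * A * q ^ 2)
      + (y - q) * (-((K - 1) * q * L) - U + β * A * (K * q) ^ 2)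
      ≤ (K * q - q) * S.HH β (β • c) 0 y :=
    chord_le_HH hS hOK (u := q) (v := K * q) (y := y) hq.le hyq.le hyK.le
      (by nlinarith) (W.Gam_q (β := β) (by linarith) (by linarith))
      (W.Gam_Kq (β := β) (by linarith) (by linarith))
  have hp' : q * (1 + ε) ≤ y := by nlinarith
  set p' := q * (1 + ε) with hp'def
  have hup : S.Gam β (β • c) 0 y ≤ U - (L - U) * (y - p') + β * A * y ^ 2 :=
    W.Gam_up₂ (β := β) (y := y) (by linarith) (by linarith) hp' hyX
  have hXU : 0 ≤ S.X * U := by positivity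
  have hp0 : 0 < p' := by positivity
  have hyp'X : y - p' ≤ S.X := by linarith
  have hg : 0 ≤ -(β * A) * y ^ 2 + (β * A * (K + 1) * q - U) * y
      + (q * L - β * A * K * q ^ 2 - 2 * U - (L - U) * p' - 1) := by
    have hLe : q * L = K * P := hqL
    have hkey : (15 / 4 : ℝ) * (K - 1 - 4 * ε) - K ≥ 1 := by nlinarith
    have hεP : 0 ≤ ε * P := by positivity
    have hβP : ∀ t, 0 ≤ K - 1 - 4 * ε → t = β * P * (4 * ε * (K - 1 - 4 * ε)) - ε * (K * P)
        → ε * P ≤ t := by
      intro t ht e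
      rw [e]
      have h3 : (15 / 16) * (4 * (K - 1 - 4 * ε)) ≤ β * (4 * (K - 1 - 4 * ε)) :=
        mul_le_mul_of_nonneg_right h1 (by linarith)
      have h4 : 1 + K ≤ β * (4 * (K - 1 - 4 * ε)) := by linarith
      have h5 := mul_le_mul_of_nonneg_right h4 hεP
      calc ε * P = 1 * (ε * P) := by ring
        _ ≤ (β * (4 * (K - 1 - 4 * ε)) - K) * (ε * P) := by
            apply mul_le_mul_of_nonneg_right _ hεP
            linarith
        _ = _ := by ring
    have hKm : 0 ≤ K - 1 - 4 * ε := by linarith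
    refine concave_quad_nonneg (s := (1 + 4 * ε) * q) (t := (K - 4 * ε) * q) (by positivity) ?_ ?_
      hy1.le hy2.le
    · have e : -(β * A) * ((1 + 4 * ε) * q) ^ 2 + (β * A * (K + 1) * q - U) * ((1 + 4 * ε) * q)
          + (q * L - β * A * K * q ^ 2 - 2 * U - (L - U) * p' - 1)
          = (β * P * (4 * ε * (K - 1 - 4 * ε)) - ε * (K * P)) - 3 * ε * q * U - 2 * U - 1 := by
        simp only [hp'def]
        have : (L - U) * (q * (1 + ε)) = (q * L) * (1 + ε) - U * (q * (1 + ε)) := by ring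
        rw [this, hLe]
        simp only [hP]
        ring
      rw [e]
      have h3 := hβP _ hKm rfl
      have h4 : 3 * ε * q * U ≤ S.X * U := by
        apply mul_le_mul_of_nonneg_right _ hU
        rw [hXeq]
        have h5 : 0 < K * q := by positivity
        nlinarith [mul_pos h5 hε]
      nlinarith
    · have e : -(β * A) * ((K - 4 * ε) * q) ^ 2 + (β * A * (K + 1) * q - U) * ((K - 4 * ε) * q)
          + (q * L - β * A * K * q ^ 2 - 2 * U - (L - U) * p' - 1)
          = (β * P * (4 * ε * (K - 1 - 4 * ε)) - ε * (K * P)) - U * ((K - 4 * ε) * q - p') - 2 * U - 1 := by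
        simp only [hp'def]
        have : (L - U) * (q * (1 + ε)) = (q * L) * (1 + ε) - U * (q * (1 + ε)) := by ring
        rw [this, hLe]
        simp only [hP]
        ring
      rw [e]
      have h3 := hβP _ hKm rfl
      have h4 : U * ((K - 4 * ε) * q - p') ≤ U * S.X := by
        apply mul_le_mul_of_nonneg_left _ hU
        rw [hXeq]
        have h5 : 0 < K * q := by positivity
        nlinarith [mul_pos h5 hε]
      nlinarith
  -- conclude
  have hK1 : 0 < K - 1 := by linarith
  have e2 : (K * q - y) * (-U + β * A * q ^ 2) + (y - q) * (-((K - 1) * q * L) - U + β * A * (K * q) ^ 2)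
      - (K * q - q) * (U - (L - U) * (y - p') + β * A * y ^ 2 + 1)
      = ((K - 1) * q) * (-(β * A) * y ^ 2 + (β * A * (K + 1) * q - U) * y
      + (q * L - β * A * K * q ^ 2 - 2 * U - (L - U) * p' - 1)) := by
    ring
  have h5 : (K * q - q) * (U - (L - U) * (y - p') + β * A * y ^ 2 + 1)
      ≤ (K * q - q) * S.HH β (β • c) 0 y := by
    have h6 := mul_nonneg (by positivity : 0 ≤ (K - 1) * q) hg
    linarith
  have hKq : 0 < K * q - q := by nlinarith
  have h6 := le_of_mul_le_mul_left h5 hKq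
  linarith

/-- Base estimate on the big gap at the upper temperature end. -/
lemma base₃ {y : ℝ} (hy1 : ε * q < y) (hy2 : y < (k - 4 * ε) * q) :
    S.Gam (17 / 16) ((17 / 16 : ℝ) • c) 0 y + 1 ≤ S.HH (17 / 16) ((17 / 16 : ℝ) • c) 0 y := by
  have hq := W.hq
  have hε := W.hε
  have hε' := W.hε'
  have hS := W.hS
  have hU := W.hU
  have hX := W.hX
  have hK := W.hK
  have hOK := W.ok2 (β := 17 / 16) (by norm_num) (by norm_num)
  set K : ℝ := (k : ℝ) with hKdef
  set A := L / (K * q) with hA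
  have hA0 : 0 < A := W.hA
  have hK0 : K ≠ 0 := by positivity
  have hLeq : L = K * A * q := by
    simp only [hA]
    field_simp
  set P := A * q ^ 2 with hP
  have hP0 : 0 < P := by positivity
  have hZ := W.hZ
  rw [← hA, ← hP] at hZ
  have hXeq := W.hXeq
  have hεq : 0 < ε * q := by positivity
  have hy0 : 0 < y := hεq.trans hy1
  have hyK : y < K * q := by nlinarith
  have hyX : y ≤ S.X := by
    have h3 : (K - 4 * ε) * q ≤ K * q * (1 + 2 * ε) := by
      have : 0 < K * q := by positivity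
      nlinarith [mul_pos this hε]
    rw [hXeq]
    linarith
  have hKq : 0 < K * q := by positivity
  have hch : (K * q - y) * 0
      + (y - 0) * (-((K - 1) * q * L) - U + (17 / 16) * A * (K * q) ^ 2)
      ≤ (K * q - 0) * S.HH (17 / 16) ((17 / 16 : ℝ) • c) 0 y :=
    chord_le_HH hS hOK (u := 0) (v := K * q) (y := y) le_rfl hy0.le hyK.le hKq
      (W.Gam_zero (β := 17 / 16) (by norm_num) (by norm_num)).ge
      (W.Gam_Kq (β := 17 / 16) (by norm_num) (by norm_num))
  have hvv : -((K - 1) * q * L) - U + (17 / 16) * A * (K * q) ^ 2 = K * P * (K / 16 + 1) - U := by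
    rw [hLeq]
    simp only [hP]
    ring
  rw [hvv] at hch
  set vv := K * P * (K / 16 + 1) - U with hvvdef
  set p' := q * (1 + ε) with hp'def
  have hp0 : 0 < p' := by positivity
  set Z := (2 + S.X) * U + 1 with hZdef
  have hZ1 : 1 ≤ Z := by
    have : 0 ≤ (2 + S.X) * U := by positivity
    simp only [hZdef]; linarith
  have hZU : 2 * U ≤ Z := by
    have : 0 ≤ S.X * U := by positivity
    simp only [hZdef]; nlinarith
  have hZXU : S.X * U ≤ Z := by
    simp only [hZdef]; nlinarith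
  have hPε : 2 * Z ≤ ε * P := hZ
  have hP1000 : 2000 * Z ≤ P := by
    have : ε * P ≤ (1 / 1000) * P := mul_le_mul_of_nonneg_right hε' hP0.le
    linarith
  -- value at the break
  have hbreak : 0 ≤ (1 + ε) * (K * P) * ((K - 1) / 16 - (17 / 16) * ε) - (1 + ε) * U - K * (U + 1) := by
    have h3 : (1 / 16 : ℝ) - (17 / 16) * (1 / 1000) ≤ (K - 1) / 16 - (17 / 16) * ε := by linarith
    have h4 : 0 < K * P := by positivity
    have h5 : (K * P) * ((1 / 16 : ℝ) - (17 / 16) * (1 / 1000)) ≤
        (1 + ε) * (K * P) * ((K - 1) / 16 - (17 / 16) * ε) := by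
      have h6 : 0 ≤ (K - 1) / 16 - (17 / 16) * ε := by linarith
      have h7 : (K * P) * ((1 / 16 : ℝ) - (17 / 16) * (1 / 1000)) ≤
          (K * P) * ((K - 1) / 16 - (17 / 16) * ε) := mul_le_mul_of_nonneg_left h3 h4.le
      have h8 : 0 ≤ ε * (K * P) * ((K - 1) / 16 - (17 / 16) * ε) := by positivity
      nlinarith
    have h9 : K * Z ≤ (K * P) * (1 / 1000) := by
      have : Z ≤ P * (1 / 1000) := by linarith
      nlinarith
    have h10 : K * U ≤ K * Z := by nlinarith
    have h11 : K * 1 ≤ K * Z := by nlinarith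
    have h12 : (1 + ε) * U ≤ K * Z := by nlinarith
    nlinarith
  have hgoal : K * q * (S.Gam (17 / 16) ((17 / 16 : ℝ) • c) 0 y + 1) ≤ y * vv := by
    rcases le_total y p' with hyp | hyp
    · have hup : S.Gam (17 / 16) ((17 / 16 : ℝ) • c) 0 y ≤ U + (17 / 16) * A * y ^ 2 :=
        W.Gam_up₁ (β := 17 / 16) (by norm_num) (by norm_num) hy0.le hyp
      have hf : 0 ≤ -(K * q * ((17 / 16) * A)) * y ^ 2 + vv * y + (-(K * q * (U + 1))) := by
        refine concave_quad_nonneg (s := ε * q) (t := p') (by positivity) ?_ ?_ hy1.le hyp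
        · have e : -(K * q * ((17 / 16) * A)) * (ε * q) ^ 2 + vv * (ε * q) + (-(K * q * (U + 1)))
              = q * (ε * (K * P) * (K / 16 + 1 - (17 / 16) * ε) - ε * U - K * (U + 1)) := by
            simp only [hvvdef, hP]
            ring
          rw [e]
          apply mul_nonneg hq.le
          have h3 : (99 / 100 : ℝ) ≤ K / 16 + 1 - (17 / 16) * ε := by linarith
          have h4 : 0 ≤ ε * (K * P) := by positivity
          have h5 : ε * (K * P) * (99 / 100) ≤ ε * (K * P) * (K / 16 + 1 - (17 / 16) * ε) :=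
            mul_le_mul_of_nonneg_left h3 h4
          have h6 : K * (2 * Z) ≤ K * (ε * P) := mul_le_mul_of_nonneg_left hPε (by linarith)
          have h7 : ε * U ≤ U := by nlinarith
          have h8 : K * U ≤ K * (Z / 2) := mul_le_mul_of_nonneg_left (by linarith) (by linarith)
          have h9 : K * 1 ≤ K * Z := mul_le_mul_of_nonneg_left hZ1 (by linarith)
          have h10 : Z / 2 ≤ K * Z / 4 := by nlinarith
          nlinarith
        · have e : -(K * q * ((17 / 16) * A)) * p' ^ 2 + vv * p' + (-(K * q * (U + 1)))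
              = q * ((1 + ε) * (K * P) * ((K - 1) / 16 - (17 / 16) * ε) - (1 + ε) * U - K * (U + 1)) := by
            simp only [hvvdef, hP, hp'def]
            ring
          rw [e]
          exact mul_nonneg hq.le hbreak
      have h5 : K * q * (U + (17 / 16) * A * y ^ 2 + 1) ≤ y * vv := by
        nlinarith
      have h6 := mul_le_mul_of_nonneg_left hup hKq.le
      nlinarith
    · have hup : S.Gam (17 / 16) ((17 / 16 : ℝ) • c) 0 y
          ≤ U - (L - U) * (y - p') + (17 / 16) * A * y ^ 2 :=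
        W.Gam_up₂ (β := 17 / 16) (by norm_num) (by norm_num) hyp hyX
      have hf : 0 ≤ -(K * q * ((17 / 16) * A)) * y ^ 2 + (vv + K * q * (L - U)) * y
          + (-(K * q * (U + 1)) - K * q * (L - U) * p') := by
        refine concave_quad_nonneg (s := p') (t := (K - 4 * ε) * q) (by positivity) ?_ ?_ hyp hy2.le
        · have e : -(K * q * ((17 / 16) * A)) * p' ^ 2 + (vv + K * q * (L - U)) * p'
              + (-(K * q * (U + 1)) - K * q * (L - U) * p')
              = q * ((1 + ε) * (K * P) * ((K - 1) / 16 - (17 / 16) * ε) - (1 + ε) * U - K * (U + 1)) := by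
            simp only [hvvdef, hP, hp'def]
            ring
          rw [e]
          exact mul_nonneg hq.le hbreak
        · have e : -(K * q * ((17 / 16) * A)) * ((K - 4 * ε) * q) ^ 2
              + (vv + K * q * (L - U)) * ((K - 4 * ε) * q)
              + (-(K * q * (U + 1)) - K * q * (L - U) * p')
              = q * ((K * P) * (ε * (13 / 4 * K - 4 - 17 * ε)) - (K - 4 * ε) * U - K * (U + 1)
                  - K * U * ((K - 4 * ε) * q - p')) := by
            simp only [hvvdef]
            rw [hLeq]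
            simp only [hP, hp'def]
            ring
          rw [e]
          apply mul_nonneg hq.le
          have h3 : (6 / 5 : ℝ) * K ≤ 13 / 4 * K - 4 - 17 * ε := by linarith
          have h4 : 0 < K * P := by positivity
          have h5 : (K * P) * (ε * ((6 / 5 : ℝ) * K)) ≤ (K * P) * (ε * (13 / 4 * K - 4 - 17 * ε)) := by
            apply mul_le_mul_of_nonneg_left _ h4.le
            exact mul_le_mul_of_nonneg_left h3 hε.le
          have h6 : K * (2 * Z) ≤ K * (ε * P) := mul_le_mul_of_nonneg_left hPε (by linarith)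
          have h7 : K * (K * (2 * Z)) ≤ K * (K * (ε * P)) :=
            mul_le_mul_of_nonneg_left h6 (by linarith)
          have h8 : (K - 4 * ε) * U ≤ K * U := by nlinarith
          have h9 : K * U ≤ K * (Z / 2) := mul_le_mul_of_nonneg_left (by linarith) (by linarith)
          have h10 : K * 1 ≤ K * Z := mul_le_mul_of_nonneg_left hZ1 (by linarith)
          have h11 : K * U * ((K - 4 * ε) * q - p') ≤ K * Z := by
            have h12 : (K - 4 * ε) * q - p' ≤ S.X := by
              rw [hXeq]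
              nlinarith [mul_pos hKq hε]
            have h13 : U * ((K - 4 * ε) * q - p') ≤ U * S.X := mul_le_mul_of_nonneg_left h12 hU
            have h14 : U * S.X ≤ Z := by linarith [mul_comm U S.X]
            have h15 := mul_le_mul_of_nonneg_left (h13.trans h14) (by linarith : 0 ≤ K)
            calc K * U * ((K - 4 * ε) * q - p') = K * (U * ((K - 4 * ε) * q - p')) := by ring
              _ ≤ K * Z := h15
          have h16 : 2 * (K * Z) ≤ K * (K * Z) := by nlinarith [mul_nonneg (by linarith : 0 ≤ K) (by linarith : 0 ≤ Z)]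
          nlinarith
      have h5 : K * q * (U - (L - U) * (y - p') + (17 / 16) * A * y ^ 2 + 1) ≤ y * vv := by
        nlinarith
      have h6 := mul_le_mul_of_nonneg_left hup hKq.le
      nlinarith
  have h5 : (K * q - 0) * (S.Gam (17 / 16) ((17 / 16 : ℝ) • c) 0 y + 1)
      ≤ (K * q - 0) * S.HH (17 / 16) ((17 / 16 : ℝ) • c) 0 y := by
    have e : (K * q - y) * 0 + (y - 0) * vv = y * vv := by ring
    rw [e] at hch
    have e2 : K * q - 0 = K * q := by ring
    rw [e2] at hch ⊢
    linarith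
  exact le_of_mul_le_mul_left h5 (by linarith)

end WinHyp

/-- The steep part of `Gam` lies below any line which is not too high at a density below `X₀` and
not too low at `X₁`. -/
lemma Phi_le_line (hS : S.Good) {m c' x₀ : ℝ} (hx0 : 0 < x₀) (hx : x₀ ≤ S.X₀)
    (h1 : m * x₀ + c' ≤ S.Cmax) (h2 : -S.M₆ ≤ m * S.X₁ + c') {y : ℝ} (hy : S.X < y) :
    S.Φ y ≤ m * y + c' := by
  have hX₁0 : 0 ≤ S.X₁ := (hS.hX₀.trans hS.hX₀₁).le
  have hd : 0 < S.X₁ - S.X₀ := by linarith [hS.hX₀₁]
  have hd' : 0 < S.X₁ - x₀ := by linarith [hS.hX₀₁]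
  have hnum : 0 ≤ S.Cmax + S.M₆ := by linarith [hS.hCmax, hS.hM₆]
  have hm : -S.Λ₀ ≤ m := by
    unfold Λ₀
    have h6 : -(S.Cmax + S.M₆) ≤ m * (S.X₁ - x₀) := by nlinarith
    have h7 : -((S.Cmax + S.M₆) / (S.X₁ - S.X₀)) * (S.X₁ - x₀) ≤ m * (S.X₁ - x₀) := by
      have h8 : (S.Cmax + S.M₆) / (S.X₁ - S.X₀) * (S.X₁ - x₀) ≥ (S.Cmax + S.M₆) := by
        rw [ge_iff_le, div_mul_eq_mul_div, le_div_iff₀ hd]
        nlinarith
      nlinarith
    exact le_of_mul_le_mul_right h7 hd'
  have hΛ : 0 ≤ S.Λ₀ := by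
    unfold Λ₀
    exact div_nonneg hnum hd.le
  have hyX₁ : S.X₁ ≤ y := hS.hX₁.trans hy.le
  have h9 := hS.Φsteep y hy
  have h10 : -S.Λ₀ * (y - S.X₁) ≤ m * (y - S.X₁) :=
    mul_le_mul_of_nonneg_right hm (by linarith)
  have h11 : 0 ≤ S.Λ₀ * S.X₁ := mul_nonneg hΛ hX₁0
  nlinarith

namespace WinHyp

variable (W : WinHyp S c k q ε L U δ θb)
include W

/-- The two supporting lines of the upper bound, for `β` below the critical value. -/
lemma line_major {β : ℝ} (h1 : 1 / 2 ≤ β) (h2 : β ≤ 15 / 16) {y : ℝ} (hy : 0 ≤ y) :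
    S.Gam β (β • c) 0 y ≤ (β * (L / (k * q)) * (q * (1 + ε))) * y + U ∧
    S.Gam β (β • c) 0 y ≤ (-(L - U) + β * (L / (k * q)) * (q * (1 + ε) + S.X)) * y
      + (U + (L - U) * (q * (1 + ε)) - β * (L / (k * q)) * (q * (1 + ε) * S.X)) := by
  have hq := W.hq
  have hε := W.hε
  have hε' := W.hε'
  have hS := W.hS
  have hU := W.hU
  have hX := W.hX
  have hK := W.hK
  have hβ0 : 0 < β := by linarith
  have hCmax := W.hCmax
  have hXeq := W.hXeq
  have hZ := W.hZ
  have hKq1 := W.KqX
  have hGamK := W.Gam_Kq (β := β) (by linarith) (by linarith)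
  have hup₁ := fun (y : ℝ) => W.Gam_up₁ (β := β) (y := y) (by linarith) (by linarith)
  have hup₂ := fun (y : ℝ) => W.Gam_up₂ (β := β) (y := y) (by linarith) (by linarith)
  have hGamEq := W.Gam_eq (β := β) (y := k * q) hKq1
  set K : ℝ := (k : ℝ) with hKdef
  set A := L / (K * q) with hA
  have hA0 : 0 < A := W.hA
  have hK0 : K ≠ 0 := by positivity
  have hLeq : L = K * A * q := by
    simp only [hA]
    field_simp
  set p' := q * (1 + ε) with hp'def
  have hp0 : 0 < p' := by positivity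
  set a := β * A with ha
  have ha0 : 0 < a := by positivity
  -- comparison of the slopes
  have hslope : a * S.X ≤ L - U := by
    have e : a * S.X = β * (1 + 2 * ε) * L := by
      rw [hXeq, hLeq]
      simp only [ha]
      ring
    rw [e]
    have hL0 : 0 < L := by rw [hLeq]; positivity
    have hU' : U ≤ (1 / 100) * L := by
      -- `K q U ≤ X U ≤ ε P / 2`
      have h3 : (K * q) * U ≤ S.X * U := mul_le_mul_of_nonneg_right hKq1 hU
      have h4 : 0 ≤ (2 + S.X) * U := by positivity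
      have h5 : S.X * U ≤ ε * (A * q ^ 2) := by nlinarith
      have h6 : ε * (A * q ^ 2) ≤ (1 / 1000) * (A * q ^ 2) :=
        mul_le_mul_of_nonneg_right hε' (by positivity)
      have h7 : (K * q) * U ≤ (K * q) * ((1 / 100) * L) := by
        rw [hLeq]
        have h8 : 0 < A * q ^ 2 := by positivity
        have h9 : (1 / 1000) * (A * q ^ 2) ≤ (K * q) * ((1 / 100) * (K * A * q)) := by
          have e : (K * q) * ((1 / 100) * (K * A * q)) = (K ^ 2 / 100) * (A * q ^ 2) := by ring
          rw [e]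
          have h10 : (1 : ℝ) / 1000 ≤ K ^ 2 / 100 := by nlinarith
          exact mul_le_mul_of_nonneg_right h10 h8.le
        linarith
      exact le_of_mul_le_mul_left h7 (by positivity)
    have h3 : β * (1 + 2 * ε) ≤ (15 / 16) * (1 + 2 * (1 / 1000)) := by
      apply mul_le_mul h2 (by linarith) (by positivity) (by norm_num)
    nlinarith
  have hl2 : ∀ z, (-(L - U) + a * (p' + S.X)) * z + (U + (L - U) * p' - a * (p' * S.X))
      = U - (L - U) * (z - p') + a * ((p' + S.X) * z - p' * S.X) := fun z => by ring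
  have hl1l2 : ∀ z, (-(L - U) + a * (p' + S.X)) * z + (U + (L - U) * p' - a * (p' * S.X))
      - ((a * p') * z + U) = (z - p') * (a * S.X - (L - U)) := fun z => by ring
  -- on the middle range
  have hmid : ∀ z, p' ≤ z → z ≤ S.X → S.Gam β (β • c) 0 z
      ≤ (-(L - U) + a * (p' + S.X)) * z + (U + (L - U) * p' - a * (p' * S.X)) := by
    intro z hz1 hz2
    have h3 := hup₂ z hz1 hz2
    rw [hl2]
    have h4 : z ^ 2 ≤ (p' + S.X) * z - p' * S.X := by nlinarith
    have h5 := mul_le_mul_of_nonneg_left h4 ha0.le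
    linarith
  have hpK : p' ≤ K * q := by
    simp only [hp'def]
    nlinarith [mul_pos hq hε]
  have hΦ : ∀ z, S.X < z → S.Φ z
      ≤ (-(L - U) + a * (p' + S.X)) * z + (U + (L - U) * p' - a * (p' * S.X)) := by
    intro z hz
    refine Phi_le_line hS hp0 ?_ ?_ ?_ hz
    · rw [W.hX₀]
      simp only [hp'def]
      nlinarith [mul_pos hq hε]
    · rw [hl2]
      have h3 : a ≤ 2 * A := by
        simp only [ha]
        nlinarith
      have h4 : a * p' ^ 2 ≤ 2 * A * p' ^ 2 := mul_le_mul_of_nonneg_right h3 (by positivity)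
      have e : U - (L - U) * (p' - p') + a * ((p' + S.X) * p' - p' * S.X) = U + a * p' ^ 2 := by ring
      rw [e]
      have : U + 2 * A * p' ^ 2 ≤ S.Cmax := hCmax
      linarith
    · rw [W.hX₁]
      have h3 := hmid (K * q) hpK hKq1
      have h4 := hS.lowM₆ β (by rw [W.hσ₀]; linarith) (by rw [W.hσ₁]; linarith)
      rw [W.hX₁] at h4
      have h5 : S.Gam β (β • c) 0 (K * q) = S.bb β 0 (K * q) + a * (K * q) ^ 2 := hGamEq
      have h6 : 0 ≤ a * (K * q) ^ 2 := by positivity
      linarith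
  constructor
  · rcases le_total y p' with hyp | hyp
    · have h3 := hup₁ y hy hyp
      have h4 : y ^ 2 ≤ p' * y := by nlinarith
      have h5 := mul_le_mul_of_nonneg_left h4 ha0.le
      nlinarith
    · have h3 := hl1l2 y
      have h4 : (y - p') * (a * S.X - (L - U)) ≤ 0 :=
        mul_nonpos_of_nonneg_of_nonpos (by linarith) (by linarith)
      rcases le_or_gt y S.X with hyX | hyX
      · have h5 := hmid y hyp hyX
        linarith
      · have h5 : S.Gam β (β • c) 0 y = S.Φ y := by simp [Sys.Gam, not_le.mpr hyX]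
        rw [h5]
        have h6 := hΦ y hyX
        linarith
  · rcases le_total y p' with hyp | hyp
    · have h3 := hup₁ y hy hyp
      have h4 : y ^ 2 ≤ p' * y := by nlinarith
      have h5 := mul_le_mul_of_nonneg_left h4 ha0.le
      have h6 := hl1l2 y
      have h7 : 0 ≤ (y - p') * (a * S.X - (L - U)) :=
        mul_nonneg_of_nonpos_of_nonpos (by linarith) (by linarith)
      nlinarith
    · rcases le_or_gt y S.X with hyX | hyX
      · exact hmid y hyp hyX
      · have h5 : S.Gam β (β • c) 0 y = S.Φ y := by simp [Sys.Gam, not_le.mpr hyX]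
        rw [h5]
        exact hΦ y hyX

/-- Upper bounds for the free energy along the two lines. -/
lemma F_le_lines {β : ℝ} (h1 : 1 / 2 ≤ β) (h2 : β ≤ 15 / 16) {y : ℝ} (hy : 0 < y) (hyX : y ≤ S.X) :
    S.bb β (β • c) y ≤ (β * (L / (k * q)) * (q * (1 + ε))) * y + U + S.EE 0 ∧
    S.bb β (β • c) y ≤ (-(L - U) + β * (L / (k * q)) * (q * (1 + ε) + S.X)) * y
      + (U + (L - U) * (q * (1 + ε)) - β * (L / (k * q)) * (q * (1 + ε) * S.X)) + S.EE 0 := by
  have hS := W.hS
  have hOK := W.ok2 (β := β) (by linarith) (by linarith)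
  have h3 := bb_le_HH hS hOK 0 hy hyX
  have hm := fun (z : ℝ) (hz : 0 ≤ z) => W.line_major (β := β) h1 h2 hz
  constructor
  · have h4 : IsCM (S.Gam β (β • c) 0) (fun z => (β * (L / (k * q)) * (q * (1 + ε))) * z + U) :=
      ⟨concaveOn_affine _ _, fun z hz => (hm z hz).1⟩
    have h5 : S.HH β (β • c) 0 y ≤ _ := Hull_le h4 hy.le
    linarith
  · have h4 : IsCM (S.Gam β (β • c) 0) (fun z => (-(L - U) + β * (L / (k * q)) * (q * (1 + ε) + S.X)) * z
        + (U + (L - U) * (q * (1 + ε)) - β * (L / (k * q)) * (q * (1 + ε) * S.X))) :=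
      ⟨concaveOn_affine _ _, fun z hz => (hm z hz).2⟩
    have h5 : S.HH β (β • c) 0 y ≤ _ := Hull_le h4 hy.le
    linarith

/-- Lower bound of the free energy at the liquid test density. -/
lemma F_ge_q {β : ℝ} (h1 : 1 / 2 ≤ β) (h2 : β ≤ 2) :
    -U + β * (L / (k * q)) * q ^ 2 - S.tb 0 ≤ S.bb β (β • c) q := by
  have hOK := W.ok2 (β := β) h1 h2
  have h3 := Gam_le_bb W.hS hOK 0 W.hq.le W.qX
  have h4 := W.Gam_q (β := β) h1 h2
  linarith

/-- Lower bound of the free energy at the cluster test density. -/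
lemma F_ge_Kq {β : ℝ} (h1 : 1 / 2 ≤ β) (h2 : β ≤ 2) :
    -((k - 1) * q * L) - U + β * (L / (k * q)) * (k * q) ^ 2 - S.tb 0 ≤ S.bb β (β • c) (k * q) := by
  have hOK := W.ok2 (β := β) h1 h2
  have h3 := Gam_le_bb W.hS hOK 0 W.hKq.le W.KqX
  have h4 := W.Gam_Kq (β := β) h1 h2
  linarith

/-- At the lower temperature end the liquid point is strictly above the chord. -/
lemma not_aff : ¬ AffOn (S.bb (15 / 16) ((15 / 16 : ℝ) • c)) (ε * q + ε * q)
    ((k - 4 * ε) * q - ε * q) := by
  intro haff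
  have hq := W.hq
  have hε := W.hε
  have hε' := W.hε'
  have hS := W.hS
  have hU := W.hU
  have hX := W.hX
  have hK := W.hK
  have hE := EE_nonneg hS 0
  have ht := tb_nonneg hS 0
  have hE0 := W.hE0
  have hXeq := W.hXeq
  have hZ := W.hZ
  have hlow := W.F_ge_q (β := 15 / 16) (by norm_num) (by norm_num)
  set K : ℝ := (k : ℝ) with hKdef
  set A := L / (K * q) with hA
  have hA0 : 0 < A := W.hA
  have hK0 : K ≠ 0 := by positivity
  have hLeq : L = K * A * q := by
    simp only [hA]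
    field_simp
  set P := A * q ^ 2 with hP
  have hP0 : 0 < P := by positivity
  have hKq : 0 < K * q := by positivity
  set y₀ := 3 * ε * q with hy₀
  set y₁ := (K - 6 * ε) * q with hy₁
  have hy₀0 : 0 < y₀ := by positivity
  have hy₁X : y₁ ≤ S.X := by
    rw [hXeq]
    nlinarith [mul_pos hKq hε, mul_pos hq hε]
  have hy₀X : y₀ ≤ S.X := by
    rw [hXeq]
    nlinarith [mul_pos hKq hε, mul_pos hq hε]
  have hy₁0 : 0 < y₁ := by
    have : 0 < K - 6 * ε := by linarith
    positivity
  have hup₀ := (W.F_le_lines (β := 15 / 16) (by norm_num) le_rfl hy₀0 hy₀X).1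
  have hup₁ := (W.F_le_lines (β := 15 / 16) (by norm_num) le_rfl hy₁0 hy₁X).2
  have h1 : ε * q + ε * q < y₀ := by simp only [hy₀]; nlinarith [mul_pos hq hε]
  have h2 : y₀ < q := by simp only [hy₀]; nlinarith [mul_pos hq hε]
  have h3 : q < y₁ := by simp only [hy₁]; nlinarith [mul_pos hq hε]
  have h4 : y₁ < (K - 4 * ε) * q - ε * q := by simp only [hy₁]; nlinarith [mul_pos hq hε]
  have haffe := haff y₀ q y₁ h1 h2 h3 h4
  set F := S.bb (15 / 16) ((15 / 16 : ℝ) • c) with hF
  set E := S.EE 0 with hEdef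
  set t := S.tb 0 with htdef
  set T := (1 + ε + K + 2 * K * ε) * (K - 6 * ε) - (1 + ε) * K * (1 + 2 * ε) with hT
  have hlow' : -U + (15 / 16) * P - t ≤ F q := by
    have e : (15 / 16) * A * q ^ 2 = (15 / 16) * P := by simp only [hP]; ring
    rw [e] at hlow
    exact hlow
  have hup₀' : F y₀ ≤ 3 * ε * (1 + ε) * (15 / 16) * P + U + E := by
    have e : (15 / 16) * A * (q * (1 + ε)) * y₀ = 3 * ε * (1 + ε) * (15 / 16) * P := by
      simp only [hy₀, hP]; ring
    rw [e] at hup₀
    exact hup₀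
  have hup₁' : F y₁ ≤ U + E - (K * P - U * q) * (K - 1 - 7 * ε) + (15 / 16) * P * T := by
    have e : (-(L - U) + (15 / 16) * A * (q * (1 + ε) + S.X)) * y₁
        + (U + (L - U) * (q * (1 + ε)) - (15 / 16) * A * (q * (1 + ε) * S.X))
        = U - (K * P - U * q) * (K - 1 - 7 * ε) + (15 / 16) * P * T := by
      rw [hXeq, hLeq]
      simp only [hy₁, hP, hT]
      ring
    rw [e] at hup₁
    linarith
  -- divide by `q`
  have e₁ : y₁ - y₀ = (K - 9 * ε) * q := by simp only [hy₀, hy₁]; ring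
  have e₂ : y₁ - q = (K - 1 - 6 * ε) * q := by simp only [hy₁]; ring
  have e₃ : q - y₀ = (1 - 3 * ε) * q := by simp only [hy₀]; ring
  rw [e₁, e₂, e₃] at haffe
  have hm1 : 0 ≤ K - 9 * ε := by linarith
  have hm2 : 0 ≤ K - 1 - 6 * ε := by linarith
  have hm3 : 0 ≤ 1 - 3 * ε := by linarith
  have hdiv : (K - 9 * ε) * F q = (K - 1 - 6 * ε) * F y₀ + (1 - 3 * ε) * F y₁ := by
    have : q * ((K - 9 * ε) * F q) = q * ((K - 1 - 6 * ε) * F y₀ + (1 - 3 * ε) * F y₁) := by
      linarith
    exact mul_left_cancel₀ hq.ne' this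
  have h5 := mul_le_mul_of_nonneg_left hlow' hm1
  have h6 := mul_le_mul_of_nonneg_left hup₀' hm2
  have h7 := mul_le_mul_of_nonneg_left hup₁' hm3
  set Coef := (K - 9 * ε) * (15 / 16) - (K - 1 - 6 * ε) * (3 * ε * (1 + ε) * (15 / 16))
    + (1 - 3 * ε) * (K * (K - 1 - 7 * ε)) - (1 - 3 * ε) * ((15 / 16) * T) with hCoef
  have hmain : P * Coef ≤ (K - 9 * ε) * (U + t) + (K - 1 - 6 * ε) * (U + E) + (1 - 3 * ε) * (U + E)
      + (1 - 3 * ε) * (U * q * (K - 1 - 7 * ε)) := by
    simp only [hCoef]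
    nlinarith
  have hcoef : K ^ 2 / 64 ≤ Coef := by
    have hid : Coef - K ^ 2 / 64
        = ((1 - 3 * ε) * (1 / 16 - (15 / 8) * ε) - 1 / 64) * K ^ 2
          + ((15 / 16) * (1 - 3 * ε - 3 * ε ^ 2) - (1 - 3 * ε) * (1 + 7 * ε)
              + (1 - 3 * ε) * (15 / 16) * (8 * ε + 14 * ε ^ 2)) * K
          + (-9 * ε * (15 / 16) + (1 + 6 * ε) * (3 * ε * (1 + ε)) * (15 / 16)
              + (1 - 3 * ε) * (15 / 16) * (6 * ε + 6 * ε ^ 2)) := by
      simp only [hCoef, hT]
      ring
    have hc2 : (1 / 25 : ℝ) ≤ (1 - 3 * ε) * (1 / 16 - (15 / 8) * ε) - 1 / 64 := by nlinarith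
    have hc1 : (-7 / 100 : ℝ) ≤ (15 / 16) * (1 - 3 * ε - 3 * ε ^ 2) - (1 - 3 * ε) * (1 + 7 * ε)
        + (1 - 3 * ε) * (15 / 16) * (8 * ε + 14 * ε ^ 2) := by
      have h8 : 0 ≤ (1 - 3 * ε) * (15 / 16) * (8 * ε + 14 * ε ^ 2) := by positivity
      nlinarith
    have hc0 : (-1 / 100 : ℝ) ≤ -9 * ε * (15 / 16) + (1 + 6 * ε) * (3 * ε * (1 + ε)) * (15 / 16)
        + (1 - 3 * ε) * (15 / 16) * (6 * ε + 6 * ε ^ 2) := by
      have h8 : 0 ≤ (1 - 3 * ε) * (15 / 16) * (6 * ε + 6 * ε ^ 2) := by positivity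
      have h9 : 0 ≤ (1 + 6 * ε) * (3 * ε * (1 + ε)) * (15 / 16) := by positivity
      nlinarith
    have h8 := mul_le_mul_of_nonneg_right hc2 (by positivity : 0 ≤ K ^ 2)
    have h9 := mul_le_mul_of_nonneg_right hc1 (by linarith : 0 ≤ K)
    have h10 : 0 ≤ (1 / 25 : ℝ) * K ^ 2 + (-7 / 100) * K + (-1 / 100) := by nlinarith
    linarith
  -- the constants
  set Z := (2 + S.X) * U + 1 with hZdef
  have hU1 : U + 1 ≤ Z := by
    have : 0 ≤ (1 + S.X) * U := by positivity
    simp only [hZdef]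
    nlinarith
  have hXU : S.X * U ≤ Z := by
    simp only [hZdef]
    nlinarith
  have hZpos : 1 ≤ Z := by linarith
  have ht1 : t ≤ 1 := by linarith
  have hE1 : E ≤ 1 := by linarith
  have hP1000 : 2000 * Z ≤ P := by
    have h8 : ε * P ≤ (1 / 1000) * P := mul_le_mul_of_nonneg_right hε' hP0.le
    have : 2 * Z ≤ ε * P := hZ
    linarith
  have hr1 : (K - 9 * ε) * (U + t) ≤ K * Z := by
    apply mul_le_mul (by linarith) (by linarith) (by positivity) (by linarith)
  have hr2 : (K - 1 - 6 * ε) * (U + E) ≤ K * Z := by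
    apply mul_le_mul (by linarith) (by linarith) (by positivity) (by linarith)
  have hr3 : (1 - 3 * ε) * (U + E) ≤ Z := by
    have : (1 - 3 * ε) * (U + E) ≤ 1 * Z := by
      apply mul_le_mul (by linarith) (by linarith) (by positivity) (by norm_num)
    linarith
  have hr4 : (1 - 3 * ε) * (U * q * (K - 1 - 7 * ε)) ≤ Z := by
    have h8 : U * q * (K - 1 - 7 * ε) ≤ S.X * U := by
      rw [hXeq]
      have h9 : q * (K - 1 - 7 * ε) ≤ K * q * (1 + 2 * ε) := by
        nlinarith [mul_pos hq hε, mul_pos hKq hε]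
      calc U * q * (K - 1 - 7 * ε) = U * (q * (K - 1 - 7 * ε)) := by ring
        _ ≤ U * (K * q * (1 + 2 * ε)) := mul_le_mul_of_nonneg_left h9 hU
        _ = _ := by ring
    have h10 : 0 ≤ U * q * (K - 1 - 7 * ε) := by
      have : 0 ≤ K - 1 - 7 * ε := by linarith
      positivity
    have h11 : (1 - 3 * ε) * (U * q * (K - 1 - 7 * ε)) ≤ 1 * (U * q * (K - 1 - 7 * ε)) :=
      mul_le_mul_of_nonneg_right (by linarith) h10
    linarith
  have hKZ : Z ≤ K * Z := by nlinarith
  have hfin : P * (K ^ 2 / 64) ≤ 4 * (K * Z) := by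
    have h8 := mul_le_mul_of_nonneg_left hcoef hP0.le
    linarith
  have hfin2 : (2000 * Z) * (K ^ 2 / 64) ≤ P * (K ^ 2 / 64) :=
    mul_le_mul_of_nonneg_right hP1000 (by positivity)
  have hKZpos : 0 < K * Z := by positivity
  have h12 : 2 * (K * Z) ≤ K * (K * Z) := mul_le_mul_of_nonneg_right hK hKZpos.le
  nlinarith

end WinHyp

end Crest.Agent.Lib.GasWindow
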