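import Crest.Agent.Lib.GasWindow

/-!
# Base windows, part 2 (row 149): slopes and the kink.
-/

set_option autoImplicit false

namespace Crest.Agent.Lib.GasWindow

open Set Filter Topology Crest.Agent.Lib.GasHull Crest.Agent.Lib.GasSys
  Crest.Agent.Lib.GasSys.Sys Crest.Agent.Lib.GasKink

variable {S : Sys} {c : Amp} {k : ℕ} {q ε L U δ θb : ℝ}

namespace WinHyp

variable (W : WinHyp S c k q ε L U δ θb)
include W

/-- Slope bound at the low density point. -/
lemma s₀_bound {β : ℝ} (h1 : 15 / 16 ≤ β) (h2 : β ≤ 17 / 16) :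
    (β - 1 / 2) * (-(16 / 7) * (2 * U + 1))
      ≤ S.bb β (β • c) (3 * ε * q) - S.bb (1 / 2) ((1 / 2 : ℝ) • c) (3 * ε * q) := by
  have hq := W.hq
  have hε := W.hε
  have hε' := W.hε'
  have hS := W.hS
  have hU := W.hU
  have hX := W.hX
  have hK := W.hK
  have hE := EE_nonneg hS 0
  have ht := tb_nonneg hS 0
  have hE0 := W.hE0
  have hXeq := W.hXeq
  have hOK := W.ok2 (β := β) (by linarith) (by linarith)
  have hlow := W.F_ge_q (β := β) (by linarith) (by linarith)
  have hy0 : 0 < 3 * ε * q := by positivity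
  have hyq : 3 * ε * q < q := by nlinarith [mul_pos hq hε]
  have hyX : 3 * ε * q ≤ S.X := hyq.le.trans W.qX
  have hup := (W.F_le_lines (β := 1 / 2) le_rfl (by norm_num) hy0 hyX).1
  have hconc := ConcaveOn_three (hS.conc β (β • c) (hOK.ok hS)) le_rfl hy0 hyq
  rw [hS.zero β (β • c) (hOK.ok hS)] at hconc
  set K : ℝ := (k : ℝ) with hKdef
  set A := L / (K * q) with hA
  have hA0 : 0 < A := W.hA
  set P := A * q ^ 2 with hP
  have hP0 : 0 < P := by positivity
  set F := S.bb β (β • c) with hF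
  set G := S.bb (1 / 2) ((1 / 2 : ℝ) • c) with hG
  set E := S.EE 0 with hEdef
  set t := S.tb 0 with htdef
  have h3 : 3 * ε * F q ≤ F (3 * ε * q) := by
    have : q * (3 * ε * F q) ≤ q * F (3 * ε * q) := by nlinarith
    exact le_of_mul_le_mul_left this hq
  have hlow' : -U + β * P - t ≤ F q := by
    have e : β * A * q ^ 2 = β * P := by simp only [hP]; ring
    rw [e] at hlow
    exact hlow
  have hup' : G (3 * ε * q) ≤ (1 / 2) * (3 * ε * (1 + ε)) * P + U + E := by
    have e : (1 / 2) * A * (q * (1 + ε)) * (3 * ε * q) = (1 / 2) * (3 * ε * (1 + ε)) * P := by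
      simp only [hP]; ring
    rw [e] at hup
    exact hup
  have h4 : 0 ≤ 3 * ε := by positivity
  have h5 := mul_le_mul_of_nonneg_left hlow' h4
  have h6 : (1 / 2) * (3 * ε * (1 + ε)) * P ≤ 3 * ε * (β * P) := by
    have h7 : (1 / 2) * (1 + ε) ≤ β := by linarith
    have h8 : 0 ≤ 3 * ε * P := by positivity
    nlinarith
  have h7 : 3 * ε * (U + t) ≤ U + t := by
    have h8 : 0 ≤ U + t := by positivity
    nlinarith
  have h9 : (2 * U + 1) ≤ (β - 1 / 2) * ((16 / 7) * (2 * U + 1)) := by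
    have h10 : 1 ≤ (β - 1 / 2) * (16 / 7) := by linarith
    have h11 : 0 ≤ 2 * U + 1 := by positivity
    nlinarith
  nlinarith

/-- Slope bound at the high density point. -/
lemma s₁_bound {β : ℝ} (h1 : 15 / 16 ≤ β) (h2 : β ≤ 17 / 16) :
    (β - 1 / 2) * (((L / (k * q)) * q ^ 2) * ((k : ℝ) ^ 2 - 6 * ε * (k + 1))
        - (16 / 7) * ((k : ℝ) ^ 2 * ε * ((L / (k * q)) * q ^ 2) + ((2 + S.X) * U + 1)))
      ≤ S.bb β (β • c) ((k - 6 * ε) * q) - S.bb (1 / 2) ((1 / 2 : ℝ) • c) ((k - 6 * ε) * q) := by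
  have hq := W.hq
  have hε := W.hε
  have hε' := W.hε'
  have hS := W.hS
  have hU := W.hU
  have hX := W.hX
  have hK := W.hK
  have hE := EE_nonneg hS 0
  have ht := tb_nonneg hS 0
  have hE0 := W.hE0
  have hXeq := W.hXeq
  have hOK := W.ok2 (β := β) (by linarith) (by linarith)
  have hlow := W.F_ge_q (β := β) (by linarith) (by linarith)
  have hlowS := W.F_ge_Kq (β := β) (by linarith) (by linarith)
  set K : ℝ := (k : ℝ) with hKdef
  have hKq : 0 < K * q := by positivity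
  have hy0 : 0 < (K - 6 * ε) * q := by
    have : 0 < K - 6 * ε := by linarith
    positivity
  have hyX : (K - 6 * ε) * q ≤ S.X := by
    rw [hXeq]
    nlinarith [mul_pos hKq hε, mul_pos hq hε]
  have hup := (W.F_le_lines (β := 1 / 2) le_rfl (by norm_num) hy0 hyX).2
  have hqy : q < (K - 6 * ε) * q := by nlinarith [mul_pos hq hε]
  have hyK : (K - 6 * ε) * q < K * q := by nlinarith [mul_pos hq hε]
  have hconc := ConcaveOn_three (hS.conc β (β • c) (hOK.ok hS)) hq.le hqy hyK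
  set A := L / (K * q) with hA
  have hA0 : 0 < A := W.hA
  have hK0 : K ≠ 0 := by positivity
  have hLeq : L = K * A * q := by
    simp only [hA]
    field_simp
  set P := A * q ^ 2 with hP
  have hP0 : 0 < P := by positivity
  set F := S.bb β (β • c) with hF
  set G := S.bb (1 / 2) ((1 / 2 : ℝ) • c) with hG
  set E := S.EE 0 with hEdef
  set t := S.tb 0 with htdef
  set y₁ := (K - 6 * ε) * q with hy₁
  set T := (1 + ε + K + 2 * K * ε) * (K - 6 * ε) - (1 + ε) * K * (1 + 2 * ε) with hT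
  set C := K ^ 2 - 6 * ε * (K + 1) with hC
  have hlow' : -U + β * P - t ≤ F q := by
    have e : β * A * q ^ 2 = β * P := by simp only [hP]; ring
    rw [e] at hlow
    exact hlow
  have hlowS' : -((K - 1) * (K * P)) - U + β * (K ^ 2 * P) - t ≤ F (K * q) := by
    have e : -((K - 1) * q * L) - U + β * A * (K * q) ^ 2 - t
        = -((K - 1) * (K * P)) - U + β * (K ^ 2 * P) - t := by
      rw [hLeq]
      simp only [hP]
      ring
    rw [e] at hlowS
    exact hlowS
  have hup' : G y₁ ≤ U + E - (K * P - U * q) * (K - 1 - 7 * ε) + (1 / 2) * P * T := by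
    have e : (-(L - U) + (1 / 2) * A * (q * (1 + ε) + S.X)) * y₁
        + (U + (L - U) * (q * (1 + ε)) - (1 / 2) * A * (q * (1 + ε) * S.X))
        = U - (K * P - U * q) * (K - 1 - 7 * ε) + (1 / 2) * P * T := by
      rw [hXeq, hLeq]
      simp only [hy₁, hP, hT]
      ring
    rw [e] at hup
    linarith
  have e₁ : K * q - y₁ = 6 * ε * q := by simp only [hy₁]; ring
  have e₂ : y₁ - q = (K - 1 - 6 * ε) * q := by simp only [hy₁]; ring
  have e₃ : K * q - q = (K - 1) * q := by ring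
  rw [e₁, e₂, e₃] at hconc
  have hdiv : 6 * ε * F q + (K - 1 - 6 * ε) * F (K * q) ≤ (K - 1) * F y₁ := by
    have : q * (6 * ε * F q + (K - 1 - 6 * ε) * F (K * q)) ≤ q * ((K - 1) * F y₁) := by
      linarith
    exact le_of_mul_le_mul_left this hq
  have hm1 : 0 ≤ 6 * ε := by positivity
  have hm2 : 0 ≤ K - 1 - 6 * ε := by linarith
  have hm3 : 0 < K - 1 := by linarith
  have h3 := mul_le_mul_of_nonneg_left hlow' hm1
  have h4 := mul_le_mul_of_nonneg_left hlowS' hm2
  have h5 : (K - 1) * (-(U + t) + β * (P * C) - (K - 1 - 6 * ε) * (K * P)) ≤ (K - 1) * F y₁ := by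
    have e : (K - 1) * (-(U + t) + β * (P * C) - (K - 1 - 6 * ε) * (K * P))
        = 6 * ε * (-U + β * P - t)
          + (K - 1 - 6 * ε) * (-((K - 1) * (K * P)) - U + β * (K ^ 2 * P) - t) := by
      simp only [hC]
      ring
    rw [e]
    linarith
  have h6 := le_of_mul_le_mul_left h5 hm3
  -- combine
  set Z := (2 + S.X) * U + 1 with hZdef
  have hCT : P * C - P * T ≥ -(2 * (K ^ 2 * ε * P)) + 2 * (K * ε * P) := by
    have e : P * C - P * T = P * (-(2 * K ^ 2 * ε) + 2 * K * ε + 6 * ε ^ 2 + 14 * K * ε ^ 2) := by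
      simp only [hC, hT]
      ring
    rw [e]
    have h7 : -(2 * K ^ 2 * ε) + 2 * K * ε ≤ -(2 * K ^ 2 * ε) + 2 * K * ε + 6 * ε ^ 2 + 14 * K * ε ^ 2 := by
      have : 0 ≤ 6 * ε ^ 2 + 14 * K * ε ^ 2 := by positivity
      linarith
    have h8 := mul_le_mul_of_nonneg_left h7 hP0.le
    have e2 : P * (-(2 * K ^ 2 * ε) + 2 * K * ε) = -(2 * (K ^ 2 * ε * P)) + 2 * (K * ε * P) := by ring
    linarith
  have hUq : U * q * (K - 1 - 7 * ε) ≤ S.X * U := by
    rw [hXeq]
    have h9 : q * (K - 1 - 7 * ε) ≤ K * q * (1 + 2 * ε) := by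
      nlinarith [mul_pos hq hε, mul_pos hKq hε]
    calc U * q * (K - 1 - 7 * ε) = U * (q * (K - 1 - 7 * ε)) := by ring
      _ ≤ U * (K * q * (1 + 2 * ε)) := mul_le_mul_of_nonneg_left h9 hU
      _ = _ := by ring
  have hdiff : (β - 1 / 2) * (P * C) - (K ^ 2 * ε * P + Z) ≤ F y₁ - G y₁ := by
    simp only [hZdef]
    have e : (K * P) * (K - 1 - 6 * ε) - (K * P) * (K - 1 - 7 * ε) = ε * (K * P) := by ring
    have e2 : (K * P - U * q) * (K - 1 - 7 * ε) = (K * P) * (K - 1 - 7 * ε) - U * q * (K - 1 - 7 * ε) := by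
      ring
    have e3 : (K - 1 - 6 * ε) * (K * P) = (K * P) * (K - 1 - 6 * ε) := by ring
    rw [e2] at hup'
    rw [e3] at h6
    have e4 : (β - 1 / 2) * (P * C) = β * (P * C) - (1 / 2) * (P * C) := by ring
    have e5 : K * ε * P = ε * (K * P) := by ring
    have e6 : (1 / 2) * P * T = (1 / 2) * (P * T) := by ring
    have e7 : (2 + S.X) * U = 2 * U + S.X * U := by ring
    rw [e4, e7]
    rw [e6] at hup'
    linarith
  have hZ0 : 0 ≤ K ^ 2 * ε * P + Z := by
    have : 0 ≤ Z := by simp only [hZdef]; positivity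
    positivity
  have h9 : (K ^ 2 * ε * P + Z) ≤ (β - 1 / 2) * ((16 / 7) * (K ^ 2 * ε * P + Z)) := by
    have h10 : 1 ≤ (β - 1 / 2) * (16 / 7) := by linarith
    nlinarith
  nlinarith

/-- The strict inequality between the slopes. -/
lemma slopes_lt {ρ : ℝ} (h1 : 8 / 5 * q ≤ ρ) (h2 : ρ ≤ 9 / 5 * q) :
    (1 / 2) * mass c * (((1 - 3 * ε) * q + S.X) * ρ - (1 - 3 * ε) * q * S.X)
        + 2 * mass c * δ / (15 / 16) + 1
      < (((k - 6 * ε) * q - ρ) * (-(16 / 7) * (2 * U + 1))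
          + (ρ - 3 * ε * q) * (((L / (k * q)) * q ^ 2) * ((k : ℝ) ^ 2 - 6 * ε * (k + 1))
            - (16 / 7) * ((k : ℝ) ^ 2 * ε * ((L / (k * q)) * q ^ 2) + ((2 + S.X) * U + 1))))
        / ((k - 6 * ε) * q - 3 * ε * q) := by
  have hq := W.hq
  have hε := W.hε
  have hε' := W.hε'
  have hS := W.hS
  have hU := W.hU
  have hX := W.hX
  have hK := W.hK
  have hXeq := W.hXeq
  have hZ := W.hZ
  have hδ2 := W.hδ2
  have hmass := W.hmass
  have hJ := W.hJ
  set K : ℝ := (k : ℝ) with hKdef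
  set A := L / (K * q) with hA
  have hA0 : 0 < A := W.hA
  set P := A * q ^ 2 with hP
  have hP0 : 0 < P := by positivity
  set Z := (2 + S.X) * U + 1 with hZdef
  have hZ1 : 1 ≤ Z := by
    have : 0 ≤ (2 + S.X) * U := by positivity
    simp only [hZdef]; linarith
  have hZU : 2 * U + 1 ≤ Z := by
    have : 0 ≤ S.X * U := by positivity
    simp only [hZdef]; nlinarith
  have hPε : 2 * Z ≤ ε * P := hZ
  have hP1000 : 2000 * Z ≤ P := by
    have : ε * P ≤ (1 / 1000) * P := mul_le_mul_of_nonneg_right hε' hP0.le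
    linarith
  obtain ⟨r, hr⟩ : ∃ r, ρ = r * q := ⟨ρ / q, by field_simp⟩
  subst hr
  have hr1 : 8 / 5 ≤ r := by
    have : 8 / 5 * q ≤ r * q := h1
    exact le_of_mul_le_mul_right this hq
  have hr2 : r ≤ 9 / 5 := by
    have : r * q ≤ 9 / 5 * q := h2
    exact le_of_mul_le_mul_right this hq
  have hd : (K - 6 * ε) * q - 3 * ε * q = (K - 9 * ε) * q := by ring
  have hd0 : 0 < K - 9 * ε := by linarith
  rw [hd, lt_div_iff₀ (by positivity)]
  set C := K ^ 2 - 6 * ε * (K + 1) with hC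
  set B := r * (1 + K - 3 * ε + 2 * K * ε) - K * (1 - 3 * ε) * (1 + 2 * ε) with hB
  have hV : (1 / 2) * mass c * (((1 - 3 * ε) * q + S.X) * (r * q) - (1 - 3 * ε) * q * S.X) = P * B := by
    rw [hmass, hXeq]
    simp only [hP, hB]
    ring
  have hδterm : 2 * mass c * δ / (15 / 16) ≤ 5 := by
    rw [hmass]
    have e : 2 * (2 * A) * δ / (15 / 16) = (64 / 15) * (A * δ) := by ring
    rw [e]
    nlinarith
  -- the numerator
  have hnum : (P * B + 6) * ((K - 9 * ε) * q)
      < ((K - 6 * ε) * q - r * q) * (-(16 / 7) * (2 * U + 1))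
        + (r * q - 3 * ε * q) * (P * C - (16 / 7) * (K ^ 2 * ε * P + Z)) := by
    set Ψ := (r - 3 * ε) * (C - (16 / 7) * (K ^ 2 * ε)) - (K - 9 * ε) * B with hΨ
    have hB0 : 0 ≤ B := by
      simp only [hB]
      nlinarith [mul_pos hε (by linarith : (0 : ℝ) < K)]
    have hBup : B ≤ r * (1 + K) - K + (2 * r + 2) * (K * ε) := by
      simp only [hB]
      nlinarith [mul_pos hε (by linarith : (0 : ℝ) < K), sq_nonneg ε, mul_pos (mul_pos hε hε) (by linarith : (0 : ℝ) < K)]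
    have hΨ1 : K ^ 2 / 16 ≤ Ψ := by
      have h3 : K ^ 2 * (1 - 7 * ε) ≤ C - (16 / 7) * (K ^ 2 * ε) := by
        simp only [hC]
        have h4 : 6 * (K + 1) ≤ (9 / 2) * K ^ 2 := by nlinarith
        have h5 := mul_le_mul_of_nonneg_left h4 hε.le
        nlinarith
      have h4 : 0 ≤ r - 3 * ε := by linarith
      have h5 := mul_le_mul_of_nonneg_left h3 h4
      have h6 : K ^ 2 * (r - 16 * ε) ≤ (r - 3 * ε) * (K ^ 2 * (1 - 7 * ε)) := by
        have h7 : r - 16 * ε ≤ (r - 3 * ε) * (1 - 7 * ε) := by nlinarith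
        have h8 := mul_le_mul_of_nonneg_left h7 (by positivity : 0 ≤ K ^ 2)
        nlinarith
      have h7 : (K - 9 * ε) * B ≤ K * B :=
        mul_le_mul_of_nonneg_right (by linarith) hB0
      have h8 : K * B ≤ K * (r * (1 + K) - K + (2 * r + 2) * (K * ε)) :=
        mul_le_mul_of_nonneg_left hBup (by linarith)
      have h9 : K ^ 2 * ((2 * r + 2) * ε) ≤ K ^ 2 * ((28 / 5) * ε) := by
        apply mul_le_mul_of_nonneg_left _ (by positivity)
        have : 2 * r + 2 ≤ 28 / 5 := by linarith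
        exact mul_le_mul_of_nonneg_right this hε.le
      have h10 : 0 ≤ K * ((9 / 10) * K - r) := mul_nonneg (by linarith) (by linarith)
      have h11 : K ^ 2 * (216 / 10 * ε) ≤ K ^ 2 * (216 / 10 * (1 / 1000)) := by
        apply mul_le_mul_of_nonneg_left _ (by positivity)
        linarith
      simp only [hΨ]
      nlinarith
    have h3 : (K - 9 * ε) * (6 + (16 / 7) * Z) < P * Ψ := by
      have h4 := mul_le_mul_of_nonneg_left hΨ1 hP0.le
      have h5 : (2000 * Z) * (K ^ 2 / 16) ≤ P * (K ^ 2 / 16) :=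
        mul_le_mul_of_nonneg_right hP1000 (by positivity)
      have h6 : (K - 9 * ε) * (6 + (16 / 7) * Z) ≤ K * (9 * Z) := by
        apply mul_le_mul (by linarith) (by linarith) (by positivity) (by linarith)
      have hKZ : 0 < K * Z := by positivity
      have h7 : 2 * (K * Z) ≤ K * (K * Z) := mul_le_mul_of_nonneg_right hK hKZ.le
      nlinarith
    have h4 : ((K - 6 * ε) - r) * (-(16 / 7) * Z) ≤ ((K - 6 * ε) - r) * (-(16 / 7) * (2 * U + 1)) := by
      apply mul_le_mul_of_nonneg_left _ (by linarith)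
      linarith
    have h5 := mul_lt_mul_of_pos_left h3 hq
    have e1 : (P * B + 6) * ((K - 9 * ε) * q)
        = q * ((K - 9 * ε) * B) * P + 6 * ((K - 9 * ε) * q) := by ring
    have e2 : ((K - 6 * ε) * q - r * q) * (-(16 / 7) * (2 * U + 1))
        = q * (((K - 6 * ε) - r) * (-(16 / 7) * (2 * U + 1))) := by ring
    have e3 : (r * q - 3 * ε * q) * (P * C - (16 / 7) * (K ^ 2 * ε * P + Z))
        = q * ((r - 3 * ε) * (P * (C - (16 / 7) * (K ^ 2 * ε))) - (r - 3 * ε) * ((16 / 7) * Z)) := by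
      ring
    rw [e1, e2, e3]
    have e4 : q * (P * Ψ) = q * ((r - 3 * ε) * (P * (C - (16 / 7) * (K ^ 2 * ε)))) - q * ((K - 9 * ε) * B) * P := by
      simp only [hΨ]
      ring
    have h6 := mul_le_mul_of_nonneg_left h4 hq.le
    have e5 : q * (((K - 6 * ε) - r) * (-(16 / 7) * Z)) + q * (-(r - 3 * ε) * ((16 / 7) * Z))
        = -(q * ((K - 9 * ε) * ((16 / 7) * Z))) := by ring
    nlinarith
  have hleft : ((1 / 2) * mass c * (((1 - 3 * ε) * q + S.X) * (r * q) - (1 - 3 * ε) * q * S.X)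
      + 2 * mass c * δ / (15 / 16) + 1) * ((K - 9 * ε) * q) ≤ (P * B + 6) * ((K - 9 * ε) * q) := by
    apply mul_le_mul_of_nonneg_right _ (by positivity)
    rw [hV]
    linarith
  exact hleft.trans_lt hnum

/-- **Main theorem of the window analysis.** -/
theorem kink :
    ∃ βc, 15 / 16 < βc ∧ βc ≤ 17 / 16 ∧ ∀ ρ, 8 / 5 * q ≤ ρ → ρ ≤ 9 / 5 * q →
      ∃ Dl Dr : ℝ, HasDerivWithinAt (fun β => -(S.bb β (β • c) ρ / β)) Dl (Iio βc) βc ∧
        HasDerivWithinAt (fun β => -(S.bb β (β • c) ρ / β)) Dr (Ioi βc) βc ∧ Dr < Dl := by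
  have hq := W.hq
  have hε := W.hε
  have hε' := W.hε'
  have hS := W.hS
  have hK := W.hK
  have hXeq := W.hXeq
  have hεq : 0 < ε * q := by positivity
  have hXle : ∀ t, t ≤ (k - ε) * q → t ≤ S.X := by
    intro t ht
    refine ht.trans ?_
    rw [hXeq]
    have : 0 < (k : ℝ) * q := by positivity
    nlinarith [mul_pos this hε]
  have hgap₁ : ∀ β, 15 / 16 ≤ β → β ≤ 17 / 16 →
      AffOn (S.bb β (β • c)) (ε * q + ε * q) ((1 - ε) * q - ε * q) := by
    intro β h1 h2
    refine W.affine_of_base (by linarith) (by linarith) hεq.le ?_ ?_ ?_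
      (fun y hy1 hy2 => W.base₁ h1 h2 hy1 hy2)
    · apply hXle
      nlinarith
    · nlinarith
    · rw [W.hX₀]
      nlinarith
  have hgap₂ : ∀ β, 15 / 16 ≤ β → β ≤ 17 / 16 →
      AffOn (S.bb β (β • c)) ((1 + 4 * ε) * q + ε * q) ((k - 4 * ε) * q - ε * q) := by
    intro β h1 h2
    refine W.affine_of_base (by linarith) (by linarith) (by positivity) ?_ ?_ ?_
      (fun y hy1 hy2 => W.base₂ h1 h2 hy1 hy2)
    · apply hXle
      nlinarith
    · nlinarith
    · rw [W.hX₀]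
      nlinarith
  have hbig : AffOn (S.bb (17 / 16) ((17 / 16 : ℝ) • c)) (ε * q + ε * q) ((k - 4 * ε) * q - ε * q) := by
    refine W.affine_of_base (by norm_num) (by norm_num) hεq.le ?_ ?_ ?_
      (fun y hy1 hy2 => W.base₃ hy1 hy2)
    · apply hXle
      nlinarith
    · nlinarith
    · rw [W.hX₀]
      nlinarith
  obtain ⟨βc, h1, h2, hmain⟩ := kink_main hS (c := c) W.hc W.hcs
    (by rw [W.hσ₁]; have := W.hTb; linarith) (by rw [W.hσ₀]; norm_num)
    (β' := 1 / 2) (β₁ := 15 / 16) (β₂ := 17 / 16)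
    (by rw [W.hσ₀]) (by norm_num) (by norm_num) (by rw [W.hσ₁]; norm_num) (by norm_num)
    (a₁ := ε * q + ε * q) (b₁ := (1 - ε) * q - ε * q)
    (a₂ := (1 + 4 * ε) * q + ε * q) (b₂ := (k - 4 * ε) * q - ε * q)
    (A := (1 - 3 * ε) * q) (y₀ := 3 * ε * q) (y₁ := (k - 6 * ε) * q)
    (s₀ := -(16 / 7) * (2 * U + 1))
    (s₁ := ((L / (k * q)) * q ^ 2) * ((k : ℝ) ^ 2 - 6 * ε * (k + 1))
            - (16 / 7) * ((k : ℝ) ^ 2 * ε * ((L / (k * q)) * q ^ 2) + ((2 + S.X) * U + 1)))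
    (δ := δ) (by positivity)
    (by nlinarith) (by nlinarith) (by nlinarith)
    (by rw [W.hX₀]; nlinarith) (by nlinarith) (by nlinarith) (by nlinarith) (by nlinarith)
    hgap₁ hgap₂ W.not_aff hbig W.herr W.hδ (fun β h1 h2 => W.s₀_bound h1 h2) (fun β h1 h2 => W.s₁_bound h1 h2)
  refine ⟨βc, h1, h2, fun ρ hρ1 hρ2 => ?_⟩
  refine hmain ρ (by nlinarith) (by nlinarith) (W.slopes_lt hρ1 hρ2)

end WinHyp

end Crest.Agent.Lib.GasWindow
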