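import Crest.Prelude.Def_DaugavetL1

/-! Lower bound for the averaged midpoint quantity in `L¹` for subspaces whose unit ball is totally
bounded in measure. -/

set_option autoImplicit false

namespace Crest.Agent.Lib.L1Mid

open MeasureTheory Crest.AnalysisR.L1Subspace

variable {Ω : Type} [MeasurableSpace Ω] {P : Measure Ω} [IsProbabilityMeasure P]

lemma norm_of_ae {a : Lp ℝ 1 P} {b : Ω → ℝ} (h : (a : Ω → ℝ) =ᵐ[P] b) :
    ‖a‖ = ∫ ω, |b ω| ∂P := by
  rw [L1.norm_eq_integral_norm]
  refine integral_congr_ae ?_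
  filter_upwards [h] with ω hω
  rw [hω, Real.norm_eq_abs]

/-- A sign function: `1` where `g ≥ 0` and `-1` elsewhere. -/
noncomputable def sgn (g : Ω → ℝ) (z : Ω) : ℝ := by
  classical exact if 0 ≤ g z then 1 else -1

lemma sgn_meas {g : Ω → ℝ} (hg : Measurable g) : Measurable (sgn g) := by
  classical
  unfold sgn
  exact Measurable.ite (measurableSet_le measurable_const hg) measurable_const measurable_const

lemma abs_sgn (g : Ω → ℝ) (z : Ω) : |sgn g z| = 1 := by
  unfold sgn
  split_ifs <;> simp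

lemma sgn_lower (y : ℝ) (g : Ω → ℝ) (z : Ω) : |y| - 2 * |y - g z| ≤ y * sgn g z := by
  unfold sgn
  split_ifs with h
  · rw [mul_one]
    cases abs_cases y <;> cases abs_cases (y - g z) <;> linarith
  · push Not at h
    rw [mul_neg, mul_one]
    cases abs_cases y <;> cases abs_cases (y - g z) <;> linarith

lemma integrable_mul_sgn (y : Lp ℝ 1 P) {s : Ω → ℝ} (hs : Measurable s) (hb : ∀ z, |s z| ≤ 1) :
    Integrable (fun z => y z * s z) P := by
  refine (L1.integrable_coeFn y).norm.mono' ?_ ?_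
  · exact (Lp.aestronglyMeasurable y).mul hs.aestronglyMeasurable
  · refine Filter.Eventually.of_forall fun z => ?_
    rw [Real.norm_eq_abs, Real.norm_eq_abs, abs_mul]
    have := hb z
    have h2 := abs_nonneg (y z)
    nlinarith

/-- The functional `y ↦ ∫ y s` on `L¹`. -/
noncomputable def mulF (s : Ω → ℝ) (hs : Measurable s) (hb : ∀ z, |s z| ≤ 1) :
    StrongDual ℝ (Lp ℝ 1 P) :=
  LinearMap.mkContinuous
    { toFun := fun y => ∫ z, y z * s z ∂P
      map_add' := by
        intro y y'
        rw [← integral_add (integrable_mul_sgn y hs hb) (integrable_mul_sgn y' hs hb)]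
        refine integral_congr_ae ?_
        filter_upwards [Lp.coeFn_add y y'] with z hz
        rw [hz, Pi.add_apply]
        ring
      map_smul' := by
        intro c y
        simp only [RingHom.id_apply, smul_eq_mul]
        rw [← integral_const_mul]
        refine integral_congr_ae ?_
        filter_upwards [Lp.coeFn_smul c y] with z hz
        rw [hz, Pi.smul_apply, smul_eq_mul]
        ring }
    1
    (by
      intro y
      simp only [LinearMap.coe_mk, AddHom.coe_mk, one_mul]
      rw [L1.norm_eq_integral_norm]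
      refine (norm_integral_le_integral_norm _).trans ?_
      refine integral_mono (integrable_mul_sgn y hs hb).norm (L1.integrable_coeFn y).norm ?_
      intro z
      simp only [Real.norm_eq_abs, abs_mul]
      have := hb z
      have h2 := abs_nonneg (y z)
      nlinarith)

lemma mulF_apply (s : Ω → ℝ) (hs : Measurable s) (hb : ∀ z, |s z| ≤ 1) (y : Lp ℝ 1 P) :
    mulF (P := P) s hs hb y = ∫ z, y z * s z ∂P := rfl

/-- Mass of a function in `L¹` which is orthogonal to the sign of a near function. -/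
theorem y_mass (y g : Lp ℝ 1 P) (a : ℝ) (ha : 0 < a) (hy1 : ‖y‖ = 1)
    (h0 : ∫ z, y z * sgn g z ∂P = 0) :
    1 / 2 - a ≤ ∫ z in {z | a < |y z - g z|}, |y z| ∂P := by
  have hy : Measurable (y : Ω → ℝ) := (Lp.stronglyMeasurable y).measurable
  have hg : Measurable (g : Ω → ℝ) := (Lp.stronglyMeasurable g).measurable
  have hsm : Measurable (sgn g) := sgn_meas hg
  have hsb : ∀ z, |sgn g z| ≤ 1 := fun z => (abs_sgn g z).le
  set A : Set Ω := {z | a < |y z - g z|} with hA
  have hAm : MeasurableSet A := measurableSet_lt measurable_const (hy.sub hg).abs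
  have hint : Integrable (fun z => y z * sgn g z) P := integrable_mul_sgn y hsm hsb
  have hyabs : Integrable (fun z => |y z|) P := (L1.integrable_coeFn y).abs
  have hsplit := integral_add_compl hAm hint
  have hsplit2 := integral_add_compl hAm hyabs
  have hnorm : ∫ z, |y z| ∂P = 1 := by
    rw [← hy1, L1.norm_eq_integral_norm]
    rfl
  rw [h0] at hsplit
  rw [hnorm] at hsplit2
  have h1 : - ∫ z in A, |y z| ∂P ≤ ∫ z in A, y z * sgn g z ∂P := by
    rw [← integral_neg]
    refine setIntegral_mono_on hyabs.neg.integrableOn hint.integrableOn hAm fun z _ => ?_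
    have h3 := abs_sgn g z
    have h4 : |y z * sgn g z| = |y z| := by rw [abs_mul, h3, mul_one]
    rw [← h4]
    exact neg_abs_le _
  have h2 : ∫ z in Aᶜ, |y z| ∂P - 2 * a ≤ ∫ z in Aᶜ, y z * sgn g z ∂P := by
    have h3 : ∫ z in Aᶜ, (|y z| - 2 * a) ∂P ≤ ∫ z in Aᶜ, y z * sgn g z ∂P := by
      refine setIntegral_mono_on ?_ hint.integrableOn hAm.compl fun z hz => ?_
      · exact (hyabs.sub (integrable_const _)).integrableOn
      · have h5 : |y z - g z| ≤ a := not_lt.mp hz
        have h6 := sgn_lower (y z) g z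
        linarith
    have h4 : ∫ z in Aᶜ, (|y z| - 2 * a) ∂P
        = ∫ z in Aᶜ, |y z| ∂P - P.real Aᶜ * (2 * a) := by
      rw [integral_sub hyabs.integrableOn (integrable_const _).integrableOn, setIntegral_const,
        smul_eq_mul]
    rw [h4] at h3
    have h5 : P.real Aᶜ ≤ 1 := measureReal_le_one
    have h6 : P.real Aᶜ * (2 * a) ≤ 1 * (2 * a) := mul_le_mul_of_nonneg_right h5 (by positivity)
    linarith
  linarith

/-- Absolute continuity of the integral. -/
lemma abs_cont (x : Lp ℝ 1 P) (η : ℝ) (hη : 0 < η) :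
    ∃ δ : ℝ, 0 < δ ∧ ∀ A : Set Ω, MeasurableSet A → P A ≤ ENNReal.ofReal δ →
      ∫ z in A, |x z| ∂P ≤ η := by
  obtain ⟨δ, hδ, h⟩ := (Lp.memLp x).eLpNorm_indicator_le (le_refl 1) ENNReal.one_ne_top hη
  refine ⟨δ, hδ, fun A hA hPA => ?_⟩
  have h1 := h A hA hPA
  have h2 : ∫ z in A, |x z| ∂P = ∫ z, ‖A.indicator (x : Ω → ℝ) z‖ ∂P := by
    rw [← integral_indicator hA]
    refine integral_congr_ae (Filter.Eventually.of_forall fun z => ?_)
    by_cases hz : z ∈ A <;> simp [hz]
  rw [h2, integral_norm_eq_lintegral_enorm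
    ((Lp.aestronglyMeasurable x).indicator hA), ← eLpNorm_one_eq_lintegral_enorm]
  exact ENNReal.toReal_le_of_le_ofReal hη.le h1

/-- The main lower estimate. -/
theorem midpoint_lower (E : Submodule ℝ (Lp ℝ 1 P))
    (htb : UnitBallTotallyBoundedInMeasure P E) (x : Lp ℝ 1 P) (hx : ‖x‖ = 1) (t : ℝ) (ht : 0 < t)
    (η : ℝ) (hη : 0 < η) :
    ∃ s : Finset (Lp ℝ 1 P), ∀ y ∈ E, ‖y‖ = 1 → (∀ g ∈ s, ∫ z, y z * sgn g z ∂P = 0) →
      t / 2 - η ≤ (‖x + t • y‖ + ‖x - t • y‖) / 2 - 1 := by
  set η' := η / 2 with hη'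
  have hη'0 : 0 < η' := by positivity
  obtain ⟨δ₀, hδ₀, hδ⟩ := abs_cont x η' hη'0
  set ε₀ := min δ₀ (η' / (t + 1)) with hε₀
  have hε₀0 : 0 < ε₀ := lt_min hδ₀ (by positivity)
  obtain ⟨s, -, hs2⟩ := htb ε₀ hε₀0
  refine ⟨s, fun y hyE hy1 hzero => ?_⟩
  obtain ⟨g, hg, hd⟩ := hs2 y hyE hy1.le
  have hne : Set.Nonempty {a : ℝ | 0 < a ∧ P {z | a < |y z - g z|} < ENNReal.ofReal a} := by
    refine ⟨2, by norm_num, ?_⟩
    refine lt_of_le_of_lt prob_le_one ?_
    rw [ENNReal.one_lt_ofReal]
    norm_num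
  obtain ⟨a, ⟨ha0, haP⟩, halt⟩ := exists_lt_of_csInf_lt hne hd
  have hxm : Measurable (x : Ω → ℝ) := (Lp.stronglyMeasurable x).measurable
  have hym : Measurable (y : Ω → ℝ) := (Lp.stronglyMeasurable y).measurable
  have hgm : Measurable (g : Ω → ℝ) := (Lp.stronglyMeasurable g).measurable
  set A : Set Ω := {z | a < |y z - g z|} with hA
  have hAm : MeasurableSet A := measurableSet_lt measurable_const (hym.sub hgm).abs
  have hxabs : Integrable (fun z => |x z|) P := (L1.integrable_coeFn x).abs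
  have hyabs : Integrable (fun z => |y z|) P := (L1.integrable_coeFn y).abs
  have hA1 : ∫ z in A, |x z| ∂P ≤ η' := by
    refine hδ A hAm (haP.le.trans (ENNReal.ofReal_le_ofReal ?_))
    exact halt.le.trans (min_le_left _ _)
  have hA2 := y_mass y g a ha0 hy1 (hzero g hg)
  have hxnorm : ∫ z, |x z| ∂P = 1 := by
    rw [← hx, L1.norm_eq_integral_norm]
    rfl
  have hcomp := integral_add_compl hAm hxabs
  rw [hxnorm] at hcomp
  have hu : ‖x + t • y‖ = ∫ z, |x z + t * y z| ∂P := by
    apply norm_of_ae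
    filter_upwards [Lp.coeFn_add x (t • y), Lp.coeFn_smul t y] with z h1 h2
    rw [h1, Pi.add_apply, h2, Pi.smul_apply, smul_eq_mul]
  have hv : ‖x - t • y‖ = ∫ z, |x z - t * y z| ∂P := by
    apply norm_of_ae
    filter_upwards [Lp.coeFn_sub x (t • y), Lp.coeFn_smul t y] with z h1 h2
    rw [h1, Pi.sub_apply, h2, Pi.smul_apply, smul_eq_mul]
  have hxint : Integrable (x : Ω → ℝ) P := L1.integrable_coeFn x
  have hyint : Integrable (y : Ω → ℝ) P := L1.integrable_coeFn y
  have hi1 : Integrable (fun z => |x z + t * y z|) P := (hxint.add (hyint.const_mul t)).abs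
  have hi2 : Integrable (fun z => |x z - t * y z|) P := (hxint.sub (hyint.const_mul t)).abs
  have hsum : ‖x + t • y‖ + ‖x - t • y‖
      = ∫ z, (|x z + t * y z| + |x z - t * y z|) ∂P := by
    rw [hu, hv, integral_add hi1 hi2]
  have hiS : Integrable (fun z => |x z + t * y z| + |x z - t * y z|) P := hi1.add hi2
  have hsplit := integral_add_compl hAm hiS
  have h1 : 2 * t * ∫ z in A, |y z| ∂P ≤ ∫ z in A, (|x z + t * y z| + |x z - t * y z|) ∂P := by
    rw [← integral_const_mul]
    refine setIntegral_mono_on (hyabs.const_mul _).integrableOn hiS.integrableOn hAm fun z _ => ?_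
    have h3 : |t * y z| = t * |y z| := by rw [abs_mul, abs_of_pos ht]
    have h4 : 2 * t * |y z| = 2 * |t * y z| := by rw [h3]; ring
    rw [h4]
    cases abs_cases (x z + t * y z) <;> cases abs_cases (x z - t * y z) <;>
      cases abs_cases (t * y z) <;> linarith
  have h2 : 2 * ∫ z in Aᶜ, |x z| ∂P ≤ ∫ z in Aᶜ, (|x z + t * y z| + |x z - t * y z|) ∂P := by
    rw [← integral_const_mul]
    refine setIntegral_mono_on (hxabs.const_mul _).integrableOn hiS.integrableOn hAm.compl
      fun z _ => ?_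
    cases abs_cases (x z + t * y z) <;> cases abs_cases (x z - t * y z) <;>
      cases abs_cases (x z) <;> linarith
  have hta : t * a ≤ η' := by
    have h3 : a ≤ η' / (t + 1) := halt.le.trans (min_le_right _ _)
    rw [le_div_iff₀ (by positivity)] at h3
    nlinarith
  have h5 : t * (1 / 2 - a) ≤ t * ∫ z in A, |y z| ∂P := mul_le_mul_of_nonneg_left hA2 ht.le
  have hη2 : η = 2 * η' := by rw [hη']; ring
  rw [hsum, ← hsplit]
  nlinarith

end Crest.Agent.Lib.L1Mid
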