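import Mathlib

/-!
# Chain lemma (a Cousin-type covering of an interval)

Given a gauge `δ > 0` on `ℝ`, a chain of tags `t 0 < s 1 < t 1 < s 2 < ... < t (r-1) = τ`
whose neighbouring gauge intervals overlap at the vertices `s (q+1)`.
-/

namespace Crest.Agent.MA

open Set

/-- `IsChain δ l r t s`: `t 0, ..., t (r-1)` are tags, `s 1, ..., s (r-1)` vertices. -/
def IsChain (δ : ℝ → ℝ) (l : ℝ) (r : ℕ) (t s : ℕ → ℝ) : Prop :=
  1 ≤ r ∧ t 0 - δ (t 0) ≤ l ∧
    ∀ q, q + 1 < r →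
      t q < s (q + 1) ∧ s (q + 1) < t (q + 1) ∧ s (q + 1) < t q + δ (t q) ∧
        t (q + 1) - δ (t (q + 1)) < s (q + 1)

/-- There is a chain ending at `x`. -/
def HasChain (δ : ℝ → ℝ) (l x : ℝ) : Prop :=
  ∃ (r : ℕ) (t s : ℕ → ℝ), IsChain δ l r t s ∧ t (r - 1) = x

lemma hasChain_of_le {δ : ℝ → ℝ} (hδ : ∀ t, 0 < δ t) {l x : ℝ} (h : x ≤ l) :
    HasChain δ l x := by
  refine ⟨1, fun _ => x, fun _ => 0, ⟨le_refl _, ?_, ?_⟩, rfl⟩
  · have := hδ x
    simp only
    linarith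
  · intro q hq
    omega

lemma HasChain.extend {δ : ℝ → ℝ} (hδ : ∀ t, 0 < δ t) {l x y : ℝ} (h : HasChain δ l x)
    (hxy : x < y) (hov : y - δ y < x + δ x) : HasChain δ l y := by
  obtain ⟨r, t, s, ⟨hr, h0, hch⟩, hlast⟩ := h
  -- the new vertex
  obtain ⟨v, hv1, hv2⟩ : ∃ v, max x (y - δ y) < v ∧ v < min y (x + δ x) := by
    apply exists_between
    have h1 := hδ x
    have h2 := hδ y
    simp only [lt_min_iff, max_lt_iff]
    refine ⟨⟨hxy, by linarith⟩, by linarith, hov⟩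
  have hv1a : x < v := lt_of_le_of_lt (le_max_left _ _) hv1
  have hv1b : y - δ y < v := lt_of_le_of_lt (le_max_right _ _) hv1
  have hv2a : v < y := lt_of_lt_of_le hv2 (min_le_left _ _)
  have hv2b : v < x + δ x := lt_of_lt_of_le hv2 (min_le_right _ _)
  refine ⟨r + 1, Function.update t r y, Function.update s r v, ⟨by omega, ?_, ?_⟩, ?_⟩
  · have h0r : (0 : ℕ) ≠ r := by omega
    rw [Function.update_of_ne h0r]
    exact h0
  · intro q hq
    rcases Nat.lt_or_ge (q + 1) r with hq' | hq'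
    · have h1 : q + 1 ≠ r := by omega
      have h2 : q ≠ r := by omega
      rw [Function.update_of_ne h1, Function.update_of_ne h1, Function.update_of_ne h2]
      exact hch q hq'
    · have h1 : q + 1 = r := by omega
      have h2 : q ≠ r := by omega
      have h3 : q = r - 1 := by omega
      rw [h1, Function.update_self, Function.update_self, Function.update_of_ne h2, h3, hlast]
      exact ⟨hv1a, hv2a, hv2b, hv1b⟩
  · have : r + 1 - 1 = r := by omega
    rw [this, Function.update_self]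

/-- **Chain lemma.** -/
theorem exists_chain (δ : ℝ → ℝ) (hδ : ∀ t, 0 < δ t) (l τ : ℝ) :
    ∃ (r : ℕ) (t s : ℕ → ℝ), IsChain δ l r t s ∧ t (r - 1) = τ := by
  rcases le_or_gt τ l with hle | hlt
  · exact hasChain_of_le hδ hle
  -- the set of points covered
  let Y : Set ℝ := {y | y ≤ τ ∧ ∃ x, x ≤ τ ∧ HasChain δ l x ∧ y < x + δ x}
  have hY_ne : l ∈ Y := ⟨hlt.le, l, hlt.le, hasChain_of_le hδ le_rfl, by have := hδ l; linarith⟩
  have hY_bdd : BddAbove Y := ⟨τ, fun y hy => hy.1⟩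
  set y₀ := sSup Y with hy₀
  have hy₀_le : y₀ ≤ τ := csSup_le ⟨l, hY_ne⟩ (fun y hy => hy.1)
  -- a chain ends at `y₀`
  have hch : HasChain δ l y₀ := by
    obtain ⟨y, hyY, hy⟩ := exists_lt_of_lt_csSup ⟨l, hY_ne⟩ (show y₀ - δ y₀ < sSup Y by
      have := hδ y₀
      linarith)
    obtain ⟨_, x, hxτ, hxch, hyx⟩ := hyY
    have hx_le : x ≤ y₀ := le_csSup hY_bdd
      ⟨hxτ, x, hxτ, hxch, by have := hδ x; linarith⟩
    rcases hx_le.lt_or_eq with hlt' | heq
    · exact hxch.extend hδ hlt' (by linarith)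
    · rw [← heq]
      exact hxch
  rcases hy₀_le.lt_or_eq with hlt' | heq
  · exfalso
    have hpos := hδ y₀
    have hmem : min τ (y₀ + δ y₀ / 2) ∈ Y :=
      ⟨min_le_left _ _, y₀, hy₀_le, hch, by
        have := min_le_right τ (y₀ + δ y₀ / 2)
        linarith⟩
    have h1 := le_csSup hY_bdd hmem
    have h2 : y₀ < min τ (y₀ + δ y₀ / 2) := lt_min hlt' (by linarith)
    linarith
  · rw [heq] at hch
    exact hch

end Crest.Agent.MA
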