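import Crest.Agent.Lib.MAChain

/-!
# The recursive piecewise-linear construction `PData`
-/

namespace Crest.Agent.MA

open Filter Finset Real

/-- Partial dot product over the first `m` coordinates. -/
noncomputable def dot (m : ℕ) (p x : ℕ → ℝ) : ℝ := ∑ k ∈ range m, p k * x k

/-- Prepend a value. -/
def scons (t : ℝ) (p : ℕ → ℝ) : ℕ → ℝ
  | 0 => t
  | k + 1 => p k

@[simp] lemma scons_zero (t : ℝ) (p : ℕ → ℝ) : scons t p 0 = t := rfl
@[simp] lemma scons_succ (t : ℝ) (p : ℕ → ℝ) (k : ℕ) : scons t p (k + 1) = p k := rfl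

lemma dot_succ (m : ℕ) (p x : ℕ → ℝ) :
    dot (m + 1) p x = p 0 * x 0 + dot m (fun k => p (k + 1)) (fun k => x (k + 1)) := by
  unfold dot
  rw [Finset.sum_range_succ']
  ring

lemma dot_scons (m : ℕ) (t : ℝ) (p x : ℕ → ℝ) :
    dot (m + 1) (scons t p) x = t * x 0 + dot m p (fun k => x (k + 1)) := by
  rw [dot_succ]
  rfl

/-- The domain of the selection statement. -/
def Dom (m : ℕ) (l τ' β : ℝ) (x : ℕ → ℝ) : Prop :=
  (∀ k, k < m → exp (β * l) ≤ x k ∧ x k ≤ exp (β * τ')) ∧ ∀ k, k + 1 < m → x (k + 1) ≤ x k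

/-- The output of the recursive construction. -/
structure PData (I : Type) (m : ℕ) (a : I → ℝ) (u : I → ℕ → ℝ) (τ l : ℝ) where
  ι : Type
  fin : Finite ι
  ρ : ι → ℕ → ℝ
  cost : ι → ℝ → ℝ
  itop : ι
  ibot : ι
  δ : ℝ
  δ1 : ℝ
  η : ℝ
  δ_pos : 0 < δ
  δ1_pos : 0 < δ1
  η_pos : 0 < η
  ρ_le : ∀ c k, k < m → ρ c k ≤ τ
  ρ_anti : ∀ c k, k + 1 < m → ρ c (k + 1) ≤ ρ c k
  ρ_top : ∀ k, k < m → ρ itop k = τ
  cost_nonneg : ∀ c β, 0 ≤ cost c β
  cost_bot : ∀ β, cost ibot β = 0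
  cost_smooth : ∀ c, ContDiff ℝ 1 (cost c)
  cost_top : ∃ C : ℝ, ∀ᶠ β in atTop, cost itop β ≤ C * exp (β * (τ - δ1))
  select : ∀ᶠ β in atTop, ∀ x, Dom m l (τ + δ) β x → ∀ c,
    (∀ c', dot m (ρ c') x - cost c' β ≤ dot m (ρ c) x - cost c β) →
    ∀ i, 0 < a i + dot m (u i) (ρ c) → η ≤ a i + dot m (u i) (fun k => log (x k) / β)

/-! ### Elementary lemmas about eventually -/

lemma eventually_mul_exp_le (A s s' : ℝ) (h : s < s') :
    ∀ᶠ β in atTop, A * exp (β * s) ≤ exp (β * s') := by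
  have h1 : Tendsto (fun β : ℝ => β * (s' - s)) atTop atTop :=
    tendsto_id.atTop_mul_const (sub_pos.mpr h)
  have h2 : Tendsto (fun β : ℝ => exp (β * (s' - s))) atTop atTop :=
    tendsto_exp_atTop.comp h1
  filter_upwards [h2.eventually_ge_atTop A] with β hβ
  have h3 : exp (β * s') = exp (β * (s' - s)) * exp (β * s) := by
    rw [← exp_add]
    congr 1
    ring
  rw [h3]
  exact mul_le_mul_of_nonneg_right hβ (exp_pos _).le

lemma eventually_exp_le_mul (κ s' s : ℝ) (hκ : 0 < κ) (h : s' < s) :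
    ∀ᶠ β in atTop, exp (β * s') ≤ κ * exp (β * s) := by
  filter_upwards [eventually_mul_exp_le κ⁻¹ s' s h] with β hβ
  have h1 : κ * (κ⁻¹ * exp (β * s')) = exp (β * s') := by
    field_simp
  rw [← h1]
  exact mul_le_mul_of_nonneg_left hβ hκ.le

lemma exists_pos_le_of_finite {ι : Type} [Finite ι] (f : ι → ℝ) (h : ∀ i, 0 < f i) :
    ∃ e : ℝ, 0 < e ∧ ∀ i, e ≤ f i := by
  rcases isEmpty_or_nonempty ι with hι | hι
  · exact ⟨1, one_pos, fun i => (hι.false i).elim⟩
  · obtain ⟨i₀, hi₀⟩ := Finite.exists_min f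
    exact ⟨f i₀, h i₀, hi₀⟩

lemma exists_bound_of_finite {ι : Type} [Finite ι] (f : ι → ℝ) :
    ∃ C : ℝ, 0 ≤ C ∧ ∀ i, |f i| ≤ C := by
  rcases isEmpty_or_nonempty ι with hι | hι
  · exact ⟨0, le_rfl, fun i => (hι.false i).elim⟩
  · obtain ⟨i₀, hi₀⟩ := Finite.exists_max (fun i => |f i|)
    exact ⟨|f i₀|, abs_nonneg _, hi₀⟩

/-! ### Base case -/

theorem pdata_zero (I : Type) [Finite I] (a : I → ℝ) (u : I → ℕ → ℝ) (τ l : ℝ) :
    Nonempty (PData I 0 a u τ l) := by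
  -- smallest positive value of `a`
  obtain ⟨e, he, hle⟩ := exists_pos_le_of_finite
    (fun i : I => if 0 < a i then a i else 1) (fun i => by
      by_cases h : 0 < a i <;> simp [h])
  refine ⟨{
    ι := Unit
    fin := inferInstance
    ρ := fun _ _ => 0
    cost := fun _ _ => 0
    itop := ()
    ibot := ()
    δ := 1
    δ1 := 1
    η := e
    δ_pos := one_pos
    δ1_pos := one_pos
    η_pos := he
    ρ_le := fun c k hk => absurd hk (Nat.not_lt_zero k)
    ρ_anti := fun c k hk => absurd hk (Nat.not_lt_zero _)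
    ρ_top := fun k hk => absurd hk (Nat.not_lt_zero k)
    cost_nonneg := fun _ _ => le_rfl
    cost_bot := fun _ => rfl
    cost_smooth := fun _ => contDiff_const
    cost_top := ⟨0, Eventually.of_forall fun β => by simp⟩
    select := Eventually.of_forall fun β x _ c _ i hi => ?_ }⟩
  simp only [dot, range_zero, sum_empty, add_zero] at hi ⊢
  have := hle i
  simp only [hi, if_true] at this
  exact this

end Crest.Agent.MA
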