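import Crest.Agent.Lib.MAKey
import Crest.Agent.Lib.MAPData

/-!
# Dynamics of mass-action systems confined by barrier polytopes
-/

namespace Crest.Agent.MA

open Crest.AnalysisR.MassAction Filter Set Topology

variable {d : ℕ}

lemma field_mem (R : Network d) (k : (Fin d → ℕ) × (Fin d → ℕ) → ℝ) (x : Fin d → ℝ) :
    field R k x ∈ stoichSubspace R := by
  unfold field
  apply Submodule.sum_mem
  intro r hr
  apply Submodule.smul_mem
  exact Submodule.subset_span ⟨r, hr, rfl⟩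

lemma contDiff_field (R : Network d) (k : (Fin d → ℕ) × (Fin d → ℕ) → ℝ) :
    ContDiff ℝ 1 (field R k) := by
  unfold field
  apply ContDiff.sum
  intro r _
  refine ContDiff.fun_smul ?_ contDiff_const
  apply contDiff_const.mul
  apply contDiff_prod
  intro i _
  exact (contDiff_apply ℝ ℝ i).pow _

/-- A curve with velocity in `S` stays in its affine translate of `S`. -/
lemma sub_mem_of_deriv (S : Submodule ℝ (Fin d → ℝ)) {x w : ℝ → Fin d → ℝ}
    (hx : ∀ t, 0 ≤ t → HasDerivWithinAt x (w t) (Ici 0) t) (hw : ∀ t, 0 ≤ t → w t ∈ S)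
    {t : ℝ} (ht : 0 ≤ t) : x t - x 0 ∈ S := by
  obtain ⟨q, hq⟩ := S.exists_isCompl
  let P := Submodule.projectionOnto q S hq.symm
  have hker : LinearMap.ker P = S := Submodule.ker_projectionOnto hq.symm
  let P' : (Fin d → ℝ) →L[ℝ] q := LinearMap.toContinuousLinearMap P
  have hP' : ∀ y, P' y = P y := fun y => rfl
  have hder : ∀ s, 0 ≤ s → HasDerivWithinAt (fun s => P' (x s)) 0 (Ici 0) s := by
    intro s hs
    have h1 := P'.hasFDerivAt.comp_hasDerivWithinAt s (hx s hs)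
    have h2 : P' (w s) = 0 := by
      rw [hP']
      have := hw s hs
      rw [← hker, LinearMap.mem_ker] at this
      exact this
    rw [h2] at h1
    exact h1
  have hcont : ContinuousOn (fun s => P' (x s)) (Icc 0 t) := fun s hs =>
    ((hder s hs.1).continuousWithinAt).mono Icc_subset_Ici_self
  have hconst := constant_of_has_deriv_right_zero hcont (fun s hs =>
    (hder s hs.1).mono (Ici_subset_Ici.mpr hs.1))
  have h3 := hconst t ⟨ht, le_rfl⟩
  rw [← hker, LinearMap.mem_ker, map_sub, ← hP', ← hP', h3, sub_self]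

/-- **Barrier lemma.** -/
lemma barrier {J : Type} [Finite J] (φ φ' : J → ℝ → ℝ) {a e : ℝ}
    (hcont : ∀ j, ContinuousOn (φ j) (Icc a e))
    (hder : ∀ j, ∀ t ∈ Ico a e, HasDerivWithinAt (φ j) (φ' j t) (Ici t) t)
    (h0 : ∀ j, φ j a ≤ 0)
    (hneg : ∀ t ∈ Ico a e, (∀ j, φ j t ≤ 0) → ∀ j, φ j t = 0 → φ' j t < 0) :
    ∀ t ∈ Icc a e, ∀ j, φ j t ≤ 0 := by
  set S : Set ℝ := {t | ∀ j, φ j t ≤ 0} with hS
  have hclosed : IsClosed (S ∩ Icc a e) := by
    have : S ∩ Icc a e = Icc a e ∩ ⋂ j, (Icc a e ∩ φ j ⁻¹' Iic 0) := by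
      ext t
      simp only [hS, mem_inter_iff, Set.mem_ofPred_eq, mem_iInter, mem_Icc, mem_preimage, mem_Iic]
      constructor
      · rintro ⟨h1, h2⟩
        exact ⟨h2, fun j => ⟨h2, h1 j⟩⟩
      · rintro ⟨h1, h2⟩
        exact ⟨fun j => (h2 j).2, h1⟩
    rw [this]
    exact isClosed_Icc.inter (isClosed_iInter fun j =>
      (hcont j).preimage_isClosed_of_isClosed isClosed_Icc isClosed_Iic)
  have hstep : ∀ x ∈ S ∩ Ico a e, ∀ y ∈ Ioi x, (S ∩ Ioc x y).Nonempty := by
    rintro t ⟨htS, htI⟩ y hy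
    have hev : ∀ᶠ s in 𝓝[>] t, ∀ j, φ j s ≤ 0 := by
      rw [Filter.eventually_all]
      intro j
      rcases (htS j).lt_or_eq with hlt | heq
      · -- strictly negative: continuity
        have h1 : ContinuousWithinAt (φ j) (Icc a e) t :=
          hcont j t ⟨htI.1, htI.2.le⟩
        have h2 : Icc a e ∈ 𝓝[>] t :=
          mem_of_superset (Ioc_mem_nhdsGT htI.2) (fun s hs => ⟨htI.1.trans hs.1.le, hs.2⟩)
        have h3 : Tendsto (φ j) (𝓝[>] t) (𝓝 (φ j t)) :=
          (h1.tendsto).mono_left (nhdsWithin_le_of_mem h2)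
        filter_upwards [h3.eventually (gt_mem_nhds hlt)] with s hs using hs.le
      · -- zero: the derivative is negative
        have h1 := hneg t htI htS j heq
        have h2 := (hder j t htI).Ioi_of_Ici
        rw [hasDerivWithinAt_iff_tendsto_slope' (by simp)] at h2
        filter_upwards [h2.eventually (gt_mem_nhds h1), self_mem_nhdsWithin] with s hs hs'
        have hs'' : t < s := hs'
        rw [slope_def_field, div_lt_iff₀ (by linarith), zero_mul, heq] at hs
        linarith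
    have hmem : Ioc t y ∈ 𝓝[>] t := Ioc_mem_nhdsGT hy
    obtain ⟨s, hs1, hs2⟩ := (hev.and hmem).exists
    exact ⟨s, hs1, hs2⟩
  have hsub := IsClosed.Icc_subset_of_forall_exists_gt hclosed (fun j => h0 j) hstep
  exact fun t ht j => hsub ht j

variable {J : Type} [Finite J] {n : J → Fin d → ℝ} {b : J → ℝ → ℝ}

omit [Finite J] in
lemma hasDeriv_form (m : Fin d → ℝ) {x : ℝ → Fin d → ℝ} {w : Fin d → ℝ} {s : Set ℝ} {t : ℝ}
    (h : HasDerivWithinAt x w s t) :
    HasDerivWithinAt (fun t => ∑ i, m i * x t i) (∑ i, m i * w i) s t := by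
  have h1 := hasDerivWithinAt_pi.mp h
  exact HasDerivWithinAt.fun_sum (fun i _ => (h1 i).const_mul (m i))

/-- A moving barrier along a curve. -/
lemma stays (hb : ∀ j, ContDiff ℝ 1 (b j)) {x w : ℝ → Fin d → ℝ}
    (hx : ∀ t, 0 ≤ t → HasDerivWithinAt x (w t) (Ici 0) t) {a e β₁ κ : ℝ} (ha : 0 ≤ a)
    (h0 : ∀ j, ∑ i, n j i * x a i ≤ b j β₁)
    (hneg : ∀ t ∈ Ico a e, (∀ j, ∑ i, n j i * x t i ≤ b j (β₁ - κ * (t - a))) →
      ∀ j, ∑ i, n j i * x t i = b j (β₁ - κ * (t - a)) →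
        ∑ i, n j i * w t i + κ * deriv (b j) (β₁ - κ * (t - a)) < 0) :
    ∀ t ∈ Icc a e, ∀ j, ∑ i, n j i * x t i ≤ b j (β₁ - κ * (t - a)) := by
  have hφ : ∀ j, ∀ t, 0 ≤ t → HasDerivWithinAt
      (fun t => ∑ i, n j i * x t i - b j (β₁ - κ * (t - a)))
      (∑ i, n j i * w t i + κ * deriv (b j) (β₁ - κ * (t - a))) (Ici 0) t := by
    intro j t ht
    have h1 := hasDeriv_form (n j) (hx t ht)
    have hline : HasDerivAt (fun t : ℝ => β₁ - κ * (t - a)) (-κ) t := by
      have := (((hasDerivAt_id t).sub_const a).const_mul κ).const_sub β₁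
      simpa using this
    have hbd : HasDerivAt (b j) (deriv (b j) (β₁ - κ * (t - a))) (β₁ - κ * (t - a)) :=
      ((hb j).differentiable (by norm_num) _).hasDerivAt
    have h2 := (hbd.comp t hline).hasDerivWithinAt (s := Ici 0)
    have h3 := h1.sub h2
    have e : ∑ i, n j i * w t i + κ * deriv (b j) (β₁ - κ * (t - a)) =
        ∑ i, n j i * w t i - deriv (b j) (β₁ - κ * (t - a)) * -κ := by ring
    rw [e]
    exact h3
  have hres := barrier (J := J) (fun j t => ∑ i, n j i * x t i - b j (β₁ - κ * (t - a)))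
    (fun j t => ∑ i, n j i * w t i + κ * deriv (b j) (β₁ - κ * (t - a))) (a := a) (e := e)
    (fun j t ht => ((hφ j t (ha.trans ht.1)).continuousWithinAt).mono
      (fun s hs => ha.trans hs.1))
    (fun j t ht => (hφ j t (ha.trans ht.1)).mono (Ici_subset_Ici.mpr (ha.trans ht.1)))
    (fun j => by simpa using h0 j)
    (fun t ht h1 j h2 => hneg t ht (fun j' => by have := h1 j'; linarith) j (by linarith))
  intro t ht j
  have := hres t ht j
  linarith

/-- The hypotheses on the barrier family. -/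
structure Barriers (R : Network d) (k : (Fin d → ℕ) × (Fin d → ℕ) → ℝ) (c : Fin d → ℝ)
    (n : J → Fin d → ℝ) (b : J → ℝ → ℝ) (βs : ℝ) : Prop where
  hb : ∀ j, ContDiff ℝ 1 (b j)
  hlarge : ∀ x : Fin d → ℝ, (∀ i, 0 < x i) → ∀ᶠ β in atTop, ∀ j, ∑ i, n j i * x i < b j β
  hbox : ∀ β ≥ βs, ∀ x : Fin d → ℝ, (∀ j, ∑ i, n j i * x i ≤ b j β) →
    ∀ i, 0 < x i ∧ x i ≤ 2 * Real.exp β
  hc : ∀ β ≥ βs, ∀ j, ∑ i, n j i * c i < b j β
  hneg : ∀ β ≥ βs, ∀ x : Fin d → ℝ, (∀ j, ∑ i, n j i * x i ≤ b j β) →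
    x - c ∈ stoichSubspace R → ∀ j, ∑ i, n j i * x i = b j β → ∑ i, n j i * field R k x i < 0

/-- A sublevel polytope. -/
def Kset (n : J → Fin d → ℝ) (b : J → ℝ → ℝ) (β : ℝ) : Set (Fin d → ℝ) :=
  {x | ∀ j, ∑ i, n j i * x i ≤ b j β}

/-- The comparison box. -/
noncomputable def boxSet (d : ℕ) (β : ℝ) : Set (Fin d → ℝ) :=
  Icc (fun _ => 0) (fun _ => 2 * Real.exp β)

lemma isCompact_boxSet (β : ℝ) : IsCompact (boxSet d β) := isCompact_Icc

lemma convex_boxSet (β : ℝ) : Convex ℝ (boxSet d β) := convex_Icc _ _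

omit [Finite J] in
lemma isClosed_Kset (n : J → Fin d → ℝ) (b : J → ℝ → ℝ) (β : ℝ) : IsClosed (Kset n b β) := by
  have : Kset n b β = ⋂ j, {x : Fin d → ℝ | ∑ i, n j i * x i ≤ b j β} := by
    ext x
    simp [Kset]
  rw [this]
  refine isClosed_iInter fun j => isClosed_le ?_ continuous_const
  exact continuous_finsetSum _ (fun i _ => continuous_const.mul (continuous_apply i))

section Main

variable {R : Network d} {k : (Fin d → ℕ) × (Fin d → ℕ) → ℝ} {c : Fin d → ℝ} {βs : ℝ}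

omit [Finite J] in
lemma Barriers.subset_box (B : Barriers R k c n b βs) {β : ℝ} (hβ : βs ≤ β) :
    Kset n b β ⊆ boxSet d β := fun x hx =>
  ⟨fun i => (B.hbox β hβ x hx i).1.le, fun i => (B.hbox β hβ x hx i).2⟩

/-- Invariance of the polytope under a curve whose velocity agrees with the field on it. -/
lemma Barriers.stay_gen (B : Barriers R k c n b βs) {x w : ℝ → Fin d → ℝ}
    (hx : ∀ t, 0 ≤ t → HasDerivWithinAt x (w t) (Ici 0) t)
    (hS : ∀ t, 0 ≤ t → x t - c ∈ stoichSubspace R)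
    {a β₁ : ℝ} (hw : ∀ t, 0 ≤ t → x t ∈ Kset n b β₁ → w t = field R k (x t))
    (ha : 0 ≤ a) (hβ : βs ≤ β₁) (h0 : x a ∈ Kset n b β₁) :
    ∀ t, a ≤ t → x t ∈ Kset n b β₁ := by
  intro t hat j
  have := stays (J := J) (n := n) (b := b) B.hb hx (a := a) (e := t) (β₁ := β₁) (κ := 0) ha h0
    (fun s hs h1 j' h2 => by
      simp only [zero_mul, sub_zero] at h1 h2 ⊢
      have hs0 : 0 ≤ s := ha.trans hs.1
      rw [hw s hs0 h1, add_zero]
      exact B.hneg β₁ hβ _ h1 (hS s hs0) j' h2) t ⟨hat, le_rfl⟩ j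
  simpa using this

lemma class_of_solution {x : ℝ → Fin d → ℝ} (hsol : IsForwardSolution (field R k) x)
    (h0 : x 0 - c ∈ stoichSubspace R) {t : ℝ} (ht : 0 ≤ t) : x t - c ∈ stoichSubspace R := by
  have h1 := sub_mem_of_deriv (stoichSubspace R) hsol (fun s _ => field_mem R k (x s)) ht
  have h2 : x t - c = (x t - x 0) + (x 0 - c) := by abel
  rw [h2]
  exact Submodule.add_mem _ h1 h0

lemma Barriers.stay_sol (B : Barriers R k c n b βs) {x : ℝ → Fin d → ℝ}
    (hsol : IsForwardSolution (field R k) x) (h0 : x 0 - c ∈ stoichSubspace R)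
    {a β₁ : ℝ} (ha : 0 ≤ a) (hβ : βs ≤ β₁) (hxa : x a ∈ Kset n b β₁) :
    ∀ t, a ≤ t → x t ∈ Kset n b β₁ :=
  B.stay_gen hsol (fun _ ht => class_of_solution hsol h0 ht) (fun _ _ _ => rfl) ha hβ hxa

lemma exists_lip (R : Network d) (k : (Fin d → ℕ) × (Fin d → ℕ) → ℝ) {S : Set (Fin d → ℝ)}
    (hS : IsCompact S) : ∃ K, LipschitzOnWith K (field R k) S :=
  LocallyLipschitzOn.exists_lipschitzOnWith_of_compact hS
    ((contDiff_field R k).locallyLipschitz.locallyLipschitzOn)

/-- Uniqueness of forward solutions. -/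
lemma Barriers.unique (B : Barriers R k c n b βs) {x x' : ℝ → Fin d → ℝ}
    (hsol : IsForwardSolution (field R k) x) (hsol' : IsForwardSolution (field R k) x')
    (h0 : x 0 - c ∈ stoichSubspace R) (h00 : x 0 = x' 0) {β₁ : ℝ} (hβ : βs ≤ β₁)
    (hx0 : x 0 ∈ Kset n b β₁) {t : ℝ} (ht : 0 ≤ t) : x t = x' t := by
  have h0' : x' 0 - c ∈ stoichSubspace R := by rwa [← h00]
  have hx0' : x' 0 ∈ Kset n b β₁ := by rwa [← h00]
  have h1 := B.stay_sol hsol h0 le_rfl hβ hx0
  have h2 := B.stay_sol hsol' h0' le_rfl hβ hx0'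
  obtain ⟨K, hK⟩ := exists_lip R k (isCompact_boxSet (d := d) β₁)
  have := ODE_solution_unique_of_mem_Icc_right (v := fun _ => field R k)
    (s := fun _ => boxSet d β₁) (K := K) (a := 0) (b := t) (f := x) (g := x')
    (fun _ _ => hK)
    (fun s hs => ((hsol s hs.1).continuousWithinAt).mono Icc_subset_Ici_self)
    (fun s hs => (hsol s hs.1).mono (Ici_subset_Ici.mpr hs.1))
    (fun s hs => B.subset_box hβ (h1 s hs.1))
    (fun s hs => ((hsol' s hs.1).continuousWithinAt).mono Icc_subset_Ici_self)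
    (fun s hs => (hsol' s hs.1).mono (Ici_subset_Ici.mpr hs.1))
    (fun s hs => B.subset_box hβ (h2 s hs.1))
    h00
  exact this ⟨ht, le_rfl⟩

/-- Uniform negativity of the field on the active facets, for a compact range of levels. -/
lemma Barriers.exists_theta (B : Barriers R k c n b βs) {β₁ : ℝ} :
    ∃ θ : ℝ, 0 < θ ∧ ∀ j, ∀ β ∈ Icc βs β₁, ∀ z ∈ Kset n b β, z - c ∈ stoichSubspace R →
      ∑ i, n j i * z i = b j β → ∑ i, n j i * field R k z i ≤ - θ := by
  have hone : ∀ j, ∃ θ : ℝ, 0 < θ ∧ ∀ β ∈ Icc βs β₁, ∀ z ∈ Kset n b β,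
      z - c ∈ stoichSubspace R → ∑ i, n j i * z i = b j β →
      ∑ i, n j i * field R k z i ≤ - θ := by
    intro j
    let A : Set ((Fin d → ℝ) × ℝ) := {p | p.2 ∈ Icc βs β₁ ∧ p.1 - c ∈ stoichSubspace R ∧
      (p.1 ∈ Kset n b p.2 ∧ ∑ i, n j i * p.1 i = b j p.2)}
    have hform : ∀ m : Fin d → ℝ, Continuous (fun p : (Fin d → ℝ) × ℝ => ∑ i, m i * p.1 i) :=
      fun m => continuous_finsetSum _ (fun i _ =>
        continuous_const.mul ((continuous_apply i).comp continuous_fst))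
    have hbc : ∀ j', Continuous (fun p : (Fin d → ℝ) × ℝ => b j' p.2) :=
      fun j' => (B.hb j').continuous.comp continuous_snd
    have hclosed : IsClosed A := by
      refine IsClosed.and (isClosed_Icc.preimage continuous_snd) (IsClosed.and ?_ (IsClosed.and ?_ ?_))
      · exact (Submodule.closed_of_finiteDimensional (stoichSubspace R)).preimage
          (continuous_fst.sub continuous_const)
      · have : {p : (Fin d → ℝ) × ℝ | p.1 ∈ Kset n b p.2} =
            ⋂ j', {p | ∑ i, n j' i * p.1 i ≤ b j' p.2} := by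
          ext p
          simp [Kset]
        rw [this]
        exact isClosed_iInter fun j' => isClosed_le (hform _) (hbc _)
      · exact isClosed_eq (hform _) (hbc _)
    have hsub : A ⊆ boxSet d β₁ ×ˢ Icc βs β₁ := by
      rintro ⟨z, β⟩ ⟨h1, _, h3, _⟩
      refine ⟨?_, h1⟩
      have h4 := B.subset_box h1.1 h3
      refine ⟨h4.1, fun i => (h4.2 i).trans ?_⟩
      have := Real.exp_le_exp.mpr h1.2
      simp only at this ⊢
      linarith
    have hcomp : IsCompact A :=
      ((isCompact_boxSet β₁).prod isCompact_Icc).of_isClosed_subset hclosed hsub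
    have hg : Continuous (fun p : (Fin d → ℝ) × ℝ => ∑ i, n j i * field R k p.1 i) :=
      continuous_finsetSum _ (fun i _ => continuous_const.mul
        ((continuous_apply i).comp ((contDiff_field R k).continuous.comp continuous_fst)))
    rcases A.eq_empty_or_nonempty with hA | hA
    · refine ⟨1, one_pos, fun β hβ z hz hzS hact => ?_⟩
      have : (z, β) ∈ A := ⟨hβ, hzS, hz, hact⟩
      rw [hA] at this
      exact absurd this (Set.notMem_empty _)
    · obtain ⟨p₀, hp₀, hmax⟩ := hcomp.exists_isMaxOn hA hg.continuousOn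
      have hneg := B.hneg p₀.2 hp₀.1.1 p₀.1 hp₀.2.2.1 hp₀.2.1 j hp₀.2.2.2
      refine ⟨- ∑ i, n j i * field R k p₀.1 i, by linarith, fun β hβ z hz hzS hact => ?_⟩
      have : (z, β) ∈ A := ⟨hβ, hzS, hz, hact⟩
      have h2 := hmax this
      simp only [Set.mem_ofPred_eq] at h2
      linarith
  choose θ hθ0 hθ using hone
  obtain ⟨e, he0, he⟩ := exists_pos_le_of_finite θ hθ0
  exact ⟨e, he0, fun j β hβ z hz hzS hact => (hθ j β hβ z hz hzS hact).trans (by linarith [he j])⟩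

/-- Uniform bound of the derivatives of the budgets. -/
lemma Barriers.exists_deriv_bound (B : Barriers R k c n b βs) {β₁ : ℝ} :
    ∃ D : ℝ, 0 ≤ D ∧ ∀ j, ∀ β ∈ Icc βs β₁, |deriv (b j) β| ≤ D := by
  have hone : ∀ j, ∃ D : ℝ, ∀ β ∈ Icc βs β₁, ‖deriv (b j) β‖ ≤ D := fun j =>
    isCompact_Icc.exists_bound_of_continuousOn
      ((B.hb j).continuous_deriv le_rfl).continuousOn
  choose D hD using hone
  obtain ⟨C, hC0, hC⟩ := exists_bound_of_finite D
  exact ⟨C, hC0, fun j β hβ => ((hD j β hβ).trans (le_abs_self _)).trans (hC j)⟩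

/-- **Absorption.** -/
lemma Barriers.absorb (B : Barriers R k c n b βs) {x : ℝ → Fin d → ℝ}
    (hsol : IsForwardSolution (field R k) x) (h0 : x 0 - c ∈ stoichSubspace R) {β₁ : ℝ}
    (hβ : βs ≤ β₁) (hx0 : x 0 ∈ Kset n b β₁) :
    ∃ T : ℝ, 0 ≤ T ∧ ∀ t, T ≤ t → x t ∈ Kset n b βs := by
  obtain ⟨θ, hθ0, hθ⟩ := B.exists_theta (β₁ := β₁)
  obtain ⟨D, hD0, hD⟩ := B.exists_deriv_bound (β₁ := β₁)
  set κ := θ / (2 * (D + 1)) with hκ
  have hκ0 : 0 < κ := by positivity
  have hκD : κ * D ≤ θ / 2 := by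
    rw [hκ, div_mul_eq_mul_div, div_le_iff₀ (by positivity)]
    nlinarith
  set T := (β₁ - βs) / κ with hT
  have hT0 : 0 ≤ T := div_nonneg (by linarith) hκ0.le
  have hκT : κ * T = β₁ - βs := by
    rw [hT]
    field_simp
  have hstay := stays (J := J) (n := n) (b := b) B.hb hsol (a := 0) (e := T) (β₁ := β₁) (κ := κ)
    le_rfl hx0 (fun t ht h1 j h2 => by
      have ht0 : 0 ≤ t := ht.1
      have htT : t < T := ht.2
      rw [sub_zero] at h1 h2 ⊢
      have hκt : κ * t ≤ κ * T := mul_le_mul_of_nonneg_left htT.le hκ0.le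
      have hκt0 : 0 ≤ κ * t := mul_nonneg hκ0.le ht0
      have hmem : β₁ - κ * t ∈ Icc βs β₁ := ⟨by linarith, by linarith⟩
      have h3 := hθ j _ hmem (x t) h1 (class_of_solution hsol h0 ht0) h2
      have h4 := hD j _ hmem
      have h5 : κ * deriv (b j) (β₁ - κ * t) ≤ κ * D :=
        mul_le_mul_of_nonneg_left ((le_abs_self _).trans h4) hκ0.le
      linarith)
  have hT' : x T ∈ Kset n b βs := by
    intro j
    have := hstay T ⟨hT0, le_rfl⟩ j
    have e : β₁ - κ * (T - 0) = βs := by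
      rw [sub_zero, hκT]
      ring
    rwa [e] at this
  exact ⟨T, hT0, B.stay_sol hsol h0 hT0 le_rfl hT'⟩

/-- Coordinatewise truncation to the box. -/
noncomputable def clampBox (Rad : ℝ) (y : Fin d → ℝ) : Fin d → ℝ :=
  fun i => max 0 (min Rad (y i))

lemma clampBox_lip (Rad : ℝ) : LipschitzWith 1 (clampBox (d := d) Rad) := by
  apply LipschitzWith.of_dist_le_mul
  intro y y'
  rw [NNReal.coe_one, one_mul]
  rw [dist_pi_le_iff dist_nonneg]
  intro i
  have h1 : LipschitzWith 1 (fun t : ℝ => max 0 (min Rad t)) :=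
    (LipschitzWith.id.const_min Rad).const_max 0
  have h2 := h1.dist_le_mul (y i) (y' i)
  rw [NNReal.coe_one, one_mul] at h2
  exact h2.trans (dist_le_pi_dist y y' i)

/-- Global existence for a bounded, globally Lipschitz, autonomous field. -/
lemma exists_global_solution {v : (Fin d → ℝ) → (Fin d → ℝ)} {K L : NNReal}
    (hlip : LipschitzWith K v) (hbd : ∀ y, ‖v y‖ ≤ L) (x₀ : Fin d → ℝ) :
    ∃ x : ℝ → Fin d → ℝ, x 0 = x₀ ∧ ∀ t, 0 ≤ t → HasDerivWithinAt x (v (x t)) (Ici 0) t := by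
  -- solutions on compact intervals
  have hloc : ∀ T : ℝ, ∃ α : ℝ → Fin d → ℝ, 0 ≤ T → (α 0 = x₀ ∧
      ∀ t ∈ Icc 0 T, HasDerivWithinAt α (v (α t)) (Icc 0 T) t) := by
    intro T
    by_cases hT : 0 ≤ T
    · have hmem : (0 : ℝ) ∈ Icc 0 T := ⟨le_rfl, hT⟩
      have hPL : IsPicardLindelof (fun _ y => v y) (tmin := 0) (tmax := T) ⟨0, hmem⟩ x₀
          (L * T.toNNReal) 0 L K := by
        refine ⟨fun _ _ => hlip.lipschitzOnWith, fun _ _ => continuousOn_const,
          fun _ _ y _ => hbd y, ?_⟩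
        simp only [sub_zero, sub_self, max_eq_left hT, NNReal.coe_zero, NNReal.coe_mul,
          Real.coe_toNNReal T hT]
        exact le_rfl
      obtain ⟨α, h1, h2⟩ := hPL.exists_eq_forall_mem_Icc_hasDerivWithinAt₀
      exact ⟨α, fun _ => ⟨h1, h2⟩⟩
    · exact ⟨fun _ => x₀, fun h => absurd h hT⟩
  choose sol hsol using hloc
  -- agreement
  have hagree : ∀ T T' t : ℝ, 0 ≤ T → 0 ≤ T' → t ∈ Icc 0 T → t ∈ Icc 0 T' → sol T t = sol T' t := by
    intro T T' t hT hT' ht ht'
    have hmono : ∀ {S : ℝ}, 0 ≤ S → t ≤ S → ∀ s ∈ Ico 0 t,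
        HasDerivWithinAt (sol S) (v (sol S s)) (Ici s) s := by
      intro S hS htS s hs
      refine ((hsol S hS).2 s ⟨hs.1, (hs.2.le.trans htS)⟩).mono_of_mem_nhdsWithin ?_
      exact mem_of_superset (Icc_mem_nhdsGE (lt_of_lt_of_le hs.2 htS))
        (fun y hy => ⟨hs.1.trans hy.1, hy.2⟩)
    have hcont : ∀ {S : ℝ}, 0 ≤ S → t ≤ S → ContinuousOn (sol S) (Icc 0 t) := by
      intro S hS htS y hy
      exact ((hsol S hS).2 y ⟨hy.1, hy.2.trans htS⟩).continuousWithinAt.mono
        (fun z hz => ⟨hz.1, hz.2.trans htS⟩)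
    have := ODE_solution_unique_of_mem_Icc_right (v := fun _ => v) (s := fun _ => univ) (K := K)
      (a := 0) (b := t) (f := sol T) (g := sol T')
      (fun _ _ => hlip.lipschitzOnWith) (hcont hT ht.2) (hmono hT ht.2) (fun _ _ => mem_univ _)
      (hcont hT' ht'.2) (hmono hT' ht'.2) (fun _ _ => mem_univ _)
      (by rw [(hsol T hT).1, (hsol T' hT').1])
    exact this ⟨ht.1, le_rfl⟩
  -- the global solution
  refine ⟨fun t => sol (|t| + 1) t, ?_, ?_⟩
  · simp only [abs_zero, zero_add]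
    exact (hsol 1 zero_le_one).1
  · intro t ht
    have hT0 : 0 ≤ t + 1 := by linarith
    have hloc := (hsol (t + 1) hT0).2 t ⟨ht, by linarith⟩
    have hself : sol (|t| + 1) t = sol (t + 1) t := by
      rw [abs_of_nonneg ht]
    have hnhds : Icc 0 (t + 1) ∈ 𝓝[Ici 0] t := by
      refine mem_of_superset (inter_mem_nhdsWithin (Ici 0) (Iio_mem_nhds (lt_add_one t))) ?_
      exact fun y hy => ⟨hy.1, le_of_lt hy.2⟩
    have h1 := hloc.mono_of_mem_nhdsWithin hnhds
    simp only [hself]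
    refine h1.congr_of_eventuallyEq ?_ hself
    filter_upwards [hnhds] with y hy
    have hy0 : 0 ≤ y := hy.1
    exact hagree _ _ y (by positivity) hT0 ⟨hy0, by rw [abs_of_nonneg hy0]; linarith⟩ hy

/-- **Existence of forward solutions.** -/
lemma Barriers.exists_sol (B : Barriers R k c n b βs) {x₀ : Fin d → ℝ}
    (h0 : x₀ - c ∈ stoichSubspace R) {β₁ : ℝ} (hβ : βs ≤ β₁) (hx₀ : x₀ ∈ Kset n b β₁) :
    ∃ x : ℝ → Fin d → ℝ, IsForwardSolution (field R k) x ∧ x 0 = x₀ := by
  set Rad := 2 * Real.exp β₁ with hRad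
  have hRad0 : 0 ≤ Rad := by positivity
  have hclamp_mem : ∀ y : Fin d → ℝ, clampBox Rad y ∈ boxSet d β₁ := fun y =>
    ⟨fun i => le_max_left _ _, fun i => max_le hRad0 (min_le_left _ _)⟩
  have hclamp_eq : ∀ y ∈ boxSet d β₁, clampBox Rad y = y := by
    intro y hy
    funext i
    have h1 : 0 ≤ y i := hy.1 i
    have h2 : y i ≤ Rad := hy.2 i
    simp only [clampBox]
    rw [min_eq_right h2, max_eq_right h1]
  obtain ⟨Kv, hKv⟩ := exists_lip R k (isCompact_boxSet (d := d) β₁)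
  have hlip : LipschitzWith Kv (fun y => field R k (clampBox Rad y)) := by
    intro y y'
    refine (hKv (hclamp_mem y) (hclamp_mem y')).trans ?_
    have := clampBox_lip (d := d) Rad y y'
    rw [ENNReal.coe_one, one_mul] at this
    exact mul_le_mul_right this _
  obtain ⟨C, hC⟩ := (isCompact_boxSet (d := d) β₁).exists_bound_of_continuousOn
    (contDiff_field R k).continuous.continuousOn
  have hbd : ∀ y, ‖field R k (clampBox Rad y)‖ ≤ C.toNNReal := fun y =>
    (hC _ (hclamp_mem y)).trans (Real.le_coe_toNNReal C)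
  obtain ⟨x, hx0, hx⟩ := exists_global_solution hlip hbd x₀
  have hS : ∀ t, 0 ≤ t → x t - c ∈ stoichSubspace R := by
    intro t ht
    have h1 := sub_mem_of_deriv (stoichSubspace R) hx
      (fun s _ => field_mem R k (clampBox Rad (x s))) ht
    have h2 : x t - c = (x t - x 0) + (x₀ - c) := by
      rw [hx0]
      abel
    rw [h2]
    exact Submodule.add_mem _ h1 h0
  have hw : ∀ t, 0 ≤ t → x t ∈ Kset n b β₁ → field R k (clampBox Rad (x t)) = field R k (x t) :=
    fun t _ ht => by rw [hclamp_eq _ (B.subset_box hβ ht)]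
  have hstay := B.stay_gen (β₁ := β₁) hx hS hw le_rfl hβ (by rw [hx0]; exact hx₀)
  refine ⟨x, fun t ht => ?_, hx0⟩
  have := hx t ht
  rwa [hw t ht (hstay t ht)] at this

/-- **Conclusion of the dynamics.** -/
theorem Barriers.main (B : Barriers R k c n b βs) :
    ∃ K : Set (Fin d → ℝ), K ⊆ positiveClass R c ∧ K.Nonempty ∧ IsCompact K ∧ Convex ℝ K ∧
      (∀ x : ℝ → (Fin d → ℝ), IsForwardSolution (field R k) x → x 0 ∈ K →
        ∀ t : ℝ, 0 ≤ t → x t ∈ K) ∧
      (∀ x₀ ∈ positiveClass R c,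
        (∃ x : ℝ → (Fin d → ℝ), IsForwardSolution (field R k) x ∧ x 0 = x₀) ∧
        (∀ x x' : ℝ → (Fin d → ℝ), IsForwardSolution (field R k) x →
          IsForwardSolution (field R k) x' → x 0 = x₀ → x' 0 = x₀ →
          ∀ t : ℝ, 0 ≤ t → x t = x' t) ∧
        (∀ x : ℝ → (Fin d → ℝ), IsForwardSolution (field R k) x → x 0 = x₀ →
          (∀ t : ℝ, 0 ≤ t → ∀ i, 0 < x t i) ∧
          ∃ T : ℝ, 0 ≤ T ∧ ∀ t : ℝ, T ≤ t → x t ∈ K)) := by
  have hSclosed : IsClosed {x : Fin d → ℝ | x - c ∈ stoichSubspace R} :=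
    (Submodule.closed_of_finiteDimensional (stoichSubspace R)).preimage
      (continuous_id.sub continuous_const)
  refine ⟨Kset n b βs ∩ {x | x - c ∈ stoichSubspace R}, ?_, ?_, ?_, ?_, ?_, ?_⟩
  · rintro x ⟨h1, h2⟩
    exact ⟨fun i => (B.hbox βs le_rfl x h1 i).1, h2⟩
  · refine ⟨c, fun j => (B.hc βs le_rfl j).le, ?_⟩
    simp
  · refine (isCompact_boxSet (d := d) βs).of_isClosed_subset
      ((isClosed_Kset n b βs).inter hSclosed) ?_
    exact fun x hx => B.subset_box le_rfl hx.1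
  · apply Convex.inter
    · intro x hx y hy a e ha he hae j
      have h1 := hx j
      have h2 := hy j
      have h3 : ∑ i, n j i * (a • x + e • y) i =
          a * ∑ i, n j i * x i + e * ∑ i, n j i * y i := by
        rw [Finset.mul_sum, Finset.mul_sum, ← Finset.sum_add_distrib]
        apply Finset.sum_congr rfl
        intro i _
        simp only [Pi.add_apply, Pi.smul_apply, smul_eq_mul]
        ring
      rw [h3]
      have h4 : a * ∑ i, n j i * x i ≤ a * b j βs := mul_le_mul_of_nonneg_left h1 ha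
      have h5 : e * ∑ i, n j i * y i ≤ e * b j βs := mul_le_mul_of_nonneg_left h2 he
      have h6 : a * b j βs + e * b j βs = b j βs := by
        rw [← add_mul, hae, one_mul]
      linarith
    · intro x hx y hy a e ha he hae
      have h1 : a • x + e • y - c = a • (x - c) + e • (y - c) := by
        have : c = (a + e) • c := by rw [hae, one_smul]
        nth_rewrite 1 [this]
        simp only [smul_sub, add_smul]
        abel
      show a • x + e • y - c ∈ stoichSubspace R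
      rw [h1]
      exact Submodule.add_mem _ (Submodule.smul_mem _ _ hx) (Submodule.smul_mem _ _ hy)
  · rintro x hsol ⟨h1, h2⟩ t ht
    exact ⟨B.stay_sol hsol h2 le_rfl le_rfl h1 t ht, class_of_solution hsol h2 ht⟩
  · rintro x₀ ⟨hpos, hcl⟩
    obtain ⟨β₁, hβ₁, hβ₂⟩ := ((B.hlarge x₀ hpos).and (eventually_ge_atTop βs)).exists
    have hx₀ : x₀ ∈ Kset n b β₁ := fun j => (hβ₁ j).le
    refine ⟨B.exists_sol hcl hβ₂ hx₀, ?_, ?_⟩
    · intro x x' hx hx' h1 h2 t ht
      exact B.unique hx hx' (by rwa [h1]) (by rw [h1, h2]) hβ₂ (by rwa [h1]) ht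
    · intro x hx h1
      have hcl' : x 0 - c ∈ stoichSubspace R := by rwa [h1]
      have hK : x 0 ∈ Kset n b β₁ := by rwa [h1]
      refine ⟨fun t ht i => ?_, ?_⟩
      · exact (B.hbox β₁ hβ₂ (x t) (B.stay_sol hx hcl' le_rfl hβ₂ hK t ht) i).1
      · obtain ⟨T, hT0, hT⟩ := B.absorb hx hcl' hβ₂ hK
        exact ⟨T, hT0, fun t ht => ⟨hT t ht, class_of_solution hx hcl' (hT0.trans ht)⟩⟩

end Main

end Crest.Agent.MA
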