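import Crest.Agent.Lib.MALvl

/-!
# The symmetric polytope: construction and estimates
-/

namespace Crest.Agent.MA

open Filter Finset Real

variable {d : ℕ} (U : Set (Fin d → ℝ)) [Finite ↥U] (E : ℝ)

/-- Data of the lower level `m`. -/
noncomputable def lowerD (m : ℕ) (r : ℝ) :
    PData ↥U m (fun w => (-1 : ℝ) * ext w.1 (d - 1 - m))
      (fun w i => ext w.1 (d - 1 - m + 1 + i)) (-1) (-r - 1) :=
  Classical.choice (pdata_exists m _ _ _ _)

/-- The scale sequence. -/
noncomputable def rhoSeq : ℕ → ℝ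
  | 0 => 1
  | m + 1 => rhoSeq m * ((E + 1) / min (lowerD U m (rhoSeq m)).η 1)

/-- The scale of level `m`. -/
noncomputable def qq (m : ℕ) : ℝ := rhoSeq U E d / rhoSeq U E m

variable {E} (hE : 0 ≤ E)

include hE

lemma gam_ge_one (η : ℝ) (hη : 0 < η) : 1 ≤ (E + 1) / min η 1 := by
  have h1 : 0 < min η 1 := lt_min hη one_pos
  rw [le_div_iff₀ h1]
  have h2 := min_le_right η 1
  linarith

lemma rhoSeq_pos (m : ℕ) : 0 < rhoSeq U E m := by
  induction m with
  | zero => simp [rhoSeq]
  | succ m ih =>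
    rw [rhoSeq]
    have := gam_ge_one hE _ (lowerD U m (rhoSeq U E m)).η_pos
    have h2 : 0 < (E + 1) / min (lowerD U m (rhoSeq U E m)).η 1 := by linarith
    exact mul_pos ih h2

lemma rhoSeq_mono : Monotone (rhoSeq U E) := by
  apply monotone_nat_of_le_succ
  intro m
  rw [rhoSeq]
  have := gam_ge_one hE _ (lowerD U m (rhoSeq U E m)).η_pos
  have h1 := rhoSeq_pos U hE m
  nlinarith

lemma qq_pos (m : ℕ) : 0 < qq U E (d := d) m :=
  div_pos (rhoSeq_pos U hE d) (rhoSeq_pos U hE m)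

lemma one_le_qq {m : ℕ} (hm : m ≤ d) : 1 ≤ qq U E (d := d) m := by
  unfold qq
  rw [le_div_iff₀ (rhoSeq_pos U hE m), one_mul]
  exact rhoSeq_mono U hE hm

lemma qq_mul (m : ℕ) : qq U E (d := d) m * rhoSeq U E m = rhoSeq U E d := by
  unfold qq
  have := (rhoSeq_pos U hE m).ne'
  field_simp

lemma qq_key (m : ℕ) :
    (E + 1) * qq U E (d := d) (m + 1) ≤ qq U E (d := d) m * (lowerD U m (rhoSeq U E m)).η := by
  have hη := (lowerD U m (rhoSeq U E m)).η_pos
  have hμ : 0 < min (lowerD U m (rhoSeq U E m)).η 1 := lt_min hη one_pos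
  have hle : min (lowerD U m (rhoSeq U E m)).η 1 ≤ (lowerD U m (rhoSeq U E m)).η := min_le_left _ _
  have h1 : (E + 1) * qq U E (d := d) (m + 1) =
      qq U E (d := d) m * min (lowerD U m (rhoSeq U E m)).η 1 := by
    unfold qq
    rw [rhoSeq]
    have h2 := (rhoSeq_pos U hE m).ne'
    have h3 : E + 1 ≠ 0 := by linarith
    field_simp
  rw [h1]
  exact mul_le_mul_of_nonneg_left hle (qq_pos U hE m).le

/-- The lower level `m`. -/
noncomputable def lowerL (m : Fin d) : Lvl U where
  k := d - 1 - m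
  m := m
  hkm := by have := m.2; omega
  ς := -1
  q := qq U E m
  lb := -rhoSeq U E m - 1
  hq := qq_pos U hE m
  hς := Or.inr rfl
  D := lowerD U m (rhoSeq U E m)

omit hE in
/-- The top level. -/
noncomputable def topL (E : ℝ) (hd : 1 ≤ d) : Lvl U where
  k := 0
  m := d - 1
  hkm := by omega
  ς := 1
  q := 1
  lb := -rhoSeq U E d - 1
  hq := one_pos
  hς := Or.inl ⟨rfl, rfl⟩
  D := Classical.choice (pdata_exists _ _ _ _ _)

/-- All levels. -/
noncomputable def levels (hd : 1 ≤ d) : Option (Fin d) → Lvl U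
  | none => topL U E hd
  | some m => lowerL U hE m

/-- Membership in the polytope. -/
def InK (hd : 1 ≤ d) (β : ℝ) (x : Fin d → ℝ) : Prop :=
  ∀ (l : Option (Fin d)) (c : (levels U hE hd l).D.ι) (σ : Equiv.Perm (Fin d)),
    ∑ i, (levels U hE hd l).N c i * x (σ i) ≤ (levels U hE hd l).b c β

omit [Finite ↥U] hE in
lemma ext_anti {z : Fin d → ℝ} (hz : Antitone z) {i j : ℕ} (hij : i ≤ j) (hj : j < d) :
    ext z j ≤ ext z i := by
  rw [ext_of_lt z hj, ext_of_lt z (lt_of_le_of_lt hij hj)]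
  exact hz hij

/-- Lower bound of all coordinates. -/
lemma InK.lower {hd : 1 ≤ d} {β : ℝ} {x : Fin d → ℝ} (hK : InK U hE hd β x) (i : Fin d) :
    exp (- rhoSeq U E d * β) ≤ x i := by
  set L := lowerL U hE (⟨0, hd⟩ : Fin d) with hL
  have hm : L.m = 0 := rfl
  have hς : L.ς = -1 := rfl
  have hq : L.q = rhoSeq U E d := by
    show qq U E 0 = _
    simp [qq, rhoSeq]
  let e : Fin d := ⟨L.k, L.k_lt_d⟩
  have h1 := hK (some ⟨0, hd⟩) L.D.ibot (Equiv.swap e i)
  have h2 := L.sum_N L.D.ibot (fun l => x (Equiv.swap e i l))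
  have h3 : ext (fun l => x (Equiv.swap e i l)) L.k = x i := by
    rw [ext_of_lt _ L.k_lt_d]
    show x (Equiv.swap e i e) = x i
    rw [Equiv.swap_apply_left]
  have h4 : dot L.m (L.D.ρ L.D.ibot) (L.tl (fun l => x (Equiv.swap e i l))) = 0 := by
    simp [dot, hm]
  have h5 : (levels U hE hd (some ⟨0, hd⟩)).b L.D.ibot β = L.ς * exp (L.ς * (L.q * β)) := by
    show L.b L.D.ibot β = _
    simp only [Lvl.b, L.D.cost_bot, add_zero]
  change ∑ l, L.N L.D.ibot l * x (Equiv.swap e i l) ≤ _ at h1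
  rw [h2, h3, h4, h5, add_zero, hς, hq] at h1
  have h6 : (-1 : ℝ) * (rhoSeq U E d * β) = - rhoSeq U E d * β := by ring
  rw [h6] at h1
  linarith

lemma InK.pos {hd : 1 ≤ d} {β : ℝ} {x : Fin d → ℝ} (hK : InK U hE hd β x) (i : Fin d) :
    0 < x i := (exp_pos _).trans_le (InK.lower U hE hK i)

/-- Upper bound of the sum of the coordinates. -/
lemma InK.sum_le_ev (hd : 1 ≤ d) : ∀ᶠ β in atTop, ∀ x : Fin d → ℝ, InK U hE hd β x →
    ∑ i, x i ≤ 2 * exp β := by
  set L := topL U E hd with hL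
  have hk : L.k = 0 := rfl
  have hς : L.ς = 1 := rfl
  have hq : L.q = 1 := rfl
  filter_upwards [L.cost_top_ev] with β hβ x hK
  have h1 := hK none L.D.itop 1
  change ∑ l, L.N L.D.itop l * x ((1 : Equiv.Perm (Fin d)) l) ≤ L.b L.D.itop β at h1
  simp only [Equiv.Perm.coe_one, id] at h1
  rw [L.sum_N, L.dot_top] at h1
  have h2 : ∑ i, x i = ∑ i ∈ range L.k, ext x i + ext x L.k + ∑ i ∈ range L.m, L.tl x i := by
    have h := sum_split (fun i => ext x i) L.hkm
    rw [← Fin.sum_univ_eq_sum_range (fun i => ext x i) d] at h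
    simp only [ext_coe] at h
    exact h
  have h3 : ∑ i ∈ range L.k, ext x i = 0 := by
    rw [hk]
    simp
  rw [h2, h3, zero_add]
  simp only [Lvl.b, hς, hq, one_mul] at h1 hβ
  have := exp_pos β
  linarith

/-- Lower bound of a sorted vector at the position of the lower level `m`. -/
lemma InK.lower_level_ev (hd : 1 ≤ d) (m : Fin d) :
    ∀ᶠ β in atTop, ∀ z : Fin d → ℝ, Antitone z → InK U hE hd β z →
      exp (- (qq U E (d := d) m * β)) ≤ 2 * d * ext z (d - 1 - m) := by
  set L := lowerL U hE m with hL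
  have hk : L.k = d - 1 - m := rfl
  have hς : L.ς = -1 := rfl
  have hq : L.q = qq U E (d := d) m := rfl
  filter_upwards [L.cost_top_ev] with β hβ z hz hK
  have h1 := hK (some m) L.D.itop 1
  change ∑ l, L.N L.D.itop l * z ((1 : Equiv.Perm (Fin d)) l) ≤ L.b L.D.itop β at h1
  simp only [Equiv.Perm.coe_one, id] at h1
  rw [L.sum_N, L.dot_top] at h1
  simp only [Lvl.b, hς, hq] at h1 hβ
  have h2 : ∑ i ∈ range L.m, L.tl z i ≤ L.m * ext z L.k := by
    calc ∑ i ∈ range L.m, L.tl z i ≤ ∑ _i ∈ range L.m, ext z L.k := by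
          apply Finset.sum_le_sum
          intro i hi
          exact ext_anti hz (by omega) (L.lt_d (Finset.mem_range.mp hi))
      _ = L.m * ext z L.k := by
          rw [Finset.sum_const, Finset.card_range, nsmul_eq_mul]
  have h3 : 0 < ext z L.k := by
    rw [ext_of_lt z L.k_lt_d]
    exact InK.pos U hE hK _
  have h4 : ((L.m : ℝ) + 1) ≤ d := by
    have := L.hkm
    have h5 : L.m + 1 ≤ d := by omega
    exact_mod_cast h5
  have h6 : (-1 : ℝ) * (qq U E (d := d) m * β) = - (qq U E (d := d) m * β) := by ring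
  rw [h6] at h1 hβ
  rw [← hk]
  have h7 : ((L.m : ℝ) + 1) * ext z L.k ≤ d * ext z L.k := mul_le_mul_of_nonneg_right h4 h3.le
  have h8 := exp_pos (- (qq U E (d := d) m * β))
  nlinarith

section Active

variable {L' : ℝ}

omit hE in
/-- the elementary logarithm estimates -/
lemma log_two_mul_nonneg (hd : 1 ≤ d) : 0 ≤ log (2 * (d : ℝ)) := by
  apply log_nonneg
  have : (1 : ℝ) ≤ d := by exact_mod_cast hd
  linarith

omit hE in
lemma log_two_le (hd : 1 ≤ d) : log 2 ≤ log (2 * (d : ℝ)) := by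
  apply log_le_log (by norm_num)
  have : (1 : ℝ) ≤ d := by exact_mod_cast hd
  linarith

omit hE in
lemma log_d_le (hd : 1 ≤ d) : log (d : ℝ) ≤ log (2 * (d : ℝ)) := by
  have : (1 : ℝ) ≤ d := by exact_mod_cast hd
  apply log_le_log (by linarith)
  linarith

/-- An active facet of the top level. -/
lemma top_active_ev (hd : 1 ≤ d) (L' : ℝ) :
    ∀ᶠ β in atTop, ∀ z : Fin d → ℝ, Antitone z → InK U hE hd β z →
      ∀ c : (topL U E hd).D.ι, ∑ i, (topL U E hd).N c i * z i = (topL U E hd).b c β →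
      ∀ w ∈ U, ∑ i, |w i| ≤ E → 0 < ∑ i, (topL U E hd).N c i * w i →
        L' ≤ ∑ i, w i * log (z i) := by
  set L := topL U E hd with hL
  have hk : L.k = 0 := rfl
  have hς : L.ς = 1 := rfl
  have hq : L.q = 1 := rfl
  have hlb : L.lb = -rhoSeq U E d - 1 := rfl
  have hm : (L.m : ℝ) + 1 = d := by
    have h1 : L.m + 1 = d := by have := L.hkm; omega
    exact_mod_cast h1
  set Λ := log (2 * (d : ℝ)) with hΛ
  have hΛ0 : 0 ≤ Λ := log_two_mul_nonneg hd
  have hη := L.D.η_pos
  have hδ := L.D.δ_pos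
  filter_upwards [L.select_ev, InK.sum_le_ev U hE hd, eventually_gt_atTop (0 : ℝ),
    eventually_ge_atTop ((L' + E * Λ) / L.D.η),
    eventually_mul_exp_le 2 1 (1 + L.D.δ) (by linarith)] with β b1 b2 b3 b4 b5 z hz hK c hact w hw hwE hpos
  have hzpos : ∀ i, 0 < z i := InK.pos U hE hK
  have hsum := b2 z hK
  have hzk : 0 < ext z L.k := by
    rw [ext_of_lt z L.k_lt_d]
    exact hzpos _
  have hsumle : ∀ i, z i ≤ 2 * exp β := fun i =>
    (Finset.single_le_sum (fun j _ => (hzpos j).le) (Finset.mem_univ i)).trans hsum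
  have hz0 : ext z L.k ≤ 2 * exp β := by
    rw [ext_of_lt z L.k_lt_d]
    exact hsumle _
  -- lower bound of the first coordinate
  have hlow : exp β ≤ d * ext z L.k := by
    have h1 := L.sum_N c z
    rw [hact] at h1
    simp only [Lvl.b, hς, hq, one_mul] at h1
    have h2 : dot L.m (L.D.ρ c) (L.tl z) ≤ L.m * ext z L.k := by
      unfold dot
      calc ∑ i ∈ range L.m, L.D.ρ c i * L.tl z i ≤ ∑ _i ∈ range L.m, ext z L.k := by
            apply Finset.sum_le_sum
            intro i hi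
            have hi' := Finset.mem_range.mp hi
            have h3 : 0 < L.tl z i := by
              show 0 < ext z (L.k + 1 + i)
              rw [ext_of_lt z (L.lt_d hi')]
              exact hzpos _
            have h4 : L.tl z i ≤ ext z L.k := ext_anti hz (by omega) (L.lt_d hi')
            have h5 : L.D.ρ c i ≤ 1 := L.D.ρ_le c i hi'
            nlinarith
        _ = L.m * ext z L.k := by
            rw [Finset.sum_const, Finset.card_range, nsmul_eq_mul]
    have h6 := L.D.cost_nonneg c (1 * β)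
    rw [one_mul] at h6
    rw [← hm]
    nlinarith
  -- the domain
  have hdom : Dom L.m L.lb (L.ς + L.D.δ) (L.q * β) (L.tl z) := by
    refine ⟨fun i hi => ⟨?_, ?_⟩, fun i hi => ?_⟩
    · show exp (L.q * β * L.lb) ≤ ext z (L.k + 1 + i)
      rw [ext_of_lt z (L.lt_d hi)]
      refine le_trans (exp_le_exp.mpr ?_) (InK.lower U hE hK _)
      rw [hq, hlb]
      nlinarith
    · show ext z (L.k + 1 + i) ≤ _
      rw [ext_of_lt z (L.lt_d hi)]
      have e1 : L.ς + L.D.δ = 1 + L.D.δ := by linarith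
      rw [e1, hq, one_mul]
      rw [mul_one] at b5
      exact (hsumle _).trans b5
    · exact ext_anti hz (by omega) (L.lt_d hi)
  have hmax := L.isMax_of_active (β := β) (z := z) (c := c) (fun c' => by
    have := hK none c' 1
    simp only [Equiv.Perm.coe_one, id] at this
    exact this) hact
  have hsel := b1 z hdom c hmax w hw hpos
  have hlog := L.log_bound (G := Λ) hwE hΛ0 (fun i hi => by rw [hk] at hi; omega) ?_ hsel
  · rw [hq, one_mul] at hlog
    have h1 : L' + E * Λ ≤ L.D.η * β := by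
      rw [div_le_iff₀ hη] at b4
      linarith
    linarith
  · rw [hς, hq, one_mul, one_mul, abs_le]
    have h1 : log (ext z L.k) ≤ log 2 + β := by
      have := log_le_log hzk hz0
      rw [log_mul (by norm_num) (exp_pos _).ne', log_exp] at this
      exact this
    have h2 : β ≤ log d + log (ext z L.k) := by
      have hd' : (0 : ℝ) < d := by
        have : (1 : ℝ) ≤ d := by exact_mod_cast hd
        linarith
      have := log_le_log (exp_pos β) hlow
      rw [log_exp, log_mul hd'.ne' hzk.ne'] at this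
      exact this
    have h3 := log_two_le hd
    have h4 := log_d_le hd
    constructor <;> linarith

/-- An active facet of a lower level. -/
lemma lower_active_ev (hd : 1 ≤ d) (L' : ℝ) (m : Fin d) :
    ∀ᶠ β in atTop, ∀ z : Fin d → ℝ, Antitone z → InK U hE hd β z →
      ∀ c : (lowerL U hE m).D.ι, ∑ i, (lowerL U hE m).N c i * z i = (lowerL U hE m).b c β →
      ∀ w ∈ U, ∑ i, |w i| ≤ E → 0 < ∑ i, (lowerL U hE m).N c i * w i →
        L' ≤ ∑ i, w i * log (z i) := by
  set L := lowerL U hE m with hL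
  have hk : L.k = d - 1 - m := rfl
  have hς : L.ς = -1 := rfl
  have hq : L.q = qq U E (d := d) m := rfl
  have hlb : L.lb = -rhoSeq U E m - 1 := rfl
  have hmm : L.m = m.1 := rfl
  have hm2 := m.2
  set Λ := log (2 * (d : ℝ)) with hΛ
  have hΛ0 : 0 ≤ Λ := log_two_mul_nonneg hd
  have hη := L.D.η_pos
  have hδ := L.D.δ_pos
  have hd' : (0 : ℝ) < 2 * d := by
    have : (1 : ℝ) ≤ d := by exact_mod_cast hd
    linarith
  have hqpos : 0 < qq U E (d := d) m := qq_pos U hE m
  have hq1 : 1 ≤ qq U E (d := d) (m.1 + 1) := one_le_qq U hE (by omega)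
  have hnext : ∀ᶠ β in atTop, ∀ h : m.1 + 1 < d, ∀ z : Fin d → ℝ, Antitone z → InK U hE hd β z →
      exp (- (qq U E (d := d) (m.1 + 1) * β)) ≤ 2 * d * ext z (d - 1 - (m.1 + 1)) := by
    by_cases h : m.1 + 1 < d
    · filter_upwards [InK.lower_level_ev U hE hd ⟨m.1 + 1, h⟩] with β hβ _ z hz hK
      exact hβ z hz hK
    · exact Eventually.of_forall fun β h' => absurd h' h
  filter_upwards [L.select_ev, InK.sum_le_ev U hE hd, eventually_gt_atTop (0 : ℝ),
    eventually_ge_atTop (L' + E * Λ), hnext, InK.lower_level_ev U hE hd m]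
    with β b1 b2 b3 b4 b5 b6 z hz hK c hact w hw hwE hpos
  have hzpos : ∀ i, 0 < z i := InK.pos U hE hK
  have hextpos : ∀ i, i < d → 0 < ext z i := fun i hi => by
    rw [ext_of_lt z hi]
    exact hzpos _
  have hsum := b2 z hK
  have hzk : 0 < ext z L.k := hextpos _ L.k_lt_d
  have hsumle : ∀ i, i < d → ext z i ≤ 2 * exp β := fun i hi => by
    rw [ext_of_lt z hi]
    exact (Finset.single_le_sum (fun j _ => (hzpos j).le) (Finset.mem_univ _)).trans hsum
  set θ := qq U E (d := d) m * β with hθ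
  have hθ0 : 0 < θ := mul_pos hqpos b3
  have hqβ : L.q * β = θ := rfl
  -- upper bound of the pivot
  have hup : ext z L.k ≤ exp (- θ) := by
    have h1 := L.sum_N c z
    rw [hact] at h1
    simp only [Lvl.b, hqβ] at h1
    have e1 : L.ς * exp (L.ς * θ) = - exp (- θ) := by
      rw [hς]
      have : (-1 : ℝ) * θ = - θ := by ring
      rw [this]
      ring
    have e2 : L.ς * ext z L.k = - ext z L.k := by
      rw [hς]
      ring
    rw [e1, e2] at h1
    have h2 : dot L.m (L.D.ρ c) (L.tl z) ≤ 0 := by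
      unfold dot
      apply Finset.sum_nonpos
      intro i hi
      have hi' := Finset.mem_range.mp hi
      have h3 : L.D.ρ c i ≤ L.ς := L.D.ρ_le c i hi'
      have h4 : 0 < L.tl z i := hextpos _ (L.lt_d hi')
      have h5 : L.D.ρ c i ≤ 0 := by linarith
      exact mul_nonpos_of_nonpos_of_nonneg h5 h4.le
    have h3 := L.D.cost_nonneg c θ
    linarith
  have hkeq : d - 1 - m.1 = L.k := rfl
  have hlow := b6 z hz hK
  rw [hkeq] at hlow
  -- logarithm of the pivot
  have hlog1 : log (ext z L.k) ≤ - θ := by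
    have := log_le_log hzk hup
    rwa [log_exp] at this
  have hlog2 : - θ ≤ Λ + log (ext z L.k) := by
    have := log_le_log (exp_pos _) hlow
    rwa [log_exp, log_mul hd'.ne' hzk.ne'] at this
  set G := qq U E (d := d) (m.1 + 1) * β + Λ with hG
  have hG0 : Λ ≤ G := by
    have : 0 ≤ qq U E (d := d) (m.1 + 1) * β := by positivity
    rw [hG]
    linarith
  -- the larger coordinates
  have ha : ∀ i, i < L.k → |log (ext z i)| ≤ G := by
    intro i hi
    have hik := L.k_lt_d
    have hid : i < d := by omega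
    have hipos := hextpos i hid
    rw [abs_le]
    constructor
    · have hlt : m.1 + 1 < d := by
        rw [hk] at hi
        omega
      have h1 := b5 hlt z hz hK
      have h2 : ext z (d - 1 - (m.1 + 1)) ≤ ext z i :=
        ext_anti hz (by rw [hk] at hi; omega) (by omega)
      have h3 : exp (- (qq U E (d := d) (m.1 + 1) * β)) ≤ 2 * d * ext z i :=
        h1.trans (mul_le_mul_of_nonneg_left h2 hd'.le)
      have h4 := log_le_log (exp_pos _) h3
      rw [log_exp, log_mul hd'.ne' hipos.ne'] at h4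
      rw [hG]
      linarith
    · have h1 := log_le_log hipos (hsumle i hid)
      rw [log_mul (by norm_num) (exp_pos _).ne', log_exp] at h1
      have h2 := log_two_le hd
      have h3 : β ≤ qq U E (d := d) (m.1 + 1) * β := by nlinarith
      rw [hG]
      linarith
  -- the domain
  have hdom : Dom L.m L.lb (L.ς + L.D.δ) (L.q * β) (L.tl z) := by
    refine ⟨fun i hi => ⟨?_, ?_⟩, fun i hi => ?_⟩
    · show exp (L.q * β * L.lb) ≤ ext z (L.k + 1 + i)
      rw [ext_of_lt z (L.lt_d hi)]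
      refine le_trans (exp_le_exp.mpr ?_) (InK.lower U hE hK _)
      rw [hqβ, hlb]
      have h1 : θ * rhoSeq U E m = rhoSeq U E d * β := by
        rw [hθ, mul_right_comm, qq_mul U hE]
      nlinarith
    · have h1 : L.tl z i ≤ ext z L.k := ext_anti hz (by omega) (L.lt_d hi)
      refine h1.trans (hup.trans (exp_le_exp.mpr ?_))
      rw [hqβ]
      have e1 : L.ς + L.D.δ = -1 + L.D.δ := by linarith
      rw [e1]
      nlinarith
    · exact ext_anti hz (by omega) (L.lt_d hi)
  have hmax := L.isMax_of_active (β := β) (z := z) (c := c) (fun c' => by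
    have := hK (some m) c' 1
    simp only [Equiv.Perm.coe_one, id] at this
    exact this) hact
  have hsel := b1 z hdom c hmax w hw hpos
  have hb : |log (ext z L.k) - L.ς * θ| ≤ G := by
    have e1 : L.ς * θ = - θ := by
      rw [hς]
      ring
    rw [e1, abs_le]
    constructor <;> linarith
  have hlog := L.log_bound (G := G) hwE (hΛ0.trans hG0) ha hb hsel
  -- final computation
  have hkey := qq_key U hE (d := d) m.1
  have h1 : (E + 1) * qq U E (d := d) (m.1 + 1) * β ≤ L.D.η * θ := by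
    have h2 : L.D.η = (lowerD U m.1 (rhoSeq U E m.1)).η := rfl
    rw [hθ, h2]
    calc (E + 1) * qq U E (d := d) (m.1 + 1) * β
        ≤ (qq U E (d := d) m.1 * (lowerD U m.1 (rhoSeq U E m.1)).η) * β :=
          mul_le_mul_of_nonneg_right hkey b3.le
      _ = _ := by ring
  have h3 : β ≤ qq U E (d := d) (m.1 + 1) * β := by nlinarith
  have h4 : E * G = E * (qq U E (d := d) (m.1 + 1) * β) + E * Λ := by
    rw [hG]
    ring
  nlinarith

end Active

omit [Finite ↥U] hE in
/-- For a fixed positive point the constraints are eventually strict. -/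
lemma Lvl.large_ev (L : Lvl U) (c : L.D.ι) (y : Fin d → ℝ) (hy : ∀ i, 0 < y i) :
    ∀ᶠ β in atTop, ∑ i, L.N c i * y i < L.b c β := by
  rw [L.sum_N]
  rcases L.hς with ⟨h1, _⟩ | h1
  · have h2 : Tendsto (fun β : ℝ => exp (L.q * β)) atTop atTop :=
      tendsto_exp_atTop.comp L.tendsto_q
    filter_upwards [h2.eventually_gt_atTop (L.ς * ext y L.k + dot L.m (L.D.ρ c) (L.tl y))] with β hβ
    have h3 := L.D.cost_nonneg c (L.q * β)
    simp only [Lvl.b, h1, one_mul]
    simp only [h1] at hβ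
    linarith
  · have hk : 0 < ext y L.k := by
      rw [ext_of_lt y L.k_lt_d]
      exact hy _
    have h2 : Tendsto (fun β : ℝ => exp (- (L.q * β))) atTop (nhds 0) :=
      Real.tendsto_exp_neg_atTop_nhds_zero.comp L.tendsto_q
    filter_upwards [h2.eventually (gt_mem_nhds hk)] with β hβ
    have h3 := L.D.cost_nonneg c (L.q * β)
    have h4 : dot L.m (L.D.ρ c) (L.tl y) ≤ 0 := by
      unfold dot
      apply Finset.sum_nonpos
      intro i hi
      have hi' := Finset.mem_range.mp hi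
      have h5 : L.D.ρ c i ≤ L.ς := L.D.ρ_le c i hi'
      have h6 : 0 < L.tl y i := by
        show 0 < ext y (L.k + 1 + i)
        rw [ext_of_lt y (L.lt_d hi')]
        exact hy _
      have h7 : L.D.ρ c i ≤ 0 := by linarith
      exact mul_nonpos_of_nonpos_of_nonneg h7 h6.le
    have e1 : L.ς * exp (L.ς * (L.q * β)) = - exp (- (L.q * β)) := by
      rw [h1]
      have : (-1 : ℝ) * (L.q * β) = - (L.q * β) := by ring
      rw [this]
      ring
    have e2 : L.ς * ext y L.k = - ext y L.k := by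
      rw [h1]
      ring
    simp only [Lvl.b]
    rw [e1, e2]
    linarith

end Crest.Agent.MA

namespace Crest.Agent.MA

open Filter Finset Real

/-- **The geometric theorem.** -/
theorem geo (d : ℕ) (hd : 1 ≤ d) (U : Set (Fin d → ℝ)) (hU : U.Finite)
    (hperm : ∀ u ∈ U, ∀ σ : Equiv.Perm (Fin d), u ∘ σ ∈ U) :
    ∃ (J : Type) (_ : Finite J) (n : J → Fin d → ℝ) (b : J → ℝ → ℝ),
      (∀ j, ContDiff ℝ 1 (b j)) ∧
      (∀ x : Fin d → ℝ, (∀ i, 0 < x i) → ∀ᶠ β in atTop, ∀ j, ∑ i, n j i * x i < b j β) ∧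
      (∀ L : ℝ, ∃ β0 : ℝ, ∀ β ≥ β0, ∀ x : Fin d → ℝ, (∀ j, ∑ i, n j i * x i ≤ b j β) →
        (∀ i, 0 < x i ∧ x i ≤ 2 * exp β) ∧
        ∀ j, ∑ i, n j i * x i = b j β → ∀ u ∈ U, 0 < ∑ i, n j i * u i →
          L ≤ ∑ i, u i * log (x i)) := by
  haveI : Finite ↥U := hU.to_subtype
  obtain ⟨E, hE0, hE⟩ := exists_bound_of_finite (fun u : ↥U => ∑ i, |u.1 i|)
  have hE' : ∀ w ∈ U, ∑ i, |w i| ≤ E := fun w hw => (le_abs_self _).trans (hE ⟨w, hw⟩)
  let Lv := levels U hE0 hd
  haveI : ∀ l, Finite (Lv l).D.ι := fun l => (Lv l).D.fin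
  let n : (Σ l : Option (Fin d), (Lv l).D.ι × Equiv.Perm (Fin d)) → Fin d → ℝ :=
    fun j i => (Lv j.1).N j.2.1 (j.2.2⁻¹ i)
  let b : (Σ l : Option (Fin d), (Lv l).D.ι × Equiv.Perm (Fin d)) → ℝ → ℝ :=
    fun j => (Lv j.1).b j.2.1
  have hsum : ∀ (j : Σ l : Option (Fin d), (Lv l).D.ι × Equiv.Perm (Fin d)) (y : Fin d → ℝ),
      ∑ i, n j i * y i = ∑ i, (Lv j.1).N j.2.1 i * y (j.2.2 i) := by
    intro j y
    rw [← Equiv.sum_comp j.2.2 (fun i => n j i * y i)]
    apply Finset.sum_congr rfl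
    intro i _
    simp [n]
  refine ⟨_, inferInstance, n, b, fun j => (Lv j.1).contDiff_b j.2.1, ?_, ?_⟩
  · intro x hx
    rw [Filter.eventually_all]
    intro j
    have h1 := Lvl.large_ev U (Lv j.1) j.2.1 (fun i => x (j.2.2 i)) (fun i => hx _)
    filter_upwards [h1] with β hβ
    rw [hsum]
    exact hβ
  · intro L
    have hev : ∀ᶠ β in atTop, (∀ x : Fin d → ℝ, InK U hE0 hd β x → ∑ i, x i ≤ 2 * exp β) ∧
        (∀ z : Fin d → ℝ, Antitone z → InK U hE0 hd β z →
          ∀ c : (topL U E hd).D.ι, ∑ i, (topL U E hd).N c i * z i = (topL U E hd).b c β →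
          ∀ w ∈ U, ∑ i, |w i| ≤ E → 0 < ∑ i, (topL U E hd).N c i * w i →
            L ≤ ∑ i, w i * log (z i)) ∧
        ∀ m : Fin d, ∀ z : Fin d → ℝ, Antitone z → InK U hE0 hd β z →
          ∀ c : (lowerL U hE0 m).D.ι,
            ∑ i, (lowerL U hE0 m).N c i * z i = (lowerL U hE0 m).b c β →
          ∀ w ∈ U, ∑ i, |w i| ≤ E → 0 < ∑ i, (lowerL U hE0 m).N c i * w i →
            L ≤ ∑ i, w i * log (z i) := by
      refine (InK.sum_le_ev U hE0 hd).and ((top_active_ev U hE0 hd L).and ?_)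
      rw [Filter.eventually_all]
      exact fun m => lower_active_ev U hE0 hd L m
    obtain ⟨β0, hβ0⟩ := eventually_atTop.mp hev
    refine ⟨β0, fun β hβ x hx => ?_⟩
    obtain ⟨h1, h2, h3⟩ := hβ0 β hβ
    have hK : InK U hE0 hd β x := by
      intro l c σ
      have := hx ⟨l, c, σ⟩
      rw [hsum] at this
      exact this
    have hpos := InK.pos U hE0 hK
    refine ⟨fun i => ⟨hpos i, ?_⟩, ?_⟩
    · exact (Finset.single_le_sum (fun j _ => (hpos j).le) (Finset.mem_univ i)).trans (h1 x hK)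
    · rintro ⟨l, c, σ⟩ hact u hu hupos
      rw [hsum] at hact hupos
      obtain ⟨κ, hκ1, hκ2, hκ3, hκ4⟩ := sym_reduce (T := Σ l, (Lv l).D.ι)
        (fun t => (Lv t.1).N t.2) (fun t => (Lv t.1).antitone_N t.2)
        (fun t => (Lv t.1).b t.2 β) x (fun t σ' => hK t.1 t.2 σ') ⟨l, c⟩ σ hact
      have hKz : InK U hE0 hd β (fun i => x (σ (κ i))) := fun l' c' σ' => hκ2 ⟨l', c'⟩ σ'
      have hw : (fun i => u (σ (κ i))) ∈ U := hperm u hu (σ * κ)
      have hwpos : 0 < ∑ i, (Lv l).N c i * u (σ (κ i)) := by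
        rw [hκ4 u]
        exact hupos
      have hfin : ∑ i, u (σ (κ i)) * log (x (σ (κ i))) = ∑ i, u i * log (x i) :=
        Equiv.sum_comp (σ * κ) (fun i => u i * log (x i))
      rw [← hfin]
      cases l with
      | none => exact h2 _ hκ1 hKz c hκ3 _ hw (hE' _ hw) hwpos
      | some m => exact h3 m _ hκ1 hKz c hκ3 _ hw (hE' _ hw) hwpos

end Crest.Agent.MA
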