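import Crest.Prelude.Def_MassAction

/-!
# The key inequality for weakly reversible networks
-/

namespace Crest.Agent.MA

open Crest.AnalysisR.MassAction Finset Real

variable {d : ℕ}

/-- The linear functional on complexes. -/
noncomputable def hh (n : Fin d → ℝ) (y : Fin d → ℕ) : ℝ := ∑ i, n i * (y i : ℝ)

lemma dot_reactionVector (n : Fin d → ℝ) (r : (Fin d → ℕ) × (Fin d → ℕ)) :
    ∑ i, n i * reactionVector r i = hh n r.2 - hh n r.1 := by
  unfold hh reactionVector
  rw [← Finset.sum_sub_distrib]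
  apply Finset.sum_congr rfl
  intro i _
  ring

lemma dot_field (R : Network d) (k : (Fin d → ℕ) × (Fin d → ℕ) → ℝ) (n x : Fin d → ℝ) :
    ∑ i, n i * field R k x i =
      ∑ r ∈ R, k r * (∏ i, x i ^ (r.1 i)) * (hh n r.2 - hh n r.1) := by
  unfold field
  simp only [Finset.sum_apply, Pi.smul_apply, smul_eq_mul, Finset.mul_sum]
  rw [Finset.sum_comm]
  apply Finset.sum_congr rfl
  intro r _
  rw [← dot_reactionVector, Finset.mul_sum]
  apply Finset.sum_congr rfl
  intro i _
  ring

lemma path_crossing (R : Network d) (n : Fin d → ℝ) (θ : ℝ) {p q : Fin d → ℕ}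
    (hpath : Relation.ReflTransGen (fun a b => (a, b) ∈ R) p q) (hp : θ < hh n p)
    (hq : hh n q ≤ θ) : ∃ a b, (a, b) ∈ R ∧ θ < hh n a ∧ hh n b ≤ θ := by
  induction hpath with
  | refl => linarith
  | @tail b c _ hbc ih =>
    by_cases h : θ < hh n b
    · exact ⟨b, c, hbc, h, hq⟩
    · exact ih (not_lt.mp h)

/-- The monomial as an exponential of the logarithmic pairing. -/
lemma monomial_eq_exp {x : Fin d → ℝ} (hx : ∀ i, 0 < x i) (y : Fin d → ℕ) :
    ∏ i, x i ^ (y i) = exp (∑ i, (y i : ℝ) * log (x i)) := by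
  rw [Real.exp_sum]
  apply Finset.prod_congr rfl
  intro i _
  rw [Real.exp_nat_mul, exp_log (hx i)]

lemma monomial_pos {x : Fin d → ℝ} (hx : ∀ i, 0 < x i) (y : Fin d → ℕ) :
    0 < ∏ i, x i ^ (y i) := by
  rw [monomial_eq_exp hx]
  exact exp_pos _

/-- The logarithmic pairing controls the ratio of monomials. -/
lemma monomial_ge {x : Fin d → ℝ} (hx : ∀ i, 0 < x i) {a z : Fin d → ℕ} {C : ℝ} (hC : 0 < C)
    (h : log C ≤ ∑ i, ((a i : ℝ) - z i) * log (x i)) :
    C * ∏ i, x i ^ (z i) ≤ ∏ i, x i ^ (a i) := by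
  rw [monomial_eq_exp hx, monomial_eq_exp hx]
  have h1 : ∑ i, ((a i : ℝ) - z i) * log (x i) =
      ∑ i, (a i : ℝ) * log (x i) - ∑ i, (z i : ℝ) * log (x i) := by
    rw [← Finset.sum_sub_distrib]
    apply Finset.sum_congr rfl
    intro i _
    ring
  rw [h1] at h
  calc C * exp (∑ i, (z i : ℝ) * log (x i)) = exp (log C + ∑ i, (z i : ℝ) * log (x i)) := by
        rw [exp_add, exp_log hC]
    _ ≤ _ := exp_le_exp.mpr (by linarith)

/-- **Key lemma.** For a fixed direction `n`, not orthogonal to all reaction vectors, the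
field points inward on the hyperplanes where all relevant monomial ratios are large. -/
theorem key_lemma (R : Network d) (hR : IsWeaklyReversible R)
    (k : (Fin d → ℕ) × (Fin d → ℕ) → ℝ) (hk : ∀ r ∈ R, 0 < k r) (n : Fin d → ℝ) :
    ∃ L : ℝ, ∀ x : Fin d → ℝ, (∀ i, 0 < x i) →
      (∀ r ∈ R, ∀ r' ∈ R, 0 < ∑ i, n i * ((r.1 i : ℝ) - r'.1 i) →
        L ≤ ∑ i, ((r.1 i : ℝ) - r'.1 i) * log (x i)) →
      (∃ r ∈ R, ∑ i, n i * reactionVector r i ≠ 0) → ∑ i, n i * field R k x i < 0 := by
  classical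
  set W : (Fin d → ℕ) × (Fin d → ℕ) → ℝ := fun r => k r * |hh n r.2 - hh n r.1| with hW
  set Rn := R.filter (fun r => hh n r.2 ≠ hh n r.1) with hRn
  -- constants
  have hWnn : ∀ r ∈ R, 0 ≤ W r := fun r hr => mul_nonneg (hk r hr).le (abs_nonneg _)
  obtain ⟨Wmin, hWmin0, hWmin⟩ : ∃ Wmin : ℝ, 0 < Wmin ∧ ∀ r ∈ Rn, Wmin ≤ W r := by
    rcases Rn.eq_empty_or_nonempty with h | h
    · exact ⟨1, one_pos, fun r hr => by simp [h] at hr⟩
    · obtain ⟨r₀, hr₀, hmin⟩ := Rn.exists_min_image W h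
      refine ⟨W r₀, ?_, hmin⟩
      rw [hRn, Finset.mem_filter] at hr₀
      exact mul_pos (hk _ hr₀.1) (abs_pos.mpr (sub_ne_zero.mpr hr₀.2))
  set Wmax := ∑ r ∈ R, W r with hWmax
  have hWmax0 : 0 ≤ Wmax := Finset.sum_nonneg hWnn
  have hWle : ∀ r ∈ R, W r ≤ Wmax := fun r hr => Finset.single_le_sum hWnn hr
  set C : ℝ := R.card * Wmax / Wmin + 2 with hC
  have hC0 : 0 ≤ (R.card : ℝ) * Wmax / Wmin := by positivity
  have hC2 : 2 ≤ C := by rw [hC]; linarith
  have hCpos : 0 < C := by linarith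
  refine ⟨log C, fun x hx hL ⟨r₀, hr₀, hne⟩ => ?_⟩
  rw [dot_reactionVector] at hne
  have hr₀n : r₀ ∈ Rn := by
    rw [hRn, Finset.mem_filter]
    exact ⟨hr₀, sub_ne_zero.mp hne⟩
  -- the monomials
  set mo : (Fin d → ℕ) → ℝ := fun y => ∏ i, x i ^ (y i) with hmo
  have hmopos : ∀ y, 0 < mo y := fun y => monomial_pos hx y
  obtain ⟨rs, hrs, hmax⟩ := Rn.exists_max_image (fun r => mo r.1) ⟨r₀, hr₀n⟩
  have hrsR : rs ∈ R := (Finset.mem_filter.mp hrs).1
  -- positive reactions have small source monomials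
  have hposr : ∀ r ∈ R, hh n r.1 < hh n r.2 → C * mo r.1 ≤ mo rs.1 := by
    intro r hr hlt
    obtain ⟨a, b, hab, h1, h2⟩ := path_crossing R n (hh n r.1) (hR r hr) hlt le_rfl
    have habn : (a, b) ∈ Rn := by
      rw [hRn, Finset.mem_filter]
      refine ⟨hab, ?_⟩
      exact ne_of_lt (lt_of_le_of_lt h2 h1)
    have h3 : 0 < ∑ i, n i * ((a i : ℝ) - r.1 i) := by
      have : ∑ i, n i * ((a i : ℝ) - r.1 i) = hh n a - hh n r.1 := by
        unfold hh
        rw [← Finset.sum_sub_distrib]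
        apply Finset.sum_congr rfl
        intro i _
        ring
      rw [this]
      linarith
    have h4 := hL (a, b) hab r hr h3
    have h5 := monomial_ge hx hCpos h4
    exact h5.trans (hmax (a, b) habn)
  -- the maximal reaction is negative
  have hrsneg : hh n rs.2 < hh n rs.1 := by
    have h1 : hh n rs.2 ≠ hh n rs.1 := (Finset.mem_filter.mp hrs).2
    rcases lt_or_gt_of_ne h1 with h | h
    · exact h
    · exfalso
      have h2 := hposr rs hrsR h
      have h3 := hmopos rs.1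
      nlinarith
  set mos := mo rs.1 with hmos
  have hmospos : 0 < mos := hmopos _
  rw [dot_field, ← Finset.add_sum_erase R _ hrsR]
  -- the term of the maximal reaction
  have hfirst : k rs * mo rs.1 * (hh n rs.2 - hh n rs.1) ≤ - Wmin * mos := by
    have h1 : W rs = k rs * (hh n rs.1 - hh n rs.2) := by
      simp only [hW]
      rw [abs_of_neg (by linarith)]
      ring
    have h2 := hWmin rs hrs
    rw [h1] at h2
    have h3 : k rs * mo rs.1 * (hh n rs.2 - hh n rs.1) = - (k rs * (hh n rs.1 - hh n rs.2)) * mos := by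
      rw [hmos]
      ring
    rw [h3]
    exact mul_le_mul_of_nonneg_right (by linarith) hmospos.le
  -- all the other terms
  have hother : ∀ r ∈ R.erase rs, k r * (∏ i, x i ^ (r.1 i)) * (hh n r.2 - hh n r.1) ≤
      Wmax * (mos / C) := by
    intro r hr
    have hrR := (Finset.mem_erase.mp hr).2
    have h0 : 0 ≤ Wmax * (mos / C) := by positivity
    by_cases hlt : hh n r.1 < hh n r.2
    · have h1 : mo r.1 ≤ mos / C := by
        rw [le_div_iff₀ hCpos]
        have := hposr r hrR hlt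
        linarith
      have h2 : W r = k r * (hh n r.2 - hh n r.1) := by
        simp only [hW]
        rw [abs_of_pos (by linarith)]
      have h3 : k r * (∏ i, x i ^ (r.1 i)) * (hh n r.2 - hh n r.1) = W r * mo r.1 := by
        rw [h2]
        simp only [hmo]
        ring
      rw [h3]
      exact mul_le_mul (hWle r hrR) h1 (hmopos _).le hWmax0
    · have h1 : hh n r.2 - hh n r.1 ≤ 0 := by linarith
      have h2 : 0 < k r * (∏ i, x i ^ (r.1 i)) := mul_pos (hk r hrR) (hmopos r.1)
      have h3 := mul_nonpos_of_nonneg_of_nonpos h2.le h1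
      linarith
  have hsum := Finset.sum_le_card_nsmul _ _ _ hother
  rw [nsmul_eq_mul] at hsum
  have hcard : ((R.erase rs).card : ℝ) ≤ R.card := by
    exact_mod_cast Finset.card_le_card (Finset.erase_subset _ _)
  have h6 : ((R.erase rs).card : ℝ) * (Wmax * (mos / C)) ≤ R.card * (Wmax * (mos / C)) :=
    mul_le_mul_of_nonneg_right hcard (by positivity)
  -- the final inequality
  have h7 : (R.card : ℝ) * (Wmax * (mos / C)) < Wmin * mos := by
    have h8 : (R.card : ℝ) * Wmax / Wmin < C := by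
      rw [hC]
      linarith
    have h9 : (R.card : ℝ) * Wmax < C * Wmin := by
      rwa [div_lt_iff₀ hWmin0] at h8
    have h10 : (R.card : ℝ) * (Wmax * (mos / C)) = ((R.card : ℝ) * Wmax) * mos / C := by
      ring
    rw [h10, div_lt_iff₀ hCpos]
    nlinarith
  simp only [hmo] at hfirst
  linarith

end Crest.Agent.MA
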