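import Mathlib

/-!
# Sorting an active facet of a permutation-symmetric polytope
-/

namespace Crest.Agent.MA

open Finset

variable {d : ℕ}

/-- Effect of a transposition on a linear form. -/
lemma sum_swap_sub (N y : Fin d → ℝ) {i j : Fin d} (hij : i ≠ j) :
    ∑ l, N l * y (Equiv.swap i j l) - ∑ l, N l * y l = (N i - N j) * (y j - y i) := by
  rw [← Finset.sum_sub_distrib]
  rw [Finset.sum_eq_add (a := i) (b := j) hij]
  · simp only [Equiv.swap_apply_left, Equiv.swap_apply_right]
    ring
  · intro l _ hl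
    have h1 : l ≠ i := hl.1
    have h2 : l ≠ j := hl.2
    rw [Equiv.swap_apply_of_ne_of_ne h1 h2]
    ring
  · intro h
    exact absurd (Finset.mem_univ _) h
  · intro h
    exact absurd (Finset.mem_univ _) h

/-- The rearrangement lemma used for active facets. -/
lemma exists_sorted (N y : Fin d → ℝ) (hN : Antitone N)
    (hswap : ∀ σ : Equiv.Perm (Fin d), ∑ i, N i * y (σ i) ≤ ∑ i, N i * y i) :
    ∃ κ : Equiv.Perm (Fin d), Antitone (y ∘ κ) ∧ N ∘ κ = N := by
  -- the swap argument
  have h1 : ∀ i j : Fin d, N j < N i → y j ≤ y i := by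
    intro i j hij
    by_contra hcon
    push Not at hcon
    have hne : i ≠ j := by
      rintro rfl
      exact lt_irrefl _ hij
    have h2 := sum_swap_sub N y hne
    have h3 := hswap (Equiv.swap i j)
    have h4 : 0 < (N i - N j) * (y j - y i) := mul_pos (sub_pos.mpr hij) (sub_pos.mpr hcon)
    linarith
  let f : Fin d → ℝ ×ₗ ℝ := fun i => toLex (- y i, - N i)
  let κ := Tuple.sort f
  have hmono : Monotone (f ∘ κ) := Tuple.monotone_sort f
  have hkey : ∀ a b : Fin d, a ≤ b →
      - y (κ a) < - y (κ b) ∨ (- y (κ a) = - y (κ b) ∧ - N (κ a) ≤ - N (κ b)) := by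
    intro a b hab
    have := hmono hab
    simpa [f, Prod.Lex.toLex_le_toLex] using this
  refine ⟨κ, ?_, ?_⟩
  · intro a b hab
    rcases hkey a b hab with h | ⟨h, _⟩
    · simp only [Function.comp]
      linarith
    · simp only [Function.comp]
      linarith
  · -- `N ∘ κ` is antitone as well
    have hanti : Antitone (N ∘ κ) := by
      intro a b hab
      simp only [Function.comp]
      rcases hkey a b hab with h | ⟨_, h⟩
      · by_contra hcon
        push Not at hcon
        have h2 := h1 (κ b) (κ a) hcon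
        linarith
      · linarith
    have h5 : Monotone ((fun i => - N i) ∘ (κ : Fin d → Fin d)) := by
      intro a b hab
      have := hanti hab
      simp only [Function.comp] at this ⊢
      linarith
    have h6 : Monotone ((fun i => - N i) ∘ ((1 : Equiv.Perm (Fin d)) : Fin d → Fin d)) := by
      intro a b hab
      have := hN hab
      simp only [Function.comp, Equiv.Perm.coe_one, id]
      linarith
    have h7 := Tuple.unique_monotone h5 h6
    funext i
    have h8 := congrFun h7 i
    simp only [Function.comp, Equiv.Perm.coe_one, id] at h8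
    simp only [Function.comp]
    linarith

/-- Sorted form of an active facet in a permutation-symmetric family of constraints. -/
theorem sym_reduce {T : Type} (N : T → Fin d → ℝ) (hN : ∀ c, Antitone (N c)) (B : T → ℝ)
    (x : Fin d → ℝ) (hx : ∀ c (σ : Equiv.Perm (Fin d)), ∑ i, N c i * x (σ i) ≤ B c)
    (c : T) (σ : Equiv.Perm (Fin d)) (hact : ∑ i, N c i * x (σ i) = B c) :
    ∃ κ : Equiv.Perm (Fin d), Antitone (fun i => x (σ (κ i))) ∧
      (∀ c' (σ' : Equiv.Perm (Fin d)), ∑ i, N c' i * x (σ (κ (σ' i))) ≤ B c') ∧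
      ∑ i, N c i * x (σ (κ i)) = B c ∧
      ∀ w : Fin d → ℝ, ∑ i, N c i * w (σ (κ i)) = ∑ i, N c i * w (σ i) := by
  obtain ⟨κ, hκ1, hκ2⟩ := exists_sorted (N c) (fun i => x (σ i)) (hN c) (by
    intro τ
    rw [hact]
    exact hx c (σ * τ))
  have hw : ∀ w : Fin d → ℝ, ∑ i, N c i * w (σ (κ i)) = ∑ i, N c i * w (σ i) := by
    intro w
    have h1 : ∀ i, N c i = N c (κ i) := fun i => (congrFun hκ2 i).symm
    calc ∑ i, N c i * w (σ (κ i)) = ∑ i, N c (κ i) * w (σ (κ i)) :=
          Finset.sum_congr rfl (fun i _ => by rw [← h1 i])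
      _ = ∑ i, N c i * w (σ i) := Equiv.sum_comp κ (fun i => N c i * w (σ i))
  refine ⟨κ, hκ1, ?_, ?_, hw⟩
  · intro c' σ'
    exact hx c' (σ * κ * σ')
  · rw [hw x]
    exact hact

end Crest.Agent.MA
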