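import Crest.Agent.Lib.MAStep
import Crest.Agent.Lib.MASort

/-!
# Levels of the symmetric polytope
-/

namespace Crest.Agent.MA

open Filter Finset Real

variable {d : ℕ}

/-- Extension by zero of a vector to all indices. -/
noncomputable def ext (y : Fin d → ℝ) : ℕ → ℝ := fun i => if h : i < d then y ⟨i, h⟩ else 0

@[simp] lemma ext_coe (y : Fin d → ℝ) (i : Fin d) : ext y i = y i := by
  simp [ext]

lemma ext_of_lt (y : Fin d → ℝ) {i : ℕ} (h : i < d) : ext y i = y ⟨i, h⟩ := by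
  simp [ext, h]

lemma sum_fin_ext (y z : Fin d → ℝ) (f : ℝ → ℝ → ℝ) :
    ∑ i, f (y i) (z i) = ∑ i ∈ range d, f (ext y i) (ext z i) := by
  rw [← Fin.sum_univ_eq_sum_range (fun i => f (ext y i) (ext z i)) d]
  simp

/-- The normal vector of a level. -/
noncomputable def levN (k : ℕ) (ς : ℝ) (ρ : ℕ → ℝ) (i : ℕ) : ℝ :=
  if i < k then 0 else if i = k then ς else ρ (i - k - 1)

lemma levN_lt {k : ℕ} {ς : ℝ} {ρ : ℕ → ℝ} {i : ℕ} (h : i < k) : levN k ς ρ i = 0 := by
  simp [levN, h]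

@[simp] lemma levN_self {k : ℕ} {ς : ℝ} {ρ : ℕ → ℝ} : levN k ς ρ k = ς := by
  simp [levN]

lemma levN_add {k : ℕ} {ς : ℝ} {ρ : ℕ → ℝ} {i : ℕ} : levN k ς ρ (k + 1 + i) = ρ i := by
  have h1 : ¬ (k + 1 + i < k) := by omega
  have h2 : ¬ (k + 1 + i = k) := by omega
  have h3 : k + 1 + i - k - 1 = i := by omega
  simp [levN, h1, h2, h3]

lemma sum_split (f : ℕ → ℝ) {k m d : ℕ} (h : k + 1 + m = d) :
    ∑ i ∈ range d, f i = ∑ i ∈ range k, f i + f k + ∑ i ∈ range m, f (k + 1 + i) := by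
  subst h
  rw [Finset.sum_range_add, Finset.sum_range_succ]

lemma sum_levN {k m d : ℕ} (h : k + 1 + m = d) (ς : ℝ) (ρ y : ℕ → ℝ) :
    ∑ i ∈ range d, levN k ς ρ i * y i = ς * y k + dot m ρ (fun i => y (k + 1 + i)) := by
  rw [sum_split _ h, levN_self]
  have h1 : ∑ i ∈ range k, levN k ς ρ i * y i = 0 := by
    apply Finset.sum_eq_zero
    intro i hi
    rw [levN_lt (Finset.mem_range.mp hi), zero_mul]
  rw [h1, zero_add]
  congr 1
  unfold dot
  apply Finset.sum_congr rfl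
  intro i _
  rw [levN_add]

lemma dot_comm' (m : ℕ) (p x : ℕ → ℝ) : dot m p x = dot m x p := by
  unfold dot
  apply Finset.sum_congr rfl
  intro i _
  ring

/-- consecutive antitonicity implies antitonicity -/
lemma anti_of_step {m : ℕ} {ρ : ℕ → ℝ} (h : ∀ k, k + 1 < m → ρ (k + 1) ≤ ρ k) {a b : ℕ}
    (hab : a ≤ b) (hb : b < m) : ρ b ≤ ρ a := by
  induction b, hab using Nat.le_induction with
  | base => exact le_rfl
  | succ n hn ih =>
    exact (h n hb).trans (ih (by omega))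

/-- One level of the polytope. -/
structure Lvl (U : Set (Fin d → ℝ)) where
  k : ℕ
  m : ℕ
  hkm : k + 1 + m = d
  ς : ℝ
  q : ℝ
  lb : ℝ
  hq : 0 < q
  hς : (ς = 1 ∧ k = 0) ∨ ς = -1
  D : PData (↥U) m (fun w => ς * ext w.1 k) (fun w i => ext w.1 (k + 1 + i)) ς lb

namespace Lvl

variable {U : Set (Fin d → ℝ)} (L : Lvl U)

/-- The normal of a piece (in sorted position). -/
noncomputable def N (c : L.D.ι) (i : Fin d) : ℝ := levN L.k L.ς (L.D.ρ c) i

/-- The budget of a piece. -/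
noncomputable def b (c : L.D.ι) (β : ℝ) : ℝ :=
  L.ς * exp (L.ς * (L.q * β)) + L.D.cost c (L.q * β)

/-- The tail of a vector. -/
noncomputable def tl (y : Fin d → ℝ) : ℕ → ℝ := fun i => ext y (L.k + 1 + i)

lemma sum_N (c : L.D.ι) (y : Fin d → ℝ) :
    ∑ i, L.N c i * y i = L.ς * ext y L.k + dot L.m (L.D.ρ c) (L.tl y) := by
  have h := sum_levN L.hkm L.ς (L.D.ρ c) (ext y)
  rw [← Fin.sum_univ_eq_sum_range (fun i => levN L.k L.ς (L.D.ρ c) i * ext y i) d] at h
  simp only [ext_coe] at h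
  exact h

lemma antitone_N (c : L.D.ι) : Antitone (L.N c) := by
  intro i j hij
  have hij' : i.1 ≤ j.1 := hij
  have hj := j.2
  have hkm := L.hkm
  have hρ : ∀ a, a < L.m → L.D.ρ c a ≤ L.ς := L.D.ρ_le c
  simp only [N]
  -- the three regions
  by_cases h1 : j.1 < L.k
  · rw [levN_lt h1, levN_lt (lt_of_le_of_lt hij' h1)]
  by_cases h2 : j.1 = L.k
  · rw [h2, levN_self]
    by_cases h3 : i.1 < L.k
    · rw [levN_lt h3]
      rcases L.hς with ⟨_, h4⟩ | h4
      · omega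
      · rw [h4]; norm_num
    · have : i.1 = L.k := by omega
      rw [this, levN_self]
  obtain ⟨a, ha⟩ : ∃ a, j.1 = L.k + 1 + a := ⟨j.1 - L.k - 1, by omega⟩
  have hbm : a < L.m := by omega
  rw [ha, levN_add]
  by_cases h3 : i.1 < L.k
  · rw [levN_lt h3]
    rcases L.hς with ⟨_, h4⟩ | h4
    · omega
    · have := hρ a hbm
      linarith
  by_cases h4 : i.1 = L.k
  · rw [h4, levN_self]
    exact hρ a hbm
  obtain ⟨a', ha'⟩ : ∃ a', i.1 = L.k + 1 + a' := ⟨i.1 - L.k - 1, by omega⟩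
  rw [ha', levN_add]
  exact anti_of_step (L.D.ρ_anti c) (by omega) hbm

lemma contDiff_b (c : L.D.ι) : ContDiff ℝ 1 (L.b c) := by
  unfold b
  apply ContDiff.add
  · apply contDiff_const.mul
    exact Real.contDiff_exp.comp (contDiff_const.mul (contDiff_const.mul contDiff_id))
  · exact (L.D.cost_smooth c).comp (contDiff_const.mul contDiff_id)

lemma tendsto_q : Tendsto (fun β : ℝ => L.q * β) atTop atTop :=
  tendsto_id.const_mul_atTop L.hq

/-- Active piece gives maximizer. -/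
lemma isMax_of_active {β : ℝ} {z : Fin d → ℝ} {c : L.D.ι}
    (hz : ∀ c', ∑ i, L.N c' i * z i ≤ L.b c' β) (hact : ∑ i, L.N c i * z i = L.b c β) (c' : L.D.ι) :
    dot L.m (L.D.ρ c') (L.tl z) - L.D.cost c' (L.q * β) ≤
      dot L.m (L.D.ρ c) (L.tl z) - L.D.cost c (L.q * β) := by
  have h1 := hz c'
  rw [sum_N] at h1 hact
  simp only [b] at h1 hact
  linarith

/-- The selection statement at a level, in multiplicative form. -/
lemma select_ev [Finite ↥U] : ∀ᶠ β in atTop, ∀ z : Fin d → ℝ,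
    Dom L.m L.lb (L.ς + L.D.δ) (L.q * β) (L.tl z) → ∀ c,
    (∀ c', dot L.m (L.D.ρ c') (L.tl z) - L.D.cost c' (L.q * β) ≤
      dot L.m (L.D.ρ c) (L.tl z) - L.D.cost c (L.q * β)) →
    ∀ w ∈ U, 0 < ∑ i, L.N c i * w i →
      L.D.η * (L.q * β) ≤ L.ς * (L.q * β) * ext w L.k +
        ∑ i ∈ range L.m, ext w (L.k + 1 + i) * log (L.tl z i) := by
  have h1 := L.tendsto_q.eventually L.D.select
  filter_upwards [h1, eventually_gt_atTop (0 : ℝ)] with β hβ hβ0 z hdom c hmax w hw hpos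
  have hθ : 0 < L.q * β := mul_pos L.hq hβ0
  have h2 : 0 < L.ς * ext w L.k + dot L.m (fun i => ext w (L.k + 1 + i)) (L.D.ρ c) := by
    rw [L.sum_N] at hpos
    rw [dot_comm']
    exact hpos
  have h3 := hβ (L.tl z) hdom c hmax ⟨w, hw⟩ h2
  simp only at h3
  have h4 : dot L.m (fun i => ext w (L.k + 1 + i)) (fun k => log (L.tl z k) / (L.q * β)) * (L.q * β) =
      ∑ i ∈ range L.m, ext w (L.k + 1 + i) * log (L.tl z i) := by
    unfold dot
    rw [Finset.sum_mul]
    apply Finset.sum_congr rfl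
    intro i _
    have hq' := L.hq.ne'
    have hβ' := hβ0.ne'
    field_simp
  calc L.D.η * (L.q * β) ≤ (L.ς * ext w L.k + dot L.m (fun i => ext w (L.k + 1 + i))
        (fun k => log (L.tl z k) / (L.q * β))) * (L.q * β) :=
        mul_le_mul_of_nonneg_right h3 hθ.le
    _ = _ := by rw [add_mul, h4]; ring

/-- The cost of the top piece is negligible compared with the main exponential. -/
lemma cost_top_ev : ∀ᶠ β in atTop, L.D.cost L.D.itop (L.q * β) ≤ exp (L.ς * (L.q * β)) / 2 := by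
  obtain ⟨C, hC⟩ := L.D.cost_top
  have h1 := eventually_mul_exp_le (2 * C) (L.ς - L.D.δ1) L.ς (by linarith [L.D.δ1_pos])
  filter_upwards [L.tendsto_q.eventually hC, L.tendsto_q.eventually h1] with β b1 b2
  have h3 : exp (L.ς * (L.q * β)) = exp (L.q * β * L.ς) := by rw [mul_comm]
  rw [h3]
  have : L.D.cost L.D.itop (L.q * β) * 2 ≤ exp (L.q * β * L.ς) := by
    calc L.D.cost L.D.itop (L.q * β) * 2 ≤ (C * exp (L.q * β * (L.ς - L.D.δ1))) * 2 := by
          linarith
      _ = 2 * C * exp (L.q * β * (L.ς - L.D.δ1)) := by ring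
      _ ≤ _ := b2
  linarith

/-- Log bound from the conclusion of the selection statement. -/
lemma log_bound {z w : Fin d → ℝ} {θ G E η : ℝ} (hE : ∑ i, |w i| ≤ E) (hG : 0 ≤ G)
    (ha : ∀ i, i < L.k → |log (ext z i)| ≤ G) (hb : |log (ext z L.k) - L.ς * θ| ≤ G)
    (hc : η * θ ≤ L.ς * θ * ext w L.k +
      ∑ i ∈ range L.m, ext w (L.k + 1 + i) * log (L.tl z i)) :
    η * θ - E * G ≤ ∑ i, w i * log (z i) := by
  have h1 : ∑ i, w i * log (z i) = ∑ i ∈ range L.k, ext w i * log (ext z i) +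
      ext w L.k * log (ext z L.k) +
      ∑ i ∈ range L.m, ext w (L.k + 1 + i) * log (ext z (L.k + 1 + i)) := by
    rw [← sum_split (fun i => ext w i * log (ext z i)) L.hkm,
      ← Fin.sum_univ_eq_sum_range (fun i => ext w i * log (ext z i)) d]
    simp
  have h2 : ∑ i, |w i| = ∑ i ∈ range L.k, |ext w i| + |ext w L.k| +
      ∑ i ∈ range L.m, |ext w (L.k + 1 + i)| := by
    rw [← sum_split (fun i => |ext w i|) L.hkm,
      ← Fin.sum_univ_eq_sum_range (fun i => |ext w i|) d]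
    simp
  have h3 : 0 ≤ ∑ i ∈ range L.m, |ext w (L.k + 1 + i)| :=
    Finset.sum_nonneg (fun i _ => abs_nonneg _)
  have h4 : - (∑ i ∈ range L.k, |ext w i|) * G ≤ ∑ i ∈ range L.k, ext w i * log (ext z i) := by
    rw [neg_mul, Finset.sum_mul, ← Finset.sum_neg_distrib]
    apply Finset.sum_le_sum
    intro i hi
    have h5 := ha i (Finset.mem_range.mp hi)
    have h6 : |ext w i * log (ext z i)| ≤ |ext w i| * G := by
      rw [abs_mul]
      exact mul_le_mul_of_nonneg_left h5 (abs_nonneg _)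
    exact (abs_le.mp h6).1
  have h7 : - |ext w L.k| * G ≤ ext w L.k * (log (ext z L.k) - L.ς * θ) := by
    have h6 : |ext w L.k * (log (ext z L.k) - L.ς * θ)| ≤ |ext w L.k| * G := by
      rw [abs_mul]
      exact mul_le_mul_of_nonneg_left hb (abs_nonneg _)
    have := (abs_le.mp h6).1
    linarith
  have h8 : (∑ i ∈ range L.k, |ext w i| + |ext w L.k|) * G ≤ E * G := by
    apply mul_le_mul_of_nonneg_right _ hG
    rw [h2] at hE
    linarith
  rw [h1]
  simp only [tl] at hc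
  nlinarith

lemma lt_d {i : ℕ} (h : i < L.m) : L.k + 1 + i < d := by
  have := L.hkm
  omega

lemma k_lt_d : L.k < d := by
  have := L.hkm
  omega

lemma dot_top (y : ℕ → ℝ) :
    dot L.m (L.D.ρ L.D.itop) y = L.ς * ∑ i ∈ range L.m, y i := by
  unfold dot
  rw [Finset.mul_sum]
  apply Finset.sum_congr rfl
  intro i hi
  rw [L.D.ρ_top i (Finset.mem_range.mp hi)]

end Lvl

end Crest.Agent.MA
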