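import Crest.Agent.Lib.MAPData

namespace Crest.Agent.MA

open Filter Finset Real

section Step

variable {m : ℕ}

lemma dot_le_dot_of_le {p q x : ℕ → ℝ} (hx : ∀ k, k < m → 0 ≤ x k) (h : ∀ k, k < m → p k ≤ q k) :
    dot m p x ≤ dot m q x := by
  unfold dot
  apply Finset.sum_le_sum
  intro k hk
  rw [Finset.mem_range] at hk
  exact mul_le_mul_of_nonneg_right (h k hk) (hx k hk)

/-- Comparison with the top piece of the next tag. -/
lemma compare_up {t t' C A E costc costT x0 : ℝ} {ρc ρT x' : ℕ → ℝ}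
    (hpos : ∀ k, k < m → 0 ≤ x' k) (hρc : ∀ k, k < m → ρc k ≤ t) (hρT : ∀ k, k < m → ρT k = t')
    (htt : t < t') (hcostc : 0 ≤ costc) (hcostT : costT ≤ C * E)
    (hmax : t' * x0 + dot m ρT x' - (A + (t' - t) * E + costT) ≤
      t * x0 + dot m ρc x' - (A + costc)) :
    (t' - t) * x0 ≤ (t' - t + C) * E := by
  have h1 : dot m ρc x' ≤ dot m ρT x' :=
    dot_le_dot_of_le hpos (fun k hk => by rw [hρT k hk]; exact (hρc k hk).trans htt.le)
  nlinarith

/-- Comparison with the bottom piece of the previous tag. -/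
lemma compare_down {t t'' B A E costc x0 : ℝ} {ρc ρb x' : ℕ → ℝ}
    (hpos : ∀ k, k < m → 0 ≤ x' k) (hle : ∀ k, k < m → x' k ≤ x0) (hx0 : 0 ≤ x0)
    (hρc : ∀ k, k < m → |ρc k| ≤ B) (hρb : ∀ k, k < m → |ρb k| ≤ B) (hcostc : 0 ≤ costc)
    (hmax : t'' * x0 + dot m ρb x' - (A + 0) ≤
      t * x0 + dot m ρc x' - (A + (t - t'') * E + costc)) :
    (t - t'') * E ≤ (t - t'' + 2 * B * m) * x0 := by
  have h1 : dot m ρc x' - dot m ρb x' ≤ 2 * B * m * x0 := by
    unfold dot
    rw [← Finset.sum_sub_distrib]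
    calc ∑ k ∈ range m, (ρc k * x' k - ρb k * x' k)
        ≤ ∑ _k ∈ range m, (2 * B * x0) := by
          apply Finset.sum_le_sum
          intro k hk
          rw [Finset.mem_range] at hk
          have h2 := abs_le.mp (hρc k hk)
          have h3 := abs_le.mp (hρb k hk)
          have h4 := hpos k hk
          have h5 := hle k hk
          have h6 : ρc k - ρb k ≤ 2 * B := by linarith
          have h7 : 0 ≤ B := le_trans (abs_nonneg _) (hρc k hk)
          calc ρc k * x' k - ρb k * x' k = (ρc k - ρb k) * x' k := by ring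
            _ ≤ 2 * B * x' k := mul_le_mul_of_nonneg_right h6 h4
            _ ≤ 2 * B * x0 := mul_le_mul_of_nonneg_left h5 (by linarith)
      _ = 2 * B * m * x0 := by
          rw [Finset.sum_const, Finset.card_range, nsmul_eq_mul]
          ring
  nlinarith

/-- Antitonicity gives that `x 0` dominates. -/
lemma Dom.le_zero {l τ' β : ℝ} {x : ℕ → ℝ} (h : Dom (m + 1) l τ' β x) :
    ∀ k, k < m → x (k + 1) ≤ x 0 := by
  intro k
  induction k with
  | zero => intro hk; exact h.2 0 (by omega)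
  | succ n ih =>
    intro hk
    exact (h.2 (n + 1) (by omega)).trans (ih (by omega))

lemma Dom.tail {l τ' τ'' β : ℝ} {x : ℕ → ℝ} (h : Dom (m + 1) l τ' β x) (hτ : x 0 ≤ exp (β * τ'')) :
    Dom m l τ'' β (fun k => x (k + 1)) := by
  refine ⟨fun k hk => ⟨(h.1 (k + 1) (by omega)).1, (h.le_zero k hk).trans hτ⟩, ?_⟩
  intro k hk
  exact h.2 (k + 1) (by omega)

lemma Dom.pos {n : ℕ} {l τ' β : ℝ} {x : ℕ → ℝ} (h : Dom n l τ' β x) :
    ∀ k, k < n → 0 < x k := fun k hk => (exp_pos _).trans_le (h.1 k hk).1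

variable {I : Type} [Finite I] {a : I → ℝ} {u : I → ℕ → ℝ} {l : ℝ}

/-- The gauge attached to a family of children. -/
noncomputable def gauge
    (D : ∀ t : ℝ, PData I m (fun i => a i + u i 0 * t) (fun i k => u i (k + 1)) t l)
    (U t : ℝ) : ℝ :=
  min (D t).δ (min (D t).δ1 ((D t).η / (2 * (U + 1))))

section
variable (D : ∀ t : ℝ, PData I m (fun i => a i + u i 0 * t) (fun i k => u i (k + 1)) t l)
  {U : ℝ} (hU : 0 ≤ U)

include hU in
lemma gauge_pos (t : ℝ) : 0 < gauge D U t := by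
  unfold gauge
  have h1 := (D t).δ_pos
  have h2 := (D t).δ1_pos
  have h3 := (D t).η_pos
  positivity

lemma gauge_le_δ (t : ℝ) : gauge D U t ≤ (D t).δ := min_le_left _ _

lemma gauge_le_δ1 (t : ℝ) : gauge D U t ≤ (D t).δ1 :=
  (min_le_right _ _).trans (min_le_left _ _)

include hU in
lemma mul_gauge_le (t : ℝ) : U * gauge D U t ≤ (D t).η / 2 := by
  have h1 : gauge D U t ≤ (D t).η / (2 * (U + 1)) :=
    (min_le_right _ _).trans (min_le_right _ _)
  have h3 := (D t).η_pos
  have h4 : 0 < gauge D U t := gauge_pos D hU t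
  calc U * gauge D U t ≤ (U + 1) * gauge D U t := by nlinarith
    _ ≤ (U + 1) * ((D t).η / (2 * (U + 1))) := mul_le_mul_of_nonneg_left h1 (by linarith)
    _ = (D t).η / 2 := by field_simp

end

/-- Accumulated vertex costs. -/
noncomputable def accCost (t s : ℕ → ℝ) (q : ℕ) (β : ℝ) : ℝ :=
  ∑ e ∈ range q, (t (e + 1) - t e) * exp (β * s (e + 1))

lemma accCost_succ (t s : ℕ → ℝ) (q : ℕ) (β : ℝ) :
    accCost t s (q + 1) β = accCost t s q β + (t (q + 1) - t q) * exp (β * s (q + 1)) := by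
  unfold accCost
  rw [Finset.sum_range_succ]

lemma accCost_zero (t s : ℕ → ℝ) (β : ℝ) : accCost t s 0 β = 0 := by
  simp [accCost]

lemma contDiff_accCost (t s : ℕ → ℝ) (q : ℕ) : ContDiff ℝ 1 (accCost t s q) := by
  unfold accCost
  apply ContDiff.sum
  intro e _
  apply contDiff_const.mul
  exact Real.contDiff_exp.comp (contDiff_id.mul contDiff_const)

/-- Tags are increasing. -/
lemma IsChain.tag_lt {δ : ℝ → ℝ} {r : ℕ} {t s : ℕ → ℝ} (h : IsChain δ l r t s) {q : ℕ}
    (hq : q + 1 < r) : t q < t (q + 1) :=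
  ((h.2.2 q hq).1).trans (h.2.2 q hq).2.1

lemma IsChain.tag_le_last {δ : ℝ → ℝ} {r : ℕ} {t s : ℕ → ℝ} (h : IsChain δ l r t s) {q : ℕ}
    (hq : q < r) : t q ≤ t (r - 1) := by
  have key : ∀ n, q + n < r → t q ≤ t (q + n) := by
    intro n
    induction n with
    | zero => intro _; exact le_rfl
    | succ n ih =>
      intro hn
      exact (ih (by omega)).trans (h.tag_lt (q := q + n) (by omega)).le
  have := key (r - 1 - q) (by omega)
  have e : q + (r - 1 - q) = r - 1 := by omega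
  rwa [e] at this

lemma accCost_nonneg {δ : ℝ → ℝ} {r : ℕ} {t s : ℕ → ℝ} (h : IsChain δ l r t s) {q : ℕ}
    (hq : q < r) (β : ℝ) : 0 ≤ accCost t s q β := by
  unfold accCost
  apply Finset.sum_nonneg
  intro e he
  rw [Finset.mem_range] at he
  exact mul_nonneg (sub_pos.mpr (h.tag_lt (by omega))).le (exp_pos _).le

section Select

variable (D : ∀ t : ℝ, PData I m (fun i => a i + u i 0 * t) (fun i k => u i (k + 1)) t l)

/-- slopes of the pieces of the step -/
noncomputable def stepρ {r : ℕ} (t : ℕ → ℝ) (p : Σ q : Fin r, (D (t q)).ι) : ℕ → ℝ :=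
  scons (t p.1) ((D (t p.1)).ρ p.2)

/-- costs of the pieces of the step -/
noncomputable def stepCost {r : ℕ} (t s : ℕ → ℝ) (p : Σ q : Fin r, (D (t q)).ι) (β : ℝ) : ℝ :=
  accCost t s p.1 β + (D (t p.1)).cost p.2 β

/-- uniform bound of all slopes -/
lemma exists_slope_bound {r : ℕ} (t : ℕ → ℝ) :
    ∃ B : ℝ, 0 ≤ B ∧ ∀ (q : Fin r) (c : (D (t q)).ι) (k : ℕ), k < m → |(D (t q)).ρ c k| ≤ B := by
  haveI : ∀ q : Fin r, Finite (D (t q)).ι := fun q => (D (t q)).fin
  obtain ⟨B, hB0, hB⟩ := exists_bound_of_finite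
    (fun z : (Σ q : Fin r, (D (t q)).ι) × Fin m => (D (t z.1.1)).ρ z.1.2 z.2)
  exact ⟨B, hB0, fun q c k hk => hB (⟨q, c⟩, ⟨k, hk⟩)⟩

variable {U : ℝ} (hU0 : 0 ≤ U)

include hU0 in
/-- The eventual estimates at one vertex of the chain. -/
lemma vertex_events {r : ℕ} {t s : ℕ → ℝ} (hch : IsChain (gauge D U) l r t s) (B : ℝ) (hB : 0 ≤ B)
    {q : ℕ} (hq : q + 1 < r) :
    ∃ C : ℝ, 0 ≤ C ∧ ∀ᶠ β in atTop,
      (∀ x0, (t (q + 1) - t q) * x0 ≤ (t (q + 1) - t q + C) * exp (β * s (q + 1)) →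
        x0 ≤ exp (β * (t q + gauge D U (t q)))) ∧
      ((D (t (q + 1))).cost (D (t (q + 1))).itop β ≤ C * exp (β * s (q + 1))) ∧
      (∀ x0, (t (q + 1) - t q) * exp (β * s (q + 1)) ≤ (t (q + 1) - t q + 2 * B * m) * x0 →
        exp (β * (t (q + 1) - gauge D U (t (q + 1)))) ≤ x0) := by
  obtain ⟨h1, h2, h3, h4⟩ := hch.2.2 q hq
  have hgap : 0 < t (q + 1) - t q := by linarith
  obtain ⟨C, hC⟩ := (D (t (q + 1))).cost_top
  refine ⟨|C|, abs_nonneg _, ?_⟩
  have hC' : 0 ≤ |C| := abs_nonneg _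
  have e1 := eventually_mul_exp_le ((t (q + 1) - t q + |C|) / (t (q + 1) - t q)) (s (q + 1))
    (t q + gauge D U (t q)) h3
  have hκ : 0 < (t (q + 1) - t q) / (t (q + 1) - t q + 2 * B * m) := by positivity
  have e2 := eventually_exp_le_mul ((t (q + 1) - t q) / (t (q + 1) - t q + 2 * B * m))
    (t (q + 1) - gauge D U (t (q + 1))) (s (q + 1)) hκ h4
  filter_upwards [e1, e2, hC, eventually_ge_atTop (0 : ℝ)] with β b1 b2 b3 b4
  refine ⟨?_, ?_, ?_⟩
  · intro x0 hx0
    refine le_trans ?_ b1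
    rw [div_mul_eq_mul_div, le_div_iff₀ hgap]
    linarith
  · refine b3.trans ?_
    have h5 : t (q + 1) - (D (t (q + 1))).δ1 ≤ s (q + 1) := by
      have := gauge_le_δ1 D (U := U) (t (q + 1))
      linarith
    have h6 : exp (β * (t (q + 1) - (D (t (q + 1))).δ1)) ≤ exp (β * s (q + 1)) :=
      exp_le_exp.mpr (mul_le_mul_of_nonneg_left h5 b4)
    calc C * exp (β * (t (q + 1) - (D (t (q + 1))).δ1))
        ≤ |C| * exp (β * (t (q + 1) - (D (t (q + 1))).δ1)) :=
          mul_le_mul_of_nonneg_right (le_abs_self C) (exp_pos _).le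
      _ ≤ |C| * exp (β * s (q + 1)) := mul_le_mul_of_nonneg_left h6 hC'
  · intro x0 hx0
    refine b2.trans ?_
    have hden : 0 < t (q + 1) - t q + 2 * B * m := by positivity
    rw [div_mul_eq_mul_div, div_le_iff₀ hden]
    linarith

include hU0 in
/-- Selection statement for the step. -/
theorem step_select {r : ℕ} {t s : ℕ → ℝ} (hU : ∀ i, |u i 0| ≤ U)
    (hch : IsChain (gauge D U) l r t s) {η : ℝ} (hη : ∀ q : Fin r, η ≤ (D (t q)).η / 2) :
    ∀ᶠ β in atTop, ∀ x, Dom (m + 1) l (t (r - 1) + gauge D U (t (r - 1))) β x →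
      ∀ p : (Σ q : Fin r, (D (t q)).ι),
      (∀ p' : (Σ q : Fin r, (D (t q)).ι), dot (m + 1) (stepρ D t p') x - stepCost D t s p' β ≤
        dot (m + 1) (stepρ D t p) x - stepCost D t s p β) →
      ∀ i, 0 < a i + dot (m + 1) (u i) (stepρ D t p) →
        η ≤ a i + dot (m + 1) (u i) (fun k => log (x k) / β) := by
  obtain ⟨B, hB0, hB⟩ := exists_slope_bound D (r := r) t
  -- all vertices
  have hV : ∀ q : Fin r, ∃ C : ℝ, 0 ≤ C ∧ (q.1 + 1 < r → ∀ᶠ β in atTop,
      (∀ x0, (t (q.1 + 1) - t q.1) * x0 ≤ (t (q.1 + 1) - t q.1 + C) * exp (β * s (q.1 + 1)) →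
        x0 ≤ exp (β * (t q.1 + gauge D U (t q.1)))) ∧
      ((D (t (q.1 + 1))).cost (D (t (q.1 + 1))).itop β ≤ C * exp (β * s (q.1 + 1))) ∧
      (∀ x0, (t (q.1 + 1) - t q.1) * exp (β * s (q.1 + 1)) ≤
          (t (q.1 + 1) - t q.1 + 2 * B * m) * x0 →
        exp (β * (t (q.1 + 1) - gauge D U (t (q.1 + 1)))) ≤ x0)) := by
    intro q
    by_cases hq : q.1 + 1 < r
    · obtain ⟨C, hC0, hC⟩ := vertex_events D hU0 hch B hB0 hq
      exact ⟨C, hC0, fun _ => hC⟩
    · exact ⟨0, le_rfl, fun h => absurd h hq⟩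
  choose C hC0 hC using hV
  have hE1 : ∀ᶠ β in atTop, ∀ q : Fin r, q.1 + 1 < r →
      (∀ x0, (t (q.1 + 1) - t q.1) * x0 ≤ (t (q.1 + 1) - t q.1 + C q) * exp (β * s (q.1 + 1)) →
        x0 ≤ exp (β * (t q.1 + gauge D U (t q.1)))) ∧
      ((D (t (q.1 + 1))).cost (D (t (q.1 + 1))).itop β ≤ C q * exp (β * s (q.1 + 1))) ∧
      (∀ x0, (t (q.1 + 1) - t q.1) * exp (β * s (q.1 + 1)) ≤
          (t (q.1 + 1) - t q.1 + 2 * B * m) * x0 →
        exp (β * (t (q.1 + 1) - gauge D U (t (q.1 + 1)))) ≤ x0) := by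
    rw [Filter.eventually_all]
    intro q
    by_cases hq : q.1 + 1 < r
    · filter_upwards [hC q hq] with β hβ _ using hβ
    · exact Eventually.of_forall fun β h => absurd h hq
  have hE2 : ∀ᶠ β in atTop, ∀ q : Fin r, ∀ x, Dom m l (t q + (D (t q)).δ) β x → ∀ c,
      (∀ c', dot m ((D (t q)).ρ c') x - (D (t q)).cost c' β ≤
        dot m ((D (t q)).ρ c) x - (D (t q)).cost c β) →
      ∀ i, 0 < (a i + u i 0 * t q) + dot m (fun k => u i (k + 1)) ((D (t q)).ρ c) →
        (D (t q)).η ≤ (a i + u i 0 * t q) +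
          dot m (fun k => u i (k + 1)) (fun k => log (x k) / β) := by
    rw [Filter.eventually_all]
    intro q
    exact (D (t q)).select
  filter_upwards [hE1, hE2, eventually_gt_atTop (0 : ℝ)] with β hβ1 hβ2 hβpos x hx p hmax i hi
  obtain ⟨⟨q, hqr⟩, c⟩ := p
  obtain ⟨hr, h0, hstep⟩ := id hch
  have hg : 0 < gauge D U (t q) := gauge_pos D hU0 _
  set x' : ℕ → ℝ := fun k => x (k + 1) with hx'
  have hx0pos : 0 < x 0 := hx.pos 0 (by omega)
  have hx'pos : ∀ k, k < m → 0 ≤ x' k := fun k hk => (hx.pos (k + 1) (by omega)).le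
  have hx'le : ∀ k, k < m → x' k ≤ x 0 := hx.le_zero
  -- upper bound of `x 0`
  have hup : x 0 ≤ exp (β * (t q + gauge D U (t q))) := by
    by_cases hq : q + 1 < r
    · obtain ⟨b1, b2, _⟩ := hβ1 ⟨q, hqr⟩ hq
      apply b1
      have := hmax ⟨⟨q + 1, hq⟩, (D (t (q + 1))).itop⟩
      simp only [stepρ, stepCost, dot_scons, accCost_succ] at this
      exact compare_up hx'pos (fun k hk => (D (t q)).ρ_le c k hk)
        (fun k hk => (D (t (q + 1))).ρ_top k hk) (hch.tag_lt hq)
        ((D (t q)).cost_nonneg c β) b2 this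
    · have e : q = r - 1 := by omega
      rw [e]
      exact (hx.1 0 (by omega)).2
  -- lower bound of `x 0`
  have hdown : exp (β * (t q - gauge D U (t q))) ≤ x 0 := by
    rcases q with _ | q'
    · refine le_trans (exp_le_exp.mpr (mul_le_mul_of_nonneg_left h0 hβpos.le)) ?_
      exact (hx.1 0 (by omega)).1
    · have hq'' : q' < r := by omega
      obtain ⟨_, _, b3⟩ := hβ1 ⟨q', hq''⟩ hqr
      apply b3
      have := hmax ⟨⟨q', hq''⟩, (D (t q')).ibot⟩
      simp only [stepρ, stepCost, dot_scons, accCost_succ, (D (t q')).cost_bot] at this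
      exact compare_down hx'pos hx'le hx0pos.le
        (fun k hk => hB ⟨q' + 1, hqr⟩ c k hk) (fun k hk => hB ⟨q', hq''⟩ _ k hk)
        ((D (t (q' + 1))).cost_nonneg c β) this
  -- the child statement
  have hgδ : t q + gauge D U (t q) ≤ t q + (D (t q)).δ := by
    have := gauge_le_δ D (U := U) (t q)
    linarith
  have hdom : Dom m l (t q + (D (t q)).δ) β x' :=
    hx.tail (hup.trans (exp_le_exp.mpr (mul_le_mul_of_nonneg_left hgδ hβpos.le)))
  have hcmax : ∀ c', dot m ((D (t q)).ρ c') x' - (D (t q)).cost c' β ≤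
      dot m ((D (t q)).ρ c) x' - (D (t q)).cost c β := by
    intro c'
    have := hmax ⟨⟨q, hqr⟩, c'⟩
    simp only [stepρ, stepCost, dot_scons] at this
    linarith
  have hi' : 0 < (a i + u i 0 * t q) + dot m (fun k => u i (k + 1)) ((D (t q)).ρ c) := by
    have : dot (m + 1) (u i) (stepρ D t ⟨⟨q, hqr⟩, c⟩) =
        u i 0 * t q + dot m (fun k => u i (k + 1)) ((D (t q)).ρ c) := by
      rw [dot_succ]
      rfl
    rw [this] at hi
    linarith
  have hchild := hβ2 ⟨q, hqr⟩ x' hdom c hcmax i hi'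
  -- the first coordinate
  have hlog1 : log (x 0) ≤ β * (t q + gauge D U (t q)) := (log_le_iff_le_exp hx0pos).mpr hup
  have hlog2 : β * (t q - gauge D U (t q)) ≤ log (x 0) := (le_log_iff_exp_le hx0pos).mpr hdown
  have hμ1 : log (x 0) / β ≤ t q + gauge D U (t q) := by
    rw [div_le_iff₀ hβpos]
    linarith
  have hμ2 : t q - gauge D U (t q) ≤ log (x 0) / β := by
    rw [le_div_iff₀ hβpos]
    linarith
  have hμ3 : |log (x 0) / β - t q| ≤ gauge D U (t q) := by
    rw [abs_le]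
    constructor <;> linarith
  have hμ4 : |u i 0 * (log (x 0) / β - t q)| ≤ (D (t q)).η / 2 := by
    rw [abs_mul]
    calc |u i 0| * |log (x 0) / β - t q| ≤ U * gauge D U (t q) :=
          mul_le_mul (hU i) hμ3 (abs_nonneg _) hU0
      _ ≤ _ := mul_gauge_le D hU0 (t q)
  have hμ5 := (abs_le.mp hμ4).1
  rw [dot_succ]
  have hη' := hη ⟨q, hqr⟩
  simp only at hη'
  have hexp : u i 0 * (log (x 0) / β - t q) = u i 0 * (log (x 0) / β) - u i 0 * t q := by ring
  rw [hexp] at hμ5
  have hd := (D (t q)).η_pos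
  linarith

end Select

/-- **The step of the recursion.** -/
theorem pdata_step (τ : ℝ)
    (D : ∀ t : ℝ, PData I m (fun i => a i + u i 0 * t) (fun i k => u i (k + 1)) t l) :
    Nonempty (PData I (m + 1) a u τ l) := by
  obtain ⟨U, hU0, hU⟩ := exists_bound_of_finite (fun i => u i 0)
  have hg := gauge_pos D hU0
  obtain ⟨r, t, s, hch, hlast⟩ := exists_chain (gauge D U) hg l τ
  subst hlast
  haveI : ∀ q : Fin r, Finite (D (t q)).ι := fun q => (D (t q)).fin
  obtain ⟨η, hη0, hη⟩ := exists_pos_le_of_finite (fun q : Fin r => (D (t q)).η / 2)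
    (fun q => half_pos (D (t q)).η_pos)
  have hr : 1 ≤ r := hch.1
  -- the vertex gap
  obtain ⟨e, he0, he⟩ := exists_pos_le_of_finite
    (fun q : Fin r => if q.1 + 1 < r then t (r - 1) - s (q.1 + 1) else 1) (fun q => by
      by_cases hq : q.1 + 1 < r
      · simp only [hq, if_true]
        have h1 := (hch.2.2 q.1 hq).2.1
        have h2 := hch.tag_le_last hq
        linarith
      · simp only [hq, if_false]
        exact one_pos)
  have hlast_mem : r - 1 < r := by omega
  refine ⟨{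
    ι := Σ q : Fin r, (D (t q)).ι
    fin := inferInstance
    ρ := stepρ D t
    cost := stepCost D t s
    itop := ⟨⟨r - 1, hlast_mem⟩, (D (t (r - 1))).itop⟩
    ibot := ⟨⟨0, by omega⟩, (D (t 0)).ibot⟩
    δ := gauge D U (t (r - 1))
    δ1 := min e (D (t (r - 1))).δ1
    η := η
    δ_pos := hg _
    δ1_pos := lt_min he0 (D (t (r - 1))).δ1_pos
    η_pos := hη0
    ρ_le := ?_
    ρ_anti := ?_
    ρ_top := ?_
    cost_nonneg := ?_
    cost_bot := ?_
    cost_smooth := ?_
    cost_top := ?_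
    select := step_select D hU0 hU hch hη }⟩
  · rintro ⟨q, c⟩ (_ | k) hk
    · exact hch.tag_le_last q.2
    · exact ((D (t q)).ρ_le c k (by omega)).trans (hch.tag_le_last q.2)
  · rintro ⟨q, c⟩ (_ | k) hk
    · exact (D (t q)).ρ_le c 0 (by omega)
    · exact (D (t q)).ρ_anti c k (by omega)
  · rintro (_ | k) hk
    · rfl
    · exact (D (t (r - 1))).ρ_top k (by omega)
  · rintro ⟨q, c⟩ β
    exact add_nonneg (accCost_nonneg hch q.2 β) ((D (t q)).cost_nonneg c β)
  · intro β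
    simp only [stepCost, accCost_zero, (D (t 0)).cost_bot, add_zero]
  · rintro ⟨q, c⟩
    exact (contDiff_accCost t s q).add ((D (t q)).cost_smooth c)
  · obtain ⟨C, hC⟩ := (D (t (r - 1))).cost_top
    refine ⟨accCost t s (r - 1) 0 + |C|, ?_⟩
    filter_upwards [hC, eventually_ge_atTop (0 : ℝ)] with β h1 h2
    have hm1 : min e (D (t (r - 1))).δ1 ≤ e := min_le_left _ _
    have hm2 : min e (D (t (r - 1))).δ1 ≤ (D (t (r - 1))).δ1 := min_le_right _ _
    have h3 : accCost t s (r - 1) β ≤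
        accCost t s (r - 1) 0 * exp (β * (t (r - 1) - min e (D (t (r - 1))).δ1)) := by
      unfold accCost
      rw [Finset.sum_mul]
      apply Finset.sum_le_sum
      intro q hq
      rw [Finset.mem_range] at hq
      have hq' : q + 1 < r := by omega
      have h4 := he ⟨q, by omega⟩
      simp only [hq', if_true] at h4
      have h5 : s (q + 1) ≤ t (r - 1) - min e (D (t (r - 1))).δ1 := by linarith
      have h6 : 0 ≤ t (q + 1) - t q := (sub_pos.mpr (hch.tag_lt hq')).le
      rw [zero_mul, exp_zero, mul_one]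
      exact mul_le_mul_of_nonneg_left (exp_le_exp.mpr (mul_le_mul_of_nonneg_left h5 h2)) h6
    have h4 : (D (t (r - 1))).cost (D (t (r - 1))).itop β ≤
        |C| * exp (β * (t (r - 1) - min e (D (t (r - 1))).δ1)) := by
      refine h1.trans ?_
      have h5 : t (r - 1) - (D (t (r - 1))).δ1 ≤ t (r - 1) - min e (D (t (r - 1))).δ1 := by linarith
      calc C * exp (β * (t (r - 1) - (D (t (r - 1))).δ1))
          ≤ |C| * exp (β * (t (r - 1) - (D (t (r - 1))).δ1)) :=
            mul_le_mul_of_nonneg_right (le_abs_self C) (exp_pos _).le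
        _ ≤ _ := mul_le_mul_of_nonneg_left
            (exp_le_exp.mpr (mul_le_mul_of_nonneg_left h5 h2)) (abs_nonneg C)
    simp only [stepCost, add_mul]
    exact add_le_add h3 h4

/-- **Existence of the recursive data.** -/
theorem pdata_exists (m : ℕ) : ∀ (a : I → ℝ) (u : I → ℕ → ℝ) (τ l : ℝ),
    Nonempty (PData I m a u τ l) := by
  induction m with
  | zero => exact fun a u τ l => pdata_zero I a u τ l
  | succ m ih =>
    intro a u τ l
    exact pdata_step τ (fun t => Classical.choice (ih _ _ t l))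

end Step

end Crest.Agent.MA
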