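import Mathlib

/-!
Abstract reconstruction of a ring homomorphism from a "logarithmic" map `ω : Kˣ → V`.

`K`, `L` are fields, `F` a subfield of `K` and `V` an `L`-vector space. `ω` is multiplicative-to-additive,
its kernel on units is `F`, and `ω f`, `ω (1 - f)` are always `L`-dependent.  The value `α f` is
defined by the linear relation `(1 - α f) • ω (1 - f) + α f • ω f = 0`.
-/

set_option autoImplicit false

namespace Crest.Agent.Lib.MilnorRigidAlg

variable {K L V : Type*} [Field K] [Field L] [AddCommGroup V] [Module L V]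

theorem ne_zero_of_notMem {F : Subfield K} {x : K} (hx : x ∉ F) : x ≠ 0 := by
  rintro rfl; exact hx F.zero_mem

theorem one_sub_notMem {F : Subfield K} {f : K} (hf : f ∉ F) : 1 - f ∉ F := by
  intro hm
  apply hf
  have := F.sub_mem F.one_mem hm
  simpa using this

theorem ne_one_of_notMem {F : Subfield K} {f : K} (hf : f ∉ F) : f ≠ 1 := by
  rintro rfl; exact hf F.one_mem

/-- `X` and `U` are linearly independent over `L`. -/
def Indep (L : Type*) {V : Type*} [Field L] [AddCommGroup V] [Module L V] (X U : V) : Prop :=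
  ∀ a b : L, a • X + b • U = 0 → a = 0 ∧ b = 0

/-- The abstract data. -/
structure Data (L : Type*) {K V : Type*} [Field K] [Field L] [AddCommGroup V] [Module L V]
    (F : Subfield K) (ω : K → V) : Prop where
  mul : ∀ x y, x ≠ 0 → y ≠ 0 → ω (x * y) = ω x + ω y
  ker : ∀ x, x ≠ 0 → (ω x = 0 ↔ x ∈ F)
  dep : ∀ f, f ≠ 0 → f ≠ 1 → ω f ≠ 0 → ∃ s : L, ω (1 - f) = s • ω f
  indep : ∃ y₁ y₂, y₁ ≠ 0 ∧ y₂ ≠ 0 ∧ Indep L (ω y₁) (ω y₂)

namespace Data

variable {F : Subfield K} {ω : K → V} (h : Data L F ω)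
include h

theorem omega_ne {x : K} (hx : x ∉ F) : ω x ≠ 0 := by
  intro h0
  exact hx ((h.ker x (ne_zero_of_notMem hx)).1 h0)

theorem omega_mem {x : K} (hx : x ∈ F) (hx0 : x ≠ 0) : ω x = 0 := (h.ker x hx0).2 hx

theorem notMem_of_omega_ne {x : K} (hx : x ≠ 0) (h0 : ω x ≠ 0) : x ∉ F := by
  intro hm; exact h0 (h.omega_mem hm hx)

theorem omega_one : ω (1 : K) = 0 := h.omega_mem F.one_mem one_ne_zero

theorem omega_neg_one : ω (-1 : K) = 0 :=
  h.omega_mem (F.neg_mem F.one_mem) (neg_ne_zero.mpr one_ne_zero)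

theorem omega_neg {x : K} (hx : x ≠ 0) : ω (-x) = ω x := by
  have : -x = (-1) * x := by ring
  rw [this, h.mul _ _ (neg_ne_zero.mpr one_ne_zero) hx, h.omega_neg_one, zero_add]

theorem omega_inv {x : K} (hx : x ≠ 0) : ω x⁻¹ = - ω x := by
  have := h.mul x x⁻¹ hx (inv_ne_zero hx)
  rw [mul_inv_cancel₀ hx, h.omega_one] at this
  exact eq_neg_of_add_eq_zero_right this.symm

theorem omega_div {x y : K} (hx : x ≠ 0) (hy : y ≠ 0) : ω (x / y) = ω x - ω y := by
  rw [div_eq_mul_inv, h.mul _ _ hx (inv_ne_zero hy), h.omega_inv hy, sub_eq_add_neg]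

/-- existence of the value -/
theorem exists_value {f : K} (hf : f ∉ F) : ∃ c : L, (1 - c) • ω (1 - f) + c • ω f = 0 := by
  have hf0 := ne_zero_of_notMem hf
  have hf1 := ne_one_of_notMem hf
  obtain ⟨s, hs⟩ := h.dep f hf0 hf1 (h.omega_ne hf)
  have hs1 : s ≠ 1 := by
    rintro rfl
    rw [one_smul] at hs
    have h1f : (1 - f) ≠ 0 := sub_ne_zero.mpr (Ne.symm hf1)
    have hd : ω (f / (1 - f)) = 0 := by
      rw [h.omega_div hf0 h1f, hs, sub_self]
    have hm := (h.ker _ (div_ne_zero hf0 h1f)).1 hd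
    apply hf
    have h2 : (1 + f / (1 - f)) ≠ 0 := by
      have : 1 + f / (1 - f) = 1 / (1 - f) := by field_simp; ring
      rw [this]; exact div_ne_zero one_ne_zero h1f
    have h3 : f = (f / (1 - f)) / (1 + f / (1 - f)) := by field_simp; ring
    rw [h3]
    exact F.div_mem hm (F.add_mem F.one_mem hm)
  refine ⟨s / (s - 1), ?_⟩
  have hs1' : s - 1 ≠ 0 := sub_ne_zero.mpr hs1
  rw [hs, smul_smul, ← add_smul]
  have : (1 - s / (s - 1)) * s + s / (s - 1) = 0 := by field_simp; ring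
  rw [this, zero_smul]

/-- uniqueness of the value -/
theorem value_unique {f : K} (hf : f ∉ F) {c d : L}
    (hc : (1 - c) • ω (1 - f) + c • ω f = 0) (hd : (1 - d) • ω (1 - f) + d • ω f = 0) : c = d := by
  have h1 : (c - d) • (ω f - ω (1 - f)) = 0 := by
    have : (c - d) • (ω f - ω (1 - f)) =
        ((1 - c) • ω (1 - f) + c • ω f) - ((1 - d) • ω (1 - f) + d • ω f) := by
      simp only [sub_smul, smul_sub, one_smul]; abel
    rw [this, hc, hd, sub_zero]
  rcases smul_eq_zero.1 h1 with h2 | h2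
  · exact sub_eq_zero.1 h2
  · exfalso
    have hf0 := ne_zero_of_notMem hf
    have hf1 := ne_one_of_notMem hf
    have h1f : (1 - f) ≠ 0 := sub_ne_zero.mpr (Ne.symm hf1)
    have hd : ω (f / (1 - f)) = 0 := by
      rw [h.omega_div hf0 h1f, h2]
    have hm := (h.ker _ (div_ne_zero hf0 h1f)).1 hd
    apply hf
    have h2 : (1 + f / (1 - f)) ≠ 0 := by
      have : 1 + f / (1 - f) = 1 / (1 - f) := by field_simp; ring
      rw [this]; exact div_ne_zero one_ne_zero h1f
    have h3 : f = (f / (1 - f)) / (1 + f / (1 - f)) := by field_simp; ring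
    rw [h3]
    exact F.div_mem hm (F.add_mem F.one_mem hm)

omit h

/-- the value function -/
noncomputable def a₀ (L : Type*) {K V : Type*} [Field K] [Field L] [AddCommGroup V] [Module L V]
    (F : Subfield K) (ω : K → V) (f : K) : L :=
  by
    classical
    exact if hf : ∃ c : L, f ∉ F ∧ (1 - c) • ω (1 - f) + c • ω f = 0 then hf.choose else 0

include h

theorem a₀_spec {f : K} (hf : f ∉ F) :
    (1 - a₀ L F ω f) • ω (1 - f) + a₀ L F ω f • ω f = 0 := by
  classical
  have hex : ∃ c : L, f ∉ F ∧ (1 - c) • ω (1 - f) + c • ω f = 0 := by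
    obtain ⟨c, hc⟩ := h.exists_value hf
    exact ⟨c, hf, hc⟩
  have : a₀ L F ω f = hex.choose := by
    unfold a₀; simp only [dif_pos hex]
  rw [this]
  exact hex.choose_spec.2

theorem a₀_eq {f : K} (hf : f ∉ F) {c : L} (hc : (1 - c) • ω (1 - f) + c • ω f = 0) :
    a₀ L F ω f = c :=
  h.value_unique hf (h.a₀_spec hf) hc

theorem a₀_ne_zero {f : K} (hf : f ∉ F) : a₀ L F ω f ≠ 0 := by
  intro h0
  have := h.a₀_spec hf
  rw [h0, sub_zero, one_smul, zero_smul, add_zero] at this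
  exact h.omega_ne (one_sub_notMem hf) this

theorem a₀_ne_one {f : K} (hf : f ∉ F) : a₀ L F ω f ≠ 1 := by
  intro h0
  have := h.a₀_spec hf
  rw [h0, sub_self, zero_smul, zero_add, one_smul] at this
  exact h.omega_ne hf this

theorem a₀_one_sub {f : K} (hf : f ∉ F) : a₀ L F ω (1 - f) = 1 - a₀ L F ω f := by
  apply h.a₀_eq (one_sub_notMem hf)
  have := h.a₀_spec hf
  rw [sub_sub_cancel, sub_sub_cancel, add_comm]
  exact this

/-- multiplicativity on independent pairs -/
theorem a₀_mul_of_indep {f g : K} (hf : f ∉ F) (hg : g ∉ F) (hi : Indep L (ω f) (ω g)) :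
    a₀ L F ω (f * g) = a₀ L F ω f * a₀ L F ω g := by
  have hf0 := ne_zero_of_notMem hf
  have hg0 := ne_zero_of_notMem hg
  have hf1 := ne_one_of_notMem hf
  have hg1 := ne_one_of_notMem hg
  set a := a₀ L F ω f with ha
  set b := a₀ L F ω g with hb
  have ha1 : a - 1 ≠ 0 := sub_ne_zero.mpr (h.a₀_ne_one hf)
  have hb1 : b - 1 ≠ 0 := sub_ne_zero.mpr (h.a₀_ne_one hg)
  have ha0 : a ≠ 0 := h.a₀_ne_zero hf
  have hb0 : b ≠ 0 := h.a₀_ne_zero hg
  set X := ω f with hX
  set U := ω g with hU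
  -- the slopes
  have hsX : ω (1 - f) = (a / (a - 1)) • X := by
    have := h.a₀_spec hf
    rw [← ha, ← hX] at this
    have h2 : (1 - a) • ω (1 - f) = (- a) • X := by
      rw [neg_smul]; exact eq_neg_of_add_eq_zero_left this
    have h3 : ω (1 - f) = (1 - a)⁻¹ • ((1 - a) • ω (1 - f)) := by
      rw [smul_smul, inv_mul_cancel₀ (by intro h0; apply ha1; linear_combination -h0), one_smul]
    rw [h3, h2, smul_smul]
    congr 1
    have : 1 - a ≠ 0 := by intro h0; apply ha1; linear_combination -h0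
    field_simp
    ring
  have hrU : ω (1 - g) = (b / (b - 1)) • U := by
    have := h.a₀_spec hg
    rw [← hb, ← hU] at this
    have h2 : (1 - b) • ω (1 - g) = (- b) • U := by
      rw [neg_smul]; exact eq_neg_of_add_eq_zero_left this
    have h3 : ω (1 - g) = (1 - b)⁻¹ • ((1 - b) • ω (1 - g)) := by
      rw [smul_smul, inv_mul_cancel₀ (by intro h0; apply hb1; linear_combination -h0), one_smul]
    rw [h3, h2, smul_smul]
    congr 1
    have : 1 - b ≠ 0 := by intro h0; apply hb1; linear_combination -h0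
    field_simp
    ring
  set s := a / (a - 1) with hs
  set r := b / (b - 1) with hr
  have hr0 : r ≠ 0 := div_ne_zero hb0 hb1
  have hs0 : s ≠ 0 := div_ne_zero ha0 ha1
  have h1f : (1 - f) ≠ 0 := sub_ne_zero.mpr (Ne.symm hf1)
  have h1g : (1 - g) ≠ 0 := sub_ne_zero.mpr (Ne.symm hg1)
  have hXU : X + U ≠ 0 := by
    intro h0
    have := (hi 1 1 (by simpa using h0)).1
    exact one_ne_zero this
  have hfg0 : f * g ≠ 0 := mul_ne_zero hf0 hg0
  have homfg : ω (f * g) = X + U := h.mul f g hf0 hg0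
  have hfg : f * g ∉ F := h.notMem_of_omega_ne hfg0 (by rw [homfg]; exact hXU)
  have hfg1 : f * g ≠ 1 := ne_one_of_notMem hfg
  obtain ⟨t, ht⟩ := h.dep (f * g) hfg0 hfg1 (by rw [homfg]; exact hXU)
  rw [homfg] at ht
  -- the element e
  set e := f * (1 - g) / (1 - f) with he
  have he0 : e ≠ 0 := div_ne_zero (mul_ne_zero hf0 h1g) h1f
  have h1e : 1 + e = (1 - f * g) / (1 - f) := by
    rw [he]; field_simp; ring
  have h1fg : 1 - f * g ≠ 0 := sub_ne_zero.mpr (Ne.symm hfg1)
  have h1e0 : 1 + e ≠ 0 := by rw [h1e]; exact div_ne_zero h1fg h1f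
  have home : ω e = (1 - s) • X + r • U := by
    rw [he, h.omega_div (mul_ne_zero hf0 h1g) h1f, h.mul f _ hf0 h1g, hsX, hrU, sub_smul, one_smul]
    abel
  have home' : ω (-e) = (1 - s) • X + r • U := by rw [h.omega_neg he0, home]
  have home1 : ω (1 + e) = (t - s) • X + t • U := by
    rw [h1e, h.omega_div h1fg h1f, ht, hsX, smul_add, sub_smul]
    abel
  have hene : ω (-e) ≠ 0 := by
    rw [home']
    intro h0
    exact hr0 (hi _ _ h0).2
  have hne1 : -e ≠ 1 := by
    intro h0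
    apply h1e0
    linear_combination -h0
  obtain ⟨lam, hlam⟩ := h.dep (-e) (neg_ne_zero.mpr he0) hne1 hene
  rw [sub_neg_eq_add, home1, home', smul_add, smul_smul, smul_smul] at hlam
  have hfin : (t - s - lam * (1 - s)) • X + (t - lam * r) • U = 0 := by
    simp only [sub_smul, mul_smul] at hlam ⊢
    simp only [smul_sub] at hlam ⊢
    have : ∀ (A B C D E G : V), A - B + C = D - E + G → A - B - (D - E) + (C - G) = 0 := by
      intro A B C D E G hh
      have : A - B - (D - E) + (C - G) = (A - B + C) - (D - E + G) := by abel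
      rw [this, hh, sub_self]
    exact this _ _ _ _ _ _ hlam
  obtain ⟨h1, h2⟩ := hi _ _ hfin
  -- arithmetic
  have hfinal : (1 - a * b) * t + a * b = 0 := by
    have e1 : s * (a - 1) = a := by rw [hs]; field_simp
    have e2 : r * (b - 1) = b := by rw [hr]; field_simp
    -- lam * (a*b - 1) = a * (b - 1)
    have e3 : lam * (a * b - 1) = a * (b - 1) := by
      have h3 : lam * (r + s - 1) = s := by linear_combination h1 - h2
      have h4 : lam * ((r * (b - 1)) * (a - 1) + (s * (a - 1)) * (b - 1) - (a - 1) * (b - 1)) =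
          (s * (a - 1)) * (b - 1) := by
        linear_combination (a - 1) * (b - 1) * h3
      rw [e1, e2] at h4
      linear_combination h4
    have e4 : t * (b - 1) = lam * b := by
      have : t = lam * r := by linear_combination h2
      rw [this, mul_assoc, e2]
    have : ((1 - a * b) * t + a * b) * (b - 1) = 0 := by
      linear_combination (1 - a * b) * e4 - b * e3
    rcases mul_eq_zero.1 this with h5 | h5
    · exact h5
    · exact absurd h5 hb1
  apply h.a₀_eq hfg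
  rw [ht, homfg, smul_smul, ← add_smul, hfinal, zero_smul]

theorem exists_off_line (X : V) :
    ∃ y, y ≠ 0 ∧ ω y ≠ 0 ∧ ∀ c : L, ω y ≠ c • X := by
  obtain ⟨y₁, y₂, h1, h2, hi⟩ := h.indep
  by_cases hy1 : ∃ c : L, ω y₁ = c • X
  · by_cases hy2 : ∃ c : L, ω y₂ = c • X
    · exfalso
      obtain ⟨c₁, hc₁⟩ := hy1
      obtain ⟨c₂, hc₂⟩ := hy2
      have hh := hi c₂ (-c₁) (by rw [hc₁, hc₂, smul_smul, smul_smul, neg_mul, mul_comm, neg_smul]; simp)
      by_cases hc0 : c₁ = 0
      · -- then ω y₁ = 0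
        have : ω y₁ = 0 := by rw [hc₁, hc0, zero_smul]
        have := (hi 1 0 (by rw [this]; simp)).1
        exact one_ne_zero this
      · exact hc0 (neg_eq_zero.mp hh.2)
    · push Not at hy2
      refine ⟨y₂, h2, ?_, hy2⟩
      intro h0
      have := (hi 0 1 (by rw [h0]; simp)).2
      exact one_ne_zero this
  · push Not at hy1
    refine ⟨y₁, h1, ?_, hy1⟩
    intro h0
    have := (hi 1 0 (by rw [h0]; simp)).1
    exact one_ne_zero this

omit h in
theorem indep_of_off_line {X U : V} (hX : X ≠ 0) (hU : ∀ c : L, U ≠ c • X) : Indep L X U := by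
  intro a b hab
  have hb : b = 0 := by
    by_contra hb
    apply hU (-a / b)
    have : b • U = (-a) • X := by
      rw [neg_smul]; exact eq_neg_of_add_eq_zero_right hab
    rw [div_eq_inv_mul, mul_smul, ← this, smul_smul, inv_mul_cancel₀ hb, one_smul]
  subst hb
  rw [zero_smul, add_zero] at hab
  exact ⟨(smul_eq_zero.1 hab).resolve_right hX, rfl⟩

/-- multiplicativity in general, away from `F` -/
theorem a₀_mul {f g : K} (hf : f ∉ F) (hg : g ∉ F) (hfg : f * g ∉ F) :
    a₀ L F ω (f * g) = a₀ L F ω f * a₀ L F ω g := by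
  have hf0 := ne_zero_of_notMem hf
  have hg0 := ne_zero_of_notMem hg
  by_cases hline : ∃ c : L, ω g = c • ω f
  · obtain ⟨c, hc⟩ := hline
    obtain ⟨y, hy0, hyω, hy⟩ := h.exists_off_line (L := L) (ω f)
    have hyF : y ∉ F := h.notMem_of_omega_ne hy0 hyω
    have hc0 : c ≠ 0 := by
      rintro rfl
      rw [zero_smul] at hc
      exact h.omega_ne hg hc
    -- pairs
    have hi1 : Indep L (ω g) (ω y) := by
      apply indep_of_off_line (h.omega_ne hg)
      intro d hd
      apply hy (d * c)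
      rw [hd, hc, smul_smul]
    have hgy0 : g * y ≠ 0 := mul_ne_zero hg0 hy0
    have hgyom : ω (g * y) = ω g + ω y := h.mul g y hg0 hy0
    have hgyne : ω (g * y) ≠ 0 := by
      rw [hgyom]
      intro h0
      exact one_ne_zero (hi1 1 1 (by simpa using h0)).1
    have hgy : g * y ∉ F := h.notMem_of_omega_ne hgy0 hgyne
    have hi2 : Indep L (ω f) (ω (g * y)) := by
      apply indep_of_off_line (h.omega_ne hf)
      intro d hd
      apply hy (d - c)
      rw [hgyom, hc] at hd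
      rw [sub_smul, ← hd]
      abel
    have hfg0 : f * g ≠ 0 := mul_ne_zero hf0 hg0
    have hi3 : Indep L (ω (f * g)) (ω y) := by
      apply indep_of_off_line (h.omega_ne hfg)
      intro d hd
      apply hy (d * (1 + c))
      rw [hd, h.mul f g hf0 hg0, hc, mul_smul, add_smul, one_smul]
    have e1 := h.a₀_mul_of_indep hf hgy hi2
    have e2 := h.a₀_mul_of_indep hg hyF hi1
    have e3 := h.a₀_mul_of_indep hfg hyF hi3
    rw [e2] at e1
    have e4 : f * (g * y) = f * g * y := by ring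
    rw [e4, e3] at e1
    have hay := h.a₀_ne_zero hyF
    apply mul_right_cancel₀ hay
    rw [e1]; ring
  · push Not at hline
    exact h.a₀_mul_of_indep hf hg (indep_of_off_line (h.omega_ne hf) hline)


theorem exists_y₀ : ∃ y₀, y₀ ∉ F := by
  obtain ⟨y₁, y₂, h1, h2, hi⟩ := h.indep
  refine ⟨y₁, h.notMem_of_omega_ne h1 ?_⟩
  intro h0
  exact one_ne_zero (hi 1 0 (by rw [h0]; simp)).1

theorem mul_notMem {x y : K} (hx : x ∈ F) (hx0 : x ≠ 0) (hy : y ∉ F) : x * y ∉ F := by
  apply h.notMem_of_omega_ne (mul_ne_zero hx0 (ne_zero_of_notMem hy))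
  rw [h.mul _ _ hx0 (ne_zero_of_notMem hy), h.omega_mem hx hx0, zero_add]
  exact h.omega_ne hy

omit h

/-- The extension of the value function to all of `K`. -/
noncomputable def aa (L : Type*) {K V : Type*} [Field K] [Field L] [AddCommGroup V] [Module L V]
    (F : Subfield K) (ω : K → V) (y₀ : K) (x : K) : L :=
  by
    classical
    exact if x = 0 then 0 else if x ∈ F then a₀ L F ω (x * y₀) / a₀ L F ω y₀ else a₀ L F ω x

theorem aa_zero (y₀ : K) : aa L F ω y₀ 0 = 0 := by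
  classical
  simp [aa]

theorem aa_notMem (y₀ : K) {x : K} (hx : x ∉ F) : aa L F ω y₀ x = a₀ L F ω x := by
  classical
  simp [aa, ne_zero_of_notMem hx, hx]

theorem aa_mem (y₀ : K) {x : K} (hx : x ∈ F) (hx0 : x ≠ 0) :
    aa L F ω y₀ x = a₀ L F ω (x * y₀) / a₀ L F ω y₀ := by
  classical
  simp [aa, hx, hx0]

include h

theorem c0 {x y y' : K} (hx : x ∈ F) (hx0 : x ≠ 0) (hy : y ∉ F) (hy' : y' ∉ F)
    (hyy' : y * y' ∉ F) :
    a₀ L F ω (x * y) * a₀ L F ω y' = a₀ L F ω (x * y') * a₀ L F ω y := by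
  have h1 : x * y ∉ F := h.mul_notMem hx hx0 hy
  have h2 : x * y' ∉ F := h.mul_notMem hx hx0 hy'
  have h3 : x * (y * y') ∉ F := h.mul_notMem hx hx0 hyy'
  have e1 : x * y * y' = x * (y * y') := by ring
  have e2 : x * y' * y = x * (y * y') := by ring
  rw [← h.a₀_mul h1 hy' (by rwa [e1]), ← h.a₀_mul h2 hy (by rwa [e2]), e1, e2]

theorem c1 {y₀ x y : K} (hy₀ : y₀ ∉ F) (hx : x ∈ F) (hx0 : x ≠ 0) (hy : y ∉ F) :
    a₀ L F ω (x * y) = aa L F ω y₀ x * a₀ L F ω y := by
  have hay₀ := h.a₀_ne_zero hy₀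
  rw [aa_mem y₀ hx hx0, div_mul_eq_mul_div, eq_div_iff hay₀]
  by_cases hyy₀ : y * y₀ ∈ F
  · -- use an auxiliary element
    obtain ⟨z, hz0, hzω, hz⟩ := h.exists_off_line (L := L) (ω y₀)
    have hzF : z ∉ F := h.notMem_of_omega_ne hz0 hzω
    have hy0 := ne_zero_of_notMem hy
    have hy₀0 := ne_zero_of_notMem hy₀
    have hωy : ω y = - ω y₀ := by
      have := h.omega_mem hyy₀ (mul_ne_zero hy0 hy₀0)
      rw [h.mul _ _ hy0 hy₀0] at this
      exact eq_neg_of_add_eq_zero_left this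
    have hyz : y * z ∉ F := by
      apply h.notMem_of_omega_ne (mul_ne_zero hy0 hz0)
      rw [h.mul _ _ hy0 hz0, hωy]
      intro h0
      apply hz 1
      rw [one_smul]
      exact (neg_add_eq_zero.mp h0).symm
    have hy₀z : y₀ * z ∉ F := by
      apply h.notMem_of_omega_ne (mul_ne_zero hy₀0 hz0)
      rw [h.mul _ _ hy₀0 hz0]
      intro h0
      apply hz (-1)
      rw [neg_smul, one_smul]
      exact eq_neg_of_add_eq_zero_right h0
    have e1 := h.c0 hx hx0 hy hzF hyz
    have e2 := h.c0 hx hx0 hy₀ hzF hy₀z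
    have haz := h.a₀_ne_zero hzF
    apply mul_right_cancel₀ haz
    calc a₀ L F ω (x * y) * a₀ L F ω y₀ * a₀ L F ω z
        = (a₀ L F ω (x * y) * a₀ L F ω z) * a₀ L F ω y₀ := by ring
      _ = (a₀ L F ω (x * z) * a₀ L F ω y) * a₀ L F ω y₀ := by rw [e1]
      _ = (a₀ L F ω (x * z) * a₀ L F ω y₀) * a₀ L F ω y := by ring
      _ = (a₀ L F ω (x * y₀) * a₀ L F ω z) * a₀ L F ω y := by rw [e2]
      _ = a₀ L F ω (x * y₀) * a₀ L F ω y * a₀ L F ω z := by ring
  · exact h.c0 hx hx0 hy hy₀ hyy₀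

theorem aa_ne_zero {y₀ : K} (hy₀ : y₀ ∉ F) {x : K} (hx0 : x ≠ 0) : aa L F ω y₀ x ≠ 0 := by
  by_cases hx : x ∈ F
  · rw [aa_mem y₀ hx hx0]
    exact div_ne_zero (h.a₀_ne_zero (h.mul_notMem hx hx0 hy₀)) (h.a₀_ne_zero hy₀)
  · rw [aa_notMem y₀ hx]
    exact h.a₀_ne_zero hx

theorem aa_mul {y₀ : K} (hy₀ : y₀ ∉ F) (x y : K) :
    aa L F ω y₀ (x * y) = aa L F ω y₀ x * aa L F ω y₀ y := by
  by_cases hx0 : x = 0
  · subst hx0; simp [aa_zero]
  by_cases hy0 : y = 0
  · subst hy0; simp [aa_zero]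
  have hxy0 := mul_ne_zero hx0 hy0
  have hay₀ := h.a₀_ne_zero hy₀
  by_cases hx : x ∈ F
  · by_cases hy : y ∈ F
    · have hxy : x * y ∈ F := F.mul_mem hx hy
      rw [aa_mem y₀ hxy hxy0]
      have e1 := h.c1 hy₀ hx hx0 (h.mul_notMem hy hy0 hy₀)
      rw [aa_mem y₀ hy hy0]
      rw [mul_assoc, e1]
      field_simp
    · rw [aa_notMem y₀ hy, aa_notMem y₀ (h.mul_notMem hx hx0 hy)]
      exact h.c1 hy₀ hx hx0 hy
  · by_cases hy : y ∈ F
    · rw [aa_notMem y₀ hx, mul_comm x y, aa_notMem y₀ (h.mul_notMem hy hy0 hx),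
        mul_comm (a₀ L F ω x)]
      exact h.c1 hy₀ hy hy0 hx
    · rw [aa_notMem y₀ hx, aa_notMem y₀ hy]
      by_cases hxy : x * y ∈ F
      · obtain ⟨z, hz0, hzω, hz⟩ := h.exists_off_line (L := L) (ω y)
        have hzF : z ∉ F := h.notMem_of_omega_ne hz0 hzω
        have hyz : y * z ∉ F := by
          apply h.notMem_of_omega_ne (mul_ne_zero hy0 hz0)
          rw [h.mul _ _ hy0 hz0]
          intro h0
          apply hz (-1)
          rw [neg_smul, one_smul]
          exact eq_neg_of_add_eq_zero_right h0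
        have e0 : x * y * z = x * (y * z) := by ring
        have hxyz : x * (y * z) ∉ F := by
          rw [← e0]; exact h.mul_notMem hxy hxy0 hzF
        have e1 := h.c1 hy₀ hxy hxy0 hzF
        rw [e0, h.a₀_mul hx hyz hxyz, h.a₀_mul hy hzF hyz] at e1
        have haz := h.a₀_ne_zero hzF
        apply mul_right_cancel₀ haz
        rw [← e1]; ring
      · rw [aa_notMem y₀ hxy]
        exact h.a₀_mul hx hy hxy

theorem aa_one {y₀ : K} (hy₀ : y₀ ∉ F) : aa L F ω y₀ 1 = 1 := by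
  rw [aa_mem y₀ F.one_mem one_ne_zero, one_mul, div_self (h.a₀_ne_zero hy₀)]

theorem aa_one_sub {y₀ f : K} (hf : f ∉ F) :
    aa L F ω y₀ (1 - f) = 1 - aa L F ω y₀ f := by
  rw [aa_notMem y₀ hf, aa_notMem y₀ (one_sub_notMem hf), h.a₀_one_sub hf]

/-- first additivity step -/
theorem aa_add_aux {y₀ : K} (hy₀ : y₀ ∉ F) {x y : K} (hx0 : x ≠ 0) (hy0 : y ≠ 0)
    (hyx : y / x ∉ F) :
    aa L F ω y₀ (x + y) = aa L F ω y₀ x - aa L F ω y₀ (-1) * aa L F ω y₀ y := by
  have hf : -1 * (y / x) ∉ F := h.mul_notMem (F.neg_mem F.one_mem) (neg_ne_zero.mpr one_ne_zero) hyx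
  have e : x + y = x * (1 - (-1 * (y / x))) := by field_simp; ring
  have hax := h.aa_ne_zero hy₀ hx0
  have e2 : aa L F ω y₀ (y / x) * aa L F ω y₀ x = aa L F ω y₀ y := by
    rw [← h.aa_mul hy₀, div_mul_cancel₀ _ hx0]
  rw [e, h.aa_mul hy₀, h.aa_one_sub hf, h.aa_mul hy₀, ← e2]
  ring

theorem aa_neg_one {y₀ : K} (hy₀ : y₀ ∉ F) : aa L F ω y₀ (-1) = -1 := by
  have hy₀0 := ne_zero_of_notMem hy₀
  have e1 := h.aa_add_aux hy₀ (x := 1) (y := y₀) one_ne_zero hy₀0 (by simpa using hy₀)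
  have e2 := h.aa_add_aux hy₀ (x := y₀) (y := 1) hy₀0 one_ne_zero (by
    intro hm
    apply hy₀
    have := F.inv_mem hm
    simpa using this)
  rw [add_comm 1 y₀, e2, h.aa_one hy₀] at e1
  have hne : 1 - aa L F ω y₀ y₀ ≠ 0 := by
    rw [aa_notMem y₀ hy₀]
    exact sub_ne_zero.mpr (Ne.symm (h.a₀_ne_one hy₀))
  have : (1 + aa L F ω y₀ (-1)) * (1 - aa L F ω y₀ y₀) = 0 := by
    linear_combination -e1
  rcases mul_eq_zero.1 this with h1 | h1
  · linear_combination h1
  · exact absurd h1 hne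

theorem aa_add_generic {y₀ : K} (hy₀ : y₀ ∉ F) {x y : K} (hx0 : x ≠ 0) (hy0 : y ≠ 0)
    (hyx : y / x ∉ F) :
    aa L F ω y₀ (x + y) = aa L F ω y₀ x + aa L F ω y₀ y := by
  rw [h.aa_add_aux hy₀ hx0 hy0 hyx, h.aa_neg_one hy₀]
  ring

theorem aa_one_add {y₀ e : K} (hy₀ : y₀ ∉ F) (he : e ∈ F) (he0 : e ≠ 0) (he1 : 1 + e ≠ 0) :
    aa L F ω y₀ (1 + e) = 1 + aa L F ω y₀ e := by
  have hy₀0 := ne_zero_of_notMem hy₀
  have hm : 1 + e ∈ F := F.add_mem F.one_mem he
  have hd : ∀ u : K, u ∈ F → u ≠ 0 → y₀ / u ∉ F := by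
    intro u hu hu0 hh
    apply hy₀
    have := F.mul_mem hh hu
    rwa [div_mul_cancel₀ _ hu0] at this
  have e1 := h.aa_add_generic hy₀ he1 hy₀0 (hd _ hm he1)
  have hey : e + y₀ ∉ F := by
    intro hh
    apply hy₀
    have := F.sub_mem hh he
    simpa using this
  have hey0 : e + y₀ ≠ 0 := ne_zero_of_notMem hey
  have e2 := h.aa_add_generic hy₀ (x := 1) (y := e + y₀) one_ne_zero hey0 (by simpa using hey)
  have e3 := h.aa_add_generic hy₀ he0 hy₀0 (hd _ he he0)
  have e4 : 1 + e + y₀ = 1 + (e + y₀) := by ring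
  rw [e4, e2, e3, h.aa_one hy₀] at e1
  linear_combination -e1

theorem aa_add {y₀ : K} (hy₀ : y₀ ∉ F) (x y : K) :
    aa L F ω y₀ (x + y) = aa L F ω y₀ x + aa L F ω y₀ y := by
  by_cases hx0 : x = 0
  · subst hx0; simp [aa_zero]
  by_cases hy0 : y = 0
  · subst hy0; simp [aa_zero]
  by_cases hyx : y / x ∈ F
  · have he0 : y / x ≠ 0 := div_ne_zero hy0 hx0
    by_cases he1 : 1 + y / x = 0
    · have hy : y = -1 * x := by
        field_simp at he1
        linear_combination he1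
      rw [hy, h.aa_mul hy₀, h.aa_neg_one hy₀]
      have : x + -1 * x = 0 := by ring
      rw [this, aa_zero]
      ring
    · have e1 : x + y = x * (1 + y / x) := by field_simp
      have e2 : aa L F ω y₀ (y / x) * aa L F ω y₀ x = aa L F ω y₀ y := by
        rw [← h.aa_mul hy₀, div_mul_cancel₀ _ hx0]
      rw [e1, h.aa_mul hy₀, h.aa_one_add hy₀ hyx he0 he1, ← e2]
      ring
  · exact h.aa_add_generic hy₀ hx0 hy0 hyx

/-- The weight function. -/
theorem W_one_sub {y₀ : K} (hy₀ : y₀ ∉ F) (f : K) :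
    aa L F ω y₀ (1 - f) • ω (1 - f) = - (aa L F ω y₀ f • ω f) := by
  by_cases hf : f ∈ F
  · have h1 : aa L F ω y₀ f • ω f = 0 := by
      by_cases hf0 : f = 0
      · subst hf0; rw [aa_zero, zero_smul]
      · rw [h.omega_mem hf hf0, smul_zero]
    have h2 : aa L F ω y₀ (1 - f) • ω (1 - f) = 0 := by
      have hm : 1 - f ∈ F := F.sub_mem F.one_mem hf
      by_cases hf0 : 1 - f = 0
      · rw [hf0, aa_zero, zero_smul]
      · rw [h.omega_mem hm hf0, smul_zero]
    rw [h1, h2, neg_zero]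
  · have := h.a₀_spec hf
    rw [h.aa_one_sub hf, aa_notMem y₀ hf]
    exact eq_neg_of_add_eq_zero_left this

theorem W_add {y₀ : K} (hy₀ : y₀ ∉ F) (x y : K) :
    aa L F ω y₀ (x + y) • ω (x + y) = aa L F ω y₀ x • ω x + aa L F ω y₀ y • ω y := by
  by_cases hx0 : x = 0
  · subst hx0; simp [aa_zero]
  by_cases hy0 : y = 0
  · subst hy0; simp [aa_zero]
  have hneg : aa L F ω y₀ (-1) = -1 := h.aa_neg_one hy₀
  by_cases he1 : x + y = 0
  · have hy : y = -x := eq_neg_of_add_eq_zero_right he1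
    rw [he1, aa_zero, zero_smul, hy, h.omega_neg hx0]
    have : -x = -1 * x := by ring
    rw [this, h.aa_mul hy₀, hneg]
    simp
  · set g := y / x with hg
    have hg0 : g ≠ 0 := div_ne_zero hy0 hx0
    have h1g : 1 + g ≠ 0 := by
      intro h0
      apply he1
      have : x + y = x * (1 + g) := by rw [hg]; field_simp
      rw [this, h0, mul_zero]
    have e1 : x + y = x * (1 + g) := by rw [hg]; field_simp
    have e2 : aa L F ω y₀ g * aa L F ω y₀ x = aa L F ω y₀ y := by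
      rw [← h.aa_mul hy₀, hg, div_mul_cancel₀ _ hx0]
    have homg : ω g = ω y - ω x := h.omega_div hy0 hx0
    have hW1 : aa L F ω y₀ (1 + g) • ω (1 + g) = aa L F ω y₀ g • ω g := by
      have := h.W_one_sub hy₀ (-g)
      rw [sub_neg_eq_add, h.omega_neg hg0] at this
      rw [this]
      have e3 : -g = -1 * g := by ring
      rw [e3, h.aa_mul hy₀, hneg]
      simp
    -- the value of `1 + g`
    have hag : aa L F ω y₀ (1 + g) = 1 + aa L F ω y₀ g := by
      rw [h.aa_add hy₀, h.aa_one hy₀]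
    have e2' : aa L F ω y₀ x * aa L F ω y₀ g = aa L F ω y₀ y := by rw [mul_comm]; exact e2
    rw [e1, h.aa_mul hy₀, h.mul _ _ hx0 h1g, smul_add, mul_smul (aa L F ω y₀ x) _ (ω (1 + g)), hW1,
      hag, smul_smul, mul_add, mul_one, e2', add_smul, homg, smul_sub]
    abel

/-- **Main abstract theorem.** -/
theorem exists_ringHom :
    ∃ α : K →+* L, (∀ x y, α (x + y) • ω (x + y) = α x • ω x + α y • ω y) ∧
      (∀ f, f ∉ F → (1 - α f) • ω (1 - f) + α f • ω f = 0) := by
  obtain ⟨y₀, hy₀⟩ := h.exists_y₀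
  refine ⟨{ toFun := aa L F ω y₀
            map_one' := h.aa_one hy₀
            map_mul' := h.aa_mul hy₀
            map_zero' := aa_zero y₀
            map_add' := h.aa_add hy₀ }, h.W_add hy₀, ?_⟩
  intro f hf
  change (1 - aa L F ω y₀ f) • ω (1 - f) + aa L F ω y₀ f • ω f = 0
  rw [aa_notMem y₀ hf]
  exact h.a₀_spec hf

end Data

end Crest.Agent.Lib.MilnorRigidAlg
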