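import Mathlib

/-!
Derivations of a field of characteristic `p`: they detect `p`-th powers, and the eigenvalue lemma.
-/

set_option autoImplicit false

open Polynomial

namespace Crest.Agent.Lib.MilnorRigidDer

variable {L : Type*} [Field L] {p : ℕ} [hp : Fact p.Prime] [CharP L p]

variable (L p) in
/-- The subfield of `p`-th powers. -/
noncomputable def pth : Subfield L := (frobenius L p).fieldRange

theorem mem_pth {x : L} : x ∈ pth L p ↔ ∃ y : L, y ^ p = x := by
  simp [pth, RingHom.mem_fieldRange, frobenius_def]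

theorem pow_mem_pth (y : L) : y ^ p ∈ pth L p := mem_pth.2 ⟨y, rfl⟩

variable (L) in
/-- derivations of `L` -/
abbrev Der := Derivation ℤ L L

theorem der_pow_p (δ : Der L) (y : L) : δ (y ^ p) = 0 := by
  rw [Derivation.leibniz_pow]
  simp [nsmul_eq_mul]

theorem der_pth (δ : Der L) {x : L} (hx : x ∈ pth L p) : δ x = 0 := by
  obtain ⟨y, rfl⟩ := mem_pth.1 hx
  exact der_pow_p δ y

/-- An element outside of a subfield containing all `p`-th powers has minimal polynomial of
degree `p`. -/
theorem minpoly_eq (M : Subfield L) (hM : ∀ y : L, y ^ p ∈ M) {b : L} (hb : b ∉ M) :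
    minpoly M b = X ^ p - C (⟨b ^ p, hM b⟩ : M) := by
  have hirr : Irreducible (X ^ p - C (⟨b ^ p, hM b⟩ : M)) := by
    apply X_pow_sub_C_irreducible_of_prime hp.out
    intro c hc
    apply hb
    have h1 : (c : L) ^ p = b ^ p := by
      have := congrArg (Subtype.val) hc
      simpa using this
    have h2 : (c : L) = b := frobenius_inj L p (by simpa [frobenius_def] using h1)
    rw [← h2]; exact c.2
  have hmonic : (X ^ p - C (⟨b ^ p, hM b⟩ : M)).Monic := monic_X_pow_sub_C _ hp.out.ne_zero
  have hroot : aeval b (X ^ p - C (⟨b ^ p, hM b⟩ : M)) = 0 := by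
    have h3 : algebraMap M L (⟨b ^ p, hM b⟩ : M) = b ^ p := rfl
    simp [h3]
  exact (minpoly.eq_of_irreducible_of_monic hirr hroot hmonic).symm

theorem isIntegral_of (M : Subfield L) (hM : ∀ y : L, y ^ p ∈ M) (b : L) : IsIntegral M b := by
  refine ⟨X ^ p - C (⟨b ^ p, hM b⟩ : M), monic_X_pow_sub_C _ hp.out.ne_zero, ?_⟩
  have h3 : algebraMap M L (⟨b ^ p, hM b⟩ : M) = b ^ p := rfl
  simp [h3]

/-- Existence of a maximal subfield avoiding `b`. -/
theorem exists_maximal (E : Subfield L) {b : L} (hb : b ∉ E) :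
    ∃ M : Subfield L, E ≤ M ∧ b ∉ M ∧ ∀ M' : Subfield L, M ≤ M' → b ∉ M' → M' = M := by
  obtain ⟨M, hEM, hM⟩ := zorn_le_nonempty₀ {M : Subfield L | E ≤ M ∧ b ∉ M} (by
    intro c hc hchain y hy
    refine ⟨sSup c, ⟨le_trans (hc hy).1 (le_sSup hy), ?_⟩, fun z hz => le_sSup hz⟩
    intro hbm
    have hdir : DirectedOn (· ≤ ·) c := hchain.directedOn
    obtain ⟨z, hz, hbz⟩ := (Subfield.mem_sSup_of_directedOn ⟨y, hy⟩ hdir).1 hbm
    exact (hc hz).2 hbz) E ⟨le_refl _, hb⟩
  refine ⟨M, hM.prop.1, hM.prop.2, ?_⟩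
  intro M' hMM' hbM'
  exact le_antisymm (hM.le_of_ge ⟨le_trans hM.prop.1 hMM', hbM'⟩ hMM') hMM'

/-- Structure of `L` over a maximal subfield avoiding `b`: `L = M[b]`. -/
theorem adjoin_eq_top (E : Subfield L) (hE : ∀ y : L, y ^ p ∈ E) {b : L} {M : Subfield L}
    (hEM : E ≤ M) (hb : b ∉ M) (hmax : ∀ M' : Subfield L, M ≤ M' → b ∉ M' → M' = M) (y : L) :
    y ∈ IntermediateField.adjoin M {b} := by
  have hM : ∀ y : L, y ^ p ∈ M := fun y => hEM (hE y)
  by_cases hy : y ∈ M
  · exact (IntermediateField.adjoin M {b}).algebraMap_mem (⟨y, hy⟩ : M)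
  -- `b ∈ M(y)`
  have hby : b ∈ IntermediateField.adjoin M {y} := by
    by_contra hby
    have hle : M ≤ (IntermediateField.adjoin M {y}).toSubfield := by
      intro z hz
      exact (IntermediateField.adjoin M {y}).algebraMap_mem (⟨z, hz⟩ : M)
    have := hmax _ hle hby
    apply hy
    rw [← this]
    exact IntermediateField.mem_adjoin_simple_self M y
  have hle : IntermediateField.adjoin M {b} ≤ IntermediateField.adjoin M {y} := by
    rw [IntermediateField.adjoin_simple_le_iff]
    exact hby
  have hib := isIntegral_of M hM b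
  have hiy := isIntegral_of M hM y
  have hfb : Module.finrank M (IntermediateField.adjoin M {b}) = p := by
    rw [IntermediateField.adjoin.finrank hib, minpoly_eq M hM hb,
      natDegree_X_pow_sub_C]
  have hfy : Module.finrank M (IntermediateField.adjoin M {y}) = p := by
    rw [IntermediateField.adjoin.finrank hiy, minpoly_eq M hM hy,
      natDegree_X_pow_sub_C]
  have : FiniteDimensional M (IntermediateField.adjoin M {y}) :=
    IntermediateField.adjoin.finiteDimensional hiy
  have heq := IntermediateField.eq_of_le_of_finrank_eq hle (hfb.trans hfy.symm)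
  rw [heq]
  exact IntermediateField.mem_adjoin_simple_self M y

/-- Structure theorem: a subfield `M ⊇ E` with `b ∉ M`, `L = M[b]`, and the derivation `∂/∂b`. -/
theorem exists_structure (E : Subfield L) (hE : ∀ y : L, y ^ p ∈ E) {b : L} (hb : b ∉ E) :
    ∃ (M : Subfield L) (δ : Der L), E ≤ M ∧ b ∉ M ∧ (∀ x ∈ M, δ x = 0) ∧ δ b = 1 ∧
      (∀ Q : M[X], δ (aeval b Q) = aeval b (derivative Q)) ∧
      (∀ y : L, ∃ Q : M[X], Q.natDegree < p ∧ aeval b Q = y) ∧
      (∀ Q : M[X], Q.natDegree < p → aeval b Q = 0 → Q = 0) := by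
  obtain ⟨M, hEM, hbM, hmax⟩ := exists_maximal E hb
  have hM : ∀ y : L, y ^ p ∈ M := fun y => hEM (hE y)
  have hib := isIntegral_of M hM b
  have hmin := minpoly_eq M hM hbM
  have hsurj : Function.Surjective (aeval b : M[X] →ₐ[M] L) := by
    intro y
    have h1 := adjoin_eq_top E hE hEM hbM hmax y
    have h2 : y ∈ (IntermediateField.adjoin M {b}).toSubalgebra := h1
    rw [IntermediateField.adjoin_simple_toSubalgebra_of_isAlgebraic hib.isAlgebraic,
      Algebra.adjoin_singleton_eq_range_aeval] at h2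
    exact h2
  have hd : ∀ Q : M[X], aeval b Q = 0 → aeval b (derivative' Q) = 0 := by
    intro Q hQ
    have hdvd := minpoly.dvd M b hQ
    obtain ⟨R, rfl⟩ := hdvd
    rw [hmin]
    simp only [derivative'_apply, derivative_mul, derivative_X_pow, derivative_C,
      map_add, map_mul, map_sub, map_pow, aeval_X, aeval_C]
    have hpc : ((p : ℕ) : M[X]) = 0 := by
      have : CharP M[X] p := by
        have : CharP M p := by
          exact (RingHom.charP_iff (algebraMap M L) (algebraMap M L).injective p).2 ‹_›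
        infer_instance
      exact CharP.cast_eq_zero _ p
    have h0 : aeval b (C ((p : ℕ) : M) * X ^ (p - 1) - 0) = 0 := by
      have : CharP M p := (RingHom.charP_iff (algebraMap M L) (algebraMap M L).injective p).2 ‹_›
      simp [CharP.cast_eq_zero M p]
    have h3 : algebraMap M L (⟨b ^ p, hM b⟩ : M) = b ^ p := rfl
    simp only [sub_zero] at h0
    simp only [sub_zero, h3, sub_self, zero_mul, add_zero]
    simpa using Or.inl (by simpa using h0)
  let δ₀ : Derivation M L L :=
    Derivation.liftOfSurjective (f := (aeval b : M[X] →ₐ[M] L)) hsurj (d := derivative') hd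
  have hδ₀ : ∀ Q : M[X], δ₀ (aeval b Q) = aeval b (derivative Q) := by
    intro Q
    exact Derivation.liftOfSurjective_apply (f := (aeval b : M[X] →ₐ[M] L)) hsurj hd Q
  let δ : Der L := δ₀.restrictScalars ℤ
  have hδ : ∀ y, δ y = δ₀ y := fun y => rfl
  refine ⟨M, δ, hEM, hbM, ?_, ?_, ?_, ?_, ?_⟩
  · intro x hx
    rw [hδ]
    exact δ₀.map_algebraMap (⟨x, hx⟩ : M)
  · rw [hδ]
    have := hδ₀ X
    simpa using this
  · intro Q; rw [hδ]; exact hδ₀ Q
  · intro y
    obtain ⟨Q, rfl⟩ := hsurj y
    have hmon := minpoly.monic hib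
    refine ⟨Q %ₘ minpoly M b, ?_, ?_⟩
    · have := natDegree_modByMonic_lt Q hmon (by
        intro h1
        have := congrArg natDegree h1
        rw [hmin, natDegree_X_pow_sub_C, natDegree_one] at this
        exact hp.out.ne_zero this)
      rw [hmin] at this ⊢
      rw [natDegree_X_pow_sub_C] at this
      exact this
    · change aeval b (Q %ₘ minpoly M b) = aeval b Q
      conv_rhs => rw [← modByMonic_add_div Q (minpoly M b)]
      simp
  · intro Q hQ h0
    by_contra hne
    have hdvd := minpoly.dvd M b h0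
    have hle := natDegree_le_of_dvd hdvd hne
    rw [hmin, natDegree_X_pow_sub_C] at hle
    omega

/-- Derivations detect membership in a subfield containing the `p`-th powers. -/
theorem exists_der (E : Subfield L) (hE : ∀ y : L, y ^ p ∈ E) {b : L} (hb : b ∉ E) :
    ∃ δ : Der L, (∀ x ∈ E, δ x = 0) ∧ δ b = 1 := by
  obtain ⟨M, δ, hEM, _, h0, h1, _⟩ := exists_structure E hE hb
  exact ⟨δ, fun x hx => h0 x (hEM hx), h1⟩

/-- An element killed by all derivations is a `p`-th power. -/
theorem mem_pth_of_der {x : L} (h : ∀ δ : Der L, δ x = 0) : x ∈ pth L p := by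
  by_contra hx
  obtain ⟨δ, _, h1⟩ := exists_der (pth L p) pow_mem_pth hx
  rw [h δ] at h1
  exact zero_ne_one h1

theorem mem_pth_iff {x : L} : x ∈ pth L p ↔ ∀ δ : Der L, δ x = 0 :=
  ⟨fun hx δ => der_pth δ hx, mem_pth_of_der⟩

/-- **The eigenvalue lemma.**  If `a` is not a `p`-th power, `e` is a `p`-th power and
`dlog b = e • dlog a`, then `e` lies in the prime field. -/
theorem eigen {a b e : L} (ha : a ∉ pth L p) (hb : b ≠ 0) (he : e ∈ pth L p)
    (hrel : ∀ δ : Der L, δ b / b = e * (δ a / a)) : ∃ n : ℕ, e = (n : L) := by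
  obtain ⟨M, δ, hEM, _, _, h1, hder, hspan, hind⟩ := exists_structure (pth L p) pow_mem_pth ha
  have ha0 : a ≠ 0 := by
    rintro rfl
    exact ha (pth L p).zero_mem
  obtain ⟨Q, hQ, rfl⟩ := hspan b
  have hrelδ := hrel δ
  rw [h1, hder] at hrelδ
  have hQ0 : Q ≠ 0 := by
    rintro rfl
    simp at hb
  set e' : M := ⟨e, hEM he⟩ with he'
  have hee' : algebraMap M L e' = e := rfl
  -- the polynomial relation
  have hR : X * derivative Q - C e' * Q = 0 := by
    apply hind
    · have h2 : (X * derivative Q).natDegree ≤ Q.natDegree := by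
        by_cases hd : Q.natDegree = 0
        · rw [natDegree_eq_zero.1 hd |>.choose_spec.symm]
          simp
        · refine le_trans natDegree_mul_le ?_
          have := natDegree_derivative_le Q
          have h3 : (X : M[X]).natDegree = 1 := natDegree_X
          omega
      have h3 : (C e' * Q).natDegree ≤ Q.natDegree := natDegree_C_mul_le _ _
      have h4 := natDegree_sub_le (X * derivative Q) (C e' * Q)
      have : max (X * derivative Q).natDegree (C e' * Q).natDegree ≤ Q.natDegree := max_le h2 h3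
      omega
    · simp only [map_sub, map_mul, aeval_X, aeval_C, hee']
      field_simp at hrelδ
      linear_combination hrelδ
  -- compare leading coefficients
  have hc := congrArg (fun P => coeff P Q.natDegree) hR
  simp only [coeff_sub, coeff_C_mul, coeff_zero] at hc
  have hlc : Q.coeff Q.natDegree ≠ 0 := by
    simpa using hQ0
  refine ⟨Q.natDegree, ?_⟩
  have hval : (X * derivative Q).coeff Q.natDegree = Q.natDegree * Q.coeff Q.natDegree := by
    rcases Nat.eq_zero_or_pos Q.natDegree with hd | hd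
    · rw [hd]; simp
    · obtain ⟨m, hm⟩ := Nat.exists_eq_succ_of_ne_zero hd.ne'
      rw [hm, coeff_X_mul, coeff_derivative]
      push_cast
      ring
  rw [hval] at hc
  have h5 : ((Q.natDegree : M) - e') * Q.coeff Q.natDegree = 0 := by
    linear_combination hc
  have h6 : (Q.natDegree : M) - e' = 0 := (mul_eq_zero.1 h5).resolve_right hlc
  have h7 : e' = (Q.natDegree : M) := (sub_eq_zero.1 h6).symm
  have h8 := congrArg (algebraMap M L) h7
  rw [hee'] at h8
  simpa using h8

/-- **The closure identity** (the logarithmic form `dlog a'` is closed). -/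
theorem closure_identity {a a' lam : L} (ha : a ≠ 0) (ha' : a' ≠ 0)
    (hrel : ∀ δ : Der L, δ a' / a' = lam * (δ a / a)) (δ₁ δ₂ : Der L) :
    δ₂ lam * δ₁ a = δ₁ lam * δ₂ a := by
  have R : ∀ δ : Der L, a * δ a' = lam * a' * δ a := by
    intro δ
    have := hrel δ
    field_simp at this
    linear_combination this
  have R1 := congrArg δ₂ (R δ₁)
  have R2 := congrArg δ₁ (R δ₂)
  have RC := R ⁅δ₂, δ₁⁆
  rw [Derivation.commutator_apply, Derivation.commutator_apply] at RC
  simp only [Derivation.leibniz, smul_eq_mul] at R1 R2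
  have key : (δ₂ lam * δ₁ a - δ₁ lam * δ₂ a) * a' * a = 0 := by
    have e1 := R δ₁
    have e2 := R δ₂
    linear_combination (1 + lam) * (δ₂ a) * e1 - (1 + lam) * (δ₁ a) * e2 - a * (R1 - R2 - RC)
  have h0 : δ₂ lam * δ₁ a - δ₁ lam * δ₂ a = 0 := by
    rcases mul_eq_zero.1 key with h | h
    · rcases mul_eq_zero.1 h with h | h
      · exact h
      · exact absurd h ha'
    · exact absurd h ha
  exact sub_eq_zero.1 h0


end Crest.Agent.Lib.MilnorRigidDer
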