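import Crest.Agent.Lib.MilnorRigidDer

/-!
Field-theoretic input: over an algebraically closed subfield `l`, with `L` finitely generated of
transcendence degree at least `2`, `L` is not generated by `L ^ p` and one element; and an element
with all `p ^ n`-th roots lies in `l`.
-/

set_option autoImplicit false

open Polynomial

namespace Crest.Agent.Lib.MilnorRigidField

open Crest.Agent.Lib.MilnorRigidDer

variable {L : Type*} [Field L] {p : ℕ} [hp : Fact p.Prime] [CharP L p]

omit [CharP L p] hp in
theorem essFiniteType_of {l : Subfield L}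
    (hL : ∃ s : Finset L, Subfield.closure ((l : Set L) ∪ (s : Set L)) = ⊤)
    (E : IntermediateField l L) : Algebra.EssFiniteType E L := by
  obtain ⟨s, hs⟩ := hL
  rw [← IntermediateField.fg_top_iff]
  refine ⟨s, ?_⟩
  rw [eq_top_iff]
  intro y _
  have h1 : y ∈ (⊤ : Subfield L) := trivial
  rw [← hs] at h1
  have hle : Subfield.closure ((l : Set L) ∪ (s : Set L)) ≤
      (IntermediateField.adjoin E (s : Set L)).toSubfield := by
    rw [Subfield.closure_le]
    apply Set.union_subset
    · intro x hx
      exact (IntermediateField.adjoin E (s : Set L)).algebraMap_mem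
        (⟨x, E.algebraMap_mem (⟨x, hx⟩ : l)⟩ : E)
    · intro x hx
      exact IntermediateField.subset_adjoin E _ hx
  exact hle h1

/-- The subfield of elements killed by a derivation. -/
def kerSubfield {E : Type*} [Field E] [Algebra E L] {M : Type*} [AddCommGroup M] [Module L M]
    [Module E M] (D : Derivation E L M) : Subfield L where
  carrier := {y | D y = 0}
  mul_mem' {a b} ha hb := by
    simp only [Set.mem_ofPred_eq] at ha hb ⊢
    rw [Derivation.leibniz, ha, hb, smul_zero, smul_zero, add_zero]
  one_mem' := Derivation.map_one_eq_zero D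
  add_mem' {a b} ha hb := by
    simp only [Set.mem_ofPred_eq] at ha hb ⊢
    rw [map_add, ha, hb, add_zero]
  zero_mem' := map_zero D
  neg_mem' {a} ha := by
    simp only [Set.mem_ofPred_eq] at ha ⊢
    rw [map_neg, ha, neg_zero]
  inv_mem' a ha := by
    simp only [Set.mem_ofPred_eq] at ha ⊢
    rw [Derivation.leibniz_inv, ha, smul_zero]

theorem closure_ne_top {l : Subfield L}
    (hL : ∃ s : Finset L, Subfield.closure ((l : Set L) ∪ (s : Set L)) = ⊤)
    (hL2 : 2 ≤ Algebra.trdeg l L) (a : L) :
    Subfield.closure ((pth L p : Set L) ∪ {a}) ≠ ⊤ := by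
  intro htop
  let E₁ : IntermediateField l L := IntermediateField.adjoin l {a}
  have hD : ∀ y : L, KaehlerDifferential.D E₁ L y = 0 := by
    intro y
    have hle : Subfield.closure ((pth L p : Set L) ∪ {a}) ≤
        kerSubfield (KaehlerDifferential.D E₁ L) := by
      rw [Subfield.closure_le]
      apply Set.union_subset
      · intro x hx
        obtain ⟨z, rfl⟩ := mem_pth.1 hx
        change KaehlerDifferential.D E₁ L (z ^ p) = 0
        rw [Derivation.leibniz_pow, ← Nat.cast_smul_eq_nsmul L]
        simp [CharP.cast_eq_zero L p]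
      · intro x hx
        rw [Set.mem_singleton_iff] at hx
        subst hx
        change KaehlerDifferential.D E₁ L x = 0
        have hm : x ∈ E₁ := IntermediateField.mem_adjoin_simple_self l x
        exact (KaehlerDifferential.D E₁ L).map_algebraMap (⟨x, hm⟩ : E₁)
    have h1 : y ∈ (⊤ : Subfield L) := trivial
    rw [← htop] at h1
    exact hle h1
  have hsub : Subsingleton (Ω[L⁄E₁]) := by
    have h1 : Submodule.span L (Set.range (KaehlerDifferential.D E₁ L)) = ⊥ := by
      rw [Submodule.span_eq_bot]
      rintro _ ⟨y, rfl⟩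
      exact hD y
    rw [KaehlerDifferential.span_range_derivation] at h1
    exact (Submodule.subsingleton_iff L).1 (subsingleton_of_bot_eq_top h1.symm)
  have hfu : Algebra.FormallyUnramified E₁ L := ⟨hsub⟩
  have hess : Algebra.EssFiniteType E₁ L := essFiniteType_of hL E₁
  have hsep : Algebra.IsSeparable E₁ L := Algebra.FormallyUnramified.isSeparable E₁ L
  have halg : Algebra.IsAlgebraic E₁ L := inferInstance
  open IntermediateField.algebraAdjoinAdjoin in
  have halg2 : Algebra.IsAlgebraic (Algebra.adjoin l {a}) L :=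
    (IsFractionRing.comap_isAlgebraic_iff (A := Algebra.adjoin l {a}) (K := E₁) (C := L)).2 halg
  have hle := Algebra.IsAlgebraic.trdeg_le_cardinalMk l {a} (A := L)
  rw [Cardinal.mk_singleton] at hle
  have h2 : (2 : Cardinal) ≤ 1 := hL2.trans hle
  exact absurd h2 (by norm_num)

include hp in
variable (p) in
/-- Existence of two independent differentials. -/
theorem exists_dim {l : Subfield L}
    (hL : ∃ s : Finset L, Subfield.closure ((l : Set L) ∪ (s : Set L)) = ⊤)
    (hL2 : 2 ≤ Algebra.trdeg l L) :
    ∃ a b : L, ∃ δ₁ δ₂ : Der L, δ₁ a ≠ 0 ∧ δ₂ a = 0 ∧ δ₂ b ≠ 0 := by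
  -- first `a`
  have h0 := closure_ne_top (p := p) hL hL2 0
  obtain ⟨a, ha⟩ : ∃ a, a ∉ Subfield.closure ((pth L p : Set L) ∪ {0}) := by
    by_contra hcon
    push Not at hcon
    exact h0 (eq_top_iff.2 fun y _ => hcon y)
  have ha' : a ∉ pth L p := fun hm => ha (Subfield.subset_closure (Or.inl hm))
  have h1 := closure_ne_top (p := p) hL hL2 a
  obtain ⟨b, hb⟩ : ∃ b, b ∉ Subfield.closure ((pth L p : Set L) ∪ {a}) := by
    by_contra hcon
    push Not at hcon
    exact h1 (eq_top_iff.2 fun y _ => hcon y)
  obtain ⟨δ₁, _, hδ₁⟩ := exists_der (pth L p) pow_mem_pth ha'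
  obtain ⟨δ₂, h20, hδ₂⟩ := exists_der (Subfield.closure ((pth L p : Set L) ∪ {a}))
    (fun y => Subfield.subset_closure (Or.inl (pow_mem_pth y))) hb
  refine ⟨a, b, δ₁, δ₂, ?_, ?_, ?_⟩
  · rw [hδ₁]; exact one_ne_zero
  · exact h20 a (Subfield.subset_closure (Or.inr rfl))
  · rw [hδ₂]; exact one_ne_zero

/-- An element of `L` having all `p ^ n`-th roots lies in the algebraically closed subfield. -/
theorem mem_of_forall_root {l : Subfield L} [IsAlgClosed l]
    (hL : ∃ s : Finset L, Subfield.closure ((l : Set L) ∪ (s : Set L)) = ⊤)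
    {z : L} (hz : ∀ n : ℕ, ∃ w : L, w ^ (p ^ n) = z) : z ∈ l := by
  by_contra hzl
  -- `z` is transcendental over `l`
  have htr : Transcendental l z := by
    intro halg
    have hint : IsIntegral l z := halg.isIntegral
    have hirr := minpoly.irreducible hint
    have hdeg := IsAlgClosed.degree_eq_one_of_irreducible l hirr
    obtain ⟨c, hc⟩ := minpoly.mem_range_of_degree_eq_one l z hdeg
    apply hzl
    rw [← hc]
    exact c.2
  have hindep : AlgebraicIndepOn l id ({z} : Set L) := by
    have : AlgebraicIndependent l (fun x : ({z} : Set L) => (x : L)) :=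
      (algebraicIndependent_singleton_iff (R := l) (x := fun x : ({z} : Set L) => (x : L))
        (⟨z, rfl⟩ : ({z} : Set L))).2 htr
    exact this
  obtain ⟨t, hzt, hbasis⟩ := exists_isTranscendenceBasis_superset hindep
  have hzt' : z ∈ t := hzt rfl
  have hrange : Set.range ((↑) : t → L) = t := Subtype.range_coe
  have halg := hbasis.isAlgebraic_field
  rw [hrange] at halg
  set M : IntermediateField l L := IntermediateField.adjoin l t with hM
  have hess : Algebra.EssFiniteType M L := essFiniteType_of hL M
  have hfin : Module.Finite M L := Algebra.finite_of_essFiniteType_of_isAlgebraic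
  have hzM : z ∈ M := IntermediateField.subset_adjoin l t hzt'
  -- `z` is not a `p`-th power in `M`
  have hnp : ∀ u : M, (u : L) ^ p ≠ z := by
    intro u hu
    obtain ⟨r, s, hrs⟩ := (IntermediateField.mem_adjoin_iff l (u : L)).1 u.2
    have hz0 : z ≠ 0 := by
      rintro rfl
      exact hzl l.zero_mem
    have hs0 : MvPolynomial.aeval ((↑) : t → L) s ≠ 0 := by
      intro h0
      rw [h0, div_zero] at hrs
      rw [hrs, zero_pow hp.out.ne_zero] at hu
      exact hz0 hu.symm
    have hinj := hbasis.1
    rw [algebraicIndependent_iff_injective_aeval] at hinj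
    have hcharl : CharP l p := inferInstance
    have hrel : MvPolynomial.X (⟨z, hzt'⟩ : t) * s ^ p = r ^ p := by
      apply hinj
      simp only [map_mul, map_pow, MvPolynomial.aeval_X]
      rw [← hu, hrs, div_pow]
      field_simp
    have hder := congrArg (MvPolynomial.pderiv (R := l) (⟨z, hzt'⟩ : t)) hrel
    have hcp : CharP (MvPolynomial t l) p := inferInstance
    rw [Derivation.leibniz, Derivation.leibniz_pow, Derivation.leibniz_pow] at hder
    simp only [MvPolynomial.pderiv_X_self, smul_eq_mul, mul_one, nsmul_eq_mul,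
      CharP.cast_eq_zero, zero_mul, mul_zero, add_zero] at hder
    have hs : s = 0 := by
      have := hder
      simpa [hp.out.ne_zero] using this
    rw [hs] at hs0
    simp at hs0
  -- the contradiction
  set D := Module.finrank M L with hDdef
  obtain ⟨w, hw⟩ := hz D
  have hq : ExpChar M p := by
    have : CharP M p := inferInstance
    exact ExpChar.prime hp.out
  have hsep : (minpoly M w).natSepDegree = 1 := by
    rw [minpoly.natSepDegree_eq_one_iff_pow_mem p]
    exact ⟨D, ⟨⟨z, hzM⟩, hw.symm⟩⟩
  obtain ⟨e, y, hmin⟩ := (minpoly.natSepDegree_eq_one_iff_eq_X_pow_sub_C p).1 hsep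
  have hint : IsIntegral M w := Algebra.IsIntegral.isIntegral w
  have hle : (minpoly M w).natDegree ≤ D := minpoly.natDegree_le w
  rw [hmin, natDegree_X_pow_sub_C] at hle
  have hroot : w ^ p ^ e = (y : L) := by
    have := minpoly.aeval M w
    rw [hmin] at this
    simp only [map_sub, map_pow, aeval_X, aeval_C] at this
    exact sub_eq_zero.1 this
  have hlt : e < D := by
    by_contra hcon
    push Not at hcon
    have h1 : p ^ D ≤ p ^ e := Nat.pow_le_pow_right hp.out.pos hcon
    have h2 : D < p ^ D := Nat.lt_pow_self hp.out.one_lt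
    omega
  -- so `z` is a `p`-th power in `M`
  apply hnp (y ^ (p ^ (D - e - 1)))
  have he : p ^ D = p ^ e * (p ^ (D - e - 1) * p) := by
    rw [← pow_succ, ← pow_add]
    congr 1
    omega
  rw [← hw, he, pow_mul]
  push_cast
  rw [← hroot, pow_mul]

end Crest.Agent.Lib.MilnorRigidField
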