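import Crest.Agent.Lib.MilnorRigidAlg
import Crest.Agent.Lib.MilnorRigidDer

/-!
The core of the reconstruction: from a "logarithmic" map on `K` with values in the logarithmic
forms of `L` we produce a ring homomorphism `α` and an integer `n` with `ω = n dlog α`.
-/

set_option autoImplicit false

namespace Crest.Agent.Lib.MilnorRigidMain

open Crest.Agent.Lib.MilnorRigidDer Crest.Agent.Lib.MilnorRigidAlg

variable {K L : Type*} [Field K] [Field L] {p : ℕ} [hp : Fact p.Prime] [CharP K p] [CharP L p]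

/-- Hypotheses on a representative map `A : K → L`. -/
structure Hyp (p : ℕ) [Fact p.Prime] [CharP K p] [CharP L p] (A : K → L) : Prop where
  ne : ∀ x, x ≠ 0 → A x ≠ 0
  mul : ∀ x y, x ≠ 0 → y ≠ 0 → ∀ δ : Der L,
    δ (A (x * y)) / A (x * y) = δ (A x) / A x + δ (A y) / A y
  ker : ∀ x, x ≠ 0 → ((∀ δ : Der L, δ (A x) = 0) ↔ x ∈ pth K p)
  dep : ∀ f, f ≠ 0 → f ≠ 1 → ∀ δ δ' : Der L,
    (δ (A f) / A f) * (δ' (A (1 - f)) / A (1 - f)) =
      (δ' (A f) / A f) * (δ (A (1 - f)) / A (1 - f))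
  surj : ∀ y : L, y ≠ 0 → ∃ x, x ≠ 0 ∧ ∀ δ : Der L, δ y / y = δ (A x) / A x
  dim : ∃ a b : L, ∃ δ₁ δ₂ : Der L, δ₁ a ≠ 0 ∧ δ₂ a = 0 ∧ δ₂ b ≠ 0

/-- The logarithmic form of the representative. -/
noncomputable def omega (A : K → L) (x : K) : Der L → L := fun δ => δ (A x) / A x

@[simp] theorem omega_apply (A : K → L) (x : K) (δ : Der L) : omega A x δ = δ (A x) / A x := rfl

theorem Hyp.data {A : K → L} (h : Hyp p A) : Data L (pth K p) (omega A) where
  mul x y hx hy := by
    funext δ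
    simpa using h.mul x y hx hy δ
  ker x hx := by
    rw [← h.ker x hx]
    constructor
    · intro h0 δ
      have := congrFun h0 δ
      simp only [omega_apply, Pi.zero_apply, div_eq_zero_iff] at this
      exact this.resolve_right (h.ne x hx)
    · intro h0
      funext δ
      simp [h0 δ]
  dep f hf0 hf1 hne := by
    obtain ⟨δ₀, hδ₀⟩ : ∃ δ₀ : Der L, omega A f δ₀ ≠ 0 := by
      by_contra hcon
      push Not at hcon
      exact hne (funext hcon)
    refine ⟨omega A (1 - f) δ₀ / omega A f δ₀, ?_⟩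
    funext δ
    have := h.dep f hf0 hf1 δ₀ δ
    simp only [Pi.smul_apply, smul_eq_mul]
    change δ (A (1 - f)) / A (1 - f) = _
    rw [div_mul_eq_mul_div, eq_div_iff hδ₀]
    simp only [omega_apply] at hδ₀ ⊢
    linear_combination this
  indep := by
    obtain ⟨a, b, δ₁, δ₂, h1, h2, h3⟩ := h.dim
    have ha0 : a ≠ 0 := by
      rintro rfl
      simp at h1
    have hb0 : b ≠ 0 := by
      rintro rfl
      simp at h3
    obtain ⟨x, hx0, hx⟩ := h.surj a ha0
    obtain ⟨y, hy0, hy⟩ := h.surj b hb0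
    refine ⟨x, y, hx0, hy0, ?_⟩
    intro c d hcd
    have e2 := congrFun hcd δ₂
    simp only [Pi.add_apply, Pi.smul_apply, smul_eq_mul, omega_apply, Pi.zero_apply,
      ← hx, ← hy, h2, zero_div, mul_zero, zero_add] at e2
    have hd : d = 0 := by
      rcases mul_eq_zero.1 e2 with h4 | h4
      · exact h4
      · exact absurd h4 (div_ne_zero h3 hb0)
    have e1 := congrFun hcd δ₁
    simp only [Pi.add_apply, Pi.smul_apply, smul_eq_mul, omega_apply, Pi.zero_apply,
      ← hx, ← hy, hd, zero_mul, add_zero] at e1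
    refine ⟨?_, hd⟩
    rcases mul_eq_zero.1 e1 with h4 | h4
    · exact h4
    · exact absurd h4 (div_ne_zero h1 ha0)

section core

variable {A : K → L} (h : Hyp p A) {α : K →+* L}
  (hadd : ∀ x y, α (x + y) • omega A (x + y) = α x • omega A x + α y • omega A y)
  (hrel : ∀ f, f ∉ pth K p → (1 - α f) • omega A (1 - f) + α f • omega A f = 0)

include hp in
omit [CharP L p] in
theorem not_mem_eq_one_add {x : K} (hx : x ∉ pth K p) : x + 1 ≠ 0 := by
  intro h0
  apply hx
  have : x = -1 := by linear_combination h0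
  rw [this]
  exact (pth K p).neg_mem (pth K p).one_mem

include h hadd

/-- (a) `dα x` and `dlog A x` are proportional. -/
theorem step_a {x : K} (hx : x ∉ pth K p) (δ₁ δ₂ : Der L) :
    δ₂ (α x) * δ₁ (A x) = δ₁ (α x) * δ₂ (A x) := by
  have hx0 : x ≠ 0 := ne_zero_of_notMem hx
  have hx1 : x + 1 ≠ 0 := not_mem_eq_one_add hx
  have hD := h.data
  have ha : A x ≠ 0 := h.ne x hx0
  have ha' : A (x + 1) ≠ 0 := h.ne _ hx1
  have hh1 : α x + 1 ≠ 0 := by
    have := (map_ne_zero α).2 hx1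
    simpa using this
  have hrel' : ∀ δ : Der L, δ (A (x + 1)) / A (x + 1) =
      (α x / (α x + 1)) * (δ (A x) / A x) := by
    intro δ
    have e := congrFun (hadd x 1) δ
    simp only [Pi.add_apply, Pi.smul_apply, smul_eq_mul, map_add, map_one, hD.omega_one,
      Pi.zero_apply, mul_zero, add_zero, omega_apply] at e
    rw [div_mul_eq_mul_div, eq_div_iff hh1]
    linear_combination e
  have hcl := closure_identity ha ha' hrel' δ₁ δ₂
  have hlam : ∀ δ : Der L, δ (α x) = δ (α x / (α x + 1)) * (α x + 1) ^ 2 := by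
    intro δ
    have e1 : (α x / (α x + 1)) * (α x + 1) = α x := by field_simp
    have e2 := congrArg δ e1
    simp only [Derivation.leibniz, smul_eq_mul, map_add, Derivation.map_one_eq_zero, add_zero] at e2
    have e3 : (α x / (α x + 1)) * δ (α x) * (α x + 1) = α x * δ (α x) := by
      rw [mul_right_comm, e1]
    linear_combination (- (α x + 1)) * e2 + e3
  rw [hlam δ₂, hlam δ₁]
  linear_combination (α x + 1) ^ 2 * hcl

omit hadd

include hrel

/-- (b) `α` does not map non-`p`-th powers to `p`-th powers. -/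
theorem step_b {x : K} (hx : x ∉ pth K p) : α x ∉ pth L p := by
  intro hm
  have hD := h.data
  have hx0 : x ≠ 0 := ne_zero_of_notMem hx
  have hx1 : x ≠ 1 := ne_one_of_notMem hx
  have h1x : 1 - x ≠ 0 := sub_ne_zero.mpr (Ne.symm hx1)
  have hh0 : α x ≠ 0 := (map_ne_zero α).2 hx0
  have hh1 : α x - 1 ≠ 0 := by
    have := (map_ne_zero α).2 (sub_ne_zero.mpr hx1)
    simpa using this
  have ha : A x ∉ pth L p := by
    intro hmem
    apply hx
    rw [← h.ker x hx0]
    exact fun δ => der_pth δ hmem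
  have he : α x / (α x - 1) ∈ pth L p :=
    (pth L p).div_mem hm ((pth L p).sub_mem hm (pth L p).one_mem)
  have hrel' : ∀ δ : Der L, δ (A (1 - x)) / A (1 - x) =
      (α x / (α x - 1)) * (δ (A x) / A x) := by
    intro δ
    have e := congrFun (hrel x hx) δ
    simp only [Pi.add_apply, Pi.smul_apply, smul_eq_mul, Pi.zero_apply, omega_apply] at e
    rw [div_mul_eq_mul_div, eq_div_iff hh1]
    linear_combination -e
  obtain ⟨n, hn⟩ := eigen ha (h.ne _ h1x) he hrel'
  have hcast : ((n : ℕ) : L) ^ p = n := by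
    have := map_natCast (frobenius L p) n
    rw [frobenius_def] at this
    exact this
  set e := α x / (α x - 1) with he_def
  have he1 : e ≠ 1 := by
    intro h1
    rw [he_def, div_eq_one_iff_eq hh1] at h1
    have : (1 : L) = 0 := by linear_combination h1
    exact one_ne_zero this
  have h2 : α x * (e - 1) = e := by
    rw [he_def]; field_simp; ring
  have h3 : (α x) ^ p * (e - 1) = e := by
    have h4 := congrArg (· ^ p) h2
    simp only [mul_pow, sub_pow_char, one_pow] at h4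
    rw [hn] at h4 ⊢
    rwa [hcast] at h4
  have h5 : (α x) ^ p = α x := by
    have h6 : e - 1 ≠ 0 := sub_ne_zero.mpr he1
    apply mul_right_cancel₀ h6
    rw [h3, h2]
  apply hx
  have h7 : x ^ p = x := by
    apply α.injective
    rw [map_pow, h5]
  rw [← h7]
  exact pow_mem_pth x


include hadd

/-- (c₀) pointwise proportionality constant. -/
theorem step_c0 {x : K} (hx : x ∉ pth K p) :
    ∃ t : L, t ≠ 0 ∧ ∀ δ : Der L, α x * (δ (A x) / A x) = t * δ (α x) := by
  have hD := h.data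
  have hx0 : x ≠ 0 := ne_zero_of_notMem hx
  have ha := h.ne x hx0
  have hb := step_b h hrel hx
  obtain ⟨δ₀, hδ₀⟩ : ∃ δ₀ : Der L, δ₀ (α x) ≠ 0 := by
    by_contra hcon
    push Not at hcon
    exact hb (mem_pth_of_der hcon)
  have hall : ∀ δ : Der L, α x * (δ (A x) / A x) =
      (α x * (δ₀ (A x) / A x) / δ₀ (α x)) * δ (α x) := by
    intro δ
    have e := step_a h hadd hx δ δ₀
    rw [div_mul_eq_mul_div, eq_div_iff hδ₀]
    field_simp
    linear_combination (α x) * e
  refine ⟨_, ?_, hall⟩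
  intro h0
  rw [h0] at hall
  apply hD.omega_ne hx
  funext δ
  have e := hall δ
  rw [zero_mul] at e
  have hh0 : α x ≠ 0 := (map_ne_zero α).2 hx0
  exact (mul_eq_zero.1 e).resolve_left hh0

/-- the derivative of a value as an element of `Der L → L`. -/
noncomputable def dα (α : K →+* L) (x : K) : Der L → L := fun δ => δ (α x)

/-- two independent elements have the same proportionality constant -/
theorem step_c1 {x y : K} {t₁ t₂ : L}
    (hxt : ∀ δ : Der L, α x * (δ (A x) / A x) = t₁ * δ (α x))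
    (hyt : ∀ δ : Der L, α y * (δ (A y) / A y) = t₂ * δ (α y))
    (hi : Indep L (dα α x) (dα α y)) : t₁ = t₂ := by
  have hxy : x + y ∉ pth K p := by
    intro hm
    have h0 : ∀ δ : Der L, δ (α (x + y)) = 0 := by
      intro δ
      obtain ⟨z, hz⟩ := mem_pth.1 hm
      rw [← hz, map_pow]
      exact der_pow_p δ _
    have := hi 1 1 (by
      funext δ
      have := h0 δ
      simpa [dα] using this)
    exact one_ne_zero this.1
  obtain ⟨t₃, _, ht₃⟩ := step_c0 h hadd hrel hxy
  have hfin : (t₃ - t₁) • dα α x + (t₃ - t₂) • dα α y = 0 := by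
    funext δ
    have e1 := congrFun (hadd x y) δ
    simp only [Pi.add_apply, Pi.smul_apply, smul_eq_mul, omega_apply] at e1
    rw [ht₃ δ, hxt δ, hyt δ, map_add, map_add] at e1
    simp only [Pi.add_apply, Pi.smul_apply, smul_eq_mul, dα, Pi.zero_apply]
    linear_combination e1
  have h12 := hi _ _ hfin
  have e1 := sub_eq_zero.1 h12.1
  have e2 := sub_eq_zero.1 h12.2
  rw [← e1, ← e2]

/-- (c) the constant is global. -/
theorem step_c : ∃ (t : L) (y₁ y₂ : K), t ≠ 0 ∧ y₁ ∉ pth K p ∧ y₂ ∉ pth K p ∧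
    Indep L (dα α y₁) (dα α y₂) ∧
    ∀ x, x ∉ pth K p → ∀ δ : Der L, α x * (δ (A x) / A x) = t * δ (α x) := by
  have hD := h.data
  obtain ⟨y₁, y₂, h1, h2, hi⟩ := hD.indep
  have hy₁ : y₁ ∉ pth K p := hD.notMem_of_omega_ne h1 (by
    intro h0
    exact one_ne_zero (hi 1 0 (by rw [h0]; simp)).1)
  have hy₂ : y₂ ∉ pth K p := hD.notMem_of_omega_ne h2 (by
    intro h0
    exact one_ne_zero (hi 0 1 (by rw [h0]; simp)).2)
  obtain ⟨t₁, ht₁0, ht₁⟩ := step_c0 h hadd hrel hy₁
  obtain ⟨t₂, ht₂0, ht₂⟩ := step_c0 h hadd hrel hy₂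
  have hα1 : α y₁ ≠ 0 := (map_ne_zero α).2 h1
  have hα2 : α y₂ ≠ 0 := (map_ne_zero α).2 h2
  have hd : Indep L (dα α y₁) (dα α y₂) := by
    intro a b hab
    have : (a * α y₁ / t₁) • omega A y₁ + (b * α y₂ / t₂) • omega A y₂ = 0 := by
      funext δ
      have e := congrFun hab δ
      simp only [Pi.add_apply, Pi.smul_apply, smul_eq_mul, dα, Pi.zero_apply] at e
      simp only [Pi.add_apply, Pi.smul_apply, smul_eq_mul, Pi.zero_apply, omega_apply]
      have e1 := ht₁ δ
      have e2 := ht₂ δ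
      calc a * α y₁ / t₁ * (δ (A y₁) / A y₁) + b * α y₂ / t₂ * (δ (A y₂) / A y₂)
          = a / t₁ * (α y₁ * (δ (A y₁) / A y₁)) + b / t₂ * (α y₂ * (δ (A y₂) / A y₂)) := by ring
        _ = a * δ (α y₁) + b * δ (α y₂) := by
            rw [e1, e2]; field_simp
        _ = 0 := e
    obtain ⟨c1, c2⟩ := hi _ _ this
    constructor
    · have := (div_eq_zero_iff.1 c1).resolve_right ht₁0
      exact (mul_eq_zero.1 this).resolve_right hα1
    · have := (div_eq_zero_iff.1 c2).resolve_right ht₂0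
      exact (mul_eq_zero.1 this).resolve_right hα2
  have ht12 : t₁ = t₂ := step_c1 h hadd hrel ht₁ ht₂ hd
  refine ⟨t₁, y₁, y₂, ht₁0, hy₁, hy₂, hd, ?_⟩
  intro x hx δ
  obtain ⟨t, _, ht⟩ := step_c0 h hadd hrel hx
  have hne1 : dα α y₁ ≠ 0 := by
    intro h0
    have := hd 1 0 (by rw [h0]; simp)
    exact one_ne_zero this.1
  have hne2 : dα α y₂ ≠ 0 := by
    intro h0
    have := hd 0 1 (by rw [h0]; simp)
    exact one_ne_zero this.2
  by_cases hline : ∀ c : L, dα α x ≠ c • dα α y₁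
  · have := step_c1 h hadd hrel ht₁ ht (Data.indep_of_off_line hne1 hline)
    rw [this]
    exact ht δ
  · push Not at hline
    obtain ⟨c, hc⟩ := hline
    have hcne : c ≠ 0 := by
      rintro rfl
      rw [zero_smul] at hc
      obtain ⟨δ₀, hδ₀⟩ : ∃ δ₀ : Der L, δ₀ (α x) ≠ 0 := by
        by_contra hcon
        push Not at hcon
        exact (step_b h hrel hx) (mem_pth_of_der hcon)
      exact hδ₀ (congrFun hc δ₀)
    have hoff : ∀ d : L, dα α x ≠ d • dα α y₂ := by
      intro d hdd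
      have : c • dα α y₁ + (-d) • dα α y₂ = 0 := by
        rw [← hc, hdd, neg_smul]
        simp
      exact hcne (hd _ _ this).1
    have := step_c1 h hadd hrel ht₂ ht (Data.indep_of_off_line hne2 hoff)
    rw [ht12, this]
    exact ht δ

/-- (d,e) the constant is a natural number. -/
theorem step_e : ∃ n : ℕ, (n : L) ≠ 0 ∧
    ∀ x, x ≠ 0 → ∀ δ : Der L, δ (A x) / A x = n * (δ (α x) / α x) := by
  have hD := h.data
  obtain ⟨t, y₁, y₂, ht0, hy₁, hy₂, hi, ht⟩ := step_c h hadd hrel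
  have hlog : ∀ x, x ∉ pth K p → ∀ δ : Der L, δ (A x) / A x = t * (δ (α x) / α x) := by
    intro x hx δ
    have hx0 : x ≠ 0 := ne_zero_of_notMem hx
    have hh0 : α x ≠ 0 := (map_ne_zero α).2 hx0
    have := ht x hx δ
    rw [mul_div_assoc', eq_div_iff hh0]
    linear_combination this
  have hclo : ∀ x, x ∉ pth K p → ∀ δ₁ δ₂ : Der L, δ₂ t * δ₁ (α x) = δ₁ t * δ₂ (α x) := by
    intro x hx δ₁ δ₂
    have hx0 : x ≠ 0 := ne_zero_of_notMem hx
    exact closure_identity ((map_ne_zero α).2 hx0) (h.ne x hx0) (hlog x hx) δ₁ δ₂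
  -- `t` is a `p`-th power
  have htp : t ∈ pth L p := by
    apply mem_pth_of_der
    intro δ₂
    by_contra hne
    have e1 := hclo y₁ hy₁
    have e2 := hclo y₂ hy₂
    have hfin : (δ₂ (α y₂) / δ₂ t) • dα α y₁ + (- (δ₂ (α y₁) / δ₂ t)) • dα α y₂ = 0 := by
      funext δ₁
      have e3 := e1 δ₁ δ₂
      have e4 := e2 δ₁ δ₂
      simp only [Pi.add_apply, Pi.smul_apply, smul_eq_mul, dα, Pi.zero_apply]
      have key : δ₂ t * (δ₂ (α y₂) * δ₁ (α y₁) - δ₂ (α y₁) * δ₁ (α y₂)) = 0 := by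
        linear_combination (δ₂ (α y₂)) * e3 - (δ₂ (α y₁)) * e4
      have inner := (mul_eq_zero.1 key).resolve_left hne
      calc δ₂ (α y₂) / δ₂ t * δ₁ (α y₁) + -(δ₂ (α y₁) / δ₂ t) * δ₁ (α y₂)
          = (δ₂ (α y₂) * δ₁ (α y₁) - δ₂ (α y₁) * δ₁ (α y₂)) / δ₂ t := by ring
        _ = 0 := by rw [inner, zero_div]
    obtain ⟨c1, c2⟩ := hi _ _ hfin
    have c3 : δ₂ (α y₁) = 0 := by
      have := neg_eq_zero.1 c2
      exact (div_eq_zero_iff.1 this).resolve_right hne
    have c4 : δ₂ (α y₂) = 0 := (div_eq_zero_iff.1 c1).resolve_right hne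
    -- then `δ₁ (α y₁) * δ₂ t = 0`
    have hy : ∀ δ₁ : Der L, δ₁ (α y₁) = 0 := by
      intro δ₁
      have := e1 δ₁ δ₂
      rw [c3, mul_zero] at this
      exact (mul_eq_zero.1 this).resolve_left hne
    exact step_b h hrel hy₁ (mem_pth_of_der hy)
  -- eigenvalue lemma
  have hnp := step_b h hrel hy₁
  obtain ⟨n, hn⟩ := eigen hnp (h.ne _ (ne_zero_of_notMem hy₁)) htp (hlog y₁ hy₁)
  refine ⟨n, by rw [← hn]; exact ht0, ?_⟩
  intro x hx0 δ
  by_cases hx : x ∈ pth K p
  · have h0 : δ (A x) = 0 := (h.ker x hx0).2 hx δ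
    obtain ⟨z, hz⟩ := mem_pth.1 hx
    have h1 : δ (α x) = 0 := by
      rw [← hz, map_pow]
      exact der_pow_p δ _
    simp [h0, h1]
  · rw [hlog x hx δ, hn]

end core

/-- **Main theorem of the core.** -/
theorem main {A : K → L} (h : Hyp p A) :
    ∃ (α : K →+* L) (n : ℕ), (n : L) ≠ 0 ∧
      ∀ x, x ≠ 0 → ∀ δ : Der L, δ (A x) / A x = n * (δ (α x) / α x) := by
  obtain ⟨α, hadd, hrel⟩ := (h.data).exists_ringHom
  obtain ⟨n, hn, hf⟩ := step_e h hadd hrel
  exact ⟨α, n, hn, hf⟩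

end Crest.Agent.Lib.MilnorRigidMain
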