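import Crest.Prelude.Def_MilnorK
import Crest.Agent.Lib.MilnorRigidMain

/-!
Interface between `KOne` and the derivation-level core.
-/

set_option autoImplicit false

open Crest.NumberTheoryR.MilnorK

namespace Crest.Agent.Lib.MilnorRigidK

open Crest.Agent.Lib.MilnorRigidDer Crest.Agent.Lib.MilnorRigidMain

section dlog

variable {L : Type*} [Field L] {p : ℕ} [hp : Fact p.Prime] [CharP L p]

/-- `dlog` on units. -/
noncomputable def dl0 (δ : Der L) : Additive Lˣ →+ L :=
  AddMonoidHom.mk' (fun u => δ ((Additive.toMul u : Lˣ) : L) / ((Additive.toMul u : Lˣ) : L)) (by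
    intro u v
    have hu : ((Additive.toMul u : Lˣ) : L) ≠ 0 := Units.ne_zero _
    have hv : ((Additive.toMul v : Lˣ) : L) ≠ 0 := Units.ne_zero _
    simp only [toMul_add, Units.val_mul, Derivation.leibniz, smul_eq_mul]
    field_simp
    ring)

omit hp in
theorem dl0_apply (δ : Der L) (u : Lˣ) : dl0 δ (Additive.ofMul u) = δ (u : L) / (u : L) := rfl

/-- `dlog` on `KOne`. -/
noncomputable def dl (δ : Der L) : KOne L p →+ L :=
  QuotientAddGroup.lift (pMultiples L p) (dl0 δ) (by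
    rintro _ ⟨y, rfl⟩
    have : (p : L) = 0 := CharP.cast_eq_zero L p
    simp [map_nsmul, nsmul_eq_mul, this])

theorem dl_cls (δ : Der L) (u : Lˣ) : dl (p := p) δ (cls L p u) = δ (u : L) / (u : L) := rfl

omit hp [CharP L p] in
theorem cls_mul (u v : Lˣ) : cls L p (u * v) = cls L p u + cls L p v := rfl

omit hp [CharP L p] in
theorem cls_surj (t : KOne L p) : ∃ u : Lˣ, cls L p u = t := by
  obtain ⟨x, rfl⟩ := QuotientAddGroup.mk_surjective t
  exact ⟨Additive.toMul x, rfl⟩

theorem cls_eq_zero {u : Lˣ} : cls L p u = 0 ↔ (u : L) ∈ pth L p := by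
  constructor
  · intro h
    have h1 : Additive.ofMul u ∈ pMultiples L p := (QuotientAddGroup.eq_zero_iff _).1 h
    obtain ⟨y, hy⟩ := h1
    refine mem_pth.2 ⟨((Additive.toMul y : Lˣ) : L), ?_⟩
    have : (Additive.toMul y : Lˣ) ^ p = u := by
      have := congrArg Additive.toMul hy
      simpa using this
    rw [← this, Units.val_pow_eq_pow_val]
  · intro h
    obtain ⟨z, hz⟩ := mem_pth.1 h
    have hz0 : z ≠ 0 := by
      rintro rfl
      rw [zero_pow hp.out.ne_zero] at hz
      exact u.ne_zero hz.symm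
    refine (QuotientAddGroup.eq_zero_iff _).2 ⟨Additive.ofMul (Units.mk0 z hz0), ?_⟩
    apply Additive.toMul.injective
    ext
    simpa using hz

theorem dl_smul (δ : Der L) (c : ZMod p) (t : KOne L p) :
    dl δ (c • t) = (c.val : L) * dl δ t := by
  conv_lhs => rw [← ZMod.natCast_zmod_val c, Nat.cast_smul_eq_nsmul]
  rw [map_nsmul, nsmul_eq_mul]

theorem dl_natCast_smul (δ : Der L) (n : ℕ) (t : KOne L p) :
    dl δ ((n : ZMod p) • t) = (n : L) * dl δ t := by
  rw [Nat.cast_smul_eq_nsmul, map_nsmul, nsmul_eq_mul]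

theorem eq_zero_of_dl {t : KOne L p} (h : ∀ δ : Der L, dl δ t = 0) : t = 0 := by
  obtain ⟨u, rfl⟩ := cls_surj t
  rw [cls_eq_zero]
  apply mem_pth_of_der
  intro δ
  have := h δ
  rw [dl_cls] at this
  exact (div_eq_zero_iff.1 this).resolve_right u.ne_zero

theorem eq_of_dl {t t' : KOne L p} (h : ∀ δ : Der L, dl δ t = dl δ t') : t = t' := by
  rw [← sub_eq_zero]
  apply eq_zero_of_dl
  intro δ
  rw [map_sub, h δ, sub_self]

/-- The pairing. -/
noncomputable def pair (δ δ' : Der L) :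
    TensorProduct (ZMod p) (KOne L p) (KOne L p) →+ L :=
  TensorProduct.liftAddHom
    (AddMonoidHom.mk'
      (fun m : KOne L p => AddMonoidHom.mk'
        (fun n : KOne L p => dl δ m * dl δ' n - dl δ' m * dl δ n) (by
          intro a b
          simp only [map_add]
          ring)) (by
        intro a b
        refine AddMonoidHom.ext fun n => ?_
        simp only [map_add, AddMonoidHom.mk'_apply, AddMonoidHom.add_apply]
        ring))
    (by
      intro r m n
      simp only [AddMonoidHom.mk'_apply, dl_smul]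
      ring)

theorem pair_tmul (δ δ' : Der L) (m n : KOne L p) :
    pair δ δ' (TensorProduct.tmul (ZMod p) m n) = dl δ m * dl δ' n - dl δ' m * dl δ n := by
  simp [pair]

theorem pair_steinberg (δ δ' : Der L) {t} (ht : t ∈ steinberg L p) : pair δ δ' t = 0 := by
  unfold steinberg at ht
  induction ht using Submodule.span_induction with
  | mem x hx =>
    obtain ⟨f, hf, hf1, rfl⟩ := hx
    rw [pair_tmul, dl_cls, dl_cls, dl_cls, dl_cls]
    simp only [Units.val_mk0, map_sub, Derivation.map_one_eq_zero, zero_sub, map_neg]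
    field_simp
    ring
  | zero => simp
  | add x y _ _ hx hy => rw [map_add, hx, hy, add_zero]
  | smul c x _ hx =>
    rw [← ZMod.natCast_zmod_val c, Nat.cast_smul_eq_nsmul, map_nsmul, hx, smul_zero]

end dlog

section main

variable {K L : Type*} [Field K] [Field L] {p : ℕ} [hp : Fact p.Prime] [CharP K p] [CharP L p]

/-- A representative. -/
noncomputable def rep (t : KOne L p) : Lˣ := (cls_surj t).choose

theorem cls_rep (t : KOne L p) : cls L p (rep t) = t := (cls_surj t).choose_spec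

open Classical in
/-- The representative map of `Θ`. -/
noncomputable def repA (Θ : KOne K p ≃ₗ[ZMod p] KOne L p) (x : K) : L :=
  if hx : x ≠ 0 then (rep (Θ (cls K p (Units.mk0 x hx))) : L) else 1

theorem repA_of_ne (Θ : KOne K p ≃ₗ[ZMod p] KOne L p) {x : K} (hx : x ≠ 0) :
    repA Θ x = (rep (Θ (cls K p (Units.mk0 x hx))) : L) := by
  simp [repA, hx]

theorem dl_repA (Θ : KOne K p ≃ₗ[ZMod p] KOne L p) {x : K} (hx : x ≠ 0) (δ : Der L) :
    δ (repA Θ x) / repA Θ x = dl δ (Θ (cls K p (Units.mk0 x hx))) := by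
  rw [repA_of_ne Θ hx]
  conv_rhs => rw [← cls_rep (Θ (cls K p (Units.mk0 x hx)))]
  rw [dl_cls]

theorem hyp_of_theta (Θ : KOne K p ≃ₗ[ZMod p] KOne L p) (hΘ : IsCompatible Θ)
    (hdim : ∃ a b : L, ∃ δ₁ δ₂ : Der L, δ₁ a ≠ 0 ∧ δ₂ a = 0 ∧ δ₂ b ≠ 0) :
    Hyp p (repA Θ) where
  ne x hx := by
    rw [repA_of_ne Θ hx]
    exact Units.ne_zero _
  mul x y hx hy δ := by
    rw [dl_repA Θ (mul_ne_zero hx hy), dl_repA Θ hx, dl_repA Θ hy, ← map_add, ← map_add,
      ← cls_mul]
    congr 3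
    ext
    simp
  ker x hx := by
    have e1 : (∀ δ : Der L, δ (repA Θ x) = 0) ↔ repA Θ x ∈ pth L p := mem_pth_iff.symm
    rw [e1, repA_of_ne Θ hx, ← cls_eq_zero, cls_rep]
    rw [LinearEquiv.map_eq_zero_iff, cls_eq_zero]
    simp
  dep f hf0 hf1 δ δ' := by
    have h1f : 1 - f ≠ 0 := sub_ne_zero.mpr (Ne.symm hf1)
    rw [dl_repA Θ hf0, dl_repA Θ h1f, dl_repA Θ hf0, dl_repA Θ h1f]
    have hmem : TensorProduct.tmul (ZMod p) (cls K p (Units.mk0 f hf0))
        (cls K p (Units.mk0 (1 - f) h1f)) ∈ steinberg K p :=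
      Submodule.subset_span ⟨f, hf0, h1f, rfl⟩
    have hmem2 := Submodule.mem_map_of_mem (f := TensorProduct.map Θ.toLinearMap Θ.toLinearMap) hmem
    rw [hΘ] at hmem2
    have := pair_steinberg δ δ' hmem2
    rw [TensorProduct.map_tmul, pair_tmul] at this
    exact sub_eq_zero.1 this
  surj y hy := by
    obtain ⟨u, hu⟩ := cls_surj (Θ.symm (cls L p (Units.mk0 y hy)))
    refine ⟨(u : K), u.ne_zero, ?_⟩
    intro δ
    rw [dl_repA Θ u.ne_zero]
    have : Units.mk0 (u : K) u.ne_zero = u := by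
      ext; simp
    rw [this, hu, LinearEquiv.apply_symm_apply, dl_cls]
    simp
  dim := hdim

/-- Existence of `α` and `c`. -/
theorem exists_alpha (Θ : KOne K p ≃ₗ[ZMod p] KOne L p) (hΘ : IsCompatible Θ)
    (hdim : ∃ a b : L, ∃ δ₁ δ₂ : Der L, δ₁ a ≠ 0 ∧ δ₂ a = 0 ∧ δ₂ b ≠ 0) :
    ∃ (α : K →+* L) (c : ZMod p), c ≠ 0 ∧
      ∀ u : Kˣ, Θ (cls K p u) = c • cls L p (Units.map α.toMonoidHom u) := by
  obtain ⟨α, n, hn, hα⟩ := main (hyp_of_theta Θ hΘ hdim)
  refine ⟨α, (n : ZMod p), ?_, ?_⟩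
  · intro h0
    apply hn
    have : p ∣ n := (ZMod.natCast_eq_zero_iff n p).1 h0
    exact (CharP.cast_eq_zero_iff L p n).2 this
  · intro u
    apply eq_of_dl
    intro δ
    rw [dl_natCast_smul, dl_cls]
    have e := hα (u : K) u.ne_zero δ
    rw [dl_repA Θ u.ne_zero] at e
    have : Units.mk0 (u : K) u.ne_zero = u := by
      ext; simp
    rw [this] at e
    rw [e]
    simp

/-- Non-vanishing of the cast of the value of a non-zero scalar. -/
theorem val_cast_ne {c : ZMod p} (hc : c ≠ 0) : ((c.val : ℕ) : L) ≠ 0 := by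
  intro h0
  have h1 : p ∣ c.val := (CharP.cast_eq_zero_iff L p c.val).1 h0
  have h2 : c.val < p := ZMod.val_lt c
  have h3 : c.val = 0 := Nat.eq_zero_of_dvd_of_lt h1 h2
  exact hc ((ZMod.val_eq_zero c).1 h3)

/-- Uniqueness: two presentations agree. -/
theorem alpha_unique (α₁ α₂ : K →+* L) (c₁ c₂ : ZMod p) (hc₁ : c₁ ≠ 0)
    (h : ∀ u : Kˣ, c₁ • cls L p (Units.map α₁.toMonoidHom u) =
      c₂ • cls L p (Units.map α₂.toMonoidHom u))
    (hnp : ∀ x : K, x ∉ pth K p → α₁ x ∉ pth L p) (hex : ∃ y : K, y ∉ pth K p) : α₁ = α₂ := by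
  -- first for `x ∉ pth`
  have key : ∀ x : K, x ∉ pth K p → α₁ x = α₂ x := by
    intro x hx
    have hx0 : x ≠ 0 := by
      rintro rfl
      exact hx (pth K p).zero_mem
    have hx1 : x ≠ 1 := by
      rintro rfl
      exact hx (pth K p).one_mem
    have h1x : 1 - x ≠ 0 := sub_ne_zero.mpr (Ne.symm hx1)
    have hn := hnp x hx
    obtain ⟨δ, hδ⟩ : ∃ δ : Der L, δ (α₁ x) ≠ 0 := by
      by_contra hcon
      push Not at hcon
      exact hn (mem_pth_of_der hcon)
    have e1 := congrArg (dl δ) (h (Units.mk0 x hx0))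
    have e2 := congrArg (dl δ) (h (Units.mk0 (1 - x) h1x))
    simp only [dl_smul, dl_cls, Units.coe_map, Units.val_mk0, RingHom.toMonoidHom_eq_coe,
      MonoidHom.coe_coe, map_sub, map_one, Derivation.map_one_eq_zero, zero_sub, map_neg] at e1 e2
    set h₁ := α₁ x
    set h₂ := α₂ x
    have hh₁ : h₁ ≠ 0 := (map_ne_zero α₁).2 hx0
    have hh₂ : h₂ ≠ 0 := (map_ne_zero α₂).2 hx0
    have hh₁' : 1 - h₁ ≠ 0 := by
      have := (map_ne_zero α₁).2 h1x
      simpa using this
    have hh₂' : 1 - h₂ ≠ 0 := by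
      have := (map_ne_zero α₂).2 h1x
      simpa using this
    set n₁ : L := ((c₁.val : ℕ) : L)
    set n₂ : L := ((c₂.val : ℕ) : L)
    have hn₁ : n₁ ≠ 0 := val_cast_ne hc₁
    have e3 : n₁ * δ h₁ * h₂ = n₂ * δ h₂ * h₁ := by
      field_simp at e1
      linear_combination e1
    have e4 : n₁ * δ h₁ * (1 - h₂) = n₂ * δ h₂ * (1 - h₁) := by
      field_simp at e2
      linear_combination (-1) * e2
    have e5 : n₁ * δ h₁ = n₂ * δ h₂ := by linear_combination e3 + e4
    have e6 : n₁ * δ h₁ * h₂ = n₁ * δ h₁ * h₁ := by rw [e3, e5]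
    have hne : n₁ * δ h₁ ≠ 0 := mul_ne_zero hn₁ hδ
    exact (mul_left_cancel₀ hne e6).symm
  obtain ⟨y, hy⟩ := hex
  ext x
  by_cases hx : x ∈ pth K p
  · have hxy : x + y ∉ pth K p := by
      intro hm
      apply hy
      have := (pth K p).sub_mem hm hx
      simpa using this
    have e1 := key _ hxy
    have e2 := key _ hy
    rw [map_add, map_add, e2] at e1
    exact add_right_cancel e1
  · exact key x hx

end main

end Crest.Agent.Lib.MilnorRigidK
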