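import Crest.Statements.S0112

/-! Basics on the line calculus: characters, the unitary group, strong continuity,
and invariance of the vacuum vector. -/

set_option autoImplicit false

namespace Crest.Agent.Lib.ModBoot

open Crest.OpAlg Filter MeasureTheory Topology
open scoped InnerProductSpace ComplexConjugate BoundedContinuousFunction

variable {H : Type*} [NormedAddCommGroup H] [InnerProductSpace ℂ H] [CompleteSpace H]

local notation "BCF" => BoundedContinuousFunction ℝ ℂ

section calculus

variable (D : LineCalculus H)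

lemma norm_apply_le (f : BCF) : ‖D.apply f‖ ≤ ‖f‖ :=
  NonUnitalStarAlgHom.norm_apply_le D.apply f

lemma norm_apply_apply_le (f : BCF) (x : H) : ‖D.apply f x‖ ≤ ‖f‖ * ‖x‖ :=
  (D.apply f).le_opNorm x |>.trans (mul_le_mul_of_nonneg_right (norm_apply_le D f) (norm_nonneg _))

lemma apply_mul_apply (f g : BCF) (x : H) : D.apply f (D.apply g x) = D.apply (f * g) x := by
  rw [map_mul]; rfl

lemma apply_comm (f g : BCF) (x : H) : D.apply f (D.apply g x) = D.apply g (D.apply f x) := by
  rw [apply_mul_apply, apply_mul_apply, mul_comm]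

lemma character_apply (t u : ℝ) :
    LineCalculus.character t u = Complex.exp (Complex.I * ((t * u : ℝ) : ℂ)) := rfl

lemma character_add (s t : ℝ) :
    LineCalculus.character (s + t) = LineCalculus.character s * LineCalculus.character t := by
  ext u
  simp only [BoundedContinuousFunction.coe_mul, Pi.mul_apply, character_apply, ← Complex.exp_add]
  congr 1
  push_cast
  ring

lemma character_zero : LineCalculus.character 0 = 1 := by
  ext u
  simp [character_apply]

lemma star_character (t : ℝ) : star (LineCalculus.character t) = LineCalculus.character (-t) := by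
  ext u
  simp only [BoundedContinuousFunction.star_apply, character_apply, Complex.star_def]
  rw [← Complex.exp_conj]
  congr 1
  simp

lemma wave_add (s t : ℝ) : D.wave (s + t) = D.wave s * D.wave t := by
  simp [LineCalculus.wave, character_add, map_mul]

lemma wave_zero : D.wave 0 = 1 := by
  simp [LineCalculus.wave, character_zero]

lemma star_wave (t : ℝ) : star (D.wave t) = D.wave (-t) := by
  simp [LineCalculus.wave, ← star_character, map_star]

lemma wave_mul_neg (t : ℝ) : D.wave t * D.wave (-t) = 1 := by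
  rw [← wave_add, add_neg_cancel, wave_zero]

lemma wave_neg_mul (t : ℝ) : D.wave (-t) * D.wave t = 1 := by
  rw [← wave_add, neg_add_cancel, wave_zero]

lemma wave_wave (s t : ℝ) (x : H) : D.wave s (D.wave t x) = D.wave (s + t) x := by
  rw [wave_add]; rfl

lemma wave_neg_wave (t : ℝ) (x : H) : D.wave (-t) (D.wave t x) = x := by
  rw [wave_wave]; simp [wave_zero]

lemma wave_wave_neg (t : ℝ) (x : H) : D.wave t (D.wave (-t) x) = x := by
  rw [wave_wave]; simp [wave_zero]

lemma inner_wave_left (t : ℝ) (x y : H) : ⟪D.wave t x, y⟫_ℂ = ⟪x, D.wave (-t) y⟫_ℂ := by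
  rw [← star_wave, ContinuousLinearMap.star_eq_adjoint, ContinuousLinearMap.adjoint_inner_right]

lemma inner_wave_right (t : ℝ) (x y : H) : ⟪x, D.wave t y⟫_ℂ = ⟪D.wave (-t) x, y⟫_ℂ := by
  rw [inner_wave_left, neg_neg]

lemma inner_wave_wave (t : ℝ) (x y : H) : ⟪D.wave t x, D.wave t y⟫_ℂ = ⟪x, y⟫_ℂ := by
  rw [inner_wave_left, wave_neg_wave]

lemma norm_wave_apply (t : ℝ) (x : H) : ‖D.wave t x‖ = ‖x‖ := by
  have h := inner_wave_wave D t x x
  rw [inner_self_eq_norm_sq_to_K, inner_self_eq_norm_sq_to_K] at h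
  have h2 : ‖D.wave t x‖ ^ 2 = ‖x‖ ^ 2 := by exact_mod_cast h
  exact (pow_left_inj₀ (norm_nonneg _) (norm_nonneg _) two_ne_zero).1 h2

lemma norm_wave_le (t : ℝ) : ‖D.wave t‖ ≤ 1 :=
  ContinuousLinearMap.opNorm_le_bound _ zero_le_one (fun x => by
    rw [norm_wave_apply, one_mul])

/-- The functions `u ↦ e^{itu} f(u)`, for `f` of compact support, depend continuously on `t` in
the sup norm. -/
lemma continuous_character_mul (f : BCF) (hf : HasCompactSupport (f : ℝ → ℂ)) :
    Continuous (fun t : ℝ => LineCalculus.character t * f) := by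
  obtain ⟨R, hR⟩ := hf.isCompact.isBounded.subset_closedBall (0 : ℝ)
  have hR' : ∀ u : ℝ, f u ≠ 0 → |u| ≤ R := by
    intro u hu
    have : u ∈ Metric.closedBall (0 : ℝ) R := hR (subset_closure hu)
    simpa [Real.norm_eq_abs] using this
  have key : ∀ s t : ℝ, ‖LineCalculus.character t * f - LineCalculus.character s * f‖
      ≤ |t - s| * (|R| * ‖f‖) := by
    intro s t
    refine (BoundedContinuousFunction.norm_le (by positivity)).2 ?_
    intro u
    simp only [BoundedContinuousFunction.coe_sub, BoundedContinuousFunction.coe_mul, Pi.sub_apply,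
      Pi.mul_apply]
    by_cases hu : f u = 0
    · simp [hu]; positivity
    have hu' : |u| ≤ |R| := (hR' u hu).trans (le_abs_self R)
    have h1 : ‖LineCalculus.character t u - LineCalculus.character s u‖ ≤ |t - s| * |u| := by
      simp only [character_apply]
      have : Complex.exp (Complex.I * ((t * u : ℝ) : ℂ)) - Complex.exp (Complex.I * ((s * u : ℝ) : ℂ))
          = Complex.exp (Complex.I * ((s * u : ℝ) : ℂ)) *
            (Complex.exp (Complex.I * (((t - s) * u : ℝ) : ℂ)) - 1) := by
        rw [mul_sub, mul_one, ← Complex.exp_add]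
        congr 2
        push_cast
        ring
      rw [this, norm_mul, mul_comm Complex.I, Complex.norm_exp_ofReal_mul_I, one_mul]
      have h2 := Real.norm_exp_I_mul_ofReal_sub_one_le (x := (t - s) * u)
      simpa [abs_mul, Real.norm_eq_abs] using h2
    calc ‖LineCalculus.character t u * f u - LineCalculus.character s u * f u‖
        = ‖LineCalculus.character t u - LineCalculus.character s u‖ * ‖f u‖ := by
          rw [← sub_mul, norm_mul]
      _ ≤ (|t - s| * |u|) * ‖f‖ :=
          mul_le_mul h1 (f.norm_coe_le_norm u) (norm_nonneg _) (by positivity)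
      _ ≤ |t - s| * (|R| * ‖f‖) := by
          rw [mul_assoc]
          exact mul_le_mul_of_nonneg_left
            (mul_le_mul_of_nonneg_right hu' (norm_nonneg _)) (abs_nonneg _)
  refine (LipschitzWith.of_dist_le_mul (K := (|R| * ‖f‖).toNNReal) ?_).continuous
  intro s t
  rw [dist_eq_norm, Real.dist_eq, Real.coe_toNNReal _ (by positivity), mul_comm _ (|s - t|)]
  exact key t s

lemma wave_apply_continuous (x : H) : Continuous (fun t : ℝ => D.wave t x) := by
  rw [Metric.continuous_iff]
  intro t₀ ε hε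
  obtain ⟨f, hf, hfx⟩ := D.window x (ε / 3) (by linarith)
  have hc : Continuous (fun t : ℝ => D.apply (LineCalculus.character t * f) x) := by
    have h1 : Continuous (fun g : BCF => D.apply g x) := by
      have : Continuous (fun g : BCF => D.apply g) :=
        (AddMonoidHomClass.continuous_of_bound (D.apply : BCF →+ (H →L[ℂ] H)) 1 (fun g => by
          simpa using norm_apply_le D g))
      exact this.clm_apply continuous_const
    exact h1.comp (continuous_character_mul f hf)
  obtain ⟨δ, hδ, hδ'⟩ := Metric.continuous_iff.1 hc t₀ (ε / 3) (by linarith)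
  refine ⟨δ, hδ, fun t ht => ?_⟩
  have h2 := hδ' t ht
  rw [dist_eq_norm] at h2 ⊢
  have e1 : ∀ t : ℝ, D.wave t (D.apply f x) = D.apply (LineCalculus.character t * f) x := by
    intro t; exact apply_mul_apply D _ _ x
  rw [← e1, ← e1] at h2
  have : D.wave t x - D.wave t₀ x = D.wave t (x - D.apply f x)
      + (D.wave t (D.apply f x) - D.wave t₀ (D.apply f x)) - D.wave t₀ (x - D.apply f x) := by
    simp only [map_sub]; abel
  rw [this]
  have h3 : ‖x - D.apply f x‖ < ε / 3 := by rwa [norm_sub_rev]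
  calc _ ≤ ‖D.wave t (x - D.apply f x)‖
        + ‖D.wave t (D.apply f x) - D.wave t₀ (D.apply f x)‖
        + ‖D.wave t₀ (x - D.apply f x)‖ := by
        refine (norm_sub_le _ _).trans ?_
        gcongr
        exact norm_add_le _ _
    _ < ε := by
        rw [norm_wave_apply, norm_wave_apply]
        linarith

lemma wave_apply_continuous' {c : ℝ → H} (hc : Continuous c) :
    Continuous (fun t : ℝ => D.wave t (c t)) := by
  rw [Metric.continuous_iff]
  intro t₀ ε hε
  obtain ⟨δ₁, hδ₁, h₁⟩ := Metric.continuous_iff.1 (wave_apply_continuous D (c t₀)) t₀ (ε / 2)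
    (by linarith)
  obtain ⟨δ₂, hδ₂, h₂⟩ := Metric.continuous_iff.1 hc t₀ (ε / 2) (by linarith)
  refine ⟨min δ₁ δ₂, lt_min hδ₁ hδ₂, fun t ht => ?_⟩
  have h3 := h₁ t (lt_of_lt_of_le ht (min_le_left _ _))
  have h4 := h₂ t (lt_of_lt_of_le ht (min_le_right _ _))
  rw [dist_eq_norm] at h3 h4 ⊢
  have : D.wave t (c t) - D.wave t₀ (c t₀) = D.wave t (c t - c t₀)
      + (D.wave t (c t₀) - D.wave t₀ (c t₀)) := by
    simp only [map_sub]; abel
  rw [this]
  calc _ ≤ ‖D.wave t (c t - c t₀)‖ + ‖D.wave t (c t₀) - D.wave t₀ (c t₀)‖ := norm_add_le _ _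
    _ < ε := by rw [norm_wave_apply]; linarith

end calculus

section vacuum

variable (S : ModularDatum H)

lemma inner_J (x y : H) : ⟪S.J x, S.J y⟫_ℂ = ⟪y, x⟫_ℂ := by
  have hI : ∀ v : H, S.J (Complex.I • v) = (-Complex.I) • S.J v := by
    intro v
    rw [map_smulₛₗ]
    simp
  have e1 : ‖S.J x + S.J y‖ = ‖y + x‖ := by
    rw [← map_add, LinearIsometryEquiv.norm_map, add_comm]
  have e2 : ‖S.J x - S.J y‖ = ‖y - x‖ := by
    rw [← map_sub, LinearIsometryEquiv.norm_map, norm_sub_rev]
  have e3 : ‖S.J x - Complex.I • S.J y‖ = ‖y - Complex.I • x‖ := by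
    have : S.J x - Complex.I • S.J y = S.J (x + Complex.I • y) := by
      rw [map_add, hI]; simp [sub_eq_add_neg]
    rw [this, LinearIsometryEquiv.norm_map]
    have h2 : y - Complex.I • x = (-Complex.I) • (x + Complex.I • y) := by
      rw [smul_add, smul_smul]; simp [sub_eq_add_neg, add_comm]
    rw [h2, norm_smul]; simp
  have e4 : ‖S.J x + Complex.I • S.J y‖ = ‖y + Complex.I • x‖ := by
    have : S.J x + Complex.I • S.J y = S.J (x - Complex.I • y) := by
      rw [map_sub, hI]; simp [sub_eq_add_neg]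
    rw [this, LinearIsometryEquiv.norm_map]
    have h2 : y + Complex.I • x = (Complex.I) • (x - Complex.I • y) := by
      rw [smul_sub, smul_smul]; simp [sub_eq_add_neg, add_comm]
    rw [h2, norm_smul]; simp
  have hII : (RCLike.I : ℂ) = Complex.I := rfl
  rw [inner_eq_sum_norm_sq_div_four (𝕜 := ℂ) (S.J x) (S.J y),
    inner_eq_sum_norm_sq_div_four (𝕜 := ℂ) y x, hII]
  change ((‖S.J x + S.J y‖ : ℂ) ^ 2 - (‖S.J x - S.J y‖ : ℂ) ^ 2 +
    ((‖S.J x - Complex.I • S.J y‖ : ℂ) ^ 2 - (‖S.J x + Complex.I • S.J y‖ : ℂ) ^ 2) * Complex.I) / 4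
    = ((‖y + x‖ : ℂ) ^ 2 - (‖y - x‖ : ℂ) ^ 2 +
    ((‖y - Complex.I • x‖ : ℂ) ^ 2 - (‖y + Complex.I • x‖ : ℂ) ^ 2) * Complex.I) / 4
  rw [e1, e2, e3, e4]

/-- The graph of Tomita's operator. -/
def tomitaSet : Set (H × H) :=
  Set.range fun a : S.M => ((a : H →L[ℂ] H) S.vac, star (a : H →L[ℂ] H) S.vac)

lemma halfExp_of_mem {p : H × H} (hp : p ∈ closure (tomitaSet S)) :
    S.D.HalfExp p.1 (S.J p.2) := by
  have := S.tomita
  unfold tomitaSet at hp
  rw [this] at hp
  exact hp

lemma mem_closure_of_halfExp {x w : H} (h : S.D.HalfExp x w) :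
    (x, S.J w) ∈ closure (tomitaSet S) := by
  have := S.tomita
  unfold tomitaSet
  rw [this]
  change S.D.HalfExp x (S.J (S.J w))
  rwa [S.J_J]

lemma inner_pair {p : H × H} (hp : p ∈ closure (tomitaSet S)) :
    ⟪p.2, S.vac⟫_ℂ = ⟪S.vac, p.1⟫_ℂ := by
  have hcl : IsClosed {p : H × H | ⟪p.2, S.vac⟫_ℂ = ⟪S.vac, p.1⟫_ℂ} :=
    isClosed_eq (by fun_prop) (by fun_prop)
  refine closure_minimal ?_ hcl hp
  rintro _ ⟨a, rfl⟩
  change ⟪star (a : H →L[ℂ] H) S.vac, S.vac⟫_ℂ = ⟪S.vac, (a : H →L[ℂ] H) S.vac⟫_ℂ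
  rw [ContinuousLinearMap.star_eq_adjoint, ContinuousLinearMap.adjoint_inner_left]

lemma halfExp_vac : S.D.HalfExp S.vac (S.J S.vac) := by
  have h1 : (S.vac, S.vac) ∈ closure (tomitaSet S) := by
    refine subset_closure ⟨1, ?_⟩
    simp
  exact halfExp_of_mem S h1

/-- A compactly supported continuous function as a bounded continuous function. -/
noncomputable def mkBCF (f : ℝ → ℂ) (hc : Continuous f) (hs : HasCompactSupport f) : BCF :=
  BoundedContinuousFunction.ofNormedAddCommGroup f hc
    (Classical.choose (hc.bounded_above_of_compact_support hs))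
    (Classical.choose_spec (hc.bounded_above_of_compact_support hs))

@[simp] lemma mkBCF_apply (f : ℝ → ℂ) (hc : Continuous f) (hs : HasCompactSupport f) (u : ℝ) :
    mkBCF f hc hs u = f u := rfl

lemma apply_vac_eq_zero (g₁ : BCF) (hg₁ : HasCompactSupport (g₁ : ℝ → ℂ)) (G : BCF)
    (hG : ∀ u, G u = g₁ u * ((Real.exp u : ℝ) - 1 : ℂ)) : S.D.apply G S.vac = 0 := by
  set D := S.D with hD
  -- the two auxiliary functions
  have hcs : Continuous (fun u : ℝ => ((Real.exp (u / 2) : ℝ) : ℂ)) := by fun_prop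
  have hcs2 : Continuous (fun u : ℝ => ((Real.exp u : ℝ) : ℂ)) := by fun_prop
  let g₀ : BCF := star g₁
  have hg₀ : ∀ u, g₀ u = conj (g₁ u) := fun u => rfl
  have hg₀c : HasCompactSupport (g₀ : ℝ → ℂ) := by
    have : (g₀ : ℝ → ℂ) = fun u => conj (g₁ u) := funext hg₀
    rw [this]
    exact hg₁.comp_left (by simp)
  let h₀ : BCF := mkBCF (fun u => g₀ u * ((Real.exp (u / 2) : ℝ) : ℂ))
    (g₀.continuous.mul hcs) hg₀c.mul_right
  let G₂ : BCF := mkBCF (fun u => g₁ u * ((Real.exp u : ℝ) : ℂ))
    (g₁.continuous.mul hcs2) hg₁.mul_right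
  have key : ∀ y : H, ⟪S.J S.vac, D.apply h₀ y⟫_ℂ = ⟪S.vac, D.apply g₀ y⟫_ℂ := by
    intro y
    have hhalf : D.HalfExp (D.apply g₀ y) (D.apply h₀ y) := by
      intro f g hfg
      rw [apply_mul_apply, apply_mul_apply]
      congr 2
      ext u
      simp only [BoundedContinuousFunction.coe_mul, Pi.mul_apply, h₀, mkBCF_apply, hfg]
      ring
    have hp := mem_closure_of_halfExp S hhalf
    have h3 := inner_pair S hp
    simp only at h3
    have h4 : ⟪S.J (D.apply h₀ y), S.vac⟫_ℂ = ⟪S.J S.vac, D.apply h₀ y⟫_ℂ := by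
      conv_lhs => rw [← S.J_J S.vac]
      rw [inner_J]
    rw [h4] at h3
    exact h3
  have key2 : D.apply (star h₀) (S.J S.vac) = D.apply g₁ S.vac := by
    refine ext_inner_right ℂ (fun y => ?_)
    have e1 : ⟪D.apply (star h₀) (S.J S.vac), y⟫_ℂ = ⟪S.J S.vac, D.apply h₀ y⟫_ℂ := by
      rw [map_star, ContinuousLinearMap.star_eq_adjoint, ContinuousLinearMap.adjoint_inner_left]
    have e2 : ⟪D.apply g₁ S.vac, y⟫_ℂ = ⟪S.vac, D.apply g₀ y⟫_ℂ := by
      have : g₁ = star g₀ := by simp [g₀]
      rw [this, map_star, ContinuousLinearMap.star_eq_adjoint,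
        ContinuousLinearMap.adjoint_inner_left]
    rw [e1, e2, key]
  have key3 : D.apply (star h₀) (S.J S.vac) = D.apply G₂ S.vac := by
    apply halfExp_vac S
    intro u
    simp only [BoundedContinuousFunction.star_apply, h₀, G₂, mkBCF_apply, Complex.star_def,
      map_mul, hg₀, Complex.conj_conj, Complex.conj_ofReal]
    rw [mul_assoc, ← Complex.ofReal_mul, ← Real.exp_add]
    congr 3
    ring
  have key4 : G = G₂ - g₁ := by
    ext u
    simp only [hG, BoundedContinuousFunction.coe_sub, Pi.sub_apply, G₂, mkBCF_apply]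
    ring
  rw [key4, map_sub, _root_.sub_apply, ← key3, key2, sub_self]

lemma dslope_continuous {f : ℝ → ℂ} (hf : Differentiable ℝ f) (a : ℝ) :
    Continuous (dslope f a) := by
  rw [continuous_iff_continuousAt]
  intro b
  by_cases hb : b = a
  · subst hb
    exact continuousAt_dslope_same.2 (hf b)
  · exact (continuousAt_dslope_of_ne hb).2 (hf b).continuousAt

/-- The vacuum vector is fixed by the unitary group. -/
lemma wave_vac (t : ℝ) : S.D.wave t S.vac = S.vac := by
  set D := S.D with hD
  by_contra hne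
  set x := D.wave t S.vac - S.vac with hx
  have hxpos : 0 < ‖x‖ := norm_pos_iff.2 (sub_ne_zero.2 hne)
  obtain ⟨f, hf, hfx⟩ := D.window x ‖x‖ hxpos
  -- the division
  let A : ℝ → ℂ := fun u => LineCalculus.character t u - 1
  let B : ℝ → ℂ := fun u => ((Real.exp u : ℝ) : ℂ) - 1
  have hA : Differentiable ℝ A := by
    have : A = fun u => Complex.exp (Complex.I * ((t * u : ℝ) : ℂ)) - 1 := rfl
    rw [this]
    fun_prop
  have hB : Differentiable ℝ B := by
    have : B = fun u : ℝ => ((Real.exp u : ℝ) : ℂ) - 1 := rfl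
    rw [this]
    fun_prop
  have hA0 : A 0 = 0 := by simp [A, character_apply]
  have hB0 : B 0 = 0 := by simp [B]
  have hdB : ∀ u, dslope B 0 u ≠ 0 := by
    intro u hu
    by_cases h0 : u = 0
    · subst h0
      rw [dslope_same] at hu
      have : HasDerivAt B (((Real.exp 0 : ℝ) : ℂ)) 0 := by
        have h1 : HasDerivAt (fun u : ℝ => Real.exp u) (Real.exp 0) 0 := Real.hasDerivAt_exp 0
        have h2 := h1.ofReal_comp
        exact h2.sub_const 1
      rw [this.deriv] at hu
      simp at hu
    · have h1 := sub_smul_dslope_of_zero hB0 u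
      rw [hu, smul_zero] at h1
      simp only [B] at h1
      have h2 : Real.exp u = 1 := by
        have h3 : Real.exp u - 1 = 0 := by exact_mod_cast h1.symm
        linarith
      exact h0 (Real.exp_eq_one_iff u |>.1 h2)
  let κ : ℝ → ℂ := fun u => dslope A 0 u / dslope B 0 u
  have hκc : Continuous κ :=
    (dslope_continuous hA 0).div (dslope_continuous hB 0) hdB
  have hκ : ∀ u, κ u * B u = A u := by
    intro u
    have h1 := sub_smul_dslope_of_zero hA0 u
    have h2 := sub_smul_dslope_of_zero hB0 u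
    rw [← h1, ← h2]
    simp only [κ, sub_zero, Complex.real_smul]
    field_simp [hdB u]
  let g₁ : BCF := mkBCF (fun u => f u * κ u) (f.continuous.mul hκc) hf.mul_right
  have hg₁ : HasCompactSupport (g₁ : ℝ → ℂ) := hf.mul_right
  let G : BCF := f * LineCalculus.character t - f
  have hG : ∀ u, G u = g₁ u * ((Real.exp u : ℝ) - 1 : ℂ) := by
    intro u
    have := hκ u
    simp only [BoundedContinuousFunction.coe_sub, BoundedContinuousFunction.coe_mul, Pi.sub_apply,
      Pi.mul_apply, G, g₁, mkBCF_apply]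
    simp only [A, B] at this
    calc f u * LineCalculus.character t u - f u
        = f u * (LineCalculus.character t u - 1) := by ring
      _ = f u * (κ u * (((Real.exp u : ℝ) : ℂ) - 1)) := by rw [this]
      _ = _ := by ring
  have h0 := apply_vac_eq_zero S g₁ hg₁ G hG
  have h1 : D.apply f x = 0 := by
    have : D.apply f x = D.apply G S.vac := by
      simp only [hx, map_sub, G, _root_.sub_apply]
      congr 1
      exact apply_mul_apply D _ _ _
    rw [this]
    exact h0
  rw [h1, zero_sub, norm_neg] at hfx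
  exact lt_irrefl _ hfx

end vacuum

end Crest.Agent.Lib.ModBoot
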