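import Crest.Agent.Lib.ModBoot1

/-! Window means along an ultrafilter; the ergodic mean of the modular flow. -/

set_option autoImplicit false

namespace Crest.Agent.Lib.ModBoot

open Crest.OpAlg Filter MeasureTheory Topology Set
open scoped InnerProductSpace ComplexConjugate BoundedContinuousFunction

section means

variable {E : Type*} [NormedAddCommGroup E] [NormedSpace ℝ E]

/-- The window average of a function. -/
noncomputable def wavg (g : ℝ → E) (k : ℕ) : E := ⨍ t in Set.Icc (-(k : ℝ)) (k : ℝ), g t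

lemma wavg_eq (g : ℝ → E) (k : ℕ) :
    wavg g k = (volume.real (Set.Icc (-(k : ℝ)) (k : ℝ)))⁻¹ •
      ∫ t in Set.Icc (-(k : ℝ)) (k : ℝ), g t := setAverage_eq _ _ _

lemma volReal (k : ℕ) : volume.real (Set.Icc (-(k : ℝ)) (k : ℝ)) = 2 * k := by
  simp only [Measure.real, Real.volume_Icc]
  rw [ENNReal.toReal_ofReal (by
    have : (0 : ℝ) ≤ k := Nat.cast_nonneg k
    linarith)]
  ring

lemma wavg_add {g₁ g₂ : ℝ → E} (h₁ : Continuous g₁) (h₂ : Continuous g₂) (k : ℕ) :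
    wavg (fun t => g₁ t + g₂ t) k = wavg g₁ k + wavg g₂ k := by
  simp only [wavg_eq]
  rw [integral_add (h₁.integrableOn_Icc) (h₂.integrableOn_Icc), smul_add]

lemma wavg_congr {g₁ g₂ : ℝ → E} (h : ∀ t, g₁ t = g₂ t) (k : ℕ) : wavg g₁ k = wavg g₂ k := by
  have : g₁ = g₂ := funext h
  rw [this]

lemma wavg_const_mul {𝕜 : Type*} [RCLike 𝕜] (c : 𝕜) (g : ℝ → 𝕜) (k : ℕ) :
    wavg (fun t => c * g t) k = c * wavg g k := by
  simp only [wavg_eq]
  rw [integral_const_mul, mul_smul_comm]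

lemma wavg_clm {F : Type*} [NormedAddCommGroup F] [NormedSpace ℝ F] [CompleteSpace E]
    [CompleteSpace F] (L : E →L[ℝ] F) {g : ℝ → E} (h : Continuous g) (k : ℕ) :
    wavg (fun t => L (g t)) k = L (wavg g k) := by
  simp only [wavg_eq]
  rw [map_smul, L.integral_comp_comm h.integrableOn_Icc]

lemma norm_wavg_le {g : ℝ → E} {B : ℝ} (hB : ∀ t, ‖g t‖ ≤ B) (k : ℕ) : ‖wavg g k‖ ≤ B := by
  have hB0 : 0 ≤ B := (norm_nonneg _).trans (hB 0)
  rw [wavg_eq, volReal]
  rcases Nat.eq_zero_or_pos k with rfl | hk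
  · simp [hB0]
  have hk' : (0 : ℝ) < k := Nat.cast_pos.2 hk
  have h1 : ‖∫ t in Set.Icc (-(k : ℝ)) (k : ℝ), g t‖ ≤ B * (2 * k) := by
    have := norm_setIntegral_le_of_norm_le_const (μ := volume) (s := Set.Icc (-(k : ℝ)) (k : ℝ))
      (f := g) (C := B) (by simp) (fun t _ => hB t)
    rwa [volReal] at this
  rw [norm_smul, Real.norm_eq_abs, abs_of_nonneg (by positivity)]
  calc (2 * (k : ℝ))⁻¹ * ‖∫ t in Set.Icc (-(k : ℝ)) (k : ℝ), g t‖
      ≤ (2 * (k : ℝ))⁻¹ * (B * (2 * k)) := by gcongr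
    _ = B := by field_simp

/-- `g` has mean `L` along the ultrafilter `ω`. -/
def HasMean (ω : Ultrafilter ℕ) (g : ℝ → E) (L : E) : Prop :=
  Tendsto (wavg g) (ω : Filter ℕ) (𝓝 L)

variable {ω : Ultrafilter ℕ}

lemma HasMean.unique {g : ℝ → E} {L L' : E} (h : HasMean ω g L) (h' : HasMean ω g L') : L = L' :=
  tendsto_nhds_unique h h'

lemma exists_hasMean [ProperSpace E] (ω : Ultrafilter ℕ) {g : ℝ → E} {B : ℝ}
    (hB : ∀ t, ‖g t‖ ≤ B) : ∃ L, HasMean ω g L ∧ ‖L‖ ≤ B := by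
  have hc : IsCompact (Metric.closedBall (0 : E) B) := isCompact_closedBall _ _
  have hm : (↑(ω.map (wavg g)) : Filter E) ≤ 𝓟 (Metric.closedBall (0 : E) B) := by
    rw [le_principal_iff]
    change _ ∈ (ω : Filter ℕ).map (wavg g)
    rw [mem_map]
    refine univ_mem' (fun k => ?_)
    simpa using norm_wavg_le hB k
  obtain ⟨L, hL, hL'⟩ := hc.ultrafilter_le_nhds _ hm
  exact ⟨L, hL', by simpa using hL⟩

lemma HasMean.add {g₁ g₂ : ℝ → E} {L₁ L₂ : E} (h₁ : HasMean ω g₁ L₁) (h₂ : HasMean ω g₂ L₂)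
    (c₁ : Continuous g₁) (c₂ : Continuous g₂) : HasMean ω (fun t => g₁ t + g₂ t) (L₁ + L₂) := by
  have := Tendsto.add h₁ h₂
  refine this.congr (fun k => ?_)
  rw [wavg_add c₁ c₂]

lemma HasMean.const_mul {𝕜 : Type*} [RCLike 𝕜] {g : ℝ → 𝕜} {L : 𝕜} (h : HasMean ω g L) (c : 𝕜) :
    HasMean ω (fun t => c * g t) (c * L) := by
  have := Tendsto.const_mul c h
  refine this.congr (fun k => ?_)
  rw [wavg_const_mul]

lemma HasMean.clm {F : Type*} [NormedAddCommGroup F] [NormedSpace ℝ F] [CompleteSpace E]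
    [CompleteSpace F] (L : E →L[ℝ] F) {g : ℝ → E} {a : E} (h : HasMean ω g a) (c : Continuous g) :
    HasMean ω (fun t => L (g t)) (L a) := by
  have := L.continuous.continuousAt (x := a) |>.tendsto.comp h
  refine this.congr (fun k => ?_)
  rw [wavg_clm L c]
  rfl

lemma HasMean.congr {g₁ g₂ : ℝ → E} {L : E} (h : HasMean ω g₁ L) (hg : ∀ t, g₁ t = g₂ t) :
    HasMean ω g₂ L := by
  have : g₁ = g₂ := funext hg
  rwa [← this]

lemma hasMean_const [CompleteSpace E] (hω : (ω : Filter ℕ) ≤ atTop) (c : E) :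
    HasMean ω (fun _ => c) c := by
  have h1 : ∀ᶠ k : ℕ in (ω : Filter ℕ), wavg (fun _ => c) k = c := by
    refine hω (eventually_ge_atTop 1 |>.mono fun k hk => ?_)
    have hk' : (1 : ℝ) ≤ k := by exact_mod_cast hk
    rw [wavg_eq, setIntegral_const, volReal, smul_smul, inv_mul_cancel₀ (by positivity), one_smul]
  exact tendsto_const_nhds.congr' (h1.mono fun k hk => hk.symm)

lemma wavg_neg {g : ℝ → E} [CompleteSpace E] (k : ℕ) : wavg (fun t => g (-t)) k = wavg g k := by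
  have hk : -(k : ℝ) ≤ k := by
    have : (0 : ℝ) ≤ k := Nat.cast_nonneg k
    linarith
  simp only [wavg_eq]
  congr 1
  rw [integral_Icc_eq_integral_Ioc, integral_Icc_eq_integral_Ioc,
    ← intervalIntegral.integral_of_le hk, ← intervalIntegral.integral_of_le hk,
    intervalIntegral.integral_comp_neg (fun t => g t)]
  simp

lemma HasMean.reflect [CompleteSpace E] {g : ℝ → E} {L : E} (h : HasMean ω g L) :
    HasMean ω (fun t => g (-t)) L := by
  refine Tendsto.congr (fun k => ?_) h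
  rw [wavg_neg]

lemma wavg_translate_close [CompleteSpace E] {g : ℝ → E} (hc : Continuous g) {B : ℝ}
    (hB : ∀ t, ‖g t‖ ≤ B) (r : ℝ) {k : ℕ} (hk : 1 ≤ k) :
    ‖wavg (fun t => g (t + r)) k - wavg g k‖ ≤ |r| * B / k := by
  have hB0 : 0 ≤ B := (norm_nonneg _).trans (hB 0)
  have hk' : (1 : ℝ) ≤ k := by exact_mod_cast hk
  have hk0 : (0 : ℝ) < k := by linarith
  have hle : -(k : ℝ) ≤ k := by linarith
  rw [wavg_eq, wavg_eq, ← smul_sub, volReal]
  rw [integral_Icc_eq_integral_Ioc, integral_Icc_eq_integral_Ioc,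
    ← intervalIntegral.integral_of_le hle, ← intervalIntegral.integral_of_le hle,
    intervalIntegral.integral_comp_add_right (fun t => g t) r]
  have hint : ∀ a b : ℝ, IntervalIntegrable g volume a b := fun a b => hc.intervalIntegrable a b
  rw [intervalIntegral.integral_interval_sub_interval_comm (hint _ _) (hint _ _) (hint _ _)]
  have h1 : ‖∫ t in (-(k : ℝ) + r)..(-(k : ℝ)), g t‖ ≤ B * |r| := by
    have := intervalIntegral.norm_integral_le_of_norm_le_const
      (a := -(k : ℝ) + r) (b := -(k : ℝ)) (f := g) (C := B) (fun t _ => hB t)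
    simpa [abs_sub_comm] using this
  have h2 : ‖∫ t in ((k : ℝ) + r)..(k : ℝ), g t‖ ≤ B * |r| := by
    have := intervalIntegral.norm_integral_le_of_norm_le_const
      (a := (k : ℝ) + r) (b := (k : ℝ)) (f := g) (C := B) (fun t _ => hB t)
    simpa [abs_sub_comm] using this
  rw [norm_smul, Real.norm_eq_abs, abs_of_nonneg (by positivity)]
  calc (2 * (k : ℝ))⁻¹ * ‖(∫ t in (-(k : ℝ) + r)..(-(k : ℝ)), g t)
        - ∫ t in ((k : ℝ) + r)..(k : ℝ), g t‖
      ≤ (2 * (k : ℝ))⁻¹ * (B * |r| + B * |r|) := by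
        gcongr
        exact (norm_sub_le _ _).trans (add_le_add h1 h2)
    _ = |r| * B / k := by field_simp; ring

lemma HasMean.translate [CompleteSpace E] (hω : (ω : Filter ℕ) ≤ atTop) {g : ℝ → E} {L : E}
    (h : HasMean ω g L) (hc : Continuous g) {B : ℝ} (hB : ∀ t, ‖g t‖ ≤ B) (r : ℝ) :
    HasMean ω (fun t => g (t + r)) L := by
  refine Tendsto.congr_dist h ?_
  have h0 : Tendsto (fun k : ℕ => |r| * B / k) (ω : Filter ℕ) (𝓝 0) :=
    (tendsto_const_div_atTop_nhds_zero_nat _).mono_left hω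
  refine squeeze_zero' (Eventually.of_forall fun _ => dist_nonneg) ?_ h0
  refine hω (eventually_ge_atTop 1 |>.mono fun k hk => ?_)
  rw [dist_comm, dist_eq_norm]
  exact wavg_translate_close hc hB r hk

lemma wavg_mono {g₁ g₂ : ℝ → ℝ} (h₁ : Continuous g₁) (h₂ : Continuous g₂)
    (h : ∀ t, g₁ t ≤ g₂ t) (k : ℕ) : wavg g₁ k ≤ wavg g₂ k := by
  rw [wavg_eq, wavg_eq, volReal]
  have hk : (0 : ℝ) ≤ k := Nat.cast_nonneg k
  simp only [smul_eq_mul]
  refine mul_le_mul_of_nonneg_left ?_ (by positivity)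
  exact setIntegral_mono h₁.integrableOn_Icc h₂.integrableOn_Icc (fun t => h t)

lemma HasMean.mono {g₁ g₂ : ℝ → ℝ} {L₁ L₂ : ℝ} (h₁ : HasMean ω g₁ L₁) (h₂ : HasMean ω g₂ L₂)
    (c₁ : Continuous g₁) (c₂ : Continuous g₂) (h : ∀ t, g₁ t ≤ g₂ t) : L₁ ≤ L₂ :=
  le_of_tendsto_of_tendsto' h₁ h₂ (wavg_mono c₁ c₂ h)

lemma HasMean.exists_le (hω : (ω : Filter ℕ) ≤ atTop) {g : ℝ → ℝ} {L : ℝ} (h : HasMean ω g L)
    (c : Continuous g) {ε : ℝ} (hε : 0 < ε) : ∃ t, g t ≤ L + ε := by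
  by_contra hcon
  simp only [not_exists, not_le] at hcon
  have := (hasMean_const (ω := ω) hω (L + ε)).mono h continuous_const c (fun t => (hcon t).le)
  linarith

lemma HasMean.ultraMean_eq {f : ℝ → ℝ} {L : ℝ} (h : HasMean ω f L) : ultraMean ω f = L := by
  have h' : Tendsto (windowMean f) (ω : Filter ℕ) (𝓝 L) := h
  exact h'.limUnder_eq

end means

section flow

variable {H : Type*} [NormedAddCommGroup H] [InnerProductSpace ℂ H] [CompleteSpace H]
variable (S : ModularDatum H)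

lemma flow_apply (t : ℝ) (a : H →L[ℂ] H) (w : H) :
    S.flow t a w = S.D.wave t (a (S.D.wave (-t) w)) := rfl

lemma flow_apply_vac (t : ℝ) (a : H →L[ℂ] H) : S.flow t a S.vac = S.D.wave t (a S.vac) := by
  rw [flow_apply, wave_vac]

lemma flow_mem {a : H →L[ℂ] H} (ha : a ∈ S.M) (t : ℝ) : S.flow t a ∈ S.M := S.flow_mem t a ha

lemma flow_mul (t : ℝ) (a b : H →L[ℂ] H) : S.flow t (a * b) = S.flow t a * S.flow t b := by
  simp only [ModularDatum.flow]
  calc S.D.wave t * (a * b) * S.D.wave (-t)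
      = S.D.wave t * a * 1 * b * S.D.wave (-t) := by noncomm_ring
    _ = S.D.wave t * a * (S.D.wave (-t) * S.D.wave t) * b * S.D.wave (-t) := by
        rw [wave_neg_mul]
    _ = _ := by noncomm_ring

lemma flow_star (t : ℝ) (a : H →L[ℂ] H) : star (S.flow t a) = S.flow t (star a) := by
  simp only [ModularDatum.flow, star_mul, star_wave, neg_neg]
  noncomm_ring

lemma flow_flow (r t : ℝ) (a : H →L[ℂ] H) : S.flow r (S.flow t a) = S.flow (r + t) a := by
  simp only [ModularDatum.flow]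
  rw [wave_add, neg_add, add_comm (-r), wave_add]
  noncomm_ring

lemma norm_flow_apply_le (t : ℝ) (a : H →L[ℂ] H) (w : H) : ‖S.flow t a w‖ ≤ ‖a‖ * ‖w‖ := by
  rw [flow_apply, norm_wave_apply]
  refine (a.le_opNorm _).trans ?_
  rw [norm_wave_apply]

lemma norm_flow_le (t : ℝ) (a : H →L[ℂ] H) : ‖S.flow t a‖ ≤ ‖a‖ :=
  ContinuousLinearMap.opNorm_le_bound _ (norm_nonneg _) (norm_flow_apply_le S t a)

lemma flow_apply_continuous (a : H →L[ℂ] H) (w : H) :
    Continuous (fun t : ℝ => S.flow t a w) := by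
  simp only [flow_apply]
  refine wave_apply_continuous' S.D ?_
  exact a.continuous.comp ((wave_apply_continuous S.D w).comp continuous_neg)

variable {ω : Ultrafilter ℕ}

lemma exists_meanOp (y : H →L[ℂ] H) (ω : Ultrafilter ℕ) :
    ∃ E : H →L[ℂ] H, ∀ v w, HasMean ω (fun t => ⟪v, S.flow t y w⟫_ℂ) ⟪v, E w⟫_ℂ := by
  have hbd : ∀ v w : H, ∀ t, ‖⟪v, S.flow t y w⟫_ℂ‖ ≤ ‖y‖ * ‖v‖ * ‖w‖ := by
    intro v w t
    calc _ ≤ ‖v‖ * ‖S.flow t y w‖ := norm_inner_le_norm _ _
      _ ≤ ‖v‖ * (‖y‖ * ‖w‖) := by gcongr; exact norm_flow_apply_le S t y w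
      _ = _ := by ring
  have hc : ∀ v w : H, Continuous (fun t => ⟪v, S.flow t y w⟫_ℂ) := by
    intro v w
    exact continuous_const.inner (flow_apply_continuous S y w)
  have hex : ∀ v w : H, ∃ L : ℂ, HasMean ω (fun t => ⟪v, S.flow t y w⟫_ℂ) L ∧
      ‖L‖ ≤ ‖y‖ * ‖v‖ * ‖w‖ := fun v w => exists_hasMean ω (hbd v w)
  choose q hq hqb using hex
  let B₀ : H →ₗ⋆[ℂ] H →ₗ[ℂ] ℂ := LinearMap.mk₂'ₛₗ (starRingEnd ℂ) (RingHom.id ℂ) q
    (by
      intro v₁ v₂ w
      refine ((hq (v₁ + v₂) w)).unique ?_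
      refine ((hq v₁ w).add (hq v₂ w) (hc _ _) (hc _ _)).congr (fun t => ?_)
      rw [inner_add_left])
    (by
      intro c v w
      refine ((hq (c • v) w)).unique ?_
      refine ((hq v w).const_mul (conj c)).congr (fun t => ?_)
      rw [inner_smul_left])
    (by
      intro v w₁ w₂
      refine ((hq v (w₁ + w₂))).unique ?_
      refine ((hq v w₁).add (hq v w₂) (hc _ _) (hc _ _)).congr (fun t => ?_)
      rw [map_add, inner_add_right])
    (by
      intro c v w
      refine ((hq v (c • w))).unique ?_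
      refine ((hq v w).const_mul c).congr (fun t => ?_)
      rw [map_smul, inner_smul_right])
  let B : H →L⋆[ℂ] H →L[ℂ] ℂ := LinearMap.mkContinuous₂ B₀ ‖y‖ (by
    intro v w
    exact hqb v w)
  let E : H →L[ℂ] H := ContinuousLinearMap.adjoint (InnerProductSpace.continuousLinearMapOfBilin B)
  refine ⟨E, fun v w => ?_⟩
  have : ⟪v, E w⟫_ℂ = q v w := by
    simp only [E]
    rw [ContinuousLinearMap.adjoint_inner_right, InnerProductSpace.continuousLinearMapOfBilin_apply]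
    rfl
  rw [this]
  exact hq v w

/-- Ergodic theorem: the window means of the flow converge weakly to the state times the
identity. -/
theorem ergodic_mean (herg : S.Ergodic) (hω : (ω : Filter ℕ) ≤ atTop) {y : H →L[ℂ] H}
    (hy : y ∈ S.M) (v w : H) :
    HasMean ω (fun t => ⟪v, S.flow t y w⟫_ℂ) (⟪S.vac, y S.vac⟫_ℂ * ⟪v, w⟫_ℂ) := by
  obtain ⟨E, hE⟩ := exists_meanOp S y ω
  have hbd : ∀ v w : H, ∀ t, ‖⟪v, S.flow t y w⟫_ℂ‖ ≤ ‖y‖ * ‖v‖ * ‖w‖ := by
    intro v w t
    calc _ ≤ ‖v‖ * ‖S.flow t y w‖ := norm_inner_le_norm _ _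
      _ ≤ ‖v‖ * (‖y‖ * ‖w‖) := by gcongr; exact norm_flow_apply_le S t y w
      _ = _ := by ring
  have hc : ∀ v w : H, Continuous (fun t => ⟪v, S.flow t y w⟫_ℂ) := by
    intro v w
    exact continuous_const.inner (flow_apply_continuous S y w)
  -- E is in M
  have hEM : E ∈ S.M := by
    have hM := S.M.centralizer_centralizer
    rw [← SetLike.mem_coe, ← hM, Set.mem_centralizer_iff]
    intro c hc'
    have hcomm : ∀ t, c * S.flow t y = S.flow t y * c := by
      intro t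
      have := (Set.mem_centralizer_iff.1 hc') (S.flow t y) (flow_mem S hy t)
      exact this.symm
    ext w
    refine ext_inner_left ℂ (fun v => ?_)
    change ⟪v, c (E w)⟫_ℂ = ⟪v, E (c w)⟫_ℂ
    have h1 : ⟪v, c (E w)⟫_ℂ = ⟪ContinuousLinearMap.adjoint c v, E w⟫_ℂ := by
      rw [ContinuousLinearMap.adjoint_inner_left]
    rw [h1]
    refine (hE (ContinuousLinearMap.adjoint c v) w).unique ?_
    refine (hE v (c w)).congr (fun t => ?_)
    rw [ContinuousLinearMap.adjoint_inner_left]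
    have := congrArg (fun A : H →L[ℂ] H => A w) (hcomm t)
    change c (S.flow t y w) = S.flow t y (c w) at this
    rw [this]
  -- E is flow invariant
  have hEflow : ∀ r : ℝ, S.flow r E = E := by
    intro r
    ext w
    refine ext_inner_left ℂ (fun v => ?_)
    rw [flow_apply, inner_wave_right]
    refine (hE (S.D.wave (-r) v) (S.D.wave (-r) w)).unique ?_
    have h1 := (hE v w).translate hω (hc v w) (hbd v w) r
    refine h1.congr (fun t => ?_)
    have : S.flow (t + r) y = S.flow r (S.flow t y) := by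
      rw [flow_flow, add_comm]
    rw [this, flow_apply, inner_wave_right]
  obtain ⟨c, hc'⟩ := herg E hEM hEflow
  -- identify the constant
  have hvac : ⟪S.vac, S.vac⟫_ℂ = (1 : ℂ) := by
    rw [inner_self_eq_norm_sq_to_K, S.norm_vac]; simp
  have hc2 : c = ⟪S.vac, y S.vac⟫_ℂ := by
    have h1 : ⟪S.vac, E S.vac⟫_ℂ = c := by
      rw [hc']
      simp [S.norm_vac]
    rw [← h1]
    refine (hE S.vac S.vac).unique ?_
    refine (hasMean_const (ω := ω) hω ⟪S.vac, y S.vac⟫_ℂ).congr (fun t => ?_)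
    rw [flow_apply_vac, inner_wave_right, wave_vac]
  have : ⟪v, E w⟫_ℂ = ⟪S.vac, y S.vac⟫_ℂ * ⟪v, w⟫_ℂ := by
    rw [hc', ← hc2]
    simp
  rw [← this]
  exact hE v w

end flow

end Crest.Agent.Lib.ModBoot
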