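import Crest.Agent.Lib.ModBoot2

/-! Sign averages over lists and the quadratic mean of an orbit. -/

set_option autoImplicit false

namespace Crest.Agent.Lib.ModBoot

open Crest.OpAlg Filter MeasureTheory Topology Set
open scoped InnerProductSpace ComplexConjugate BoundedContinuousFunction

section signAvg

variable {A : Type*} [AddCommGroup A]

/-- The average of `g (∑ ±y_j)` over all sign choices, by recursion on the list. -/
noncomputable def signAvg : List A → (A → ℝ) → ℝ
  | [], g => g 0
  | y :: l, g => (signAvg l (fun s => g (s + y)) + signAvg l (fun s => g (s - y))) / 2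

@[simp] lemma signAvg_nil (g : A → ℝ) : signAvg [] g = g 0 := rfl

lemma signAvg_cons (y : A) (l : List A) (g : A → ℝ) :
    signAvg (y :: l) g = (signAvg l (fun s => g (s + y)) + signAvg l (fun s => g (s - y))) / 2 := rfl

lemma signAvg_const (l : List A) (c : ℝ) : signAvg l (fun _ => c) = c := by
  induction l with
  | nil => rfl
  | cons y l ih => rw [signAvg_cons, ih]; ring

lemma signAvg_add (l : List A) (g₁ g₂ : A → ℝ) :
    signAvg l (fun s => g₁ s + g₂ s) = signAvg l g₁ + signAvg l g₂ := by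
  induction l generalizing g₁ g₂ with
  | nil => rfl
  | cons y l ih =>
    simp only [signAvg_cons]
    rw [ih (fun s => g₁ (s + y)) (fun s => g₂ (s + y)),
      ih (fun s => g₁ (s - y)) (fun s => g₂ (s - y))]
    ring

lemma signAvg_const_mul (l : List A) (c : ℝ) (g : A → ℝ) :
    signAvg l (fun s => c * g s) = c * signAvg l g := by
  induction l generalizing g with
  | nil => rfl
  | cons y l ih =>
    simp only [signAvg_cons]
    rw [ih (fun s => g (s + y)), ih (fun s => g (s - y))]
    ring

lemma signAvg_mono (G : AddSubgroup A) (l : List A) (hl : ∀ y ∈ l, y ∈ G) {g₁ g₂ : A → ℝ}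
    (h : ∀ s ∈ G, g₁ s ≤ g₂ s) : signAvg l g₁ ≤ signAvg l g₂ := by
  induction l generalizing g₁ g₂ with
  | nil => exact h 0 G.zero_mem
  | cons y l ih =>
    have hy : y ∈ G := hl y (by simp)
    have hl' : ∀ z ∈ l, z ∈ G := fun z hz => hl z (by simp [hz])
    simp only [signAvg_cons]
    have h1 := ih hl' (g₁ := fun s => g₁ (s + y)) (g₂ := fun s => g₂ (s + y))
      (fun s hs => h _ (G.add_mem hs hy))
    have h2 := ih hl' (g₁ := fun s => g₁ (s - y)) (g₂ := fun s => g₂ (s - y))
      (fun s hs => h _ (G.sub_mem hs hy))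
    linarith

lemma signAvg_quadratic (l : List A) {g : A → ℝ} (hq : ∀ s z, g (s + z) + g (s - z) = 2 * g s + 2 * g z)
    (h0 : g 0 = 0) : signAvg l g = (l.map g).sum := by
  induction l with
  | nil => simpa using h0
  | cons y l ih =>
    rw [signAvg_cons, List.map_cons, List.sum_cons, ← ih]
    have h1 := signAvg_add l (fun s => g (s + y)) (fun s => g (s - y))
    have h2 : (fun s => g (s + y) + g (s - y)) = fun s => 2 * g s + 2 * g y := by
      funext s; exact hq s y
    rw [h2, signAvg_add, signAvg_const_mul, signAvg_const] at h1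
    linarith

end signAvg

section mf

variable {H : Type*} [NormedAddCommGroup H] [InnerProductSpace ℂ H] [CompleteSpace H]
variable (S : ModularDatum H) (R : H →L[ℂ] H) (ω : Ultrafilter ℕ)

lemma mfg_continuous (w : H) : Continuous (fun t : ℝ => ‖R (S.D.wave t w)‖ ^ 2) :=
  ((R.continuous.comp (wave_apply_continuous S.D w)).norm).pow 2

lemma mfg_bound (w : H) (t : ℝ) : ‖‖R (S.D.wave t w)‖ ^ 2‖ ≤ ‖R‖ ^ 2 * ‖w‖ ^ 2 := by
  rw [norm_pow, norm_norm, ← mul_pow]
  gcongr
  refine (R.le_opNorm _).trans ?_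
  rw [norm_wave_apply]

/-- The quadratic mean along the orbit of `w`. -/
noncomputable def mf (w : H) : ℝ :=
  limUnder (ω : Filter ℕ) (wavg (fun t : ℝ => ‖R (S.D.wave t w)‖ ^ 2))

lemma mf_hasMean (w : H) : HasMean ω (fun t : ℝ => ‖R (S.D.wave t w)‖ ^ 2) (mf S R ω w) := by
  obtain ⟨L, hL, -⟩ := exists_hasMean ω (mfg_bound S R w)
  have : mf S R ω w = L := Tendsto.limUnder_eq hL
  rw [this]
  exact hL

variable {ω}
variable (hω : (ω : Filter ℕ) ≤ atTop)
include hω

lemma mf_nonneg (w : H) : 0 ≤ mf S R ω w :=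
  (hasMean_const hω 0).mono (mf_hasMean S R ω w) continuous_const (mfg_continuous S R w)
    (fun _ => by positivity)

lemma mf_le (w : H) : mf S R ω w ≤ ‖R‖ ^ 2 * ‖w‖ ^ 2 :=
  (mf_hasMean S R ω w).mono (hasMean_const hω _) (mfg_continuous S R w) continuous_const
    (fun t => by simpa using mfg_bound S R w t)

lemma mf_parallelogram (w w' : H) :
    mf S R ω (w + w') + mf S R ω (w - w') = 2 * mf S R ω w + 2 * mf S R ω w' := by
  have h1 := (mf_hasMean S R ω (w + w')).add (mf_hasMean S R ω (w - w'))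
    (mfg_continuous S R _) (mfg_continuous S R _)
  have h2 := ((mf_hasMean S R ω w).const_mul (2 : ℝ)).add ((mf_hasMean S R ω w').const_mul (2 : ℝ))
    (continuous_const.mul (mfg_continuous S R _)) (continuous_const.mul (mfg_continuous S R _))
  refine h1.unique (h2.congr (fun t => ?_))
  simp only [map_add, map_sub]
  have := parallelogram_law_with_norm ℂ (R (S.D.wave t w)) (R (S.D.wave t w'))
  nlinarith

lemma mf_zero : mf S R ω 0 = 0 := by
  refine (mf_hasMean S R ω 0).unique ?_
  refine (hasMean_const hω (0 : ℝ)).congr (fun t => ?_)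
  simp

lemma mf_add_le (w w' : H) : mf S R ω (w + w') ≤ 2 * mf S R ω w + 2 * mf S R ω w' := by
  have h1 := mf_parallelogram S R hω w w'
  have h2 := mf_nonneg S R hω (w - w')
  linarith

lemma mf_I_smul (w : H) : mf S R ω (Complex.I • w) = mf S R ω w := by
  refine (mf_hasMean S R ω (Complex.I • w)).unique ?_
  refine (mf_hasMean S R ω w).congr (fun t => ?_)
  simp [norm_smul]

lemma mf_translate (r : ℝ) (w : H) : mf S R ω (S.D.wave r w) = mf S R ω w := by
  refine (mf_hasMean S R ω (S.D.wave r w)).unique ?_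
  have h1 := (mf_hasMean S R ω w).translate hω (mfg_continuous S R w) (mfg_bound S R w) r
  refine h1.congr (fun t => ?_)
  rw [wave_wave]

lemma mf_congr_of_le {U : ℝ} (hU0 : 0 ≤ U) (hU : ∀ v ∈ S.M, ‖R (v S.vac)‖ ≤ U * ‖v‖)
    {v : H →L[ℂ] H} (hv : v ∈ S.M) : mf S R ω (v S.vac) ≤ U ^ 2 * ‖v‖ ^ 2 := by
  refine (mf_hasMean S R ω _).mono (hasMean_const hω _) (mfg_continuous S R _) continuous_const
    (fun t => ?_)
  rw [← flow_apply_vac, ← mul_pow]
  gcongr
  refine (hU _ (flow_mem S hv t)).trans ?_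
  gcongr
  exact norm_flow_le S t v

end mf

end Crest.Agent.Lib.ModBoot
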