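import Crest.Agent.Lib.ModBoot3

/-! Truncation in the von Neumann algebra. -/

set_option autoImplicit false

namespace Crest.Agent.Lib.ModBoot

open Crest.OpAlg Filter MeasureTheory Topology Set
open scoped InnerProductSpace ComplexConjugate BoundedContinuousFunction

variable {H : Type*} [NormedAddCommGroup H] [InnerProductSpace ℂ H] [CompleteSpace H]

lemma inner_sa {X : H →L[ℂ] H} (hX : IsSelfAdjoint X) (v w : H) : ⟪X v, w⟫_ℂ = ⟪v, X w⟫_ℂ := by
  have h : ContinuousLinearMap.adjoint X = X := by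
    have := hX.star_eq
    rwa [ContinuousLinearMap.star_eq_adjoint] at this
  conv_lhs => rw [← h]
  rw [ContinuousLinearMap.adjoint_inner_left]

lemma isUnit_shift {X : H →L[ℂ] H} (hX : IsSelfAdjoint X) {K : ℝ} (hK : 0 < K) :
    IsUnit (((K : ℂ) ^ 2) • (1 : H →L[ℂ] H) + X * X) := by
  have h0 : 0 ≤ X * X := by
    have := star_mul_self_nonneg X
    rwa [hX.star_eq] at this
  have h1 : (((K : ℂ) ^ 2) • (1 : H →L[ℂ] H)) ≤ ((K : ℂ) ^ 2) • (1 : H →L[ℂ] H) + X * X := by
    simpa using h0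
  have h2 : IsStrictlyPositive (((K : ℂ) ^ 2) • (1 : H →L[ℂ] H)) := by
    rw [IsStrictlyPositive.iff_of_unital]
    constructor
    · have : ((K : ℂ) ^ 2) • (1 : H →L[ℂ] H) = star ((K : ℂ) • (1 : H →L[ℂ] H)) * ((K : ℂ) • (1 : H →L[ℂ] H)) := by
        simp only [star_smul, star_one, Complex.star_def, Complex.conj_ofReal, smul_mul_smul_comm,
          one_mul, pow_two]
      rw [this]
      exact star_mul_self_nonneg _
    · have hne : ((K : ℂ) ^ 2) ≠ 0 := by
        exact pow_ne_zero 2 (by exact_mod_cast hK.ne')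
      have : ((K : ℂ) ^ 2) • (1 : H →L[ℂ] H) = algebraMap ℂ (H →L[ℂ] H) ((K : ℂ) ^ 2) :=
        (Algebra.algebraMap_eq_smul_one _).symm
      rw [this]
      exact (IsUnit.mk0 _ hne).map (algebraMap ℂ (H →L[ℂ] H))
  exact CStarAlgebra.isUnit_of_le _ h1 h2

/-- The basic estimate `2K‖Xv‖ ≤ ‖(K² + X²) v‖`. -/
lemma resolvent_est {X : H →L[ℂ] H} (hX : IsSelfAdjoint X) {K : ℝ} (hK : 0 < K) (v : H) :
    2 * K * ‖X v‖ ≤ ‖(((K : ℂ) ^ 2) • (1 : H →L[ℂ] H) + X * X) v‖ := by
  have e0 : (((K : ℂ) ^ 2) • (1 : H →L[ℂ] H) + X * X) v = ((K ^ 2 : ℝ) : ℂ) • v + X (X v) := by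
    simp
  rw [e0]
  set A := ‖v‖
  set B := ‖X v‖
  set C := ‖X (X v)‖
  have h1 : ⟪v, X (X v)⟫_ℂ = ((B ^ 2 : ℝ) : ℂ) := by
    rw [← inner_sa hX, inner_self_eq_norm_sq_to_K]
    simp [B]
  have h2 : B ^ 2 ≤ A * C := by
    have h3 := norm_inner_le_norm (𝕜 := ℂ) v (X (X v))
    rw [h1] at h3
    simpa [abs_of_nonneg (sq_nonneg B)] using h3
  have h4 : ‖((K ^ 2 : ℝ) : ℂ) • v + X (X v)‖ ^ 2 = K ^ 4 * A ^ 2 + 2 * K ^ 2 * B ^ 2 + C ^ 2 := by
    have e : ⟪((K ^ 2 : ℝ) : ℂ) • v, X (X v)⟫_ℂ = ((K ^ 2 * B ^ 2 : ℝ) : ℂ) := by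
      rw [inner_smul_left, h1, Complex.conj_ofReal, ← Complex.ofReal_mul]
    rw [@norm_add_sq ℂ, e, norm_smul, Complex.norm_real, Real.norm_eq_abs,
      abs_of_nonneg (by positivity)]
    simp only [RCLike.re_to_complex, Complex.ofReal_re, mul_pow]
    ring
  have h5 : (2 * K * B) ^ 2 ≤ ‖((K ^ 2 : ℝ) : ℂ) • v + X (X v)‖ ^ 2 := by
    rw [h4]
    nlinarith [sq_nonneg (K ^ 2 * A - C), mul_le_mul_of_nonneg_left h2 (sq_nonneg K)]
  exact (pow_le_pow_iff_left₀ (by positivity) (norm_nonneg _) two_ne_zero).1 h5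

/-- Truncation: `X = F + Q` with `F` bounded and `Q ξ` controlled by `X² ξ`. -/
lemma exists_truncation (M : VonNeumannAlgebra H) {X : H →L[ℂ] H} (hXM : X ∈ M)
    (hX : IsSelfAdjoint X) {K : ℝ} (hK : 0 < K) (ξ : H) :
    ∃ F Q : H →L[ℂ] H, F ∈ M ∧ IsSelfAdjoint F ∧ Q ∈ M ∧ IsSelfAdjoint Q ∧ X = F + Q ∧
      ‖F‖ ≤ K / 2 ∧ ‖Q ξ‖ ≤ ‖(X * X) ξ‖ / (2 * K) := by
  set A : H →L[ℂ] H := ((K : ℂ) ^ 2) • (1 : H →L[ℂ] H) + X * X with hA
  have hAu : IsUnit A := isUnit_shift hX hK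
  obtain ⟨u, hu⟩ := hAu
  set W : H →L[ℂ] H := ((u⁻¹ : (H →L[ℂ] H)ˣ) : H →L[ℂ] H) with hW
  have hAW : A * W = 1 := by rw [← hu]; exact u.mul_inv
  have hWA : W * A = 1 := by rw [← hu]; exact u.inv_mul
  have hAM : A ∈ M := by
    refine add_mem ?_ (mul_mem hXM hXM)
    rw [← Algebra.algebraMap_eq_smul_one]
    exact M.toStarSubalgebra.algebraMap_mem _
  have hWcomm : ∀ c : H →L[ℂ] H, c * A = A * c → c * W = W * c := by
    intro c hc
    calc c * W = (W * A) * (c * W) := by rw [hWA, one_mul]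
      _ = W * (A * c) * W := by noncomm_ring
      _ = W * (c * A) * W := by rw [hc]
      _ = W * c * (A * W) := by noncomm_ring
      _ = W * c := by rw [hAW, mul_one]
  have hWM : W ∈ M := by
    have hM := M.centralizer_centralizer
    rw [← SetLike.mem_coe, ← hM, Set.mem_centralizer_iff]
    intro c hc
    have := (Set.mem_centralizer_iff.1 hc) A hAM
    exact hWcomm c this.symm
  have hXA : X * A = A * X := by
    simp only [hA, mul_add, add_mul, mul_smul_comm, smul_mul_assoc, mul_one, one_mul]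
    noncomm_ring
  have hXW : X * W = W * X := hWcomm X hXA
  have hAsa : star A = A := by
    simp only [hA, star_add, star_smul, star_mul, hX.star_eq, star_one, star_pow]
    simp
  have hWsa : star W = W := by
    calc star W = star W * (A * W) := by rw [hAW, mul_one]
      _ = (star W * A) * W := by noncomm_ring
      _ = (star (star A * W)) * W := by simp [star_mul]
      _ = star (A * W) * W := by rw [hAsa]
      _ = W := by rw [hAW]; simp
  have hXWsa : IsSelfAdjoint (X * W) := by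
    rw [IsSelfAdjoint, star_mul, hWsa, hX.star_eq, hXW]
  have hXWM : X * W ∈ M := mul_mem hXM hWM
  -- the norm of XW
  have hnorm : ‖X * W‖ ≤ 1 / (2 * K) := by
    refine ContinuousLinearMap.opNorm_le_bound _ (by positivity) (fun w => ?_)
    have h1 := resolvent_est hX hK (W w)
    have h2 : A (W w) = w := by
      have := congrArg (fun B : H →L[ℂ] H => B w) hAW
      simpa using this
    rw [h2] at h1
    change ‖X (W w)‖ ≤ _
    rw [div_mul_eq_mul_div, one_mul, le_div_iff₀ (by positivity)]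
    linarith
  -- F and Q
  refine ⟨((K : ℂ) ^ 2) • (X * W), X * W * (X * X), ?_, ?_, ?_, ?_, ?_, ?_, ?_⟩
  · exact M.toStarSubalgebra.smul_mem hXWM _
  · rw [IsSelfAdjoint, star_smul, hXWsa.star_eq]
    simp
  · exact mul_mem hXWM (mul_mem hXM hXM)
  · rw [IsSelfAdjoint, star_mul, hXWsa.star_eq, star_mul, hX.star_eq]
    have h1 : (X * X) * W = W * (X * X) := by
      have : X * X * A = A * (X * X) := by
        rw [mul_assoc, hXA, ← mul_assoc, hXA, mul_assoc]
      exact hWcomm _ this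
    calc X * X * (X * W) = X * (X * X) * W := by noncomm_ring
      _ = X * ((X * X) * W) := by noncomm_ring
      _ = X * (W * (X * X)) := by rw [h1]
      _ = X * W * (X * X) := by noncomm_ring
  · -- X = K² X W + X W X²
    calc X = X * (A * W) := by rw [hAW, mul_one]
      _ = X * (((K : ℂ) ^ 2) • W + X * X * W) := by
          simp only [hA, add_mul, smul_mul_assoc, one_mul]
      _ = ((K : ℂ) ^ 2) • (X * W) + X * (X * X * W) := by
          rw [mul_add, mul_smul_comm]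
      _ = ((K : ℂ) ^ 2) • (X * W) + X * W * (X * X) := by
          congr 1
          have h1 : (X * X) * W = W * (X * X) := by
            have : X * X * A = A * (X * X) := by
              rw [mul_assoc, hXA, ← mul_assoc, hXA, mul_assoc]
            exact hWcomm _ this
          rw [h1]
          noncomm_ring
  · calc ‖((K : ℂ) ^ 2) • (X * W)‖ = K ^ 2 * ‖X * W‖ := by
          rw [norm_smul]; simp
      _ ≤ K ^ 2 * (1 / (2 * K)) := by gcongr
      _ = K / 2 := by field_simp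
  · change ‖(X * W) ((X * X) ξ)‖ ≤ _
    refine ((X * W).le_opNorm _).trans ?_
    calc ‖X * W‖ * ‖(X * X) ξ‖ ≤ 1 / (2 * K) * ‖(X * X) ξ‖ := by gcongr
      _ = _ := by ring

end Crest.Agent.Lib.ModBoot
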