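import Crest.Agent.Lib.ModBoot4

/-! The self-improving bound on the quadratic mean. -/

set_option autoImplicit false

namespace Crest.Agent.Lib.ModBoot

open Crest.OpAlg Filter MeasureTheory Topology Set
open scoped InnerProductSpace ComplexConjugate BoundedContinuousFunction

variable {H : Type*} [NormedAddCommGroup H] [InnerProductSpace ℂ H] [CompleteSpace H]
variable (S : ModularDatum H) (R : H →L[ℂ] H) {ω : Ultrafilter ℕ}

/-- Self-adjoint elements of `M`. -/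
def saM : AddSubgroup (H →L[ℂ] H) where
  carrier := {x | x ∈ S.M ∧ IsSelfAdjoint x}
  zero_mem' := ⟨zero_mem _, IsSelfAdjoint.zero _⟩
  add_mem' := fun ha hb => ⟨add_mem ha.1 hb.1, ha.2.add hb.2⟩
  neg_mem' := fun ha => ⟨neg_mem ha.1, ha.2.neg⟩

lemma mem_saM {x : H →L[ℂ] H} : x ∈ saM S ↔ x ∈ S.M ∧ IsSelfAdjoint x := Iff.rfl

lemma flow_mem_saM {x : H →L[ℂ] H} (hx : x ∈ saM S) (t : ℝ) : S.flow t x ∈ saM S :=
  ⟨flow_mem S hx.1 t, by rw [IsSelfAdjoint, flow_star, hx.2.star_eq]⟩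

/-- The square of the norm of `s² ξ`. -/
noncomputable def g4 (s : H →L[ℂ] H) : ℝ := ‖(s * s) S.vac‖ ^ 2

/-- The mixed term in the fourth moment. -/
noncomputable def psi (y z : H →L[ℂ] H) : ℝ :=
  2 * (⟪(z * z) S.vac, (y * y) S.vac⟫_ℂ).re + 2 * ‖(z * y) S.vac‖ ^ 2 + 2 * ‖(y * z) S.vac‖ ^ 2

lemma g4_step (s y : H →L[ℂ] H) :
    (g4 S (s + y) + g4 S (s - y)) / 2 ≤ g4 S s + g4 S y + psi S y s := by
  set α : H := (s * s) S.vac + (y * y) S.vac with hα
  set β : H := (s * y) S.vac + (y * s) S.vac with hβ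
  have e1 : ((s + y) * (s + y)) S.vac = α + β := by
    simp only [hα, hβ, add_mul, mul_add, ContinuousLinearMap.add_apply]
    abel
  have e2 : ((s - y) * (s - y)) S.vac = α - β := by
    simp only [hα, hβ, sub_mul, mul_sub, _root_.sub_apply, ContinuousLinearMap.add_apply]
    abel
  have h1 := parallelogram_law_with_norm ℂ α β
  have h2 : ‖α‖ ^ 2 = g4 S s + g4 S y + 2 * (⟪(s * s) S.vac, (y * y) S.vac⟫_ℂ).re := by
    rw [hα, @norm_add_sq ℂ]
    simp only [g4, RCLike.re_to_complex]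
    ring
  have h3 : ‖β‖ ^ 2 ≤ 2 * ‖(s * y) S.vac‖ ^ 2 + 2 * ‖(y * s) S.vac‖ ^ 2 := by
    have := parallelogram_law_with_norm ℂ ((s * y) S.vac) ((y * s) S.vac)
    have h4 := sq_nonneg ‖(s * y) S.vac - (y * s) S.vac‖
    rw [hβ]
    nlinarith
  simp only [g4, psi, e1, e2]
  simp only [g4] at h2
  nlinarith

lemma psi_quadratic (y s z : H →L[ℂ] H) :
    psi S y (s + z) + psi S y (s - z) = 2 * psi S y s + 2 * psi S y z := by
  have e1 : ((s + z) * (s + z)) S.vac + ((s - z) * (s - z)) S.vac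
      = (2 : ℂ) • (s * s) S.vac + (2 : ℂ) • (z * z) S.vac := by
    simp only [add_mul, mul_add, sub_mul, mul_sub, _root_.sub_apply, ContinuousLinearMap.add_apply,
      two_smul]
    abel
  have e2 : (⟪((s + z) * (s + z)) S.vac, (y * y) S.vac⟫_ℂ).re
      + (⟪((s - z) * (s - z)) S.vac, (y * y) S.vac⟫_ℂ).re
      = 2 * (⟪(s * s) S.vac, (y * y) S.vac⟫_ℂ).re + 2 * (⟪(z * z) S.vac, (y * y) S.vac⟫_ℂ).re := by
    rw [← Complex.add_re, ← inner_add_left, e1, inner_add_left, inner_smul_left, inner_smul_left]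
    simp
  have e3 := parallelogram_law_with_norm ℂ ((s * y) S.vac) ((z * y) S.vac)
  have e4 := parallelogram_law_with_norm ℂ ((y * s) S.vac) ((y * z) S.vac)
  have e5 : ((s + z) * y) S.vac = (s * y) S.vac + (z * y) S.vac := by
    simp [add_mul]
  have e6 : ((s - z) * y) S.vac = (s * y) S.vac - (z * y) S.vac := by
    simp [sub_mul]
  have e7 : (y * (s + z)) S.vac = (y * s) S.vac + (y * z) S.vac := by
    simp [mul_add]
  have e8 : (y * (s - z)) S.vac = (y * s) S.vac - (y * z) S.vac := by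
    simp [mul_sub]
  simp only [psi, e5, e6, e7, e8]
  nlinarith

lemma psi_zero (y : H →L[ℂ] H) : psi S y 0 = 0 := by
  simp [psi]

lemma inner_vac_sq {z : H →L[ℂ] H} (hz : IsSelfAdjoint z) (v w : H) :
    ⟪v, (z * z) w⟫_ℂ = ⟪z v, z w⟫_ℂ := by
  rw [inner_sa hz]; rfl

lemma norm_apply_sq {z : H →L[ℂ] H} (hz : IsSelfAdjoint z) (u : H) :
    ‖z u‖ ^ 2 = (⟪u, (z * z) u⟫_ℂ).re := by
  rw [inner_vac_sq hz, inner_self_eq_norm_sq_to_K]
  norm_cast

section ergodic

variable {S}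
variable (hω : (ω : Filter ℕ) ≤ atTop) (herg : S.Ergodic)

include hω herg in
lemma ergodic_re {y : H →L[ℂ] H} (hy : y ∈ S.M) (v w : H) :
    HasMean ω (fun t => (⟪v, S.flow t y w⟫_ℂ).re) ((⟪S.vac, y S.vac⟫_ℂ * ⟪v, w⟫_ℂ).re) := by
  have h := (ergodic_mean S herg hω hy v w).clm Complex.reCLM
    (continuous_const.inner (flow_apply_continuous S y w))
  exact h

lemma psi_flow_continuous (x z : H →L[ℂ] H) :
    Continuous (fun t => psi S (S.flow t x) z) := by
  have e1 : ∀ t, (S.flow t x * S.flow t x) S.vac = S.flow t (x * x) S.vac := by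
    intro t; rw [flow_mul]
  have e2 : ∀ t, (z * S.flow t x) S.vac = z (S.flow t x S.vac) := fun t => rfl
  have e3 : ∀ t, (S.flow t x * z) S.vac = S.flow t x (z S.vac) := fun t => rfl
  simp only [psi, e1, e2, e3]
  have c1 := flow_apply_continuous S (x * x) S.vac
  have c2 := flow_apply_continuous S x S.vac
  have c3 := flow_apply_continuous S x (z S.vac)
  have c4 : Continuous (fun t => z (S.flow t x S.vac)) := z.continuous.comp c2
  exact ((continuous_const.mul (Complex.continuous_re.comp (continuous_const.inner c1))).add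
    (continuous_const.mul (c4.norm.pow 2))).add (continuous_const.mul (c3.norm.pow 2))

lemma inner_sq_self {z : H →L[ℂ] H} (hz : IsSelfAdjoint z) (v : H) :
    ⟪v, (z * z) v⟫_ℂ = ((‖z v‖ ^ 2 : ℝ) : ℂ) := by
  rw [inner_vac_sq hz, inner_self_eq_norm_sq_to_K]
  norm_cast

lemma inner_sq_self' {z : H →L[ℂ] H} (hz : IsSelfAdjoint z) (v : H) :
    ⟪(z * z) v, v⟫_ℂ = ((‖z v‖ ^ 2 : ℝ) : ℂ) := by
  change ⟪z (z v), v⟫_ℂ = _
  rw [inner_sa hz, inner_self_eq_norm_sq_to_K]
  norm_cast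

include hω herg in
lemma psi_mean {x z : H →L[ℂ] H} (hx : x ∈ saM S) (hz : z ∈ saM S)
    (hzx : ‖z S.vac‖ = ‖x S.vac‖) :
    HasMean ω (fun t => psi S (S.flow t x) z) (6 * (‖x S.vac‖ ^ 2) ^ 2) := by
  set τ := ‖x S.vac‖ ^ 2 with hτ
  have hvx : ⟪S.vac, (x * x) S.vac⟫_ℂ = ((τ : ℝ) : ℂ) := inner_sq_self hx.2 _
  have hvz : ⟪S.vac, (z * z) S.vac⟫_ℂ = ((τ : ℝ) : ℂ) := by
    rw [inner_sq_self hz.2, hzx]
  have hvz' : ⟪(z * z) S.vac, S.vac⟫_ℂ = ((τ : ℝ) : ℂ) := by
    rw [inner_sq_self' hz.2, hzx]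
  have hxx : ⟪x S.vac, x S.vac⟫_ℂ = ((τ : ℝ) : ℂ) := by
    rw [inner_self_eq_norm_sq_to_K]
    norm_cast
  have hzz : ⟪z S.vac, z S.vac⟫_ℂ = ((τ : ℝ) : ℂ) := by
    rw [inner_self_eq_norm_sq_to_K, hzx]
    norm_cast
  have hxxM : x * x ∈ S.M := mul_mem hx.1 hx.1
  have hzzM : z * z ∈ S.M := mul_mem hz.1 hz.1
  -- first term
  have h1 := ergodic_re hω herg hxxM ((z * z) S.vac) S.vac
  rw [hvx, hvz', ← Complex.ofReal_mul, Complex.ofReal_re] at h1
  -- second term
  have h2 := (ergodic_re hω herg hzzM (x S.vac) (x S.vac)).reflect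
  rw [hvz, hxx, ← Complex.ofReal_mul, Complex.ofReal_re] at h2
  -- third term
  have h3 := ergodic_re hω herg hxxM (z S.vac) (z S.vac)
  rw [hvx, hzz, ← Complex.ofReal_mul, Complex.ofReal_re] at h3
  have c1 : Continuous (fun t => (⟪(z * z) S.vac, S.flow t (x * x) S.vac⟫_ℂ).re) :=
    Complex.continuous_re.comp (continuous_const.inner (flow_apply_continuous S (x * x) S.vac))
  have c2 : Continuous (fun t : ℝ => (⟪x S.vac, S.flow (-t) (z * z) (x S.vac)⟫_ℂ).re) :=
    Complex.continuous_re.comp (continuous_const.inner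
      ((flow_apply_continuous S (z * z) (x S.vac)).comp continuous_neg))
  have c3 : Continuous (fun t => (⟪z S.vac, S.flow t (x * x) (z S.vac)⟫_ℂ).re) :=
    Complex.continuous_re.comp (continuous_const.inner (flow_apply_continuous S (x * x) (z S.vac)))
  have htot := (((h1.const_mul (2 : ℝ)).add (h2.const_mul (2 : ℝ))
    (continuous_const.mul c1) (continuous_const.mul c2)).add (h3.const_mul (2 : ℝ))
    ((continuous_const.mul c1).add (continuous_const.mul c2)) (continuous_const.mul c3))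
  have hval : 2 * (τ * τ) + 2 * (τ * τ) + 2 * (τ * τ) = 6 * τ ^ 2 := by ring
  rw [hval] at htot
  refine htot.congr (fun t => ?_)
  have hy : IsSelfAdjoint (S.flow t x) := (flow_mem_saM S hx t).2
  simp only [psi]
  rw [flow_mul]
  congr 2
  · congr 1
    change (⟪x S.vac, S.flow (-t) (z * z) (x S.vac)⟫_ℂ).re = ‖z (S.flow t x S.vac)‖ ^ 2
    rw [norm_apply_sq hz.2, flow_apply_vac, inner_wave_left, flow_apply, neg_neg]
  · congr 1
    change (⟪z S.vac, (S.flow t x * S.flow t x) (z S.vac)⟫_ℂ).re = ‖S.flow t x (z S.vac)‖ ^ 2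
    rw [norm_apply_sq hy]

include hω in
lemma hasMean_list_sum {α : Type*} (l : List α) (f : α → ℝ → ℝ) (c : ℝ)
    (h : ∀ z ∈ l, HasMean ω (f z) c) (hc : ∀ z ∈ l, Continuous (f z)) :
    HasMean ω (fun t => (l.map (fun z => f z t)).sum) (l.length * c) ∧
      Continuous (fun t => (l.map (fun z => f z t)).sum) := by
  induction l with
  | nil =>
    simp only [List.map_nil, List.sum_nil, List.length_nil, Nat.cast_zero, zero_mul]
    exact ⟨hasMean_const hω 0, continuous_const⟩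
  | cons y l ih =>
    obtain ⟨ih1, ih2⟩ := ih (fun z hz => h z (by simp [hz])) (fun z hz => hc z (by simp [hz]))
    have hy := h y (by simp)
    have hyc := hc y (by simp)
    simp only [List.map_cons, List.sum_cons, List.length_cons]
    refine ⟨?_, hyc.add ih2⟩
    have := hy.add ih1 hyc ih2
    have e : c + (l.length : ℝ) * c = ((l.length + 1 : ℕ) : ℝ) * c := by push_cast; ring
    rwa [e] at this

include hω herg in
/-- Choice of the flow times: the fourth moment of the sign sums is nearly Gaussian. -/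
lemma exists_list {x : H →L[ℂ] H} (hx : x ∈ saM S) {ε : ℝ} (hε : 0 < ε) (N : ℕ) :
    ∃ l : List (H →L[ℂ] H), l.length = N ∧ (∀ z ∈ l, ∃ t, z = S.flow t x) ∧
      signAvg l (g4 S) ≤ (N : ℝ) ^ 2 * (3 * (‖x S.vac‖ ^ 2) ^ 2) + N * ε + N * g4 S x := by
  set τ := ‖x S.vac‖ ^ 2 with hτ
  induction N with
  | zero =>
    refine ⟨[], rfl, by simp, ?_⟩
    simp [g4]
  | succ N ih =>
    obtain ⟨l, hl, hlz, hlb⟩ := ih
    have hzsa : ∀ z ∈ l, z ∈ saM S := by
      intro z hz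
      obtain ⟨t, rfl⟩ := hlz z hz
      exact flow_mem_saM S hx t
    have hznorm : ∀ z ∈ l, ‖z S.vac‖ = ‖x S.vac‖ := by
      intro z hz
      obtain ⟨t, rfl⟩ := hlz z hz
      rw [flow_apply_vac, norm_wave_apply]
    obtain ⟨hm, hc⟩ := hasMean_list_sum hω l (fun z t => psi S (S.flow t x) z) (6 * τ ^ 2)
      (fun z hz => psi_mean hω herg hx (hzsa z hz) (hznorm z hz))
      (fun z _ => psi_flow_continuous x z)
    obtain ⟨t, ht⟩ := hm.exists_le hω hc hε
    refine ⟨S.flow t x :: l, by simp [hl], ?_, ?_⟩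
    · intro z hz
      rcases List.mem_cons.1 hz with rfl | hz
      · exact ⟨t, rfl⟩
      · exact hlz z hz
    have hgy : g4 S (S.flow t x) = g4 S x := by
      simp only [g4]
      rw [← flow_mul, flow_apply_vac, norm_wave_apply]
    set y := S.flow t x with hy
    have h1 : signAvg (y :: l) (g4 S) = signAvg l (fun s => (g4 S (s + y) + g4 S (s - y)) / 2) := by
      rw [signAvg_cons]
      have : (fun s => (g4 S (s + y) + g4 S (s - y)) / 2)
          = fun s => (1 / 2 : ℝ) * (g4 S (s + y) + g4 S (s - y)) := by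
        funext s; ring
      rw [this, signAvg_const_mul, signAvg_add]
      ring
    have h2 : signAvg l (fun s => (g4 S (s + y) + g4 S (s - y)) / 2)
        ≤ signAvg l (fun s => g4 S s + (g4 S y + psi S y s)) := by
      refine signAvg_mono ⊤ l (fun _ _ => trivial) (fun s _ => ?_)
      have := g4_step S s y
      linarith
    have h3 : signAvg l (fun s => g4 S s + (g4 S y + psi S y s))
        = signAvg l (g4 S) + (g4 S y + (l.map (psi S y)).sum) := by
      rw [signAvg_add, signAvg_add, signAvg_const,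
        signAvg_quadratic l (psi_quadratic S y) (psi_zero S y)]
    rw [h1]
    refine h2.trans ?_
    rw [h3, hgy]
    have h4 : (l.map (psi S y)).sum ≤ N * (6 * τ ^ 2) + ε := by
      have : (l.map (psi S y)).sum = (l.map (fun z => psi S (S.flow t x) z)).sum := rfl
      rw [this]
      rw [hl] at ht
      exact ht
    push_cast
    have hτ2 : 0 ≤ τ ^ 2 := sq_nonneg _
    nlinarith

end ergodic

section improve

variable {S R}
variable (hω : (ω : Filter ℕ) ≤ atTop) (herg : S.Ergodic)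
variable {U : ℝ} (hU0 : 0 ≤ U) (hU : ∀ v ∈ S.M, ‖R (v S.vac)‖ ≤ U * ‖v‖)

include hω hU0 hU in
lemma trunc_bound {C : ℝ} (hC0 : 0 ≤ C)
    (hC : ∀ x ∈ saM S, mf S R ω (x S.vac) ≤ C * ‖x S.vac‖ ^ 2)
    {s : H →L[ℂ] H} (hs : s ∈ saM S) {K : ℝ} (hK : 0 < K) :
    mf S R ω (s S.vac) ≤ U ^ 2 * K ^ 2 / 2 + C * g4 S s / (2 * K ^ 2) := by
  obtain ⟨F, Q, hF, hFs, hQ, hQs, hsum, hFn, hQn⟩ := exists_truncation S.M hs.1 hs.2 hK S.vac
  have e : s S.vac = F S.vac + Q S.vac := by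
    rw [hsum]; rfl
  have h1 := mf_add_le S R hω (F S.vac) (Q S.vac)
  have h2 := mf_congr_of_le S R hω hU0 hU hF
  have h3 := hC Q ⟨hQ, hQs⟩
  have h4 : ‖F‖ ^ 2 ≤ (K / 2) ^ 2 := by gcongr
  have h5 : ‖Q S.vac‖ ^ 2 ≤ (‖(s * s) S.vac‖ / (2 * K)) ^ 2 := by gcongr
  have h6 : U ^ 2 * ‖F‖ ^ 2 ≤ U ^ 2 * (K / 2) ^ 2 := by gcongr
  have h7 : C * ‖Q S.vac‖ ^ 2 ≤ C * (‖(s * s) S.vac‖ / (2 * K)) ^ 2 := by gcongr
  rw [e]
  have e2 : U ^ 2 * K ^ 2 / 2 = 2 * (U ^ 2 * (K / 2) ^ 2) := by ring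
  have e3 : C * g4 S s / (2 * K ^ 2) = 2 * (C * (‖(s * s) S.vac‖ / (2 * K)) ^ 2) := by
    simp only [g4]
    field_simp
  rw [e2, e3]
  linarith

include hω herg hU0 hU in
lemma improve {C : ℝ} (hC0 : 0 ≤ C)
    (hC : ∀ x ∈ saM S, mf S R ω (x S.vac) ≤ C * ‖x S.vac‖ ^ 2)
    {x : H →L[ℂ] H} (hx : x ∈ saM S) :
    mf S R ω (x S.vac) ≤ (C / 2 + 3 * U ^ 2 / 2) * ‖x S.vac‖ ^ 2 := by
  set τ := ‖x S.vac‖ ^ 2 with hτ
  rcases eq_or_lt_of_le (sq_nonneg ‖x S.vac‖) with h0 | hτpos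
  · -- degenerate case
    have h1 : x S.vac = 0 := by
      have : ‖x S.vac‖ = 0 := by
        have := h0.symm
        simpa using this
      exact norm_eq_zero.1 this
    rw [hτ, h1]
    simp [mf_zero S R hω]
  change 0 < τ at hτpos
  refine le_of_forall_pos_le_add (fun δ hδ => ?_)
  -- choice of parameters
  set η : ℝ := 6 * τ * δ / (C + 1) with hη
  have hηpos : 0 < η := by positivity
  have hg4 : 0 ≤ g4 S x := sq_nonneg _
  obtain ⟨N, hN⟩ := exists_nat_gt ((1 + g4 S x) / η)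
  have hNpos : (0 : ℝ) < N := lt_of_le_of_lt (by positivity) hN
  have hN' : 1 + g4 S x ≤ η * N := by
    rw [div_lt_iff₀ hηpos] at hN
    linarith
  obtain ⟨l, hl, hlz, hlb⟩ := exists_list hω herg hx one_pos N
  have hlb2 : signAvg l (g4 S) ≤ (N : ℝ) ^ 2 * (3 * τ ^ 2 + η) := by
    nlinarith
  set K : ℝ := Real.sqrt (3 * N * τ) with hK
  have hKpos : 0 < K := Real.sqrt_pos.2 (by positivity)
  have hK2 : K ^ 2 = 3 * N * τ := Real.sq_sqrt (by positivity)
  have hlG : ∀ z ∈ l, z ∈ saM S := by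
    intro z hz
    obtain ⟨t, rfl⟩ := hlz z hz
    exact flow_mem_saM S hx t
  -- the quadratic form
  have hq : ∀ s z : H →L[ℂ] H, mf S R ω ((s + z) S.vac) + mf S R ω ((s - z) S.vac)
      = 2 * mf S R ω (s S.vac) + 2 * mf S R ω (z S.vac) := by
    intro s z
    exact mf_parallelogram S R hω _ _
  have h1 : signAvg l (fun s => mf S R ω (s S.vac)) = N * mf S R ω (x S.vac) := by
    rw [signAvg_quadratic l hq (by simpa using mf_zero S R hω)]
    have : ∀ z ∈ l, mf S R ω (z S.vac) = mf S R ω (x S.vac) := by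
      intro z hz
      obtain ⟨t, rfl⟩ := hlz z hz
      rw [flow_apply_vac, mf_translate S R hω]
    rw [List.map_congr_left this, List.map_const', List.sum_replicate, hl]
    simp
  have h2 : signAvg l (fun s => mf S R ω (s S.vac))
      ≤ signAvg l (fun s => U ^ 2 * K ^ 2 / 2 + (C / (2 * K ^ 2)) * g4 S s) := by
    refine signAvg_mono (saM S) l hlG (fun s hs => ?_)
    have := trunc_bound hω hU0 hU hC0 hC hs hKpos
    calc _ ≤ _ := this
      _ = _ := by ring
  rw [signAvg_add, signAvg_const, signAvg_const_mul, h1] at h2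
  have h3 : (C / (2 * K ^ 2)) * signAvg l (g4 S) ≤ (C / (2 * K ^ 2)) * ((N : ℝ) ^ 2 * (3 * τ ^ 2 + η)) := by
    gcongr
  have h4 : (N : ℝ) * mf S R ω (x S.vac) ≤ N * ((C / 2 + 3 * U ^ 2 / 2) * τ + δ) := by
    refine h2.trans ?_
    rw [hK2] at h3 ⊢
    have e1 : C / (2 * (3 * N * τ)) * ((N : ℝ) ^ 2 * (3 * τ ^ 2 + η))
        = N * (C / 2 * τ + C * η / (6 * τ)) := by
      field_simp
      ring
    rw [e1] at h3
    have e2 : C * η / (6 * τ) ≤ δ := by
      have : C * η / (6 * τ) = C / (C + 1) * δ := by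
        rw [hη]; field_simp
      rw [this]
      have h5 : C / (C + 1) ≤ 1 := by
        rw [div_le_one (by positivity)]; linarith
      nlinarith
    have e3 : (N : ℝ) * (C / 2 * τ + C * η / (6 * τ)) ≤ N * (C / 2 * τ + δ) := by gcongr
    have e4 : U ^ 2 * (3 * N * τ) / 2 = N * (3 * U ^ 2 / 2 * τ) := by ring
    rw [e4]
    nlinarith
  exact le_of_mul_le_mul_left h4 hNpos

include hω herg hU0 hU in
/-- The main estimate on self-adjoint elements. -/
theorem main_sa {x : H →L[ℂ] H} (hx : x ∈ saM S) :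
    mf S R ω (x S.vac) ≤ 3 * U ^ 2 * ‖x S.vac‖ ^ 2 := by
  have key : ∀ n : ℕ, ∀ x ∈ saM S,
      mf S R ω (x S.vac) ≤ (3 * U ^ 2 + ‖R‖ ^ 2 / 2 ^ n) * ‖x S.vac‖ ^ 2 := by
    intro n
    induction n with
    | zero =>
      intro x _
      have := mf_le S R hω (x S.vac)
      have h2 : 0 ≤ 3 * U ^ 2 * ‖x S.vac‖ ^ 2 := by positivity
      simp only [pow_zero, div_one]
      nlinarith
    | succ n ih =>
      intro x hx
      have := improve hω herg hU0 hU (C := 3 * U ^ 2 + ‖R‖ ^ 2 / 2 ^ n) (by positivity) ih hx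
      refine this.trans (le_of_eq ?_)
      rw [pow_succ]
      field_simp
      ring
  have hlim : Tendsto (fun n : ℕ => (3 * U ^ 2 + ‖R‖ ^ 2 / 2 ^ n) * ‖x S.vac‖ ^ 2) atTop
      (𝓝 ((3 * U ^ 2 + 0) * ‖x S.vac‖ ^ 2)) := by
    refine Tendsto.mul_const _ (Tendsto.add tendsto_const_nhds ?_)
    have h1 : Tendsto (fun n : ℕ => ((1 : ℝ) / 2) ^ n) atTop (𝓝 0) :=
      tendsto_pow_atTop_nhds_zero_of_lt_one (by norm_num) (by norm_num)
    have h2 := h1.const_mul (‖R‖ ^ 2)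
    simp only [mul_zero] at h2
    refine h2.congr (fun n => ?_)
    rw [one_div, inv_pow]
    rfl
  have := ge_of_tendsto' hlim (fun n => key n x hx)
  simpa using this

include hω herg hU0 hU in
/-- The main estimate on arbitrary elements. -/
theorem main_gen {a : H →L[ℂ] H} (ha : a ∈ S.M) :
    mf S R ω (a S.vac) ≤ 3 * U ^ 2 * (‖a S.vac‖ ^ 2 + ‖star a S.vac‖ ^ 2) := by
  set x₁ : H →L[ℂ] H := (1 / 2 : ℂ) • (a + star a) with hx₁
  set x₂ : H →L[ℂ] H := (-Complex.I / 2 : ℂ) • (a - star a) with hx₂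
  have hstarM : star a ∈ S.M := star_mem ha
  have hx₁M : x₁ ∈ saM S := by
    refine ⟨S.M.toStarSubalgebra.smul_mem (add_mem ha hstarM) _, ?_⟩
    rw [IsSelfAdjoint, hx₁, star_smul, star_add, star_star, add_comm (star a)]
    simp
  have hx₂M : x₂ ∈ saM S := by
    refine ⟨S.M.toStarSubalgebra.smul_mem (sub_mem ha hstarM) _, ?_⟩
    rw [IsSelfAdjoint, hx₂, star_smul, star_sub, star_star]
    have : star (-Complex.I / 2 : ℂ) = -(-Complex.I / 2 : ℂ) := by
      simp [Complex.star_def, map_div₀]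
      ring
    rw [this, neg_smul, ← smul_neg, neg_sub]
  have e : a S.vac = x₁ S.vac + Complex.I • x₂ S.vac := by
    simp only [hx₁, hx₂, ContinuousLinearMap.smul_apply, ContinuousLinearMap.add_apply,
      _root_.sub_apply, smul_smul, smul_add, smul_sub]
    have h1 : Complex.I * (-Complex.I / 2) = 1 / 2 := by
      field_simp
      simp
    rw [h1]
    have h2 : (1 / 2 : ℂ) • a S.vac + (1 / 2 : ℂ) • a S.vac = a S.vac := by
      rw [← add_smul]; norm_num
    have h3 : (1 / 2 : ℂ) • a S.vac + (1 / 2 : ℂ) • star a S.vac + ((1 / 2 : ℂ) • a S.vac - (1 / 2 : ℂ) • star a S.vac)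
        = (1 / 2 : ℂ) • a S.vac + (1 / 2 : ℂ) • a S.vac := by abel
    rw [h3, h2]
  have h1 := mf_add_le S R hω (x₁ S.vac) (Complex.I • x₂ S.vac)
  rw [mf_I_smul S R hω, ← e] at h1
  have h2 := main_sa hω herg hU0 hU hx₁M
  have h3 := main_sa hω herg hU0 hU hx₂M
  have h4 : ‖x₁ S.vac‖ ^ 2 + ‖x₂ S.vac‖ ^ 2 = (‖a S.vac‖ ^ 2 + ‖star a S.vac‖ ^ 2) / 2 := by
    have h5 := parallelogram_law_with_norm ℂ (a S.vac) (star a S.vac)
    have n1 : ‖x₁ S.vac‖ = ‖a S.vac + star a S.vac‖ / 2 := by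
      simp only [hx₁, ContinuousLinearMap.smul_apply, ContinuousLinearMap.add_apply, norm_smul]
      simp
      ring
    have n2 : ‖x₂ S.vac‖ = ‖a S.vac - star a S.vac‖ / 2 := by
      simp only [hx₂, ContinuousLinearMap.smul_apply, _root_.sub_apply, norm_smul]
      simp
      ring
    rw [n1, n2]
    nlinarith
  calc mf S R ω (a S.vac) ≤ 2 * (3 * U ^ 2 * ‖x₁ S.vac‖ ^ 2) + 2 * (3 * U ^ 2 * ‖x₂ S.vac‖ ^ 2) := by
        linarith
    _ = 6 * U ^ 2 * (‖x₁ S.vac‖ ^ 2 + ‖x₂ S.vac‖ ^ 2) := by ring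
    _ = _ := by rw [h4]; ring

end improve

end Crest.Agent.Lib.ModBoot
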