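import Crest.Agent.Lib.ModBoot5

/-! Smoothing of operators along the flow, spectral cut-offs as Fourier integrals. -/

set_option autoImplicit false

namespace Crest.Agent.Lib.ModBoot

open Crest.OpAlg Filter MeasureTheory Topology Set
open scoped InnerProductSpace ComplexConjugate BoundedContinuousFunction FourierTransform Real

variable {H : Type*} [NormedAddCommGroup H] [InnerProductSpace ℂ H] [CompleteSpace H]

local notation "BCF" => BoundedContinuousFunction ℝ ℂ

/-- A smooth cut-off written as an inverse Fourier integral. -/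
lemma exists_kernel : ∃ (ρ : ℝ → ℂ) (Φ : ℝ → ℂ), Integrable ρ ∧ Continuous Φ ∧
    (∃ B, ∀ u, ‖Φ u‖ ≤ B) ∧ (∀ u, |u| ≤ 1 → Φ u = 1) ∧ (∀ u, 2 ≤ |u| → Φ u = 0) ∧
    ∀ u, Φ u = ∫ v, ρ v * Complex.exp (Complex.I * (((2 * π * v) * u : ℝ) : ℂ)) := by
  let b : ContDiffBump (0 : ℝ) := ⟨1, 2, by norm_num, by norm_num⟩
  let g : ℝ → ℂ := fun u => ((b u : ℝ) : ℂ)
  have hgs : ContDiff ℝ ((⊤ : ℕ∞) : WithTop ℕ∞) g :=
    Complex.ofRealCLM.contDiff.comp b.contDiff
  have hgc : HasCompactSupport g := by
    have : g = (fun x : ℝ => (x : ℂ)) ∘ b := rfl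
    rw [this]
    exact b.hasCompactSupport.comp_left (by simp)
  let G : SchwartzMap ℝ ℂ := hgc.toSchwartzMap hgs
  have hG : (G : ℝ → ℂ) = g := rfl
  refine ⟨𝓕 (G : ℝ → ℂ), g, ?_, hgs.continuous, ?_, ?_, ?_, ?_⟩
  · have : 𝓕 (G : ℝ → ℂ) = ((𝓕 G : SchwartzMap ℝ ℂ) : ℝ → ℂ) := by
      rw [SchwartzMap.fourier_coe]
    rw [this]
    exact SchwartzMap.integrable _
  · refine ⟨1, fun u => ?_⟩
    simp only [g, Complex.norm_real, Real.norm_eq_abs]
    rw [abs_of_nonneg (b.nonneg)]
    exact b.le_one
  · intro u hu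
    have : b u = 1 := b.one_of_mem_closedBall (by simpa [Real.norm_eq_abs] using hu)
    simp [g, this]
  · intro u hu
    have : b u = 0 := b.zero_of_le_dist (by simpa [Real.dist_eq] using hu)
    simp [g, this]
  · intro u
    have h1 : 𝓕⁻ (𝓕 (G : ℝ → ℂ)) u = G u := by
      have := G.continuous.fourierInv_fourier_eq G.integrable ?_
      · rw [this]
      · have h2 : 𝓕 (G : ℝ → ℂ) = ((𝓕 G : SchwartzMap ℝ ℂ) : ℝ → ℂ) := by
          rw [SchwartzMap.fourier_coe]
        rw [h2]
        exact SchwartzMap.integrable _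
    rw [hG] at h1
    change g u = _
    rw [← h1, Real.fourierInv_eq']
    congr 1
    funext v
    rw [smul_eq_mul, mul_comm]
    congr 2
    simp only [RCLike.inner_apply, conj_trivial]
    push_cast
    ring

section calculus

variable (D : LineCalculus H)

lemma integrable_smul_bdd {E : Type*} [NormedAddCommGroup E] [NormedSpace ℂ E]
    [NormedSpace ℝ E]
    {ρ : ℝ → ℂ} (hρ : Integrable ρ) {c : ℝ → E} (hc : Continuous c) {C : ℝ} (hC : ∀ v, ‖c v‖ ≤ C) :
    Integrable (fun v => ρ v • c v) := by
  have h0 : 0 ≤ C := (norm_nonneg _).trans (hC 0)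
  refine (hρ.norm.mul_const C).mono' (hρ.aestronglyMeasurable.smul hc.aestronglyMeasurable) ?_
  refine ae_of_all _ (fun v => ?_)
  rw [norm_smul]
  exact mul_le_mul_of_nonneg_left (hC v) (norm_nonneg _)

/-- Evaluation of the calculus at a vector, as a continuous linear map. -/
noncomputable def evalCLM (w : H) : BCF →L[ℂ] H :=
  LinearMap.mkContinuous
    { toFun := fun f => D.apply f w
      map_add' := fun f g => by simp
      map_smul' := fun c f => by simp } ‖w‖ (fun f => by
      simpa [mul_comm] using norm_apply_apply_le D f w)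

@[simp] lemma evalCLM_apply (w : H) (f : BCF) : evalCLM D w f = D.apply f w := rfl

lemma norm_integral_wave_le {ρ : ℝ → ℂ} (α : ℝ) (w : H) :
    ‖∫ v, ρ v • D.wave (α * v) w‖ ≤ (∫ v, ‖ρ v‖) * ‖w‖ := by
  refine (norm_integral_le_integral_norm _).trans ?_
  rw [← integral_mul_const]
  refine le_of_eq (integral_congr_ae (ae_of_all _ (fun v => ?_)))
  simp only [norm_smul, norm_wave_apply]

lemma integrable_wave {ρ : ℝ → ℂ} (hρ : Integrable ρ) (α : ℝ) (w : H) :
    Integrable (fun v => ρ v • D.wave (α * v) w) := by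
  refine integrable_smul_bdd hρ (c := fun v => D.wave (α * v) w)
    ((wave_apply_continuous D w).comp (continuous_const.mul continuous_id)) (C := ‖w‖) (fun v => ?_)
  rw [norm_wave_apply]

/-- A function which is a Fourier integral acts as the corresponding integral of the unitaries. -/
lemma apply_eq_integral {ρ : ℝ → ℂ} (hρ : Integrable ρ) (α : ℝ) (F : BCF)
    (hF : ∀ u, F u = ∫ v, ρ v * LineCalculus.character (α * v) u) (w : H) :
    D.apply F w = ∫ v, ρ v • D.wave (α * v) w := by
  -- first on vectors of the form g(D) w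
  have step1 : ∀ (g : BCF), HasCompactSupport (g : ℝ → ℂ) → ∀ w' : H,
      D.apply F (D.apply g w') = ∫ v, ρ v • D.wave (α * v) (D.apply g w') := by
    intro g hg w'
    have hcont : Continuous (fun v : ℝ => LineCalculus.character (α * v) * g) :=
      (continuous_character_mul g hg).comp (continuous_const.mul continuous_id)
    have hbd : ∀ v : ℝ, ‖LineCalculus.character (α * v) * g‖ ≤ ‖g‖ := by
      intro v
      refine (BoundedContinuousFunction.norm_le (norm_nonneg _)).2 (fun u => ?_)
      simp only [BoundedContinuousFunction.coe_mul, Pi.mul_apply, norm_mul, character_apply]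
      rw [mul_comm Complex.I, Complex.norm_exp_ofReal_mul_I, one_mul]
      exact g.norm_coe_le_norm u
    have hint := integrable_smul_bdd hρ hcont hbd
    -- the integral in the algebra of functions
    have hJ : (∫ v, ρ v • (LineCalculus.character (α * v) * g)) = F * g := by
      ext u
      have h1 := (BoundedContinuousFunction.evalCLM ℂ u).integral_comp_comm hint
      have h2 : (BoundedContinuousFunction.evalCLM ℂ u) (∫ v, ρ v • (LineCalculus.character (α * v) * g))
          = (∫ v, ρ v • (LineCalculus.character (α * v) * g)) u := rfl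
      rw [← h2, ← h1]
      simp only [BoundedContinuousFunction.coe_mul, Pi.mul_apply, hF u]
      rw [← integral_mul_const]
      refine integral_congr_ae (ae_of_all _ (fun v => ?_))
      simp only [map_smul, smul_eq_mul]
      change ρ v * (LineCalculus.character (α * v) u * g u) = _
      ring
    calc D.apply F (D.apply g w') = D.apply (F * g) w' := apply_mul_apply D _ _ _
      _ = evalCLM D w' (∫ v, ρ v • (LineCalculus.character (α * v) * g)) := by
          rw [hJ]; rfl
      _ = ∫ v, evalCLM D w' (ρ v • (LineCalculus.character (α * v) * g)) :=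
          ((evalCLM D w').integral_comp_comm hint).symm
      _ = ∫ v, ρ v • D.wave (α * v) (D.apply g w') := by
          refine integral_congr_ae (ae_of_all _ (fun v => ?_))
          beta_reduce
          rw [map_smul, evalCLM_apply]
          congr 1
          exact (apply_mul_apply D _ _ _).symm
  -- then by density
  have hA : 0 ≤ ∫ v, ‖ρ v‖ := integral_nonneg (fun _ => norm_nonneg _)
  refine eq_of_forall_dist_le (fun ε hε => ?_)
  set L := ‖F‖ + (∫ v, ‖ρ v‖) + 1 with hL
  have hLpos : 0 < L := by positivity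
  obtain ⟨g, hg, hgw⟩ := D.window w (ε / L) (by positivity)
  have e := step1 g hg w
  have h1 : D.apply F w - D.apply F (D.apply g w) = D.apply F (w - D.apply g w) := by
    rw [map_sub]
  have h2 : (∫ v, ρ v • D.wave (α * v) w) - ∫ v, ρ v • D.wave (α * v) (D.apply g w)
      = ∫ v, ρ v • D.wave (α * v) (w - D.apply g w) := by
    rw [← integral_sub (integrable_wave D hρ α _) (integrable_wave D hρ α _)]
    refine integral_congr_ae (ae_of_all _ (fun v => ?_))
    simp only [map_sub, smul_sub]
  rw [dist_eq_norm]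
  have h3 : D.apply F w - ∫ v, ρ v • D.wave (α * v) w
      = D.apply F (w - D.apply g w) - ∫ v, ρ v • D.wave (α * v) (w - D.apply g w) := by
    rw [← h1, ← h2, e]
    abel
  rw [h3]
  have h4 : ‖w - D.apply g w‖ ≤ ε / L := by
    rw [norm_sub_rev]; exact hgw.le
  calc _ ≤ ‖D.apply F (w - D.apply g w)‖ + ‖∫ v, ρ v • D.wave (α * v) (w - D.apply g w)‖ :=
        norm_sub_le _ _
    _ ≤ ‖F‖ * ‖w - D.apply g w‖ + (∫ v, ‖ρ v‖) * ‖w - D.apply g w‖ :=
        add_le_add (norm_apply_apply_le D _ _) (norm_integral_wave_le D α _)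
    _ ≤ L * ‖w - D.apply g w‖ := by
        rw [← add_mul]
        gcongr
        linarith
    _ ≤ L * (ε / L) := by gcongr
    _ = ε := by field_simp

end calculus

section smooth

variable (S : ModularDatum H)

lemma integrable_flow {ρ : ℝ → ℂ} (hρ : Integrable ρ) (α : ℝ) (a : H →L[ℂ] H) (w : H) :
    Integrable (fun v => ρ v • S.flow (α * v) a w) :=
  integrable_smul_bdd hρ (c := fun v => S.flow (α * v) a w)
    ((flow_apply_continuous S a w).comp (continuous_const.mul continuous_id))
    (C := ‖a‖ * ‖w‖) (fun v => norm_flow_apply_le S _ a w)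

/-- The smoothing of an operator by the flow. -/
noncomputable def smoothOp {ρ : ℝ → ℂ} (hρ : Integrable ρ) (α : ℝ) (a : H →L[ℂ] H) : H →L[ℂ] H :=
  LinearMap.mkContinuous
    { toFun := fun w => ∫ v, ρ v • S.flow (α * v) a w
      map_add' := fun w₁ w₂ => by
        rw [← integral_add (integrable_flow S hρ α a w₁) (integrable_flow S hρ α a w₂)]
        refine integral_congr_ae (ae_of_all _ (fun v => ?_))
        simp only [map_add, smul_add]
      map_smul' := fun c w => by
        simp only [RingHom.id_apply]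
        rw [← integral_smul]
        refine integral_congr_ae (ae_of_all _ (fun v => ?_))
        simp only [map_smul]
        rw [smul_comm] }
    ((∫ v, ‖ρ v‖) * ‖a‖) (fun w => by
      change ‖∫ v, ρ v • S.flow (α * v) a w‖ ≤ _
      refine (norm_integral_le_integral_norm _).trans ?_
      have : (∫ v, ‖ρ v‖) * ‖a‖ * ‖w‖ = ∫ v, ‖ρ v‖ * (‖a‖ * ‖w‖) := by
        rw [integral_mul_const]; ring
      rw [this]
      refine integral_mono (integrable_flow S hρ α a w).norm (hρ.norm.mul_const _) (fun v => ?_)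
      simp only [norm_smul]
      exact mul_le_mul_of_nonneg_left (norm_flow_apply_le S _ a w) (norm_nonneg _))

lemma smoothOp_apply {ρ : ℝ → ℂ} (hρ : Integrable ρ) (α : ℝ) (a : H →L[ℂ] H) (w : H) :
    smoothOp S hρ α a w = ∫ v, ρ v • S.flow (α * v) a w := rfl

lemma norm_smoothOp_le {ρ : ℝ → ℂ} (hρ : Integrable ρ) (α : ℝ) (a : H →L[ℂ] H) :
    ‖smoothOp S hρ α a‖ ≤ (∫ v, ‖ρ v‖) * ‖a‖ :=
  LinearMap.mkContinuous_norm_le _ (by
    have : 0 ≤ ∫ v, ‖ρ v‖ := integral_nonneg (fun _ => norm_nonneg _)
    positivity) _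

lemma smoothOp_mem {ρ : ℝ → ℂ} (hρ : Integrable ρ) (α : ℝ) {a : H →L[ℂ] H} (ha : a ∈ S.M) :
    smoothOp S hρ α a ∈ S.M := by
  have hM := S.M.centralizer_centralizer
  rw [← SetLike.mem_coe, ← hM, Set.mem_centralizer_iff]
  intro c hc'
  have hcomm : ∀ t, c * S.flow t a = S.flow t a * c := by
    intro t
    exact ((Set.mem_centralizer_iff.1 hc') (S.flow t a) (flow_mem S ha t)).symm
  ext w
  change c (smoothOp S hρ α a w) = smoothOp S hρ α a (c w)
  rw [smoothOp_apply, smoothOp_apply, ← c.integral_comp_comm (integrable_flow S hρ α a w)]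
  refine integral_congr_ae (ae_of_all _ (fun v => ?_))
  have := congrArg (fun A : H →L[ℂ] H => A w) (hcomm (α * v))
  change c (S.flow (α * v) a w) = S.flow (α * v) a (c w) at this
  simp only [map_smul, this]

lemma smoothOp_vac {ρ : ℝ → ℂ} (hρ : Integrable ρ) (α : ℝ) (a : H →L[ℂ] H) (F : BCF)
    (hF : ∀ u, F u = ∫ v, ρ v * LineCalculus.character (α * v) u) :
    smoothOp S hρ α a S.vac = S.D.apply F (a S.vac) := by
  rw [apply_eq_integral S.D hρ α F hF, smoothOp_apply]
  refine integral_congr_ae (ae_of_all _ (fun v => ?_))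
  simp only
  rw [flow_apply_vac]

end smooth

end Crest.Agent.Lib.ModBoot
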