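/-
Base definitions for the proof of S0109 (stability of quadratic optimal transport maps).
See `findings` topic row82-S0109-plan.
-/
import Crest.Prelude.Def_QuadraticTransport

set_option autoImplicit false

open MeasureTheory Crest.AnalysisR.OT
open scoped ENNReal NNReal RealInnerProductSpace

namespace Crest.Agent.Lib.OTStab

/-- Euclidean space of dimension `d`. -/
abbrev Eu (d : ℕ) := EuclideanSpace ℝ (Fin d)

variable {d : ℕ} {K : Set (Eu d)}

lemma uniform_isProb (hKc : IsCompact K) (hKi : (interior K).Nonempty) :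
    IsProbabilityMeasure (uniformProbOn K) := by
  have h0 : volume K ≠ 0 := by
    intro h
    have : volume (interior K) = 0 := measure_mono_null interior_subset h
    exact (isOpen_interior.measure_pos volume hKi).ne' this
  have h1 : volume K ≠ ∞ := hKc.measure_lt_top.ne
  constructor
  simp only [uniformProbOn, Measure.smul_apply, Measure.restrict_apply MeasurableSet.univ,
    Set.univ_inter, smul_eq_mul]
  exact ENNReal.inv_mul_cancel h0 h1

lemma uniform_ac : uniformProbOn K ≪ (volume : Measure (Eu d)) := by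
  unfold uniformProbOn
  exact (Measure.absolutelyContinuous_of_le Measure.restrict_le_self).smul_left _

lemma uniform_ae_mem (hKc : IsCompact K) : ∀ᵐ x ∂(uniformProbOn K), x ∈ K := by
  unfold uniformProbOn
  have : ∀ᵐ x ∂(volume.restrict K), x ∈ K := ae_restrict_mem hKc.measurableSet
  exact Measure.ae_smul_measure this _

/-- A function that is measurable and bounded on `K` is integrable for the uniform measure. -/
lemma uniform_integrable_of_bdd (hKc : IsCompact K) (hKi : (interior K).Nonempty)
    {F : Type*} [NormedAddCommGroup F] {f : Eu d → F} (hf : AEStronglyMeasurable f (uniformProbOn K))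
    (B : ℝ) (hB : ∀ x ∈ K, ‖f x‖ ≤ B) : Integrable f (uniformProbOn K) := by
  have := uniform_isProb hKc hKi
  refine Integrable.of_bound hf B ?_
  filter_upwards [uniform_ae_mem hKc] with x hx using hB x hx

/-- A continuous function is integrable for the uniform measure. -/
lemma uniform_integrable_of_continuous (hKc : IsCompact K) (hKi : (interior K).Nonempty)
    {F : Type*} [NormedAddCommGroup F] {f : Eu d → F} (hf : Continuous f) :
    Integrable f (uniformProbOn K) := by
  obtain ⟨B, hB⟩ := hKc.exists_bound_of_continuousOn hf.continuousOn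
  exact uniform_integrable_of_bdd hKc hKi hf.aestronglyMeasurable B hB

/-- Fenchel conjugate over `K`. -/
noncomputable def conj (K : Set (Eu d)) (f : Eu d → ℝ) (y : Eu d) : ℝ :=
  sSup ((fun x => ⟪x, y⟫ - f x) '' K)

lemma conj_bddAbove (hKc : IsCompact K) {f : Eu d → ℝ} (hf : Continuous f) (y : Eu d) :
    BddAbove ((fun x => ⟪x, y⟫ - f x) '' K) :=
  (hKc.image (by fun_prop)).bddAbove

/-- Fenchel-Young over `K`. -/
lemma inner_le_add_conj (hKc : IsCompact K) {f : Eu d → ℝ} (hf : Continuous f)
    {x : Eu d} (hx : x ∈ K) (y : Eu d) : ⟪x, y⟫ ≤ f x + conj K f y := by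
  have : ⟪x, y⟫ - f x ≤ conj K f y :=
    le_csSup (conj_bddAbove hKc hf y) ⟨x, hx, rfl⟩
  linarith

/-- Fenchel equality at a subgradient. -/
lemma add_conj_eq_of_subgrad (hKn : K.Nonempty) (hKc : IsCompact K) {f : Eu d → ℝ}
    (hf : Continuous f) {x y : Eu d} (hx : x ∈ K)
    (hsub : ∀ z ∈ K, f x + ⟪y, z - x⟫ ≤ f z) : f x + conj K f y = ⟪x, y⟫ := by
  have h1 := inner_le_add_conj hKc hf hx y
  have h2 : conj K f y ≤ ⟪x, y⟫ - f x := by
    apply csSup_le (hKn.image _)
    rintro _ ⟨z, hz, rfl⟩
    have := hsub z hz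
    simp only [inner_sub_right, real_inner_comm] at this ⊢
    linarith
  linarith

/-- The conjugate is Lipschitz with constant any bound on `K`. -/
lemma conj_lipschitz (hKn : K.Nonempty) (hKc : IsCompact K) {f : Eu d → ℝ} (hf : Continuous f)
    (A : ℝ≥0) (hA : ∀ x ∈ K, ‖x‖ ≤ A) : LipschitzWith A (conj K f) := by
  refine LipschitzWith.of_le_add_mul A fun y y' => ?_
  apply csSup_le (hKn.image _)
  rintro _ ⟨x, hx, rfl⟩
  have h1 : ⟪x, y'⟫ - f x ≤ conj K f y' := le_csSup (conj_bddAbove hKc hf y') ⟨x, hx, rfl⟩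
  have h2 : ⟪x, y - y'⟫ ≤ ‖x‖ * ‖y - y'‖ := real_inner_le_norm _ _
  have h3 : ‖x‖ * ‖y - y'‖ ≤ A * dist y y' := by
    rw [dist_eq_norm]
    exact mul_le_mul_of_nonneg_right (hA x hx) (norm_nonneg _)
  simp only [inner_sub_right] at h2
  simp only
  linarith

/-- `φ` is a global `R`-Lipschitz potential whose subdifferential contains `T` at `ρ`-a.e. point
(`ρ` the uniform probability on `K`). This is the interface of Brenier's theorem in this proof. -/
structure IsPot (K : Set (Eu d)) (R : ℝ≥0) (T : Eu d → Eu d) (φ : Eu d → ℝ) : Prop where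
  lip : LipschitzWith R φ
  ae : ∀ᵐ x ∂(uniformProbOn K), ‖T x‖ ≤ R ∧ ∀ z, φ x + ⟪T x, z - x⟫ ≤ φ z

end Crest.Agent.Lib.OTStab
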