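/-
Existence of a potential for an optimal map (Brenier / Rockafellar by translation swaps).
Module M7 of the proof of S0109.

Math: Let ρ be uniform on K, T optimal among measurable maps pushing ρ to μ, μ carried by Y.
(1) Good set Ω ⊂ K of full measure: x is a Lebesgue density point of K ∩ T⁻¹(B) for each B in a
 countable base with T x ∈ B, and T x ∈ Y.
(2) Cyclic monotonicity on Ω: for a cycle x₁,…,xₙ ∈ Ω (first for distinct points):
 Σ ⟪x_{i+1} - x_i, T x_i⟫ ≤ 0.  If not, take small balls B_i ∋ T x_i and small r, and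
 A = {a ∈ closedBall 0 r | ∀ i, a + x_i ∈ K ∧ T (a + x_i) ∈ B_i}, of positive measure by density.
 The piecewise translation Ψ : a + x_i ↦ a + x_{i+1} on the disjoint
 sets x_i + A, identity elsewhere, preserves ρ, and S = T ∘ Ψ⁻¹ pushes ρ to μ, with
 ∫‖x - S x‖² = ∫‖Ψ y - T y‖² < ∫‖y - T y‖², a contradiction.
 Cycles with repeated points split into shorter cycles.
(3) Rockafellar: fix x₀ ∈ Ω. φ z := sup over chains x₀,…,x_n in Ω of
 Σ_{k<n} ⟪x_{k+1} - x_k, T x_k⟫ + ⟪z - x_n, T x_n⟫: sup of R-Lipschitz affine functions,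
 φ x₀ ≤ 0 by (2), hence finite and R-Lipschitz, and φ z ≥ φ x + ⟪T x, z - x⟫ for x ∈ Ω, z arbitrary.
-/
import Crest.Agent.Lib.OTStabBase

set_option autoImplicit false

open MeasureTheory Crest.AnalysisR.OT Filter Topology Metric
open scoped ENNReal NNReal RealInnerProductSpace

namespace Crest.Agent.Lib.OTStab

variable {d : ℕ}

/-! ### Walks -/
section Walk
variable {E : Type*}

/-- The sum of the weights along the walk from `p` through the list. -/
def wsum (w : E → E → ℝ) : E → List E → ℝ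
  | _, [] => 0
  | p, q :: l => w p q + wsum w q l

@[simp] lemma wsum_nil (w : E → E → ℝ) (p : E) : wsum w p [] = 0 := rfl
@[simp] lemma wsum_cons (w : E → E → ℝ) (p q : E) (l : List E) :
    wsum w p (q :: l) = w p q + wsum w q l := rfl

lemma wsum_append_cons (w : E → E → ℝ) (p : E) (a : List E) (q : E) (c : List E) :
    wsum w p (a ++ q :: c) = wsum w p (a ++ [q]) + wsum w q c := by
  induction a generalizing p with
  | nil => simp
  | cons h t ih =>
    simp only [List.cons_append, wsum_cons]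
    rw [ih]; ring

lemma exists_dup_of_not_nodup : ∀ {l : List E}, ¬ l.Nodup → ∃ a y b c, l = a ++ y :: (b ++ y :: c)
  | [], h => absurd List.nodup_nil h
  | x :: t, h => by
    by_cases hx : x ∈ t
    · obtain ⟨b, c, rfl⟩ := List.append_of_mem hx
      exact ⟨[], x, b, c, rfl⟩
    · have ht : ¬ t.Nodup := fun ht => h (List.nodup_cons.2 ⟨hx, ht⟩)
      obtain ⟨a, y, b, c, rfl⟩ := exists_dup_of_not_nodup ht
      exact ⟨x :: a, y, b, c, rfl⟩

theorem closed_walk_le (w : E → E → ℝ) (Ω : Set E)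
    (hs : ∀ x l, x ∈ Ω → (∀ q ∈ l, q ∈ Ω) → (x :: l).Nodup → wsum w x (l ++ [x]) ≤ 0) :
    ∀ (n : ℕ) (x : E) (l : List E), l.length = n → x ∈ Ω → (∀ q ∈ l, q ∈ Ω) →
      wsum w x (l ++ [x]) ≤ 0 := by
  intro n
  induction n using Nat.strong_induction_on with
  | _ n ih =>
    intro x l hn hx hl
    by_cases hnd : (x :: l).Nodup
    · exact hs x l hx hl hnd
    · obtain ⟨a, y, b, c, h⟩ := exists_dup_of_not_nodup hnd
      cases a with
      | nil =>
        simp only [List.nil_append, List.cons.injEq] at h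
        obtain ⟨rfl, rfl⟩ := h
        have e : wsum w x ((b ++ x :: c) ++ [x]) = wsum w x (b ++ [x]) + wsum w x (c ++ [x]) := by
          rw [List.append_assoc, List.cons_append, wsum_append_cons]
        rw [e]
        have h1 := ih b.length (by simp only [List.length_append, List.length_cons] at hn; omega)
          x b rfl hx (fun q hq => hl q (by simp [hq]))
        have h2 := ih c.length (by simp only [List.length_append, List.length_cons] at hn; omega)
          x c rfl hx (fun q hq => hl q (by simp [hq]))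
        linarith
      | cons h0 a =>
        simp only [List.cons_append, List.cons.injEq] at h
        obtain ⟨rfl, rfl⟩ := h
        have e : wsum w x ((a ++ y :: (b ++ y :: c)) ++ [x]) =
            wsum w x ((a ++ y :: c) ++ [x]) + wsum w y (b ++ [y]) := by
          simp only [List.append_assoc, List.cons_append]
          rw [wsum_append_cons w x a y (b ++ y :: (c ++ [x])),
            wsum_append_cons w x a y (c ++ [x]), wsum_append_cons w y b y]
          ring
        rw [e]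
        have hy : y ∈ Ω := hl y (by simp)
        have h1 := ih (a ++ y :: c).length
          (by simp only [List.length_append, List.length_cons] at hn ⊢; omega)
          x (a ++ y :: c) rfl hx
          (fun q hq => hl q (by
            simp only [List.mem_append, List.mem_cons] at hq ⊢
            tauto))
        have h2 := ih b.length (by simp only [List.length_append, List.length_cons] at hn; omega)
          y b rfl hy (fun q hq => hl q (by simp [hq]))
        linarith

/-- Pieces reachable from `x₀` by a chain in `Ω`. -/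
inductive Reach (w : E → E → ℝ) (Ω : Set E) (x₀ : E) : E → ℝ → Prop
  | base : Reach w Ω x₀ x₀ 0
  | step {p : E} {v : ℝ} {q : E} : Reach w Ω x₀ p v → q ∈ Ω → Reach w Ω x₀ q (v + w p q)

lemma Reach.mem {w : E → E → ℝ} {Ω : Set E} {x₀ p : E} {v : ℝ} (h₀ : x₀ ∈ Ω)
    (h : Reach w Ω x₀ p v) : p ∈ Ω := by
  induction h with
  | base => exact h₀
  | step _ hq _ => exact hq

lemma Reach.exists_list {w : E → E → ℝ} {Ω : Set E} {x₀ p : E} {v : ℝ}
    (h : Reach w Ω x₀ p v) :
    ∃ l : List E, (∀ q ∈ l, q ∈ Ω) ∧ ∀ r, wsum w x₀ (l ++ [r]) = v + w p r := by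
  induction h with
  | base => exact ⟨[], by simp, by simp⟩
  | @step p v q _ hq ih =>
    obtain ⟨l, hl, he⟩ := ih
    refine ⟨l ++ [q], ?_, ?_⟩
    · intro q' hq'
      simp only [List.mem_append, List.mem_singleton] at hq'
      rcases hq' with h' | rfl
      · exact hl q' h'
      · exact hq
    · intro r
      rw [List.append_assoc, List.singleton_append, wsum_append_cons, he]
      simp

end Walk

/-- Rockafellar's construction. -/
theorem exists_pot_of_closed_walk {Ω : Set (Eu d)} (T : Eu d → Eu d) (R : ℝ≥0) (hΩ : Ω.Nonempty)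
    (hTR : ∀ x ∈ Ω, ‖T x‖ ≤ R)
    (hwalk : ∀ x l, x ∈ Ω → (∀ q ∈ l, q ∈ Ω) →
      wsum (fun p q => ⟪q - p, T p⟫) x (l ++ [x]) ≤ 0) :
    ∃ φ : Eu d → ℝ, LipschitzWith R φ ∧ ∀ x ∈ Ω, ∀ z, φ x + ⟪T x, z - x⟫ ≤ φ z := by
  classical
  obtain ⟨x₀, hx₀⟩ := hΩ
  set w : Eu d → Eu d → ℝ := fun p q => ⟪q - p, T p⟫ with hw
  let P := {q : Eu d × ℝ // Reach w Ω x₀ q.1 q.2}
  have : Nonempty P := ⟨⟨(x₀, 0), Reach.base⟩⟩
  let aff : P → Eu d → ℝ := fun q z => q.1.2 + ⟪z - q.1.1, T q.1.1⟫
  have hmem : ∀ q : P, q.1.1 ∈ Ω := fun q => Reach.mem hx₀ q.2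
  have hlipaff : ∀ q : P, ∀ x y, aff q x ≤ aff q y + R * dist x y := by
    intro q x y
    have h1 : ⟪x - q.1.1, T q.1.1⟫ = ⟪y - q.1.1, T q.1.1⟫ + ⟪x - y, T q.1.1⟫ := by
      rw [← inner_add_left]; congr 1; abel
    have h2 : ⟪x - y, T q.1.1⟫ ≤ ‖x - y‖ * ‖T q.1.1‖ := real_inner_le_norm _ _
    have h3 : ‖x - y‖ * ‖T q.1.1‖ ≤ R * dist x y := by
      rw [dist_eq_norm, mul_comm]
      exact mul_le_mul_of_nonneg_right (hTR _ (hmem q)) (norm_nonneg _)
    simp only [aff]
    linarith
  have hx0 : ∀ q : P, aff q x₀ ≤ 0 := by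
    intro q
    obtain ⟨l, hl, he⟩ := Reach.exists_list q.2
    have := hwalk x₀ l hx₀ hl
    rw [he] at this
    exact this
  have hbdd : ∀ z, BddAbove (Set.range fun q : P => aff q z) := by
    intro z
    refine ⟨0 + R * dist z x₀, ?_⟩
    rintro _ ⟨q, rfl⟩
    have h1 := hlipaff q z x₀
    have h2 := hx0 q
    simp only at *
    linarith
  refine ⟨fun z => ⨆ q : P, aff q z, ?_, ?_⟩
  · refine LipschitzWith.of_le_add_mul R fun x y => ?_
    apply ciSup_le
    intro q
    have h1 := hlipaff q x y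
    have h2 : aff q y ≤ ⨆ q : P, aff q y := le_ciSup (hbdd y) q
    linarith
  · intro x hx z
    have : (⨆ q : P, aff q x) ≤ (⨆ q : P, aff q z) - ⟪T x, z - x⟫ := by
      apply ciSup_le
      intro q
      let q' : P := ⟨(x, q.1.2 + w q.1.1 x), Reach.step q.2 hx⟩
      have h2 : aff q' z ≤ ⨆ q : P, aff q z := le_ciSup (hbdd z) q'
      have h3 : aff q' z = aff q x + ⟪T x, z - x⟫ := by
        simp only [aff, q', hw]
        rw [real_inner_comm (z - x) (T x)]
      linarith
    simp only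
    linarith

/-! ### Piecewise translations -/
section Swap

/-- The piecewise translation `a + p ↦ a + σ p` (`a ∈ A`, `p ∈ s`), identity elsewhere. -/
noncomputable def pt (s : Finset (Eu d)) (σ : Equiv.Perm (Eu d)) (A : Set (Eu d)) (y : Eu d) :
    Eu d :=
  y + ∑ p ∈ s, {y : Eu d | y - p ∈ A}.indicator (fun _ => σ p - p) y

variable {s : Finset (Eu d)} {σ : Equiv.Perm (Eu d)} {A : Set (Eu d)}

lemma pt_of_mem (hdisj : ∀ p ∈ s, ∀ q ∈ s, ∀ y, y - p ∈ A → y - q ∈ A → p = q)
    {p y : Eu d} (hp : p ∈ s) (hy : y - p ∈ A) : pt s σ A y = y + (σ p - p) := by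
  unfold pt
  congr 1
  rw [Finset.sum_eq_single p]
  · simp [Set.indicator, hy]
  · intro q hq hqp
    have : y - q ∉ A := fun h => hqp (hdisj q hq p hp y h hy)
    simp [Set.indicator, this]
  · intro h; exact absurd hp h

lemma pt_of_forall_not {y : Eu d} (hy : ∀ p ∈ s, y - p ∉ A) : pt s σ A y = y := by
  unfold pt
  have : ∑ p ∈ s, {y : Eu d | y - p ∈ A}.indicator (fun _ => σ p - p) y = 0 := by
    apply Finset.sum_eq_zero
    intro p hp
    simp [Set.indicator, hy p hp]
  rw [this, add_zero]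

lemma measurable_pt (hA : MeasurableSet A) : Measurable (pt s σ A) := by
  unfold pt
  refine measurable_id.add (Finset.measurable_sum _ fun p _ => ?_)
  exact measurable_const.indicator ((measurable_id.sub_const p) hA)

lemma pt_inv (hσ : ∀ p, σ p ∈ s ↔ p ∈ s)
    (hdisj : ∀ p ∈ s, ∀ q ∈ s, ∀ y, y - p ∈ A → y - q ∈ A → p = q) (y : Eu d) :
    pt s σ⁻¹ A (pt s σ A y) = y := by
  by_cases h : ∃ p ∈ s, y - p ∈ A
  · obtain ⟨p, hp, hy⟩ := h
    rw [pt_of_mem hdisj hp hy]
    have h2 : y + (σ p - p) - σ p ∈ A := by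
      have : y + (σ p - p) - σ p = y - p := by abel
      rwa [this]
    rw [pt_of_mem hdisj ((hσ p).2 hp) h2]
    have e : σ⁻¹ (σ p) = p := by simp
    rw [e]
    abel
  · push Not at h
    rw [pt_of_forall_not h, pt_of_forall_not h]

lemma map_pt_restrict {K : Set (Eu d)} (hKm : MeasurableSet K) (hA : MeasurableSet A)
    (hσ : ∀ p, σ p ∈ s ↔ p ∈ s)
    (hdisj : ∀ p ∈ s, ∀ q ∈ s, ∀ y, y - p ∈ A → y - q ∈ A → p = q)
    (hK : ∀ p ∈ s, ∀ y, y - p ∈ A → y ∈ K) :
    ((volume : Measure (Eu d)).restrict K).map (pt s σ A) = volume.restrict K := by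
  classical
  set U : Eu d → Set (Eu d) := fun p => {y | y - p ∈ A} with hU
  have hUm : ∀ p, MeasurableSet (U p) := fun p => (measurable_id.sub_const p) hA
  set D : Set (Eu d) := K \ ⋃ p ∈ s, U p with hD
  have hDm : MeasurableSet D := hKm.diff (s.measurableSet_biUnion fun p _ => hUm p)
  have hsplit : ∀ X : Set (Eu d), MeasurableSet X →
      volume (X ∩ K) = volume (X ∩ D) + ∑ p ∈ s, volume (X ∩ U p) := by
    intro X hX
    have e1 : X ∩ K = (X ∩ D) ∪ ⋃ p ∈ s, (X ∩ U p) := by
      ext y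
      simp only [Set.mem_inter_iff, Set.mem_union, Set.mem_iUnion, hD, Set.mem_sdiff, exists_prop]
      constructor
      · rintro ⟨h1, h2⟩
        by_cases h3 : ∃ p ∈ s, y ∈ U p
        · obtain ⟨p, hp, hy⟩ := h3
          exact Or.inr ⟨p, hp, h1, hy⟩
        · exact Or.inl ⟨h1, h2, fun h4 => h3 (by simpa using h4)⟩
      · rintro (⟨h1, h2, _⟩ | ⟨p, hp, h1, h2⟩)
        · exact ⟨h1, h2⟩
        · exact ⟨h1, hK p hp y h2⟩
    have e2 : Disjoint (X ∩ D) (⋃ p ∈ s, (X ∩ U p)) := by
      rw [Set.disjoint_left]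
      rintro y ⟨_, _, h2⟩ h3
      simp only [Set.mem_iUnion, exists_prop] at h3
      obtain ⟨p, hp, _, h4⟩ := h3
      exact h2 (by simp only [Set.mem_iUnion, exists_prop]; exact ⟨p, hp, h4⟩)
    have e3 : volume (⋃ p ∈ s, (X ∩ U p)) = ∑ p ∈ s, volume (X ∩ U p) := by
      apply measure_biUnion_finset
      · intro p hp q hq hpq
        change Disjoint _ _
        rw [Set.disjoint_left]
        rintro y ⟨_, h1⟩ ⟨_, h2⟩
        exact hpq (hdisj p hp q hq y h1 h2)
      · exact fun p _ => hX.inter (hUm p)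
    rw [e1, measure_union e2 (s.measurableSet_biUnion fun p _ => hX.inter (hUm p)), e3]
  ext C hC
  have hΨ := measurable_pt (s := s) (σ := σ) hA
  rw [Measure.map_apply hΨ hC, Measure.restrict_apply (hΨ hC), Measure.restrict_apply hC,
    hsplit _ (hΨ hC), hsplit _ hC]
  congr 1
  · congr 1
    ext y
    simp only [Set.mem_inter_iff, Set.mem_preimage]
    constructor
    · rintro ⟨h1, h2⟩
      have h3 : ∀ p ∈ s, y - p ∉ A := by
        intro p hp h4
        exact h2.2 (by simp only [Set.mem_iUnion, exists_prop]; exact ⟨p, hp, h4⟩)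
      rw [pt_of_forall_not h3] at h1
      exact ⟨h1, h2⟩
    · rintro ⟨h1, h2⟩
      have h3 : ∀ p ∈ s, y - p ∉ A := by
        intro p hp h4
        exact h2.2 (by simp only [Set.mem_iUnion, exists_prop]; exact ⟨p, hp, h4⟩)
      rw [pt_of_forall_not h3]
      exact ⟨h1, h2⟩
  · have e4 : ∀ p ∈ s, volume (pt s σ A ⁻¹' C ∩ U p) = volume (C ∩ U (σ p)) := by
      intro p hp
      have : pt s σ A ⁻¹' C ∩ U p = (fun y => y + (σ p - p)) ⁻¹' (C ∩ U (σ p)) := by
        ext y
        simp only [Set.mem_inter_iff, Set.mem_preimage, hU, Set.mem_ofPred_eq]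
        have e : y + (σ p - p) - σ p = y - p := by abel
        rw [e]
        constructor
        · rintro ⟨h1, h2⟩
          rw [pt_of_mem hdisj hp h2] at h1
          exact ⟨h1, h2⟩
        · rintro ⟨h1, h2⟩
          rw [pt_of_mem hdisj hp h2]
          exact ⟨h1, h2⟩
      rw [this, measure_preimage_add_right]
    rw [Finset.sum_congr rfl e4]
    exact Finset.sum_equiv σ (fun p => (hσ p).symm) (fun _ _ => rfl)

end Swap

/-! ### The optimality inequality -/

lemma lintegral_enorm_sq_eq {ρ : Measure (Eu d)} [IsProbabilityMeasure ρ] {f : Eu d → Eu d}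
    (hf : Measurable f) {M : ℝ} (hM : ∀ᵐ y ∂ρ, ‖f y‖ ≤ M) :
    ∫⁻ y, ‖f y‖ₑ ^ 2 ∂ρ = ENNReal.ofReal (∫ y, ‖f y‖ ^ 2 ∂ρ) := by
  have hi : Integrable (fun y => ‖f y‖ ^ 2) ρ := by
    refine Integrable.of_bound (C := M ^ 2) (by fun_prop) ?_
    filter_upwards [hM] with y hy
    rw [Real.norm_eq_abs, abs_of_nonneg (by positivity)]
    gcongr
  rw [ofReal_integral_eq_lintegral_ofReal hi (Eventually.of_forall fun y => by positivity)]
  congr 1
  ext y
  rw [ENNReal.ofReal_pow (norm_nonneg _), ofReal_norm]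

/-- The optimality inequality for a measure preserving bijection. -/
theorem inner_disp_le {ρ μ : Measure (Eu d)} [IsProbabilityMeasure ρ] {T : Eu d → Eu d}
    (hT : IsOptimalMap ρ μ T) {Ψ Ψ' : Eu d → Eu d} (hΨ : Measurable Ψ) (hΨ' : Measurable Ψ')
    (hmap : ρ.map Ψ = ρ) (hinv : ∀ y, Ψ' (Ψ y) = y) (M : ℝ) (hx : ∀ᵐ y ∂ρ, ‖y‖ ≤ M)
    (hTM : ∀ᵐ y ∂ρ, ‖T y‖ ≤ M) : ∫ y, ⟪Ψ y - y, T y⟫ ∂ρ ≤ 0 := by
  obtain ⟨hTm, hTmap, hTopt⟩ := hT
  have hmap' : ρ.map Ψ' = ρ := by
    conv_lhs => rw [← hmap]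
    rw [Measure.map_map hΨ' hΨ]
    have : Ψ' ∘ Ψ = id := funext hinv
    rw [this, Measure.map_id]
  have hS : ρ.map (T ∘ Ψ') = μ := by
    rw [← Measure.map_map hTm hΨ', hmap', hTmap]
  have h1 := hTopt (T ∘ Ψ') (hTm.comp hΨ') hS
  have hΨx : ∀ᵐ y ∂ρ, ‖Ψ y‖ ≤ M := by
    have : ∀ᵐ y ∂(ρ.map Ψ), ‖y‖ ≤ M := by rw [hmap]; exact hx
    exact ae_of_ae_map hΨ.aemeasurable this
  have h2 : ∫⁻ x, ‖x - (T ∘ Ψ') x‖ₑ ^ 2 ∂ρ = ∫⁻ y, ‖Ψ y - T y‖ₑ ^ 2 ∂ρ := by
    have hm : Measurable fun x => ‖x - (T ∘ Ψ') x‖ₑ ^ 2 :=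
      ((measurable_id.sub (hTm.comp hΨ')).enorm).pow_const 2
    conv_lhs => rw [← hmap]
    rw [lintegral_map hm hΨ]
    simp only [Function.comp_apply, hinv]
  rw [h2] at h1
  have hbd1 : ∀ᵐ y ∂ρ, ‖y - T y‖ ≤ M + M := by
    filter_upwards [hx, hTM] with y h3 h4
    exact (norm_sub_le _ _).trans (add_le_add h3 h4)
  have hbd2 : ∀ᵐ y ∂ρ, ‖Ψ y - T y‖ ≤ M + M := by
    filter_upwards [hΨx, hTM] with y h3 h4
    exact (norm_sub_le _ _).trans (add_le_add h3 h4)
  rw [lintegral_enorm_sq_eq (f := fun y => y - T y) (measurable_id.sub hTm) hbd1,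
    lintegral_enorm_sq_eq (f := fun y => Ψ y - T y) (hΨ.sub hTm) hbd2] at h1
  have hnn : 0 ≤ ∫ y, ‖Ψ y - T y‖ ^ 2 ∂ρ := integral_nonneg fun y => by positivity
  have h3 := (ENNReal.ofReal_le_ofReal_iff hnn).1 h1
  -- integrability
  have hib : ∀ {g : Eu d → ℝ}, AEStronglyMeasurable g ρ → (∀ᵐ y ∂ρ, |g y| ≤ M * M) →
      Integrable g ρ := by
    intro g hg hb
    exact Integrable.of_bound hg (M * M) (by simpa using hb)
  have hM0 : ∀ᵐ y ∂ρ, 0 ≤ M := by
    filter_upwards [hx] with y hy using (norm_nonneg y).trans hy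
  have hi1 : Integrable (fun y => ‖Ψ y‖ ^ 2) ρ := by
    refine hib (by fun_prop) ?_
    filter_upwards [hΨx] with y hy
    rw [abs_of_nonneg (by positivity), pow_two]
    exact mul_self_le_mul_self (norm_nonneg _) hy
  have hi2 : Integrable (fun y => ‖y‖ ^ 2) ρ := by
    refine hib (by fun_prop) ?_
    filter_upwards [hx] with y hy
    rw [abs_of_nonneg (by positivity), pow_two]
    exact mul_self_le_mul_self (norm_nonneg _) hy
  have hi3 : Integrable (fun y => ‖T y‖ ^ 2) ρ := by
    refine hib (by fun_prop) ?_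
    filter_upwards [hTM] with y hy
    rw [abs_of_nonneg (by positivity), pow_two]
    exact mul_self_le_mul_self (norm_nonneg _) hy
  have hin : ∀ {f : Eu d → Eu d}, Measurable f → (∀ᵐ y ∂ρ, ‖f y‖ ≤ M) →
      Integrable (fun y => ⟪f y, T y⟫) ρ := by
    intro f hf hfb
    refine hib (hf.inner hTm).aestronglyMeasurable ?_
    filter_upwards [hfb, hTM] with y h4 h5
    refine (abs_real_inner_le_norm _ _).trans ?_
    exact mul_le_mul h4 h5 (norm_nonneg _) ((norm_nonneg _).trans h4)
  have hi4 := hin hΨ hΨx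
  have hi5 : Integrable (fun y => ⟪y, T y⟫) ρ := hin measurable_id hx
  have e1 : ∫ y, ‖Ψ y - T y‖ ^ 2 ∂ρ =
      ∫ y, ‖Ψ y‖ ^ 2 ∂ρ - 2 * ∫ y, ⟪Ψ y, T y⟫ ∂ρ + ∫ y, ‖T y‖ ^ 2 ∂ρ := by
    simp_rw [norm_sub_sq_real]
    rw [integral_add (f := fun y => ‖Ψ y‖ ^ 2 - 2 * ⟪Ψ y, T y⟫) (g := fun y => ‖T y‖ ^ 2)
      (hi1.sub (hi4.const_mul 2)) hi3, integral_sub hi1 (hi4.const_mul 2), integral_const_mul]
  have e2 : ∫ y, ‖y - T y‖ ^ 2 ∂ρ =
      ∫ y, ‖y‖ ^ 2 ∂ρ - 2 * ∫ y, ⟪y, T y⟫ ∂ρ + ∫ y, ‖T y‖ ^ 2 ∂ρ := by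
    simp_rw [norm_sub_sq_real]
    rw [integral_add (f := fun y => ‖y‖ ^ 2 - 2 * ⟪y, T y⟫) (g := fun y => ‖T y‖ ^ 2)
      (hi2.sub (hi5.const_mul 2)) hi3, integral_sub hi2 (hi5.const_mul 2), integral_const_mul]
  have e3 : ∫ y, ‖Ψ y‖ ^ 2 ∂ρ = ∫ y, ‖y‖ ^ 2 ∂ρ := by
    conv_rhs => rw [← hmap]
    rw [integral_map hΨ.aemeasurable (by fun_prop)]
  have e4 : ∫ y, ⟪Ψ y - y, T y⟫ ∂ρ = ∫ y, ⟪Ψ y, T y⟫ ∂ρ - ∫ y, ⟪y, T y⟫ ∂ρ := by
    simp_rw [inner_sub_left]
    rw [integral_sub hi4 hi5]
  rw [e4]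
  rw [e1, e2, e3] at h3
  linarith

/-! ### Integration of the displacement -/

lemma integral_disp {K : Set (Eu d)} {s : Finset (Eu d)} {σ : Equiv.Perm (Eu d)} {A : Set (Eu d)}
    {T : Eu d → Eu d} (hA : MeasurableSet A) (hAf : volume A ≠ ∞) (hTm : Measurable T)
    (hK : ∀ p ∈ s, ∀ y, y - p ∈ A → y ∈ K)
    (M : ℝ) (hTb : ∀ p ∈ s, ∀ a ∈ A, ‖T (a + p)‖ ≤ M) :
    ∫ y, ⟪pt s σ A y - y, T y⟫ ∂(uniformProbOn K) =
      ((volume K)⁻¹).toReal * ∫ a in A, ∑ p ∈ s, ⟪σ p - p, T (a + p)⟫ := by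
  classical
  have hpt : ∀ y, ⟪pt s σ A y - y, T y⟫ =
      ∑ p ∈ s, {y : Eu d | y - p ∈ A}.indicator (fun y => ⟪σ p - p, T y⟫) y := by
    intro y
    have : pt s σ A y - y = ∑ p ∈ s, {y : Eu d | y - p ∈ A}.indicator (fun _ => σ p - p) y := by
      unfold pt; abel
    rw [this, sum_inner]
    refine Finset.sum_congr rfl fun p _ => ?_
    by_cases h : y - p ∈ A
    · simp [Set.indicator, h]
    · simp [Set.indicator, h]
  have hUm : ∀ p, MeasurableSet {y : Eu d | y - p ∈ A} := fun p => (measurable_id.sub_const p) hA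
  have hvol : ∀ p ∈ s, ∫ y in {y : Eu d | y - p ∈ A}, ⟪σ p - p, T y⟫ =
      ∫ a in A, ⟪σ p - p, T (a + p)⟫ := by
    intro p _
    have := (measurePreserving_sub_right (volume : Measure (Eu d)) p).setIntegral_preimage_emb
      (measurableEmbedding_subRight p) (fun a => ⟪σ p - p, T (a + p)⟫) A
    have e : {y : Eu d | y - p ∈ A} = (fun x => x - p) ⁻¹' A := rfl
    rw [e]
    simpa using this
  have hint : ∀ p ∈ s, IntegrableOn (fun a => ⟪σ p - p, T (a + p)⟫) A := by
    intro p hp
    have : IsFiniteMeasure (volume.restrict A) := ⟨by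
      rw [Measure.restrict_apply_univ]; exact hAf.lt_top⟩
    refine Integrable.of_bound (C := ‖σ p - p‖ * M) ?_ ?_
    · exact ((measurable_const.inner (hTm.comp (measurable_id.add_const p)))).aestronglyMeasurable
    · filter_upwards [ae_restrict_mem hA] with a ha
      rw [Real.norm_eq_abs]
      refine (abs_real_inner_le_norm _ _).trans ?_
      exact mul_le_mul_of_nonneg_left (hTb p hp a ha) (norm_nonneg _)
  have hint2 : ∀ p ∈ s, Integrable
      ({y : Eu d | y - p ∈ A}.indicator (fun y => ⟪σ p - p, T y⟫)) (volume.restrict K) := by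
    intro p hp
    have hi : IntegrableOn (fun y => ⟪σ p - p, T y⟫) {y : Eu d | y - p ∈ A} := by
      have := (measurePreserving_sub_right (volume : Measure (Eu d)) p).integrableOn_comp_preimage
        (measurableEmbedding_subRight p) (f := fun a => ⟪σ p - p, T (a + p)⟫) (s := A)
      have h2 := this.2 (hint p hp)
      have e : {y : Eu d | y - p ∈ A} = (fun x => x - p) ⁻¹' A := rfl
      rw [e]
      simpa [IntegrableOn, Function.comp_def] using h2
    exact (hi.integrable_indicator (hUm p)).mono_measure Measure.restrict_le_self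
  simp_rw [hpt]
  unfold uniformProbOn
  rw [integral_smul_measure, integral_finsetSum _ hint2, integral_finsetSum _ hint, smul_eq_mul]
  congr 1
  refine Finset.sum_congr rfl fun p hp => ?_
  rw [setIntegral_indicator (hUm p), ← hvol p hp]
  congr 2
  exact Set.inter_eq_right.2 (fun y hy => hK p hp y hy)

/-! ### Good points -/

/-- Good points: density points of all the relevant sets. -/
def goodSet (K Y : Set (Eu d)) (T : Eu d → Eu d) : Set (Eu d) :=
  {x | x ∈ K ∧ T x ∈ Y ∧ ∀ B ∈ TopologicalSpace.countableBasis (Eu d), T x ∈ B →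
    Tendsto (fun r => volume ((K ∩ T ⁻¹' B) ∩ closedBall x r) / volume (closedBall x r))
      (𝓝[>] 0) (𝓝 1)}

lemma ae_goodSet {K Y : Set (Eu d)} (hKc : IsCompact K) (hYc : IsCompact Y) {μ : Measure (Eu d)}
    (hμ : μ Yᶜ = 0) {T : Eu d → Eu d} (hTm : Measurable T)
    (hTmap : (uniformProbOn K).map T = μ) : ∀ᵐ x ∂(uniformProbOn K), x ∈ goodSet K Y T := by
  have h1 := uniform_ae_mem hKc
  have h2 : ∀ᵐ x ∂(uniformProbOn K), T x ∈ Y := by
    have : (uniformProbOn K) (T ⁻¹' Yᶜ) = 0 := by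
      rw [← Measure.map_apply hTm hYc.isClosed.measurableSet.compl, hTmap, hμ]
    exact this
  have h3 : ∀ᵐ x ∂(volume : Measure (Eu d)), ∀ B ∈ TopologicalSpace.countableBasis (Eu d),
      x ∈ K ∩ T ⁻¹' B →
      Tendsto (fun r => volume ((K ∩ T ⁻¹' B) ∩ closedBall x r) / volume (closedBall x r))
        (𝓝[>] 0) (𝓝 1) := by
    rw [ae_ball_iff (TopologicalSpace.countable_countableBasis (Eu d))]
    intro B hB
    have hBm : MeasurableSet (K ∩ T ⁻¹' B) :=
      hKc.measurableSet.inter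
        (hTm (TopologicalSpace.isOpen_of_mem_countableBasis hB).measurableSet)
    filter_upwards [Besicovitch.ae_tendsto_measure_inter_div_of_measurableSet
      (volume : Measure (Eu d)) hBm] with x hx hxB
    simpa [Set.indicator, hxB] using hx
  have h3' : ∀ᵐ x ∂(uniformProbOn K), ∀ B ∈ TopologicalSpace.countableBasis (Eu d),
      x ∈ K ∩ T ⁻¹' B →
      Tendsto (fun r => volume ((K ∩ T ⁻¹' B) ∩ closedBall x r) / volume (closedBall x r))
        (𝓝[>] 0) (𝓝 1) := uniform_ac.ae_le h3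
  filter_upwards [h1, h2, h3'] with x hx1 hx2 hx3
  exact ⟨hx1, hx2, fun B hB hTB => hx3 B hB ⟨hx1, hTB⟩⟩

/-- The key finite inequality: cyclical monotonicity on good points. -/
theorem perm_sum_le {K Y : Set (Eu d)} (hKc : IsCompact K) (hKi : (interior K).Nonempty)
    (hYc : IsCompact Y) {μ : Measure (Eu d)} (hμ : μ Yᶜ = 0) {T : Eu d → Eu d}
    (hT : IsOptimalMap (uniformProbOn K) μ T) {s : Finset (Eu d)} {σ : Equiv.Perm (Eu d)}
    (hσ : ∀ p, σ p ∈ s ↔ p ∈ s) (hs : ∀ p ∈ s, p ∈ goodSet K Y T) :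
    ∑ p ∈ s, ⟪σ p - p, T p⟫ ≤ 0 := by
  classical
  by_contra hcon
  push Not at hcon
  set ε := ∑ p ∈ s, ⟪σ p - p, T p⟫ with hε
  set Dm := ∑ p ∈ s, ‖σ p - p‖ + 1 with hDm
  have hDm0 : 0 < Dm := by
    have : 0 ≤ ∑ p ∈ s, ‖σ p - p‖ := Finset.sum_nonneg fun _ _ => norm_nonneg _
    linarith
  set δ := ε / (2 * Dm) with hδ
  have hδ0 : 0 < δ := by positivity
  have hB : ∀ p, ∃ B : Set (Eu d), B ∈ TopologicalSpace.countableBasis (Eu d) ∧ T p ∈ B ∧
      B ⊆ ball (T p) δ := by
    intro p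
    obtain ⟨B, hB, h1, h2⟩ := (TopologicalSpace.isBasis_countableBasis (Eu d)).exists_subset_of_mem_open
      (mem_ball_self hδ0) isOpen_ball
    exact ⟨B, hB, h1, h2⟩
  choose B hBb hTB hBs using hB
  set G : Eu d → Set (Eu d) := fun p => K ∩ T ⁻¹' (B p) with hG
  have hGm : ∀ p, MeasurableSet (G p) := fun p =>
    hKc.measurableSet.inter
      (hT.1 (TopologicalSpace.isOpen_of_mem_countableBasis (hBb p)).measurableSet)
  set n := s.card with hn
  have hnpos : (0 : ℝ) < (n : ℝ) + 1 := by positivity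
  -- choose the radius
  have hc : ENNReal.ofReal (1 - 1 / ((n : ℝ) + 1)) < 1 := by
    rw [← ENNReal.ofReal_one]
    apply (ENNReal.ofReal_lt_ofReal_iff one_pos).2
    have : 0 < 1 / ((n : ℝ) + 1) := by positivity
    linarith
  have hev1 : ∀ᶠ r : ℝ in 𝓝[>] 0, ∀ p ∈ s, ENNReal.ofReal (1 - 1 / ((n : ℝ) + 1)) <
      volume (G p ∩ closedBall p r) / volume (closedBall p r) := by
    rw [eventually_all_finset]
    intro p hp
    exact ((hs p hp).2.2 (B p) (hBb p) (hTB p)).eventually (lt_mem_nhds hc)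
  have hev2 : ∀ᶠ r : ℝ in 𝓝[>] 0, ∀ p ∈ s, ∀ q ∈ s, p ≠ q → 2 * r < dist p q := by
    rw [eventually_all_finset]
    intro p _
    rw [eventually_all_finset]
    intro q _
    by_cases hpq : p = q
    · exact Eventually.of_forall fun r h => absurd hpq h
    · have hd : 0 < dist p q := dist_pos.2 hpq
      have : Set.Ioo (0 : ℝ) (dist p q / 2) ∈ 𝓝[>] (0 : ℝ) := Ioo_mem_nhdsGT (by positivity)
      filter_upwards [this] with r hr _
      have := hr.2
      linarith
  have hev3 : ∀ᶠ r : ℝ in 𝓝[>] 0, 0 < r := eventually_mem_nhdsWithin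
  obtain ⟨r, hr1, hr2, hr3⟩ := (hev1.and (hev2.and hev3)).exists
  -- the set A
  set A : Set (Eu d) := {a | a ∈ closedBall (0 : Eu d) r ∧ ∀ p ∈ s, a + p ∈ G p} with hA
  have hAm : MeasurableSet A := by
    have : A = closedBall (0 : Eu d) r ∩ ⋂ p ∈ s, (fun a => a + p) ⁻¹' G p := by
      ext a; simp [hA]
    rw [this]
    exact isClosed_closedBall.measurableSet.inter
      (s.measurableSet_biInter fun p _ => (measurable_id.add_const p) (hGm p))
  have hAf : volume A ≠ ∞ := by
    refine ne_top_of_le_ne_top (measure_closedBall_lt_top (x := (0 : Eu d)) (r := r)).ne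
      (measure_mono fun a ha => ha.1)
  -- positivity of the volume of A
  set V := (volume : Measure (Eu d)).real (closedBall 0 r) with hV
  have hVpos : 0 < V := by
    apply ENNReal.toReal_pos
    · exact (measure_closedBall_pos _ _ hr3).ne'
    · exact measure_closedBall_lt_top.ne
  have he : ∀ p ∈ s, (volume : Measure (Eu d)).real
      (closedBall 0 r \ (fun a => a + p) ⁻¹' G p) ≤ V / ((n : ℝ) + 1) := by
    intro p hp
    have e1 : closedBall 0 r \ (fun a => a + p) ⁻¹' G p =
        (fun a => a + p) ⁻¹' (closedBall p r \ G p) := by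
      ext a
      simp [mem_closedBall, dist_eq_norm]
    have e2 : (volume : Measure (Eu d)).real (closedBall 0 r \ (fun a => a + p) ⁻¹' G p) =
        (volume : Measure (Eu d)).real (closedBall p r \ G p) := by
      rw [e1, measureReal_def, measureReal_def, measure_preimage_add_right]
    have e3 : (volume : Measure (Eu d)) (closedBall p r) = volume (closedBall (0 : Eu d) r) :=
      Measure.addHaar_closedBall_center volume p r
    have hv0 : volume (closedBall (0 : Eu d) r) ≠ 0 := (measure_closedBall_pos _ _ hr3).ne'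
    have hvt : volume (closedBall (0 : Eu d) r) ≠ ∞ := measure_closedBall_lt_top.ne
    have h1 := hr1 p hp
    rw [e3, ENNReal.lt_div_iff_mul_lt (Or.inl hv0) (Or.inl hvt)] at h1
    have h2 : (1 - 1 / ((n : ℝ) + 1)) * V <
        (volume : Measure (Eu d)).real (G p ∩ closedBall p r) := by
      have hf : volume (G p ∩ closedBall p r) ≠ ∞ := by
        refine ne_top_of_le_ne_top (measure_closedBall_lt_top (x := p) (r := r)).ne
          (measure_mono Set.inter_subset_right)
      have := (ENNReal.toReal_lt_toReal ?_ hf).2 h1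
      · rw [ENNReal.toReal_mul, ENNReal.toReal_ofReal] at this
        · exact this
        · have : 1 / ((n : ℝ) + 1) ≤ 1 := by
            rw [div_le_one hnpos]
            have : (0 : ℝ) ≤ n := by positivity
            linarith
          linarith
      · exact ENNReal.mul_ne_top ENNReal.ofReal_ne_top hvt
    have h3 : (volume : Measure (Eu d)).real (closedBall p r \ G p) +
        (volume : Measure (Eu d)).real (G p ∩ closedBall p r) = V := by
      have : (volume : Measure (Eu d)).real (closedBall p r) = V := by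
        rw [measureReal_def, e3]; rfl
      rw [← this, Set.inter_comm, add_comm]
      exact measureReal_inter_add_sdiff (hGm p)
        (h := (measure_closedBall_lt_top (x := p) (r := r)).ne)
    rw [e2]
    have h4 : (1 - 1 / ((n : ℝ) + 1)) * V = V - V / ((n : ℝ) + 1) := by
      field_simp
    linarith
  have hApos : 0 < (volume : Measure (Eu d)).real A := by
    have hsub : closedBall (0 : Eu d) r ⊆
        A ∪ ⋃ p ∈ s, (closedBall 0 r \ (fun a => a + p) ⁻¹' G p) := by
      intro a ha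
      by_cases h : ∀ p ∈ s, a + p ∈ G p
      · exact Or.inl ⟨ha, h⟩
      · push Not at h
        obtain ⟨p, hp, hap⟩ := h
        refine Or.inr ?_
        simp only [Set.mem_iUnion, exists_prop]
        exact ⟨p, hp, ha, hap⟩
    have hfin : ∀ p ∈ s, volume (closedBall (0 : Eu d) r \ (fun a => a + p) ⁻¹' G p) ≠ ∞ := by
      intro p _
      exact ne_top_of_le_ne_top (measure_closedBall_lt_top (x := (0 : Eu d)) (r := r)).ne
        (measure_mono Set.sdiff_subset)
    have h1 : V ≤ (volume : Measure (Eu d)).real A +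
        (volume : Measure (Eu d)).real (⋃ p ∈ s, (closedBall 0 r \ (fun a => a + p) ⁻¹' G p)) := by
      refine (measureReal_mono hsub ?_).trans (measureReal_union_le _ _)
      refine ne_top_of_le_ne_top ?_ (measure_union_le _ _)
      refine ENNReal.add_ne_top.2 ⟨hAf, ?_⟩
      refine ne_top_of_le_ne_top ?_ (measure_biUnion_finset_le _ _)
      exact (ENNReal.sum_lt_top.2 fun p hp => (hfin p hp).lt_top).ne
    have h2 : (volume : Measure (Eu d)).real (⋃ p ∈ s, (closedBall 0 r \ (fun a => a + p) ⁻¹' G p)) ≤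
        ∑ p ∈ s, (volume : Measure (Eu d)).real (closedBall 0 r \ (fun a => a + p) ⁻¹' G p) :=
      measureReal_biUnion_finset_le _ _
    have h3 : ∑ p ∈ s, (volume : Measure (Eu d)).real (closedBall 0 r \ (fun a => a + p) ⁻¹' G p) ≤
        n * (V / ((n : ℝ) + 1)) := by
      have := Finset.sum_le_card_nsmul s _ _ he
      simpa [hn] using this
    have h4 : n * (V / ((n : ℝ) + 1)) = V - V / ((n : ℝ) + 1) := by
      field_simp
      ring
    have h5 : 0 < V / ((n : ℝ) + 1) := by positivity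
    linarith
  -- the piecewise translation and the optimality inequality
  have hdisj : ∀ p ∈ s, ∀ q ∈ s, ∀ y, y - p ∈ A → y - q ∈ A → p = q := by
    intro p hp q hq y h1 h2
    by_contra hpq
    have h3 := hr2 p hp q hq hpq
    have h4 : ‖y - p‖ ≤ r := by simpa using h1.1
    have h5 : ‖y - q‖ ≤ r := by simpa using h2.1
    have h6 : dist p q ≤ ‖y - q‖ + ‖y - p‖ := by
      rw [dist_eq_norm]
      have : p - q = (y - q) - (y - p) := by abel
      rw [this]
      exact norm_sub_le _ _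
    linarith
  have hK : ∀ p ∈ s, ∀ y, y - p ∈ A → y ∈ K := by
    intro p hp y hy
    have := (hy.2 p hp).1
    simpa using this
  have hσ' : ∀ p, σ⁻¹ p ∈ s ↔ p ∈ s := by
    intro p
    have := hσ (σ⁻¹ p)
    have e : σ (σ⁻¹ p) = p := by simp
    rw [e] at this
    exact this.symm
  have hρ := uniform_isProb hKc hKi
  have hΨ := measurable_pt (s := s) (σ := σ) hAm
  have hΨ' := measurable_pt (s := s) (σ := σ⁻¹) hAm
  have hmap : (uniformProbOn K).map (pt s σ A) = uniformProbOn K := by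
    unfold uniformProbOn
    rw [Measure.map_smul, map_pt_restrict hKc.measurableSet hAm hσ hdisj hK]
  obtain ⟨A0, hA0⟩ := hKc.isBounded.exists_norm_le
  obtain ⟨Y0, hY0⟩ := hYc.isBounded.exists_norm_le
  have hG0 := ae_goodSet hKc hYc hμ hT.1 hT.2.1
  have h1 := inner_disp_le hT hΨ hΨ' hmap (pt_inv hσ hdisj) (max A0 Y0)
    (by
      filter_upwards [hG0] with y hy
      exact (hA0 y hy.1).trans (le_max_left _ _))
    (by
      filter_upwards [hG0] with y hy
      exact (hY0 _ hy.2.1).trans (le_max_right _ _))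
  have hmem : ∀ p ∈ s, ∀ a ∈ A, ‖T (a + p) - T p‖ < δ := by
    intro p hp a ha
    have := hBs p (ha.2 p hp).2
    simpa [dist_eq_norm] using this
  rw [integral_disp (M := Y0 + δ) hAm hAf hT.1 hK
    (by
      intro p hp a ha
      have h2 := hmem p hp a ha
      have h3 := hY0 _ (hs p hp).2.1
      have h4 : ‖T (a + p)‖ ≤ ‖T (a + p) - T p‖ + ‖T p‖ := by
        have := norm_add_le (T (a + p) - T p) (T p)
        simpa using this
      linarith)] at h1
  have hlow : ∀ a ∈ A, ε / 2 ≤ ∑ p ∈ s, ⟪σ p - p, T (a + p)⟫ := by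
    intro a ha
    have h2 : ∑ p ∈ s, ⟪σ p - p, T (a + p)⟫ =
        ε + ∑ p ∈ s, ⟪σ p - p, T (a + p) - T p⟫ := by
      rw [hε, ← Finset.sum_add_distrib]
      refine Finset.sum_congr rfl fun p _ => ?_
      rw [inner_sub_right]; ring
    have h3 : ∑ p ∈ s, (-‖σ p - p‖ * δ) ≤ ∑ p ∈ s, ⟪σ p - p, T (a + p) - T p⟫ := by
      refine Finset.sum_le_sum fun p hp => ?_
      have h4 := neg_abs_le ⟪σ p - p, T (a + p) - T p⟫
      have h5 := abs_real_inner_le_norm (σ p - p) (T (a + p) - T p)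
      have h6 : ‖σ p - p‖ * ‖T (a + p) - T p‖ ≤ ‖σ p - p‖ * δ :=
        mul_le_mul_of_nonneg_left (hmem p hp a ha).le (norm_nonneg _)
      linarith
    have h4 : ∑ p ∈ s, (-‖σ p - p‖ * δ) = -((∑ p ∈ s, ‖σ p - p‖) * δ) := by
      rw [Finset.sum_mul, ← Finset.sum_neg_distrib]
      refine Finset.sum_congr rfl fun p _ => ?_
      ring
    have h5 : (∑ p ∈ s, ‖σ p - p‖) * δ ≤ Dm * δ := by
      apply mul_le_mul_of_nonneg_right _ hδ0.le
      rw [hDm]; linarith
    have h6 : Dm * δ = ε / 2 := by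
      rw [hδ]; field_simp
    rw [h2]
    linarith
  have hint_pos : 0 < ∫ a in A, ∑ p ∈ s, ⟪σ p - p, T (a + p)⟫ := by
    have hfa : ∀ p ∈ s, IntegrableOn (fun a => ⟪σ p - p, T (a + p)⟫) A := by
      intro p hp
      have : IsFiniteMeasure (volume.restrict A) := ⟨by
        rw [Measure.restrict_apply_univ]; exact hAf.lt_top⟩
      refine Integrable.of_bound (C := ‖σ p - p‖ * (Y0 + δ)) ?_ ?_
      · exact ((measurable_const.inner (hT.1.comp (measurable_id.add_const p)))).aestronglyMeasurable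
      · filter_upwards [ae_restrict_mem hAm] with a ha
        rw [Real.norm_eq_abs]
        refine (abs_real_inner_le_norm _ _).trans ?_
        apply mul_le_mul_of_nonneg_left _ (norm_nonneg _)
        have h2 := hmem p hp a ha
        have h3 := hY0 _ (hs p hp).2.1
        have h4 : ‖T (a + p)‖ ≤ ‖T (a + p) - T p‖ + ‖T p‖ := by
          have := norm_add_le (T (a + p) - T p) (T p)
          simpa using this
        linarith
    have hfs : IntegrableOn (fun a => ∑ p ∈ s, ⟪σ p - p, T (a + p)⟫) A :=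
      integrable_finsetSum _ hfa
    have hmono : ∫ _a in A, ε / 2 ≤ ∫ a in A, ∑ p ∈ s, ⟪σ p - p, T (a + p)⟫ :=
      setIntegral_mono_on (integrableOn_const hAf) hfs hAm hlow
    have hval : ∫ _a in A, ε / 2 = (volume : Measure (Eu d)).real A * (ε / 2) := by
      rw [setIntegral_const, smul_eq_mul]
    have : 0 < (volume : Measure (Eu d)).real A * (ε / 2) := by positivity
    linarith
  have hc0 : 0 < ((volume K)⁻¹).toReal := by
    apply ENNReal.toReal_pos
    · exact ENNReal.inv_ne_zero.2 hKc.measure_lt_top.ne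
    · apply ENNReal.inv_ne_top.2
      intro h
      have : volume (interior K) = 0 := measure_mono_null interior_subset h
      exact (isOpen_interior.measure_pos volume hKi).ne' this
  have := mul_pos hc0 hint_pos
  linarith

lemma getElem_formPerm_aux {E : Type*} [DecidableEq E] (x : E) (l : List E) (hnd : (x :: l).Nodup)
    (i : ℕ) (hi : i < l.length + 1) :
    (l ++ [x])[i]'(by simpa using hi) = (x :: l).formPerm ((x :: l)[i]'(by simpa using hi)) := by
  rw [List.formPerm_apply_getElem _ hnd i (by simpa using hi)]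
  by_cases h : i < l.length
  · have e : (i + 1) % (x :: l).length = i + 1 := by
      apply Nat.mod_eq_of_lt
      simp only [List.length_cons]
      omega
    simp only [e, List.getElem_cons_succ]
    exact List.getElem_append_left h
  · have h' : i = l.length := by omega
    subst h'
    simp

lemma getElem_cons_append_aux {E : Type*} (x : E) (l : List E) (i : ℕ) (hi : i < l.length + 1) :
    (x :: (l ++ [x]))[i]'(by simp; omega) = (x :: l)[i]'(by simpa using hi) :=
  List.getElem_append_left (as := x :: l) (bs := [x]) (by simpa using hi)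

/-- Simple cycles. -/
theorem simple_cycle_le {K Y : Set (Eu d)} (hKc : IsCompact K) (hKi : (interior K).Nonempty)
    (hYc : IsCompact Y) {μ : Measure (Eu d)} (hμ : μ Yᶜ = 0) {T : Eu d → Eu d}
    (hT : IsOptimalMap (uniformProbOn K) μ T) (x : Eu d) (l : List (Eu d))
    (hx : x ∈ goodSet K Y T) (hl : ∀ q ∈ l, q ∈ goodSet K Y T) (hnd : (x :: l).Nodup) :
    wsum (fun p q => ⟪q - p, T p⟫) x (l ++ [x]) ≤ 0 := by
  classical
  have h1 := perm_sum_le (s := (x :: l).toFinset) (σ := (x :: l).formPerm) hKc hKi hYc hμ hT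
    (fun p => by simp only [List.mem_toFinset]; exact List.formPerm_mem_iff_mem)
    (fun p hp => by
      rw [List.mem_toFinset, List.mem_cons] at hp
      rcases hp with rfl | hp
      · exact hx
      · exact hl p hp)
  rw [List.sum_toFinset _ hnd] at h1
  refine le_of_eq_of_le ?_ h1
  -- compare the walk sum with the list of terms
  have hzip : ∀ (w : Eu d → Eu d → ℝ) (p : Eu d) (a : List (Eu d)),
      wsum w p a = (List.zipWith w (p :: a) a).sum := by
    intro w p a
    induction a generalizing p with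
    | nil => simp
    | cons h t ih => simp [ih]
  rw [hzip]
  congr 1
  apply List.ext_getElem
  · simp
  · intro i h2 h3
    have hi : i < l.length + 1 := by simpa using h3
    simp only [List.getElem_zipWith, List.getElem_map]
    rw [getElem_cons_append_aux x l i hi, getElem_formPerm_aux x l hnd i hi]

/-- Existence of a potential. -/
theorem exists_isPot {K Y : Set (Eu d)} (hKc : IsCompact K) (hKv : Convex ℝ K)
    (hKi : (interior K).Nonempty) (hYc : IsCompact Y) {μ : Measure (Eu d)}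
    (hμ : IsProbabilityOn Y μ) {T : Eu d → Eu d} (hT : IsOptimalMap (uniformProbOn K) μ T)
    (R : ℝ≥0) (hR : ∀ y ∈ Y, ‖y‖ ≤ R) : ∃ φ : Eu d → ℝ, IsPot K R T φ := by
  have hρ := uniform_isProb hKc hKi
  have hG := ae_goodSet hKc hYc hμ.2 hT.1 hT.2.1
  obtain ⟨x₀, hx₀⟩ := hG.exists
  obtain ⟨φ, hφ1, hφ2⟩ := exists_pot_of_closed_walk (Ω := goodSet K Y T) T R ⟨x₀, hx₀⟩
    (fun x hx => hR _ hx.2.1)
    (fun x l hx hl => closed_walk_le _ _
      (fun x l hx hl hnd => simple_cycle_le hKc hKi hYc hμ.2 hT x l hx hl hnd) _ x l rfl hx hl)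
  refine ⟨φ, hφ1, ?_⟩
  filter_upwards [hG] with x hx
  exact ⟨hR _ hx.2.1, hφ2 x hx⟩

end Crest.Agent.Lib.OTStab
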