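/-
Lower bound ("Step C") of the proof of S0109: monotonicity along coordinate lines.

Math: F x = φ₂ x + φ₂*(T₁ x) - ⟪x, T₁ x⟫, G x = φ₁ x + φ₁*(T₂ x) - ⟪x, T₂ x⟫ (conjugates over K).
For good x, x' ∈ K: F x ≥ ⟪T₁ x - T₂ x', x' - x⟫ and G x' ≥ ⟪T₁ x - T₂ x', x' - x⟫.
Let a = (T₁ ·) i, c = (T₂ ·) i; D = {a - c > τ}. Levels y_k = -R + k τ/2, finitely many (≤ 4R/τ + 2):
each x ∈ D belongs to exactly one S'_k ⊂ S_k = {c ≤ y_k, a ≥ y_k + τ/2}, S'_k := D ∩ {y_k - τ/2 < c ≤ y_k}.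
For x, x' = x + t e_i ∈ S_k with t > 0: F x ≥ t τ/2, G x' ≥ t τ/2.
On a line, for A ⊂ ℝ bounded measurable with F t ≥ τ'(t'-t), G t' ≥ τ'(t'-t) for t<t' in A:
F + G ≥ τ'(sup A - inf A) ≥ τ'|A| on A, so ∫_A (F+G) ≥ τ'|A|².
Fubini (piFinSuccAbove) and Cauchy-Schwarz over the base (K in a bounding box):
∫_{S'}(F+G) dvol ≥ τ' vol(S')²/|base|, then Σ_k vol(S'_k)² ≥ vol(D)²/#levels.
-/
import Crest.Agent.Lib.OTStabBase

set_option autoImplicit false

open MeasureTheory Crest.AnalysisR.OT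
open scoped ENNReal NNReal RealInnerProductSpace

namespace Crest.Agent.Lib.OTStab

variable {d : ℕ}

/-- From `x ≤ A^(1/2) * B^(1/2)` to `x² ≤ A * B`. -/
lemma line_sq_le {x A B : ℝ≥0∞}
    (h : x ≤ A ^ (1 / (2 : ℝ)) * B ^ (1 / (2 : ℝ))) : x ^ 2 ≤ A * B := by
  have h2 : (A ^ (1 / (2 : ℝ)) * B ^ (1 / (2 : ℝ))) ^ 2 = A * B := by
    rw [mul_pow, ← ENNReal.rpow_natCast, ← ENNReal.rpow_natCast, ← ENNReal.rpow_mul, ← ENNReal.rpow_mul]
    norm_num
  calc x ^ 2 ≤ (A ^ (1 / (2 : ℝ)) * B ^ (1 / (2 : ℝ))) ^ 2 := by gcongr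
    _ = A * B := h2

/-- Cauchy-Schwarz for a function supported in a set. -/
lemma line_cs {B : Type*} [MeasurableSpace B] (ν : Measure B) {f : B → ℝ≥0∞} (hf : Measurable f)
    {B₀ : Set B} (hB₀ : MeasurableSet B₀) (hs : ∀ b, b ∉ B₀ → f b = 0) :
    (∫⁻ b, f b ∂ν) ^ 2 ≤ ν B₀ * ∫⁻ b, f b ^ 2 ∂ν := by
  have hpq : (2 : ℝ).HolderConjugate 2 := Real.HolderConjugate.two_two
  have hg : Measurable (B₀.indicator (1 : B → ℝ≥0∞)) := measurable_one.indicator hB₀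
  have h := ENNReal.lintegral_mul_le_Lp_mul_Lq ν hpq hf.aemeasurable hg.aemeasurable
  have e1 : (f * B₀.indicator (1 : B → ℝ≥0∞)) = f := by
    funext b
    by_cases hb : b ∈ B₀
    · simp [hb]
    · simp [hb, hs b hb]
  have e2 : ∫⁻ a, (B₀.indicator (1 : B → ℝ≥0∞)) a ^ (2 : ℝ) ∂ν = ν B₀ := by
    have : (fun a => (B₀.indicator (1 : B → ℝ≥0∞)) a ^ (2 : ℝ)) = B₀.indicator (1 : B → ℝ≥0∞) := by
      funext b
      by_cases hb : b ∈ B₀ <;> simp [hb]
    rw [this, lintegral_indicator hB₀]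
    simp
  rw [e1, e2] at h
  have h' := line_sq_le h
  have e3 : ∫⁻ a, f a ^ (2 : ℝ) ∂ν = ∫⁻ a, f a ^ 2 ∂ν := by
    simp only [ENNReal.rpow_two]
  rw [e3] at h'
  rw [mul_comm]
  exact h'

/-- Cauchy-Schwarz for a finite sum in `ℝ≥0∞`. -/
lemma line_sum_cs {ι : Type*} (s : Finset ι) (a : ι → ℝ≥0∞) :
    (∑ k ∈ s, a k) ^ 2 ≤ s.card * ∑ k ∈ s, a k ^ 2 := by
  have hpq : (2 : ℝ).HolderConjugate 2 := Real.HolderConjugate.two_two
  have h := ENNReal.inner_le_Lp_mul_Lq s a (fun _ => 1) hpq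
  simp only [mul_one, ENNReal.one_rpow, Finset.sum_const, nsmul_eq_mul] at h
  have h' := line_sq_le h
  simp only [ENNReal.rpow_two] at h'
  rw [mul_comm]
  exact h'

/-- Volume of a slice is bounded through its diameter. -/
lemma line_slice_one {A : Set ℝ} {κ H : ℝ≥0∞} (hκ : κ ≠ 0) (hκ' : κ ≠ ⊤)
    (h : ∀ s' ∈ A, ∀ s'' ∈ A, κ * ENNReal.ofReal (s' - s'') ≤ H) :
    κ * volume A ≤ H := by
  have h1 : Metric.ediam A ≤ H / κ := by
    refine Metric.ediam_le fun s' hs' s'' hs'' => ?_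
    rw [ENNReal.le_div_iff_mul_le (Or.inl hκ) (Or.inl hκ'), mul_comm, edist_dist, Real.dist_eq]
    rcases le_total 0 (s' - s'') with h0 | h0
    · rw [abs_of_nonneg h0]; exact h s' hs' s'' hs''
    · rw [abs_of_nonpos h0, neg_sub]; exact h s'' hs'' s' hs'
  calc κ * volume A ≤ κ * Metric.ediam A := by gcongr; exact Real.volume_le_diam A
    _ ≤ κ * (H / κ) := by gcongr
    _ ≤ H := ENNReal.mul_div_le

/-- The Fubini-Cauchy-Schwarz lemma on a product. -/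
lemma line_slice {B : Type*} [MeasurableSpace B] (ν : Measure B) [SFinite ν]
    {E : Set (ℝ × B)} (hE : MeasurableSet E) {B₀ : Set B} (hB₀ : MeasurableSet B₀)
    (hEB : ∀ p ∈ E, p.2 ∈ B₀) {H : ℝ × B → ℝ≥0∞} (hH : Measurable H) {κ : ℝ≥0∞}
    (hκ : κ ≠ 0) (hκ' : κ ≠ ⊤)
    (hd : ∀ s s' s'' b, (s, b) ∈ E → (s', b) ∈ E → (s'', b) ∈ E →
      κ * ENNReal.ofReal (s' - s'') ≤ H (s, b)) :
    κ * ((volume.prod ν) E) ^ 2 ≤ ν B₀ * ∫⁻ p in E, H p ∂(volume.prod ν) := by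
  set A : B → Set ℝ := fun b => (fun s => (s, b)) ⁻¹' E with hA_def
  have hA : ∀ b, MeasurableSet (A b) := fun b => measurable_prodMk_right hE
  set f : B → ℝ≥0∞ := fun b => volume (A b) with hf_def
  have hf : Measurable f := measurable_measure_prodMk_right hE
  have hEv : (volume.prod ν) E = ∫⁻ b, f b ∂ν := Measure.prod_apply_symm hE
  have hfs : ∀ b, b ∉ B₀ → f b = 0 := by
    intro b hb
    have : A b = ∅ := by
      ext s
      simp only [hA_def, Set.mem_preimage, Set.mem_empty_iff_false, iff_false]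
      intro hs
      exact hb (hEB _ hs)
    simp [hf_def, this]
  have key : ∀ b, κ * f b ^ 2 ≤ ∫⁻ s in A b, H (s, b) := by
    intro b
    have h1 : ∀ s ∈ A b, κ * f b ≤ H (s, b) := fun s hs =>
      line_slice_one hκ hκ' fun s' hs' s'' hs'' => hd s s' s'' b hs hs' hs''
    calc κ * f b ^ 2 = ∫⁻ s in A b, κ * f b := by
          rw [setLIntegral_const, sq, mul_assoc]
      _ ≤ ∫⁻ s in A b, H (s, b) := setLIntegral_mono' (hA b) h1
  have h2 : ∫⁻ p in E, H p ∂(volume.prod ν) = ∫⁻ b, ∫⁻ s in A b, H (s, b) ∂volume ∂ν := by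
    rw [← lintegral_indicator hE, lintegral_prod_symm _ (hH.indicator hE).aemeasurable]
    refine lintegral_congr fun b => ?_
    rw [← lintegral_indicator (hA b)]
    refine lintegral_congr fun s => ?_
    by_cases hs : (s, b) ∈ E
    · have : s ∈ A b := hs
      simp [Set.indicator_of_mem hs, Set.indicator_of_mem this]
    · have : s ∉ A b := hs
      simp [Set.indicator_of_notMem hs, Set.indicator_of_notMem this]
  have hf2 : Measurable fun b => f b ^ 2 := hf.pow_const 2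
  calc κ * ((volume.prod ν) E) ^ 2 = κ * (∫⁻ b, f b ∂ν) ^ 2 := by rw [hEv]
    _ ≤ κ * (ν B₀ * ∫⁻ b, f b ^ 2 ∂ν) := by gcongr; exact line_cs ν hf hB₀ hfs
    _ = ν B₀ * ∫⁻ b, κ * f b ^ 2 ∂ν := by
        rw [lintegral_const_mul _ hf2]; ring
    _ ≤ ν B₀ * ∫⁻ b, ∫⁻ s in A b, H (s, b) ∂volume ∂ν := by
        gcongr with b; exact key b
    _ = ν B₀ * ∫⁻ p in E, H p ∂(volume.prod ν) := by rw [h2]


/-! ### Coordinates -/

/-- Coordinates splitting off the `i`-th one. -/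
noncomputable def lineEquiv (n : ℕ) (i : Fin (n + 1)) : Eu (n + 1) ≃ᵐ ℝ × (Fin n → ℝ) :=
  (MeasurableEquiv.toLp 2 (Fin (n + 1) → ℝ)).symm.trans
    (MeasurableEquiv.piFinSuccAbove (fun _ => ℝ) i)

lemma lineEquiv_mp (n : ℕ) (i : Fin (n + 1)) :
    MeasurePreserving (lineEquiv n i) volume ((volume : Measure ℝ).prod (volume : Measure (Fin n → ℝ))) :=
  (EuclideanSpace.volume_preserving_symm_measurableEquiv_toLp _).trans
    (volume_preserving_piFinSuccAbove (fun _ => ℝ) i)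

lemma lineEquiv_fst (n : ℕ) (i : Fin (n + 1)) (x : Eu (n + 1)) : (lineEquiv n i x).1 = x i := rfl

lemma lineEquiv_snd (n : ℕ) (i : Fin (n + 1)) (x : Eu (n + 1)) (j : Fin n) :
    (lineEquiv n i x).2 j = x (i.succAbove j) := rfl

/-- On a common line, the inner product only sees the `i`-th coordinate. -/
lemma line_inner {n : ℕ} {i : Fin (n + 1)} {x x' : Eu (n + 1)}
    (h : (lineEquiv n i x).2 = (lineEquiv n i x').2) (v : Eu (n + 1)) :
    ⟪v, x' - x⟫ = v i * (x' i - x i) := by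
  rw [PiLp.inner_apply, Finset.sum_eq_single i]
  · simp [mul_comm]
  · intro j _ hj
    obtain ⟨j', rfl⟩ := Fin.exists_succAbove_eq hj
    have h1 : x (i.succAbove j') = x' (i.succAbove j') := congrFun h j'
    simp [h1]
  · simp

/-- The Fubini-Cauchy-Schwarz lemma on Euclidean space. -/
lemma line_slice_eu (n : ℕ) (i : Fin (n + 1)) {E : Set (Eu (n + 1))} (hE : MeasurableSet E) {A : ℝ}
    (hEA : ∀ x ∈ E, ‖x‖ ≤ A) {H : Eu (n + 1) → ℝ≥0∞} (hH : Measurable H) {κ : ℝ≥0∞}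
    (hκ : κ ≠ 0) (hκ' : κ ≠ ⊤)
    (hd : ∀ x x' x'', x ∈ E → x' ∈ E → x'' ∈ E → (lineEquiv n i x).2 = (lineEquiv n i x').2 →
      (lineEquiv n i x).2 = (lineEquiv n i x'').2 → κ * ENNReal.ofReal (x' i - x'' i) ≤ H x) :
    κ * (volume E) ^ 2 ≤ volume (Metric.closedBall (0 : Fin n → ℝ) A) * ∫⁻ x in E, H x := by
  set e := lineEquiv n i with he
  have hmp := lineEquiv_mp n i
  set E' : Set (ℝ × (Fin n → ℝ)) := e.symm ⁻¹' E with hE'
  have hE'm : MeasurableSet E' := e.symm.measurable hE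
  have hvol : (volume.prod volume) E' = volume E := by
    have := hmp.symm.measure_preimage_equiv E
    exact this
  have hint : ∫⁻ p in E', (H ∘ e.symm) p ∂(volume.prod volume) = ∫⁻ x in E, H x := by
    have := hmp.symm.setLIntegral_comp_preimage_emb e.symm.measurableEmbedding H E
    exact this
  have hmain := line_slice (volume : Measure (Fin n → ℝ)) (B₀ := Metric.closedBall (0 : Fin n → ℝ) A)
    hE'm Metric.isClosed_closedBall.measurableSet ?_ (hH.comp e.symm.measurable) hκ hκ' ?_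
  · rw [hvol, hint] at hmain
    exact hmain
  · rintro ⟨s, b⟩ hp
    have hx : e.symm (s, b) ∈ E := hp
    have hn := hEA _ hx
    simp only [mem_closedBall_zero_iff]
    refine (pi_norm_le_iff_of_nonneg ((norm_nonneg _).trans hn)).2 fun j => ?_
    have h1 : b j = e.symm (s, b) (i.succAbove j) := by
      have h2 : (e (e.symm (s, b))).2 j = e.symm (s, b) (i.succAbove j) := rfl
      rw [← h2, MeasurableEquiv.apply_symm_apply]
    rw [h1]
    exact (PiLp.norm_apply_le _ _).trans hn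
  · intro s s' s'' b h h' h''
    have hx : e.symm (s, b) ∈ E := h
    have hx' : e.symm (s', b) ∈ E := h'
    have hx'' : e.symm (s'', b) ∈ E := h''
    have h1 : ∀ s, (e (e.symm (s, b))) = (s, b) := fun s => MeasurableEquiv.apply_symm_apply _ _
    have hh := hd _ _ _ hx hx' hx'' (by rw [h1, h1]) (by rw [h1, h1])
    have h2 : ∀ s, e.symm (s, b) i = s := by
      intro s
      have h3 : (e (e.symm (s, b))).1 = e.symm (s, b) i := rfl
      rw [← h3, h1]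
    rw [h2, h2] at hh
    exact hh

/-! ### Pointwise inequalities -/

lemma line_F_ge {n : ℕ} {K : Set (Eu n)} (hKc : IsCompact K) {φ : Eu n → ℝ} (hφ : Continuous φ)
    {x x' y y' : Eu n} (hx' : x' ∈ K) (hsub : ∀ z, φ x' + ⟪y', z - x'⟫ ≤ φ z) :
    ⟪y - y', x' - x⟫ ≤ φ x + conj K φ y - ⟪x, y⟫ := by
  have h1 := inner_le_add_conj hKc hφ hx' y
  have h2 := hsub x
  simp only [inner_sub_left, inner_sub_right, real_inner_comm] at h1 h2 ⊢
  linarith

lemma line_G_ge {n : ℕ} {K : Set (Eu n)} (hKc : IsCompact K) {φ : Eu n → ℝ} (hφ : Continuous φ)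
    {x x' y y' : Eu n} (hx : x ∈ K) (hsub : ∀ z, φ x + ⟪y, z - x⟫ ≤ φ z) :
    ⟪y - y', x' - x⟫ ≤ φ x' + conj K φ y' - ⟪x', y'⟫ := by
  have h1 := inner_le_add_conj hKc hφ hx y'
  have h2 := hsub x'
  simp only [inner_sub_left, inner_sub_right, real_inner_comm] at h1 h2 ⊢
  linarith

lemma line_Psi_nonneg {n : ℕ} {K : Set (Eu n)} (hKc : IsCompact K) {φ : Eu n → ℝ}
    (hφ : Continuous φ) {x : Eu n} (hx : x ∈ K) (y : Eu n) :
    0 ≤ φ x + conj K φ y - ⟪x, y⟫ := by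
  have h1 := inner_le_add_conj hKc hφ hx y
  linarith

/-- Continuity of the conjugate on a compact set. -/
lemma line_conj_continuous {n : ℕ} {K : Set (Eu n)} (hKc : IsCompact K) (hKn : K.Nonempty)
    {φ : Eu n → ℝ} (hφ : Continuous φ) : Continuous (conj K φ) := by
  obtain ⟨A, hA⟩ := hKc.isBounded.exists_norm_le
  have hA' : ∀ x ∈ K, ‖x‖ ≤ (Real.toNNReal A : ℝ≥0) := fun x hx =>
    (hA x hx).trans (Real.le_coe_toNNReal A)
  exact (conj_lipschitz hKn hKc hφ _ hA').continuous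

/-- Boundedness of the Fenchel gap on compact sets. -/
lemma line_Psi_bdd {n : ℕ} {K : Set (Eu n)} (hKc : IsCompact K) (hKn : K.Nonempty)
    {φ : Eu n → ℝ} (hφ : Continuous φ) (R : ℝ) :
    ∃ B : ℝ, ∀ x ∈ K, ∀ y, ‖y‖ ≤ R → ‖φ x + conj K φ y - ⟪x, y⟫‖ ≤ B := by
  have hc : IsCompact (K ×ˢ Metric.closedBall (0 : Eu n) R) :=
    hKc.prod (isCompact_closedBall _ _)
  have hcont : ContinuousOn (fun p : Eu n × Eu n => φ p.1 + conj K φ p.2 - ⟪p.1, p.2⟫) _ :=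
    Continuous.continuousOn (s := K ×ˢ Metric.closedBall (0 : Eu n) R)
      (by
        have := line_conj_continuous hKc hKn hφ
        fun_prop)
  obtain ⟨B, hB⟩ := hc.exists_bound_of_continuousOn hcont
  refine ⟨B, fun x hx y hy => hB (x, y) ⟨hx, ?_⟩⟩
  simpa using hy

lemma line_Psi_measurable {n : ℕ} {K : Set (Eu n)} (hKc : IsCompact K) (hKn : K.Nonempty)
    {φ : Eu n → ℝ} (hφ : Continuous φ) {T : Eu n → Eu n} (hT : Measurable T) :
    Measurable fun x => φ x + conj K φ (T x) - ⟪x, T x⟫ := by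
  have h1 := (line_conj_continuous hKc hKn hφ).measurable
  exact (hφ.measurable.add (h1.comp hT)).sub (measurable_id.inner hT)


/-! ### The level decomposition -/

lemma line_pointwise {n : ℕ} {i : Fin (n + 1)} {K : Set (Eu (n + 1))} (hKc : IsCompact K)
    {T₁ T₂ : Eu (n + 1) → Eu (n + 1)} {φ₁ φ₂ : Eu (n + 1) → ℝ} (hφ₁ : Continuous φ₁)
    (hφ₂ : Continuous φ₂) {τ : ℝ} (hτ : 0 < τ) {x x' x'' : Eu (n + 1)}
    (hx : x ∈ K) (hx' : x' ∈ K) (hx'' : x'' ∈ K)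
    (hsub₂ : ∀ z, φ₂ x' + ⟪T₂ x', z - x'⟫ ≤ φ₂ z)
    (hsub₁ : ∀ z, φ₁ x'' + ⟪T₁ x'', z - x''⟫ ≤ φ₁ z)
    (h1 : (lineEquiv n i x).2 = (lineEquiv n i x').2)
    (h2 : (lineEquiv n i x'').2 = (lineEquiv n i x).2)
    (hg1 : τ / 2 ≤ T₁ x i - T₂ x' i) (hg2 : τ / 2 ≤ T₁ x'' i - T₂ x i) :
    τ / 2 * (x' i - x'' i) ≤
      (φ₂ x + conj K φ₂ (T₁ x) - ⟪x, T₁ x⟫) + (φ₁ x + conj K φ₁ (T₂ x) - ⟪x, T₂ x⟫) := by
  have hF0 := line_Psi_nonneg hKc hφ₂ hx (T₁ x)
  have hG0 := line_Psi_nonneg hKc hφ₁ hx (T₂ x)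
  have hF : τ / 2 * (x' i - x i) ≤ φ₂ x + conj K φ₂ (T₁ x) - ⟪x, T₁ x⟫ := by
    rcases le_total (x i) (x' i) with h | h
    · have h3 := line_F_ge (y := T₁ x) hKc hφ₂ (x := x) hx' hsub₂
      rw [line_inner h1] at h3
      have : T₁ x i - T₂ x' i = (T₁ x - T₂ x') i := by simp
      rw [← this] at h3
      nlinarith
    · nlinarith
  have hG : τ / 2 * (x i - x'' i) ≤ φ₁ x + conj K φ₁ (T₂ x) - ⟪x, T₂ x⟫ := by
    rcases le_total (x'' i) (x i) with h | h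
    · have h3 := line_G_ge (y' := T₂ x) hKc hφ₁ (x' := x) hx'' hsub₁
      rw [line_inner h2] at h3
      have : T₁ x'' i - T₂ x i = (T₁ x'' - T₂ x) i := by simp
      rw [← this] at h3
      nlinarith
    · nlinarith
  nlinarith

lemma line_enn {n : ℕ} (i : Fin (n + 1)) {K : Set (Eu (n + 1))} (hKc : IsCompact K)
    (hKn : K.Nonempty) {A : ℝ} (hA : ∀ x ∈ K, ‖x‖ ≤ A)
    {T₁ T₂ : Eu (n + 1) → Eu (n + 1)} (hT₁ : Measurable T₁) (hT₂ : Measurable T₂)
    {φ₁ φ₂ : Eu (n + 1) → ℝ} (hφ₁ : Continuous φ₁) (hφ₂ : Continuous φ₂)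
    {τ : ℝ} (hτ : 0 < τ) (R : ℝ) {Gd : Set (Eu (n + 1))} (hGd : MeasurableSet Gd)
    (hg : ∀ x ∈ Gd, x ∈ K ∧ (‖T₁ x‖ ≤ R ∧ ∀ z, φ₁ x + ⟪T₁ x, z - x⟫ ≤ φ₁ z) ∧
      (‖T₂ x‖ ≤ R ∧ ∀ z, φ₂ x + ⟪T₂ x, z - x⟫ ≤ φ₂ z))
    {D' : Set (Eu (n + 1))} (hD' : D' = {x | τ < (T₁ x - T₂ x) i} ∩ Gd) :
    ENNReal.ofReal (τ / 2) * (volume D') ^ 2 ≤
      ((⌈4 * R / τ⌉₊ + 1 : ℕ) : ℝ≥0∞) * (volume (Metric.closedBall (0 : Fin n → ℝ) A) *
        ∫⁻ x in D', ENNReal.ofReal ((φ₂ x + conj K φ₂ (T₁ x) - ⟪x, T₁ x⟫) +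
          (φ₁ x + conj K φ₁ (T₂ x) - ⟪x, T₂ x⟫))) := by
  set H : Eu (n + 1) → ℝ≥0∞ := fun x => ENNReal.ofReal ((φ₂ x + conj K φ₂ (T₁ x) - ⟪x, T₁ x⟫) +
          (φ₁ x + conj K φ₁ (T₂ x) - ⟪x, T₂ x⟫)) with hH_def
  have hH : Measurable H :=
    ((line_Psi_measurable hKc hKn hφ₂ hT₁).add (line_Psi_measurable hKc hKn hφ₁ hT₂)).ennreal_ofReal
  have hcoord : ∀ {T : Eu (n + 1) → Eu (n + 1)}, Measurable T → Measurable fun x => T x i := by
    intro T hT
    exact (EuclideanSpace.proj (𝕜 := ℝ) i).continuous.measurable.comp hT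
  have hD : MeasurableSet {x | τ < (T₁ x - T₂ x) i} := by
    have : Measurable fun x => (T₁ x - T₂ x) i := by
      have e : (fun x => (T₁ x - T₂ x) i) = (fun x => T₁ x i) - (fun x => T₂ x i) := by
        funext x; simp
      rw [e]
      exact (hcoord hT₁).sub (hcoord hT₂)
    exact measurableSet_lt measurable_const this
  have hD'm : MeasurableSet D' := by rw [hD']; exact hD.inter hGd
  set lev : Eu (n + 1) → ℕ := fun x => ⌈(T₂ x i + R) * 2 / τ⌉₊ with hlev_def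
  have hlev : Measurable lev :=
    Nat.measurable_ceil.comp (((hcoord hT₂).add_const R).mul_const 2 |>.div_const τ)
  set Es : ℕ → Set (Eu (n + 1)) := fun k => D' ∩ lev ⁻¹' {k} with hEs
  have hEsm : ∀ k, MeasurableSet (Es k) := fun k => hD'm.inter (hlev (measurableSet_singleton k))
  set N : ℕ := ⌈4 * R / τ⌉₊ + 1 with hN
  have hmemD' : ∀ x ∈ D', τ < T₁ x i - T₂ x i ∧ x ∈ Gd := by
    intro x hx
    rw [hD'] at hx
    refine ⟨?_, hx.2⟩
    have := hx.1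
    simpa using this
  have hlevlt : ∀ x ∈ D', lev x < N := by
    intro x hx
    have hx2 := hg x (hmemD' x hx).2
    have h1 : |T₂ x i| ≤ R := (Real.norm_eq_abs _).symm ▸ (PiLp.norm_apply_le _ _).trans hx2.2.2.1
    have h2 : (T₂ x i + R) * 2 / τ ≤ 4 * R / τ := by
      have := (abs_le.1 h1).2
      exact div_le_div_of_nonneg_right (by linarith) hτ.le
    exact Nat.lt_succ_of_le (Nat.ceil_mono h2)
  have hcover : D' = ⋃ k ∈ Finset.range N, Es k := by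
    ext x
    simp only [Set.mem_iUnion, Finset.mem_range, hEs, Set.mem_inter_iff, Set.mem_preimage,
      Set.mem_singleton_iff, exists_prop]
    constructor
    · intro hx; exact ⟨lev x, hlevlt x hx, hx, rfl⟩
    · rintro ⟨k, _, hx, _⟩; exact hx
  have hdisj : Set.PairwiseDisjoint (↑(Finset.range N)) Es := by
    intro k _ l _ hkl
    refine Set.disjoint_left.2 ?_
    rintro x ⟨_, hk⟩ ⟨_, hl⟩
    exact hkl (hk.symm.trans hl)
  have hlevel : ∀ k, ∀ x ∈ Es k,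
      -R + k * (τ / 2) - τ / 2 < T₂ x i ∧ T₂ x i ≤ -R + k * (τ / 2) ∧ τ < T₁ x i - T₂ x i := by
    rintro k x ⟨hx, hk⟩
    have hk' : ⌈(T₂ x i + R) * 2 / τ⌉₊ = k := hk
    have hx2 := hg x (hmemD' x hx).2
    have h1 : |T₂ x i| ≤ R := (Real.norm_eq_abs _).symm ▸ (PiLp.norm_apply_le _ _).trans hx2.2.2.1
    have h0 : 0 ≤ (T₂ x i + R) * 2 / τ := by
      have := (abs_le.1 h1).1
      apply div_nonneg _ hτ.le
      nlinarith
    have h3 : (T₂ x i + R) * 2 / τ ≤ k := by rw [← hk']; exact Nat.le_ceil _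
    have h4 : (k : ℝ) < (T₂ x i + R) * 2 / τ + 1 := by rw [← hk']; exact Nat.ceil_lt_add_one h0
    have e : (T₂ x i + R) * 2 / τ * (τ / 2) = T₂ x i + R := by field_simp
    have h3' : (T₂ x i + R) * 2 / τ * (τ / 2) ≤ k * (τ / 2) := by gcongr
    have h4' : (k : ℝ) * (τ / 2) < ((T₂ x i + R) * 2 / τ + 1) * (τ / 2) := by gcongr
    rw [add_mul, e] at h4'
    rw [e] at h3'
    exact ⟨by linarith, by linarith, (hmemD' x hx).1⟩
  set κ : ℝ≥0∞ := ENNReal.ofReal (τ / 2) with hκ_def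
  have hκ : κ ≠ 0 := by simp [hκ_def, hτ]
  have hκ' : κ ≠ ⊤ := ENNReal.ofReal_ne_top
  set W : ℝ≥0∞ := volume (Metric.closedBall (0 : Fin n → ℝ) A) with hW
  have hperlevel : ∀ k, κ * (volume (Es k)) ^ 2 ≤ W * ∫⁻ x in Es k, H x := by
    intro k
    refine line_slice_eu n i (hEsm k) (A := A) ?_ hH hκ hκ' ?_
    · intro x hx
      exact hA x (hg x (hmemD' x hx.1).2).1
    · intro x x' x'' hx hx' hx'' h1 h2
      have hlx := hlevel k x hx
      have hlx' := hlevel k x' hx'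
      have hlx'' := hlevel k x'' hx''
      have gx := hg x (hmemD' x hx.1).2
      have gx' := hg x' (hmemD' x' hx'.1).2
      have gx'' := hg x'' (hmemD' x'' hx''.1).2
      have := line_pointwise (i := i) hKc hφ₁ hφ₂ hτ gx.1 gx'.1 gx''.1 gx'.2.2.2 gx''.2.1.2 h1 h2.symm
        (by linarith [hlx.1, hlx.2.2, hlx'.2.1]) (by linarith [hlx''.1, hlx''.2.2, hlx.2.1])
      rw [hκ_def, ← ENNReal.ofReal_mul (by positivity)]
      exact ENNReal.ofReal_le_ofReal this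
  have hvol : volume D' = ∑ k ∈ Finset.range N, volume (Es k) := by
    conv_lhs => rw [hcover]
    exact measure_biUnion_finset hdisj fun k _ => hEsm k
  have hint : ∫⁻ x in D', H x = ∑ k ∈ Finset.range N, ∫⁻ x in Es k, H x := by
    conv_lhs => rw [hcover]
    exact lintegral_biUnion_finset hdisj (fun k _ => hEsm k) H
  calc κ * (volume D') ^ 2 = κ * (∑ k ∈ Finset.range N, volume (Es k)) ^ 2 := by rw [hvol]
    _ ≤ κ * ((Finset.range N).card * ∑ k ∈ Finset.range N, volume (Es k) ^ 2) := by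
        gcongr; exact line_sum_cs _ _
    _ = (N : ℝ≥0∞) * ∑ k ∈ Finset.range N, κ * volume (Es k) ^ 2 := by
        rw [Finset.card_range, ← Finset.mul_sum]; ring
    _ ≤ (N : ℝ≥0∞) * ∑ k ∈ Finset.range N, W * ∫⁻ x in Es k, H x := by
        exact mul_le_mul' le_rfl (Finset.sum_le_sum fun k _ => hperlevel k)
    _ = (N : ℝ≥0∞) * (W * ∫⁻ x in D', H x) := by rw [hint, ← Finset.mul_sum]


lemma line_final {n : ℕ} (i : Fin (n + 1)) {K : Set (Eu (n + 1))} (hKc : IsCompact K)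
    (hKi : (interior K).Nonempty) {A : ℝ} (hA : ∀ x ∈ K, ‖x‖ ≤ A) (R : ℝ≥0)
    (T₁ T₂ : Eu (n + 1) → Eu (n + 1)) (φ₁ φ₂ : Eu (n + 1) → ℝ) (hT₁ : Measurable T₁)
    (hT₂ : Measurable T₂) (h₁ : IsPot K R T₁ φ₁) (h₂ : IsPot K R T₂ φ₂) (τ : ℝ) (hτ : 0 < τ) :
    (volume K).toReal /
        (16 * ((R : ℝ) + 1) * ((volume (Metric.closedBall (0 : Fin n → ℝ) A)).toReal + 1)) *
        τ ^ 2 * (((uniformProbOn K) {x | τ < (T₁ x - T₂ x) i}).toReal) ^ 2 ≤
      ∫ x in {x | τ < (T₁ x - T₂ x) i},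
        ((φ₂ x + conj K φ₂ (T₁ x) - ⟪x, T₁ x⟫) + (φ₁ x + conj K φ₁ (T₂ x) - ⟪x, T₂ x⟫))
          ∂(uniformProbOn K) := by
  have hKn : K.Nonempty := hKi.mono interior_subset
  have hρp := uniform_isProb hKc hKi
  have hV0 : volume K ≠ 0 := by
    intro h
    have : volume (interior K) = 0 := measure_mono_null interior_subset h
    exact (isOpen_interior.measure_pos volume hKi).ne' this
  have hV1 : volume K ≠ ∞ := hKc.measure_lt_top.ne
  set ρ := uniformProbOn K with hρ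
  have hφ₁ : Continuous φ₁ := h₁.lip.continuous
  have hφ₂ : Continuous φ₂ := h₂.lip.continuous
  -- the good set
  set P : Eu (n + 1) → Prop := fun x => x ∈ K ∧ (‖T₁ x‖ ≤ R ∧ ∀ z, φ₁ x + ⟪T₁ x, z - x⟫ ≤ φ₁ z) ∧
      (‖T₂ x‖ ≤ R ∧ ∀ z, φ₂ x + ⟪T₂ x, z - x⟫ ≤ φ₂ z) with hP_def
  have hP : ∀ᵐ x ∂ρ, P x := by
    filter_upwards [uniform_ae_mem hKc, h₁.ae, h₂.ae] with x a b c using ⟨a, b, c⟩
  set N₀ := toMeasurable ρ {x | ¬ P x} with hN₀
  have hN₀m : MeasurableSet N₀ := measurableSet_toMeasurable _ _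
  have hN₀0 : ρ N₀ = 0 := by
    rw [hN₀, measure_toMeasurable]
    exact hP
  have hg : ∀ x ∈ N₀ᶜ, P x := by
    intro x hx
    by_contra h
    exact hx (subset_toMeasurable _ _ h)
  -- the integrand
  set Sg : Eu (n + 1) → ℝ := fun x => (φ₂ x + conj K φ₂ (T₁ x) - ⟪x, T₁ x⟫) +
      (φ₁ x + conj K φ₁ (T₂ x) - ⟪x, T₂ x⟫) with hSg
  have hSgm : Measurable Sg :=
    (line_Psi_measurable hKc hKn hφ₂ hT₁).add (line_Psi_measurable hKc hKn hφ₁ hT₂)
  have hSg0 : ∀ᵐ x ∂ρ, 0 ≤ Sg x := by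
    filter_upwards [hP] with x hx
    exact add_nonneg (line_Psi_nonneg hKc hφ₂ hx.1 _) (line_Psi_nonneg hKc hφ₁ hx.1 _)
  have hSgI : Integrable Sg ρ := by
    obtain ⟨B₁, hB₁⟩ := line_Psi_bdd hKc hKn hφ₂ (R : ℝ)
    obtain ⟨B₂, hB₂⟩ := line_Psi_bdd hKc hKn hφ₁ (R : ℝ)
    refine Integrable.of_bound hSgm.aestronglyMeasurable (B₁ + B₂) ?_
    filter_upwards [hP] with x hx
    exact (norm_add_le _ _).trans (add_le_add (hB₁ x hx.1 _ hx.2.1.1) (hB₂ x hx.1 _ hx.2.2.1))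
  set D : Set (Eu (n + 1)) := {x | τ < (T₁ x - T₂ x) i} with hD_def
  have hD : MeasurableSet D := by
    have hcoord : ∀ {T : Eu (n + 1) → Eu (n + 1)}, Measurable T → Measurable fun x => T x i := by
      intro T hT
      exact (EuclideanSpace.proj (𝕜 := ℝ) i).continuous.measurable.comp hT
    have : Measurable fun x => (T₁ x - T₂ x) i := by
      have e : (fun x => (T₁ x - T₂ x) i) = (fun x => T₁ x i) - (fun x => T₂ x i) := by
        funext x; simp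
      rw [e]
      exact (hcoord hT₁).sub (hcoord hT₂)
    exact measurableSet_lt measurable_const this
  set I : ℝ := ∫ x in D, Sg x ∂ρ with hI_def
  have hI0 : 0 ≤ I := integral_nonneg_of_ae (ae_restrict_of_ae hSg0)
  have hIe : ENNReal.ofReal I = ∫⁻ x in D, ENNReal.ofReal (Sg x) ∂ρ :=
    ofReal_integral_eq_lintegral_ofReal hSgI.restrict (ae_restrict_of_ae hSg0)
  have hρS : ∀ S : Set (Eu (n + 1)), MeasurableSet S → volume K * ρ S = volume (S ∩ K) := by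
    intro S hS
    simp only [hρ, uniformProbOn, Measure.smul_apply, Measure.restrict_apply hS, smul_eq_mul]
    rw [← mul_assoc, ENNReal.mul_inv_cancel hV0 hV1, one_mul]
  set D' : Set (Eu (n + 1)) := D ∩ N₀ᶜ with hD'
  have hvolD : volume K * ρ D ≤ volume D' := by
    rw [hρS D hD]
    have h0 : volume (N₀ ∩ K) = 0 := by
      rw [← hρS N₀ hN₀m, hN₀0, mul_zero]
    have hsub : D ∩ K ⊆ D' ∪ (N₀ ∩ K) := by
      rintro x ⟨hx, hxK⟩
      by_cases h : x ∈ N₀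
      · exact Or.inr ⟨h, hxK⟩
      · exact Or.inl ⟨hx, h⟩
    calc volume (D ∩ K) ≤ volume (D' ∪ (N₀ ∩ K)) := measure_mono hsub
      _ ≤ volume D' + volume (N₀ ∩ K) := measure_union_le _ _
      _ = volume D' := by rw [h0, add_zero]
  have hJ : ∫⁻ x in D', ENNReal.ofReal (Sg x) ≤ volume K * ENNReal.ofReal I := by
    have e1 : ∫⁻ x in D, ENNReal.ofReal (Sg x) ∂ρ =
        (volume K)⁻¹ * ∫⁻ x in D ∩ K, ENNReal.ofReal (Sg x) := by
      simp only [hρ, uniformProbOn, Measure.restrict_smul, lintegral_smul_measure, smul_eq_mul]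
      rw [Measure.restrict_restrict hD]
    rw [hIe, e1, ← mul_assoc, ENNReal.mul_inv_cancel hV0 hV1, one_mul]
    refine lintegral_mono_set ?_
    rintro x ⟨hx, hxN⟩
    exact ⟨hx, (hg x hxN).1⟩
  have henn : ENNReal.ofReal (τ / 2) * (volume D') ^ 2 ≤ ((⌈4 * (R : ℝ) / τ⌉₊ + 1 : ℕ) : ℝ≥0∞) *
      (volume (Metric.closedBall (0 : Fin n → ℝ) A) * ∫⁻ x in D', ENNReal.ofReal (Sg x)) :=
    line_enn i hKc hKn hA hT₁ hT₂ hφ₁ hφ₂ hτ (R : ℝ) hN₀m.compl hg rfl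
  set W := volume (Metric.closedBall (0 : Fin n → ℝ) A) with hW
  have hW1 : W ≠ ∞ := (isCompact_closedBall _ _).measure_lt_top.ne
  set m := ρ D with hm
  have hm1 : m ≠ ∞ := measure_ne_top ρ D
  set N : ℕ := ⌈4 * (R : ℝ) / τ⌉₊ + 1 with hN
  have hchain : ENNReal.ofReal (τ / 2) * (volume K * m) ^ 2 ≤
      (N : ℝ≥0∞) * (W * (volume K * ENNReal.ofReal I)) := by
    calc ENNReal.ofReal (τ / 2) * (volume K * m) ^ 2
        ≤ ENNReal.ofReal (τ / 2) * (volume D') ^ 2 := by gcongr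
      _ ≤ _ := henn
      _ ≤ _ := by gcongr
  have hfin : (N : ℝ≥0∞) * (W * (volume K * ENNReal.ofReal I)) ≠ ∞ :=
    ENNReal.mul_ne_top (ENNReal.natCast_ne_top _) (ENNReal.mul_ne_top hW1
      (ENNReal.mul_ne_top hV1 ENNReal.ofReal_ne_top))
  have hreal : (τ / 2) * ((volume K).toReal * m.toReal) ^ 2 ≤
      (N : ℝ) * (W.toReal * ((volume K).toReal * I)) := by
    have h := ENNReal.toReal_mono hfin hchain
    simpa [ENNReal.toReal_mul, ENNReal.toReal_pow, ENNReal.toReal_ofReal, hτ.le, hI0,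
      (half_pos hτ).le] using h
  have hVpos : 0 < (volume K).toReal := ENNReal.toReal_pos hV0 hV1
  have hWnn : 0 ≤ W.toReal := ENNReal.toReal_nonneg
  have hRnn : (0 : ℝ) ≤ R := R.coe_nonneg
  set V := (volume K).toReal with hV
  set W' := W.toReal with hW'
  set mr := m.toReal with hmr
  rcases D'.eq_empty_or_nonempty with hDe | ⟨x, hx⟩
  · have h0 : volume K * m = 0 := by
      have := hvolD
      rw [hDe, measure_empty] at this
      exact le_antisymm this zero_le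
    have hm0 : m = 0 := by
      rcases mul_eq_zero.1 h0 with h | h
      · exact absurd h hV0
      · exact h
    have : mr = 0 := by simp [hmr, hm0]
    rw [this]
    simpa using hI0
  · have hx1 : τ < (T₁ x - T₂ x) i := hx.1
    have hPx := hg x hx.2
    have h1 : |T₁ x i| ≤ R :=
      (Real.norm_eq_abs _).symm ▸ (PiLp.norm_apply_le _ _).trans hPx.2.1.1
    have h2 : |T₂ x i| ≤ R :=
      (Real.norm_eq_abs _).symm ▸ (PiLp.norm_apply_le _ _).trans hPx.2.2.1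
    have hx2 : τ < T₁ x i - T₂ x i := by simpa using hx1
    have hτR : τ < 2 * R := by
      have := (abs_le.1 h1).2
      have := (abs_le.1 h2).1
      linarith
    have ha0 : 0 ≤ 4 * (R : ℝ) / τ := by positivity
    have ha2 : 2 ≤ 4 * (R : ℝ) / τ := by
      rw [le_div_iff₀ hτ]; linarith
    have hNle : (N : ℝ) ≤ 8 * R / τ := by
      have h3 := Nat.ceil_lt_add_one ha0
      have h4 : (N : ℝ) = (⌈4 * (R : ℝ) / τ⌉₊ : ℝ) + 1 := by rw [hN]; push_cast; rfl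
      have h5 : 8 * (R : ℝ) / τ = 2 * (4 * (R : ℝ) / τ) := by ring
      rw [h4, h5]
      linarith
    have h3 : (τ / 2) * (V * mr) ^ 2 ≤ 8 * R / τ * (W' * (V * I)) :=
      hreal.trans (mul_le_mul_of_nonneg_right hNle (by positivity))
    have h4 : V * (τ ^ 2 * V * mr ^ 2) ≤ V * (16 * R * W' * I) := by
      have h5 : 2 * τ * ((τ / 2) * (V * mr) ^ 2) ≤ 2 * τ * (8 * R / τ * (W' * (V * I))) :=
        mul_le_mul_of_nonneg_left h3 (by positivity)
      have e1 : 2 * τ * ((τ / 2) * (V * mr) ^ 2) = V * (τ ^ 2 * V * mr ^ 2) := by ring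
      have e2 : 2 * τ * (8 * R / τ * (W' * (V * I))) = V * (16 * R * W' * I) := by
        field_simp
        ring
      rwa [e1, e2] at h5
    have h5 : τ ^ 2 * V * mr ^ 2 ≤ 16 * R * W' * I := le_of_mul_le_mul_left h4 hVpos
    rw [div_mul_eq_mul_div, div_mul_eq_mul_div, div_le_iff₀ (by positivity)]
    have h6 : 16 * (R : ℝ) * W' * I ≤ I * (16 * ((R : ℝ) + 1) * (W' + 1)) := by
      have : (R : ℝ) * W' ≤ ((R : ℝ) + 1) * (W' + 1) := by nlinarith
      nlinarith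
    nlinarith

theorem line_lower_bound {K : Set (Eu d)} (hKc : IsCompact K) (hKi : (interior K).Nonempty)
    (R : ℝ≥0) : ∃ c : ℝ, 0 < c ∧ ∀ (T₁ T₂ : Eu d → Eu d) (φ₁ φ₂ : Eu d → ℝ),
      Measurable T₁ → Measurable T₂ → IsPot K R T₁ φ₁ → IsPot K R T₂ φ₂ →
      ∀ (i : Fin d) (τ : ℝ), 0 < τ →
      c * τ ^ 2 * (((uniformProbOn K) {x | τ < (T₁ x - T₂ x) i}).toReal) ^ 2 ≤
        ∫ x in {x | τ < (T₁ x - T₂ x) i},
          ((φ₂ x + conj K φ₂ (T₁ x) - ⟪x, T₁ x⟫) + (φ₁ x + conj K φ₁ (T₂ x) - ⟪x, T₂ x⟫))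
            ∂(uniformProbOn K) := by
  cases d with
  | zero => exact ⟨1, one_pos, fun _ _ _ _ _ _ _ _ i => i.elim0⟩
  | succ n =>
    obtain ⟨A, hA⟩ := hKc.isBounded.exists_norm_le
    have hV0 : volume K ≠ 0 := by
      intro h
      have : volume (interior K) = 0 := measure_mono_null interior_subset h
      exact (isOpen_interior.measure_pos volume hKi).ne' this
    have hV1 : volume K ≠ ∞ := hKc.measure_lt_top.ne
    have hVpos : 0 < (volume K).toReal := ENNReal.toReal_pos hV0 hV1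
    have hWnn : 0 ≤ (volume (Metric.closedBall (0 : Fin n → ℝ) A)).toReal := ENNReal.toReal_nonneg
    have hRnn : (0 : ℝ) ≤ R := R.coe_nonneg
    refine ⟨(volume K).toReal /
        (16 * ((R : ℝ) + 1) * ((volume (Metric.closedBall (0 : Fin n → ℝ) A)).toReal + 1)),
      by positivity, ?_⟩
    intro T₁ T₂ φ₁ φ₂ hT₁ hT₂ h₁ h₂ i τ hτ
    exact line_final i hKc hKi hA R T₁ T₂ φ₁ φ₂ hT₁ hT₂ h₁ h₂ τ hτ

end Crest.Agent.Lib.OTStab
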