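/-
Upper bound ("Step D") of the proof of S0109: moving the mass of ρ|_D through a coupling.

Math: let m = ρ D, κ = (ρ|_D).map T₁ ≤ μ, g = κ.rnDeriv μ ≤ 1, Γ = π.withDensity (g ∘ fst),
κ₂ = Γ.map snd ≤ ν, g₂ = κ₂.rnDeriv ν ≤ 1.  Then
∫_D w∘T₁ dρ = ∫ w(y) dΓ = ∫ (w y - w z) dΓ + ∫ w dκ₂,
∫ (w y - w z) dΓ ≤ L ∫ ‖y-z‖ g(y) dπ ≤ L √E √(∫ g² dμ) ≤ L √E √m,
∫ w dκ₂ = ∫ (w∘T₂)(g₂∘T₂) dρ ≤ ∫ u (g₂∘T₂) dρ ≤ ‖u‖₂ √(∫ (g₂∘T₂)² dρ) ≤ ‖u‖₂ √m.
-/
import Crest.Agent.Lib.OTStabBase

set_option autoImplicit false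

open MeasureTheory Crest.AnalysisR.OT
open scoped ENNReal NNReal RealInnerProductSpace

namespace Crest.Agent.Lib.OTStab

variable {d : ℕ}

/-- Conditional-expectation-like density. -/
theorem exists_density {Ω E : Type*} [MeasurableSpace Ω] [MeasurableSpace E] {α : Measure Ω}
    [IsFiniteMeasure α] {F : Ω → E} (hF : Measurable F) {h : Ω → ℝ} (hh : Measurable h)
    (h0 : ∀ ω, 0 ≤ h ω) (h1 : ∀ ω, h ω ≤ 1) :
    ∃ g : E → ℝ, Measurable g ∧ (∀ y, 0 ≤ g y) ∧ (∀ y, g y ≤ 1) ∧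
      ∀ f : E → ℝ, Measurable f → ∫ ω, f (F ω) * h ω ∂α = ∫ y, f y * g y ∂(α.map F) := by
  set α' := α.withDensity (fun ω => ENNReal.ofReal (h ω)) with hα'
  set κ := α'.map F with hκ
  set β := α.map F with hβ
  have hle' : α' ≤ α := by
    refine Measure.le_iff.mpr fun S hS => ?_
    rw [hα', withDensity_apply _ hS]
    calc ∫⁻ ω in S, ENNReal.ofReal (h ω) ∂α ≤ ∫⁻ _ in S, 1 ∂α :=
          lintegral_mono (fun ω => ENNReal.ofReal_le_one.mpr (h1 ω))
      _ = α S := by simp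
  have hle : κ ≤ β := Measure.map_mono hle' hF
  haveI : IsFiniteMeasure β := Measure.isFiniteMeasure_map α F
  haveI : IsFiniteMeasure κ := isFiniteMeasure_of_le β hle
  have hac : κ ≪ β := Measure.absolutelyContinuous_of_le hle
  have hrn := Measure.rnDeriv_le_one_of_le hle
  let g : E → ℝ := fun y => min (κ.rnDeriv β y).toReal 1
  refine ⟨g, ?_, fun y => le_min ENNReal.toReal_nonneg zero_le_one, fun y => min_le_right _ _,
    fun f hf => ?_⟩
  · exact (Measure.measurable_rnDeriv κ β).ennreal_toReal.min measurable_const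
  have e1 : ∫ ω, f (F ω) * h ω ∂α = ∫ ω, f (F ω) ∂α' := by
    rw [hα', integral_withDensity_eq_integral_toReal_smul hh.ennreal_ofReal
      (ae_of_all _ fun _ => ENNReal.ofReal_lt_top)]
    refine integral_congr_ae (ae_of_all _ fun ω => ?_)
    simp only [ENNReal.toReal_ofReal (h0 ω), smul_eq_mul]
    ring
  have e2 : ∫ ω, f (F ω) ∂α' = ∫ y, f y ∂κ :=
    (integral_map hF.aemeasurable hf.aestronglyMeasurable).symm
  have e3 : ∫ y, f y ∂κ = ∫ y, f y * g y ∂β := by
    conv_lhs => rw [← Measure.withDensity_rnDeriv_eq κ β hac]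
    rw [integral_withDensity_eq_integral_toReal_smul (Measure.measurable_rnDeriv κ β)
      (Measure.rnDeriv_lt_top κ β)]
    refine integral_congr_ae ?_
    filter_upwards [hrn] with y hy
    have h2 : (κ.rnDeriv β y).toReal ≤ 1 := by
      have := ENNReal.toReal_mono ENNReal.one_ne_top hy
      simpa using this
    simp only [g, min_eq_left h2, smul_eq_mul]
    ring
  rw [e1, e2, e3]

/-- Cauchy-Schwarz for real integrals. -/
theorem cs_real {Ω : Type*} [MeasurableSpace Ω] {α : Measure Ω} {f h : Ω → ℝ}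
    (hf : Integrable (fun x => f x ^ 2) α) (hh : Integrable (fun x => h x ^ 2) α)
    (hfh : Integrable (fun x => f x * h x) α) :
    ∫ x, f x * h x ∂α ≤ Real.sqrt (∫ x, f x ^ 2 ∂α) * Real.sqrt (∫ x, h x ^ 2 ∂α) := by
  set A := ∫ x, f x ^ 2 ∂α with hAdef
  set B := ∫ x, h x ^ 2 ∂α with hBdef
  set C := ∫ x, f x * h x ∂α with hCdef
  have hA : 0 ≤ A := integral_nonneg fun _ => sq_nonneg _
  have hB : 0 ≤ B := integral_nonneg fun _ => sq_nonneg _
  have key : ∀ t : ℝ, 0 ≤ A - 2 * t * C + t ^ 2 * B := by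
    intro t
    have e : ∫ x, (f x - t * h x) ^ 2 ∂α = A - 2 * t * C + t ^ 2 * B := by
      have : (fun x => (f x - t * h x) ^ 2) =
          fun x => f x ^ 2 - (2 * t) * (f x * h x) + t ^ 2 * h x ^ 2 := by
        ext x
        ring
      have i1 : Integrable (fun x => f x ^ 2 - (2 * t) * (f x * h x)) α := hf.sub (hfh.const_mul _)
      have i2 : Integrable (fun x => t ^ 2 * h x ^ 2) α := hh.const_mul _
      rw [this, integral_add i1 i2, integral_sub hf (hfh.const_mul _), integral_const_mul,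
        integral_const_mul]
    rw [← e]
    exact integral_nonneg fun _ => sq_nonneg _
  have hsq : C ^ 2 ≤ A * B := by
    by_cases hB0 : B = 0
    · have hC : C = 0 := by
        by_contra hne
        have := key ((A + 1) / (2 * C))
        rw [hB0] at this
        have e : 2 * ((A + 1) / (2 * C)) * C = A + 1 := by
          field_simp
        rw [e] at this
        linarith
      rw [hC, hB0]
      simp
    · have hBpos : 0 < B := lt_of_le_of_ne hB (Ne.symm hB0)
      have := key (C / B)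
      have e : A - 2 * (C / B) * C + (C / B) ^ 2 * B = A - C ^ 2 / B := by
        field_simp
        ring
      rw [e] at this
      have h2 : C ^ 2 / B ≤ A := by linarith
      rw [div_le_iff₀ hBpos] at h2
      exact h2
  calc C ≤ |C| := le_abs_self _
    _ ≤ Real.sqrt (A * B) := Real.abs_le_sqrt hsq
    _ = Real.sqrt A * Real.sqrt B := Real.sqrt_mul hA B

theorem transport_bound {K : Set (Eu d)} (hKc : IsCompact K) (hKi : (interior K).Nonempty)
    {μ ν : Measure (Eu d)} {π : Measure (Eu d × Eu d)} (hπ : IsPairCoupling μ ν π)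
    {T₁ T₂ : Eu d → Eu d} (hT₁ : Measurable T₁) (hT₂ : Measurable T₂)
    (hm₁ : (uniformProbOn K).map T₁ = μ) (hm₂ : (uniformProbOn K).map T₂ = ν)
    (R : ℝ≥0) (hR₁ : ∀ᵐ x ∂(uniformProbOn K), ‖T₁ x‖ ≤ R) (hR₂ : ∀ᵐ x ∂(uniformProbOn K), ‖T₂ x‖ ≤ R)
    {w u : Eu d → ℝ} {L : ℝ≥0} (hw : LipschitzWith L w) (hu : Continuous u)
    (hle : ∀ᵐ x ∂(uniformProbOn K), w (T₂ x) ≤ u x)
    {D : Set (Eu d)} (hD : MeasurableSet D) :
    ∫ x in D, w (T₁ x) ∂(uniformProbOn K) ≤
      L * Real.sqrt ((quadCost π).toReal * ((uniformProbOn K) D).toReal) +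
        Real.sqrt (((uniformProbOn K) D).toReal) * Real.sqrt (∫ x, u x ^ 2 ∂(uniformProbOn K)) := by
  classical
  haveI hρprob := uniform_isProb hKc hKi
  set ρ := uniformProbOn K with hρ
  obtain ⟨hπ1, hπ2⟩ := hπ
  haveI : IsProbabilityMeasure μ := by
    rw [← hm₁]
    exact Measure.isProbabilityMeasure_map hT₁.aemeasurable
  haveI : IsProbabilityMeasure ν := by
    rw [← hm₂]
    exact Measure.isProbabilityMeasure_map hT₂.aemeasurable
  haveI : IsProbabilityMeasure π := by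
    constructor
    have h1 : μ Set.univ = 1 := measure_univ
    rw [← hπ1, Measure.map_apply measurable_fst MeasurableSet.univ] at h1
    simpa using h1
  have hset : MeasurableSet {y : Eu d | ‖y‖ ≤ R} := measurableSet_le measurable_norm measurable_const
  have hμb : ∀ᵐ y ∂μ, ‖y‖ ≤ R := by
    rw [← hm₁]
    exact (ae_map_iff hT₁.aemeasurable hset).mpr hR₁
  have hνb : ∀ᵐ y ∂ν, ‖y‖ ≤ R := by
    rw [← hm₂]
    exact (ae_map_iff hT₂.aemeasurable hset).mpr hR₂
  have hπb1 : ∀ᵐ p ∂π, ‖p.1‖ ≤ R := by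
    rw [← hπ1] at hμb
    exact (ae_map_iff measurable_fst.aemeasurable hset).mp hμb
  have hπb2 : ∀ᵐ p ∂π, ‖p.2‖ ≤ R := by
    rw [← hπ2] at hνb
    exact (ae_map_iff measurable_snd.aemeasurable hset).mp hνb
  set W : ℝ := |w 0| + L * R with hWdef
  have hW0 : 0 ≤ W := by positivity
  have hwb : ∀ y, ‖y‖ ≤ R → |w y| ≤ W := by
    intro y hy
    have h1 := hw.dist_le_mul y 0
    rw [Real.dist_eq, dist_zero_right] at h1
    have h2 : |w y| ≤ |w 0| + |w y - w 0| := by
      have := abs_sub_abs_le_abs_sub (w y) (w 0)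
      linarith
    have h3 : (L : ℝ) * ‖y‖ ≤ L * R := mul_le_mul_of_nonneg_left hy L.2
    linarith
  have hwm : Measurable w := hw.continuous.measurable
  -- the densities
  obtain ⟨g, hgm, hg0, hg1, hgf⟩ := exists_density (α := ρ) hT₁ (h := D.indicator 1)
    (measurable_const.indicator hD)
    (fun x => Set.indicator_nonneg (fun _ _ => zero_le_one) x)
    (fun x => Set.indicator_le_self' (fun _ _ => zero_le_one) x |>.trans (by simp))
  rw [hm₁] at hgf
  obtain ⟨g₂, hg₂m, hg₂0, hg₂1, hg₂f⟩ := exists_density (α := π) measurable_snd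
    (h := fun p => g p.1) (hgm.comp measurable_fst) (fun p => hg0 _) (fun p => hg1 _)
  rw [hπ2] at hg₂f
  -- transfer of integrals
  have hμπ : ∀ f : Eu d → ℝ, Measurable f → ∫ y, f y ∂μ = ∫ p, f p.1 ∂π := by
    intro f hf
    rw [← hπ1, integral_map measurable_fst.aemeasurable hf.aestronglyMeasurable]
  have hνρ : ∀ f : Eu d → ℝ, Measurable f → ∫ y, f y ∂ν = ∫ x, f (T₂ x) ∂ρ := by
    intro f hf
    rw [← hm₂, integral_map hT₂.aemeasurable hf.aestronglyMeasurable]
  have hνπ : ∀ f : Eu d → ℝ, Measurable f → ∫ y, f y ∂ν = ∫ p, f p.2 ∂π := by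
    intro f hf
    rw [← hπ2, integral_map measurable_snd.aemeasurable hf.aestronglyMeasurable]
  set m : ℝ := (ρ D).toReal with hm
  have hm0 : 0 ≤ m := ENNReal.toReal_nonneg
  have e0 : ∫ x in D, w (T₁ x) ∂ρ = ∫ p, w p.1 * g p.1 ∂π := by
    rw [← integral_indicator hD]
    have : (D.indicator fun x => w (T₁ x)) = fun x => w (T₁ x) * D.indicator 1 x := by
      ext x
      by_cases hx : x ∈ D <;> simp [hx]
    rw [this, hgf w hwm, hμπ (fun y => w y * g y) (hwm.mul hgm)]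
  have e1 : ∫ p, w p.2 * g p.1 ∂π = ∫ x, w (T₂ x) * g₂ (T₂ x) ∂ρ := by
    rw [hg₂f w hwm, hνρ (fun y => w y * g₂ y) (hwm.mul hg₂m)]
  have em : ∫ p, g p.1 ∂π = m := by
    have h1 := hgf (fun _ => 1) measurable_const
    simp only [one_mul] at h1
    rw [← hμπ g hgm, ← h1, hm]
    have : (D.indicator (1 : Eu d → ℝ)) = D.indicator fun _ => (1 : ℝ) := rfl
    rw [this, integral_indicator hD]
    simp [Measure.real]
  have em2 : ∫ x, g₂ (T₂ x) ∂ρ = m := by
    have h1 := hg₂f (fun _ => 1) measurable_const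
    simp only [one_mul] at h1
    rw [← hνρ g₂ hg₂m, ← h1, em]
  -- integrability helper
  have hint : ∀ {Ω : Type _} [MeasurableSpace Ω] {α : Measure Ω} [IsFiniteMeasure α] {f : Ω → ℝ},
      Measurable f → ∀ C : ℝ, (∀ᵐ ω ∂α, |f ω| ≤ C) → Integrable f α := by
    intro Ω _ α _ f hf C hC
    exact Integrable.of_bound hf.aestronglyMeasurable C (by simpa [Real.norm_eq_abs] using hC)
  have hw1 : Measurable fun p : Eu d × Eu d => w p.1 := hwm.comp measurable_fst
  have hw2 : Measurable fun p : Eu d × Eu d => w p.2 := hwm.comp measurable_snd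
  have hg1m : Measurable fun p : Eu d × Eu d => g p.1 := hgm.comp measurable_fst
  have hgabs : ∀ p : Eu d × Eu d, |g p.1| ≤ 1 := fun p => by
    rw [abs_of_nonneg (hg0 _)]
    exact hg1 _
  have i1 : Integrable (fun p : Eu d × Eu d => w p.1 * g p.1) π := by
    refine hint (hw1.mul hg1m) W ?_
    filter_upwards [hπb1] with p hp
    rw [abs_mul]
    nlinarith [hwb _ hp, hgabs p, abs_nonneg (w p.1), abs_nonneg (g p.1)]
  have i2 : Integrable (fun p : Eu d × Eu d => w p.2 * g p.1) π := by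
    refine hint (hw2.mul hg1m) W ?_
    filter_upwards [hπb2] with p hp
    rw [abs_mul]
    nlinarith [hwb _ hp, hgabs p, abs_nonneg (w p.2), abs_nonneg (g p.1)]
  have hdistm : Measurable fun p : Eu d × Eu d => ‖p.1 - p.2‖ :=
    (measurable_fst.sub measurable_snd).norm
  have hdistb : ∀ᵐ p ∂π, ‖p.1 - p.2‖ ≤ 2 * R := by
    filter_upwards [hπb1, hπb2] with p h1 h2
    have := norm_sub_le p.1 p.2
    linarith
  have i3 : Integrable (fun p : Eu d × Eu d => ‖p.1 - p.2‖ * g p.1) π := by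
    refine hint (hdistm.mul hg1m) (2 * R) ?_
    filter_upwards [hdistb] with p hp
    rw [abs_mul, abs_norm]
    have h0 := norm_nonneg (p.1 - p.2)
    nlinarith [hgabs p, abs_nonneg (g p.1)]
  have i4 : Integrable (fun p : Eu d × Eu d => ‖p.1 - p.2‖ ^ 2) π := by
    refine hint (hdistm.pow_const 2) ((2 * R) ^ 2) ?_
    filter_upwards [hdistb] with p hp
    rw [abs_of_nonneg (by positivity)]
    exact pow_le_pow_left₀ (norm_nonneg _) hp 2
  have i5 : Integrable (fun p : Eu d × Eu d => g p.1 ^ 2) π := by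
    refine hint (hg1m.pow_const 2) 1 (ae_of_all _ fun p => ?_)
    rw [abs_of_nonneg (by positivity)]
    have := hg0 p.1
    have := hg1 p.1
    nlinarith
  have i6 : Integrable (fun p : Eu d × Eu d => g p.1) π :=
    hint hg1m 1 (ae_of_all _ hgabs)
  have hEval : ∫ p, ‖p.1 - p.2‖ ^ 2 ∂π = (quadCost π).toReal := by
    rw [quadCost, integral_eq_lintegral_of_nonneg_ae (ae_of_all _ fun _ => by positivity)
      (hdistm.pow_const 2).aestronglyMeasurable]
    congr 1
    refine lintegral_congr fun p => ?_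
    rw [ENNReal.ofReal_pow (norm_nonneg _), ofReal_norm]
  -- the first term
  have i12 : Integrable (fun p : Eu d × Eu d => (w p.1 - w p.2) * g p.1) π := by
    have := i1.sub i2
    refine this.congr (ae_of_all _ fun p => ?_)
    simp only [Pi.sub_apply]
    ring
  have hA : ∫ p, (w p.1 - w p.2) * g p.1 ∂π ≤
      L * (Real.sqrt (quadCost π).toReal * Real.sqrt m) := by
    have h1 : ∫ p, (w p.1 - w p.2) * g p.1 ∂π ≤ ∫ p, (L : ℝ) * (‖p.1 - p.2‖ * g p.1) ∂π := by
      refine integral_mono i12 (i3.const_mul _) fun p => ?_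
      have h2 := hw.dist_le_mul p.1 p.2
      rw [Real.dist_eq, dist_eq_norm] at h2
      have h3 : w p.1 - w p.2 ≤ L * ‖p.1 - p.2‖ := (le_abs_self _).trans h2
      have h4 := mul_le_mul_of_nonneg_right h3 (hg0 p.1)
      simp only
      linarith
    have h2 : ∫ p, ‖p.1 - p.2‖ * g p.1 ∂π ≤
        Real.sqrt (∫ p, ‖p.1 - p.2‖ ^ 2 ∂π) * Real.sqrt (∫ p, g p.1 ^ 2 ∂π) := cs_real i4 i5 i3
    have h3 : ∫ p, g p.1 ^ 2 ∂π ≤ m := by
      rw [← em]
      refine integral_mono i5 i6 fun p => ?_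
      have h0 := hg0 p.1
      have h1 := hg1 p.1
      simp only
      nlinarith
    rw [integral_const_mul] at h1
    refine h1.trans (mul_le_mul_of_nonneg_left ?_ L.2)
    refine h2.trans ?_
    rw [hEval]
    exact mul_le_mul_of_nonneg_left (Real.sqrt_le_sqrt h3) (Real.sqrt_nonneg _)
  -- the second term
  have hg₂T : Measurable fun x => g₂ (T₂ x) := hg₂m.comp hT₂
  have hg₂abs : ∀ x, |g₂ (T₂ x)| ≤ 1 := fun x => by
    rw [abs_of_nonneg (hg₂0 _)]
    exact hg₂1 _
  have i7 : Integrable (fun x => u x * g₂ (T₂ x)) ρ :=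
    (uniform_integrable_of_continuous hKc hKi hu).mul_bdd (c := 1) hg₂T.aestronglyMeasurable
      (ae_of_all _ fun x => by simpa [Real.norm_eq_abs] using hg₂abs x)
  have i8 : Integrable (fun x => w (T₂ x) * g₂ (T₂ x)) ρ := by
    refine hint ((hwm.comp hT₂).mul hg₂T) W ?_
    filter_upwards [hR₂] with x hx
    rw [abs_mul]
    nlinarith [hwb _ hx, hg₂abs x, abs_nonneg (w (T₂ x)), abs_nonneg (g₂ (T₂ x))]
  have i9 : Integrable (fun x => u x ^ 2) ρ :=
    uniform_integrable_of_continuous hKc hKi (hu.pow 2)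
  have i10 : Integrable (fun x => g₂ (T₂ x) ^ 2) ρ := by
    refine hint (hg₂T.pow_const 2) 1 (ae_of_all _ fun x => ?_)
    rw [abs_of_nonneg (by positivity)]
    have := hg₂0 (T₂ x)
    have := hg₂1 (T₂ x)
    nlinarith
  have i11 : Integrable (fun x => g₂ (T₂ x)) ρ := hint hg₂T 1 (ae_of_all _ hg₂abs)
  have hB : ∫ x, w (T₂ x) * g₂ (T₂ x) ∂ρ ≤
      Real.sqrt m * Real.sqrt (∫ x, u x ^ 2 ∂ρ) := by
    have h1 : ∫ x, w (T₂ x) * g₂ (T₂ x) ∂ρ ≤ ∫ x, u x * g₂ (T₂ x) ∂ρ := by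
      refine integral_mono_ae i8 i7 ?_
      filter_upwards [hle] with x hx
      exact mul_le_mul_of_nonneg_right hx (hg₂0 _)
    have h2 : ∫ x, u x * g₂ (T₂ x) ∂ρ ≤
        Real.sqrt (∫ x, u x ^ 2 ∂ρ) * Real.sqrt (∫ x, g₂ (T₂ x) ^ 2 ∂ρ) := cs_real i9 i10 i7
    have h3 : ∫ x, g₂ (T₂ x) ^ 2 ∂ρ ≤ m := by
      rw [← em2]
      refine integral_mono i10 i11 fun x => ?_
      have h0 := hg₂0 (T₂ x)
      have h1 := hg₂1 (T₂ x)
      simp only
      nlinarith
    refine h1.trans (h2.trans ?_)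
    rw [mul_comm]
    exact mul_le_mul_of_nonneg_right (Real.sqrt_le_sqrt h3) (Real.sqrt_nonneg _)
  -- assembling
  have hsplit : ∫ p, w p.1 * g p.1 ∂π =
      ∫ p, (w p.1 - w p.2) * g p.1 ∂π + ∫ p, w p.2 * g p.1 ∂π := by
    rw [← integral_add i12 i2]
    refine integral_congr_ae (ae_of_all _ fun p => ?_)
    simp only
    ring
  rw [e0, hsplit, e1, Real.sqrt_mul ENNReal.toReal_nonneg]
  exact add_le_add hA hB

end Crest.Agent.Lib.OTStab
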