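/-
Laguerre cells and semi-discrete optimal transport: module of the proof of S0109.
-/
import Crest.Agent.Lib.OTStabBase

set_option autoImplicit false
set_option linter.unusedSectionVars false
set_option linter.unusedSimpArgs false
set_option linter.deprecated false
set_option linter.unusedVariables false

open MeasureTheory Crest.AnalysisR.OT Filter Topology
open scoped ENNReal NNReal RealInnerProductSpace

namespace Crest.Agent.Lib.OTStab

variable {d : ℕ} {ι : Type*} [Fintype ι] [Nonempty ι]

/-- The Laguerre potential `x ↦ max_i (⟪y i, x⟫ - w i)`. -/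
noncomputable def lagPot (y : ι → Eu d) (w : ι → ℝ) (x : Eu d) : ℝ :=
  Finset.univ.sup' Finset.univ_nonempty fun i => ⟪y i, x⟫ - w i

/-- The Laguerre cell of index `i`. -/
def lagCell (y : ι → Eu d) (w : ι → ℝ) (i : ι) : Set (Eu d) :=
  {x | ∀ l, ⟪y l, x⟫ - w l ≤ ⟪y i, x⟫ - w i}

lemma le_lagPot (y : ι → Eu d) (w : ι → ℝ) (x : Eu d) (i : ι) :
    ⟪y i, x⟫ - w i ≤ lagPot y w x :=
  Finset.le_sup' (fun i => ⟪y i, x⟫ - w i) (Finset.mem_univ i)

lemma lagPot_le_iff {y : ι → Eu d} {w : ι → ℝ} {x : Eu d} {a : ℝ} :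
    lagPot y w x ≤ a ↔ ∀ i, ⟪y i, x⟫ - w i ≤ a := by
  simp [lagPot, Finset.sup'_le_iff]

lemma exists_lagPot_eq (y : ι → Eu d) (w : ι → ℝ) (x : Eu d) :
    ∃ i, lagPot y w x = ⟪y i, x⟫ - w i := by
  obtain ⟨i, -, hi⟩ := Finset.exists_mem_eq_sup' Finset.univ_nonempty
    (fun i => ⟪y i, x⟫ - w i)
  exact ⟨i, hi⟩

lemma mem_lagCell_iff {y : ι → Eu d} {w : ι → ℝ} {x : Eu d} {i : ι} :
    x ∈ lagCell y w i ↔ lagPot y w x = ⟪y i, x⟫ - w i := by
  constructor
  · intro h
    exact le_antisymm (lagPot_le_iff.2 h) (le_lagPot y w x i)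
  · intro h l
    rw [← h]
    exact le_lagPot y w x l

lemma exists_mem_lagCell (y : ι → Eu d) (w : ι → ℝ) (x : Eu d) : ∃ i, x ∈ lagCell y w i := by
  obtain ⟨i, hi⟩ := exists_lagPot_eq y w x
  exact ⟨i, mem_lagCell_iff.2 hi⟩

lemma iUnion_lagCell (y : ι → Eu d) (w : ι → ℝ) : ⋃ i, lagCell y w i = Set.univ := by
  ext x
  simpa using exists_mem_lagCell y w x

lemma isClosed_lagCell (y : ι → Eu d) (w : ι → ℝ) (i : ι) : IsClosed (lagCell y w i) := by
  have : lagCell y w i = ⋂ l, {x | ⟪y l, x⟫ - w l ≤ ⟪y i, x⟫ - w i} := by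
    ext x; simp [lagCell]
  rw [this]
  exact isClosed_iInter fun l => isClosed_le (by fun_prop) (by fun_prop)

lemma measurableSet_lagCell (y : ι → Eu d) (w : ι → ℝ) (i : ι) :
    MeasurableSet (lagCell y w i) :=
  (isClosed_lagCell y w i).measurableSet

/-- Bound on the atoms. -/
noncomputable def atomBound (y : ι → Eu d) : ℝ≥0 :=
  Finset.univ.sup fun i => ‖y i‖₊

lemma norm_le_atomBound (y : ι → Eu d) (i : ι) : ‖y i‖ ≤ atomBound y := by
  have : ‖y i‖₊ ≤ atomBound y :=
    Finset.le_sup (f := fun i => ‖y i‖₊) (Finset.mem_univ i)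
  exact_mod_cast this

/-- The Laguerre potential is Lipschitz. -/
lemma lagPot_lipschitz (y : ι → Eu d) (w : ι → ℝ) : LipschitzWith (atomBound y) (lagPot y w) := by
  refine LipschitzWith.of_le_add_mul _ fun x x' => ?_
  refine lagPot_le_iff.2 fun i => ?_
  have h1 := le_lagPot y w x' i
  have h2 : ⟪y i, x - x'⟫ ≤ ‖y i‖ * ‖x - x'‖ := real_inner_le_norm _ _
  have h3 : ‖y i‖ * ‖x - x'‖ ≤ atomBound y * dist x x' := by
    rw [dist_eq_norm]
    exact mul_le_mul_of_nonneg_right (norm_le_atomBound y i) (norm_nonneg _)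
  simp only [inner_sub_right] at h2
  linarith

lemma lagPot_continuous (y : ι → Eu d) (w : ι → ℝ) : Continuous (lagPot y w) :=
  (lagPot_lipschitz y w).continuous

/-- The Laguerre potential at fixed `x` is Lipschitz in the weights, sup norm. -/
lemma lagPot_le_add_of_le (y : ι → Eu d) {w w' : ι → ℝ} {a : ℝ} (h : ∀ i, w' i ≤ w i + a)
    (x : Eu d) : lagPot y w x ≤ lagPot y w' x + a := by
  refine lagPot_le_iff.2 fun i => ?_
  have := le_lagPot y w' x i
  have := h i
  linarith

lemma lagPot_sub_const (y : ι → Eu d) (w : ι → ℝ) (c : ℝ) (x : Eu d) :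
    lagPot y (fun i => w i - c) x = lagPot y w x + c := by
  apply le_antisymm
  · refine lagPot_le_iff.2 fun i => ?_
    have := le_lagPot y w x i
    linarith
  · have : lagPot y w x ≤ lagPot y (fun i => w i - c) x - c := by
      refine lagPot_le_iff.2 fun i => ?_
      have := le_lagPot y (fun i => w i - c) x i
      linarith
    linarith

/-- Hyperplanes are null. -/
lemma volume_inner_eq_null {v : Eu d} (hv : v ≠ 0) (a : ℝ) :
    volume {x : Eu d | ⟪v, x⟫ = a} = 0 := by
  let ℓ : Eu d →ₗ[ℝ] ℝ := (innerₛₗ ℝ v)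
  have hℓ : ∀ x, ℓ x = ⟪v, x⟫ := fun x => rfl
  have hvv : ⟪v, v⟫ ≠ 0 := by
    simpa using hv
  let p : Eu d := (a / ⟪v, v⟫) • v
  have hp : ℓ p = a := by
    simp only [hℓ, p, inner_smul_right]
    field_simp
  let s : AffineSubspace ℝ (Eu d) := AffineSubspace.mk' p (LinearMap.ker ℓ)
  have hsub : {x : Eu d | ⟪v, x⟫ = a} ⊆ (s : Set (Eu d)) := by
    intro x hx
    have hx' : ⟪v, x⟫ = a := hx
    simp only [s, SetLike.mem_coe, AffineSubspace.mem_mk', LinearMap.mem_ker, vsub_eq_sub]
    rw [map_sub, hp, hℓ, hx', sub_self]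
  have hne : s ≠ ⊤ := by
    intro h
    have : (p + v) ∈ s := by rw [h]; trivial
    simp only [s, AffineSubspace.mem_mk', LinearMap.mem_ker, vsub_eq_sub, add_sub_cancel_right] at this
    have h2 : ⟪v, p + v⟫ - ⟪v, p⟫ = ⟪v, v⟫ := by
      rw [inner_add_right]; ring
    have h3 : ℓ (p + v - p) = ⟪v, v⟫ := by
      rw [hℓ, add_sub_cancel_left]
    rw [add_sub_cancel_left] at h3
    exact hvv (by rw [← h3]; simpa using this)
  exact measure_mono_null hsub (Measure.addHaar_affineSubspace volume s hne)

variable {K : Set (Eu d)}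

lemma aedisjoint_lagCell {y : ι → Eu d} (hy : Function.Injective y) (w : ι → ℝ) {i j : ι}
    (hij : i ≠ j) : AEDisjoint (uniformProbOn K) (lagCell y w i) (lagCell y w j) := by
  have hv : y i - y j ≠ 0 := sub_ne_zero.2 (fun h => hij (hy h))
  refine (uniform_ac : uniformProbOn K ≪ volume) ?_
  refine measure_mono_null ?_ (volume_inner_eq_null hv (w i - w j))
  rintro x ⟨hxi, hxj⟩
  have h1 := hxi j
  have h2 := hxj i
  simp only [Set.mem_setOf_eq, inner_sub_left]
  linarith

/-- The cells form an a.e. partition: sum of the set integrals over cells. -/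
lemma sum_setIntegral_lagCell {F : Type*} [NormedAddCommGroup F] [NormedSpace ℝ F]
    {y : ι → Eu d} (hy : Function.Injective y) (w : ι → ℝ) {f : Eu d → F}
    (hf : Integrable f (uniformProbOn K)) :
    ∑ i, ∫ x in lagCell y w i, f x ∂(uniformProbOn K) = ∫ x, f x ∂(uniformProbOn K) := by
  have h := integral_iUnion_ae (μ := uniformProbOn K) (s := fun i => lagCell y w i) (f := f)
    (fun i => (measurableSet_lagCell y w i).nullMeasurableSet)
    (fun i j hij => aedisjoint_lagCell hy w hij)
    (by rw [iUnion_lagCell]; exact hf.integrableOn)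
  rw [iUnion_lagCell, setIntegral_univ, tsum_fintype] at h
  exact h.symm

section Solver

variable (K)

/-- The Kantorovich functional. -/
noncomputable def kantFun (y : ι → Eu d) (r : Eu d → ℝ) (m : ι → ℝ) (w : ι → ℝ) : ℝ :=
  ∫ x, lagPot y w x * r x ∂(uniformProbOn K) + ∑ i, m i * w i

variable {K}

lemma integrable_lagPot_mul (hKc : IsCompact K) (hKi : (interior K).Nonempty)
    (y : ι → Eu d) (w : ι → ℝ) {r : Eu d → ℝ} (hr : Integrable r (uniformProbOn K)) :
    Integrable (fun x => lagPot y w x * r x) (uniformProbOn K) := by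
  obtain ⟨B, hB⟩ := hKc.exists_bound_of_continuousOn (lagPot_continuous y w).continuousOn
  refine hr.bdd_mul (c := B) (lagPot_continuous y w).aestronglyMeasurable ?_
  filter_upwards [uniform_ae_mem hKc] with x hx using hB x hx

lemma kantFun_sub_const (hKc : IsCompact K) (hKi : (interior K).Nonempty)
    (y : ι → Eu d) {r : Eu d → ℝ} (hr : Integrable r (uniformProbOn K))
    (m : ι → ℝ) (hsum : ∑ i, m i = ∫ x, r x ∂(uniformProbOn K)) (w : ι → ℝ) (c : ℝ) :
    kantFun K y r m (fun i => w i - c) = kantFun K y r m w := by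
  unfold kantFun
  have h1 : ∀ x, lagPot y (fun i => w i - c) x * r x = lagPot y w x * r x + c * r x := by
    intro x; rw [lagPot_sub_const]; ring
  simp_rw [h1]
  rw [integral_add (integrable_lagPot_mul hKc hKi y w hr) (hr.const_mul c), integral_const_mul,
    ← hsum]
  have h2 : ∑ i, m i * (w i - c) = ∑ i, m i * w i - c * ∑ i, m i := by
    rw [Finset.mul_sum, ← Finset.sum_sub_distrib]
    exact Finset.sum_congr rfl fun i _ => by ring
  rw [h2]; ring

lemma kantFun_continuous (hKc : IsCompact K) (hKi : (interior K).Nonempty)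
    (y : ι → Eu d) {r : Eu d → ℝ} (hr : Integrable r (uniformProbOn K))
    (hr0 : ∀ x, 0 ≤ r x) (m : ι → ℝ) :
    Continuous (kantFun K y r m) := by
  unfold kantFun
  refine Continuous.add ?_ (by fun_prop)
  -- Lipschitz in the sup norm
  have key : ∀ w w' : ι → ℝ, ∫ x, lagPot y w x * r x ∂(uniformProbOn K) ≤
      ∫ x, lagPot y w' x * r x ∂(uniformProbOn K) + dist w w' * ∫ x, r x ∂(uniformProbOn K) := by
    intro w w'
    rw [← integral_const_mul, ← integral_add (integrable_lagPot_mul hKc hKi y w' hr)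
      (hr.const_mul _)]
    refine integral_mono (integrable_lagPot_mul hKc hKi y w hr)
      ((integrable_lagPot_mul hKc hKi y w' hr).add (hr.const_mul _)) fun x => ?_
    have h1 : lagPot y w x ≤ lagPot y w' x + dist w w' := by
      apply lagPot_le_add_of_le
      intro i
      have := dist_le_pi_dist w w' i
      rw [Real.dist_eq] at this
      have := abs_le.1 this
      linarith [this.1]
    have := mul_le_mul_of_nonneg_right h1 (hr0 x)
    simp only [Pi.add_apply]
    linarith
  refine LipschitzWith.continuous (K := (∫ x, r x ∂(uniformProbOn K)).toNNReal) ?_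
  refine LipschitzWith.of_le_add_mul _ fun w w' => ?_
  rw [Real.coe_toNNReal _ (integral_nonneg hr0)]
  have := key w w'
  linarith

/-- Existence of a minimiser of the Kantorovich functional. -/
lemma exists_kantFun_min (hKc : IsCompact K) (hKi : (interior K).Nonempty)
    (y : ι → Eu d) {r : Eu d → ℝ} (hr : Integrable r (uniformProbOn K)) (hr0 : ∀ x, 0 ≤ r x)
    (m : ι → ℝ) (hm0 : ∀ i, 0 < m i) (hsum : ∑ i, m i = ∫ x, r x ∂(uniformProbOn K)) :
    ∃ w : ι → ℝ, ∀ w', kantFun K y r m w ≤ kantFun K y r m w' := by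
  classical
  have := uniform_isProb hKc hKi
  -- bound for the inner products on `K`
  obtain ⟨A, hA⟩ : ∃ A : ℝ, 0 ≤ A ∧ ∀ i, ∀ x ∈ K, |⟪y i, x⟫| ≤ A := by
    obtain ⟨B, hB⟩ := hKc.isBounded.exists_norm_le
    refine ⟨atomBound y * |B|, by positivity, fun i x hx => ?_⟩
    calc |⟪y i, x⟫| ≤ ‖y i‖ * ‖x‖ := abs_real_inner_le_norm _ _
      _ ≤ atomBound y * |B| := by
        apply mul_le_mul (norm_le_atomBound y i) ((hB x hx).trans (le_abs_self B)) (norm_nonneg _)
        exact NNReal.coe_nonneg _
  obtain ⟨hA0, hA⟩ := hA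
  set I := ∫ x, r x ∂(uniformProbOn K) with hI
  have hI0 : 0 ≤ I := integral_nonneg hr0
  obtain ⟨m₀, hm₀, hm₀le⟩ : ∃ m₀ : ℝ, 0 < m₀ ∧ ∀ i, m₀ ≤ m i := by
    obtain ⟨i₀, -, hi₀⟩ := Finset.exists_min_image Finset.univ m Finset.univ_nonempty
    exact ⟨m i₀, hm0 i₀, fun i => hi₀ i (Finset.mem_univ i)⟩
  -- lower bound for normalised weights
  have lower : ∀ w : ι → ℝ, (∀ i, 0 ≤ w i) → (∃ i, w i = 0) → ∀ i, -(A * I) + m₀ * w i ≤ kantFun K y r m w := by
    intro w hw0 ⟨i₀, hi₀⟩ i
    have h1 : ∫ x, (-A) * r x ∂(uniformProbOn K) ≤ ∫ x, lagPot y w x * r x ∂(uniformProbOn K) := by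
      apply integral_mono_ae (hr.const_mul _) (integrable_lagPot_mul hKc hKi y w hr)
      filter_upwards [uniform_ae_mem hKc] with x hx
      apply mul_le_mul_of_nonneg_right _ (hr0 x)
      have h2 := le_lagPot y w x i₀
      have h3 := (abs_le.1 (hA i₀ x hx)).1
      rw [hi₀] at h2
      linarith
    rw [integral_const_mul] at h1
    have h4 : m₀ * w i ≤ ∑ l, m l * w l := by
      calc m₀ * w i ≤ m i * w i := mul_le_mul_of_nonneg_right (hm₀le i) (hw0 i)
        _ ≤ ∑ l, m l * w l := Finset.single_le_sum (f := fun l => m l * w l)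
            (fun l _ => mul_nonneg (hm0 l).le (hw0 l)) (Finset.mem_univ i)
    unfold kantFun
    linarith
  -- upper bound at zero
  have upper : kantFun K y r m (fun _ => 0) ≤ A * I := by
    unfold kantFun
    simp only [mul_zero, Finset.sum_const_zero, add_zero]
    rw [hI, ← integral_const_mul]
    apply integral_mono_ae (integrable_lagPot_mul hKc hKi y _ hr) (hr.const_mul _)
    filter_upwards [uniform_ae_mem hKc] with x hx
    apply mul_le_mul_of_nonneg_right _ (hr0 x)
    refine lagPot_le_iff.2 fun i => ?_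
    have h3 := (abs_le.1 (hA i x hx)).2
    linarith
  -- the box
  set L : ℝ := (2 * (A * I) + 1) / m₀ with hL
  have hL0 : 0 ≤ L := by positivity
  have hbox : IsCompact (Set.Icc (fun _ : ι => (0 : ℝ)) (fun _ => L)) := isCompact_Icc
  have hboxne : (Set.Icc (fun _ : ι => (0 : ℝ)) (fun _ => L)).Nonempty :=
    Set.nonempty_Icc.2 (fun _ => hL0)
  obtain ⟨w, hw, hmin⟩ := hbox.exists_isMinOn hboxne
    (kantFun_continuous hKc hKi y hr hr0 m).continuousOn
  refine ⟨w, fun w' => ?_⟩
  have hmin0 : kantFun K y r m w ≤ kantFun K y r m (fun _ => 0) :=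
    hmin ⟨fun _ => le_rfl, fun _ => hL0⟩
  -- normalise
  obtain ⟨i₀, -, hi₀⟩ := Finset.exists_min_image Finset.univ w' Finset.univ_nonempty
  set w'' : ι → ℝ := fun i => w' i - w' i₀ with hw''
  have h1 : kantFun K y r m w'' = kantFun K y r m w' := kantFun_sub_const hKc hKi y hr m hsum w' _
  have h0 : ∀ i, 0 ≤ w'' i := fun i => sub_nonneg.2 (hi₀ i (Finset.mem_univ i))
  have h00 : ∃ i, w'' i = 0 := ⟨i₀, sub_self _⟩
  rw [← h1]
  by_cases hle : ∀ i, w'' i ≤ L
  · exact hmin ⟨h0, hle⟩
  · push Not at hle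
    obtain ⟨i, hi⟩ := hle
    have h5 := lower w'' h0 h00 i
    have h6 : m₀ * L < m₀ * w'' i := mul_lt_mul_of_pos_left hi hm₀
    have h7 : m₀ * L = 2 * (A * I) + 1 := by
      rw [hL]; field_simp
    linarith

/-- First order condition: at a minimiser each cell has at least its mass. -/
lemma le_setIntegral_of_min (hKc : IsCompact K) (hKi : (interior K).Nonempty)
    (y : ι → Eu d) {r : Eu d → ℝ} (hr : Integrable r (uniformProbOn K)) (hr0 : ∀ x, 0 ≤ r x)
    (m : ι → ℝ) {w : ι → ℝ} (hw : ∀ w', kantFun K y r m w ≤ kantFun K y r m w') (i : ι) :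
    m i ≤ ∫ x in lagCell y w i, r x ∂(uniformProbOn K) := by
  classical
  -- the thickened cells
  let C : ℕ → Set (Eu d) := fun n => {x | lagPot y w x ≤ ⟪y i, x⟫ - w i + 1 / ((n : ℝ) + 1)}
  have hCm : ∀ n, MeasurableSet (C n) := fun n =>
    (isClosed_le (lagPot_continuous y w) (by fun_prop)).measurableSet
  have hCa : Antitone C := by
    intro a b hab x hx
    simp only [C, Set.mem_setOf_eq] at hx ⊢
    have : 1 / ((b : ℝ) + 1) ≤ 1 / ((a : ℝ) + 1) := by
      apply one_div_le_one_div_of_le (by positivity)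
      have : (a : ℝ) ≤ b := by exact_mod_cast hab
      linarith
    linarith
  have hCi : ⋂ n, C n = lagCell y w i := by
    ext x
    simp only [Set.mem_iInter, C, Set.mem_setOf_eq]
    constructor
    · intro h
      rw [mem_lagCell_iff]
      apply le_antisymm _ (le_lagPot y w x i)
      apply le_of_forall_pos_le_add
      intro ε hε
      obtain ⟨n, hn⟩ := exists_nat_one_div_lt hε
      have := h n
      linarith
    · intro h n
      rw [mem_lagCell_iff] at h
      rw [h]
      have : 0 < 1 / ((n : ℝ) + 1) := by positivity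
      linarith
  -- each thickened cell has enough mass
  have hmass : ∀ n, m i ≤ ∫ x in C n, r x ∂(uniformProbOn K) := by
    intro n
    set s : ℝ := 1 / ((n : ℝ) + 1) with hs
    have hs0 : 0 < s := by positivity
    set w' : ι → ℝ := Function.update w i (w i - s) with hw'
    have hpt : ∀ x, lagPot y w' x ≤ lagPot y w x + (C n).indicator (fun _ => s) x := by
      intro x
      refine lagPot_le_iff.2 fun l => ?_
      by_cases hx : x ∈ C n
      · rw [Set.indicator_of_mem hx]
        have h1 := le_lagPot y w x l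
        have h2 : w l - s ≤ w' l := by
          by_cases hl : l = i
          · subst hl; simp [hw']
          · simp [hw', Function.update_of_ne hl, hs0.le]
        linarith
      · rw [Set.indicator_of_notMem hx]
        simp only [C, Set.mem_setOf_eq, not_le] at hx
        by_cases hl : l = i
        · subst hl
          simp only [hw', Function.update_self]
          linarith
        · simp only [hw', Function.update_of_ne hl]
          have := le_lagPot y w x l
          linarith
    have hint : Integrable (fun x => (C n).indicator (fun _ => s) x * r x) (uniformProbOn K) := by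
      have : (fun x => (C n).indicator (fun _ => s) x * r x) = (C n).indicator (fun x => s * r x) := by
        ext x
        by_cases hx : x ∈ C n <;> simp [hx]
      rw [this]
      exact (hr.const_mul s).indicator (hCm n)
    have h1 : ∫ x, lagPot y w' x * r x ∂(uniformProbOn K) ≤
        ∫ x, lagPot y w x * r x ∂(uniformProbOn K) + s * ∫ x in C n, r x ∂(uniformProbOn K) := by
      have h2 : s * ∫ x in C n, r x ∂(uniformProbOn K) =
          ∫ x, (C n).indicator (fun _ => s) x * r x ∂(uniformProbOn K) := by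
        rw [← integral_const_mul, ← integral_indicator (hCm n)]
        congr 1
        ext x
        by_cases hx : x ∈ C n <;> simp [hx]
      rw [h2, ← integral_add (integrable_lagPot_mul hKc hKi y w hr) hint]
      refine integral_mono (integrable_lagPot_mul hKc hKi y w' hr)
        ((integrable_lagPot_mul hKc hKi y w hr).add hint) fun x => ?_
      have := mul_le_mul_of_nonneg_right (hpt x) (hr0 x)
      simp only [add_mul] at this
      exact this
    have h3 : ∑ l, m l * w' l = ∑ l, m l * w l - s * m i := by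
      have : ∀ l, m l * w' l = m l * w l - (if l = i then s * m i else 0) := by
        intro l
        by_cases hl : l = i
        · subst hl; simp [hw']; ring
        · simp [hw', Function.update_of_ne hl, hl]
      simp_rw [this]
      rw [Finset.sum_sub_distrib]
      simp
    have h4 := hw w'
    unfold kantFun at h4
    rw [h3] at h4
    have h5 : s * m i ≤ s * ∫ x in C n, r x ∂(uniformProbOn K) := by linarith
    exact le_of_mul_le_mul_left h5 hs0
  have hlim := tendsto_setIntegral_of_antitone (μ := uniformProbOn K) (f := r) hCm hCa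
    ⟨0, hr.integrableOn⟩
  rw [hCi] at hlim
  exact ge_of_tendsto' hlim hmass

/-- Semi-discrete optimal transport: existence of weights with prescribed cell masses. -/
theorem exists_lagWeights (hKc : IsCompact K) (hKi : (interior K).Nonempty)
    {y : ι → Eu d} (hy : Function.Injective y) {r : Eu d → ℝ} (hr : Integrable r (uniformProbOn K))
    (hr0 : ∀ x, 0 ≤ r x) (m : ι → ℝ) (hm0 : ∀ i, 0 < m i)
    (hsum : ∑ i, m i = ∫ x, r x ∂(uniformProbOn K)) :
    ∃ w : ι → ℝ, ∀ i, ∫ x in lagCell y w i, r x ∂(uniformProbOn K) = m i := by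
  obtain ⟨w, hw⟩ := exists_kantFun_min hKc hKi y hr hr0 m hm0 hsum
  refine ⟨w, ?_⟩
  have hle := le_setIntegral_of_min hKc hKi y hr hr0 m hw
  have hs : ∑ i, m i = ∑ i, ∫ x in lagCell y w i, r x ∂(uniformProbOn K) := by
    rw [hsum, sum_setIntegral_lagCell hy w hr]
  have := (Finset.sum_eq_sum_iff_of_le (fun i _ => hle i)).1 hs
  intro i
  exact (this i (Finset.mem_univ i)).symm

end Solver

end Crest.Agent.Lib.OTStab
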