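/-
Prékopa-Leindler inequality (midpoint form).  Module M1 of the proof of S0109.
-/
import Crest.Agent.Lib.OTStabBase

set_option autoImplicit false

open MeasureTheory
open scoped ENNReal NNReal Pointwise

namespace Crest.Agent.Lib.OTStab

namespace PL

open Set Filter

/-- One-dimensional Brunn-Minkowski for compact sets. -/
lemma bm_compact {K L : Set ℝ} (hK : IsCompact K) (hL : IsCompact L)
    (hKn : K.Nonempty) (hLn : L.Nonempty) :
    volume K + volume L ≤ volume (K + L) := by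
  obtain ⟨a, ha, haM⟩ := hK.exists_isGreatest hKn
  obtain ⟨b, hb, hbM⟩ := hL.exists_isLeast hLn
  set S1 : Set ℝ := (fun x => x + (-b)) ⁻¹' K with hS1
  set S2 : Set ℝ := (fun x => x + (-a)) ⁻¹' L with hS2
  have v1 : volume S1 = volume K := measure_preimage_add_right volume (-b) K
  have v2 : volume S2 = volume L := measure_preimage_add_right volume (-a) L
  have m2 : MeasurableSet S2 := (measurable_id.add_const _) hL.measurableSet
  have hsub : S1 ∪ S2 ⊆ K + L := by
    rintro x (hx | hx)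
    · exact Set.mem_add.2 ⟨x + (-b), hx, b, hb, by ring⟩
    · exact Set.mem_add.2 ⟨a, ha, x + (-a), hx, by ring⟩
  have hinter : S1 ∩ S2 ⊆ {a + b} := by
    rintro x ⟨h1, h2⟩
    have h1' : x + (-b) ≤ a := haM h1
    have h2' : b ≤ x + (-a) := hbM h2
    simp only [Set.mem_singleton_iff]
    linarith
  have h0 : volume (S1 ∩ S2) = 0 :=
    measure_mono_null hinter (by simp)
  calc volume K + volume L = volume S1 + volume S2 := by rw [v1, v2]
    _ = volume (S1 ∪ S2) + volume (S1 ∩ S2) := (measure_union_add_inter S1 m2).symm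
    _ = volume (S1 ∪ S2) := by rw [h0, add_zero]
    _ ≤ volume (K + L) := measure_mono hsub

/-- One-dimensional Brunn-Minkowski, midpoint form, for measurable sets. -/
lemma bm_mid {A B C : Set ℝ} (hA : MeasurableSet A) (hB : MeasurableSet B)
    (hAn : A.Nonempty) (hBn : B.Nonempty)
    (h : ∀ a ∈ A, ∀ b ∈ B, (1 / 2 : ℝ) * (a + b) ∈ C) :
    volume A + volume B ≤ 2 * volume C := by
  have key : ∀ K L : Set ℝ, IsCompact K → IsCompact L → K ⊆ A → L ⊆ B → K.Nonempty → L.Nonempty →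
      volume K + volume L ≤ 2 * volume C := by
    intro K L hK hL hKA hLB hKn hLn
    have hsub : K + L ⊆ (fun x : ℝ => (1 / 2 : ℝ) * x) ⁻¹' C := by
      intro x hx
      obtain ⟨u, hu, v, hv, rfl⟩ := Set.mem_add.1 hx
      exact h u (hKA hu) v (hLB hv)
    have hvol := Real.volume_preimage_mul_left (a := (1 / 2 : ℝ)) (by norm_num) C
    have h2 : ENNReal.ofReal |(1 / 2 : ℝ)⁻¹| = 2 := by norm_num
    rw [h2] at hvol
    exact (bm_compact hK hL hKn hLn).trans ((measure_mono hsub).trans hvol.le)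
  obtain ⟨a0, ha0⟩ := hAn
  obtain ⟨b0, hb0⟩ := hBn
  -- compact approximations containing base points
  have apA : ∀ r < volume A, ∃ K : Set ℝ, K ⊆ A ∧ IsCompact K ∧ K.Nonempty ∧ r < volume K := by
    intro r hr
    obtain ⟨K, hKA, hK, hrK⟩ := hA.exists_lt_isCompact hr
    exact ⟨K ∪ {a0}, Set.union_subset hKA (by simpa using ha0), hK.union isCompact_singleton,
      ⟨a0, by simp⟩, hrK.trans_le (measure_mono Set.subset_union_left)⟩
  have apB : ∀ r < volume B, ∃ K : Set ℝ, K ⊆ B ∧ IsCompact K ∧ K.Nonempty ∧ r < volume K := by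
    intro r hr
    obtain ⟨K, hKA, hK, hrK⟩ := hB.exists_lt_isCompact hr
    exact ⟨K ∪ {b0}, Set.union_subset hKA (by simpa using hb0), hK.union isCompact_singleton,
      ⟨b0, by simp⟩, hrK.trans_le (measure_mono Set.subset_union_left)⟩
  refine le_of_forall_lt (fun c hc => ?_)
  by_cases hA0 : volume A = 0
  · rw [hA0, zero_add] at hc
    obtain ⟨L, hLB, hL, hLn, hcL⟩ := apB c hc
    have := key {a0} L isCompact_singleton hL (by simpa using ha0) hLB (by simp) hLn
    exact lt_of_lt_of_le (hcL.trans_le (le_add_self)) this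
  by_cases hB0 : volume B = 0
  · rw [hB0, add_zero] at hc
    obtain ⟨L, hLB, hL, hLn, hcL⟩ := apA c hc
    have := key L {b0} hL isCompact_singleton hLB (by simpa using hb0) hLn (by simp)
    exact lt_of_lt_of_le (hcL.trans_le (le_self_add)) this
  obtain ⟨y', hy', z', hz', hc'⟩ := ENNReal.exists_lt_add_of_lt_add hc hA0 hB0
  obtain ⟨K, hKA, hK, hKn, hyK⟩ := apA y' hy'
  obtain ⟨L, hLB, hL, hLn, hzL⟩ := apB z' hz'
  have := key K L hK hL hKA hLB hKn hLn
  exact lt_of_lt_of_le (hc'.trans_le (add_le_add hyK.le hzL.le)) this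

/-- The integral of the indicator of `ofReal t < a` over `t > 0` recovers `a`. -/
lemma lintegral_ind (a : ℝ≥0∞) :
    ∫⁻ t in Ioi (0 : ℝ), (if ENNReal.ofReal t < a then 1 else 0) = a := by
  have hm : MeasurableSet {t : ℝ | ENNReal.ofReal t < a} :=
    measurableSet_lt ENNReal.measurable_ofReal measurable_const
  have e1 : (fun t : ℝ => if ENNReal.ofReal t < a then (1 : ℝ≥0∞) else 0)
      = Set.indicator {t : ℝ | ENNReal.ofReal t < a} 1 := by
    funext t; simp [Set.indicator_apply]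
  rw [e1, lintegral_indicator hm]
  simp only [Pi.one_apply, lintegral_one, Measure.restrict_apply MeasurableSet.univ, Set.univ_inter]
  rw [Measure.restrict_apply hm]
  by_cases ha : a = ∞
  · subst ha
    have : {t : ℝ | ENNReal.ofReal t < ∞} ∩ Ioi 0 = Ioi 0 := by
      ext t; simp
    rw [this]; simp
  · have : {t : ℝ | ENNReal.ofReal t < a} ∩ Ioi 0 = Ioo 0 a.toReal := by
      ext t
      simp only [Set.mem_inter_iff, Set.mem_ofPred_eq, Set.mem_Ioi, Set.mem_Ioo]
      constructor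
      · rintro ⟨h1, h2⟩
        exact ⟨h2, (ENNReal.ofReal_lt_iff_lt_toReal h2.le ha).1 h1⟩
      · rintro ⟨h1, h2⟩
        exact ⟨(ENNReal.ofReal_lt_iff_lt_toReal h1.le ha).2 h2, h1⟩
    rw [this, Real.volume_Ioo, sub_zero, ENNReal.ofReal_toReal ha]

/-- Layer cake formula for `ℝ≥0∞`-valued functions. -/
lemma layer_cake (f : ℝ → ℝ≥0∞) (hf : Measurable f) :
    ∫⁻ x, f x = ∫⁻ t in Ioi (0 : ℝ), volume {x | ENNReal.ofReal t < f x} := by
  have hm : Measurable (fun p : ℝ × ℝ =>
      if ENNReal.ofReal p.2 < f p.1 then (1 : ℝ≥0∞) else 0) := by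
    refine Measurable.ite ?_ measurable_const measurable_const
    exact measurableSet_lt (ENNReal.measurable_ofReal.comp measurable_snd) (hf.comp measurable_fst)
  calc ∫⁻ x, f x = ∫⁻ x, ∫⁻ t in Ioi (0 : ℝ), (if ENNReal.ofReal t < f x then 1 else 0) := by
        simp_rw [lintegral_ind]
    _ = ∫⁻ t in Ioi (0 : ℝ), ∫⁻ x, (if ENNReal.ofReal t < f x then 1 else 0) :=
        lintegral_lintegral_swap hm.aemeasurable
    _ = ∫⁻ t in Ioi (0 : ℝ), volume {x | ENNReal.ofReal t < f x} := by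
        refine lintegral_congr (fun t => ?_)
        have hms : MeasurableSet {x : ℝ | ENNReal.ofReal t < f x} :=
          measurableSet_lt measurable_const hf
        have e1 : (fun x : ℝ => if ENNReal.ofReal t < f x then (1 : ℝ≥0∞) else 0)
            = Set.indicator {x : ℝ | ENNReal.ofReal t < f x} 1 := by
          funext x; simp [Set.indicator_apply]
        rw [e1, lintegral_indicator hms]
        simp

/-- Scaled layer cake. -/
lemma layer_cake_scaled (f : ℝ → ℝ≥0∞) (hf : Measurable f) (c : ℝ≥0∞) (hc0 : c ≠ 0) (hct : c ≠ ∞) :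
    c⁻¹ * ∫⁻ x, f x = ∫⁻ t in Ioi (0 : ℝ), volume {x | ENNReal.ofReal t * c < f x} := by
  have h1 := layer_cake (fun x => c⁻¹ * f x) (measurable_const.mul hf)
  rw [lintegral_const_mul _ hf] at h1
  rw [h1]
  refine lintegral_congr (fun t => ?_)
  congr 1
  ext x
  simp only [Set.mem_ofPred_eq]
  rw [← ENNReal.div_eq_inv_mul, ENNReal.lt_div_iff_mul_lt (Or.inl hc0) (Or.inl hct)]

/-- AM-GM in `ℝ≥0∞`. -/
lemma amgm {A B C : ℝ≥0∞} (h : A + B ≤ 2 * C) : A * B ≤ C ^ 2 := by
  by_cases hC : C = ∞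
  · subst hC; simp
  have hAf : A ≠ ∞ := by
    intro hA; subst hA
    have : (2 : ℝ≥0∞) * C ≠ ∞ := ENNReal.mul_ne_top (by simp) hC
    exact this (top_le_iff.1 (by simpa using h))
  have hBf : B ≠ ∞ := by
    intro hB; subst hB
    have : (2 : ℝ≥0∞) * C ≠ ∞ := ENNReal.mul_ne_top (by simp) hC
    exact this (top_le_iff.1 (by simpa using h))
  lift A to ℝ≥0 using hAf
  lift B to ℝ≥0 using hBf
  lift C to ℝ≥0 using hC
  norm_cast at h ⊢
  have h' : (A : ℝ) + B ≤ 2 * C := by exact_mod_cast h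
  have : (A : ℝ) * B ≤ (C : ℝ) ^ 2 := by
    nlinarith [sq_nonneg ((A : ℝ) - B), NNReal.coe_nonneg A, NNReal.coe_nonneg B,
      NNReal.coe_nonneg C, mul_self_nonneg ((A : ℝ) + B)]
  exact_mod_cast this

/-- One-dimensional Prékopa-Leindler, bounded case. -/
lemma pl_one_bdd (f g h : ℝ → ℝ≥0∞) (hf : Measurable f) (hg : Measurable g) (hh : Measurable h)
    (H : ∀ x y, f x * g y ≤ h ((1 / 2 : ℝ) * (x + y)) ^ 2)
    (hFt : (⨆ x, f x) ≠ ∞) (hGt : (⨆ y, g y) ≠ ∞) :
    (∫⁻ x, f x) * (∫⁻ y, g y) ≤ (∫⁻ z, h z) ^ 2 := by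
  by_cases hF0 : (⨆ x, f x) = 0
  · have : ∀ x, f x = 0 := fun x => le_antisymm (hF0 ▸ le_iSup f x) bot_le
    simp [this]
  by_cases hG0 : (⨆ y, g y) = 0
  · have : ∀ x, g x = 0 := fun x => le_antisymm (hG0 ▸ le_iSup g x) bot_le
    simp [this]
  set F : ℝ≥0∞ := ⨆ x, f x with hF
  set G : ℝ≥0∞ := ⨆ y, g y with hG
  set s : ℝ := Real.sqrt (F.toReal * G.toReal) with hs
  have hFpos : 0 < F.toReal := ENNReal.toReal_pos hF0 hFt
  have hGpos : 0 < G.toReal := ENNReal.toReal_pos hG0 hGt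
  have hspos : 0 < s := Real.sqrt_pos.2 (mul_pos hFpos hGpos)
  set S : ℝ≥0∞ := ENNReal.ofReal s with hS
  have hS0 : S ≠ 0 := by simpa [hS] using hspos
  have hSt : S ≠ ∞ := ENNReal.ofReal_ne_top
  have hS2 : S ^ 2 = F * G := by
    have : s ^ 2 = F.toReal * G.toReal := Real.sq_sqrt (mul_pos hFpos hGpos).le
    rw [hS, ← ENNReal.ofReal_pow hspos.le, this,
      ENNReal.ofReal_mul hFpos.le, ENNReal.ofReal_toReal hFt, ENNReal.ofReal_toReal hGt]
  -- level sets
  set At : ℝ → Set ℝ := fun t => {x | ENNReal.ofReal t * F < f x} with hAt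
  set Bt : ℝ → Set ℝ := fun t => {x | ENNReal.ofReal t * G < g x} with hBt
  set Ct : ℝ → Set ℝ := fun t => {x | ENNReal.ofReal t * S < h x} with hCt
  have mA : ∀ t, MeasurableSet (At t) := fun t => measurableSet_lt measurable_const hf
  have mB : ∀ t, MeasurableSet (Bt t) := fun t => measurableSet_lt measurable_const hg
  have antiA : Antitone (fun t => volume (At t)) := by
    intro t t' htt
    refine measure_mono (fun x hx => ?_)
    exact lt_of_le_of_lt (mul_le_mul' (ENNReal.ofReal_le_ofReal htt) le_rfl) hx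
  have key : ∀ t ∈ Ioi (0 : ℝ), volume (At t) + volume (Bt t) ≤ 2 * volume (Ct t) := by
    intro t ht
    by_cases ht1 : t < 1
    · have lt1 : ENNReal.ofReal t < 1 := by
        rw [← ENNReal.ofReal_one]; exact (ENNReal.ofReal_lt_ofReal_iff one_pos).2 ht1
      have hA : (At t).Nonempty := by
        have : ENNReal.ofReal t * F < F := by
          calc ENNReal.ofReal t * F < 1 * F :=
                (ENNReal.mul_lt_mul_iff_left hF0 hFt).2 lt1
            _ = F := one_mul F
        obtain ⟨x, hx⟩ := lt_iSup_iff.1 this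
        exact ⟨x, hx⟩
      have hB : (Bt t).Nonempty := by
        have : ENNReal.ofReal t * G < G := by
          calc ENNReal.ofReal t * G < 1 * G :=
                (ENNReal.mul_lt_mul_iff_left hG0 hGt).2 lt1
            _ = G := one_mul G
        obtain ⟨x, hx⟩ := lt_iSup_iff.1 this
        exact ⟨x, hx⟩
      refine bm_mid (mA t) (mB t) hA hB (fun a ha b hb => ?_)
      have h1 : (ENNReal.ofReal t * F) * (ENNReal.ofReal t * G) < f a * g b :=
        ENNReal.mul_lt_mul ha hb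
      have h2 : (ENNReal.ofReal t * S) ^ 2 < h ((1 / 2 : ℝ) * (a + b)) ^ 2 := by
        refine lt_of_eq_of_lt ?_ (lt_of_lt_of_le h1 (H a b))
        rw [mul_pow, hS2]; ring
      simp only [hCt, Set.mem_ofPred_eq]
      by_contra hcon
      exact absurd h2 (not_lt.2 (pow_le_pow_left' (not_lt.1 hcon) 2))
    · have hA : At t = ∅ := by
        ext x
        simp only [hAt, Set.mem_ofPred_eq, Set.mem_empty_iff_false, iff_false, not_lt]
        have : (1 : ℝ≥0∞) ≤ ENNReal.ofReal t := by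
          rw [← ENNReal.ofReal_one]; exact ENNReal.ofReal_le_ofReal (not_lt.1 ht1)
        calc f x ≤ F := le_iSup f x
          _ = 1 * F := (one_mul F).symm
          _ ≤ _ := mul_le_mul' this le_rfl
      have hB : Bt t = ∅ := by
        ext x
        simp only [hBt, Set.mem_ofPred_eq, Set.mem_empty_iff_false, iff_false, not_lt]
        have : (1 : ℝ≥0∞) ≤ ENNReal.ofReal t := by
          rw [← ENNReal.ofReal_one]; exact ENNReal.ofReal_le_ofReal (not_lt.1 ht1)
        calc g x ≤ G := le_iSup g x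
          _ = 1 * G := (one_mul G).symm
          _ ≤ _ := mul_le_mul' this le_rfl
      simp [hA, hB]
  have hsum : F⁻¹ * (∫⁻ x, f x) + G⁻¹ * (∫⁻ y, g y) ≤ 2 * (S⁻¹ * ∫⁻ z, h z) := by
    rw [layer_cake_scaled f hf F hF0 hFt, layer_cake_scaled g hg G hG0 hGt,
      layer_cake_scaled h hh S hS0 hSt]
    rw [← lintegral_add_left antiA.measurable, ← lintegral_const_mul' 2 _ (by simp)]
    exact setLIntegral_mono' measurableSet_Ioi key
  have hfin := amgm hsum
  have ef : (∫⁻ x, f x) = F * (F⁻¹ * ∫⁻ x, f x) := by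
    rw [← mul_assoc, ENNReal.mul_inv_cancel hF0 hFt, one_mul]
  have eg : (∫⁻ x, g x) = G * (G⁻¹ * ∫⁻ x, g x) := by
    rw [← mul_assoc, ENNReal.mul_inv_cancel hG0 hGt, one_mul]
  have eh : (∫⁻ x, h x) = S * (S⁻¹ * ∫⁻ x, h x) := by
    rw [← mul_assoc, ENNReal.mul_inv_cancel hS0 hSt, one_mul]
  calc (∫⁻ x, f x) * (∫⁻ y, g y)
      = (F * G) * ((F⁻¹ * ∫⁻ x, f x) * (G⁻¹ * ∫⁻ y, g y)) := by
        conv_lhs => rw [ef, eg]
        ring
    _ ≤ (F * G) * (S⁻¹ * ∫⁻ z, h z) ^ 2 := mul_le_mul' le_rfl hfin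
    _ = S ^ 2 * (S⁻¹ * ∫⁻ z, h z) ^ 2 := by rw [hS2]
    _ = (S * (S⁻¹ * ∫⁻ z, h z)) ^ 2 := by ring
    _ = (∫⁻ z, h z) ^ 2 := by rw [← eh]

/-- One-dimensional Prékopa-Leindler. -/
lemma pl_one (f g h : ℝ → ℝ≥0∞) (hf : Measurable f) (hg : Measurable g) (hh : Measurable h)
    (H : ∀ x y, f x * g y ≤ h ((1 / 2 : ℝ) * (x + y)) ^ 2) :
    (∫⁻ x, f x) * (∫⁻ y, g y) ≤ (∫⁻ z, h z) ^ 2 := by
  set fn : ℕ → ℝ → ℝ≥0∞ := fun n x => min (f x) n with hfn
  set gn : ℕ → ℝ → ℝ≥0∞ := fun n x => min (g x) n with hgn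
  have mfn : ∀ n, Measurable (fn n) := fun n => hf.min measurable_const
  have mgn : ∀ n, Measurable (gn n) := fun n => hg.min measurable_const
  have monof : Monotone fn := by
    intro n m hnm x
    exact min_le_min le_rfl (by exact_mod_cast hnm)
  have monog : Monotone gn := by
    intro n m hnm x
    exact min_le_min le_rfl (by exact_mod_cast hnm)
  have bdd : ∀ n, (∫⁻ x, fn n x) * (∫⁻ y, gn n y) ≤ (∫⁻ z, h z) ^ 2 := by
    intro n
    refine pl_one_bdd (fn n) (gn n) h (mfn n) (mgn n) hh ?_ ?_ ?_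
    · intro x y
      exact (mul_le_mul' (min_le_left _ _) (min_le_left _ _)).trans (H x y)
    · exact ne_top_of_le_ne_top (ENNReal.natCast_ne_top n) (iSup_le fun x => min_le_right _ _)
    · exact ne_top_of_le_ne_top (ENNReal.natCast_ne_top n) (iSup_le fun x => min_le_right _ _)
  have supf : ∀ x, ⨆ n, fn n x = f x := by
    intro x
    show ⨆ n : ℕ, f x ⊓ (n : ℝ≥0∞) = f x
    rw [← inf_iSup_eq, ENNReal.iSup_natCast]
    simp
  have supg : ∀ x, ⨆ n, gn n x = g x := by
    intro x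
    show ⨆ n : ℕ, g x ⊓ (n : ℝ≥0∞) = g x
    rw [← inf_iSup_eq, ENNReal.iSup_natCast]
    simp
  have intf : ∫⁻ x, f x = ⨆ n, ∫⁻ x, fn n x := by
    simp_rw [← supf]
    exact lintegral_iSup mfn monof
  have intg : ∫⁻ x, g x = ⨆ n, ∫⁻ x, gn n x := by
    simp_rw [← supg]
    exact lintegral_iSup mgn monog
  rw [intf, intg, ENNReal.iSup_mul]
  refine iSup_le fun i => ?_
  rw [ENNReal.mul_iSup]
  refine iSup_le fun j => ?_
  exact le_trans (mul_le_mul' (lintegral_mono (monof (le_max_left i j)))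
    (lintegral_mono (monog (le_max_right i j)))) (bdd (max i j))

end PL

open PL in
/-- Prékopa-Leindler on `Fin n → ℝ` for `ℝ≥0∞`-valued measurable functions. -/
theorem prekopa_leindler_pi {n : ℕ} (f g h : (Fin n → ℝ) → ℝ≥0∞)
    (hf : Measurable f) (hg : Measurable g) (hh : Measurable h)
    (H : ∀ x y, f x * g y ≤ h ((1 / 2 : ℝ) • (x + y)) ^ 2) :
    (∫⁻ x, f x) * (∫⁻ y, g y) ≤ (∫⁻ z, h z) ^ 2 := by
  induction n with
  | zero =>
    have e : ∀ k : (Fin 0 → ℝ) → ℝ≥0∞, ∫⁻ x, k x = k default := by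
      intro k
      rw [lintegral_unique]
      simp [volume_pi]
      congr 1
      exact Subsingleton.elim _ _
    rw [e f, e g, e h]
    have := H default default
    have hd : (1 / 2 : ℝ) • ((default : Fin 0 → ℝ) + default) = default := Subsingleton.elim _ _
    rw [hd] at this
    exact this
  | succ n ih =>
    set e := MeasurableEquiv.piFinSuccAbove (fun _ : Fin (n + 1) => ℝ) 0 with he
    have mp : MeasurePreserving e := volume_preserving_piFinSuccAbove (fun _ : Fin (n + 1) => ℝ) 0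
    have red : ∀ k : (Fin (n + 1) → ℝ) → ℝ≥0∞, Measurable k →
        ∫⁻ x, k x = ∫⁻ s : ℝ, ∫⁻ x' : Fin n → ℝ, k (e.symm (s, x')) := by
      intro k hk
      rw [← mp.symm.lintegral_comp hk, Measure.volume_eq_prod]
      exact lintegral_prod (fun p => k (e.symm p)) (hk.comp e.symm.measurable).aemeasurable
    have mid : ∀ (s t : ℝ) (x y : Fin n → ℝ),
        (1 / 2 : ℝ) • (e.symm (s, x) + e.symm (t, y))
          = e.symm ((1 / 2 : ℝ) * (s + t), (1 / 2 : ℝ) • (x + y)) := by
      intro s t x y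
      funext i
      refine Fin.cases ?_ (fun j => ?_) i
      · simp [he, MeasurableEquiv.piFinSuccAbove]
      · simp [he, MeasurableEquiv.piFinSuccAbove]; ring
    have mk : ∀ k : (Fin (n + 1) → ℝ) → ℝ≥0∞, Measurable k →
        Measurable (fun p : ℝ × (Fin n → ℝ) => k (e.symm p)) :=
      fun k hk => hk.comp e.symm.measurable
    rw [red f hf, red g hg, red h hh]
    refine pl_one _ _ _ ((mk f hf).lintegral_prod_right') ((mk g hg).lintegral_prod_right')
      ((mk h hh).lintegral_prod_right') (fun s t => ?_)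
    refine ih (fun x' => f (e.symm (s, x'))) (fun x' => g (e.symm (t, x')))
      (fun x' => h (e.symm ((1 / 2 : ℝ) * (s + t), x')))
      ((mk f hf).comp measurable_prodMk_left) ((mk g hg).comp measurable_prodMk_left)
      ((mk h hh).comp measurable_prodMk_left) (fun x y => ?_)
    have := H (e.symm (s, x)) (e.symm (t, y))
    rw [mid] at this
    exact this

/-- Prékopa-Leindler on Euclidean space. -/
theorem prekopa_leindler {d : ℕ} (f g h : Eu d → ℝ≥0∞)
    (hf : Measurable f) (hg : Measurable g) (hh : Measurable h)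
    (H : ∀ x y, f x * g y ≤ h ((1 / 2 : ℝ) • (x + y)) ^ 2) :
    (∫⁻ x, f x) * (∫⁻ y, g y) ≤ (∫⁻ z, h z) ^ 2 := by
  have mp := PiLp.volume_preserving_toLp (Fin d)
  have mt : Measurable (WithLp.toLp 2 : (Fin d → ℝ) → Eu d) := mp.measurable
  have red : ∀ k : Eu d → ℝ≥0∞, Measurable k →
      ∫⁻ x, k x = ∫⁻ v : Fin d → ℝ, k (WithLp.toLp 2 v) := by
    intro k hk
    exact (mp.lintegral_comp hk).symm
  rw [red f hf, red g hg, red h hh]
  refine prekopa_leindler_pi _ _ _ (hf.comp mt) (hg.comp mt) (hh.comp mt) (fun x y => ?_)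
  have := H (WithLp.toLp 2 x) (WithLp.toLp 2 y)
  have e : (1 / 2 : ℝ) • ((WithLp.toLp 2 x : Eu d) + WithLp.toLp 2 y)
      = WithLp.toLp 2 ((1 / 2 : ℝ) • (x + y)) := by
    ext i; simp; ring
  rw [e] at this
  exact this

end Crest.Agent.Lib.OTStab
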