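/-
Dual lemma of the proof of S0109: stability of barycentres of Laguerre cells under perturbation of
the source density.  Uses Prékopa-Leindler with a Gaussian weight.
-/
import Crest.Agent.Lib.OTStabPL
import Crest.Agent.Lib.OTStabLaguerre

set_option autoImplicit false
set_option linter.unusedSectionVars false
set_option linter.unusedSimpArgs false
set_option linter.deprecated false
set_option linter.unusedVariables false

open MeasureTheory Crest.AnalysisR.OT Filter Topology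
open scoped ENNReal NNReal RealInnerProductSpace

namespace Crest.Agent.Lib.OTStab

variable {d : ℕ} {K : Set (Eu d)}

/-- Prékopa-Leindler for the uniform measure on a convex set, real form. -/
lemma PL_uniform (hKc : IsCompact K) (hKv : Convex ℝ K) (hKi : (interior K).Nonempty)
    {F G H : Eu d → ℝ} (hF : Measurable F) (hG : Measurable G) (hH : Measurable H)
    (F0 : ∀ x, 0 ≤ F x) (G0 : ∀ x, 0 ≤ G x) (H0 : ∀ x, 0 ≤ H x)
    (iF : Integrable F (uniformProbOn K)) (iG : Integrable G (uniformProbOn K))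
    (iH : Integrable H (uniformProbOn K))
    (hFGH : ∀ x ∈ K, ∀ y ∈ K, F x * G y ≤ H ((1 / 2 : ℝ) • (x + y)) ^ 2) :
    (∫ x, F x ∂(uniformProbOn K)) * (∫ x, G x ∂(uniformProbOn K)) ≤
      (∫ x, H x ∂(uniformProbOn K)) ^ 2 := by
  have hKm : MeasurableSet K := hKc.measurableSet
  set v : ℝ≥0∞ := (volume K)⁻¹ with hv
  have key : ∀ f : Eu d → ℝ, Measurable f → (∀ x, 0 ≤ f x) → Integrable f (uniformProbOn K) →
      ENNReal.ofReal (∫ x, f x ∂(uniformProbOn K)) =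
        v * ∫⁻ x, K.indicator (fun x => ENNReal.ofReal (f x)) x := by
    intro f hf f0 fi
    rw [ofReal_integral_eq_lintegral_ofReal fi (Eventually.of_forall f0)]
    rw [lintegral_indicator hKm]
    simp only [uniformProbOn, lintegral_smul_measure, smul_eq_mul, hv]
  have hp := prekopa_leindler (K.indicator (fun x => ENNReal.ofReal (F x)))
    (K.indicator (fun x => ENNReal.ofReal (G x))) (K.indicator (fun x => ENNReal.ofReal (H x)))
    (hF.ennreal_ofReal.indicator hKm) (hG.ennreal_ofReal.indicator hKm)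
    (hH.ennreal_ofReal.indicator hKm) (by
      intro x y
      by_cases hx : x ∈ K
      · by_cases hy : y ∈ K
        · have hmid : (1 / 2 : ℝ) • (x + y) ∈ K := by
            have := hKv hx hy (a := 1 / 2) (b := 1 / 2) (by norm_num) (by norm_num) (by norm_num)
            rwa [← smul_add] at this
          rw [Set.indicator_of_mem hx, Set.indicator_of_mem hy, Set.indicator_of_mem hmid,
            ← ENNReal.ofReal_mul (F0 x), ← ENNReal.ofReal_pow (H0 _)]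
          exact ENNReal.ofReal_le_ofReal (hFGH x hx y hy)
        · simp [Set.indicator_of_notMem hy]
      · simp [Set.indicator_of_notMem hx])
  have hI : 0 ≤ ∫ x, H x ∂(uniformProbOn K) := integral_nonneg H0
  have hI1 : 0 ≤ ∫ x, F x ∂(uniformProbOn K) := integral_nonneg F0
  have : ENNReal.ofReal ((∫ x, F x ∂(uniformProbOn K)) * (∫ x, G x ∂(uniformProbOn K))) ≤
      ENNReal.ofReal ((∫ x, H x ∂(uniformProbOn K)) ^ 2) := by
    rw [ENNReal.ofReal_mul hI1, ENNReal.ofReal_pow hI, key F hF F0 iF, key G hG G0 iG,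
      key H hH H0 iH]
    calc v * (∫⁻ x, K.indicator (fun x => ENNReal.ofReal (F x)) x) *
          (v * ∫⁻ x, K.indicator (fun x => ENNReal.ofReal (G x)) x)
        = v ^ 2 * ((∫⁻ x, K.indicator (fun x => ENNReal.ofReal (F x)) x) *
          ∫⁻ x, K.indicator (fun x => ENNReal.ofReal (G x)) x) := by ring
      _ ≤ v ^ 2 * (∫⁻ x, K.indicator (fun x => ENNReal.ofReal (H x)) x) ^ 2 := by gcongr
      _ = _ := by ring
  exact (ENNReal.ofReal_le_ofReal_iff (sq_nonneg _)).1 this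

/-- Gaussian weight. -/
noncomputable def gW (θ : ℝ) (c x : Eu d) : ℝ := Real.exp (-(θ * ‖x - c‖ ^ 2))
/-- Its inverse. -/
noncomputable def pW (θ : ℝ) (c x : Eu d) : ℝ := Real.exp (θ * ‖x - c‖ ^ 2)
/-- The vector test function. -/
noncomputable def xiW (θ : ℝ) (c x : Eu d) : Eu d := pW θ c x • (x - c)

lemma gW_continuous (θ : ℝ) (c : Eu d) : Continuous (gW θ c) := by
  unfold gW; fun_prop
lemma pW_continuous (θ : ℝ) (c : Eu d) : Continuous (pW θ c) := by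
  unfold pW; fun_prop
lemma xiW_continuous (θ : ℝ) (c : Eu d) : Continuous (xiW θ c) := by
  unfold xiW; exact (pW_continuous θ c).smul (by fun_prop)

lemma gW_pos (θ : ℝ) (c x : Eu d) : 0 < gW θ c x := Real.exp_pos _
lemma pW_pos (θ : ℝ) (c x : Eu d) : 0 < pW θ c x := Real.exp_pos _
lemma gW_mul_pW (θ : ℝ) (c x : Eu d) : gW θ c x * pW θ c x = 1 := by
  unfold gW pW; rw [← Real.exp_add]; simp
lemma gW_smul_xiW (θ : ℝ) (c x : Eu d) : gW θ c x • xiW θ c x = x - c := by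
  unfold xiW; rw [smul_smul, gW_mul_pW, one_smul]

/-- The constant `θ = 1/(64 D²)`. -/
noncomputable def thetaD (D : ℝ) : ℝ := 1 / (64 * D ^ 2)

section Bounds

variable {c : Eu d} {D : ℝ} (hD : 0 < D)
include hD

lemma thetaD_pos : 0 < thetaD D := by unfold thetaD; positivity

lemma theta_sq_le {x : Eu d} (hx : ‖x - c‖ ≤ D) : thetaD D * ‖x - c‖ ^ 2 ≤ 1 / 64 := by
  have h1 : ‖x - c‖ ^ 2 ≤ D ^ 2 := by gcongr
  have h2 : thetaD D * ‖x - c‖ ^ 2 ≤ thetaD D * D ^ 2 :=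
    mul_le_mul_of_nonneg_left h1 (thetaD_pos hD).le
  have h3 : thetaD D * D ^ 2 = 1 / 64 := by unfold thetaD; field_simp
  linarith

lemma exp_one_64_le : Real.exp (1 / 64) ≤ 2 := by
  have h1 : Real.exp (1 / 64) ≤ Real.exp 1 := Real.exp_le_exp.2 (by norm_num)
  have h2 := Real.exp_one_lt_d9
  have hh : Real.exp 1 ≤ 3 := by linarith
  -- `exp (1/64)^2 = exp (1/32) ≤ ...` crude: use `exp x ≤ 1/(1-x)`
  have h3 : Real.exp (1 / 64) * (1 - 1 / 64) ≤ 1 := by
    have h4 := Real.add_one_le_exp (-(1 / 64 : ℝ))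
    have h5 : Real.exp (1 / 64) * Real.exp (-(1 / 64 : ℝ)) = 1 := by
      rw [← Real.exp_add]; simp
    have h6 := Real.exp_pos (1 / 64 : ℝ)
    nlinarith
  have h7 := Real.exp_pos (1 / 64 : ℝ)
  nlinarith

lemma pW_le_two {x : Eu d} (hx : ‖x - c‖ ≤ D) : pW (thetaD D) c x ≤ 2 :=
  (Real.exp_le_exp.2 (theta_sq_le hD hx)).trans (exp_one_64_le hD)

lemma one_le_pW {x : Eu d} : 1 ≤ pW (thetaD D) c x := by
  apply Real.one_le_exp
  have := thetaD_pos hD
  positivity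

lemma gW_le_one {x : Eu d} : gW (thetaD D) c x ≤ 1 := by
  apply Real.exp_le_one_iff.2
  have := thetaD_pos hD
  have : 0 ≤ thetaD D * ‖x - c‖ ^ 2 := by positivity
  linarith

lemma half_le_gW {x : Eu d} (hx : ‖x - c‖ ≤ D) : 1 / 2 ≤ gW (thetaD D) c x := by
  have h1 := gW_mul_pW (thetaD D) c x
  have h2 := pW_le_two hD hx
  have h3 := gW_pos (thetaD D) c x
  nlinarith

lemma pW_sub_le {x y : Eu d} (hx : ‖x - c‖ ≤ D) (hy : ‖y - c‖ ≤ D) :
    pW (thetaD D) c x - pW (thetaD D) c y ≤ 1 / (16 * D) * ‖x - y‖ := by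
  set θ := thetaD D with hθ
  have hθ0 : 0 < θ := thetaD_pos hD
  have hq : θ * ‖x - c‖ ^ 2 - θ * ‖y - c‖ ^ 2 ≤ θ * (2 * D * ‖x - y‖) := by
    have h1 : ‖x - c‖ - ‖y - c‖ ≤ ‖x - y‖ := by
      have := norm_sub_norm_le (x - c) (y - c)
      simpa using this
    have h2 : 0 ≤ ‖x - c‖ + ‖y - c‖ := by positivity
    have h3 : ‖x - c‖ + ‖y - c‖ ≤ 2 * D := by linarith
    have h4 : ‖x - c‖ ^ 2 - ‖y - c‖ ^ 2 ≤ 2 * D * ‖x - y‖ := by
      have h5 : ‖x - c‖ ^ 2 - ‖y - c‖ ^ 2 = (‖x - c‖ - ‖y - c‖) * (‖x - c‖ + ‖y - c‖) := by ring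
      rw [h5]
      calc (‖x - c‖ - ‖y - c‖) * (‖x - c‖ + ‖y - c‖) ≤ ‖x - y‖ * (‖x - c‖ + ‖y - c‖) :=
            mul_le_mul_of_nonneg_right h1 h2
        _ ≤ ‖x - y‖ * (2 * D) := mul_le_mul_of_nonneg_left h3 (norm_nonneg _)
        _ = _ := by ring
    have := mul_le_mul_of_nonneg_left h4 hθ0.le
    linarith
  have h1 : pW θ c x - pW θ c y ≤ pW θ c x * (θ * ‖x - c‖ ^ 2 - θ * ‖y - c‖ ^ 2) := by
    unfold pW
    have h2 := Real.add_one_le_exp (θ * ‖y - c‖ ^ 2 - θ * ‖x - c‖ ^ 2)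
    have h3 : Real.exp (θ * ‖y - c‖ ^ 2) =
        Real.exp (θ * ‖x - c‖ ^ 2) * Real.exp (θ * ‖y - c‖ ^ 2 - θ * ‖x - c‖ ^ 2) := by
      rw [← Real.exp_add]; congr 1; ring
    rw [h3]
    have h4 := Real.exp_pos (θ * ‖x - c‖ ^ 2)
    nlinarith
  have hpx : pW θ c x ≤ 2 := pW_le_two hD hx
  have hpx0 : 0 < pW θ c x := pW_pos _ _ _
  have hRHS : 0 ≤ θ * (2 * D * ‖x - y‖) := by positivity
  have h5 : pW θ c x * (θ * ‖x - c‖ ^ 2 - θ * ‖y - c‖ ^ 2) ≤ 2 * (θ * (2 * D * ‖x - y‖)) := by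
    calc _ ≤ pW θ c x * (θ * (2 * D * ‖x - y‖)) := mul_le_mul_of_nonneg_left hq hpx0.le
      _ ≤ _ := mul_le_mul_of_nonneg_right hpx hRHS
  have h6 : 2 * (θ * (2 * D * ‖x - y‖)) = 1 / (16 * D) * ‖x - y‖ := by
    rw [hθ]; unfold thetaD; field_simp; ring
  linarith

lemma abs_pW_sub_le {x y : Eu d} (hx : ‖x - c‖ ≤ D) (hy : ‖y - c‖ ≤ D) :
    |pW (thetaD D) c x - pW (thetaD D) c y| ≤ 1 / (16 * D) * ‖x - y‖ := by
  rw [abs_le]
  constructor
  · have := pW_sub_le hD (c := c) hy hx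
    rw [norm_sub_rev] at this
    linarith
  · exact pW_sub_le hD hx hy

lemma xiW_sub_le {x y : Eu d} (hx : ‖x - c‖ ≤ D) (hy : ‖y - c‖ ≤ D) :
    ‖xiW (thetaD D) c x - xiW (thetaD D) c y‖ ≤ 3 * ‖x - y‖ := by
  have h1 : xiW (thetaD D) c x - xiW (thetaD D) c y =
      pW (thetaD D) c x • (x - y) + (pW (thetaD D) c x - pW (thetaD D) c y) • (y - c) := by
    unfold xiW
    simp only [smul_sub, sub_smul]
    abel
  rw [h1]
  refine (norm_add_le _ _).trans ?_
  rw [norm_smul, norm_smul, Real.norm_eq_abs, Real.norm_eq_abs,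
    abs_of_pos (pW_pos _ _ _)]
  have h2 := pW_le_two hD hx
  have h3 := abs_pW_sub_le hD hx hy
  have h4 : pW (thetaD D) c x * ‖x - y‖ ≤ 2 * ‖x - y‖ :=
    mul_le_mul_of_nonneg_right h2 (norm_nonneg _)
  have h5 : |pW (thetaD D) c x - pW (thetaD D) c y| * ‖y - c‖ ≤
      (1 / (16 * D) * ‖x - y‖) * D :=
    mul_le_mul h3 hy (norm_nonneg _) (by positivity)
  have h6 : (1 / (16 * D) * ‖x - y‖) * D = 1 / 16 * ‖x - y‖ := by field_simp
  have h7 := norm_nonneg (x - y)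
  linarith

end Bounds

section CellPL

variable {c : Eu d} {D : ℝ}

/-- Pointwise inequality behind the Prékopa-Leindler application. -/
lemma gaussian_mid_le (hD : 0 < D) (x y : Eu d) {L : ℝ} {a : ℝ} (ha : a ≤ L * ‖x - y‖) :
    gW (thetaD D) c x * gW (thetaD D) c y * Real.exp a ≤
      (gW (thetaD D) c ((1 / 2 : ℝ) • (x + y)) * Real.exp (L ^ 2 / (4 * thetaD D))) ^ 2 := by
  set θ := thetaD D with hθ
  have hθ0 : 0 < θ := thetaD_pos hD
  have hpar : ‖x - c‖ ^ 2 + ‖y - c‖ ^ 2 =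
      2 * ‖(1 / 2 : ℝ) • (x + y) - c‖ ^ 2 + ‖x - y‖ ^ 2 / 2 := by
    have h1 : (1 / 2 : ℝ) • (x + y) - c = (1 / 2 : ℝ) • ((x - c) + (y - c)) := by
      simp only [smul_add, smul_sub]
      have : c = (1 / 2 : ℝ) • c + (1 / 2 : ℝ) • c := by
        rw [← add_smul]; norm_num
      nth_rewrite 1 [this]
      abel
    have h2 : x - y = (x - c) - (y - c) := by abel
    rw [h1, h2, norm_smul]
    have h3 := parallelogram_law_with_norm ℝ (x - c) (y - c)
    have h4 : ‖(1 / 2 : ℝ)‖ = 1 / 2 := by norm_num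
    rw [h4]
    nlinarith
  unfold gW
  rw [← Real.exp_add, ← Real.exp_add, ← Real.exp_add, ← Real.exp_nat_mul]
  apply Real.exp_le_exp.2
  push_cast
  have hkey : L * ‖x - y‖ - θ * ‖x - y‖ ^ 2 / 2 ≤ L ^ 2 / (2 * θ) := by
    have h5 : L ^ 2 / (2 * θ) - (L * ‖x - y‖ - θ * ‖x - y‖ ^ 2 / 2) =
        (L - θ * ‖x - y‖) ^ 2 / (2 * θ) := by
      field_simp; ring
    have h6 : 0 ≤ (L - θ * ‖x - y‖) ^ 2 / (2 * θ) := by positivity
    linarith
  have h7 : L ^ 2 / (4 * θ) * 2 = L ^ 2 / (2 * θ) := by field_simp; ring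
  have h8 : θ * (‖x - c‖ ^ 2 + ‖y - c‖ ^ 2) =
      2 * (θ * ‖(1 / 2 : ℝ) • (x + y) - c‖ ^ 2) + θ * ‖x - y‖ ^ 2 / 2 := by
    rw [hpar]; ring
  nlinarith

/-- Prékopa-Leindler on a pair of sets with the Gaussian weight. -/
lemma cell_PL (hKc : IsCompact K) (hKv : Convex ℝ K) (hKi : (interior K).Nonempty)
    (hD : 0 < D) (hc : ∀ x ∈ K, ‖x - c‖ ≤ D)
    {C0 C1 Ch : Set (Eu d)} (h0 : MeasurableSet C0) (h1 : MeasurableSet C1)
    (hh : MeasurableSet Ch)
    (hmid : ∀ x ∈ C0, x ∈ K → ∀ y ∈ C1, y ∈ K → (1 / 2 : ℝ) • (x + y) ∈ Ch)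
    {f : Eu d → ℝ} (hf : Continuous f) {L : ℝ}
    (hfL : ∀ x ∈ K, ∀ y ∈ K, f x - f y ≤ L * ‖x - y‖) :
    (∫ x in C0, gW (thetaD D) c x * Real.exp (f x) ∂(uniformProbOn K)) *
      (∫ x in C1, gW (thetaD D) c x * Real.exp (-f x) ∂(uniformProbOn K)) ≤
      Real.exp (L ^ 2 / (2 * thetaD D)) *
        (∫ x in Ch, gW (thetaD D) c x ∂(uniformProbOn K)) ^ 2 := by
  set θ := thetaD D with hθ
  have hθ0 : 0 < θ := thetaD_pos hD
  have hgc := gW_continuous θ c
  have hcF : Continuous fun x => gW θ c x * Real.exp (f x) := hgc.mul (Real.continuous_exp.comp hf)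
  have hcG : Continuous fun x => gW θ c x * Real.exp (-f x) :=
    hgc.mul (Real.continuous_exp.comp hf.neg)
  set κ := L ^ 2 / (4 * θ) with hκ
  have hcH : Continuous fun x => gW θ c x * Real.exp κ := hgc.mul continuous_const
  have hp := PL_uniform hKc hKv hKi
    (F := C0.indicator fun x => gW θ c x * Real.exp (f x))
    (G := C1.indicator fun x => gW θ c x * Real.exp (-f x))
    (H := Ch.indicator fun x => gW θ c x * Real.exp κ)
    (hcF.measurable.indicator h0) (hcG.measurable.indicator h1) (hcH.measurable.indicator hh)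
    (fun x => Set.indicator_nonneg (fun x _ => mul_nonneg (gW_pos _ _ _).le (Real.exp_pos _).le) x)
    (fun x => Set.indicator_nonneg (fun x _ => mul_nonneg (gW_pos _ _ _).le (Real.exp_pos _).le) x)
    (fun x => Set.indicator_nonneg (fun x _ => mul_nonneg (gW_pos _ _ _).le (Real.exp_pos _).le) x)
    ((uniform_integrable_of_continuous hKc hKi hcF).indicator h0)
    ((uniform_integrable_of_continuous hKc hKi hcG).indicator h1)
    ((uniform_integrable_of_continuous hKc hKi hcH).indicator hh)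
    (by
      intro x hx y hy
      by_cases hx0 : x ∈ C0
      · by_cases hy1 : y ∈ C1
        · rw [Set.indicator_of_mem hx0, Set.indicator_of_mem hy1,
            Set.indicator_of_mem (hmid x hx0 hx y hy1 hy)]
          have := gaussian_mid_le (c := c) hD x y (a := f x - f y) (hfL x hx y hy)
          calc gW θ c x * Real.exp (f x) * (gW θ c y * Real.exp (-f y))
              = gW θ c x * gW θ c y * Real.exp (f x - f y) := by
                rw [sub_eq_add_neg, Real.exp_add]; ring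
            _ ≤ _ := this
        · rw [Set.indicator_of_notMem hy1, mul_zero]; positivity
      · rw [Set.indicator_of_notMem hx0, zero_mul]; positivity)
  rw [integral_indicator h0, integral_indicator h1, integral_indicator hh, integral_mul_const] at hp
  refine hp.trans (le_of_eq ?_)
  have : Real.exp (L ^ 2 / (2 * θ)) = Real.exp κ ^ 2 := by
    rw [← Real.exp_nat_mul]; congr 1; rw [hκ]; push_cast; field_simp; ring
  rw [this]; ring

/-- Jensen for the exponential, in the form we need. -/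
lemma exp_jensen (hKc : IsCompact K) (hKi : (interior K).Nonempty)
    {C : Set (Eu d)} (hC : MeasurableSet C) {g f : Eu d → ℝ} (hg : Continuous g)
    (hg0 : ∀ x, 0 ≤ g x) (hf : Continuous f)
    {a : ℝ} (ha : a = ∫ x in C, g x ∂(uniformProbOn K)) (ha0 : 0 < a) :
    a * Real.exp ((∫ x in C, g x * f x ∂(uniformProbOn K)) / a) ≤
      ∫ x in C, g x * Real.exp (f x) ∂(uniformProbOn K) := by
  set fb := (∫ x in C, g x * f x ∂(uniformProbOn K)) / a with hfb
  have hi1 : Integrable g (uniformProbOn K) := uniform_integrable_of_continuous hKc hKi hg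
  have hi2 : Integrable (fun x => g x * f x) (uniformProbOn K) :=
    uniform_integrable_of_continuous hKc hKi (hg.mul hf)
  have hi3 : Integrable (fun x => g x * Real.exp (f x)) (uniformProbOn K) :=
    uniform_integrable_of_continuous hKc hKi (hg.mul (Real.continuous_exp.comp hf))
  have hi4 : Integrable (fun x => Real.exp fb * (g x + (g x * f x - fb * g x))) (uniformProbOn K) :=
    ((hi1.add (hi2.sub (hi1.const_mul fb)))).const_mul _
  have hpt : ∀ x, Real.exp fb * (g x + (g x * f x - fb * g x)) ≤ g x * Real.exp (f x) := by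
    intro x
    have h1 := Real.add_one_le_exp (f x - fb)
    have h2 : Real.exp (f x) = Real.exp fb * Real.exp (f x - fb) := by
      rw [← Real.exp_add]; congr 1; ring
    rw [h2]
    have h3 : 0 < Real.exp fb := Real.exp_pos _
    have h4 : g x + (g x * f x - fb * g x) = g x * (f x - fb + 1) := by ring
    rw [h4]
    calc Real.exp fb * (g x * (f x - fb + 1)) ≤ Real.exp fb * (g x * Real.exp (f x - fb)) := by
          apply mul_le_mul_of_nonneg_left _ h3.le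
          exact mul_le_mul_of_nonneg_left h1 (hg0 x)
      _ = _ := by ring
  have h5 := setIntegral_mono (s := C) hi4.integrableOn hi3.integrableOn hpt
  have h6 : ∫ x in C, Real.exp fb * (g x + (g x * f x - fb * g x)) ∂(uniformProbOn K) =
      Real.exp fb * (a + ((∫ x in C, g x * f x ∂(uniformProbOn K)) - fb * a)) := by
    have hi5 : IntegrableOn (fun x => g x * f x - fb * g x) C (uniformProbOn K) :=
      hi2.integrableOn.sub (hi1.const_mul fb).integrableOn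
    have hi6 : IntegrableOn (fun x => fb * g x) C (uniformProbOn K) :=
      (hi1.const_mul fb).integrableOn
    rw [integral_const_mul, integral_add hi1.integrableOn hi5,
      integral_sub hi2.integrableOn hi6, integral_const_mul, ← ha]
  rw [h6] at h5
  have h7 : fb * a = ∫ x in C, g x * f x ∂(uniformProbOn K) := by
    rw [hfb]; field_simp
  rw [h7, sub_self, add_zero] at h5
  linarith

/-- Main inequality for one cell. -/
lemma cell_main (hKc : IsCompact K) (hKv : Convex ℝ K) (hKi : (interior K).Nonempty)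
    (hD : 0 < D) (hc : ∀ x ∈ K, ‖x - c‖ ≤ D)
    {C0 C1 Ch : Set (Eu d)} (h0 : MeasurableSet C0) (h1 : MeasurableSet C1)
    (hh : MeasurableSet Ch)
    (hmid : ∀ x ∈ C0, x ∈ K → ∀ y ∈ C1, y ∈ K → (1 / 2 : ℝ) • (x + y) ∈ Ch)
    {a0 a1 V0 V1 : ℝ} {X0 X1 : Eu d}
    (ha0 : a0 = ∫ x in C0, gW (thetaD D) c x ∂(uniformProbOn K))
    (ha1 : a1 = ∫ x in C1, gW (thetaD D) c x ∂(uniformProbOn K))
    (hV0 : V0 = ∫ x in C0, (1 : ℝ) ∂(uniformProbOn K))
    (hV1 : V1 = ∫ x in C1, (1 : ℝ) ∂(uniformProbOn K))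
    (hX0 : X0 = ∫ x in C0, (x - c) ∂(uniformProbOn K))
    (hX1 : X1 = ∫ x in C1, (x - c) ∂(uniformProbOn K))
    (ha0p : 0 < a0) (ha1p : 0 < a1) :
    a0 * a1 * Real.exp ((V0 / a0 - V1 / a1) ^ 2 +
        ‖(1 / a0) • X0 - (1 / a1) • X1‖ ^ 2 / (2304 * D ^ 2)) ≤
      (∫ x in Ch, gW (thetaD D) c x ∂(uniformProbOn K)) ^ 2 := by
  set θ := thetaD D with hθ
  have hθ0 : 0 < θ := thetaD_pos hD
  set dp := V0 / a0 - V1 / a1 with hdp
  set dξ := (1 / a0) • X0 - (1 / a1) • X1 with hdξ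
  set t : ℝ := 2 * dp with ht
  set lam : Eu d := (1 / (1152 * D ^ 2)) • dξ with hlam
  set f : Eu d → ℝ := fun x => t * pW θ c x + ⟪lam, xiW θ c x⟫ with hf
  have hfc : Continuous f :=
    (continuous_const.mul (pW_continuous θ c)).add
      (continuous_const.inner (xiW_continuous θ c))
  set L : ℝ := |t| * (1 / (16 * D)) + ‖lam‖ * 3 with hL
  have hfL : ∀ x ∈ K, ∀ y ∈ K, f x - f y ≤ L * ‖x - y‖ := by
    intro x hx y hy
    have h1 := abs_pW_sub_le hD (hc x hx) (hc y hy)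
    have h2 := xiW_sub_le hD (hc x hx) (hc y hy)
    have h3 : f x - f y = t * (pW θ c x - pW θ c y) + ⟪lam, xiW θ c x - xiW θ c y⟫ := by
      simp only [hf, inner_sub_right]; ring
    rw [h3]
    have h4 : t * (pW θ c x - pW θ c y) ≤ |t| * (1 / (16 * D) * ‖x - y‖) := by
      calc t * (pW θ c x - pW θ c y) ≤ |t * (pW θ c x - pW θ c y)| := le_abs_self _
        _ = |t| * |pW θ c x - pW θ c y| := abs_mul _ _
        _ ≤ _ := mul_le_mul_of_nonneg_left h1 (abs_nonneg _)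
    have h5 : ⟪lam, xiW θ c x - xiW θ c y⟫ ≤ ‖lam‖ * (3 * ‖x - y‖) := by
      calc _ ≤ ‖lam‖ * ‖xiW θ c x - xiW θ c y‖ := real_inner_le_norm _ _
        _ ≤ _ := mul_le_mul_of_nonneg_left h2 (norm_nonneg _)
    rw [hL]
    nlinarith
  have hg0 : ∀ x, 0 ≤ gW θ c x := fun x => (gW_pos θ c x).le
  have hgc := gW_continuous θ c
  -- integral of `g * f` on a set
  have hint : ∀ C : Set (Eu d), MeasurableSet C →
      ∫ x in C, gW θ c x * f x ∂(uniformProbOn K) =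
        t * (∫ x in C, (1 : ℝ) ∂(uniformProbOn K)) +
          ⟪lam, ∫ x in C, (x - c) ∂(uniformProbOn K)⟫ := by
    intro C hC
    have h1 : ∀ x, gW θ c x * f x = t * 1 + ⟪lam, x - c⟫ := by
      intro x
      simp only [hf, mul_add]
      have h2 := gW_mul_pW θ c x
      have h3 : gW θ c x * ⟪lam, xiW θ c x⟫ = ⟪lam, gW θ c x • xiW θ c x⟫ := by
        rw [inner_smul_right]
      rw [h3, gW_smul_xiW]
      have : gW θ c x * (t * pW θ c x) = t * (gW θ c x * pW θ c x) := by ring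
      rw [this, h2]
    simp_rw [h1]
    have hi1 : IntegrableOn (fun _ : Eu d => t * (1 : ℝ)) C (uniformProbOn K) :=
      (uniform_integrable_of_continuous hKc hKi continuous_const).integrableOn
    have hi2 : Integrable (fun x : Eu d => x - c) (uniformProbOn K) :=
      uniform_integrable_of_continuous hKc hKi (by fun_prop)
    have hi3 : IntegrableOn (fun x : Eu d => ⟪lam, x - c⟫) C (uniformProbOn K) :=
      (uniform_integrable_of_continuous hKc hKi (by fun_prop)).integrableOn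
    rw [integral_add hi1 hi3, integral_const_mul, integral_inner hi2.integrableOn]
  have hint' : ∀ C : Set (Eu d), MeasurableSet C →
      ∫ x in C, gW θ c x * (-f x) ∂(uniformProbOn K) =
        -(t * (∫ x in C, (1 : ℝ) ∂(uniformProbOn K)) +
          ⟪lam, ∫ x in C, (x - c) ∂(uniformProbOn K)⟫) := by
    intro C hC
    rw [← hint C hC, ← integral_neg]
    congr 1; ext x; ring
  have hJ0 := exp_jensen hKc hKi h0 hgc hg0 hfc ha0 ha0p
  have hJ1 := exp_jensen hKc hKi h1 hgc hg0 (f := fun x => -f x) hfc.neg ha1 ha1p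
  rw [hint C0 h0, ← hV0, ← hX0] at hJ0
  rw [hint' C1 h1, ← hV1, ← hX1] at hJ1
  have hPL := cell_PL hKc hKv hKi hD hc (c := c) h0 h1 hh hmid hfc hfL
  have hprod : (a0 * Real.exp ((t * V0 + ⟪lam, X0⟫) / a0)) *
      (a1 * Real.exp (-(t * V1 + ⟪lam, X1⟫) / a1)) ≤
      Real.exp (L ^ 2 / (2 * θ)) * (∫ x in Ch, gW θ c x ∂(uniformProbOn K)) ^ 2 := by
    refine le_trans ?_ hPL
    exact mul_le_mul hJ0 hJ1 (by positivity) ((by positivity : 0 ≤ a0 * Real.exp ((t * V0 + ⟪lam, X0⟫) / a0)).trans hJ0)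
  -- exponents
  set N2 := ‖dξ‖ ^ 2 with hN2
  have hexp1 : (t * V0 + ⟪lam, X0⟫) / a0 + (-(t * V1 + ⟪lam, X1⟫) / a1) =
      2 * dp ^ 2 + N2 / (1152 * D ^ 2) := by
    have h1 : ⟪lam, dξ⟫ = N2 / (1152 * D ^ 2) := by
      rw [hlam, inner_smul_left, real_inner_self_eq_norm_sq]
      simp only [conj_trivial]
      rw [hN2]; ring
    have h2 : ⟪lam, dξ⟫ = ⟪lam, X0⟫ / a0 - ⟪lam, X1⟫ / a1 := by
      rw [hdξ, inner_sub_right, inner_smul_right, inner_smul_right]; ring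
    have h3 : t * dp = 2 * dp ^ 2 := by rw [ht]; ring
    have h4 : t * dp = t * V0 / a0 - t * V1 / a1 := by
      rw [hdp]; ring
    have h5 : (t * V0 + ⟪lam, X0⟫) / a0 + (-(t * V1 + ⟪lam, X1⟫) / a1) = t * dp + ⟪lam, dξ⟫ := by
      rw [h4, h2]; ring
    rw [h5, h3, h1]
  have hLsq : L ^ 2 / (2 * θ) ≤ dp ^ 2 + N2 / (2304 * D ^ 2) := by
    have hlamn : ‖lam‖ = ‖dξ‖ / (1152 * D ^ 2) := by
      rw [hlam, norm_smul, Real.norm_eq_abs, abs_of_pos (by positivity)]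
      ring
    have h1 : L ^ 2 ≤ 2 * (|t| * (1 / (16 * D))) ^ 2 + 2 * (‖lam‖ * 3) ^ 2 := by
      rw [hL]; nlinarith [sq_nonneg (|t| * (1 / (16 * D)) - ‖lam‖ * 3)]
    have h2 : (|t| * (1 / (16 * D))) ^ 2 = 4 * dp ^ 2 / (256 * D ^ 2) := by
      rw [mul_pow, sq_abs, ht]; field_simp; ring
    have h3 : (‖lam‖ * 3) ^ 2 = 9 * N2 / (1152 * D ^ 2) ^ 2 := by
      rw [hlamn, hN2]; field_simp; norm_num
    have h4 : 1 / (2 * θ) = 32 * D ^ 2 := by
      rw [hθ]; unfold thetaD; field_simp; ring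
    have h5 : L ^ 2 / (2 * θ) = L ^ 2 * (32 * D ^ 2) := by
      rw [← h4]; ring
    rw [h5]
    have h6 : L ^ 2 * (32 * D ^ 2) ≤
        (2 * (4 * dp ^ 2 / (256 * D ^ 2)) + 2 * (9 * N2 / (1152 * D ^ 2) ^ 2)) * (32 * D ^ 2) := by
      apply mul_le_mul_of_nonneg_right _ (by positivity)
      rw [← h2, ← h3]; exact h1
    refine h6.trans (le_of_eq ?_)
    field_simp
    ring
  -- conclude
  have hexp : Real.exp ((t * V0 + ⟪lam, X0⟫) / a0) * Real.exp (-(t * V1 + ⟪lam, X1⟫) / a1) =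
      Real.exp (2 * dp ^ 2 + N2 / (1152 * D ^ 2)) := by
    rw [← Real.exp_add, hexp1]
  have hfinal : a0 * a1 * Real.exp (2 * dp ^ 2 + N2 / (1152 * D ^ 2)) ≤
      Real.exp (dp ^ 2 + N2 / (2304 * D ^ 2)) * (∫ x in Ch, gW θ c x ∂(uniformProbOn K)) ^ 2 := by
    calc a0 * a1 * Real.exp (2 * dp ^ 2 + N2 / (1152 * D ^ 2))
        = (a0 * Real.exp ((t * V0 + ⟪lam, X0⟫) / a0)) *
            (a1 * Real.exp (-(t * V1 + ⟪lam, X1⟫) / a1)) := by
          rw [← hexp]; ring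
      _ ≤ _ := hprod
      _ ≤ _ := by
        apply mul_le_mul_of_nonneg_right _ (sq_nonneg _)
        exact Real.exp_le_exp.2 hLsq
  have hsplit : Real.exp (2 * dp ^ 2 + N2 / (1152 * D ^ 2)) =
      Real.exp (dp ^ 2 + N2 / (2304 * D ^ 2)) * Real.exp (dp ^ 2 + N2 / (2304 * D ^ 2)) := by
    rw [← Real.exp_add]; congr 1; field_simp; ring
  rw [hsplit] at hfinal
  have hpos := Real.exp_pos (dp ^ 2 + N2 / (2304 * D ^ 2))
  have : Real.exp (dp ^ 2 + N2 / (2304 * D ^ 2)) *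
      (a0 * a1 * Real.exp (dp ^ 2 + N2 / (2304 * D ^ 2))) ≤
      Real.exp (dp ^ 2 + N2 / (2304 * D ^ 2)) * (∫ x in Ch, gW θ c x ∂(uniformProbOn K)) ^ 2 := by
    calc _ = a0 * a1 * (Real.exp (dp ^ 2 + N2 / (2304 * D ^ 2)) *
        Real.exp (dp ^ 2 + N2 / (2304 * D ^ 2))) := by ring
      _ ≤ _ := hfinal
  exact le_of_mul_le_mul_left this hpos

end CellPL

section Algebra

/-- The algebra relating `a` and `V`. -/
lemma abs_a_sub_le {a0 a1 V0 V1 s : ℝ} (ha0 : 0 < a0) (ha1 : 0 < a1) (hV0 : a0 ≤ V0)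
    (hV1 : a1 ≤ V1) (hs : s = Real.sqrt (a0 * a1)) :
    |a0 - a1| ≤ |V0 - V1| + s * |V0 / a0 - V1 / a1| := by
  have hs0 : 0 ≤ s := by rw [hs]; exact Real.sqrt_nonneg _
  have hss : s ^ 2 = a0 * a1 := by rw [hs, Real.sq_sqrt (by positivity)]
  set P0 := V0 / a0 with hP0
  set P1 := V1 / a1 with hP1
  have hP0' : V0 = a0 * P0 := by rw [hP0]; field_simp
  have hP1' : V1 = a1 * P1 := by rw [hP1]; field_simp
  have hP01 : 1 ≤ P0 := by rw [hP0, le_div_iff₀ ha0]; linarith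
  have hP11 : 1 ≤ P1 := by rw [hP1, le_div_iff₀ ha1]; linarith
  rcases le_total a0 a1 with h | h
  · have h1 : a0 ≤ s := (pow_le_pow_iff_left₀ ha0.le hs0 two_ne_zero).1 (by nlinarith)
    have h2 : (a0 - a1) * P1 = (V0 - V1) - a0 * (P0 - P1) := by rw [hP0', hP1']; ring
    have h3 : |a0 - a1| ≤ |(a0 - a1) * P1| := by
      rw [abs_mul, abs_of_pos (by linarith : 0 < P1)]
      exact le_mul_of_one_le_right (abs_nonneg _) hP11
    rw [h2] at h3
    refine h3.trans ((abs_sub _ _).trans ?_)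
    rw [abs_mul, abs_of_pos ha0]
    have := mul_le_mul_of_nonneg_right h1 (abs_nonneg (P0 - P1))
    linarith
  · have h1 : a1 ≤ s := (pow_le_pow_iff_left₀ ha1.le hs0 two_ne_zero).1 (by nlinarith)
    have h2 : (a0 - a1) * P0 = (V0 - V1) - a1 * (P0 - P1) := by rw [hP0', hP1']; ring
    have h3 : |a0 - a1| ≤ |(a0 - a1) * P0| := by
      rw [abs_mul, abs_of_pos (by linarith : 0 < P0)]
      exact le_mul_of_one_le_right (abs_nonneg _) hP01
    rw [h2] at h3
    refine h3.trans ((abs_sub _ _).trans ?_)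
    rw [abs_mul, abs_of_pos ha1]
    have := mul_le_mul_of_nonneg_right h1 (abs_nonneg (P0 - P1))
    linarith

lemma alg_gap {a0 a1 V0 V1 s : ℝ} (ha0 : 0 < a0) (ha1 : 0 < a1) (hV0 : a0 ≤ V0)
    (hV1 : a1 ≤ V1) (hs : s = Real.sqrt (a0 * a1)) :
    a0 + a1 - 2 * s ≤ (V0 - V1) ^ 2 / (2 * s) + s * (V0 / a0 - V1 / a1) ^ 2 / 2 := by
  have hs0 : 0 < s := by rw [hs]; exact Real.sqrt_pos.2 (by positivity)
  have hss : s ^ 2 = a0 * a1 := by rw [hs, Real.sq_sqrt (by positivity)]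
  have h1 := abs_a_sub_le ha0 ha1 hV0 hV1 hs
  set dp := V0 / a0 - V1 / a1 with hdp
  have h2 : (a0 - a1) ^ 2 ≤ 2 * (V0 - V1) ^ 2 + 2 * s ^ 2 * dp ^ 2 := by
    have h3 : (a0 - a1) ^ 2 = |a0 - a1| ^ 2 := (sq_abs _).symm
    rw [h3]
    have h4 : |a0 - a1| ^ 2 ≤ (|V0 - V1| + s * |dp|) ^ 2 := by
      gcongr
    refine h4.trans ?_
    have h5 : (|V0 - V1| + s * |dp|) ^ 2 ≤ 2 * |V0 - V1| ^ 2 + 2 * (s * |dp|) ^ 2 := by
      nlinarith [sq_nonneg (|V0 - V1| - s * |dp|)]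
    rw [mul_pow, sq_abs, sq_abs] at h5
    linarith
  -- `(a0 + a1 - 2 s) * 4 s ≤ (a0 - a1)^2`
  have h6 : (a0 + a1 - 2 * s) * (4 * s) ≤ (a0 - a1) ^ 2 := by
    have h7 : (a0 - a1) ^ 2 = (a0 + a1 - 2 * s) * (a0 + a1 + 2 * s) := by nlinarith
    rw [h7]
    have h8 : 0 ≤ a0 + a1 - 2 * s := by nlinarith [sq_nonneg (a0 - a1), sq_nonneg (a0 + a1 - 2 * s)]
    apply mul_le_mul_of_nonneg_left _ h8
    linarith
  have h9 : (V0 - V1) ^ 2 / (2 * s) + s * dp ^ 2 / 2 =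
      (2 * (V0 - V1) ^ 2 + 2 * s ^ 2 * dp ^ 2) / (4 * s) := by
    field_simp; ring
  rw [h9, le_div_iff₀ (by positivity)]
  linarith

variable {d : ℕ}

/-- Bound for the difference of first moments of a cell. -/
lemma alg_moment {m a0 a1 V0 V1 s D : ℝ} {X0 X1 : Eu d} (hm : 0 < m) (ha0 : 0 < a0) (ha1 : 0 < a1)
    (hD : 0 ≤ D) (hs0 : 0 ≤ s) (hss : s ^ 2 = a0 * a1) (hs2 : s ≤ 2 * m)
    (hX0 : ‖(1 / a0) • X0‖ ≤ 2 * D) (hX1 : ‖(1 / a1) • X1‖ ≤ 2 * D)
    {dp : ℝ} (hgap : |a0 - a1| ≤ |V0 - V1| + s * |dp|) :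
    ‖X0 - X1‖ ^ 2 / m ≤ 12 * D ^ 2 * (V0 - V1) ^ 2 / m + 24 * D ^ 2 * (s * dp ^ 2) +
      6 * (s * ‖(1 / a0) • X0 - (1 / a1) • X1‖ ^ 2) := by
  set Ξ0 := (1 / a0) • X0 with hΞ0
  set Ξ1 := (1 / a1) • X1 with hΞ1
  set dξ := Ξ0 - Ξ1 with hdξ
  have hX0' : X0 = a0 • Ξ0 := by rw [hΞ0, smul_smul]; field_simp; simp
  have hX1' : X1 = a1 • Ξ1 := by rw [hΞ1, smul_smul]; field_simp; simp
  have hmain : ‖X0 - X1‖ ≤ 2 * D * (|V0 - V1| + s * |dp|) + s * ‖dξ‖ := by
    rcases le_total a0 a1 with h | h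
    · have h1 : a0 ≤ s := (pow_le_pow_iff_left₀ ha0.le hs0 two_ne_zero).1 (by nlinarith)
      have h2 : X0 - X1 = (a0 - a1) • Ξ1 + a0 • dξ := by
        rw [hX0', hX1', hdξ, smul_sub, sub_smul]; abel
      rw [h2]
      refine (norm_add_le _ _).trans ?_
      rw [norm_smul (a0 - a1) Ξ1, norm_smul a0 dξ, Real.norm_eq_abs, Real.norm_eq_abs,
        abs_of_pos ha0]
      have h3 : |a0 - a1| * ‖Ξ1‖ ≤ (|V0 - V1| + s * |dp|) * (2 * D) :=
        mul_le_mul hgap hX1 (norm_nonneg _) (by positivity)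
      have h4 := mul_le_mul_of_nonneg_right h1 (norm_nonneg dξ)
      linarith
    · have h1 : a1 ≤ s := (pow_le_pow_iff_left₀ ha1.le hs0 two_ne_zero).1 (by nlinarith)
      have h2 : X0 - X1 = (a0 - a1) • Ξ0 + a1 • dξ := by
        rw [hX0', hX1', hdξ, smul_sub, sub_smul]; abel
      rw [h2]
      refine (norm_add_le _ _).trans ?_
      rw [norm_smul (a0 - a1) Ξ0, norm_smul a1 dξ, Real.norm_eq_abs, Real.norm_eq_abs,
        abs_of_pos ha1]
      have h3 : |a0 - a1| * ‖Ξ0‖ ≤ (|V0 - V1| + s * |dp|) * (2 * D) :=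
        mul_le_mul hgap hX0 (norm_nonneg _) (by positivity)
      have h4 := mul_le_mul_of_nonneg_right h1 (norm_nonneg dξ)
      linarith
  have hsq : ‖X0 - X1‖ ^ 2 ≤
      12 * D ^ 2 * (V0 - V1) ^ 2 + 12 * D ^ 2 * (s ^ 2 * dp ^ 2) + 3 * (s ^ 2 * ‖dξ‖ ^ 2) := by
    have h1 : ‖X0 - X1‖ ^ 2 ≤ (2 * D * |V0 - V1| + 2 * D * (s * |dp|) + s * ‖dξ‖) ^ 2 := by
      have : 2 * D * (|V0 - V1| + s * |dp|) + s * ‖dξ‖ =
          2 * D * |V0 - V1| + 2 * D * (s * |dp|) + s * ‖dξ‖ := by ring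
      rw [← this]
      gcongr
    refine h1.trans ?_
    set α := 2 * D * |V0 - V1| with hα
    set β := 2 * D * (s * |dp|) with hβ
    set γ := s * ‖dξ‖ with hγ
    have h2 : (α + β + γ) ^ 2 ≤ 3 * (α ^ 2 + β ^ 2 + γ ^ 2) := by
      nlinarith [sq_nonneg (α - β), sq_nonneg (β - γ), sq_nonneg (α - γ)]
    have h3 : α ^ 2 = 4 * D ^ 2 * (V0 - V1) ^ 2 := by
      rw [hα, mul_pow, mul_pow, sq_abs]; ring
    have h4 : β ^ 2 = 4 * D ^ 2 * (s ^ 2 * dp ^ 2) := by
      rw [hβ, mul_pow, mul_pow, mul_pow, sq_abs]; ring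
    have h5 : γ ^ 2 = s ^ 2 * ‖dξ‖ ^ 2 := by rw [hγ, mul_pow]
    rw [h3, h4, h5] at h2
    linarith
  rw [div_le_iff₀ hm]
  have h6 : (12 * D ^ 2 * (V0 - V1) ^ 2 / m + 24 * D ^ 2 * (s * dp ^ 2) + 6 * (s * ‖dξ‖ ^ 2)) * m =
      12 * D ^ 2 * (V0 - V1) ^ 2 + 24 * D ^ 2 * (s * dp ^ 2) * m + 6 * (s * ‖dξ‖ ^ 2) * m := by
    field_simp
  rw [h6]
  have h7 : s ^ 2 ≤ s * (2 * m) := by nlinarith
  have h8 : 12 * D ^ 2 * (s ^ 2 * dp ^ 2) ≤ 24 * D ^ 2 * (s * dp ^ 2) * m := by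
    have : 0 ≤ 12 * D ^ 2 * dp ^ 2 := by positivity
    nlinarith
  have h9 : 3 * (s ^ 2 * ‖dξ‖ ^ 2) ≤ 6 * (s * ‖dξ‖ ^ 2) * m := by
    have : 0 ≤ 3 * ‖dξ‖ ^ 2 := by positivity
    nlinarith
  linarith

end Algebra

section Main

variable {ι : Type*} [Fintype ι] [Nonempty ι]

/-- Cauchy-Schwarz on a set for the uniform measure, in the form we need. -/
lemma sq_setIntegral_le (hKc : IsCompact K) (hKi : (interior K).Nonempty)
    {C : Set (Eu d)} (hC : MeasurableSet C) {f : Eu d → ℝ}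
    (hf : Measurable f) {B : ℝ} (hB : ∀ x, |f x| ≤ B) {V : ℝ}
    (hV : V = ∫ x in C, (1 : ℝ) ∂(uniformProbOn K)) (hV0 : 0 < V) :
    (∫ x in C, |f x| ∂(uniformProbOn K)) ^ 2 ≤ V * ∫ x in C, f x ^ 2 ∂(uniformProbOn K) := by
  have := uniform_isProb hKc hKi
  set I := ∫ x in C, |f x| ∂(uniformProbOn K) with hI
  set H := ∫ x in C, f x ^ 2 ∂(uniformProbOn K) with hH
  have hi1 : Integrable (fun x => |f x|) (uniformProbOn K) :=
    uniform_integrable_of_bdd hKc hKi hf.abs.aestronglyMeasurable B (fun x _ => by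
      simpa using hB x)
  have hi2 : Integrable (fun x => f x ^ 2) (uniformProbOn K) :=
    uniform_integrable_of_bdd hKc hKi (hf.pow_const 2).aestronglyMeasurable (B ^ 2) (fun x _ => by
      rw [Real.norm_eq_abs, abs_pow]
      exact pow_le_pow_left₀ (abs_nonneg _) (hB x) 2)
  set α := I / V with hα
  have h1 : 0 ≤ ∫ x in C, (|f x| - α) ^ 2 ∂(uniformProbOn K) :=
    integral_nonneg fun x => sq_nonneg _
  have h2 : ∫ x in C, (|f x| - α) ^ 2 ∂(uniformProbOn K) = H - 2 * α * I + α ^ 2 * V := by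
    have h3 : ∀ x, (|f x| - α) ^ 2 = f x ^ 2 - 2 * α * |f x| + α ^ 2 * 1 := by
      intro x
      have := sq_abs (f x)
      nlinarith
    simp_rw [h3]
    have hi3 : IntegrableOn (fun x => f x ^ 2 - 2 * α * |f x|) C (uniformProbOn K) :=
      hi2.integrableOn.sub (hi1.const_mul _).integrableOn
    have hi4 : IntegrableOn (fun _ : Eu d => α ^ 2 * (1 : ℝ)) C (uniformProbOn K) :=
      (integrable_const _).integrableOn
    rw [integral_add hi3 hi4, integral_sub hi2.integrableOn (hi1.const_mul _).integrableOn,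
      integral_const_mul, integral_const_mul, ← hV]
  rw [h2] at h1
  have h4 : α * V = I := by rw [hα]; field_simp
  have h5 : 0 ≤ H * V - I ^ 2 := by
    have h6 : (H - 2 * α * I + α ^ 2 * V) * V = H * V - I ^ 2 := by
      have : α ^ 2 * V * V = I ^ 2 := by rw [← h4]; ring
      have h7 : 2 * α * I * V = 2 * I ^ 2 := by rw [← h4]; ring
      nlinarith
    rw [← h6]
    exact mul_nonneg h1 hV0.le
  nlinarith

/-- **Dual lemma**: stability of first moments of Laguerre cells under perturbation of the density. -/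
theorem dual_lemma (hKc : IsCompact K) (hKv : Convex ℝ K) (hKi : (interior K).Nonempty)
    {c : Eu d} {D : ℝ} (hD : 0 < D) (hc : ∀ x ∈ K, ‖x - c‖ ≤ D)
    {y : ι → Eu d} (hy : Function.Injective y) {m : ι → ℝ} (hm0 : ∀ i, 0 < m i)
    {w0 w1 : ι → ℝ} {r0 r1 : Eu d → ℝ} (hr0 : Measurable r0) (hr1 : Measurable r1)
    (hr0b : ∀ x, 1 / 2 ≤ r0 x ∧ r0 x ≤ 3 / 2) (hr1b : ∀ x, 1 / 2 ≤ r1 x ∧ r1 x ≤ 3 / 2)
    (hm0' : ∀ i, ∫ x in lagCell y w0 i, r0 x ∂(uniformProbOn K) = m i)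
    (hm1' : ∀ i, ∫ x in lagCell y w1 i, r1 x ∂(uniformProbOn K) = m i) :
    ∑ i, ‖(∫ x in lagCell y w0 i, r0 x • x ∂(uniformProbOn K)) -
          ∫ x in lagCell y w1 i, r1 x • x ∂(uniformProbOn K)‖ ^ 2 / m i ≤
      250000 * D ^ 2 * (∫ x, (r0 x - 1) ^ 2 ∂(uniformProbOn K) +
        ∫ x, (r1 x - 1) ^ 2 ∂(uniformProbOn K)) := by
  classical
  have hprob := uniform_isProb hKc hKi
  set θ := thetaD D with hθ
  set ρ := uniformProbOn K with hρ
  set g : Eu d → ℝ := gW θ c with hg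
  have hgc : Continuous g := gW_continuous θ c
  have hgi : Integrable g ρ := uniform_integrable_of_continuous hKc hKi hgc
  have hone : Integrable (fun _ : Eu d => (1 : ℝ)) ρ := integrable_const _
  have hxc : Integrable (fun x : Eu d => x - c) ρ :=
    uniform_integrable_of_continuous hKc hKi (by fun_prop)
  -- cell data
  let C0 : ι → Set (Eu d) := lagCell y w0
  let C1 : ι → Set (Eu d) := lagCell y w1
  let wb : ι → ℝ := fun i => (w0 i + w1 i) / 2
  let Ch : ι → Set (Eu d) := lagCell y wb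
  have hC0 : ∀ i, MeasurableSet (C0 i) := measurableSet_lagCell y w0
  have hC1 : ∀ i, MeasurableSet (C1 i) := measurableSet_lagCell y w1
  have hCh : ∀ i, MeasurableSet (Ch i) := measurableSet_lagCell y wb
  let a0 : ι → ℝ := fun i => ∫ x in C0 i, g x ∂ρ
  let a1 : ι → ℝ := fun i => ∫ x in C1 i, g x ∂ρ
  let A : ι → ℝ := fun i => ∫ x in Ch i, g x ∂ρ
  let V0 : ι → ℝ := fun i => ∫ x in C0 i, (1 : ℝ) ∂ρ
  let V1 : ι → ℝ := fun i => ∫ x in C1 i, (1 : ℝ) ∂ρ
  let X0 : ι → Eu d := fun i => ∫ x in C0 i, (x - c) ∂ρ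
  let X1 : ι → Eu d := fun i => ∫ x in C1 i, (x - c) ∂ρ
  -- the a.e. bounds on `K`
  have hcae : ∀ᵐ x ∂ρ, ‖x - c‖ ≤ D := by
    filter_upwards [uniform_ae_mem hKc] with x hx using hc x hx
  have hgae : ∀ᵐ x ∂ρ, 1 / 2 ≤ g x := by
    filter_upwards [hcae] with x hx using half_le_gW hD hx
  have hgle : ∀ x, g x ≤ 1 := fun x => gW_le_one hD
  -- comparison of volumes and masses
  have hr0i : Integrable r0 ρ := uniform_integrable_of_bdd hKc hKi hr0.aestronglyMeasurable (3 / 2)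
    (fun x _ => by
      rw [Real.norm_eq_abs, abs_of_nonneg (by linarith [(hr0b x).1])]; exact (hr0b x).2)
  have hr1i : Integrable r1 ρ := uniform_integrable_of_bdd hKc hKi hr1.aestronglyMeasurable (3 / 2)
    (fun x _ => by
      rw [Real.norm_eq_abs, abs_of_nonneg (by linarith [(hr1b x).1])]; exact (hr1b x).2)
  have hVb : ∀ {r : Eu d → ℝ} (C : Set (Eu d)) (hC : MeasurableSet C) {mm : ℝ},
      Integrable r ρ → (∀ x, 1 / 2 ≤ r x ∧ r x ≤ 3 / 2) → ∫ x in C, r x ∂ρ = mm →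
      2 * mm / 3 ≤ ∫ x in C, (1 : ℝ) ∂ρ ∧ ∫ x in C, (1 : ℝ) ∂ρ ≤ 2 * mm := by
    intro r C hC mm hri hrb hmm
    have h1 : ∫ x in C, r x ∂ρ ≤ ∫ x in C, (3 / 2 : ℝ) * 1 ∂ρ :=
      setIntegral_mono hri.integrableOn (hone.const_mul _).integrableOn fun x => by
        simpa using (hrb x).2
    have h2 : ∫ x in C, (1 / 2 : ℝ) * 1 ∂ρ ≤ ∫ x in C, r x ∂ρ :=
      setIntegral_mono (hone.const_mul _).integrableOn hri.integrableOn fun x => by
        simpa using (hrb x).1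
    rw [integral_const_mul] at h1 h2
    rw [hmm] at h1 h2
    constructor <;> linarith
  have hV0b : ∀ i, 2 * m i / 3 ≤ V0 i ∧ V0 i ≤ 2 * m i := fun i =>
    hVb (C0 i) (hC0 i) hr0i hr0b (hm0' i)
  have hV1b : ∀ i, 2 * m i / 3 ≤ V1 i ∧ V1 i ≤ 2 * m i := fun i =>
    hVb (C1 i) (hC1 i) hr1i hr1b (hm1' i)
  have hab : ∀ C : Set (Eu d), MeasurableSet C →
      (∫ x in C, (1 : ℝ) ∂ρ) / 2 ≤ ∫ x in C, g x ∂ρ ∧ ∫ x in C, g x ∂ρ ≤ ∫ x in C, (1 : ℝ) ∂ρ := by
    intro C hC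
    constructor
    · have h1 : ∫ x in C, (1 / 2 : ℝ) * 1 ∂ρ ≤ ∫ x in C, g x ∂ρ := by
        apply setIntegral_mono_ae (hone.const_mul _).integrableOn hgi.integrableOn
        filter_upwards [hgae] with x hx
        simpa using hx
      rw [integral_const_mul] at h1
      linarith
    · exact setIntegral_mono hgi.integrableOn hone.integrableOn hgle
  have ha0b : ∀ i, V0 i / 2 ≤ a0 i ∧ a0 i ≤ V0 i := fun i => hab (C0 i) (hC0 i)
  have ha1b : ∀ i, V1 i / 2 ≤ a1 i ∧ a1 i ≤ V1 i := fun i => hab (C1 i) (hC1 i)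
  have ha0p : ∀ i, 0 < a0 i := fun i => by
    have := hm0 i; have := (hV0b i).1; have := (ha0b i).1
    have : 0 < 2 * m i / 3 := by positivity
    linarith
  have ha1p : ∀ i, 0 < a1 i := fun i => by
    have := hm0 i; have := (hV1b i).1; have := (ha1b i).1
    have : 0 < 2 * m i / 3 := by positivity
    linarith
  have hV0p : ∀ i, 0 < V0 i := fun i => by
    have := hm0 i; have := (hV0b i).1
    have : 0 < 2 * m i / 3 := by positivity
    linarith
  have hV1p : ∀ i, 0 < V1 i := fun i => by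
    have := hm0 i; have := (hV1b i).1
    have : 0 < 2 * m i / 3 := by positivity
    linarith
  -- geometric means
  let s : ι → ℝ := fun i => Real.sqrt (a0 i * a1 i)
  have hsdef : ∀ i, s i = Real.sqrt (a0 i * a1 i) := fun i => rfl
  have hsp : ∀ i, 0 < s i := fun i => Real.sqrt_pos.2 (mul_pos (ha0p i) (ha1p i))
  have hss : ∀ i, s i ^ 2 = a0 i * a1 i := fun i =>
    Real.sq_sqrt (mul_pos (ha0p i) (ha1p i)).le
  have hsU : ∀ i, s i ≤ 2 * m i := by
    intro i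
    have h1 : a0 i ≤ 2 * m i := (ha0b i).2.trans (hV0b i).2
    have h2 : a1 i ≤ 2 * m i := (ha1b i).2.trans (hV1b i).2
    have h3 : a0 i * a1 i ≤ (2 * m i) ^ 2 := by
      have := ha0p i; have := ha1p i
      nlinarith
    have h4 : 0 < m i := hm0 i
    exact (pow_le_pow_iff_left₀ (hsp i).le (by positivity) two_ne_zero).1 (by rw [hss]; exact h3)
  have hsL : ∀ i, m i / 3 ≤ s i := by
    intro i
    have h1 : m i / 3 ≤ a0 i := by have := (ha0b i).1; have := (hV0b i).1; linarith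
    have h2 : m i / 3 ≤ a1 i := by have := (ha1b i).1; have := (hV1b i).1; linarith
    have h4 : 0 < m i := hm0 i
    have h3 : (m i / 3) ^ 2 ≤ a0 i * a1 i := by
      have : 0 < m i / 3 := by positivity
      nlinarith
    exact (pow_le_pow_iff_left₀ (by positivity) (hsp i).le two_ne_zero).1 (by rw [hss]; exact h3)
  -- the exponents
  let dp : ι → ℝ := fun i => V0 i / a0 i - V1 i / a1 i
  let dξ : ι → Eu d := fun i => (1 / a0 i) • X0 i - (1 / a1 i) • X1 i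
  let Γ : ι → ℝ := fun i => dp i ^ 2 + ‖dξ i‖ ^ 2 / (2304 * D ^ 2)
  have hΓ0 : ∀ i, 0 ≤ Γ i := fun i => by
    have : 0 ≤ dp i ^ 2 := sq_nonneg _
    have : 0 ≤ ‖dξ i‖ ^ 2 / (2304 * D ^ 2) := by positivity
    simp only [Γ]; linarith
  have hAnn : ∀ i, 0 ≤ A i := fun i => integral_nonneg fun x => (gW_pos θ c x).le
  -- the Prékopa-Leindler inequality on each cell
  have hmain : ∀ i, s i * (1 + Γ i / 2) ≤ A i := by
    intro i
    have h1 : a0 i * a1 i * Real.exp (Γ i) ≤ A i ^ 2 := by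
      refine cell_main hKc hKv hKi hD hc (hC0 i) (hC1 i) (hCh i) ?_ rfl rfl rfl rfl rfl rfl
        (ha0p i) (ha1p i)
      intro x hx _ z hz _ l
      have h2 := hx l
      have h3 := hz l
      simp only [wb, inner_smul_right, inner_add_right]
      linarith
    have h2 : (s i * Real.exp (Γ i / 2)) ^ 2 ≤ A i ^ 2 := by
      rw [mul_pow, hss, ← Real.exp_nat_mul]
      have : ((2 : ℕ) : ℝ) * (Γ i / 2) = Γ i := by push_cast; ring
      rw [this]; exact h1
    have h3 : s i * Real.exp (Γ i / 2) ≤ A i :=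
      (pow_le_pow_iff_left₀ (by have := hsp i; positivity) (hAnn i) two_ne_zero).1 h2
    have h4 : 1 + Γ i / 2 ≤ Real.exp (Γ i / 2) := by
      have := Real.add_one_le_exp (Γ i / 2); linarith
    exact (mul_le_mul_of_nonneg_left h4 (hsp i).le).trans h3
  -- summation
  have hsumA : ∑ i, A i = ∫ x, g x ∂ρ := sum_setIntegral_lagCell hy wb hgi
  have hsuma0 : ∑ i, a0 i = ∫ x, g x ∂ρ := sum_setIntegral_lagCell hy w0 hgi
  have hsuma1 : ∑ i, a1 i = ∫ x, g x ∂ρ := sum_setIntegral_lagCell hy w1 hgi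
  have hgapAll : ∀ i, a0 i + a1 i - 2 * s i ≤
      (V0 i - V1 i) ^ 2 / (2 * s i) + s i * dp i ^ 2 / 2 := fun i =>
    alg_gap (ha0p i) (ha1p i) (ha0b i).2 (ha1b i).2 (hsdef i)
  -- the summed inequality
  let S : ℝ := ∑ i, (V0 i - V1 i) ^ 2 / (2 * s i)
  have hsum1 : ∑ i, s i * Γ i ≤ ∑ i, (a0 i + a1 i - 2 * s i) := by
    have h1 : ∑ i, s i * (1 + Γ i / 2) ≤ ∑ i, A i := Finset.sum_le_sum fun i _ => hmain i
    have h2 : ∑ i, s i * (1 + Γ i / 2) = ∑ i, s i + (∑ i, s i * Γ i) / 2 := by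
      rw [Finset.sum_div, ← Finset.sum_add_distrib]
      exact Finset.sum_congr rfl fun i _ => by ring
    have h3 : ∑ i, (a0 i + a1 i - 2 * s i) = ∑ i, a0 i + ∑ i, a1 i - 2 * ∑ i, s i := by
      rw [Finset.mul_sum, ← Finset.sum_add_distrib, ← Finset.sum_sub_distrib]
    rw [h2, hsumA] at h1
    rw [h3, hsuma0, hsuma1]
    linarith
  have hsum2 : ∑ i, s i * (dp i ^ 2 / 2 + ‖dξ i‖ ^ 2 / (2304 * D ^ 2)) ≤ S := by
    have h1 : ∑ i, (a0 i + a1 i - 2 * s i) ≤ S + ∑ i, s i * dp i ^ 2 / 2 := by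
      rw [← Finset.sum_add_distrib]
      exact Finset.sum_le_sum fun i _ => hgapAll i
    have h2 : ∑ i, s i * Γ i = ∑ i, s i * (dp i ^ 2 / 2 + ‖dξ i‖ ^ 2 / (2304 * D ^ 2)) +
        ∑ i, s i * dp i ^ 2 / 2 := by
      rw [← Finset.sum_add_distrib]
      exact Finset.sum_congr rfl fun i _ => by simp only [Γ]; ring
    rw [h2] at hsum1
    linarith
  have hsumdp : ∑ i, s i * dp i ^ 2 ≤ 2 * S := by
    have h1 : ∑ i, s i * dp i ^ 2 / 2 ≤ ∑ i, s i * (dp i ^ 2 / 2 + ‖dξ i‖ ^ 2 / (2304 * D ^ 2)) := by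
      apply Finset.sum_le_sum
      intro i _
      have h2 : 0 ≤ s i * (‖dξ i‖ ^ 2 / (2304 * D ^ 2)) := by have := hsp i; positivity
      nlinarith
    have h3 : ∑ i, s i * dp i ^ 2 / 2 = (∑ i, s i * dp i ^ 2) / 2 := by
      rw [Finset.sum_div]
    linarith
  have hsumdξ : ∑ i, s i * ‖dξ i‖ ^ 2 ≤ 2304 * D ^ 2 * S := by
    have h1 : ∑ i, s i * ‖dξ i‖ ^ 2 / (2304 * D ^ 2) ≤
        ∑ i, s i * (dp i ^ 2 / 2 + ‖dξ i‖ ^ 2 / (2304 * D ^ 2)) := by
      apply Finset.sum_le_sum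
      intro i _
      have h2 : 0 ≤ s i * (dp i ^ 2 / 2) := by have := hsp i; positivity
      have h3 : s i * ‖dξ i‖ ^ 2 / (2304 * D ^ 2) = s i * (‖dξ i‖ ^ 2 / (2304 * D ^ 2)) := by ring
      rw [h3]; nlinarith
    have h3 : ∑ i, s i * ‖dξ i‖ ^ 2 / (2304 * D ^ 2) =
        (∑ i, s i * ‖dξ i‖ ^ 2) / (2304 * D ^ 2) := by
      rw [Finset.sum_div]
    have h4 := h1.trans hsum2
    rw [h3, div_le_iff₀ (by positivity)] at h4
    linarith
  -- perturbation data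
  let h0' : ι → ℝ := fun i => ∫ x in C0 i, (r0 x - 1) ^ 2 ∂ρ
  let h1' : ι → ℝ := fun i => ∫ x in C1 i, (r1 x - 1) ^ 2 ∂ρ
  have hpert : ∀ {r : Eu d → ℝ} (C : Set (Eu d)) (hC : MeasurableSet C) {mm V : ℝ},
      Measurable r → (∀ x, 1 / 2 ≤ r x ∧ r x ≤ 3 / 2) → ∫ x in C, r x ∂ρ = mm →
      V = ∫ x in C, (1 : ℝ) ∂ρ → 0 < V → V ≤ 2 * mm →
      (mm - V) ^ 2 ≤ 2 * mm * ∫ x in C, (r x - 1) ^ 2 ∂ρ ∧
      ‖(∫ x in C, r x • x ∂ρ) - mm • c - ∫ x in C, (x - c) ∂ρ‖ ^ 2 ≤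
        D ^ 2 * (2 * mm * ∫ x in C, (r x - 1) ^ 2 ∂ρ) := by
    intro r C hC mm V hrm hrb hmm hV hVp hV2
    have hrbd : ∀ x, |r x - 1| ≤ 1 := fun x => by
      rw [abs_le]; constructor <;> linarith [(hrb x).1, (hrb x).2]
    have hmeas : Measurable fun x => r x - 1 := hrm.sub_const 1
    have hCS := sq_setIntegral_le hKc hKi hC hmeas hrbd hV hVp
    have hH0 : 0 ≤ ∫ x in C, (r x - 1) ^ 2 ∂ρ := integral_nonneg fun x => sq_nonneg _
    have hri : Integrable r ρ := uniform_integrable_of_bdd hKc hKi hrm.aestronglyMeasurable (3 / 2)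
      (fun x _ => by
        rw [Real.norm_eq_abs, abs_of_nonneg (by linarith [(hrb x).1])]; exact (hrb x).2)
    have hr1i' : Integrable (fun x => r x - 1) ρ := hri.sub (integrable_const _)
    have habsi : Integrable (fun x => |r x - 1|) ρ := hr1i'.abs
    have hmV : mm - V = ∫ x in C, (r x - 1) ∂ρ := by
      rw [integral_sub hri.integrableOn (integrable_const _).integrableOn, hmm, hV]
    have hI : (∫ x in C, |r x - 1| ∂ρ) ^ 2 ≤ 2 * mm * ∫ x in C, (r x - 1) ^ 2 ∂ρ := by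
      refine hCS.trans ?_
      exact mul_le_mul_of_nonneg_right hV2 hH0
    have hI0 : 0 ≤ ∫ x in C, |r x - 1| ∂ρ := integral_nonneg fun x => abs_nonneg _
    constructor
    · rw [hmV]
      refine le_trans ?_ hI
      have : |∫ x in C, (r x - 1) ∂ρ| ≤ ∫ x in C, |r x - 1| ∂ρ := abs_integral_le_integral_abs
      rw [← sq_abs]
      exact pow_le_pow_left₀ (abs_nonneg _) this 2
    · have hvec : (∫ x in C, r x • x ∂ρ) - mm • c - ∫ x in C, (x - c) ∂ρ =
          ∫ x in C, (r x - 1) • (x - c) ∂ρ := by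
        have hi1 : Integrable (fun x => (r x - 1) • (x - c)) ρ :=
          uniform_integrable_of_bdd hKc hKi
            ((hmeas.aestronglyMeasurable).smul (by fun_prop : Continuous fun x : Eu d => x - c).aestronglyMeasurable) D (fun x hx => by
              rw [norm_smul, Real.norm_eq_abs]
              have h1 := hrbd x
              have h2 := hc x hx
              have h3 : 0 ≤ ‖x - c‖ := norm_nonneg _
              nlinarith [abs_nonneg (r x - 1)])
        have hi2 : Integrable (fun x => r x • c) ρ := hri.smul_const c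
        have h1 : ∀ x, r x • x = (r x - 1) • (x - c) + (x - c) + r x • c := by
          intro x
          simp only [sub_smul, smul_sub, one_smul]
          abel
        simp_rw [h1]
        have hiA : IntegrableOn (fun x => (r x - 1) • (x - c) + (x - c)) C ρ :=
          hi1.integrableOn.add hxc.integrableOn
        rw [integral_add hiA hi2.integrableOn,
          integral_add hi1.integrableOn hxc.integrableOn, integral_smul_const, hmm]
        abel
      rw [hvec]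
      have hnorm : ‖∫ x in C, (r x - 1) • (x - c) ∂ρ‖ ≤ D * ∫ x in C, |r x - 1| ∂ρ := by
        calc ‖∫ x in C, (r x - 1) • (x - c) ∂ρ‖ ≤ ∫ x in C, ‖(r x - 1) • (x - c)‖ ∂ρ :=
              norm_integral_le_integral_norm _
          _ ≤ ∫ x in C, D * |r x - 1| ∂ρ := by
              apply integral_mono_of_nonneg (Eventually.of_forall fun x => norm_nonneg _)
                (habsi.const_mul D).integrableOn
              refine ae_restrict_of_ae ?_
              filter_upwards [hcae] with x hx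
              rw [norm_smul, Real.norm_eq_abs, mul_comm]
              exact mul_le_mul_of_nonneg_right hx (abs_nonneg _)
          _ = _ := integral_const_mul _ _
      calc _ ≤ (D * ∫ x in C, |r x - 1| ∂ρ) ^ 2 := pow_le_pow_left₀ (norm_nonneg _) hnorm 2
        _ = D ^ 2 * (∫ x in C, |r x - 1| ∂ρ) ^ 2 := by ring
        _ ≤ _ := mul_le_mul_of_nonneg_left hI (by positivity)
  have hp0 : ∀ i, (m i - V0 i) ^ 2 ≤ 2 * m i * h0' i ∧
      ‖(∫ x in C0 i, r0 x • x ∂ρ) - m i • c - X0 i‖ ^ 2 ≤ D ^ 2 * (2 * m i * h0' i) := fun i =>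
    hpert (C0 i) (hC0 i) hr0 hr0b (hm0' i) rfl (hV0p i) (hV0b i).2
  have hp1 : ∀ i, (m i - V1 i) ^ 2 ≤ 2 * m i * h1' i ∧
      ‖(∫ x in C1 i, r1 x • x ∂ρ) - m i • c - X1 i‖ ^ 2 ≤ D ^ 2 * (2 * m i * h1' i) := fun i =>
    hpert (C1 i) (hC1 i) hr1 hr1b (hm1' i) rfl (hV1p i) (hV1b i).2
  have hh0 : ∀ i, 0 ≤ h0' i := fun i => integral_nonneg fun x => sq_nonneg _
  have hh1 : ∀ i, 0 ≤ h1' i := fun i => integral_nonneg fun x => sq_nonneg _
  -- the sums of squares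
  have hi0sq : Integrable (fun x => (r0 x - 1) ^ 2) ρ :=
    uniform_integrable_of_bdd hKc hKi ((hr0.sub_const 1).pow_const 2).aestronglyMeasurable 1 (fun x _ => by
      rw [Real.norm_eq_abs, abs_pow]
      have h1 : |r0 x - 1| ≤ 1 := by
        rw [abs_le]; constructor <;> linarith [(hr0b x).1, (hr0b x).2]
      exact pow_le_one₀ (abs_nonneg _) h1)
  have hi1sq : Integrable (fun x => (r1 x - 1) ^ 2) ρ :=
    uniform_integrable_of_bdd hKc hKi ((hr1.sub_const 1).pow_const 2).aestronglyMeasurable 1 (fun x _ => by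
      rw [Real.norm_eq_abs, abs_pow]
      have h1 : |r1 x - 1| ≤ 1 := by
        rw [abs_le]; constructor <;> linarith [(hr1b x).1, (hr1b x).2]
      exact pow_le_one₀ (abs_nonneg _) h1)
  have hs0 : ∑ i, h0' i = ∫ x, (r0 x - 1) ^ 2 ∂ρ := sum_setIntegral_lagCell hy w0 hi0sq
  have hs1 : ∑ i, h1' i = ∫ x, (r1 x - 1) ^ 2 ∂ρ := sum_setIntegral_lagCell hy w1 hi1sq
  set H := ∫ x, (r0 x - 1) ^ 2 ∂ρ + ∫ x, (r1 x - 1) ^ 2 ∂ρ with hH
  -- `Q`
  let Q : ι → ℝ := fun i => (V0 i - V1 i) ^ 2 / m i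
  have hQi : ∀ i, Q i ≤ 4 * (h0' i + h1' i) := by
    intro i
    have hm := hm0 i
    simp only [Q]
    rw [div_le_iff₀ hm]
    have h1 := (hp0 i).1
    have h2 := (hp1 i).1
    have h3 : V0 i - V1 i = (m i - V1 i) - (m i - V0 i) := by ring
    rw [h3]
    nlinarith [sq_nonneg ((m i - V1 i) + (m i - V0 i))]
  have hQ : ∑ i, Q i ≤ 4 * H := by
    calc ∑ i, Q i ≤ ∑ i, 4 * (h0' i + h1' i) := Finset.sum_le_sum fun i _ => hQi i
      _ = 4 * H := by
        rw [← Finset.mul_sum, Finset.sum_add_distrib, hs0, hs1]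
  have hSQ : S ≤ 3 / 2 * ∑ i, Q i := by
    rw [Finset.mul_sum]
    apply Finset.sum_le_sum
    intro i _
    simp only [Q]
    have h1 := hsL i
    have h2 := hm0 i
    have h3 := hsp i
    rw [div_le_iff₀ (by positivity)]
    have h4 : 3 / 2 * ((V0 i - V1 i) ^ 2 / m i) * (2 * s i) =
        (V0 i - V1 i) ^ 2 * (3 * s i / m i) := by field_simp
    rw [h4]
    have h5 : 1 ≤ 3 * s i / m i := by
      rw [le_div_iff₀ h2]; linarith
    exact le_mul_of_one_le_right (sq_nonneg _) h5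
  -- moments
  have hΞ0 : ∀ i, ‖(1 / a0 i) • X0 i‖ ≤ 2 * D := by
    intro i
    have hXn : ‖X0 i‖ ≤ D * V0 i := by
      calc ‖X0 i‖ ≤ ∫ x in C0 i, ‖x - c‖ ∂ρ := norm_integral_le_integral_norm _
        _ ≤ ∫ x in C0 i, D * 1 ∂ρ := by
            apply integral_mono_of_nonneg (Eventually.of_forall fun x => norm_nonneg _)
              (hone.const_mul D).integrableOn
            refine ae_restrict_of_ae ?_
            filter_upwards [hcae] with x hx
            simpa using hx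
        _ = D * V0 i := integral_const_mul _ _
    rw [norm_smul, Real.norm_eq_abs, abs_of_pos (by have := ha0p i; positivity), one_div,
      inv_mul_le_iff₀ (ha0p i)]
    have h1 := (ha0b i).1
    nlinarith
  have hΞ1 : ∀ i, ‖(1 / a1 i) • X1 i‖ ≤ 2 * D := by
    intro i
    have hXn : ‖X1 i‖ ≤ D * V1 i := by
      calc ‖X1 i‖ ≤ ∫ x in C1 i, ‖x - c‖ ∂ρ := norm_integral_le_integral_norm _
        _ ≤ ∫ x in C1 i, D * 1 ∂ρ := by
            apply integral_mono_of_nonneg (Eventually.of_forall fun x => norm_nonneg _)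
              (hone.const_mul D).integrableOn
            refine ae_restrict_of_ae ?_
            filter_upwards [hcae] with x hx
            simpa using hx
        _ = D * V1 i := integral_const_mul _ _
    rw [norm_smul, Real.norm_eq_abs, abs_of_pos (by have := ha1p i; positivity), one_div,
      inv_mul_le_iff₀ (ha1p i)]
    have h1 := (ha1b i).1
    nlinarith
  have hT : ∀ i, ‖X0 i - X1 i‖ ^ 2 / m i ≤ 12 * D ^ 2 * Q i + 24 * D ^ 2 * (s i * dp i ^ 2) +
      6 * (s i * ‖dξ i‖ ^ 2) := by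
    intro i
    have := alg_moment (hm0 i) (ha0p i) (ha1p i) hD.le (hsp i).le (hss i) (hsU i)
      (hΞ0 i) (hΞ1 i) (abs_a_sub_le (ha0p i) (ha1p i) (ha0b i).2 (ha1b i).2 (hsdef i))
    have h2 : 12 * D ^ 2 * (V0 i - V1 i) ^ 2 / m i = 12 * D ^ 2 * Q i := by
      simp only [Q]; ring
    rw [h2] at this
    exact this
  have hTsum : ∑ i, ‖X0 i - X1 i‖ ^ 2 / m i ≤ 20820 * D ^ 2 * ∑ i, Q i := by
    have h1 : ∑ i, ‖X0 i - X1 i‖ ^ 2 / m i ≤
        12 * D ^ 2 * ∑ i, Q i + 24 * D ^ 2 * ∑ i, s i * dp i ^ 2 +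
          6 * ∑ i, s i * ‖dξ i‖ ^ 2 := by
      rw [Finset.mul_sum, Finset.mul_sum, Finset.mul_sum, ← Finset.sum_add_distrib,
        ← Finset.sum_add_distrib]
      exact Finset.sum_le_sum fun i _ => hT i
    have hD2 : 0 ≤ D ^ 2 := by positivity
    have h2 : 24 * D ^ 2 * ∑ i, s i * dp i ^ 2 ≤ 24 * D ^ 2 * (2 * S) :=
      mul_le_mul_of_nonneg_left hsumdp (by positivity)
    have h3 : D ^ 2 * S ≤ D ^ 2 * (3 / 2 * ∑ i, Q i) := mul_le_mul_of_nonneg_left hSQ hD2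
    nlinarith
  -- conclusion
  have hfin : ∀ i, ‖(∫ x in C0 i, r0 x • x ∂ρ) - ∫ x in C1 i, r1 x • x ∂ρ‖ ^ 2 / m i ≤
      3 * (‖X0 i - X1 i‖ ^ 2 / m i) + 6 * D ^ 2 * (h0' i + h1' i) := by
    intro i
    have hm := hm0 i
    rw [div_le_iff₀ hm]
    have h1 := (hp0 i).2
    have h2 := (hp1 i).2
    set M0 := ∫ x in C0 i, r0 x • x ∂ρ with hM0
    set M1 := ∫ x in C1 i, r1 x • x ∂ρ with hM1
    set Z0 := M0 - m i • c - X0 i with hZ0
    set Z1 := M1 - m i • c - X1 i with hZ1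
    have h3 : M0 - M1 = (X0 i - X1 i) + Z0 - Z1 := by
      rw [hZ0, hZ1]; abel
    have h4 : ‖M0 - M1‖ ≤ ‖X0 i - X1 i‖ + ‖Z0‖ + ‖Z1‖ := by
      rw [h3]
      exact (norm_sub_le _ _).trans (by gcongr; exact norm_add_le _ _)
    have h5 : ‖M0 - M1‖ ^ 2 ≤ 3 * (‖X0 i - X1 i‖ ^ 2 + ‖Z0‖ ^ 2 + ‖Z1‖ ^ 2) := by
      calc ‖M0 - M1‖ ^ 2 ≤ (‖X0 i - X1 i‖ + ‖Z0‖ + ‖Z1‖) ^ 2 :=
            pow_le_pow_left₀ (norm_nonneg _) h4 2
        _ ≤ _ := by
          nlinarith [sq_nonneg (‖X0 i - X1 i‖ - ‖Z0‖), sq_nonneg (‖Z0‖ - ‖Z1‖),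
            sq_nonneg (‖X0 i - X1 i‖ - ‖Z1‖)]
    have h6 : (3 * (‖X0 i - X1 i‖ ^ 2 / m i) + 6 * D ^ 2 * (h0' i + h1' i)) * m i =
        3 * ‖X0 i - X1 i‖ ^ 2 + 6 * D ^ 2 * (h0' i + h1' i) * m i := by
      field_simp
    rw [h6]
    nlinarith
  calc ∑ i, ‖(∫ x in C0 i, r0 x • x ∂ρ) - ∫ x in C1 i, r1 x • x ∂ρ‖ ^ 2 / m i
      ≤ ∑ i, (3 * (‖X0 i - X1 i‖ ^ 2 / m i) + 6 * D ^ 2 * (h0' i + h1' i)) :=
        Finset.sum_le_sum fun i _ => hfin i
    _ = 3 * ∑ i, ‖X0 i - X1 i‖ ^ 2 / m i + 6 * D ^ 2 * H := by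
        rw [Finset.sum_add_distrib, ← Finset.mul_sum, ← Finset.mul_sum, Finset.sum_add_distrib,
          hs0, hs1]
    _ ≤ 250000 * D ^ 2 * H := by
        have hD2 : 0 ≤ D ^ 2 := by positivity
        have hH0 : 0 ≤ H := by
          rw [hH]
          exact add_nonneg (integral_nonneg fun x => sq_nonneg _)
            (integral_nonneg fun x => sq_nonneg _)
        have h1 : D ^ 2 * ∑ i, Q i ≤ D ^ 2 * (4 * H) := mul_le_mul_of_nonneg_left hQ hD2
        have h2 : 0 ≤ D ^ 2 * H := mul_nonneg hD2 hH0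
        nlinarith

end Main

end Crest.Agent.Lib.OTStab
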