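/-
Lemma U of the proof of S0109: quantitative uniqueness of the potential.
If `T ∈ ∂φ` a.e. and `f` is nearly dual-optimal for `T`, then `f - φ` is nearly constant in `L¹(ρ)`.
-/
import Crest.Agent.Lib.OTStabBase

set_option autoImplicit false
set_option linter.unusedSectionVars false
set_option linter.unusedSimpArgs false
set_option linter.deprecated false
set_option linter.unusedVariables false

open MeasureTheory Crest.AnalysisR.OT Filter Topology Module
open scoped ENNReal NNReal RealInnerProductSpace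

namespace Crest.Agent.Lib.OTStab

variable {d : ℕ} {K : Set (Eu d)}

/-- Change of variables under a homothety plus a translation. -/
lemma lintegral_homothety {G : Eu d → ℝ≥0∞} (hG : Measurable G) {a : ℝ} (ha : a ≠ 0) (b : Eu d) :
    ∫⁻ x, G (a • x + b) = ENNReal.ofReal (abs (a ^ d)⁻¹) * ∫⁻ y, G y := by
  have hG' : Measurable fun y => G (y + b) := hG.comp (measurable_add_const b)
  have h1 : ∫⁻ x, G (a • x + b) = ∫⁻ y, G (y + b) ∂(Measure.map (a • ·) volume) := by
    rw [lintegral_map hG' (measurable_const_smul a)]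
  rw [h1, Measure.map_addHaar_smul volume ha, lintegral_smul_measure, smul_eq_mul,
    lintegral_add_right_eq_self (μ := volume) G b]
  simp [finrank_euclideanSpace]

/-- Integral against the uniform measure. -/
lemma lintegral_uniform (G : Eu d → ℝ≥0∞) :
    ∫⁻ x, G x ∂(uniformProbOn K) = (volume K)⁻¹ * ∫⁻ x in K, G x := by
  simp [uniformProbOn, lintegral_smul_measure]

/-- Average of `G` over a homothetic image of `K` inside `K`. -/
lemma lintegral_uniform_homothety_le (hKc : IsCompact K) (hKv : Convex ℝ K)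
    {G : Eu d → ℝ≥0∞} (hG : Measurable G) {l : ℝ} (h0 : 0 ≤ l) (h1 : l ≤ 1 / 2)
    {x' : Eu d} (hx' : x' ∈ K) :
    ∫⁻ x, G ((1 - l) • x + l • x') ∂(uniformProbOn K) ≤ 2 ^ d * ∫⁻ x, G x ∂(uniformProbOn K) := by
  have hKm : MeasurableSet K := hKc.measurableSet
  have ha : (1 - l) ≠ 0 := by
    have : 0 < 1 - l := by linarith
    exact this.ne'
  have hGK : Measurable (K.indicator G) := hG.indicator hKm
  rw [lintegral_uniform, lintegral_uniform]
  have h2 : ∫⁻ x in K, G ((1 - l) • x + l • x') ≤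
      ENNReal.ofReal (abs ((1 - l) ^ d)⁻¹) * ∫⁻ y in K, G y := by
    calc ∫⁻ x in K, G ((1 - l) • x + l • x')
        = ∫⁻ x in K, K.indicator G ((1 - l) • x + l • x') := by
          apply setLIntegral_congr_fun hKm
          intro x hx
          have : (1 - l) • x + l • x' ∈ K :=
            hKv hx hx' (by linarith) h0 (by ring)
          simp [Set.indicator_of_mem this]
      _ ≤ ∫⁻ x, K.indicator G ((1 - l) • x + l • x') := setLIntegral_le_lintegral _ _
      _ = _ := by
        rw [lintegral_homothety hGK ha, lintegral_indicator hKm]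
  have h3 : ENNReal.ofReal (abs ((1 - l) ^ d)⁻¹) ≤ 2 ^ d := by
    have h4 : 0 < 1 - l := by linarith
    have h5 : abs ((1 - l) ^ d)⁻¹ ≤ (2 : ℝ) ^ d := by
      rw [abs_of_pos (by positivity), ← inv_pow]
      apply pow_le_pow_left₀ (by positivity)
      rw [inv_le_comm₀ h4 (by norm_num)]
      linarith
    calc ENNReal.ofReal (abs ((1 - l) ^ d)⁻¹) ≤ ENNReal.ofReal ((2 : ℝ) ^ d) :=
          ENNReal.ofReal_le_ofReal h5
      _ = 2 ^ d := by
        rw [ENNReal.ofReal_pow (by norm_num)]
        simp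
  calc (volume K)⁻¹ * ∫⁻ x in K, G ((1 - l) • x + l • x')
      ≤ (volume K)⁻¹ * (2 ^ d * ∫⁻ y in K, G y) := by
        gcongr
        exact h2.trans (by gcongr)
    _ = _ := by ring

/-- Double average of `G` along the segment. -/
lemma lintegral_lintegral_segment_le (hKc : IsCompact K) (hKv : Convex ℝ K)
    (hKi : (interior K).Nonempty) {G : Eu d → ℝ≥0∞} (hG : Measurable G) {l : ℝ} (h0 : 0 ≤ l)
    (h1 : l ≤ 1) :
    ∫⁻ x', ∫⁻ x, G ((1 - l) • x + l • x') ∂(uniformProbOn K) ∂(uniformProbOn K) ≤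
      2 ^ d * ∫⁻ x, G x ∂(uniformProbOn K) := by
  have hprob := uniform_isProb hKc hKi
  set I := ∫⁻ x, G x ∂(uniformProbOn K)
  rcases le_total l (1 / 2) with hl | hl
  · calc ∫⁻ x', ∫⁻ x, G ((1 - l) • x + l • x') ∂(uniformProbOn K) ∂(uniformProbOn K)
        ≤ ∫⁻ _, 2 ^ d * I ∂(uniformProbOn K) := by
          apply lintegral_mono_ae
          filter_upwards [uniform_ae_mem hKc] with x' hx'
          exact lintegral_uniform_homothety_le hKc hKv hG h0 hl hx'
      _ = _ := by simp
  · have hmeas : Measurable (Function.uncurry fun x' x : Eu d => G ((1 - l) • x + l • x')) := by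
      apply hG.comp
      apply Continuous.measurable
      fun_prop
    rw [lintegral_lintegral_swap hmeas.aemeasurable]
    calc ∫⁻ x, ∫⁻ x', G ((1 - l) • x + l • x') ∂(uniformProbOn K) ∂(uniformProbOn K)
        ≤ ∫⁻ _, 2 ^ d * I ∂(uniformProbOn K) := by
          apply lintegral_mono_ae
          filter_upwards [uniform_ae_mem hKc] with x hx
          have := lintegral_uniform_homothety_le hKc hKv hG (l := 1 - l) (by linarith)
            (by linarith) hx
          simp only [sub_sub_cancel] at this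
          calc ∫⁻ x', G ((1 - l) • x + l • x') ∂(uniformProbOn K)
              = ∫⁻ x', G (l • x' + (1 - l) • x) ∂(uniformProbOn K) := by
                simp_rw [add_comm]
            _ ≤ _ := this
      _ = _ := by simp

/-- The defect function. -/
noncomputable def defectF (K : Set (Eu d)) (f : Eu d → ℝ) (T : Eu d → Eu d) (x : Eu d) : ℝ :=
  f x + conj K f (T x) - ⟪x, T x⟫

lemma defectF_nonneg (hKc : IsCompact K) {f : Eu d → ℝ} (hf : Continuous f) (T : Eu d → Eu d)
    {x : Eu d} (hx : x ∈ K) : 0 ≤ defectF K f T x := by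
  have := inner_le_add_conj hKc hf hx (T x)
  unfold defectF
  linarith

/-- One step. -/
lemma step_le (hKc : IsCompact K) {f φ : Eu d → ℝ} (hf : Continuous f) {T : Eu d → Eu d}
    {a b : Eu d} (hbK : b ∈ K)
    (ha : ∀ z, φ a + ⟪T a, z - a⟫ ≤ φ z) (hb : ∀ z, φ b + ⟪T b, z - b⟫ ≤ φ z) :
    (f a - φ a) - (f b - φ b) ≤ defectF K f T a + ⟪T b - T a, b - a⟫ := by
  have h1 := inner_le_add_conj hKc hf hbK (T a)
  have h2 := ha b
  have h3 := hb a
  unfold defectF
  simp only [inner_sub_left, inner_sub_right] at *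
  have h4 : ⟪b, T a⟫ = ⟪T a, b⟫ := real_inner_comm _ _
  have h5 : ⟪a, T a⟫ = ⟪T a, a⟫ := real_inner_comm _ _
  linarith

section Main

variable {R : ℝ≥0} {T : Eu d → Eu d} {φ f : Eu d → ℝ}

/-- Integrability of the defect. -/
lemma integrable_defectF (hKc : IsCompact K) (hKi : (interior K).Nonempty)
    (hT : Measurable T) (hTb : ∀ᵐ x ∂(uniformProbOn K), ‖T x‖ ≤ R) (hf : Continuous f) :
    Integrable (defectF K f T) (uniformProbOn K) := by
  have hKn : K.Nonempty := hKi.mono interior_subset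
  obtain ⟨A, hA⟩ := hKc.isBounded.exists_norm_le
  have hprob := uniform_isProb hKc hKi
  have hA' : ∀ x ∈ K, ‖x‖ ≤ (A.toNNReal : ℝ≥0) := fun x hx =>
    (hA x hx).trans (Real.le_coe_toNNReal A)
  have hconj := (conj_lipschitz hKn hKc hf A.toNNReal hA').continuous
  have hmeas : Measurable (defectF K f T) := by
    unfold defectF
    have h1 : Measurable fun x => conj K f (T x) := hconj.measurable.comp hT
    have h2 : Measurable fun x => ⟪x, T x⟫ := Measurable.inner measurable_id hT
    exact (hf.measurable.add h1).sub h2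
  obtain ⟨B1, hB1⟩ := hKc.exists_bound_of_continuousOn hf.continuousOn
  obtain ⟨B2, hB2⟩ := (isCompact_closedBall (0 : Eu d) R).exists_bound_of_continuousOn
    hconj.continuousOn
  refine Integrable.of_bound hmeas.aestronglyMeasurable (B1 + B2 + A * R) ?_
  filter_upwards [uniform_ae_mem hKc, hTb] with x hx hTx
  unfold defectF
  have h3 := hB1 x hx
  have h4 := hB2 (T x) (by simpa using hTx)
  have h5 : |⟪x, T x⟫| ≤ A * R := by
    calc |⟪x, T x⟫| ≤ ‖x‖ * ‖T x‖ := abs_real_inner_le_norm _ _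
      _ ≤ A * R := mul_le_mul (hA x hx) hTx (norm_nonneg _) ((norm_nonneg x).trans (hA x hx))
  rw [Real.norm_eq_abs] at h3 h4 ⊢
  calc |f x + conj K f (T x) - ⟪x, T x⟫| ≤ |f x| + |conj K f (T x)| + |⟪x, T x⟫| := by
        refine (abs_sub _ _).trans ?_
        gcongr
        exact abs_add_le _ _
    _ ≤ _ := by linarith

/-- Telescoping along a segment through good points. -/
lemma telescope_le (hKc : IsCompact K) (hKv : Convex ℝ K) (hf : Continuous f) {N : ℕ} (hN : 0 < N)
    {D₀ : ℝ} (hD₀ : ∀ x ∈ K, ∀ x' ∈ K, ‖x' - x‖ ≤ D₀)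
    {x x' : Eu d} (hx : x ∈ K) (hx' : x' ∈ K)
    (hgood : ∀ k ∈ Finset.range (N + 1),
      ‖T ((1 - (k : ℝ) / N) • x + ((k : ℝ) / N) • x')‖ ≤ R ∧
      ∀ z, φ ((1 - (k : ℝ) / N) • x + ((k : ℝ) / N) • x') +
        ⟪T ((1 - (k : ℝ) / N) • x + ((k : ℝ) / N) • x'),
          z - ((1 - (k : ℝ) / N) • x + ((k : ℝ) / N) • x')⟫ ≤ φ z) :
    (f x - φ x) - (f x' - φ x') ≤
      ∑ k ∈ Finset.range N, defectF K f T ((1 - (k : ℝ) / N) • x + ((k : ℝ) / N) • x') +
        2 * R * D₀ / N := by
  have hNr : (0 : ℝ) < N := by exact_mod_cast hN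
  set P : ℕ → Eu d := fun k => (1 - (k : ℝ) / N) • x + ((k : ℝ) / N) • x' with hP
  have hP0 : P 0 = x := by simp [hP]
  have hPN : P N = x' := by
    simp only [hP]
    rw [div_self hNr.ne']
    simp
  have hPK : ∀ k ∈ Finset.range (N + 1), P k ∈ K := by
    intro k hk
    have hk' : (k : ℝ) ≤ N := by
      have := Finset.mem_range.1 hk
      exact_mod_cast Nat.lt_succ_iff.1 this
    have h0 : 0 ≤ (k : ℝ) / N := by positivity
    have h1 : (k : ℝ) / N ≤ 1 := (div_le_one hNr).2 hk'
    exact hKv hx hx' (by linarith) h0 (by ring)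
  set v : Eu d := (1 / (N : ℝ)) • (x' - x) with hv
  have hstepdiff : ∀ k, P (k + 1) - P k = v := by
    intro k
    simp only [hP, hv, smul_sub, sub_smul, one_smul]
    push_cast
    have h1 : ((k : ℝ) + 1) / N = (k : ℝ) / N + 1 / N := by ring
    rw [h1, add_smul, add_smul]
    abel
  have hsteps : ∀ k ∈ Finset.range N,
      (f (P k) - φ (P k)) - (f (P (k + 1)) - φ (P (k + 1))) ≤
        defectF K f T (P k) + (⟪T (P (k + 1)), v⟫ - ⟪T (P k), v⟫) := by
    intro k hk
    have hk1 : k ∈ Finset.range (N + 1) :=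
      Finset.mem_range.2 (Nat.lt_succ_of_lt (Finset.mem_range.1 hk))
    have hk2 : k + 1 ∈ Finset.range (N + 1) :=
      Finset.mem_range.2 (Nat.succ_lt_succ (Finset.mem_range.1 hk))
    have h1 := step_le hKc hf (T := T) (φ := φ) (a := P k) (b := P (k + 1)) (hPK _ hk2)
      (hgood k hk1).2 (hgood (k + 1) hk2).2
    rw [hstepdiff, inner_sub_left] at h1
    exact h1
  have hsum := Finset.sum_le_sum hsteps
  have htel1 : ∑ k ∈ Finset.range N, ((f (P k) - φ (P k)) - (f (P (k + 1)) - φ (P (k + 1)))) =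
      (f x - φ x) - (f x' - φ x') := by
    rw [Finset.sum_range_sub', hP0, hPN]
  have htel2 : ∑ k ∈ Finset.range N, (⟪T (P (k + 1)), v⟫ - ⟪T (P k), v⟫) =
      ⟪T x', v⟫ - ⟪T x, v⟫ := by
    rw [Finset.sum_range_sub (fun k => ⟪T (P k), v⟫), hP0, hPN]
  rw [htel1, Finset.sum_add_distrib, htel2] at hsum
  have hb0 : ‖T x‖ ≤ R := by
    have := (hgood 0 (Finset.mem_range.2 (Nat.succ_pos _))).1
    simpa using this
  have hbN : ‖T x'‖ ≤ R := by
    have := (hgood N (Finset.mem_range.2 (Nat.lt_succ_self _))).1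
    change ‖T (P N)‖ ≤ _ at this
    rwa [hPN] at this
  have hvn : ‖v‖ ≤ D₀ / N := by
    rw [hv, norm_smul, Real.norm_eq_abs, abs_of_pos (by positivity)]
    have := hD₀ x hx x' hx'
    rw [one_div, inv_mul_eq_div]
    gcongr
  have hvn0 : 0 ≤ D₀ / N := (norm_nonneg v).trans hvn
  have hi1 : ⟪T x', v⟫ ≤ R * (D₀ / N) :=
    (real_inner_le_norm _ _).trans (mul_le_mul hbN hvn (norm_nonneg _) (NNReal.coe_nonneg _))
  have hi2 : -⟪T x, v⟫ ≤ R * (D₀ / N) := by
    have : |⟪T x, v⟫| ≤ ‖T x‖ * ‖v‖ := abs_real_inner_le_norm _ _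
    have h3 := (abs_le.1 this).1
    have h4 : ‖T x‖ * ‖v‖ ≤ R * (D₀ / N) :=
      mul_le_mul hb0 hvn (norm_nonneg _) (NNReal.coe_nonneg _)
    linarith
  have h6 : 2 * (R : ℝ) * D₀ / N = R * (D₀ / N) + R * (D₀ / N) := by ring
  rw [h6]
  linarith

/-- **Lemma U**. -/
theorem lemmaU (hKc : IsCompact K) (hKv : Convex ℝ K) (hKi : (interior K).Nonempty)
    (hT : Measurable T) (hφ : IsPot K R T φ) (hf : Continuous f)
    {D₀ : ℝ} (hD₀ : ∀ x ∈ K, ∀ x' ∈ K, ‖x' - x‖ ≤ D₀)
    {ε : ℝ} (hε : ∫ x, defectF K f T x ∂(uniformProbOn K) ≤ ε) {N : ℕ} (hN : 0 < N)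
    {h : Eu d → ℝ} (hh : Measurable h) {M : ℝ} (hM : ∀ x, |h x| ≤ M)
    (hmean : ∫ x, h x ∂(uniformProbOn K) = 0) :
    |∫ x, (f x - φ x) * h x ∂(uniformProbOn K)| ≤
      M * (2 * (((N : ℝ) + 1) * 2 ^ d * ε + 2 * R * D₀ / N)) := by
  classical
  have hprob := uniform_isProb hKc hKi
  have hNr : (0 : ℝ) < N := by exact_mod_cast hN
  have hM0 : 0 ≤ M := (abs_nonneg _).trans (hM 0)
  set ρ := uniformProbOn K with hρ
  have hKn : K.Nonempty := hKi.mono interior_subset
  obtain ⟨x₀, hx₀⟩ := hKn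
  have hD₀0 : 0 ≤ D₀ := by
    have := hD₀ x₀ hx₀ x₀ hx₀
    simpa using this
  set g : Eu d → ℝ := fun x => f x - φ x with hg
  have hgc : Continuous g := hf.sub hφ.lip.continuous
  -- good points
  set Good : Set (Eu d) := {x | x ∈ K ∧ ‖T x‖ ≤ R ∧ ∀ z, φ x + ⟪T x, z - x⟫ ≤ φ z} with hGood
  have hGoodae : ρ Goodᶜ = 0 := by
    have h1 : ∀ᵐ x ∂ρ, x ∈ Good := by
      filter_upwards [uniform_ae_mem hKc, hφ.ae] with x hx hx2
      exact ⟨hx, hx2⟩
    exact h1
  set Bad := toMeasurable ρ Goodᶜ with hBad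
  have hBadm : MeasurableSet Bad := measurableSet_toMeasurable _ _
  have hBad0 : ρ Bad = 0 := by rw [hBad, measure_toMeasurable, hGoodae]
  have hBadsub : ∀ x, x ∉ Bad → x ∈ Good := by
    intro x hx
    by_contra h'
    exact hx (subset_toMeasurable ρ _ h')
  -- the majorant
  have hdefm : Measurable (defectF K f T) := by
    obtain ⟨A, hA⟩ := hKc.isBounded.exists_norm_le
    have hA' : ∀ x ∈ K, ‖x‖ ≤ (A.toNNReal : ℝ≥0) := fun x hx =>
      (hA x hx).trans (Real.le_coe_toNNReal A)
    have hconj := (conj_lipschitz ⟨x₀, hx₀⟩ hKc hf A.toNNReal hA').continuous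
    unfold defectF
    have h1 : Measurable fun x => conj K f (T x) := hconj.measurable.comp hT
    have h2 : Measurable fun x => ⟪x, T x⟫ := Measurable.inner measurable_id hT
    exact (hf.measurable.add h1).sub h2
  set Ft : Eu d → ℝ≥0∞ := Bad.piecewise (fun _ => ∞) (fun x => ENNReal.ofReal (defectF K f T x))
    with hFt
  have hFtm : Measurable Ft :=
    Measurable.piecewise hBadm measurable_const hdefm.ennreal_ofReal
  have hTb : ∀ᵐ x ∂ρ, ‖T x‖ ≤ R := by
    filter_upwards [hφ.ae] with x hx using hx.1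
  have hdefi := integrable_defectF hKc hKi hT hTb hf
  have hdefnn : 0 ≤ᵐ[ρ] defectF K f T := by
    filter_upwards [uniform_ae_mem hKc] with x hx using defectF_nonneg hKc hf T hx
  have hFtint : ∫⁻ x, Ft x ∂ρ ≤ ENNReal.ofReal ε := by
    have h1 : Ft =ᵐ[ρ] fun x => ENNReal.ofReal (defectF K f T x) := by
      have : ∀ᵐ x ∂ρ, x ∉ Bad := by
        rw [ae_iff]; simpa using hBad0
      filter_upwards [this] with x hx
      simp [hFt, Set.piecewise, hx]
    rw [lintegral_congr_ae h1, ← ofReal_integral_eq_lintegral_ofReal hdefi hdefnn]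
    exact ENNReal.ofReal_le_ofReal hε
  -- pointwise inequality
  set cst : ℝ≥0∞ := ENNReal.ofReal (2 * R * D₀ / N) with hcst
  have hpt : ∀ x ∈ K, ∀ x' ∈ K, ENNReal.ofReal (g x - g x') ≤
      ∑ k ∈ Finset.range (N + 1), Ft ((1 - (k : ℝ) / N) • x + ((k : ℝ) / N) • x') + cst := by
    intro x hx x' hx'
    by_cases hall : ∀ k ∈ Finset.range (N + 1), (1 - (k : ℝ) / N) • x + ((k : ℝ) / N) • x' ∉ Bad
    · have hgood : ∀ k ∈ Finset.range (N + 1),
          (1 - (k : ℝ) / N) • x + ((k : ℝ) / N) • x' ∈ Good := fun k hk => hBadsub _ (hall k hk)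
      have hmain := telescope_le (f := f) (φ := φ) (T := T) (R := R) hKc hKv hf hN hD₀ hx hx'
        (fun k hk => (hgood k hk).2)
      have hnn : ∀ k ∈ Finset.range N,
          0 ≤ defectF K f T ((1 - (k : ℝ) / N) • x + ((k : ℝ) / N) • x') := by
        intro k hk
        apply defectF_nonneg hKc hf
        exact (hgood k (Finset.mem_range.2 (Nat.lt_succ_of_lt (Finset.mem_range.1 hk)))).1
      have hcnn : 0 ≤ 2 * (R : ℝ) * D₀ / N := by positivity
      calc ENNReal.ofReal (g x - g x')
          ≤ ENNReal.ofReal (∑ k ∈ Finset.range N,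
              defectF K f T ((1 - (k : ℝ) / N) • x + ((k : ℝ) / N) • x') + 2 * R * D₀ / N) :=
            ENNReal.ofReal_le_ofReal hmain
        _ = ENNReal.ofReal (∑ k ∈ Finset.range N,
              defectF K f T ((1 - (k : ℝ) / N) • x + ((k : ℝ) / N) • x')) + cst := by
            rw [ENNReal.ofReal_add (Finset.sum_nonneg hnn) hcnn]
        _ = ∑ k ∈ Finset.range N,
              ENNReal.ofReal (defectF K f T ((1 - (k : ℝ) / N) • x + ((k : ℝ) / N) • x')) + cst := by
            rw [ENNReal.ofReal_sum_of_nonneg hnn]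
        _ ≤ _ := by
            gcongr ?_ + cst
            calc ∑ k ∈ Finset.range N,
                  ENNReal.ofReal (defectF K f T ((1 - (k : ℝ) / N) • x + ((k : ℝ) / N) • x'))
                = ∑ k ∈ Finset.range N, Ft ((1 - (k : ℝ) / N) • x + ((k : ℝ) / N) • x') := by
                  apply Finset.sum_congr rfl
                  intro k hk
                  have := hall k (Finset.mem_range.2 (Nat.lt_succ_of_lt (Finset.mem_range.1 hk)))
                  simp [hFt, Set.piecewise, this]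
              _ ≤ _ := Finset.sum_le_sum_of_subset (Finset.range_subset_range.2 (Nat.le_succ N))
    · push Not at hall
      obtain ⟨k, hk, hkB⟩ := hall
      have h1 : Ft ((1 - (k : ℝ) / N) • x + ((k : ℝ) / N) • x') = ∞ := by
        simp [hFt, Set.piecewise, hkB]
      have h2 : (∞ : ℝ≥0∞) ≤ ∑ k ∈ Finset.range (N + 1),
          Ft ((1 - (k : ℝ) / N) • x + ((k : ℝ) / N) • x') := by
        rw [← h1]
        exact Finset.single_le_sum
          (f := fun k : ℕ => Ft ((1 - (k : ℝ) / N) • x + ((k : ℝ) / N) • x'))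
          (fun _ _ => bot_le) hk
      exact le_add_right (le_top.trans h2)
  -- the double integral, first direction
  have hdouble : ∀ (S : ℕ → ℝ), (∀ k ∈ Finset.range (N + 1), 0 ≤ S k ∧ S k ≤ 1) →
      ∫⁻ x', ∫⁻ x, (∑ k ∈ Finset.range (N + 1), Ft ((1 - S k) • x + S k • x') + cst) ∂ρ ∂ρ ≤
        ((N : ℝ≥0∞) + 1) * (2 ^ d * ENNReal.ofReal ε) + cst := by
    intro S hS
    have hmk : ∀ k, Measurable fun p : Eu d × Eu d => Ft ((1 - S k) • p.2 + S k • p.1) := by
      intro k
      apply hFtm.comp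
      apply Continuous.measurable
      fun_prop
    have hin : ∀ x', ∫⁻ x, (∑ k ∈ Finset.range (N + 1), Ft ((1 - S k) • x + S k • x') + cst) ∂ρ =
        ∑ k ∈ Finset.range (N + 1), ∫⁻ x, Ft ((1 - S k) • x + S k • x') ∂ρ + cst := by
      intro x'
      rw [lintegral_add_right _ measurable_const, lintegral_finset_sum]
      · simp
      · intro k _
        exact (hmk k).comp (measurable_const.prodMk measurable_id)
    simp_rw [hin]
    have hout : Measurable fun x' => ∑ k ∈ Finset.range (N + 1),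
        ∫⁻ x, Ft ((1 - S k) • x + S k • x') ∂ρ := by
      apply Finset.measurable_sum
      intro k _
      exact (hmk k).lintegral_prod_right'
    rw [lintegral_add_right _ measurable_const, lintegral_finset_sum]
    · simp only [lintegral_const, measure_univ, mul_one]
      gcongr ?_ + cst
      calc ∑ k ∈ Finset.range (N + 1), ∫⁻ x', ∫⁻ x, Ft ((1 - S k) • x + S k • x') ∂ρ ∂ρ
          ≤ ∑ k ∈ Finset.range (N + 1), 2 ^ d * ENNReal.ofReal ε := by
            apply Finset.sum_le_sum
            intro k hk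
            refine (lintegral_lintegral_segment_le hKc hKv hKi hFtm (hS k hk).1 (hS k hk).2).trans ?_
            gcongr
        _ = _ := by
            rw [Finset.sum_const, Finset.card_range, nsmul_eq_mul]
            push_cast
            ring_nf
    · intro k _
      exact (hmk k).lintegral_prod_right'
  -- conclusion in `ℝ≥0∞`
  have hJ1 : ∫⁻ x', ∫⁻ x, ENNReal.ofReal (g x - g x') ∂ρ ∂ρ ≤
      ((N : ℝ≥0∞) + 1) * (2 ^ d * ENNReal.ofReal ε) + cst := by
    refine le_trans ?_ (hdouble (fun k => (k : ℝ) / N) ?_)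
    · apply lintegral_mono_ae
      filter_upwards [uniform_ae_mem hKc] with x' hx'
      apply lintegral_mono_ae
      filter_upwards [uniform_ae_mem hKc] with x hx
      exact hpt x hx x' hx'
    · intro k hk
      have hk' : (k : ℝ) ≤ N := by
        have := Finset.mem_range.1 hk
        exact_mod_cast Nat.lt_succ_iff.1 this
      exact ⟨by positivity, (div_le_one hNr).2 hk'⟩
  have hJ2 : ∫⁻ x', ∫⁻ x, ENNReal.ofReal (g x' - g x) ∂ρ ∂ρ ≤
      ((N : ℝ≥0∞) + 1) * (2 ^ d * ENNReal.ofReal ε) + cst := by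
    refine le_trans ?_ (hdouble (fun k => 1 - (k : ℝ) / N) ?_)
    · apply lintegral_mono_ae
      filter_upwards [uniform_ae_mem hKc] with x' hx'
      apply lintegral_mono_ae
      filter_upwards [uniform_ae_mem hKc] with x hx
      refine (hpt x' hx' x hx).trans (le_of_eq ?_)
      congr 1
      apply Finset.sum_congr rfl
      intro k _
      simp only [sub_sub_cancel]
      rw [add_comm]
    · intro k hk
      have hk' : (k : ℝ) ≤ N := by
        have := Finset.mem_range.1 hk
        exact_mod_cast Nat.lt_succ_iff.1 this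
      have h1 : (k : ℝ) / N ≤ 1 := (div_le_one hNr).2 hk'
      have h0 : 0 ≤ (k : ℝ) / N := by positivity
      constructor <;> linarith
  -- passage to the real integral
  have hgi : Integrable g ρ := uniform_integrable_of_continuous hKc hKi hgc
  set c : ℝ := ∫ x, g x ∂ρ with hc
  have habsm : Measurable fun x' => ∫⁻ x, ENNReal.ofReal |g x - g x'| ∂ρ := by
    apply Measurable.lintegral_prod_right'
      (f := fun p : Eu d × Eu d => ENNReal.ofReal |g p.2 - g p.1|)
    apply Measurable.ennreal_ofReal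
    apply Continuous.measurable
    fun_prop
  have hpt2 : ∀ x', ENNReal.ofReal |g x' - c| ≤ ∫⁻ x, ENNReal.ofReal |g x - g x'| ∂ρ := by
    intro x'
    have hi : Integrable (fun x => g x - g x') ρ := hgi.sub (integrable_const _)
    have h1 : g x' - c = -∫ x, (g x - g x') ∂ρ := by
      rw [integral_sub hgi (integrable_const _)]
      simp [hc]
    have h2 : |g x' - c| ≤ ∫ x, |g x - g x'| ∂ρ := by
      rw [h1, abs_neg]
      exact abs_integral_le_integral_abs
    calc ENNReal.ofReal |g x' - c| ≤ ENNReal.ofReal (∫ x, |g x - g x'| ∂ρ) :=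
          ENNReal.ofReal_le_ofReal h2
      _ = _ := ofReal_integral_eq_lintegral_ofReal hi.abs
          (Eventually.of_forall fun x => abs_nonneg _)
  have hpt3 : ∀ x x', ENNReal.ofReal |g x - g x'| ≤
      ENNReal.ofReal (g x - g x') + ENNReal.ofReal (g x' - g x) := by
    intro x x'
    rcases le_total (g x') (g x) with h | h
    · rw [abs_of_nonneg (by linarith)]
      exact le_add_right le_rfl
    · rw [abs_of_nonpos (by linarith), neg_sub]
      exact le_add_left le_rfl
  have hm1 : Measurable fun x' => ∫⁻ x, ENNReal.ofReal (g x - g x') ∂ρ := by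
    apply Measurable.lintegral_prod_right'
      (f := fun p : Eu d × Eu d => ENNReal.ofReal (g p.2 - g p.1))
    apply Measurable.ennreal_ofReal
    apply Continuous.measurable
    fun_prop
  have hm2 : ∀ x', Measurable fun x => ENNReal.ofReal (g x - g x') := by
    intro x'
    apply Measurable.ennreal_ofReal
    apply Continuous.measurable
    fun_prop
  have hL1 : ∫⁻ x', ENNReal.ofReal |g x' - c| ∂ρ ≤
      2 * (((N : ℝ≥0∞) + 1) * (2 ^ d * ENNReal.ofReal ε) + cst) := by
    calc ∫⁻ x', ENNReal.ofReal |g x' - c| ∂ρ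
        ≤ ∫⁻ x', ∫⁻ x, ENNReal.ofReal |g x - g x'| ∂ρ ∂ρ := lintegral_mono hpt2
      _ ≤ ∫⁻ x', (∫⁻ x, ENNReal.ofReal (g x - g x') ∂ρ + ∫⁻ x, ENNReal.ofReal (g x' - g x) ∂ρ) ∂ρ := by
          apply lintegral_mono
          intro x'
          change ∫⁻ x, ENNReal.ofReal |g x - g x'| ∂ρ ≤
            ∫⁻ x, ENNReal.ofReal (g x - g x') ∂ρ + ∫⁻ x, ENNReal.ofReal (g x' - g x) ∂ρ
          rw [← lintegral_add_left (hm2 x')]
          exact lintegral_mono fun x => hpt3 x x'
      _ = _ + _ := lintegral_add_left hm1 _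
      _ ≤ _ := by
          rw [two_mul]
          exact add_le_add hJ1 hJ2
  -- final real estimate
  have hεnn : 0 ≤ ε := by
    refine le_trans ?_ hε
    exact integral_nonneg_of_ae hdefnn
  have hRHS : 2 * (((N : ℝ≥0∞) + 1) * (2 ^ d * ENNReal.ofReal ε) + cst) =
      ENNReal.ofReal (2 * (((N : ℝ) + 1) * 2 ^ d * ε + 2 * R * D₀ / N)) := by
    have hcnn : 0 ≤ 2 * (R : ℝ) * D₀ / N := by positivity
    have h2 : (0 : ℝ) ≤ 2 := by norm_num
    rw [ENNReal.ofReal_mul h2, ENNReal.ofReal_add (by positivity) hcnn,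
      ENNReal.ofReal_mul (by positivity), ENNReal.ofReal_mul (by positivity),
      ENNReal.ofReal_add (by positivity) (by norm_num),
      ENNReal.ofReal_pow (by norm_num)]
    simp only [ENNReal.ofReal_natCast, ENNReal.ofReal_one, hcst]
    simp only [ENNReal.ofReal_ofNat]
    ring
  rw [hRHS] at hL1
  have habsi : Integrable (fun x => |g x - c|) ρ := (hgi.sub (integrable_const _)).abs
  have hL2 : ∫ x, |g x - c| ∂ρ ≤ 2 * (((N : ℝ) + 1) * 2 ^ d * ε + 2 * R * D₀ / N) := by
    rw [← ENNReal.ofReal_le_ofReal_iff (by positivity),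
      ofReal_integral_eq_lintegral_ofReal habsi (Eventually.of_forall fun x => abs_nonneg _)]
    exact hL1
  have hgh : ∫ x, g x * h x ∂ρ = ∫ x, (g x - c) * h x ∂ρ := by
    have hhi : Integrable h ρ := uniform_integrable_of_bdd hKc hKi hh.aestronglyMeasurable M
      (fun x _ => by simpa using hM x)
    have h1 : ∀ x, (g x - c) * h x = g x * h x - c * h x := fun x => by ring
    simp_rw [h1]
    have hgh' : Integrable (fun x => g x * h x) ρ := by
      apply Integrable.mul_bdd (c := M) hgi hh.aestronglyMeasurable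
      exact Eventually.of_forall fun x => by simpa using hM x
    rw [integral_sub hgh' (hhi.const_mul c), integral_const_mul, hmean]
    simp
  calc |∫ x, (f x - φ x) * h x ∂ρ| = |∫ x, (g x - c) * h x ∂ρ| := by rw [← hgh]
    _ ≤ ∫ x, |(g x - c) * h x| ∂ρ := abs_integral_le_integral_abs
    _ ≤ ∫ x, M * |g x - c| ∂ρ := by
        apply integral_mono_of_nonneg (Eventually.of_forall fun x => abs_nonneg _)
          (habsi.const_mul M)
        refine Eventually.of_forall fun x => ?_
        simp only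
        rw [abs_mul, mul_comm]
        exact mul_le_mul_of_nonneg_right (hM x) (abs_nonneg _)
    _ = M * ∫ x, |g x - c| ∂ρ := integral_const_mul _ _
    _ ≤ _ := mul_le_mul_of_nonneg_left hL2 hM0

end Main

end Crest.Agent.Lib.OTStab
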