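/-
Path argument of the proof of S0109: the discrete form of Lemma V.
-/
import Crest.Agent.Lib.OTStabDual
import Crest.Agent.Lib.OTStabU

set_option autoImplicit false
set_option linter.unusedSectionVars false
set_option linter.unusedSimpArgs false
set_option linter.deprecated false
set_option linter.unusedVariables false

open MeasureTheory Crest.AnalysisR.OT Filter Topology
open scoped ENNReal NNReal RealInnerProductSpace

namespace Crest.Agent.Lib.OTStab

variable {d : ℕ} {K : Set (Eu d)} {ι : Type*} [Fintype ι] [Nonempty ι]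

/-- First moment of a Laguerre cell with respect to the density `r`. -/
noncomputable def lagMom (K : Set (Eu d)) (y : ι → Eu d) (w : ι → ℝ) (r : Eu d → ℝ) (i : ι) : Eu d :=
  ∫ x in lagCell y w i, r x • x ∂(uniformProbOn K)

section Values

variable {r : Eu d → ℝ}

/-- `r • x` is integrable. -/
lemma integrable_smul_self (hKc : IsCompact K) (hKi : (interior K).Nonempty)
    (hrm : Measurable r) {B : ℝ} (hrB : ∀ x, |r x| ≤ B) :
    Integrable (fun x => r x • x) (uniformProbOn K) := by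
  obtain ⟨A, hA⟩ := hKc.isBounded.exists_norm_le
  have hB0 : 0 ≤ B := (abs_nonneg _).trans (hrB 0)
  refine uniform_integrable_of_bdd hKc hKi
    ((hrm.aestronglyMeasurable).smul measurable_id.aestronglyMeasurable) (B * A) ?_
  intro x hx
  rw [norm_smul, Real.norm_eq_abs]
  exact mul_le_mul (hrB x) (hA x hx) (norm_nonneg _) hB0

lemma integrable_of_abs_le (hKc : IsCompact K) (hKi : (interior K).Nonempty)
    (hrm : Measurable r) {B : ℝ} (hrB : ∀ x, |r x| ≤ B) : Integrable r (uniformProbOn K) :=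
  uniform_integrable_of_bdd hKc hKi hrm.aestronglyMeasurable B (fun x _ => by simpa using hrB x)

/-- Integral over a cell of an affine function times `r`. -/
lemma setIntegral_affine (hKc : IsCompact K) (hKi : (interior K).Nonempty)
    (hrm : Measurable r) {B : ℝ} (hrB : ∀ x, |r x| ≤ B) {C : Set (Eu d)} (v : Eu d) (a : ℝ) :
    ∫ x in C, (⟪v, x⟫ - a) * r x ∂(uniformProbOn K) =
      ⟪v, ∫ x in C, r x • x ∂(uniformProbOn K)⟫ - a * ∫ x in C, r x ∂(uniformProbOn K) := by
  have hi1 := (integrable_smul_self hKc hKi hrm hrB).integrableOn (s := C)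
  have hi2 := (integrable_of_abs_le hKc hKi hrm hrB).integrableOn (s := C)
  have h1 : ∀ x, (⟪v, x⟫ - a) * r x = ⟪v, r x • x⟫ - a * r x := by
    intro x
    rw [inner_smul_right]; ring
  simp_rw [h1]
  have hi3 : IntegrableOn (fun x => ⟪v, r x • x⟫) C (uniformProbOn K) := hi1.const_inner v
  rw [integral_sub hi3 (hi2.const_mul a), integral_inner hi1, integral_const_mul]

/-- Value of the Kantorovich functional at weights with the right masses. -/
lemma kantFun_eq (hKc : IsCompact K) (hKi : (interior K).Nonempty)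
    {y : ι → Eu d} (hy : Function.Injective y) {w : ι → ℝ} {m : ι → ℝ}
    (hrm : Measurable r) {B : ℝ} (hrB : ∀ x, |r x| ≤ B)
    (hm : ∀ i, ∫ x in lagCell y w i, r x ∂(uniformProbOn K) = m i) :
    kantFun K y r m w = ∑ i, ⟪y i, lagMom K y w r i⟫ := by
  have hri := integrable_of_abs_le hKc hKi hrm hrB
  unfold kantFun
  rw [← sum_setIntegral_lagCell hy w (integrable_lagPot_mul hKc hKi y w hri),
    ← Finset.sum_add_distrib]
  apply Finset.sum_congr rfl
  intro i _
  have h1 : ∫ x in lagCell y w i, lagPot y w x * r x ∂(uniformProbOn K) =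
      ∫ x in lagCell y w i, (⟪y i, x⟫ - w i) * r x ∂(uniformProbOn K) := by
    apply setIntegral_congr_fun (measurableSet_lagCell y w i)
    intro x hx
    simp only
    rw [mem_lagCell_iff.1 hx]
  rw [h1, setIntegral_affine hKc hKi hrm hrB, hm i]
  unfold lagMom
  ring

/-- Weak duality. -/
lemma kantFun_ge (hKc : IsCompact K) (hKi : (interior K).Nonempty)
    {y : ι → Eu d} (hy : Function.Injective y) {w : ι → ℝ} {m : ι → ℝ}
    (hrm : Measurable r) {B : ℝ} (hrB : ∀ x, |r x| ≤ B) (hr0 : ∀ x, 0 ≤ r x)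
    (hm : ∀ i, ∫ x in lagCell y w i, r x ∂(uniformProbOn K) = m i) (y' : ι → Eu d) (w' : ι → ℝ) :
    ∑ i, ⟪y' i, lagMom K y w r i⟫ ≤ kantFun K y' r m w' := by
  have hri := integrable_of_abs_le hKc hKi hrm hrB
  unfold kantFun
  rw [← sum_setIntegral_lagCell hy w (integrable_lagPot_mul hKc hKi y' w' hri),
    ← Finset.sum_add_distrib]
  apply Finset.sum_le_sum
  intro i _
  have hint : Integrable (fun x => (⟪y' i, x⟫ - w' i) * r x) (uniformProbOn K) := by
    have h1 : Integrable (fun x => ⟪y' i, r x • x⟫) (uniformProbOn K) :=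
      (integrable_smul_self hKc hKi hrm hrB).const_inner (y' i)
    have h2 : ∀ x, (⟪y' i, x⟫ - w' i) * r x = ⟪y' i, r x • x⟫ - w' i * r x := by
      intro x; rw [inner_smul_right]; ring
    simp_rw [h2]
    exact h1.sub (hri.const_mul _)
  have h1 : ∫ x in lagCell y w i, (⟪y' i, x⟫ - w' i) * r x ∂(uniformProbOn K) ≤
      ∫ x in lagCell y w i, lagPot y' w' x * r x ∂(uniformProbOn K) := by
    apply setIntegral_mono hint.integrableOn (integrable_lagPot_mul hKc hKi y' w' hri).integrableOn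
    intro x
    exact mul_le_mul_of_nonneg_right (le_lagPot y' w' x i) (hr0 x)
  rw [setIntegral_affine hKc hKi hrm hrB, hm i] at h1
  unfold lagMom
  linarith

/-- Weights with the right masses minimise the Kantorovich functional. -/
lemma kantFun_le (hKc : IsCompact K) (hKi : (interior K).Nonempty)
    {y : ι → Eu d} (hy : Function.Injective y) {w : ι → ℝ} {m : ι → ℝ}
    (hrm : Measurable r) {B : ℝ} (hrB : ∀ x, |r x| ≤ B) (hr0 : ∀ x, 0 ≤ r x)
    (hm : ∀ i, ∫ x in lagCell y w i, r x ∂(uniformProbOn K) = m i) (w' : ι → ℝ) :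
    kantFun K y r m w ≤ kantFun K y r m w' := by
  rw [kantFun_eq hKc hKi hy hrm hrB hm]
  exact kantFun_ge hKc hKi hy hrm hrB hr0 hm y w'

/-- Perturbing the density. -/
lemma kantFun_add_mul (hKc : IsCompact K) (hKi : (interior K).Nonempty)
    {h : Eu d → ℝ} (hh : Integrable h (uniformProbOn K)) (s : ℝ)
    (y : ι → Eu d) (m w : ι → ℝ) :
    kantFun K y (fun x => 1 + s * h x) m w =
      kantFun K y (fun _ => 1) m w + s * ∫ x, lagPot y w x * h x ∂(uniformProbOn K) := by
  unfold kantFun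
  have hi1 : Integrable (fun x => lagPot y w x * 1) (uniformProbOn K) := by
    simpa using uniform_integrable_of_continuous hKc hKi (lagPot_continuous y w)
  have hi2 := integrable_lagPot_mul hKc hKi y w hh
  have h1 : ∀ x, lagPot y w x * (1 + s * h x) = lagPot y w x * 1 + s * (lagPot y w x * h x) := by
    intro x; ring
  simp_rw [h1]
  rw [integral_add hi1 (hi2.const_mul s), integral_const_mul]
  ring

end Values

section Map

/-- A measurable selection of a cell. -/
lemma exists_lagIdx (y : ι → Eu d) (w : ι → ℝ) :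
    ∃ idx : Eu d → ι, Measurable (fun x => y (idx x)) ∧ ∀ x, x ∈ lagCell y w (idx x) := by
  classical
  let e := Fintype.equivFin ι
  let n := Fintype.card ι
  have hn : 0 < n := Fintype.card_pos
  let toι : ℕ → ι := fun k => e.symm ⟨k % n, Nat.mod_lt _ hn⟩
  have hsurj : ∀ i, ∃ k, toι k = i := by
    intro i
    refine ⟨(e i).1, ?_⟩
    simp only [toι]
    have : (⟨(e i).1 % n, Nat.mod_lt _ hn⟩ : Fin n) = e i := by
      apply Fin.ext
      exact Nat.mod_eq_of_lt (e i).2
    rw [this]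
    simp
  let p : Eu d → ℕ → Prop := fun x k => x ∈ lagCell y w (toι k)
  have hp : ∀ x, ∃ k, p x k := by
    intro x
    obtain ⟨i, hi⟩ := exists_mem_lagCell y w x
    obtain ⟨k, hk⟩ := hsurj i
    exact ⟨k, by simp only [p]; rwa [hk]⟩
  have hpm : ∀ k, MeasurableSet {x | p x k} := fun k => measurableSet_lagCell y w (toι k)
  have hfind : Measurable fun x => Nat.find (hp x) := measurable_find hp hpm
  refine ⟨fun x => toι (Nat.find (hp x)), ?_, fun x => Nat.find_spec (hp x)⟩
  exact (measurable_from_nat (f := fun k => y (toι k))).comp hfind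

/-- The Laguerre map is a subgradient of the Laguerre potential. -/
lemma isPot_lagMap (hKc : IsCompact K) {y : ι → Eu d} {w : ι → ℝ} {idx : Eu d → ι}
    (hidx : ∀ x, x ∈ lagCell y w (idx x)) {R : ℝ≥0} (hR : atomBound y ≤ R) :
    IsPot K R (fun x => y (idx x)) (lagPot y w) := by
  refine ⟨(lagPot_lipschitz y w).weaken hR, Eventually.of_forall fun x => ⟨?_, fun z => ?_⟩⟩
  · exact (norm_le_atomBound y _).trans (by exact_mod_cast hR)
  · rw [mem_lagCell_iff.1 (hidx x)]
    have := le_lagPot y w z (idx x)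
    rw [inner_sub_right]
    linarith

/-- The conjugate of a Laguerre potential at an atom is at most the weight. -/
lemma conj_lagPot_le (hKn : K.Nonempty) (y : ι → Eu d) (w : ι → ℝ) (i : ι) :
    conj K (lagPot y w) (y i) ≤ w i := by
  apply csSup_le (hKn.image _)
  rintro _ ⟨x, hx, rfl⟩
  have := le_lagPot y w x i
  simp only [real_inner_comm] at this ⊢
  linarith

/-- Bound for the defect of a Laguerre potential against a Laguerre map. -/
lemma defect_lagMap_le (hKc : IsCompact K) (hKi : (interior K).Nonempty)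
    {y : ι → Eu d} (hy : Function.Injective y) {w : ι → ℝ} {m : ι → ℝ}
    (hm : ∀ i, ∫ x in lagCell y w i, (1 : ℝ) ∂(uniformProbOn K) = m i)
    {idx : Eu d → ι} (hidxm : Measurable fun x => y (idx x))
    (hidx : ∀ x, x ∈ lagCell y w (idx x)) (w' : ι → ℝ) :
    ∫ x, defectF K (lagPot y w') (fun x => y (idx x)) x ∂(uniformProbOn K) ≤
      kantFun K y (fun _ => 1) m w' - kantFun K y (fun _ => 1) m w := by
  have hprob := uniform_isProb hKc hKi
  have hKn : K.Nonempty := hKi.mono interior_subset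
  set ρ := uniformProbOn K with hρ
  have hf := lagPot_continuous y w'
  have hTb : ∀ᵐ x ∂ρ, ‖y (idx x)‖ ≤ atomBound y :=
    Eventually.of_forall fun x => norm_le_atomBound y _
  have hdi : Integrable (defectF K (lagPot y w') fun x => y (idx x)) ρ :=
    integrable_defectF hKc hKi hidxm hTb hf
  rw [← sum_setIntegral_lagCell hy w hdi]
  have hone : Measurable (fun _ : Eu d => (1 : ℝ)) := measurable_const
  have hoB : ∀ x : Eu d, |(fun _ : Eu d => (1 : ℝ)) x| ≤ 1 := by simp
  rw [kantFun_eq hKc hKi hy hone hoB hm]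
  have hsub : kantFun K y (fun _ => 1) m w' =
      ∑ i, (∫ x in lagCell y w i, lagPot y w' x ∂ρ + m i * w' i) := by
    unfold kantFun
    simp only [mul_one]
    rw [← sum_setIntegral_lagCell hy w (uniform_integrable_of_continuous hKc hKi hf),
      ← Finset.sum_add_distrib]
  rw [hsub, ← Finset.sum_sub_distrib]
  apply Finset.sum_le_sum
  intro i _
  -- on the cell, a.e. the map takes the value `y i`
  have hae : ∀ᵐ x ∂(ρ.restrict (lagCell y w i)), idx x = i := by
    have h1 : ∀ j, j ≠ i → ∀ᵐ x ∂(ρ.restrict (lagCell y w i)), idx x ≠ j := by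
      intro j hj
      have h2 : ρ (lagCell y w i ∩ lagCell y w j) = 0 := aedisjoint_lagCell hy w hj.symm
      have h3 : ρ.restrict (lagCell y w i) (lagCell y w j) = 0 := by
        rw [Measure.restrict_apply (measurableSet_lagCell y w j), Set.inter_comm]
        exact h2
      have h4 : ∀ᵐ x ∂(ρ.restrict (lagCell y w i)), x ∉ lagCell y w j := by
        rw [ae_iff]; simpa using h3
      filter_upwards [h4] with x hx hxj
      exact hx (hxj ▸ hidx x)
    have h5 : ∀ᵐ x ∂(ρ.restrict (lagCell y w i)), ∀ j, j ≠ i → idx x ≠ j := by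
      rw [ae_all_iff]
      intro j
      by_cases hj : j = i
      · exact Eventually.of_forall fun x h => absurd hj h
      · filter_upwards [h1 j hj] with x hx _ using hx
    filter_upwards [h5] with x hx
    by_contra hne
    exact hx _ hne rfl
  have hle : ∫ x in lagCell y w i, defectF K (lagPot y w') (fun x => y (idx x)) x ∂ρ ≤
      ∫ x in lagCell y w i, (lagPot y w' x + w' i * 1 - ⟪y i, (1 : ℝ) • x⟫) ∂ρ := by
    have hi : Integrable (fun x => lagPot y w' x + w' i * 1 - ⟪y i, (1 : ℝ) • x⟫) ρ :=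
      uniform_integrable_of_continuous hKc hKi (by
        have := lagPot_continuous y w'
        fun_prop)
    apply setIntegral_mono_ae_restrict hdi.integrableOn hi.integrableOn
    filter_upwards [hae] with x hxi
    unfold defectF
    simp only [hxi]
    have := conj_lagPot_le hKn y w' i
    simp only [mul_one, one_smul, real_inner_comm]
    linarith
  refine hle.trans (le_of_eq ?_)
  have hi1 : IntegrableOn (fun x => lagPot y w' x) (lagCell y w i) ρ :=
    (uniform_integrable_of_continuous hKc hKi hf).integrableOn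
  have hi2 : IntegrableOn (fun _ : Eu d => w' i * (1 : ℝ)) (lagCell y w i) ρ :=
    (integrable_const _).integrableOn
  have hi3 : Integrable (fun x : Eu d => (1 : ℝ) • x) ρ :=
    integrable_smul_self hKc hKi hone hoB
  have hi4 : IntegrableOn (fun x : Eu d => ⟪y i, (1 : ℝ) • x⟫) (lagCell y w i) ρ :=
    (hi3.const_inner (y i)).integrableOn
  have hi12 : IntegrableOn (fun x => lagPot y w' x + w' i * (1 : ℝ)) (lagCell y w i) ρ :=
    hi1.add hi2
  rw [integral_sub hi12 hi4, integral_add hi1 hi2, integral_const_mul, hm i,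
    integral_inner hi3.integrableOn]
  unfold lagMom
  ring

end Map

section Path

/-- A point on the path from `y` to `z`. -/
noncomputable def pathAt (y z : ι → Eu d) (N k : ℕ) (a : ι) : Eu d :=
  y a + ((k : ℝ) / N) • (z a - y a)

lemma pathAt_zero (y z : ι → Eu d) (N : ℕ) : pathAt y z N 0 = y := by
  ext a; simp [pathAt]

lemma pathAt_top (y z : ι → Eu d) {N : ℕ} (hN : 0 < N) : pathAt y z N N = z := by
  have hNr : (N : ℝ) ≠ 0 := by positivity
  funext a
  simp [pathAt, div_self hNr]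

lemma pathAt_succ_sub (y z : ι → Eu d) (N k : ℕ) (a : ι) :
    pathAt y z N (k + 1) a = pathAt y z N k a + (1 / (N : ℝ)) • (z a - y a) := by
  simp only [pathAt]
  push_cast
  rw [add_assoc, ← add_smul]
  congr 2
  ring

/-- A bound for integrals of Lipschitz functions against mean-zero functions. -/
lemma abs_integral_lip_mul_le (hKc : IsCompact K) (hKi : (interior K).Nonempty)
    {G : Eu d → ℝ} {L : ℝ} (hGc : Continuous G)
    (hL : ∀ x ∈ K, ∀ x' ∈ K, |G x - G x'| ≤ L)
    {h : Eu d → ℝ} (hh : Measurable h) {M : ℝ} (hM : ∀ x, |h x| ≤ M)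
    (hmean : ∫ x, h x ∂(uniformProbOn K) = 0) :
    |∫ x, G x * h x ∂(uniformProbOn K)| ≤ L * M := by
  have hprob := uniform_isProb hKc hKi
  obtain ⟨x₀, hx₀⟩ : K.Nonempty := hKi.mono interior_subset
  have hM0 : 0 ≤ M := (abs_nonneg _).trans (hM 0)
  have hL0 : 0 ≤ L := (abs_nonneg _).trans (hL x₀ hx₀ x₀ hx₀)
  have hhi := integrable_of_abs_le hKc hKi hh hM
  have hGi : Integrable G (uniformProbOn K) := uniform_integrable_of_continuous hKc hKi hGc
  have hGh : Integrable (fun x => G x * h x) (uniformProbOn K) := by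
    apply Integrable.mul_bdd (c := M) hGi hh.aestronglyMeasurable
    exact Eventually.of_forall fun x => by simpa using hM x
  have h1 : ∫ x, G x * h x ∂(uniformProbOn K) =
      ∫ x, (G x - G x₀) * h x ∂(uniformProbOn K) := by
    have h2 : ∀ x, (G x - G x₀) * h x = G x * h x - G x₀ * h x := fun x => by ring
    simp_rw [h2]
    rw [integral_sub hGh (hhi.const_mul _), integral_const_mul, hmean]
    simp
  rw [h1]
  have h3 : ‖∫ x, (G x - G x₀) * h x ∂(uniformProbOn K)‖ ≤ (L * M) * (uniformProbOn K).real Set.univ := by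
    apply norm_integral_le_of_norm_le_const
    filter_upwards [uniform_ae_mem hKc] with x hx
    rw [norm_mul, Real.norm_eq_abs, Real.norm_eq_abs]
    exact mul_le_mul (hL x hx x₀ hx₀) (hM x) (abs_nonneg _) hL0
  simpa using h3

/-- The variation of a Laguerre potential on `K`. -/
lemma abs_lagPot_sub_le {y y' : ι → Eu d} {w w' : ι → ℝ} {R' : ℝ} {D₀ : ℝ}
    (hR1 : (atomBound y : ℝ) ≤ R') (hR2 : (atomBound y' : ℝ) ≤ R')
    (hD₀ : ∀ x ∈ K, ∀ x' ∈ K, ‖x' - x‖ ≤ D₀) :
    ∀ x ∈ K, ∀ x' ∈ K, |(lagPot y w x - lagPot y' w' x) - (lagPot y w x' - lagPot y' w' x')| ≤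
      2 * R' * D₀ := by
  intro x hx x' hx'
  have hnn : 0 ≤ R' := (NNReal.coe_nonneg _).trans hR1
  have h1 := (lagPot_lipschitz y w).dist_le_mul x x'
  have h2 := (lagPot_lipschitz y' w').dist_le_mul x x'
  rw [Real.dist_eq, dist_eq_norm] at h1 h2
  have h3 := hD₀ x' hx' x hx
  have h4 : (atomBound y : ℝ) * ‖x - x'‖ ≤ R' * D₀ :=
    mul_le_mul hR1 h3 (norm_nonneg _) hnn
  have h5 : (atomBound y' : ℝ) * ‖x - x'‖ ≤ R' * D₀ :=
    mul_le_mul hR2 h3 (norm_nonneg _) hnn
  have h6 : |lagPot y w x - lagPot y w x'| ≤ R' * D₀ := h1.trans h4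
  have h7 : |lagPot y' w' x - lagPot y' w' x'| ≤ R' * D₀ := h2.trans h5
  have h8 : (lagPot y w x - lagPot y' w' x) - (lagPot y w x' - lagPot y' w' x') =
      (lagPot y w x - lagPot y w x') - (lagPot y' w' x - lagPot y' w' x') := by ring
  rw [h8]
  refine (abs_sub _ _).trans ?_
  linarith

variable {y z : ι → Eu d} {m : ι → ℝ} {h : Eu d → ℝ} {M s : ℝ} {N N' : ℕ}

/-- Bound for the moment. -/
lemma norm_lagMom_le (hKc : IsCompact K) (hKi : (interior K).Nonempty)
    {y : ι → Eu d} {w : ι → ℝ} {r : Eu d → ℝ} (hrm : Measurable r) {B : ℝ} (hrB : ∀ x, |r x| ≤ B)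
    (hr0 : ∀ x, 0 ≤ r x) {A : ℝ} (hA : ∀ x ∈ K, ‖x‖ ≤ A) {mm : ℝ} {i : ι}
    (hm : ∫ x in lagCell y w i, r x ∂(uniformProbOn K) = mm) :
    ‖lagMom K y w r i‖ ≤ A * mm := by
  have hri := integrable_of_abs_le hKc hKi hrm hrB
  unfold lagMom
  rw [← hm, ← integral_const_mul]
  refine (norm_integral_le_integral_norm _).trans ?_
  apply integral_mono_of_nonneg (Eventually.of_forall fun x => norm_nonneg _)
    (hri.const_mul A).integrableOn
  refine ae_restrict_of_ae ?_
  filter_upwards [uniform_ae_mem hKc] with x hx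
  rw [norm_smul, Real.norm_eq_abs, abs_of_nonneg (hr0 x), mul_comm]
  exact mul_le_mul_of_nonneg_right (hA x hx) (hr0 x)

/-- **Discrete form of Lemma V.** -/
theorem discrete_V (hKc : IsCompact K) (hKv : Convex ℝ K) (hKi : (interior K).Nonempty)
    {c : Eu d} {D : ℝ} (hD : 0 < D) (hc : ∀ x ∈ K, ‖x - c‖ ≤ D)
    {A : ℝ} (hA : ∀ x ∈ K, ‖x‖ ≤ A) {D₀ : ℝ} (hD₀ : ∀ x ∈ K, ∀ x' ∈ K, ‖x' - x‖ ≤ D₀)
    (hm0 : ∀ i, 0 < m i) (hmsum : ∑ i, m i = 1)
    (hh : Measurable h) (hM : ∀ x, |h x| ≤ M)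
    (hmean : ∫ x, h x ∂(uniformProbOn K) = 0) (hs : 0 < s) (hsM : s * M ≤ 1 / 2)
    (hN : 0 < N) (hN' : 0 < N')
    (hinj : ∀ k, k ≤ N → Function.Injective (pathAt y z N k))
    {R' : ℝ≥0} (hRy : atomBound y ≤ R') (hRz : atomBound z ≤ R')
    {wy wz : ι → ℝ}
    (hwy : ∀ i, ∫ x in lagCell y wy i, (1 : ℝ) ∂(uniformProbOn K) = m i)
    (hwz : ∀ i, ∫ x in lagCell z wz i, (1 : ℝ) ∂(uniformProbOn K) = m i) :
    ∫ x, (lagPot z wz x - lagPot y wy x) * h x ∂(uniformProbOn K) ≤
      (354 * D * Real.sqrt (∫ x, h x ^ 2 ∂(uniformProbOn K)) + A / (N * s)) *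
          Real.sqrt (∑ a, m a * ‖z a - y a‖ ^ 2) +
        M * (2 * (((N' : ℝ) + 1) * 2 ^ d * (s * (2 * R' * D₀ * M)) + 2 * R' * D₀ / N')) := by
  classical
  have hprob := uniform_isProb hKc hKi
  set ρ := uniformProbOn K with hρ
  have hNr : (0 : ℝ) < N := by exact_mod_cast hN
  have hM0 : 0 ≤ M := (abs_nonneg _).trans (hM 0)
  obtain ⟨x₀, hx₀⟩ : K.Nonempty := hKi.mono interior_subset
  have hA0 : 0 ≤ A := (norm_nonneg _).trans (hA x₀ hx₀)
  have hD₀0 : 0 ≤ D₀ := by
    have := hD₀ x₀ hx₀ x₀ hx₀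
    simpa using this
  have hhi := integrable_of_abs_le hKc hKi hh hM
  have hyinj : Function.Injective y := by
    have := hinj 0 (Nat.zero_le _)
    rwa [pathAt_zero] at this
  have hzinj : Function.Injective z := by
    have := hinj N le_rfl
    rwa [pathAt_top y z hN] at this
  -- the densities
  set r₀ : Eu d → ℝ := fun _ => 1 with hr₀
  set rp : Eu d → ℝ := fun x => 1 + s * h x with hrp
  set sm : ℝ := -s with hsm
  set rm : Eu d → ℝ := fun x => 1 + sm * h x with hrm
  have hsh : ∀ x, |s * h x| ≤ 1 / 2 := by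
    intro x
    rw [abs_mul, abs_of_pos hs]
    exact (mul_le_mul_of_nonneg_left (hM x) hs.le).trans hsM
  have hr₀m : Measurable r₀ := measurable_const
  have hrpm : Measurable rp := measurable_const.add (hh.const_mul s)
  have hrmm : Measurable rm := measurable_const.add (hh.const_mul sm)
  have hrpb : ∀ x, 1 / 2 ≤ rp x ∧ rp x ≤ 3 / 2 := by
    intro x
    have := abs_le.1 (hsh x)
    simp only [hrp]
    constructor <;> linarith [this.1, this.2]
  have hrmb : ∀ x, 1 / 2 ≤ rm x ∧ rm x ≤ 3 / 2 := by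
    intro x
    have := abs_le.1 (hsh x)
    simp only [hrm, hsm]
    constructor <;> nlinarith [this.1, this.2]
  have hr₀B : ∀ x, |r₀ x| ≤ 3 / 2 := by intro x; simp [hr₀]; norm_num
  have hrpB : ∀ x, |rp x| ≤ 3 / 2 := fun x => by
    rw [abs_of_nonneg (by linarith [(hrpb x).1])]; exact (hrpb x).2
  have hrmB : ∀ x, |rm x| ≤ 3 / 2 := fun x => by
    rw [abs_of_nonneg (by linarith [(hrmb x).1])]; exact (hrmb x).2
  have hr₀0 : ∀ x, 0 ≤ r₀ x := fun x => by simp [hr₀]
  have hrp0 : ∀ x, 0 ≤ rp x := fun x => by linarith [(hrpb x).1]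
  have hrm0 : ∀ x, 0 ≤ rm x := fun x => by linarith [(hrmb x).1]
  have hrpi := integrable_of_abs_le hKc hKi hrpm hrpB
  have hrmi := integrable_of_abs_le hKc hKi hrmm hrmB
  have hrpint : ∫ x, rp x ∂ρ = 1 := by
    simp only [hrp]
    rw [integral_add (integrable_const _) (hhi.const_mul s), integral_const_mul, hmean]
    simp
  have hrmint : ∫ x, rm x ∂ρ = 1 := by
    simp only [hrm]
    rw [integral_add (integrable_const _) (hhi.const_mul sm), integral_const_mul, hmean]
    simp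
  -- solver along the path
  have hsolp : ∀ k, k ≤ N → ∃ w : ι → ℝ, ∀ i, ∫ x in lagCell (pathAt y z N k) w i, rp x ∂ρ = m i :=
    fun k hk => exists_lagWeights hKc hKi (hinj k hk) hrpi hrp0 m hm0 (by rw [hmsum, hrpint])
  have hsolm : ∀ k, k ≤ N → ∃ w : ι → ℝ, ∀ i, ∫ x in lagCell (pathAt y z N k) w i, rm x ∂ρ = m i :=
    fun k hk => exists_lagWeights hKc hKi (hinj k hk) hrmi hrm0 m hm0 (by rw [hmsum, hrmint])
  choose! wp hwp using hsolp
  choose! wm hwm using hsolm
  -- values and moments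
  let Y : ℕ → ι → Eu d := pathAt y z N
  let Wp : ℕ → ℝ := fun k => kantFun K (Y k) rp m (wp k)
  let Wm : ℕ → ℝ := fun k => kantFun K (Y k) rm m (wm k)
  let Mp : ℕ → ι → Eu d := fun k => lagMom K (Y k) (wp k) rp
  let Mm : ℕ → ι → Eu d := fun k => lagMom K (Y k) (wm k) rm
  let Ip : ℕ → ℝ := fun k => ∑ a, ⟪z a - y a, Mp k a⟫
  let Im : ℕ → ℝ := fun k => ∑ a, ⟪z a - y a, Mm k a⟫
  have hWp : ∀ k, k ≤ N → Wp k = ∑ a, ⟪Y k a, Mp k a⟫ := fun k hk =>
    kantFun_eq hKc hKi (hinj k hk) hrpm hrpB (hwp k hk)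
  have hWm : ∀ k, k ≤ N → Wm k = ∑ a, ⟪Y k a, Mm k a⟫ := fun k hk =>
    kantFun_eq hKc hKi (hinj k hk) hrmm hrmB (hwm k hk)
  have hshift : ∀ (P : ι → Eu d) (k : ℕ), ∑ a, ⟪Y (k + 1) a, P a⟫ =
      ∑ a, ⟪Y k a, P a⟫ + (1 / (N : ℝ)) * ∑ a, ⟪z a - y a, P a⟫ := by
    intro P k
    rw [Finset.mul_sum, ← Finset.sum_add_distrib]
    apply Finset.sum_congr rfl
    intro a _
    simp only [Y]
    rw [pathAt_succ_sub, inner_add_left, inner_smul_left]
    simp
  -- step inequalities
  have hstepU : ∀ k, k < N → Wp (k + 1) - Wp k ≤ (1 / (N : ℝ)) * Ip (k + 1) := by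
    intro k hk
    have h1 := kantFun_ge hKc hKi (hinj (k + 1) hk) hrpm hrpB hrp0 (hwp (k + 1) hk) (Y k) (wp k)
    rw [hWp (k + 1) hk, hshift]
    have h2 : Wp k ≥ ∑ a, ⟪Y k a, Mp (k + 1) a⟫ := h1
    simp only [Ip]
    linarith
  have hstepL : ∀ k, k < N → (1 / (N : ℝ)) * Im k ≤ Wm (k + 1) - Wm k := by
    intro k hk
    have h1 := kantFun_ge hKc hKi (hinj k hk.le) hrmm hrmB hrm0 (hwm k hk.le) (Y (k + 1)) (wm (k + 1))
    rw [hWm k hk.le]
    have h2 : ∑ a, ⟪Y (k + 1) a, Mm k a⟫ ≤ Wm (k + 1) := h1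
    rw [hshift] at h2
    simp only [Im]
    linarith
  -- sizes
  set E' : ℝ := ∑ a, m a * ‖z a - y a‖ ^ 2 with hE'
  have hE'0 : 0 ≤ E' := Finset.sum_nonneg fun a _ => mul_nonneg (hm0 a).le (sq_nonneg _)
  set H : ℝ := ∫ x, h x ^ 2 ∂ρ with hH
  have hH0 : 0 ≤ H := integral_nonneg fun x => sq_nonneg _
  -- Cauchy-Schwarz
  have hCS : ∀ P : ι → Eu d, ∑ a, ⟪z a - y a, P a⟫ ≤
      Real.sqrt E' * Real.sqrt (∑ a, ‖P a‖ ^ 2 / m a) := by
    intro P
    have h1 : ∑ a, ⟪z a - y a, P a⟫ ≤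
        ∑ a, (Real.sqrt (m a) * ‖z a - y a‖) * (‖P a‖ / Real.sqrt (m a)) := by
      apply Finset.sum_le_sum
      intro a _
      have hsq : Real.sqrt (m a) ≠ 0 := (Real.sqrt_pos.2 (hm0 a)).ne'
      have : (Real.sqrt (m a) * ‖z a - y a‖) * (‖P a‖ / Real.sqrt (m a)) = ‖z a - y a‖ * ‖P a‖ := by
        field_simp
      rw [this]
      exact real_inner_le_norm _ _
    refine h1.trans ?_
    have h2 := Real.sum_mul_le_sqrt_mul_sqrt Finset.univ
      (fun a => Real.sqrt (m a) * ‖z a - y a‖) (fun a => ‖P a‖ / Real.sqrt (m a))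
    refine h2.trans (le_of_eq ?_)
    congr 2
    · apply Finset.sum_congr rfl
      intro a _
      rw [mul_pow, Real.sq_sqrt (hm0 a).le]
    · apply Finset.sum_congr rfl
      intro a _
      rw [div_pow, Real.sq_sqrt (hm0 a).le]
  -- dual lemma along the path
  have hr1sq : ∀ (t : ℝ), ∫ x, ((1 + t * h x) - 1) ^ 2 ∂ρ = t ^ 2 * H := by
    intro t
    have : ∀ x, ((1 + t * h x) - 1) ^ 2 = t ^ 2 * h x ^ 2 := fun x => by ring
    simp_rw [this]
    rw [integral_const_mul]
  have hdual : ∀ k, k ≤ N → ∑ a, ‖Mp k a - Mm k a‖ ^ 2 / m a ≤ 500000 * D ^ 2 * (s ^ 2 * H) := by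
    intro k hk
    have h1 := dual_lemma hKc hKv hKi hD hc (hinj k hk) hm0 hrpm hrmm hrpb hrmb (hwp k hk) (hwm k hk)
    have h2 := hr1sq s
    have h3 := hr1sq sm
    rw [h2, h3] at h1
    have h4 : sm ^ 2 = s ^ 2 := by rw [hsm]; ring
    rw [h4] at h1
    refine h1.trans (le_of_eq ?_)
    ring
  set B : ℝ := 708 * D * s * Real.sqrt H * Real.sqrt E' with hB
  have hB0 : 0 ≤ B := by positivity
  have hIdiff : ∀ k, k ≤ N → Ip k - Im k ≤ B := by
    intro k hk
    have h1 : Ip k - Im k = ∑ a, ⟪z a - y a, Mp k a - Mm k a⟫ := by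
      simp only [Ip, Im]
      rw [← Finset.sum_sub_distrib]
      apply Finset.sum_congr rfl
      intro a _
      rw [inner_sub_right]
    rw [h1]
    refine (hCS _).trans ?_
    have h2 : Real.sqrt (∑ a, ‖Mp k a - Mm k a‖ ^ 2 / m a) ≤ 708 * D * s * Real.sqrt H := by
      apply Real.sqrt_le_iff.2
      constructor
      · positivity
      · refine (hdual k hk).trans ?_
        have h3 : (708 * D * s * Real.sqrt H) ^ 2 = 501264 * D ^ 2 * (s ^ 2 * H) := by
          rw [mul_pow, mul_pow, mul_pow, Real.sq_sqrt hH0]; ring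
        rw [h3]
        have h4 : 0 ≤ D ^ 2 * (s ^ 2 * H) := by positivity
        nlinarith
    rw [hB, mul_comm (708 * D * s * Real.sqrt H)]
    exact mul_le_mul_of_nonneg_left h2 (Real.sqrt_nonneg _)
  have hsumabs : ∑ a, m a * ‖z a - y a‖ ≤ Real.sqrt E' := by
    have h2 := Real.sum_mul_le_sqrt_mul_sqrt Finset.univ
      (fun a => Real.sqrt (m a) * ‖z a - y a‖) (fun a => Real.sqrt (m a))
    have h3 : ∑ a, m a * ‖z a - y a‖ =
        ∑ a, (Real.sqrt (m a) * ‖z a - y a‖) * Real.sqrt (m a) := by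
      apply Finset.sum_congr rfl
      intro a _
      have := Real.mul_self_sqrt (hm0 a).le
      calc m a * ‖z a - y a‖ = (Real.sqrt (m a) * Real.sqrt (m a)) * ‖z a - y a‖ := by rw [this]
        _ = _ := by ring
    rw [h3]
    refine h2.trans (le_of_eq ?_)
    have h4 : ∑ a, Real.sqrt (m a) ^ 2 = 1 := by
      rw [← hmsum]
      exact Finset.sum_congr rfl fun a _ => Real.sq_sqrt (hm0 a).le
    have h5 : ∑ a, (Real.sqrt (m a) * ‖z a - y a‖) ^ 2 = E' := by
      rw [hE']
      apply Finset.sum_congr rfl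
      intro a _
      rw [mul_pow, Real.sq_sqrt (hm0 a).le]
    rw [h4, h5]
    simp
  have hIabs : ∀ k, k ≤ N → |Ip k| ≤ A * Real.sqrt E' := by
    intro k hk
    have h1 : |Ip k| ≤ ∑ a, A * (m a * ‖z a - y a‖) := by
      refine (Finset.abs_sum_le_sum_abs _ _).trans ?_
      apply Finset.sum_le_sum
      intro a _
      refine (abs_real_inner_le_norm _ _).trans ?_
      have h2 := norm_lagMom_le hKc hKi (y := Y k) (w := wp k) (i := a) hrpm hrpB hrp0 hA (hwp k hk a)
      calc ‖z a - y a‖ * ‖Mp k a‖ ≤ ‖z a - y a‖ * (A * m a) :=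
            mul_le_mul_of_nonneg_left h2 (norm_nonneg _)
        _ = _ := by ring
    rw [← Finset.mul_sum] at h1
    exact h1.trans (mul_le_mul_of_nonneg_left hsumabs hA0)
  -- upper bound for the mixed difference
  have hupper : (Wp N - Wp 0) - (Wm N - Wm 0) ≤ B + (2 * A / N) * Real.sqrt E' := by
    have h1 : Wp N - Wp 0 ≤ (1 / (N : ℝ)) * ∑ k ∈ Finset.range N, Ip (k + 1) := by
      have h2 : Wp N - Wp 0 = ∑ k ∈ Finset.range N, (Wp (k + 1) - Wp k) :=
        (Finset.sum_range_sub Wp N).symm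
      rw [h2, Finset.mul_sum]
      exact Finset.sum_le_sum fun k hk => hstepU k (Finset.mem_range.1 hk)
    have h3 : (1 / (N : ℝ)) * ∑ k ∈ Finset.range N, Im k ≤ Wm N - Wm 0 := by
      have h2 : Wm N - Wm 0 = ∑ k ∈ Finset.range N, (Wm (k + 1) - Wm k) :=
        (Finset.sum_range_sub Wm N).symm
      rw [h2, Finset.mul_sum]
      exact Finset.sum_le_sum fun k hk => hstepL k (Finset.mem_range.1 hk)
    have h4 : ∑ k ∈ Finset.range N, Ip (k + 1) =
        ∑ k ∈ Finset.range N, Ip k + (Ip N - Ip 0) := by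
      have := Finset.sum_range_sub Ip N
      rw [Finset.sum_sub_distrib] at this
      linarith
    have h5 : ∑ k ∈ Finset.range N, (Ip k - Im k) ≤ N * B := by
      calc ∑ k ∈ Finset.range N, (Ip k - Im k) ≤ ∑ k ∈ Finset.range N, B :=
            Finset.sum_le_sum fun k hk => hIdiff k (Finset.mem_range.1 hk).le
        _ = N * B := by simp
    rw [Finset.sum_sub_distrib] at h5
    have h6 : Ip N - Ip 0 ≤ 2 * A * Real.sqrt E' := by
      have h7 := (abs_le.1 (hIabs N le_rfl)).2
      have h8 := (abs_le.1 (hIabs 0 (Nat.zero_le _))).1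
      linarith
    have h9 : (Wp N - Wp 0) - (Wm N - Wm 0) ≤
        (1 / (N : ℝ)) * (∑ k ∈ Finset.range N, Ip (k + 1) - ∑ k ∈ Finset.range N, Im k) := by
      rw [mul_sub]; linarith
    refine h9.trans ?_
    rw [h4]
    have h10 : (1 / (N : ℝ)) * (∑ k ∈ Finset.range N, Ip k + (Ip N - Ip 0) -
        ∑ k ∈ Finset.range N, Im k) ≤ (1 / (N : ℝ)) * (N * B + 2 * A * Real.sqrt E') := by
      apply mul_le_mul_of_nonneg_left _ (by positivity)
      linarith
    refine h10.trans (le_of_eq ?_)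
    field_simp
  -- lower bound: identification of the derivative
  have hY0 : Y 0 = y := pathAt_zero y z N
  have hYN : Y N = z := pathAt_top y z hN
  set f00 := lagPot y wy with hf00
  set f0N := lagPot z wz with hf0N
  set fp := lagPot z (wp N) with hfp
  set fm := lagPot y (wm 0) with hfm
  have hwpN : ∀ i, ∫ x in lagCell z (wp N) i, rp x ∂ρ = m i := by
    have := hwp N le_rfl
    change ∀ i, ∫ x in lagCell (Y N) (wp N) i, rp x ∂ρ = m i at this
    rwa [hYN] at this
  have hwm0 : ∀ i, ∫ x in lagCell y (wm 0) i, rm x ∂ρ = m i := by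
    have := hwm 0 (Nat.zero_le _)
    change ∀ i, ∫ x in lagCell (Y 0) (wm 0) i, rm x ∂ρ = m i at this
    rwa [hY0] at this
  have hwp0 : ∀ i, ∫ x in lagCell y (wp 0) i, rp x ∂ρ = m i := by
    have := hwp 0 (Nat.zero_le _)
    change ∀ i, ∫ x in lagCell (Y 0) (wp 0) i, rp x ∂ρ = m i at this
    rwa [hY0] at this
  have hwmN : ∀ i, ∫ x in lagCell z (wm N) i, rm x ∂ρ = m i := by
    have := hwm N le_rfl
    change ∀ i, ∫ x in lagCell (Y N) (wm N) i, rm x ∂ρ = m i at this
    rwa [hYN] at this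
  have hWpN : Wp N = kantFun K z rp m (wp N) := by simp only [Wp, hYN]
  have hWp0 : Wp 0 = kantFun K y rp m (wp 0) := by simp only [Wp, hY0]
  have hWmN : Wm N = kantFun K z rm m (wm N) := by simp only [Wm, hYN]
  have hWm0 : Wm 0 = kantFun K y rm m (wm 0) := by simp only [Wm, hY0]
  set W0N := kantFun K z r₀ m wz with hW0N
  set W00 := kantFun K y r₀ m wy with hW00
  -- the four comparisons
  have hc1 : W0N ≤ Wp N - s * ∫ x, fp x * h x ∂ρ := by
    have h1 := kantFun_le hKc hKi hzinj hr₀m hr₀B hr₀0 hwz (wp N)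
    have h2 := kantFun_add_mul hKc hKi hhi s z m (wp N)
    rw [hWpN]
    simp only [hrp, hr₀, hfp] at *
    linarith
  have hc1' : Wp N ≤ W0N + s * ∫ x, f0N x * h x ∂ρ := by
    have h1 := kantFun_le hKc hKi hzinj hrpm hrpB hrp0 hwpN wz
    have h2 := kantFun_add_mul hKc hKi hhi s z m wz
    rw [hWpN]
    simp only [hrp, hr₀, hf0N, hW0N] at *
    linarith
  have hc2 : Wm N ≤ W0N - s * ∫ x, f0N x * h x ∂ρ := by
    have h1 := kantFun_le hKc hKi hzinj hrmm hrmB hrm0 hwmN wz
    have h2 := kantFun_add_mul hKc hKi hhi sm z m wz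
    rw [hWmN]
    simp only [hrm, hr₀, hf0N, hW0N, hsm] at *
    linarith
  have hc3 : Wp 0 ≤ W00 + s * ∫ x, f00 x * h x ∂ρ := by
    have h1 := kantFun_le hKc hKi hyinj hrpm hrpB hrp0 hwp0 wy
    have h2 := kantFun_add_mul hKc hKi hhi s y m wy
    rw [hWp0]
    simp only [hrp, hr₀, hf00, hW00] at *
    linarith
  have hc4 : W00 ≤ Wm 0 + s * ∫ x, fm x * h x ∂ρ := by
    have h1 := kantFun_le hKc hKi hyinj hr₀m hr₀B hr₀0 hwy (wm 0)
    have h2 := kantFun_add_mul hKc hKi hhi sm y m (wm 0)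
    rw [hWm0]
    simp only [hrm, hr₀, hfm, hW00, hsm] at *
    linarith
  have hc4' : Wm 0 ≤ W00 - s * ∫ x, f00 x * h x ∂ρ := by
    have h1 := kantFun_le hKc hKi hyinj hrmm hrmB hrm0 hwm0 wy
    have h2 := kantFun_add_mul hKc hKi hhi sm y m wy
    rw [hWm0]
    simp only [hrm, hr₀, hf00, hW00, hsm] at *
    linarith
  -- integrals
  have hif00 : Integrable (fun x => f00 x * h x) ρ := integrable_lagPot_mul hKc hKi y wy hhi
  have hif0N : Integrable (fun x => f0N x * h x) ρ := integrable_lagPot_mul hKc hKi z wz hhi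
  have hifp : Integrable (fun x => fp x * h x) ρ := integrable_lagPot_mul hKc hKi z (wp N) hhi
  have hifm : Integrable (fun x => fm x * h x) ρ := integrable_lagPot_mul hKc hKi y (wm 0) hhi
  set I00 := ∫ x, f00 x * h x ∂ρ with hI00
  set I0N := ∫ x, f0N x * h x ∂ρ with hI0N
  set Ip' := ∫ x, fp x * h x ∂ρ with hIp'
  set Im' := ∫ x, fm x * h x ∂ρ with hIm'
  have hsplit1 : ∫ x, (fp x - f0N x) * h x ∂ρ = Ip' - I0N := by
    have : ∀ x, (fp x - f0N x) * h x = fp x * h x - f0N x * h x := fun x => by ring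
    simp_rw [this]
    rw [integral_sub hifp hif0N]
  have hsplit2 : ∫ x, (fm x - f00 x) * h x ∂ρ = Im' - I00 := by
    have : ∀ x, (fm x - f00 x) * h x = fm x * h x - f00 x * h x := fun x => by ring
    simp_rw [this]
    rw [integral_sub hifm hif00]
  have hsplit3 : ∫ x, (lagPot z wz x - lagPot y wy x) * h x ∂ρ = I0N - I00 := by
    have : ∀ x, (lagPot z wz x - lagPot y wy x) * h x = f0N x * h x - f00 x * h x := fun x => by
      simp only [hf0N, hf00]; ring
    simp_rw [this]
    rw [integral_sub hif0N hif00]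
  -- variation bounds
  have hR'y : (atomBound y : ℝ) ≤ R' := by exact_mod_cast hRy
  have hR'z : (atomBound z : ℝ) ≤ R' := by exact_mod_cast hRz
  have hvar1 : |Ip' - I0N| ≤ 2 * R' * D₀ * M := by
    rw [← hsplit1]
    exact abs_integral_lip_mul_le hKc hKi ((lagPot_continuous _ _).sub (lagPot_continuous _ _))
      (abs_lagPot_sub_le hR'z hR'z hD₀) hh hM hmean
  have hvar2 : |Im' - I00| ≤ 2 * R' * D₀ * M := by
    rw [← hsplit2]
    exact abs_integral_lip_mul_le hKc hKi ((lagPot_continuous _ _).sub (lagPot_continuous _ _))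
      (abs_lagPot_sub_le hR'y hR'y hD₀) hh hM hmean
  set ε : ℝ := s * (2 * R' * D₀ * M) with hε
  -- Lemma U twice
  obtain ⟨idz, hidzm, hidz⟩ := exists_lagIdx z wz
  obtain ⟨idy, hidym, hidy⟩ := exists_lagIdx y wy
  have hN'r : (0 : ℝ) < N' := by exact_mod_cast hN'
  set η : ℝ := M * (2 * (((N' : ℝ) + 1) * 2 ^ d * ε + 2 * R' * D₀ / N')) with hη
  have hU1 : |Ip' - I0N| ≤ η := by
    rw [← hsplit1]
    apply lemmaU hKc hKv hKi hidzm (isPot_lagMap hKc hidz hRz) (lagPot_continuous _ _) hD₀ ?_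
      hN' hh hM hmean
    refine (defect_lagMap_le hKc hKi hzinj hwz hidzm hidz (wp N)).trans ?_
    have h2 := kantFun_add_mul hKc hKi hhi s z m (wp N)
    have h3 : kantFun K z r₀ m (wp N) = Wp N - s * Ip' := by
      rw [hWpN]
      simp only [hrp, hr₀, hIp', hfp] at *
      linarith
    have h4 : s * (I0N - Ip') ≤ ε := by
      rw [hε]
      apply mul_le_mul_of_nonneg_left _ hs.le
      have := (abs_le.1 hvar1).1
      linarith
    change kantFun K z r₀ m (wp N) - W0N ≤ ε
    rw [h3]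
    nlinarith
  have hU2 : |Im' - I00| ≤ η := by
    rw [← hsplit2]
    apply lemmaU hKc hKv hKi hidym (isPot_lagMap hKc hidy hRy) (lagPot_continuous _ _) hD₀ ?_
      hN' hh hM hmean
    refine (defect_lagMap_le hKc hKi hyinj hwy hidym hidy (wm 0)).trans ?_
    have h2 := kantFun_add_mul hKc hKi hhi sm y m (wm 0)
    have h3 : kantFun K y r₀ m (wm 0) = Wm 0 + s * Im' := by
      rw [hWm0]
      simp only [hrm, hr₀, hIm', hfm, hsm] at *
      linarith
    have h4 : s * (Im' - I00) ≤ ε := by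
      rw [hε]
      apply mul_le_mul_of_nonneg_left _ hs.le
      exact (abs_le.1 hvar2).2
    change kantFun K y r₀ m (wm 0) - W00 ≤ ε
    rw [h3]
    nlinarith
  -- conclusion
  rw [hsplit3]
  have hmixed : s * (Ip' + I0N - I00 - Im') ≤ B + (2 * A / N) * Real.sqrt E' := by
    have h1 : s * (Ip' + I0N - I00 - Im') ≤ (Wp N - Wp 0) - (Wm N - Wm 0) := by
      nlinarith
    exact h1.trans hupper
  have hU1' := (abs_le.1 hU1).1
  have hU2' := (abs_le.1 hU2).2
  have hfin : 2 * s * (I0N - I00) ≤ B + (2 * A / N) * Real.sqrt E' + 2 * s * η := by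
    nlinarith
  have hdiv : I0N - I00 ≤ (B + (2 * A / N) * Real.sqrt E') / (2 * s) + η := by
    rw [div_add' _ _ _ (by positivity), le_div_iff₀ (by positivity)]
    nlinarith
  refine hdiv.trans (le_of_eq ?_)
  rw [hB]
  field_simp
  ring

end Path

end Crest.Agent.Lib.OTStab
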