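/-
Discretisation of a coupling for the proof of S0109 (module of lemma_V).

Math: cover Y by finitely many closed balls of radius δ/2 with centres `c i ∈ Y`, make them a measurable
partition `Qx i`; index set ι = {(i,j) | π (Qx i ×ˢ Qx j) > 0} (a `Fintype`, nonempty since π is a
probability measure: π.map fst = μ, and π is carried by Y × Y a.e. since μ Yᶜ = ν Yᶜ = 0).
m a = π.real (Q a); atoms y⁰ a = c a.1, z⁰ a = c a.2.
Perturbation: fix e₀ = EuclideanSpace.single ⟨0,hd⟩ 1, an injection o : ι → ℕ, ε > 0 small with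
ε * o a ≤ δ/2 (all a): y a = y⁰ a + (ε * o a) • e₀, z a = z⁰ a + (ε * o a) • e₀.
Then z a - y a = z⁰ a - y⁰ a, and pathAt y z N k a = pathAt y⁰ z⁰ N k a + (ε * o a) • e₀. For k ≤ N, a ≠ b the
equation pathAt y z N k a = pathAt y z N k b holds for at most one ε, so a finite set of ε is excluded
(so all the maps pathAt y z N k, k ≤ N, can be made injective).
For p ∈ Q a: ‖y a - p.1‖ ≤ δ, ‖z a - p.2‖ ≤ δ; so ‖z a - y a‖ ≤ ‖p.2 - p.1‖ + δ and
‖z a - y a‖² ≤ 2‖p.2 - p.1‖² + 2δ²; sum over a using ∫ F dπ = Σ_a ∫_{Q a} F dπ.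
Same formula and the Lipschitz bound give |Σ m a * G (y a) - ∫ G dμ| ≤ A δ, where ∫ G dμ = ∫ G(p.1) dπ.
-/
import Crest.Agent.Lib.OTStabPath

set_option autoImplicit false
set_option linter.unusedSectionVars false
set_option linter.unusedSimpArgs false
set_option linter.deprecated false
set_option linter.unusedVariables false

open MeasureTheory Crest.AnalysisR.OT Filter Topology
open scoped ENNReal NNReal RealInnerProductSpace

namespace Crest.Agent.Lib.OTStab

variable {d : ℕ}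

/-- Finite measurable partition of a compact set into small pieces. -/
lemma exists_partition {Y : Set (Eu d)} (hYc : IsCompact Y) {δ : ℝ} (hδ : 0 < δ) :
    ∃ (p : ℕ) (c : Fin p → Eu d) (Q : Fin p → Set (Eu d)),
      (∀ i, c i ∈ Y) ∧ (∀ i, MeasurableSet (Q i)) ∧
      (∀ i j, i ≠ j → Disjoint (Q i) (Q j)) ∧
      (∀ i, ∀ x ∈ Q i, ‖x - c i‖ ≤ δ) ∧ (∀ x ∈ Y, ∃ i, x ∈ Q i) := by
  classical
  obtain ⟨t, htY, htf, hcov⟩ := hYc.finite_cover_balls hδ
  let s : Finset (Eu d) := htf.toFinset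
  let e : s ≃ Fin s.card := s.equivFin
  let c : Fin s.card → Eu d := fun i => (e.symm i).1
  have hcs : ∀ i, c i ∈ t := fun i => htf.mem_toFinset.1 (e.symm i).2
  let B : Fin s.card → Set (Eu d) := fun i => Metric.closedBall (c i) δ
  let Q : Fin s.card → Set (Eu d) := fun i => B i \ ⋃ j, ⋃ (_ : j < i), B j
  refine ⟨s.card, c, Q, fun i => htY (hcs i), ?_, ?_, ?_, ?_⟩
  · intro i
    refine Metric.isClosed_closedBall.measurableSet.diff ?_
    exact MeasurableSet.iUnion fun j => MeasurableSet.iUnion fun _ =>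
      Metric.isClosed_closedBall.measurableSet
  · have key : ∀ i j, i < j → Disjoint (Q i) (Q j) := by
      intro i j hij
      rw [Set.disjoint_left]
      intro x hxi hxj
      apply hxj.2
      simp only [Set.mem_iUnion]
      exact ⟨i, hij, hxi.1⟩
    intro i j hij
    rcases lt_or_gt_of_ne hij with h | h
    · exact key i j h
    · exact (key j i h).symm
  · intro i x hx
    have := hx.1
    simpa [B, dist_eq_norm] using this
  · intro x hx
    have h1 := hcov hx
    simp only [Set.mem_iUnion] at h1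
    obtain ⟨x', hx't, hxx'⟩ := h1
    have hx's : x' ∈ s := htf.mem_toFinset.2 hx't
    let i₁ : Fin s.card := e ⟨x', hx's⟩
    have hi₁ : x ∈ B i₁ := by
      have h2 : c i₁ = x' := by simp [c, i₁]
      simp only [B, h2]
      exact Metric.ball_subset_closedBall hxx'
    let S : Finset (Fin s.card) := Finset.univ.filter fun i => x ∈ B i
    have hS : S.Nonempty := ⟨i₁, by simp [S, hi₁]⟩
    let i₀ := S.min' hS
    have hi₀ : x ∈ B i₀ := by
      have := S.min'_mem hS
      simpa [S] using this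
    refine ⟨i₀, hi₀, ?_⟩
    simp only [Set.mem_iUnion, not_exists]
    intro j hj hxj
    have hjS : j ∈ S := by simp [S, hxj]
    exact absurd (S.min'_le j hjS) (not_le.2 hj)

/-- Generic choice of the perturbation parameter. -/
lemma exists_generic_eps {ι : Type} [Fintype ι] {e₀ : Eu d} (he₀ : e₀ ≠ 0) {o : ι → ℕ}
    (ho : Function.Injective o) (P : ℕ → ι → Eu d) (N : ℕ) {ε₀ : ℝ} (hε₀ : 0 < ε₀) :
    ∃ ε : ℝ, 0 < ε ∧ ε < ε₀ ∧ ∀ k, k ≤ N → ∀ a b, a ≠ b →
      P k a + (ε * o a) • e₀ ≠ P k b + (ε * o b) • e₀ := by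
  classical
  let bad : ℕ → ι → ι → Set ℝ := fun k a b =>
    {ε | a ≠ b ∧ P k a + (ε * o a) • e₀ = P k b + (ε * o b) • e₀}
  have hsub : ∀ k a b, (bad k a b).Subsingleton := by
    intro k a b ε hε ε' hε'
    have h1 := hε.2
    have h2 := hε'.2
    have hab : ((o a : ℝ) - o b) ≠ 0 := by
      intro h
      have : (o a : ℝ) = o b := by linarith
      exact hε.1 (ho (by exact_mod_cast this))
    have h3 : ((ε - ε') * ((o a : ℝ) - o b)) • e₀ = 0 := by
      have h4 : ((ε - ε') * ((o a : ℝ) - o b)) • e₀ =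
          (P k a + (ε * o a) • e₀ - (P k b + (ε * o b) • e₀)) -
            (P k a + (ε' * o a) • e₀ - (P k b + (ε' * o b) • e₀)) := by
        module
      rw [h4, h1, h2]
      simp
    have h5 := (smul_eq_zero.1 h3).resolve_right he₀
    have h6 := (mul_eq_zero.1 h5).resolve_right hab
    linarith
  let Bad : Set ℝ := ⋃ k ∈ Finset.range (N + 1), ⋃ a, ⋃ b, bad k a b
  have hBad : Bad.Finite := by
    refine Set.Finite.biUnion (Finset.finite_toSet _) fun k _ => ?_
    exact Set.finite_iUnion fun a => Set.finite_iUnion fun b => (hsub k a b).finite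
  obtain ⟨ε, hε, hεB⟩ := (Set.Ioo_infinite hε₀).exists_notMem_finite hBad
  refine ⟨ε, hε.1, hε.2, fun k hk a b hab heq => hεB ?_⟩
  simp only [Bad, Set.mem_iUnion]
  exact ⟨k, Finset.mem_range.2 (Nat.lt_succ_of_le hk), a, b, hab, heq⟩

theorem exists_atoms (hd : 0 < d) {Y : Set (Eu d)} (hYc : IsCompact Y) {R : ℝ≥0}
    (hR : ∀ y ∈ Y, ‖y‖ ≤ R) {μ ν : Measure (Eu d)} (hμ : IsProbabilityOn Y μ)
    (hν : IsProbabilityOn Y ν) {π : Measure (Eu d × Eu d)} (hπ : IsPairCoupling μ ν π)
    {δ : ℝ} (hδ : 0 < δ) (hδ1 : δ ≤ 1) (N : ℕ) :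
    ∃ (ι : Type) (_ : Fintype ι) (_ : Nonempty ι) (y z : ι → Eu d) (m : ι → ℝ),
      (∀ a, 0 < m a) ∧ ∑ a, m a = 1 ∧
      (∀ k, k ≤ N → Function.Injective (pathAt y z N k)) ∧
      atomBound y ≤ R + 1 ∧ atomBound z ≤ R + 1 ∧
      ∑ a, m a * ‖z a - y a‖ ^ 2 ≤ 2 * (quadCost π).toReal + 2 * δ ^ 2 ∧
      (∀ (A : ℝ≥0) (G : Eu d → ℝ), LipschitzWith A G →
        |∑ a, m a * G (y a) - ∫ v, G v ∂μ| ≤ A * δ) ∧
      (∀ (A : ℝ≥0) (G : Eu d → ℝ), LipschitzWith A G →
        |∑ a, m a * G (z a) - ∫ v, G v ∂ν| ≤ A * δ) := by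
  classical
  obtain ⟨hμp, hμY⟩ := hμ
  obtain ⟨hνp, hνY⟩ := hν
  obtain ⟨hπ1, hπ2⟩ := hπ
  have hYm : MeasurableSet Y := hYc.measurableSet
  -- `π` is a probability measure
  have hπp : IsProbabilityMeasure π := by
    constructor
    have : (π.map Prod.fst) Set.univ = 1 := by rw [hπ1]; exact measure_univ
    rwa [Measure.map_apply measurable_fst MeasurableSet.univ, Set.preimage_univ] at this
  -- carried by `Y × Y`
  have hπY1 : ∀ᵐ p ∂π, p.1 ∈ Y := by
    have : (π.map Prod.fst) Yᶜ = 0 := by rw [hπ1]; exact hμY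
    rw [Measure.map_apply measurable_fst hYm.compl] at this
    exact this
  have hπY2 : ∀ᵐ p ∂π, p.2 ∈ Y := by
    have : (π.map Prod.snd) Yᶜ = 0 := by rw [hπ2]; exact hνY
    rw [Measure.map_apply measurable_snd hYm.compl] at this
    exact this
  -- the partition
  obtain ⟨p₀, c, Qx, hcY, hQm, hQd, hQb, hQc⟩ := exists_partition hYc (half_pos hδ)
  let J := Fin p₀ × Fin p₀
  let Q : J → Set (Eu d × Eu d) := fun a => Qx a.1 ×ˢ Qx a.2
  have hQam : ∀ a, MeasurableSet (Q a) := fun a => (hQm a.1).prod (hQm a.2)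
  have hQad : Pairwise (Function.onFun Disjoint Q) := by
    intro a b hab
    simp only [Function.onFun, Q]
    rw [Set.disjoint_left]
    rintro ⟨u, v⟩ ⟨hu, hv⟩ ⟨hu', hv'⟩
    apply hab
    have h1 : a.1 = b.1 := by
      by_contra h
      exact Set.disjoint_left.1 (hQd _ _ h) hu hu'
    have h2 : a.2 = b.2 := by
      by_contra h
      exact Set.disjoint_left.1 (hQd _ _ h) hv hv'
    exact Prod.ext h1 h2
  have hQcov : ∀ᵐ p ∂π, p ∈ ⋃ a, Q a := by
    filter_upwards [hπY1, hπY2] with p h1 h2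
    obtain ⟨i, hi⟩ := hQc _ h1
    obtain ⟨j, hj⟩ := hQc _ h2
    exact Set.mem_iUnion.2 ⟨(i, j), hi, hj⟩
  -- integral formula over all pieces
  have hformula0 : ∀ {F : Eu d × Eu d → ℝ}, Integrable F π →
      ∫ p, F p ∂π = ∑ a, ∫ p in Q a, F p ∂π := by
    intro F hF
    have h1 : ∫ p in ⋃ a, Q a, F p ∂π = ∑ a, ∫ p in Q a, F p ∂π := by
      rw [integral_iUnion hQam hQad hF.integrableOn, tsum_fintype]
    rw [← h1]
    have h2 : (⋃ a, Q a) =ᵐ[π] (Set.univ : Set (Eu d × Eu d)) := by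
      rw [ae_eq_univ]
      exact hQcov
    rw [setIntegral_congr_set h2, setIntegral_univ]
  -- positive pieces
  let ι : Type := {a : J // 0 < π.real (Q a)}
  let m : ι → ℝ := fun a => π.real (Q a.1)
  have hm0 : ∀ a, 0 < m a := fun a => a.2
  have hformula : ∀ {F : Eu d × Eu d → ℝ}, Integrable F π →
      ∫ p, F p ∂π = ∑ a : ι, ∫ p in Q a.1, F p ∂π := by
    intro F hF
    rw [hformula0 hF]
    have h1 : ∑ a : J, ∫ p in Q a, F p ∂π =
        ∑ a ∈ Finset.univ.filter (fun a : J => 0 < π.real (Q a)), ∫ p in Q a, F p ∂π := by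
      symm
      apply Finset.sum_filter_of_ne
      intro a _ ha
      by_contra hpos
      apply ha
      have h2 : π (Q a) = 0 := by
        have h3 : π.real (Q a) = 0 := le_antisymm (not_lt.1 hpos) measureReal_nonneg
        exact (measureReal_eq_zero_iff (measure_ne_top _ _)).1 h3
      rw [Measure.restrict_eq_zero.2 h2, integral_zero_measure]
    rw [h1]
    exact Finset.sum_subtype _ (by simp) _
  have hmsum : ∑ a, m a = 1 := by
    have h1 := hformula (F := fun _ => 1) (integrable_const _)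
    simp only [integral_const, smul_eq_mul, mul_one, probReal_univ] at h1
    simp only [Measure.real, Measure.restrict_apply MeasurableSet.univ, Set.univ_inter] at h1
    exact h1.symm
  have hιne : Nonempty ι := by
    by_contra hne
    rw [not_nonempty_iff] at hne
    simp at hmsum
  -- perturbation
  let e₀ : Eu d := EuclideanSpace.single ⟨0, hd⟩ (1 : ℝ)
  have he₀n : ‖e₀‖ = 1 := by simp [e₀]
  have he₀ : e₀ ≠ 0 := by
    intro h
    rw [h, norm_zero] at he₀n
    exact zero_ne_one he₀n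
  let o : ι → ℕ := fun a => (Fintype.equivFin ι a).1
  have ho : Function.Injective o := fun a b h =>
    (Fintype.equivFin ι).injective (Fin.ext h)
  have hoB : ∀ a, (o a : ℝ) ≤ Fintype.card ι := fun a => by
    have : o a < Fintype.card ι := (Fintype.equivFin ι a).2
    exact_mod_cast this.le
  let y₀ : ι → Eu d := fun a => c a.1.1
  let z₀ : ι → Eu d := fun a => c a.1.2
  let ε₀ : ℝ := δ / (2 * ((Fintype.card ι : ℝ) + 1))
  have hε₀ : 0 < ε₀ := by positivity
  obtain ⟨ε, hε, hεlt, hgen⟩ := exists_generic_eps he₀ ho (fun k => pathAt y₀ z₀ N k) N hε₀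
  let y : ι → Eu d := fun a => y₀ a + (ε * o a) • e₀
  let z : ι → Eu d := fun a => z₀ a + (ε * o a) • e₀
  have hsmall : ∀ a, ‖(ε * (o a : ℝ)) • e₀‖ ≤ δ / 2 := by
    intro a
    rw [norm_smul, he₀n, mul_one, Real.norm_eq_abs, abs_of_nonneg (by positivity)]
    have h1 : ε * (o a : ℝ) ≤ ε₀ * ((Fintype.card ι : ℝ) + 1) := by
      apply mul_le_mul hεlt.le _ (by positivity) hε₀.le
      linarith [hoB a]
    have h2 : ε₀ * ((Fintype.card ι : ℝ) + 1) = δ / 2 := by
      simp only [ε₀]; field_simp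
    linarith
  have hzy : ∀ a, z a - y a = z₀ a - y₀ a := fun a => by
    simp only [z, y]; abel
  have hpath : ∀ k a, pathAt y z N k a = pathAt y₀ z₀ N k a + (ε * o a) • e₀ := by
    intro k a
    simp only [pathAt]
    rw [hzy]
    simp only [y]
    abel
  have hinj : ∀ k, k ≤ N → Function.Injective (pathAt y z N k) := by
    intro k hk a b hab
    by_contra hne
    apply hgen k hk a b hne
    rw [← hpath, ← hpath]
    exact hab
  -- bounds on pieces
  have hy₁ : ∀ (a : ι) (p : Eu d × Eu d), p ∈ Q a.1 → ‖y a - p.1‖ ≤ δ := by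
    intro a p hp
    have h1 : ‖p.1 - c a.1.1‖ ≤ δ / 2 := hQb _ _ hp.1
    have h2 : y a - p.1 = (ε * (o a : ℝ)) • e₀ - (p.1 - c a.1.1) := by
      simp only [y, y₀]; abel
    rw [h2]
    refine (norm_sub_le _ _).trans ?_
    have := hsmall a
    linarith
  have hz₁ : ∀ (a : ι) (p : Eu d × Eu d), p ∈ Q a.1 → ‖z a - p.2‖ ≤ δ := by
    intro a p hp
    have h1 : ‖p.2 - c a.1.2‖ ≤ δ / 2 := hQb _ _ hp.2
    have h2 : z a - p.2 = (ε * (o a : ℝ)) • e₀ - (p.2 - c a.1.2) := by
      simp only [z, z₀]; abel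
    rw [h2]
    refine (norm_sub_le _ _).trans ?_
    have := hsmall a
    linarith
  -- Lipschitz estimate
  have hLip : ∀ (Φ : Eu d × Eu d → Eu d) (t : ι → Eu d) (κ : Measure (Eu d)),
      Measurable Φ → π.map Φ = κ → (∀ᵐ p ∂π, Φ p ∈ Y) →
      (∀ (a : ι) (p : Eu d × Eu d), p ∈ Q a.1 → ‖t a - Φ p‖ ≤ δ) →
      ∀ (A : ℝ≥0) (G : Eu d → ℝ), LipschitzWith A G →
        |∑ a, m a * G (t a) - ∫ v, G v ∂κ| ≤ A * δ := by
    intro Φ t κ hΦ hκ hΦY htb A G hG
    have hGc := hG.continuous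
    obtain ⟨B, hB⟩ := hYc.exists_bound_of_continuousOn hGc.continuousOn
    have hGi : Integrable (fun p => G (Φ p)) π := by
      refine Integrable.of_bound (hGc.measurable.comp hΦ).aestronglyMeasurable B ?_
      filter_upwards [hΦY] with p hp using hB _ hp
    have h1 : ∫ v, G v ∂κ = ∑ a : ι, ∫ p in Q a.1, G (Φ p) ∂π := by
      rw [← hκ, integral_map hΦ.aemeasurable hGc.aestronglyMeasurable]
      exact hformula hGi
    have h2 : ∀ a : ι, m a * G (t a) = ∫ p in Q a.1, G (t a) ∂π := by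
      intro a
      rw [setIntegral_const, smul_eq_mul]
    rw [h1]
    simp_rw [h2]
    rw [← Finset.sum_sub_distrib]
    refine (Finset.abs_sum_le_sum_abs _ _).trans ?_
    have h3 : ∀ a : ι, |∫ p in Q a.1, G (t a) ∂π - ∫ p in Q a.1, G (Φ p) ∂π| ≤ (A * δ) * m a := by
      intro a
      rw [← integral_sub (integrable_const _).integrableOn hGi.integrableOn]
      rw [← Real.norm_eq_abs]
      apply norm_setIntegral_le_of_norm_le_const (measure_lt_top _ _)
      intro p hp
      rw [Real.norm_eq_abs, ← Real.dist_eq]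
      refine (hG.dist_le_mul _ _).trans ?_
      rw [dist_eq_norm]
      exact mul_le_mul_of_nonneg_left (htb a p hp) (NNReal.coe_nonneg _)
    refine (Finset.sum_le_sum fun a _ => h3 a).trans (le_of_eq ?_)
    rw [← Finset.mul_sum, hmsum, mul_one]
  -- the cost
  have hcost : (quadCost π).toReal = ∫ p, ‖p.1 - p.2‖ ^ 2 ∂π := by
    have hfi : Integrable (fun p : Eu d × Eu d => ‖p.1 - p.2‖ ^ 2) π := by
      refine Integrable.of_bound (by
        apply Continuous.aestronglyMeasurable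
        fun_prop) ((2 * R) ^ 2) ?_
      filter_upwards [hπY1, hπY2] with p h1 h2
      rw [Real.norm_eq_abs, abs_pow, abs_norm]
      apply pow_le_pow_left₀ (norm_nonneg _)
      have h3 := norm_sub_le p.1 p.2
      have h4 := hR _ h1
      have h5 := hR _ h2
      linarith
    have h1 := ofReal_integral_eq_lintegral_ofReal hfi
      (Eventually.of_forall fun p => sq_nonneg _)
    have h2 : ∫⁻ p, ENNReal.ofReal (‖p.1 - p.2‖ ^ 2) ∂π = quadCost π := by
      unfold quadCost
      apply lintegral_congr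
      intro p
      rw [ENNReal.ofReal_pow (norm_nonneg _), ofReal_norm_eq_enorm]
    rw [← h2, ← h1, ENNReal.toReal_ofReal (integral_nonneg fun p => sq_nonneg _)]
  have hsecond : ∑ a, m a * ‖z a - y a‖ ^ 2 ≤ 2 * (quadCost π).toReal + 2 * δ ^ 2 := by
    have hfi : Integrable (fun p : Eu d × Eu d => ‖p.1 - p.2‖ ^ 2) π := by
      refine Integrable.of_bound (by
        apply Continuous.aestronglyMeasurable
        fun_prop) ((2 * R) ^ 2) ?_
      filter_upwards [hπY1, hπY2] with p h1 h2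
      rw [Real.norm_eq_abs, abs_pow, abs_norm]
      apply pow_le_pow_left₀ (norm_nonneg _)
      have h3 := norm_sub_le p.1 p.2
      have h4 := hR _ h1
      have h5 := hR _ h2
      linarith
    have hgi : Integrable (fun p : Eu d × Eu d => 2 * ‖p.1 - p.2‖ ^ 2 + 2 * δ ^ 2) π :=
      (hfi.const_mul 2).add (integrable_const _)
    have h1 : ∫ p, (2 * ‖p.1 - p.2‖ ^ 2 + 2 * δ ^ 2) ∂π = 2 * (quadCost π).toReal + 2 * δ ^ 2 := by
      rw [integral_add (hfi.const_mul 2) (integrable_const _), integral_const_mul, hcost]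
      simp
    rw [← h1, hformula hgi]
    apply Finset.sum_le_sum
    intro a _
    have h2 : m a * ‖z a - y a‖ ^ 2 = ∫ p in Q a.1, ‖z a - y a‖ ^ 2 ∂π := by
      rw [setIntegral_const, smul_eq_mul]
    rw [h2]
    apply setIntegral_mono_on (integrable_const _).integrableOn hgi.integrableOn (hQam a.1)
    intro p hp
    have h3 := hy₁ a p hp
    have h4 := hz₁ a p hp
    have h5 : ‖z a - y a‖ ≤ ‖p.1 - p.2‖ + 2 * δ := by
      have h6 : z a - y a = (z a - p.2) - (y a - p.1) - (p.1 - p.2) := by abel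
      rw [h6]
      refine (norm_sub_le _ _).trans ?_
      have := norm_sub_le (z a - p.2) (y a - p.1)
      linarith
    -- use the sharper bound on the base atoms
    have h7 : ‖z a - y a‖ ≤ ‖p.1 - p.2‖ + δ := by
      have hp1 : ‖p.1 - c a.1.1‖ ≤ δ / 2 := hQb _ _ hp.1
      have hp2 : ‖p.2 - c a.1.2‖ ≤ δ / 2 := hQb _ _ hp.2
      rw [hzy]
      have h6 : z₀ a - y₀ a = (p.1 - c a.1.1) - (p.2 - c a.1.2) - (p.1 - p.2) := by
        simp only [z₀, y₀]; abel
      rw [h6]
      refine (norm_sub_le _ _).trans ?_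
      have := norm_sub_le (p.1 - c a.1.1) (p.2 - c a.1.2)
      linarith
    calc ‖z a - y a‖ ^ 2 ≤ (‖p.1 - p.2‖ + δ) ^ 2 := pow_le_pow_left₀ (norm_nonneg _) h7 2
      _ ≤ _ := by nlinarith [sq_nonneg (‖p.1 - p.2‖ - δ)]
  -- bounds
  have hby : ∀ (w₀ : ι → Eu d), (∀ a, w₀ a ∈ Y) →
      atomBound (fun a => w₀ a + (ε * (o a : ℝ)) • e₀) ≤ R + 1 := by
    intro w₀ hw₀
    unfold atomBound
    apply Finset.sup_le
    intro a _
    rw [← NNReal.coe_le_coe]
    push_cast
    refine (norm_add_le _ _).trans ?_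
    have h1 := hR _ (hw₀ a)
    have h2 := hsmall a
    linarith
  refine ⟨ι, inferInstance, hιne, y, z, m, hm0, hmsum, hinj, hby y₀ (fun a => hcY _),
    hby z₀ (fun a => hcY _), hsecond, ?_, ?_⟩
  · exact hLip Prod.fst y μ measurable_fst hπ1 hπY1 hy₁
  · exact hLip Prod.snd z ν measurable_snd hπ2 hπY2 hz₁

end Crest.Agent.Lib.OTStab
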