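/-
Key Lemma V of the proof of S0109:  ‖φ₁ - φ₂ - mean‖_{L²(ρ)}² ≤ C · E.
-/
import Crest.Agent.Lib.OTStabAtoms

set_option autoImplicit false
set_option linter.unusedSectionVars false
set_option linter.unusedSimpArgs false
set_option linter.deprecated false
set_option linter.unusedVariables false

open MeasureTheory Crest.AnalysisR.OT Filter Topology
open scoped ENNReal NNReal RealInnerProductSpace

namespace Crest.Agent.Lib.OTStab

variable {d : ℕ}

section Defect

variable {K : Set (Eu d)} {ι : Type*} [Fintype ι] [Nonempty ι]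

/-- A Laguerre potential whose atoms approximate `μ` is nearly dual-optimal for an optimal map. -/
lemma defect_atoms_le (hKc : IsCompact K) (hKi : (interior K).Nonempty)
    {A : ℝ≥0} (hA : ∀ x ∈ K, ‖x‖ ≤ A) {μ : Measure (Eu d)} {T : Eu d → Eu d} {φ : Eu d → ℝ}
    {R : ℝ≥0} (hT : Measurable T) (hmap : (uniformProbOn K).map T = μ) (hφ : IsPot K R T φ)
    {y : ι → Eu d} (hy : Function.Injective y) {m w : ι → ℝ}
    (hw : ∀ i, ∫ x in lagCell y w i, (1 : ℝ) ∂(uniformProbOn K) = m i)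
    {δ : ℝ} (hv : ∀ G : Eu d → ℝ, LipschitzWith A G → |∑ a, m a * G (y a) - ∫ v, G v ∂μ| ≤ A * δ) :
    ∫ x, defectF K (lagPot y w) T x ∂(uniformProbOn K) ≤ 2 * (A * δ) := by
  have hprob := uniform_isProb hKc hKi
  have hKn : K.Nonempty := hKi.mono interior_subset
  set ρ := uniformProbOn K with hρ
  set f := lagPot y w with hf
  have hfc : Continuous f := lagPot_continuous y w
  have hφc : Continuous φ := hφ.lip.continuous
  set G₁ := conj K f with hG₁
  set G₂ := conj K φ with hG₂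
  have hG₁L : LipschitzWith A G₁ := conj_lipschitz hKn hKc hfc A hA
  have hG₂L : LipschitzWith A G₂ := conj_lipschitz hKn hKc hφc A hA
  have hTb : ∀ᵐ x ∂ρ, ‖T x‖ ≤ R := by
    filter_upwards [hφ.ae] with x hx using hx.1
  have hcomp : ∀ G : Eu d → ℝ, Continuous G → Integrable (fun x => G (T x)) ρ := by
    intro G hG
    obtain ⟨B, hB⟩ := (isCompact_closedBall (0 : Eu d) R).exists_bound_of_continuousOn
      hG.continuousOn
    refine Integrable.of_bound (hG.measurable.comp hT).aestronglyMeasurable B ?_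
    filter_upwards [hTb] with x hx
    exact hB _ (by simpa using hx)
  have hmapint : ∀ G : Eu d → ℝ, Continuous G → ∫ v, G v ∂μ = ∫ x, G (T x) ∂ρ := by
    intro G hG
    rw [← hmap]
    exact integral_map hT.aemeasurable hG.aestronglyMeasurable
  have hin : Integrable (fun x => ⟪x, T x⟫) ρ := by
    refine Integrable.of_bound (Measurable.inner measurable_id hT).aestronglyMeasurable
      ((A : ℝ) * R) ?_
    filter_upwards [hTb, uniform_ae_mem hKc] with x hx hxK
    rw [Real.norm_eq_abs]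
    exact (abs_real_inner_le_norm _ _).trans
      (mul_le_mul (hA x hxK) hx (norm_nonneg _) (NNReal.coe_nonneg _))
  have hfi : Integrable f ρ := uniform_integrable_of_continuous hKc hKi hfc
  have hφi : Integrable φ ρ := uniform_integrable_of_continuous hKc hKi hφc
  have hG₁i := hcomp G₁ hG₁L.continuous
  have hG₂i := hcomp G₂ hG₂L.continuous
  -- the defect
  have hdef : ∫ x, defectF K f T x ∂ρ = ∫ x, f x ∂ρ + ∫ x, G₁ (T x) ∂ρ - ∫ x, ⟪x, T x⟫ ∂ρ := by
    have hiA : Integrable (fun x => f x + G₁ (T x)) ρ := hfi.add hG₁i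
    change ∫ x, (f x + G₁ (T x) - ⟪x, T x⟫) ∂ρ = _
    rw [integral_sub hiA hin, integral_add hfi hG₁i]
  -- Fenchel equality
  have hfench : ∫ x, φ x ∂ρ + ∫ x, G₂ (T x) ∂ρ = ∫ x, ⟪x, T x⟫ ∂ρ := by
    rw [← integral_add hφi hG₂i]
    apply integral_congr_ae
    filter_upwards [hφ.ae, uniform_ae_mem hKc] with x hx hxK
    exact add_conj_eq_of_subgrad hKn hKc hφc hxK (fun z _ => hx.2 z)
  -- first estimate
  have h1 : ∫ x, G₁ (T x) ∂ρ ≤ ∑ a, m a * w a + A * δ := by
    have h2 := (abs_le.1 (hv G₁ hG₁L)).1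
    rw [hmapint G₁ hG₁L.continuous] at h2
    have h3 : ∑ a, m a * G₁ (y a) ≤ ∑ a, m a * w a := by
      apply Finset.sum_le_sum
      intro a _
      have hma : 0 ≤ m a := by
        rw [← hw a]
        exact integral_nonneg fun _ => zero_le_one
      exact mul_le_mul_of_nonneg_left (conj_lagPot_le hKn y w a) hma
    linarith
  -- value at the Laguerre potential
  have hone : Measurable (fun _ : Eu d => (1 : ℝ)) := measurable_const
  have hoB : ∀ x : Eu d, |(fun _ : Eu d => (1 : ℝ)) x| ≤ 1 := by simp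
  have hval : ∫ x, f x ∂ρ + ∑ a, m a * w a = ∑ a, ⟪y a, lagMom K y w (fun _ => 1) a⟫ := by
    have := kantFun_eq hKc hKi hy hone hoB (m := m) (w := w) hw
    unfold kantFun at this
    simpa using this
  -- weak duality
  have hmom : ∀ a, ⟪y a, lagMom K y w (fun _ => 1) a⟫ ≤
      ∫ x in lagCell y w a, φ x ∂ρ + m a * G₂ (y a) := by
    intro a
    have h2 := setIntegral_affine hKc hKi hone hoB (C := lagCell y w a) (y a) 0
    simp only [sub_zero, zero_mul, mul_one] at h2
    have h3 : ⟪y a, lagMom K y w (fun _ => 1) a⟫ = ∫ x in lagCell y w a, ⟪y a, x⟫ ∂ρ := by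
      unfold lagMom
      exact h2.symm
    rw [h3, ← hw a]
    have h4 : (∫ x in lagCell y w a, (1 : ℝ) ∂ρ) * G₂ (y a) = ∫ x in lagCell y w a, G₂ (y a) ∂ρ := by
      rw [← integral_mul_const]; simp
    rw [h4, ← integral_add hφi.integrableOn (integrable_const _).integrableOn]
    apply setIntegral_mono_ae_restrict
    · exact (uniform_integrable_of_continuous hKc hKi (by fun_prop)).integrableOn
    · exact (hφi.add (integrable_const _)).integrableOn
    · refine ae_restrict_of_ae ?_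
      filter_upwards [uniform_ae_mem hKc] with x hxK
      have := inner_le_add_conj hKc hφc hxK (y a)
      rw [real_inner_comm]
      exact this
  have h5 : ∑ a, ⟪y a, lagMom K y w (fun _ => 1) a⟫ ≤ ∫ x, φ x ∂ρ + ∑ a, m a * G₂ (y a) := by
    rw [← sum_setIntegral_lagCell hy w hφi, ← Finset.sum_add_distrib]
    exact Finset.sum_le_sum fun a _ => hmom a
  have h6 : ∑ a, m a * G₂ (y a) ≤ ∫ x, G₂ (T x) ∂ρ + A * δ := by
    have h2 := (abs_le.1 (hv G₂ hG₂L)).2
    rw [hmapint G₂ hG₂L.continuous] at h2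
    linarith
  rw [hdef]
  linarith

end Defect

/-- Choice of parameters. -/
lemma exists_nat_div_le {c η : ℝ} (hc : 0 ≤ c) (hη : 0 < η) :
    ∃ N : ℕ, 0 < N ∧ c / N ≤ η := by
  obtain ⟨N, hN⟩ := exists_nat_gt (c / η)
  have h0 : 0 ≤ c / η := by positivity
  have hNr : (0 : ℝ) < N := lt_of_le_of_lt h0 hN
  refine ⟨N, by exact_mod_cast hNr, ?_⟩
  rw [div_le_iff₀ hNr]
  rw [div_lt_iff₀ hη] at hN
  linarith

lemma exists_pos_mul_le {c η : ℝ} (hc : 0 ≤ c) (hη : 0 < η) :
    ∃ s : ℝ, 0 < s ∧ c * s ≤ η := by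
  refine ⟨η / (c + 1), by positivity, ?_⟩
  rw [← mul_div_assoc, div_le_iff₀ (by positivity)]
  nlinarith

theorem lemma_V {K Y : Set (Eu d)} (hKc : IsCompact K) (hKv : Convex ℝ K)
    (hKi : (interior K).Nonempty) (hYc : IsCompact Y) (R : ℝ≥0) (hR : ∀ y ∈ Y, ‖y‖ ≤ R) :
    ∃ C : ℝ, 0 ≤ C ∧ ∀ (μ ν : Measure (Eu d)), IsProbabilityOn Y μ → IsProbabilityOn Y ν →
      ∀ (T₁ T₂ : Eu d → Eu d) (φ₁ φ₂ : Eu d → ℝ),
      Measurable T₁ → Measurable T₂ →
      (uniformProbOn K).map T₁ = μ → (uniformProbOn K).map T₂ = ν →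
      IsPot K R T₁ φ₁ → IsPot K R T₂ φ₂ →
      ∀ π : Measure (Eu d × Eu d), IsPairCoupling μ ν π →
      ∫ x, (φ₁ x - φ₂ x - ∫ z, (φ₁ z - φ₂ z) ∂(uniformProbOn K)) ^ 2 ∂(uniformProbOn K) ≤
        C * (quadCost π).toReal := by
  classical
  have hprob := uniform_isProb hKc hKi
  set ρ := uniformProbOn K with hρ
  obtain ⟨x₀, hx₀⟩ : K.Nonempty := hKi.mono interior_subset
  obtain ⟨A', hA'⟩ := hKc.isBounded.exists_norm_le
  set A : ℝ≥0 := A'.toNNReal with hAdef
  have hA : ∀ x ∈ K, ‖x‖ ≤ A := fun x hx => (hA' x hx).trans (Real.le_coe_toNNReal A')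
  have hA0 : (0 : ℝ) ≤ A := NNReal.coe_nonneg _
  set D : ℝ := 2 * A + 1 with hDdef
  have hD : 0 < D := by positivity
  have hc : ∀ x ∈ K, ‖x - x₀‖ ≤ D := by
    intro x hx
    have h1 := norm_sub_le x x₀
    have h2 := hA x hx
    have h3 := hA x₀ hx₀
    rw [hDdef]; linarith
  set D₀ : ℝ := 2 * A with hD₀def
  have hD₀0 : 0 ≤ D₀ := by positivity
  have hD₀ : ∀ x ∈ K, ∀ x' ∈ K, ‖x' - x‖ ≤ D₀ := by
    intro x hx x' hx'
    have h1 := norm_sub_le x' x
    have h2 := hA x hx
    have h3 := hA x' hx'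
    rw [hD₀def]; linarith
  refine ⟨2 * (354 * D) ^ 2, by positivity, ?_⟩
  intro μ ν hμ hν T₁ T₂ φ₁ φ₂ hT₁ hT₂ hm₁ hm₂ hφ₁ hφ₂ π hπ
  have hφ₁c : Continuous φ₁ := hφ₁.lip.continuous
  have hφ₂c : Continuous φ₂ := hφ₂.lip.continuous
  set u : Eu d → ℝ := fun x => φ₁ x - φ₂ x with hu
  have huc : Continuous u := hφ₁c.sub hφ₂c
  have hui : Integrable u ρ := uniform_integrable_of_continuous hKc hKi huc
  set ub : ℝ := ∫ z, u z ∂ρ with hub
  set E : ℝ := (quadCost π).toReal with hE
  have hE0 : 0 ≤ E := ENNReal.toReal_nonneg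
  set H : ℝ := ∫ x, (u x - ub) ^ 2 ∂ρ with hH
  have hH0 : 0 ≤ H := integral_nonneg fun x => sq_nonneg _
  change H ≤ 2 * (354 * D) ^ 2 * E
  rcases Nat.eq_zero_or_pos d with hd0 | hd
  · -- dimension zero: everything is constant
    subst hd0
    have h1 : ∀ x, u x - ub = 0 := by
      intro x
      have h2 : ∀ z, u z = u x := fun z => by rw [Subsingleton.elim z x]
      have h3 : ub = u x := by
        rw [hub]
        simp_rw [h2]
        simp
      rw [h3, sub_self]
    rw [hH]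
    simp_rw [h1]
    simp only [ne_eq, OfNat.ofNat_ne_zero, not_false_eq_true, zero_pow, integral_zero]
    positivity
  -- the test function
  obtain ⟨B, hB⟩ := hKc.exists_bound_of_continuousOn (huc.sub continuous_const : Continuous fun x => u x - ub).continuousOn
  set M : ℝ := |B| with hMdef
  have hM0 : 0 ≤ M := abs_nonneg _
  set h : Eu d → ℝ := K.indicator fun x => -(u x - ub) with hhdef
  have hKm : MeasurableSet K := hKc.measurableSet
  have hhm : Measurable h := ((huc.sub continuous_const).neg.measurable).indicator hKm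
  have hM : ∀ x, |h x| ≤ M := by
    intro x
    by_cases hx : x ∈ K
    · rw [hhdef, Set.indicator_of_mem hx, abs_neg]
      have := hB x hx
      rw [Real.norm_eq_abs] at this
      exact this.trans (le_abs_self B)
    · rw [hhdef, Set.indicator_of_notMem hx, abs_zero]
      exact hM0
  have hhae : h =ᵐ[ρ] fun x => -(u x - ub) := by
    filter_upwards [uniform_ae_mem hKc] with x hx
    rw [hhdef, Set.indicator_of_mem hx]
  have hmean0 : ∫ x, (u x - ub) ∂ρ = 0 := by
    rw [integral_sub hui (integrable_const _)]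
    simp [hub]
  have hmean : ∫ x, h x ∂ρ = 0 := by
    rw [integral_congr_ae hhae, integral_neg, hmean0, neg_zero]
  have hHh : ∫ x, h x ^ 2 ∂ρ = H := by
    apply integral_congr_ae
    filter_upwards [hhae] with x hx
    rw [hx]; ring
  have hhi : Integrable h ρ := integrable_of_abs_le hKc hKi hhm hM
  -- the identity
  have hbdd : ∀ {f : Eu d → ℝ}, Continuous f → Integrable (fun x => f x * h x) ρ := by
    intro f hf
    exact Integrable.mul_bdd (c := M) (uniform_integrable_of_continuous hKc hKi hf)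
      hhm.aestronglyMeasurable (Eventually.of_forall fun x => by simpa using hM x)
  have hid : ∫ x, (φ₂ x - φ₁ x) * h x ∂ρ = H := by
    have h1 : (fun x => (φ₂ x - φ₁ x) * h x) =ᵐ[ρ] fun x => (u x - ub) ^ 2 + ub * (u x - ub) := by
      filter_upwards [hhae] with x hx
      rw [hx]
      simp only [hu]
      ring
    rw [integral_congr_ae h1]
    have hi1 : Integrable (fun x => (u x - ub) ^ 2) ρ :=
      uniform_integrable_of_continuous hKc hKi (by fun_prop)
    have hi2 : Integrable (fun x => ub * (u x - ub)) ρ :=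
      uniform_integrable_of_continuous hKc hKi (by fun_prop)
    rw [integral_add hi1 hi2, integral_const_mul, hmean0]
    simp [hH]
  -- the main inequality for all parameters
  set R' : ℝ≥0 := R + 1 with hR'
  have hR'0 : (0 : ℝ) ≤ R' := NNReal.coe_nonneg _
  have hparam : ∀ (δ s : ℝ) (N N' N'' : ℕ), 0 < δ → δ ≤ 1 → 0 < s → s * M ≤ 1 / 2 → 0 < N → 0 < N' →
      0 < N'' →
      H ≤ 354 * D * Real.sqrt H * Real.sqrt (2 * E) + 354 * D * Real.sqrt H * (2 * δ) +
        (A / (N * s)) * (2 * R') +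
        M * (2 * (((N' : ℝ) + 1) * 2 ^ d * (s * (2 * R' * D₀ * M)) + 2 * R' * D₀ / N')) +
        2 * (M * (2 * (((N'' : ℝ) + 1) * 2 ^ d * (2 * (A * δ)) + 2 * R * D₀ / N''))) := by
    intro δ s N N' N'' hδ hδ1 hs hsM hN hN' hN''
    obtain ⟨ι, iF, iN, y, z, m, hm0, hmsum, hinj, hby0, hbz0, hE', hvy, hvz⟩ :=
      exists_atoms hd hYc hR hμ hν hπ hδ hδ1 N
    have hby : atomBound y ≤ R' := hby0
    have hbz : atomBound z ≤ R' := hbz0
    have hone : Integrable (fun _ : Eu d => (1 : ℝ)) ρ := integrable_const _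
    have hone1 : ∑ i, m i = ∫ x, (fun _ : Eu d => (1 : ℝ)) x ∂ρ := by
      rw [hmsum]; simp
    have hyinj : Function.Injective y := by
      have := hinj 0 (Nat.zero_le _)
      rwa [pathAt_zero] at this
    have hzinj : Function.Injective z := by
      have := hinj N le_rfl
      rwa [pathAt_top y z hN] at this
    obtain ⟨wy, hwy⟩ := exists_lagWeights hKc hKi hyinj hone (fun _ => zero_le_one) m hm0 hone1
    obtain ⟨wz, hwz⟩ := exists_lagWeights hKc hKi hzinj hone (fun _ => zero_le_one) m hm0 hone1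
    have hdisc := discrete_V hKc hKv hKi hD hc hA hD₀ hm0 hmsum hhm hM hmean hs hsM hN hN' hinj
      hby hbz hwy hwz
    rw [hHh] at hdisc
    -- Lemma U for `T₁`, `T₂`
    have hU1 := lemmaU hKc hKv hKi hT₁ hφ₁ (lagPot_continuous y wy) hD₀
      (defect_atoms_le hKc hKi hA hT₁ hm₁ hφ₁ hyinj hwy (hvy A)) hN'' hhm hM hmean
    have hU2 := lemmaU hKc hKv hKi hT₂ hφ₂ (lagPot_continuous z wz) hD₀
      (defect_atoms_le hKc hKi hA hT₂ hm₂ hφ₂ hzinj hwz (hvz A)) hN'' hhm hM hmean
    set fy := lagPot y wy with hfy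
    set fz := lagPot z wz with hfz
    have hfyc : Continuous fy := lagPot_continuous y wy
    have hfzc : Continuous fz := lagPot_continuous z wz
    have hsplit : H = ∫ x, (fz x - fy x) * h x ∂ρ - ∫ x, (fz x - φ₂ x) * h x ∂ρ +
        ∫ x, (fy x - φ₁ x) * h x ∂ρ := by
      have e : ∀ x, (φ₂ x - φ₁ x) * h x =
          ((fz x - fy x) * h x - (fz x - φ₂ x) * h x) + (fy x - φ₁ x) * h x := fun x => by ring
      have i1 : Integrable (fun x => (fz x - fy x) * h x) ρ := hbdd (hfzc.sub hfyc)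
      have i2 : Integrable (fun x => (fz x - φ₂ x) * h x) ρ := hbdd (hfzc.sub hφ₂c)
      have i3 : Integrable (fun x => (fy x - φ₁ x) * h x) ρ := hbdd (hfyc.sub hφ₁c)
      have i12 : Integrable (fun x => (fz x - fy x) * h x - (fz x - φ₂ x) * h x) ρ := i1.sub i2
      rw [← hid]
      simp_rw [e]
      rw [integral_add i12 i3, integral_sub i1 i2]
    -- bound for `E'`
    set E' : ℝ := ∑ a, m a * ‖z a - y a‖ ^ 2 with hE'def
    have hE'0 : 0 ≤ E' := Finset.sum_nonneg fun a _ => mul_nonneg (hm0 a).le (sq_nonneg _)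
    have hE'2 : E' ≤ (2 * R') ^ 2 := by
      have h1 : ∀ a, m a * ‖z a - y a‖ ^ 2 ≤ m a * (2 * R') ^ 2 := by
        intro a
        apply mul_le_mul_of_nonneg_left _ (hm0 a).le
        apply pow_le_pow_left₀ (norm_nonneg _)
        have h2 := norm_sub_le (z a) (y a)
        have h3 : ‖z a‖ ≤ R' := (norm_le_atomBound z a).trans (by exact_mod_cast hbz)
        have h4 : ‖y a‖ ≤ R' := (norm_le_atomBound y a).trans (by exact_mod_cast hby)
        linarith
      calc E' ≤ ∑ a, m a * (2 * R') ^ 2 := Finset.sum_le_sum fun a _ => h1 a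
        _ = (2 * R') ^ 2 := by rw [← Finset.sum_mul, hmsum, one_mul]
    have hsq1 : Real.sqrt E' ≤ Real.sqrt (2 * E) + 2 * δ := by
      apply Real.sqrt_le_iff.2
      constructor
      · positivity
      · refine hE'.trans ?_
        have h1 : (Real.sqrt (2 * E) + 2 * δ) ^ 2 =
            2 * E + 4 * δ * Real.sqrt (2 * E) + 4 * δ ^ 2 := by
          rw [add_sq, Real.sq_sqrt (by positivity)]; ring
        rw [h1]
        have h2 : 0 ≤ 4 * δ * Real.sqrt (2 * E) := by positivity
        nlinarith [sq_nonneg δ]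
    have hsq2 : Real.sqrt E' ≤ 2 * R' := by
      apply Real.sqrt_le_iff.2
      exact ⟨by positivity, hE'2⟩
    have hU1' := (abs_le.1 hU1).2
    have hU2' := (abs_le.1 hU2).1
    have hmain1 : (354 * D * Real.sqrt H + A / (N * s)) * Real.sqrt E' ≤
        354 * D * Real.sqrt H * Real.sqrt (2 * E) + 354 * D * Real.sqrt H * (2 * δ) +
          (A / (N * s)) * (2 * R') := by
      have h1 : 354 * D * Real.sqrt H * Real.sqrt E' ≤
          354 * D * Real.sqrt H * (Real.sqrt (2 * E) + 2 * δ) :=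
        mul_le_mul_of_nonneg_left hsq1 (by positivity)
      have hNs : 0 < (N : ℝ) * s := by
        have : (0 : ℝ) < N := by exact_mod_cast hN
        positivity
      have h2 : (A / (N * s)) * Real.sqrt E' ≤ (A / (N * s)) * (2 * R') :=
        mul_le_mul_of_nonneg_left hsq2 (by positivity)
      nlinarith
    calc H = _ := hsplit
      _ ≤ _ := by linarith
  -- limit of the parameters
  have hlim : ∀ η : ℝ, 0 < η → H ≤ 354 * D * Real.sqrt H * Real.sqrt (2 * E) + η := by
    intro η hη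
    have hη5 : 0 < η / 5 := by positivity
    have hRn : (0 : ℝ) ≤ R := NNReal.coe_nonneg _
    -- `N'`
    obtain ⟨N', hN', h1⟩ := exists_nat_div_le
      (c := M * (2 * (2 * R' * D₀))) (by positivity) hη5
    -- `s`
    obtain ⟨s₁, hs₁, h2⟩ := exists_pos_mul_le
      (c := M * (2 * (((N' : ℝ) + 1) * 2 ^ d * (2 * R' * D₀ * M)))) (by positivity) hη5
    set s : ℝ := min s₁ (1 / (2 * (M + 1))) with hsdef
    have hs0 : 0 < s := lt_min hs₁ (by positivity)
    have hsM : s * M ≤ 1 / 2 := by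
      have h3 : s ≤ 1 / (2 * (M + 1)) := min_le_right _ _
      calc s * M ≤ 1 / (2 * (M + 1)) * M := mul_le_mul_of_nonneg_right h3 hM0
        _ ≤ 1 / 2 := by
          rw [div_mul_eq_mul_div, div_le_iff₀ (by positivity)]
          nlinarith
    have h2' : M * (2 * (((N' : ℝ) + 1) * 2 ^ d * (2 * R' * D₀ * M))) * s ≤ η / 5 := by
      refine le_trans ?_ h2
      exact mul_le_mul_of_nonneg_left (min_le_left _ _) (by positivity)
    -- `N`
    obtain ⟨N, hN, h3⟩ := exists_nat_div_le
      (c := A / s * (2 * R')) (by positivity) hη5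
    -- `N''`
    obtain ⟨N'', hN'', h4⟩ := exists_nat_div_le
      (c := 2 * (M * (2 * (2 * R * D₀)))) (by positivity) hη5
    -- `δ`
    obtain ⟨δ₁, hδ₁, h5⟩ := exists_pos_mul_le
      (c := 354 * D * Real.sqrt H * 2 + 2 * (M * (2 * (((N'' : ℝ) + 1) * 2 ^ d * (2 * A)))))
      (by positivity) hη5
    set δ : ℝ := min δ₁ 1 with hδdef
    have hδ0 : 0 < δ := lt_min hδ₁ one_pos
    have hδ1 : δ ≤ 1 := min_le_right _ _
    have h5' : (354 * D * Real.sqrt H * 2 + 2 * (M * (2 * (((N'' : ℝ) + 1) * 2 ^ d * (2 * A))))) * δ ≤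
        η / 5 := by
      refine le_trans ?_ h5
      exact mul_le_mul_of_nonneg_left (min_le_left _ _) (by positivity)
    have hmain := hparam δ s N N' N'' hδ0 hδ1 hs0 hsM hN hN' hN''
    have hNr : (0 : ℝ) < N := by exact_mod_cast hN
    have hN'r : (0 : ℝ) < N' := by exact_mod_cast hN'
    have hN''r : (0 : ℝ) < N'' := by exact_mod_cast hN''
    have e1 : (A / (N * s)) * (2 * R') = A / s * (2 * R') / N := by
      field_simp
    have e2 : M * (2 * (((N' : ℝ) + 1) * 2 ^ d * (s * (2 * R' * D₀ * M)) + 2 * R' * D₀ / N')) =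
        M * (2 * (((N' : ℝ) + 1) * 2 ^ d * (2 * R' * D₀ * M))) * s +
          M * (2 * (2 * R' * D₀)) / N' := by
      field_simp
    have e3 : 2 * (M * (2 * (((N'' : ℝ) + 1) * 2 ^ d * (2 * (A * δ)) + 2 * R * D₀ / N''))) =
        2 * (M * (2 * (((N'' : ℝ) + 1) * 2 ^ d * (2 * A)))) * δ +
          2 * (M * (2 * (2 * R * D₀))) / N'' := by
      field_simp
    rw [e1, e2, e3] at hmain
    have e4 : 354 * D * Real.sqrt H * (2 * δ) +
        2 * (M * (2 * (((N'' : ℝ) + 1) * 2 ^ d * (2 * A)))) * δ =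
        (354 * D * Real.sqrt H * 2 + 2 * (M * (2 * (((N'' : ℝ) + 1) * 2 ^ d * (2 * A))))) * δ := by
      ring
    linarith
  -- conclusion
  have hX : H ≤ 354 * D * Real.sqrt H * Real.sqrt (2 * E) := le_of_forall_pos_le_add hlim
  rcases hH0.eq_or_lt with h0 | hpos
  · rw [← h0]; positivity
  · have hsH : 0 < Real.sqrt H := Real.sqrt_pos.2 hpos
    have hss : Real.sqrt H * Real.sqrt H = H := Real.mul_self_sqrt hH0
    have h1 : Real.sqrt H ≤ 354 * D * Real.sqrt (2 * E) := by
      have h2 : Real.sqrt H * Real.sqrt H ≤ (354 * D * Real.sqrt (2 * E)) * Real.sqrt H := by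
        rw [hss]; linarith
      exact le_of_mul_le_mul_right h2 hsH
    have h3 : H ≤ (354 * D * Real.sqrt (2 * E)) ^ 2 := by
      rw [← hss, ← sq]
      exact pow_le_pow_left₀ hsH.le h1 2
    refine h3.trans (le_of_eq ?_)
    rw [mul_pow, Real.sq_sqrt (by positivity)]
    ring

end Crest.Agent.Lib.OTStab
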