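/-
Assembly of the proof of S0109 from the parts ("Steps B, F"): pointwise sandwich, Chebyshev bound,
layer cake.

Math: T₁,T₂ optimal maps, φ₁,φ₂ potentials (exists_isPot), u = φ₁ - φ₂, c = ∫u dρ, u₀ = u - c,
w = φ₂* - φ₁* (conjugates over K, A-Lipschitz each where K ⊂ closedBall 0 A), w₀ = w - c.
A.e.: F x := φ₂ x + φ₂*(T₁ x) - ⟪x,T₁ x⟫ = w₀(T₁ x) - u₀ x ≥ 0,
      G x := φ₁ x + φ₁*(T₂ x) - ⟪x,T₂ x⟫ = u₀ x - w₀(T₂ x) ≥ 0.
For D measurable, m = ρ D: ∫_D (F+G) = ∫_D w₀∘T₁ + ∫_D (-w₀)∘T₂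
 ≤ 2 (2A) √(E m) + 2 √m ‖u₀‖₂ ≤ C₁ √E √m by transport_bound (twice, the second with π swapped) and lemma_V.
line_lower_bound: c τ² m² ≤ C₁ √E √m for D = {τ < (T₁ - T₂) i}; similarly for (T₂ - T₁) i (swap roles).
So ρ{τ < |(T₁-T₂) i|} ≤ C₂ E^{1/3} τ^{-4/3}, hence ρ{t < ‖T₁-T₂‖} ≤ C₃ E^{1/3} t^{-4/3}
({t < ‖v‖} ⊂ ⋃_i {t/√d < |v i|}), and this vanishes for t ≥ 2R (a.e. ‖T₁-T₂‖ ≤ 2R).
Layer cake (lintegral_rpow_eq_lintegral_meas_lt_mul): ∫‖T₁-T₂‖² = 2∫₀^{2R} t ρ{t<‖T₁-T₂‖} dt ≤ C₄ E^{1/3}.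
-/
import Crest.Agent.Lib.OTStabBrenier
import Crest.Agent.Lib.OTStabTransport
import Crest.Agent.Lib.OTStabLine
import Crest.Agent.Lib.OTStabV

set_option autoImplicit false

open MeasureTheory Crest.AnalysisR.OT
open scoped ENNReal NNReal RealInnerProductSpace

namespace Crest.Agent.Lib.OTStab

variable {d : ℕ}

/-- From `a m² ≤ b √m` to a power bound for `m`. -/
lemma le_rpow_of_mul_sq_le {a b m : ℝ} (ha : 0 < a) (hb : 0 ≤ b) (hm : 0 ≤ m)
    (h : a * m ^ 2 ≤ b * Real.sqrt m) : m ≤ (b / a) ^ (2 / 3 : ℝ) := by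
  rcases hm.eq_or_lt with rfl | hpos
  · positivity
  have hs : 0 < Real.sqrt m := Real.sqrt_pos.mpr hpos
  set s := Real.sqrt m with hsdef
  have hm' : m = s ^ 2 := (Real.sq_sqrt hm).symm
  have h1 : s ^ 3 ≤ b / a := by
    rw [le_div_iff₀ ha]
    have h2 : a * (s ^ 2) ^ 2 ≤ b * s := by
      rw [← hm']
      exact h
    have h3 : s * (s ^ 3 * a) ≤ s * b := by nlinarith
    exact le_of_mul_le_mul_left h3 hs
  have h2 : m = (s ^ 3) ^ (2 / 3 : ℝ) := by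
    rw [← Real.rpow_natCast s 3, ← Real.rpow_mul hs.le]
    norm_num
    exact hm'
  rw [h2]
  exact Real.rpow_le_rpow (by positivity) h1 (by norm_num)

/-- Algebra of powers. -/
lemma rpow_algebra {C c E τ : ℝ} (hC : 0 ≤ C) (hc : 0 < c) (hE : 0 ≤ E) (hτ : 0 < τ) :
    (C * Real.sqrt E / (c * τ ^ 2)) ^ (2 / 3 : ℝ) =
      (C / c) ^ (2 / 3 : ℝ) * (E ^ (1 / 3 : ℝ) * τ ^ (-(4 / 3) : ℝ)) := by
  have e : C * Real.sqrt E / (c * τ ^ 2) = (C / c) * (Real.sqrt E * (τ ^ 2)⁻¹) := by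
    field_simp
  rw [e, Real.mul_rpow (by positivity) (by positivity),
    Real.mul_rpow (by positivity) (by positivity)]
  congr 2
  · rw [Real.sqrt_eq_rpow, ← Real.rpow_mul hE]
    norm_num
  · rw [Real.inv_rpow (by positivity), ← Real.rpow_natCast τ 2, ← Real.rpow_mul hτ.le,
      ← Real.rpow_neg hτ.le]
    norm_num

/-- Layer cake with a weak-type bound of exponent `4/3`. -/
theorem layer_cake {Ω : Type*} [MeasurableSpace Ω] {ρ : Measure Ω} [IsFiniteMeasure ρ] {f : Ω → ℝ}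
    (hf : Measurable f) (hf0 : ∀ ω, 0 ≤ f ω) {B C : ℝ} (hB : 0 ≤ B) (hC : 0 ≤ C)
    (hfB : ∀ᵐ ω ∂ρ, f ω ≤ B)
    (hbound : ∀ t : ℝ, 0 < t → ρ {ω | t < f ω} ≤ ENNReal.ofReal (C * t ^ (-(4 / 3) : ℝ))) :
    ∫⁻ ω, ENNReal.ofReal (f ω ^ 2) ∂ρ ≤ ENNReal.ofReal (3 * C * B ^ (2 / 3 : ℝ)) := by
  have h1 := lintegral_rpow_eq_lintegral_meas_lt_mul ρ (ae_of_all _ hf0) hf.aemeasurable
    (p := 2) two_pos
  have e : ∀ ω, ENNReal.ofReal (f ω ^ 2) = ENNReal.ofReal (f ω ^ (2 : ℝ)) := fun ω => by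
    rw [Real.rpow_two]
  simp_rw [e]
  rw [h1]
  have h2 : ∫⁻ t in Set.Ioi (0 : ℝ), ρ {a | t < f a} * ENNReal.ofReal (t ^ ((2 : ℝ) - 1)) ≤
      ∫⁻ t in Set.Ioc (0 : ℝ) B, ENNReal.ofReal (C * t ^ (-(1 / 3) : ℝ)) := by
    rw [← lintegral_indicator measurableSet_Ioi, ← lintegral_indicator measurableSet_Ioc]
    refine lintegral_mono fun t => ?_
    by_cases ht : t ∈ Set.Ioi (0 : ℝ)
    · rw [Set.indicator_of_mem ht]
      have ht0 : 0 < t := ht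
      by_cases htB : t ≤ B
      · have hmem : t ∈ Set.Ioc (0 : ℝ) B := ⟨ht0, htB⟩
        rw [Set.indicator_of_mem hmem]
        have e2 : C * t ^ (-(4 / 3) : ℝ) * t ^ ((2 : ℝ) - 1) = C * t ^ (-(1 / 3) : ℝ) := by
          rw [mul_assoc, ← Real.rpow_add ht0]
          norm_num
        calc ρ {a | t < f a} * ENNReal.ofReal (t ^ ((2 : ℝ) - 1))
            ≤ ENNReal.ofReal (C * t ^ (-(4 / 3) : ℝ)) * ENNReal.ofReal (t ^ ((2 : ℝ) - 1)) :=
              mul_le_mul_left (hbound t ht0) _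
          _ = ENNReal.ofReal (C * t ^ (-(1 / 3) : ℝ)) := by
              rw [← ENNReal.ofReal_mul (by positivity), e2]
      · have h0 : ρ {a | t < f a} = 0 := by
          refine measure_mono_null (t := {a | ¬ f a ≤ B}) (fun a ha => ?_) hfB
          have ha' : t < f a := ha
          simp only [Set.mem_setOf_eq, not_le]
          linarith [not_le.mp htB]
        simp [h0]
    · rw [Set.indicator_of_notMem ht]
      exact bot_le
  have hr : (-1 : ℝ) < -(1 / 3) := by norm_num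
  have hint : IntervalIntegrable (fun t : ℝ => t ^ (-(1 / 3) : ℝ)) volume 0 B :=
    intervalIntegral.intervalIntegrable_rpow' hr
  have hint2 : Integrable (fun t : ℝ => C * t ^ (-(1 / 3) : ℝ)) (volume.restrict (Set.Ioc 0 B)) :=
    ((intervalIntegrable_iff_integrableOn_Ioc_of_le hB).mp hint).const_mul C
  have h3 : ∫⁻ t in Set.Ioc (0 : ℝ) B, ENNReal.ofReal (C * t ^ (-(1 / 3) : ℝ)) =
      ENNReal.ofReal (C * (3 / 2) * B ^ (2 / 3 : ℝ)) := by
    rw [← ofReal_integral_eq_lintegral_ofReal hint2]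
    · congr 1
      rw [integral_const_mul, ← intervalIntegral.integral_of_le hB, integral_rpow (Or.inl hr)]
      have e3 : -(1 / 3 : ℝ) + 1 = 2 / 3 := by norm_num
      rw [e3, Real.zero_rpow (by norm_num)]
      ring
    · filter_upwards [ae_restrict_mem measurableSet_Ioc] with t ht
      have : 0 < t := ht.1
      positivity
  refine (mul_le_mul_right h2 _).trans ?_
  rw [h3, ← ENNReal.ofReal_mul (by norm_num)]
  refine ENNReal.ofReal_le_ofReal (le_of_eq ?_)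
  ring

lemma isPairCoupling_swap {μ ν : Measure (Eu d)} {π : Measure (Eu d × Eu d)}
    (hπ : IsPairCoupling μ ν π) : IsPairCoupling ν μ (π.map Prod.swap) := by
  obtain ⟨h1, h2⟩ := hπ
  constructor
  · rw [Measure.map_map measurable_fst measurable_swap]
    exact h2
  · rw [Measure.map_map measurable_snd measurable_swap]
    exact h1

lemma quadCost_swap (π : Measure (Eu d × Eu d)) : quadCost (π.map Prod.swap) = quadCost π := by
  unfold quadCost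
  rw [lintegral_map (by fun_prop) measurable_swap]
  refine lintegral_congr fun p => ?_
  simp only [Prod.fst_swap, Prod.snd_swap]
  rw [enorm_sub_rev]

/-- The upper estimate for the deficit on a set. -/
theorem core_bound {K : Set (Eu d)} (hKc : IsCompact K) (hKi : (interior K).Nonempty)
    {μ ν : Measure (Eu d)} {π : Measure (Eu d × Eu d)} (hπ : IsPairCoupling μ ν π)
    {T₁ T₂ : Eu d → Eu d} (hT₁ : Measurable T₁) (hT₂ : Measurable T₂)
    (hm₁ : (uniformProbOn K).map T₁ = μ) (hm₂ : (uniformProbOn K).map T₂ = ν)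
    (R : ℝ≥0) {φ₁ φ₂ : Eu d → ℝ} (h₁ : IsPot K R T₁ φ₁) (h₂ : IsPot K R T₂ φ₂)
    (A : ℝ≥0) (hA : ∀ x ∈ K, ‖x‖ ≤ A) {U : ℝ}
    (hU : ∫ x, (φ₁ x - φ₂ x - ∫ z, (φ₁ z - φ₂ z) ∂(uniformProbOn K)) ^ 2 ∂(uniformProbOn K) ≤ U)
    {D : Set (Eu d)} (hD : MeasurableSet D) :
    ∫ x in D, ((φ₂ x + conj K φ₂ (T₁ x) - ⟪x, T₁ x⟫) + (φ₁ x + conj K φ₁ (T₂ x) - ⟪x, T₂ x⟫))
        ∂(uniformProbOn K) ≤
      4 * A * Real.sqrt ((quadCost π).toReal * ((uniformProbOn K) D).toReal) +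
        2 * (Real.sqrt (((uniformProbOn K) D).toReal) * Real.sqrt U) := by
  classical
  haveI hρprob := uniform_isProb hKc hKi
  set ρ := uniformProbOn K with hρ
  have hKn : K.Nonempty := hKi.mono interior_subset
  have hφ₁c : Continuous φ₁ := h₁.lip.continuous
  have hφ₂c : Continuous φ₂ := h₂.lip.continuous
  set c₀ : ℝ := ∫ z, (φ₁ z - φ₂ z) ∂ρ with hc₀
  set u : Eu d → ℝ := fun x => φ₁ x - φ₂ x - c₀ with hu
  set w : Eu d → ℝ := fun y => conj K φ₂ y - conj K φ₁ y - c₀ with hw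
  have huc : Continuous u := (hφ₁c.sub hφ₂c).sub continuous_const
  have hc1 := conj_lipschitz hKn hKc hφ₁c A hA
  have hc2 := conj_lipschitz hKn hKc hφ₂c A hA
  have hwL : LipschitzWith (2 * A) w := by
    refine LipschitzWith.of_dist_le_mul fun y y' => ?_
    have h1 := hc1.dist_le_mul y y'
    have h2 := hc2.dist_le_mul y y'
    rw [Real.dist_eq] at h1 h2 ⊢
    have e : w y - w y' = (conj K φ₂ y - conj K φ₂ y') - (conj K φ₁ y - conj K φ₁ y') := by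
      simp only [hw]
      ring
    rw [e]
    refine (abs_sub _ _).trans ?_
    push_cast
    linarith
  have hwnL : LipschitzWith (2 * A) fun y => - w y := by
    refine LipschitzWith.of_dist_le_mul fun y y' => ?_
    have := hwL.dist_le_mul y y'
    rw [Real.dist_eq] at this ⊢
    have e : - w y - - w y' = - (w y - w y') := by ring
    rw [e, abs_neg]
    exact this
  have hKae : ∀ᵐ x ∂ρ, x ∈ K := uniform_ae_mem hKc
  -- pointwise identities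
  have hpt : ∀ᵐ x ∂ρ,
      (φ₂ x + conj K φ₂ (T₁ x) - ⟪x, T₁ x⟫) + (φ₁ x + conj K φ₁ (T₂ x) - ⟪x, T₂ x⟫) =
        w (T₁ x) - w (T₂ x) ∧ w (T₂ x) ≤ u x ∧ u x ≤ w (T₁ x) ∧ ‖T₁ x‖ ≤ R ∧ ‖T₂ x‖ ≤ R := by
    filter_upwards [hKae, h₁.ae, h₂.ae] with x hx hx₁ hx₂
    have e1 := add_conj_eq_of_subgrad hKn hKc hφ₁c hx (fun z _ => hx₁.2 z)
    have e2 := add_conj_eq_of_subgrad hKn hKc hφ₂c hx (fun z _ => hx₂.2 z)
    have f1 := inner_le_add_conj hKc hφ₂c hx (T₁ x)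
    have f2 := inner_le_add_conj hKc hφ₁c hx (T₂ x)
    refine ⟨?_, ?_, ?_, hx₁.1, hx₂.1⟩
    · simp only [hw]
      linarith
    · simp only [hw, hu]
      linarith
    · simp only [hw, hu]
      linarith
  have hle₂ : ∀ᵐ x ∂ρ, w (T₂ x) ≤ u x := hpt.mono fun x hx => hx.2.1
  have hle₁ : ∀ᵐ x ∂ρ, - w (T₁ x) ≤ - u x := hpt.mono fun x hx => neg_le_neg hx.2.2.1
  have hR₁ : ∀ᵐ x ∂ρ, ‖T₁ x‖ ≤ R := hpt.mono fun x hx => hx.2.2.2.1
  have hR₂ : ∀ᵐ x ∂ρ, ‖T₂ x‖ ≤ R := hpt.mono fun x hx => hx.2.2.2.2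
  -- the two transport bounds
  have B1 := transport_bound hKc hKi hπ hT₁ hT₂ hm₁ hm₂ R hR₁ hR₂ hwL huc hle₂ hD
  have B2 := transport_bound hKc hKi (isPairCoupling_swap hπ) hT₂ hT₁ hm₂ hm₁ R hR₂ hR₁
    hwnL (hu := huc.neg) hle₁ hD
  rw [quadCost_swap] at B2
  have hneg : ∫ x, (-u) x ^ 2 ∂ρ = ∫ x, u x ^ 2 ∂ρ := by simp
  rw [hneg] at B2
  -- integrability
  have hbd : ∀ {T : Eu d → Eu d}, Measurable T → (∀ᵐ x ∂ρ, ‖T x‖ ≤ R) →
      Integrable (fun x => w (T x)) ρ := by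
    intro T hT hRT
    refine Integrable.of_bound (hwL.continuous.measurable.comp hT).aestronglyMeasurable
      (|w 0| + (2 * A) * R) ?_
    filter_upwards [hRT] with x hx
    rw [Real.norm_eq_abs]
    have h1 := hwL.dist_le_mul (T x) 0
    rw [Real.dist_eq, dist_zero_right] at h1
    have h2 : |w (T x)| ≤ |w 0| + |w (T x) - w 0| := by
      have := abs_sub_abs_le_abs_sub (w (T x)) (w 0)
      linarith
    have h3 : ((2 * A : ℝ≥0) : ℝ) * ‖T x‖ ≤ (2 * A) * R := by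
      push_cast
      exact mul_le_mul_of_nonneg_left hx (by positivity)
    linarith
  have i1 := (hbd hT₁ hR₁).integrableOn (s := D)
  have i2 := (hbd hT₂ hR₂).integrableOn (s := D)
  have hsplit : ∫ x in D, ((φ₂ x + conj K φ₂ (T₁ x) - ⟪x, T₁ x⟫) +
      (φ₁ x + conj K φ₁ (T₂ x) - ⟪x, T₂ x⟫)) ∂ρ =
      ∫ x in D, w (T₁ x) ∂ρ + ∫ x in D, - w (T₂ x) ∂ρ := by
    have e : ∫ x in D, (w (T₁ x) + - w (T₂ x)) ∂ρ =
        ∫ x in D, w (T₁ x) ∂ρ + ∫ x in D, - w (T₂ x) ∂ρ := integral_add i1 i2.neg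
    rw [← e]
    refine integral_congr_ae (ae_restrict_of_ae ?_)
    filter_upwards [hpt] with x hx
    rw [hx.1]
    ring
  rw [hsplit]
  set m : ℝ := (ρ D).toReal with hm
  have hsq : Real.sqrt (∫ x, u x ^ 2 ∂ρ) ≤ Real.sqrt U := Real.sqrt_le_sqrt hU
  have hmul := mul_le_mul_of_nonneg_left hsq (Real.sqrt_nonneg m)
  push_cast at B1 B2
  nlinarith

theorem stability_main
    (K : Set (EuclideanSpace ℝ (Fin d))) (hKc : IsCompact K) (hKv : Convex ℝ K)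
    (hKi : (interior K).Nonempty) (Y : Set (EuclideanSpace ℝ (Fin d))) (hYc : IsCompact Y) (hYn : Y.Nonempty) :
    ∃ C : ℝ≥0, ∀ μ ν : Measure (EuclideanSpace ℝ (Fin d)), IsProbabilityOn Y μ → IsProbabilityOn Y ν →
      ∀ Tμ Tν : EuclideanSpace ℝ (Fin d) → EuclideanSpace ℝ (Fin d),
        IsOptimalMap (uniformProbOn K) μ Tμ → IsOptimalMap (uniformProbOn K) ν Tν →
        ∀ π : Measure (EuclideanSpace ℝ (Fin d) × EuclideanSpace ℝ (Fin d)), IsPairCoupling μ ν π →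
          ∫⁻ x, ‖Tμ x - Tν x‖ₑ ^ 2 ∂(uniformProbOn K) ≤ C * quadCost π ^ (1 / 3 : ℝ) := by
  classical
  obtain ⟨R₀, hR₀⟩ := hYc.isBounded.exists_norm_le
  obtain ⟨A₀, hA₀⟩ := hKc.isBounded.exists_norm_le
  set R : ℝ≥0 := Real.toNNReal R₀ with hRdef
  set A : ℝ≥0 := Real.toNNReal A₀ with hAdef
  have hR : ∀ y ∈ Y, ‖y‖ ≤ R := fun y hy => (hR₀ y hy).trans (Real.le_coe_toNNReal _)
  have hA : ∀ x ∈ K, ‖x‖ ≤ A := fun x hx => (hA₀ x hx).trans (Real.le_coe_toNNReal _)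
  obtain ⟨CV, hCV0, hCV⟩ := lemma_V hKc hKv hKi hYc R hR
  obtain ⟨c, hc0, hc⟩ := line_lower_bound hKc hKi R
  set C₁ : ℝ := 4 * A + 2 * Real.sqrt CV with hC₁
  have hC₁0 : 0 ≤ C₁ := by positivity
  set Kc : ℝ := (C₁ / c) ^ (2 / 3 : ℝ) with hKc'
  have hKc0 : 0 ≤ Kc := by positivity
  set C₃ : ℝ := 2 * d * (Kc * ((d : ℝ) + 1) ^ (2 / 3 : ℝ)) with hC₃
  have hC₃0 : 0 ≤ C₃ := by positivity
  set B : ℝ := 2 * R with hBdef
  have hB0 : 0 ≤ B := by positivity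
  set Cf : ℝ := 3 * C₃ * B ^ (2 / 3 : ℝ) with hCf
  have hCf0 : 0 ≤ Cf := by positivity
  refine ⟨Real.toNNReal Cf, fun μ ν hμ hν T₁ T₂ hT₁ hT₂ π hπ => ?_⟩
  haveI hρprob := uniform_isProb hKc hKi
  set ρ := uniformProbOn K with hρ
  obtain ⟨hT₁m, hT₁p, -⟩ := id hT₁
  obtain ⟨hT₂m, hT₂p, -⟩ := id hT₂
  obtain ⟨φ₁, hφ₁⟩ := exists_isPot hKc hKv hKi hYc hμ hT₁ R hR
  obtain ⟨φ₂, hφ₂⟩ := exists_isPot hKc hKv hKi hYc hν hT₂ R hR
  have hR₁ : ∀ᵐ x ∂ρ, ‖T₁ x‖ ≤ R := hφ₁.ae.mono fun x hx => hx.1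
  have hR₂ : ∀ᵐ x ∂ρ, ‖T₂ x‖ ≤ R := hφ₂.ae.mono fun x hx => hx.1
  -- finiteness of the cost
  obtain ⟨hπ1, hπ2⟩ := id hπ
  have hset : MeasurableSet {y : Eu d | ‖y‖ ≤ R} := measurableSet_le measurable_norm measurable_const
  have hπb1 : ∀ᵐ p ∂π, ‖p.1‖ ≤ R := by
    have : ∀ᵐ y ∂μ, ‖y‖ ≤ R := by
      rw [← hT₁p]
      exact (ae_map_iff hT₁m.aemeasurable hset).mpr hR₁
    rw [← hπ1] at this
    exact (ae_map_iff measurable_fst.aemeasurable hset).mp this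
  have hπb2 : ∀ᵐ p ∂π, ‖p.2‖ ≤ R := by
    have : ∀ᵐ y ∂ν, ‖y‖ ≤ R := by
      rw [← hT₂p]
      exact (ae_map_iff hT₂m.aemeasurable hset).mpr hR₂
    rw [← hπ2] at this
    exact (ae_map_iff measurable_snd.aemeasurable hset).mp this
  haveI : IsProbabilityMeasure μ := hμ.1
  haveI hπprob : IsProbabilityMeasure π := by
    constructor
    have h1 : μ Set.univ = 1 := measure_univ
    rw [← hπ1, Measure.map_apply measurable_fst MeasurableSet.univ] at h1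
    simpa using h1
  have hEfin : quadCost π ≠ ⊤ := by
    have : quadCost π ≤ ENNReal.ofReal ((2 * R) ^ 2) := by
      unfold quadCost
      calc ∫⁻ p, ‖p.1 - p.2‖ₑ ^ 2 ∂π ≤ ∫⁻ _, ENNReal.ofReal ((2 * R) ^ 2) ∂π := by
            refine lintegral_mono_ae ?_
            filter_upwards [hπb1, hπb2] with p h1 h2
            rw [← ofReal_norm, ← ENNReal.ofReal_pow (norm_nonneg _)]
            refine ENNReal.ofReal_le_ofReal (pow_le_pow_left₀ (norm_nonneg _) ?_ 2)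
            have := norm_sub_le p.1 p.2
            linarith
        _ = ENNReal.ofReal ((2 * R) ^ 2) := by simp
    exact ne_top_of_le_ne_top ENNReal.ofReal_ne_top this
  set E : ℝ := (quadCost π).toReal with hE
  have hE0 : 0 ≤ E := ENNReal.toReal_nonneg
  -- the Chebyshev bound
  have key : ∀ {T₁ T₂ : Eu d → Eu d} {φ₁ φ₂ : Eu d → ℝ} {μ ν : Measure (Eu d)}
      {π : Measure (Eu d × Eu d)}, Measurable T₁ → Measurable T₂ →
      ρ.map T₁ = μ → ρ.map T₂ = ν → IsProbabilityOn Y μ → IsProbabilityOn Y ν →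
      IsPot K R T₁ φ₁ → IsPot K R T₂ φ₂ → IsPairCoupling μ ν π → (quadCost π).toReal = E →
      ∀ (i : Fin d) (τ : ℝ), 0 < τ →
        ρ {x | τ < (T₁ x - T₂ x) i} ≤
          ENNReal.ofReal (Kc * (E ^ (1 / 3 : ℝ) * τ ^ (-(4 / 3) : ℝ))) := by
    intro T₁ T₂ φ₁ φ₂ μ ν π hm₁ hm₂ hp₁ hp₂ hμ hν h₁ h₂ hπ hEπ i τ hτ
    have hDm : MeasurableSet {x | τ < (T₁ x - T₂ x) i} := by
      refine measurableSet_lt measurable_const ?_
      exact ((EuclideanSpace.proj i : Eu d →L[ℝ] ℝ).continuous.measurable).comp (hm₁.sub hm₂)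
    set D : Set (Eu d) := {x | τ < (T₁ x - T₂ x) i} with hD
    set m : ℝ := (ρ D).toReal with hm
    have hm0 : 0 ≤ m := ENNReal.toReal_nonneg
    have h1 := hc T₁ T₂ φ₁ φ₂ hm₁ hm₂ h₁ h₂ i τ hτ
    have h2 := core_bound hKc hKi hπ hm₁ hm₂ hp₁ hp₂ R h₁ h₂ A hA
      (hCV μ ν hμ hν T₁ T₂ φ₁ φ₂ hm₁ hm₂ hp₁ hp₂ h₁ h₂ π hπ) hDm
    rw [hEπ] at h2
    have h3 : c * τ ^ 2 * m ^ 2 ≤ (C₁ * Real.sqrt E) * Real.sqrt m := by
      refine h1.trans (h2.trans (le_of_eq ?_))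
      rw [Real.sqrt_mul hE0, Real.sqrt_mul hCV0, hC₁]
      ring
    have h4 := le_rpow_of_mul_sq_le (by positivity) (by positivity) hm0 h3
    rw [rpow_algebra hC₁0 hc0 hE0 hτ] at h4
    rw [← ENNReal.ofReal_toReal (measure_ne_top ρ D)]
    exact ENNReal.ofReal_le_ofReal h4
  have key₁ := key hT₁m hT₂m hT₁p hT₂p hμ hν hφ₁ hφ₂ hπ rfl
  have key₂ := key hT₂m hT₁m hT₂p hT₁p hν hμ hφ₂ hφ₁ (isPairCoupling_swap hπ)
    (by rw [quadCost_swap])
  -- the weak-type bound for the norm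
  set f : Eu d → ℝ := fun x => ‖T₁ x - T₂ x‖ with hf
  have hfm : Measurable f := (hT₁m.sub hT₂m).norm
  have hfB : ∀ᵐ x ∂ρ, f x ≤ B := by
    filter_upwards [hR₁, hR₂] with x h1 h2
    have := norm_sub_le (T₁ x) (T₂ x)
    simp only [hf, hBdef]
    linarith
  have hweak : ∀ t : ℝ, 0 < t →
      ρ {x | t < f x} ≤ ENNReal.ofReal ((C₃ * E ^ (1 / 3 : ℝ)) * t ^ (-(4 / 3) : ℝ)) := by
    intro t ht
    have hd1 : (0 : ℝ) < (d : ℝ) + 1 := by positivity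
    set s : ℝ := t / Real.sqrt ((d : ℝ) + 1) with hs
    have hs0 : 0 < s := by positivity
    have hsub : {x | t < f x} ⊆ ⋃ i : Fin d,
        ({x | s < (T₁ x - T₂ x) i} ∪ {x | s < (T₂ x - T₁ x) i}) := by
      intro x hx
      by_contra hcon
      simp only [Set.mem_iUnion, Set.mem_union, Set.mem_setOf_eq, not_exists, not_or, not_lt] at hcon
      have h1 : ∀ i, ((T₁ x - T₂ x) i) ^ 2 ≤ s ^ 2 := by
        intro i
        have h2 := (hcon i).1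
        have h3 := (hcon i).2
        have e : (T₂ x - T₁ x) i = - (T₁ x - T₂ x) i := by simp
        rw [e] at h3
        exact sq_le_sq' (by linarith) h2
      have h2 : f x ^ 2 ≤ d * s ^ 2 := by
        simp only [hf]
        rw [EuclideanSpace.norm_sq_eq]
        calc ∑ i, ‖(T₁ x - T₂ x) i‖ ^ 2 ≤ ∑ _i : Fin d, s ^ 2 :=
              Finset.sum_le_sum fun i _ => by
                rw [Real.norm_eq_abs, sq_abs]
                exact h1 i
          _ = d * s ^ 2 := by simp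
      have h3 : s ^ 2 = t ^ 2 / ((d : ℝ) + 1) := by
        rw [hs, div_pow, Real.sq_sqrt hd1.le]
      have h4 : f x ^ 2 ≤ t ^ 2 := by
        rw [h3] at h2
        refine h2.trans ?_
        rw [mul_div_assoc', div_le_iff₀ hd1]
        nlinarith [sq_nonneg t]
      have h5 : t < f x := hx
      nlinarith
    have hpow : s ^ (-(4 / 3) : ℝ) = t ^ (-(4 / 3) : ℝ) * ((d : ℝ) + 1) ^ (2 / 3 : ℝ) := by
      rw [hs, Real.div_rpow ht.le (Real.sqrt_nonneg _), Real.sqrt_eq_rpow, ← Real.rpow_mul hd1.le,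
        div_eq_mul_inv, ← Real.rpow_neg (by positivity)]
      norm_num
    set b : ℝ := Kc * (E ^ (1 / 3 : ℝ) * s ^ (-(4 / 3) : ℝ)) with hb
    have hb0 : 0 ≤ b := by positivity
    calc ρ {x | t < f x} ≤ ρ (⋃ i : Fin d,
          ({x | s < (T₁ x - T₂ x) i} ∪ {x | s < (T₂ x - T₁ x) i})) := measure_mono hsub
      _ ≤ ∑ i : Fin d, ρ ({x | s < (T₁ x - T₂ x) i} ∪ {x | s < (T₂ x - T₁ x) i}) :=
          measure_iUnion_fintype_le _ _
      _ ≤ ∑ _i : Fin d, (ENNReal.ofReal b + ENNReal.ofReal b) := by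
          refine Finset.sum_le_sum fun i _ => (measure_union_le _ _).trans ?_
          exact add_le_add (key₁ i s hs0) (key₂ i s hs0)
      _ = ENNReal.ofReal (d * (b + b)) := by
          rw [← ENNReal.ofReal_add hb0 hb0, Finset.sum_const, Finset.card_univ, Fintype.card_fin,
            nsmul_eq_mul, ENNReal.ofReal_mul (by positivity)]
          simp
      _ = ENNReal.ofReal ((C₃ * E ^ (1 / 3 : ℝ)) * t ^ (-(4 / 3) : ℝ)) := by
          congr 1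
          rw [hb, hpow, hC₃]
          ring
  have hlayer := layer_cake hfm (fun x => norm_nonneg _) hB0 (by positivity : 0 ≤ C₃ * E ^ (1 / 3 : ℝ))
    hfB hweak
  have hlhs : ∫⁻ x, ‖T₁ x - T₂ x‖ₑ ^ 2 ∂ρ = ∫⁻ x, ENNReal.ofReal (f x ^ 2) ∂ρ := by
    refine lintegral_congr fun x => ?_
    simp only [hf]
    rw [ENNReal.ofReal_pow (norm_nonneg _), ofReal_norm]
  rw [hlhs]
  refine hlayer.trans (le_of_eq ?_)
  have hq : quadCost π = ENNReal.ofReal E := (ENNReal.ofReal_toReal hEfin).symm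
  rw [hq, ENNReal.ofReal_rpow_of_nonneg hE0 (by norm_num)]
  have e2 : ((Real.toNNReal Cf : ℝ≥0) : ℝ≥0∞) = ENNReal.ofReal Cf := rfl
  rw [e2, ← ENNReal.ofReal_mul hCf0]
  congr 1
  rw [hCf]
  ring

end Crest.Agent.Lib.OTStab
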