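import Mathlib

/-!
Smooth flows of Lipschitz smooth vector fields on a Banach space, for short times:
Nemytskii operators on continuous curves are smooth, and the integral equation is solved by
the implicit function theorem.
-/

set_option autoImplicit false

open scoped ContDiff Topology NNReal
open Set

namespace Crest.Agent.Lib.SmoothFlow

/-- The compact time interval. -/
abbrev TI : Type := Set.Icc (-1 : ℝ) 1

/-- Continuous curves on the time interval, as a type with only the normed structures. -/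
def CC (X : Type) [NormedAddCommGroup X] : Type := C(TI, X)

section CCBasics

variable {X : Type} [NormedAddCommGroup X]

noncomputable instance : NormedAddCommGroup (CC X) := inferInstanceAs (NormedAddCommGroup C(TI, X))

noncomputable instance [NormedSpace ℝ X] : NormedSpace ℝ (CC X) :=
  inferInstanceAs (NormedSpace ℝ C(TI, X))

instance [CompleteSpace X] : CompleteSpace (CC X) := inferInstanceAs (CompleteSpace C(TI, X))

/-- evaluation of a curve -/
def CC.ev (γ : CC X) (t : TI) : X := (show C(TI, X) from γ) t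

/-- a curve from a continuous function -/
def CC.mk (f : TI → X) (hf : Continuous f) : CC X := (⟨f, hf⟩ : C(TI, X))

@[simp] lemma CC.mk_ev (f : TI → X) (hf : Continuous f) (t : TI) : (CC.mk f hf).ev t = f t := rfl

lemma CC.continuous_ev (γ : CC X) : Continuous γ.ev := (show C(TI, X) from γ).continuous

@[ext] lemma CC.ext {γ δ : CC X} (h : ∀ t, γ.ev t = δ.ev t) : γ = δ :=
  ContinuousMap.ext (f := (show C(TI, X) from γ)) (g := (show C(TI, X) from δ)) h

@[simp] lemma CC.add_ev (γ δ : CC X) (t : TI) : (γ + δ).ev t = γ.ev t + δ.ev t := rfl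
@[simp] lemma CC.sub_ev (γ δ : CC X) (t : TI) : (γ - δ).ev t = γ.ev t - δ.ev t := rfl
@[simp] lemma CC.neg_ev (γ : CC X) (t : TI) : (-γ).ev t = -γ.ev t := rfl
@[simp] lemma CC.zero_ev (t : TI) : (0 : CC X).ev t = 0 := rfl
@[simp] lemma CC.smul_ev [NormedSpace ℝ X] (c : ℝ) (γ : CC X) (t : TI) :
    (c • γ).ev t = c • γ.ev t := rfl

lemma CC.norm_ev_le (γ : CC X) (t : TI) : ‖γ.ev t‖ ≤ ‖γ‖ :=
  ContinuousMap.norm_coe_le_norm (show C(TI, X) from γ) t

lemma CC.norm_le (γ : CC X) {C : ℝ} (hC : 0 ≤ C) : ‖γ‖ ≤ C ↔ ∀ t, ‖γ.ev t‖ ≤ C :=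
  ContinuousMap.norm_le (show C(TI, X) from γ) hC

end CCBasics

section Nemytskii

variable {F G : Type} [NormedAddCommGroup F] [NormedSpace ℝ F]
  [NormedAddCommGroup G] [NormedSpace ℝ G]

/-- Post-composition with a continuous map. -/
def nem (X : F → G) (hX : Continuous X) (γ : CC F) : CC G :=
  CC.mk (fun t => X (γ.ev t)) (hX.comp γ.continuous_ev)

omit [NormedSpace ℝ F] [NormedSpace ℝ G] in
@[simp] lemma nem_ev (X : F → G) (hX : Continuous X) (γ : CC F) (t : TI) :
    (nem X hX γ).ev t = X (γ.ev t) := rfl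

omit [NormedSpace ℝ F] [NormedSpace ℝ G] in
lemma nem_continuous (X : F → G) (hX : Continuous X) : Continuous (nem X hX) :=
  (⟨X, hX⟩ : C(F, G)).continuous_postcomp

/-- Pointwise application of a continuous family of continuous linear maps. -/
noncomputable def applyBilin : CC (F →L[ℝ] G) →ₗ[ℝ] CC F →ₗ[ℝ] CC G :=
  LinearMap.mk₂ ℝ
    (fun (A : CC (F →L[ℝ] G)) (h : CC F) =>
      CC.mk (fun t => A.ev t (h.ev t)) (A.continuous_ev.clm_apply h.continuous_ev))
    (by intro A B h; ext t; simp)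
    (by intro c A h; ext t; simp)
    (by intro A h k; ext t; simp)
    (by intro c A h; ext t; simp)

lemma applyBilin_bound (A : CC (F →L[ℝ] G)) (h : CC F) :
    ‖applyBilin A h‖ ≤ 1 * ‖A‖ * ‖h‖ := by
  rw [CC.norm_le _ (by positivity)]
  intro t
  simp only [applyBilin, LinearMap.mk₂_apply, CC.mk_ev, one_mul]
  calc ‖A.ev t (h.ev t)‖ ≤ ‖A.ev t‖ * ‖h.ev t‖ := (A.ev t).le_opNorm _
    _ ≤ ‖A‖ * ‖h‖ := by
      gcongr
      · exact A.norm_ev_le t
      · exact h.norm_ev_le t

/-- Pointwise application of a continuous family of continuous linear maps. -/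
noncomputable def applyCLM : CC (F →L[ℝ] G) →L[ℝ] CC F →L[ℝ] CC G :=
  (applyBilin (F := F) (G := G)).mkContinuous₂ 1 applyBilin_bound

@[simp] lemma applyCLM_ev (A : CC (F →L[ℝ] G)) (h : CC F) (t : TI) :
    (applyCLM A h).ev t = A.ev t (h.ev t) := rfl

lemma nem_hasFDerivAt (X : F → G) (hX : Continuous X) (hd : Differentiable ℝ X)
    (hX' : Continuous (fderiv ℝ X)) (γ : CC F) :
    HasFDerivAt (nem X hX) (applyCLM (nem (fderiv ℝ X) hX' γ)) γ := by
  rw [hasFDerivAt_iff_isLittleO_nhds_zero]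
  rw [Asymptotics.isLittleO_iff]
  intro ε hε
  have hcont := (nem_continuous (fderiv ℝ X) hX').continuousAt (x := γ)
  rw [Metric.continuousAt_iff] at hcont
  obtain ⟨δ, hδ, hδ'⟩ := hcont ε hε
  filter_upwards [Metric.ball_mem_nhds (0 : CC F) hδ] with h hh
  rw [mem_ball_zero_iff] at hh
  rw [CC.norm_le _ (by positivity)]
  intro t
  -- the segment
  set s : Set F := segment ℝ (γ.ev t) (γ.ev t + h.ev t) with hs
  have hconv : Convex ℝ s := convex_segment _ _
  have hbound : ∀ y ∈ s, ‖fderiv ℝ X y - fderiv ℝ X (γ.ev t)‖ ≤ ε := by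
    intro y hy
    obtain ⟨a, b, ha, hb, hab, rfl⟩ := hy
    have hy' : a • γ.ev t + b • (γ.ev t + h.ev t) = (γ + b • h).ev t := by
      have : a = 1 - b := by linarith
      subst this
      simp only [CC.add_ev, CC.smul_ev, smul_add, sub_smul, one_smul]
      abel
    rw [hy']
    have hb1 : b ≤ 1 := by linarith
    have hsmall : dist (γ + b • h) γ < δ := by
      rw [dist_eq_norm]
      simp only [add_sub_cancel_left]
      rw [norm_smul, Real.norm_eq_abs, abs_of_nonneg hb]
      calc b * ‖h‖ ≤ 1 * ‖h‖ := by gcongr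
        _ < δ := by simpa using hh
    have := hδ' hsmall
    rw [dist_eq_norm] at this
    have h2 := (nem (fderiv ℝ X) hX' (γ + b • h) - nem (fderiv ℝ X) hX' γ).norm_ev_le t
    simp only [CC.sub_ev, nem_ev] at h2
    exact h2.trans this.le
  have := Convex.norm_image_sub_le_of_norm_hasFDerivWithin_le'
    (f := X) (f' := fderiv ℝ X) (φ := fderiv ℝ X (γ.ev t)) (s := s)
    (x := γ.ev t) (y := γ.ev t + h.ev t) (C := ε)
    (fun x _ => (hd x).hasFDerivAt.hasFDerivWithinAt) hbound hconv
    (left_mem_segment _ _ _) (right_mem_segment _ _ _)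
  simp only [add_sub_cancel_left] at this
  simp only [CC.sub_ev, nem_ev, CC.add_ev, applyCLM_ev] at *
  calc _ ≤ ε * ‖h.ev t‖ := this
    _ ≤ ε * ‖h‖ := by
      gcongr
      exact h.norm_ev_le t

end Nemytskii

section NemSmooth

/-- Nemytskii operators of smooth maps are smooth. -/
lemma nem_contDiff_nat (n : ℕ) : ∀ {F G : Type} [NormedAddCommGroup F] [NormedSpace ℝ F]
    [NormedAddCommGroup G] [NormedSpace ℝ G] (X : F → G) (hX : ContDiff ℝ ∞ X),
    ContDiff ℝ n (nem X hX.continuous) := by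
  induction n with
  | zero =>
    intro F G _ _ _ _ X hX
    have := (contDiff_zero (𝕜 := ℝ) (f := nem X hX.continuous)).2 (nem_continuous X hX.continuous)
    simpa using this
  | succ n ih =>
    intro F G _ _ _ _ X hX
    have hX' : ContDiff ℝ ∞ (fderiv ℝ X) := hX.fderiv_right (m := ∞) (by norm_cast)
    have h1 : ContDiff ℝ n (fun γ => applyCLM (F := F) (G := G) (nem (fderiv ℝ X) hX'.continuous γ)) :=
      (ContinuousLinearMap.contDiff (applyCLM (F := F) (G := G))).comp (ih (fderiv ℝ X) hX')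
    have : ContDiff ℝ ((n + 1 : ℕ) : WithTop ℕ∞) (nem X hX.continuous) :=
      contDiff_succ_iff_hasFDerivAt.2 ⟨fun γ => applyCLM (nem (fderiv ℝ X) hX'.continuous γ), h1,
        fun γ => nem_hasFDerivAt X hX.continuous (hX.differentiable (by simp)) hX'.continuous γ⟩
    exact this

lemma nem_contDiff {F G : Type} [NormedAddCommGroup F] [NormedSpace ℝ F]
    [NormedAddCommGroup G] [NormedSpace ℝ G] (X : F → G) (hX : ContDiff ℝ ∞ X) :
    ContDiff ℝ ∞ (nem X hX.continuous) :=
  contDiff_infty.2 fun n => nem_contDiff_nat n X hX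

end NemSmooth

section Flow

set_option linter.unusedSectionVars false

variable {F : Type} [NormedAddCommGroup F] [NormedSpace ℝ F] [CompleteSpace F]

lemma hI : (-1 : ℝ) ≤ 1 := by norm_num

/-- extension of a curve to the real line -/
noncomputable def CC.ext' {Y : Type} [NormedAddCommGroup Y] (γ : CC Y) (s : ℝ) : Y :=
  γ.ev (projIcc (-1) 1 hI s)

lemma CC.continuous_ext' {Y : Type} [NormedAddCommGroup Y] (γ : CC Y) : Continuous γ.ext' :=
  γ.continuous_ev.comp continuous_projIcc

lemma CC.ext'_of_mem {Y : Type} [NormedAddCommGroup Y] (γ : CC Y) {s : ℝ} (hs : s ∈ Icc (-1 : ℝ) 1) :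
    γ.ext' s = γ.ev ⟨s, hs⟩ := by
  unfold CC.ext'
  rw [projIcc_of_mem hI hs]

/-- The Volterra primitive. -/
noncomputable def volt (γ : CC F) : CC F :=
  CC.mk (fun t => ∫ s in (0 : ℝ)..(t : ℝ), γ.ext' s)
    ((intervalIntegral.continuous_primitive
      (fun a b => γ.continuous_ext'.intervalIntegrable a b) 0).comp continuous_subtype_val)

@[simp] lemma volt_ev (γ : CC F) (t : TI) : (volt γ).ev t = ∫ s in (0 : ℝ)..(t : ℝ), γ.ext' s := rfl

lemma volt_bound (γ : CC F) : ‖volt γ‖ ≤ 1 * ‖γ‖ := by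
  rw [CC.norm_le _ (by positivity)]
  intro t
  rw [volt_ev, one_mul]
  have h := intervalIntegral.norm_integral_le_of_norm_le_const (a := 0) (b := (t : ℝ))
    (f := γ.ext') (C := ‖γ‖) (fun x _ => γ.norm_ev_le _)
  have ht : |(t : ℝ) - 0| ≤ 1 := by
    rw [sub_zero, abs_le]
    exact ⟨t.2.1, t.2.2⟩
  calc _ ≤ ‖γ‖ * |(t : ℝ) - 0| := h
    _ ≤ ‖γ‖ * 1 := by gcongr
    _ = ‖γ‖ := mul_one _

/-- The Volterra primitive as a continuous linear map. -/
noncomputable def voltCLM : CC F →L[ℝ] CC F :=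
  LinearMap.mkContinuous
    { toFun := volt
      map_add' := by
        intro γ δ
        ext t
        simp only [volt_ev, CC.add_ev]
        rw [← intervalIntegral.integral_add (γ.continuous_ext'.intervalIntegrable _ _)
          (δ.continuous_ext'.intervalIntegrable _ _)]
        rfl
      map_smul' := by
        intro c γ
        ext t
        simp only [volt_ev, CC.smul_ev, RingHom.id_apply]
        rw [← intervalIntegral.integral_smul]
        rfl }
    1 volt_bound

@[simp] lemma voltCLM_ev (γ : CC F) (t : TI) :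
    (voltCLM γ).ev t = ∫ s in (0 : ℝ)..(t : ℝ), γ.ext' s := rfl

lemma norm_voltCLM_le : ‖(voltCLM : CC F →L[ℝ] CC F)‖ ≤ 1 :=
  LinearMap.mkContinuous_norm_le _ zero_le_one _

/-- Constant curves. -/
noncomputable def constCLM : F →L[ℝ] CC F :=
  LinearMap.mkContinuous
    { toFun := fun x => CC.mk (fun _ => x) continuous_const
      map_add' := by intro x y; ext t; simp
      map_smul' := by intro c x; ext t; simp }
    1
    (by
      intro x
      rw [CC.norm_le _ (by positivity)]
      intro t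
      simp)

@[simp] lemma constCLM_ev (x : F) (t : TI) : (constCLM x).ev t = x := rfl

/-- Evaluation at a time. -/
noncomputable def evCLM (t : TI) : CC F →L[ℝ] F :=
  LinearMap.mkContinuous
    { toFun := fun γ => γ.ev t
      map_add' := by intro x y; rfl
      map_smul' := by intro c x; rfl }
    1
    (by
      intro γ
      simpa using γ.norm_ev_le t)

@[simp] lemma evCLM_apply (t : TI) (γ : CC F) : evCLM t γ = γ.ev t := rfl

variable (X : F → F) (hX : ContDiff ℝ ∞ X) (K : ℝ≥0) (hK : LipschitzWith K X)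

/-- The integral equation, as the vanishing of a smooth map. -/
noncomputable def eqn (p : (ℝ × F) × CC F) : CC F :=
  p.2 - constCLM p.1.2 - p.1.1 • voltCLM (nem X hX.continuous p.2)

include hX in
lemma eqn_contDiff : ContDiff ℝ ∞ (eqn X hX) := by
  unfold eqn
  have h1 : ContDiff ℝ ∞ (fun p : (ℝ × F) × CC F => nem X hX.continuous p.2) :=
    (nem_contDiff X hX).comp contDiff_snd
  have h2 : ContDiff ℝ ∞ (fun p : (ℝ × F) × CC F => voltCLM (nem X hX.continuous p.2)) :=
    (ContinuousLinearMap.contDiff voltCLM).comp h1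
  have h3 : ContDiff ℝ ∞ (fun p : (ℝ × F) × CC F => constCLM p.1.2) :=
    (ContinuousLinearMap.contDiff constCLM).comp (contDiff_snd.comp contDiff_fst)
  exact (contDiff_snd.sub h3).sub ((contDiff_fst.comp contDiff_fst).smul h2)

include hK in
lemma nem_lipschitz (γ δ : CC F) (hXc : Continuous X) :
    ‖nem X hXc γ - nem X hXc δ‖ ≤ K * ‖γ - δ‖ := by
  rw [CC.norm_le _ (by positivity)]
  intro t
  simp only [CC.sub_ev, nem_ev]
  have := hK.dist_le_mul (γ.ev t) (δ.ev t)
  rw [dist_eq_norm, dist_eq_norm] at this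
  refine this.trans ?_
  gcongr
  exact (γ - δ).norm_ev_le t

include hK in
lemma exists_unique_solution (hXc : Continuous X) (l : ℝ) (x : F) (hl : |l| * K < 1) :
    ∃! γ : CC F, γ - constCLM x - l • voltCLM (nem X hXc γ) = 0 := by
  let T : CC F → CC F := fun γ => constCLM x + l • voltCLM (nem X hXc γ)
  have hT : ContractingWith (Real.nnabs l * K) T := by
    refine ⟨by exact_mod_cast hl, ?_⟩
    refine LipschitzWith.of_dist_le_mul ?_
    intro γ δ
    rw [dist_eq_norm, dist_eq_norm]
    have : T γ - T δ = l • voltCLM (nem X hXc γ - nem X hXc δ) := by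
      simp only [T, map_sub, smul_sub]
      abel
    rw [this, norm_smul, Real.norm_eq_abs]
    have h1 : ‖voltCLM (nem X hXc γ - nem X hXc δ)‖ ≤ 1 * ‖nem X hXc γ - nem X hXc δ‖ :=
      ((voltCLM (F := F)).le_opNorm _).trans (by gcongr; exact norm_voltCLM_le)
    have h2 := nem_lipschitz X K hK γ δ hXc
    push_cast
    calc |l| * ‖voltCLM (nem X hXc γ - nem X hXc δ)‖
        ≤ |l| * (1 * (K * ‖γ - δ‖)) := by
          gcongr
          exact h1.trans (by gcongr)
      _ = _ := by ring
  have hfix : ∀ γ, γ - constCLM x - l • voltCLM (nem X hXc γ) = 0 ↔ T γ = γ := by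
    intro γ
    simp only [T]
    constructor
    · intro h
      have : γ = constCLM x + l • voltCLM (nem X hXc γ) := by
        rw [sub_sub, sub_eq_zero] at h
        exact h
      exact this.symm
    · intro h
      rw [sub_sub, sub_eq_zero]
      exact h.symm
  refine ⟨ContractingWith.fixedPoint T hT, ?_, ?_⟩
  · exact (hfix _).2 (hT.fixedPoint_isFixedPt)
  · intro γ hγ
    exact hT.fixedPoint_unique ((hfix _).1 hγ)

include hK in
lemma norm_fderiv_le (y : F) : ‖fderiv ℝ X y‖ ≤ K := norm_fderiv_le_of_lipschitz ℝ hK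

/-- The linear part appearing in the derivative of the equation. -/
noncomputable def linPart (l : ℝ) (γ : CC F) : CC F →L[ℝ] CC F :=
  l • ((voltCLM : CC F →L[ℝ] CC F) ∘L
    applyCLM (nem (fderiv ℝ X) (hX.fderiv_right (m := ∞) (by norm_cast)).continuous γ))

include hK in
lemma norm_linPart_le (l : ℝ) (γ : CC F) : ‖linPart X hX l γ‖ ≤ |l| * K := by
  refine ContinuousLinearMap.opNorm_le_bound _ (by positivity) ?_
  intro h
  simp only [linPart, smul_apply, ContinuousLinearMap.comp_apply, norm_smul,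
    Real.norm_eq_abs]
  have h1 := (voltCLM (F := F)).le_opNorm
    (applyCLM (nem (fderiv ℝ X) (hX.fderiv_right (m := ∞) (by norm_cast)).continuous γ) h)
  have h2 : ‖applyCLM (nem (fderiv ℝ X) (hX.fderiv_right (m := ∞) (by norm_cast)).continuous γ) h‖
      ≤ K * ‖h‖ := by
    rw [CC.norm_le _ (by positivity)]
    intro t
    simp only [applyCLM_ev, nem_ev]
    calc _ ≤ ‖fderiv ℝ X (γ.ev t)‖ * ‖h.ev t‖ := (fderiv ℝ X (γ.ev t)).le_opNorm _
      _ ≤ K * ‖h‖ := by
        gcongr
        · exact norm_fderiv_le X K hK _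
        · exact h.norm_ev_le t
  have h3 : ‖voltCLM (applyCLM (nem (fderiv ℝ X)
      (hX.fderiv_right (m := ∞) (by norm_cast)).continuous γ) h)‖ ≤ K * ‖h‖ := by
    refine h1.trans ?_
    calc _ ≤ 1 * (K * ‖h‖) := by
          gcongr
          exact norm_voltCLM_le
      _ = _ := one_mul _
  calc |l| * _ ≤ |l| * (K * ‖h‖) := by gcongr
    _ = _ := by ring

lemma eqn_partial_hasFDerivAt (l : ℝ) (x : F) (γ : CC F) :
    HasFDerivAt (fun δ : CC F => eqn X hX ((l, x), δ))
      (ContinuousLinearMap.id ℝ (CC F) - linPart X hX l γ) γ := by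
  unfold eqn linPart
  have hX' : ContDiff ℝ ∞ (fderiv ℝ X) := hX.fderiv_right (m := ∞) (by norm_cast)
  have h1 := nem_hasFDerivAt X hX.continuous (hX.differentiable (by simp)) hX'.continuous γ
  have h2 := (voltCLM (F := F)).hasFDerivAt.comp γ h1
  have h3 := (hasFDerivAt_id (𝕜 := ℝ) γ).sub_const (constCLM x)
  have h4 := h3.sub (h2.const_smul l)
  exact h4

lemma eqn_partial_eq (l : ℝ) (x : F) (γ : CC F) :
    fderiv ℝ (eqn X hX) ((l, x), γ) ∘L ContinuousLinearMap.inr ℝ (ℝ × F) (CC F) =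
      ContinuousLinearMap.id ℝ (CC F) - linPart X hX l γ := by
  have hd : DifferentiableAt ℝ (eqn X hX) ((l, x), γ) :=
    (eqn_contDiff X hX).differentiable (by simp) _
  have h1 := hd.hasFDerivAt.comp γ (hasFDerivAt_prodMk_right (𝕜 := ℝ) (l, x) γ)
  exact h1.unique (eqn_partial_hasFDerivAt X hX l x γ)

include hK in
lemma eqn_partial_invertible (l : ℝ) (x : F) (γ : CC F) (hl : |l| * K < 1) :
    (fderiv ℝ (eqn X hX) ((l, x), γ) ∘L ContinuousLinearMap.inr ℝ (ℝ × F) (CC F)).IsInvertible := by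
  rw [eqn_partial_eq]
  have hn : ‖linPart X hX l γ‖ < 1 := (norm_linPart_le X hX K hK l γ).trans_lt hl
  refine ⟨ContinuousLinearEquiv.ofUnit (Units.oneSub (linPart X hX l γ) hn), ?_⟩
  ext h
  rfl

/-- The solution of the integral equation. -/
noncomputable def sol (p : ℝ × F) : CC F :=
  if h : |p.1| * K < 1 then (exists_unique_solution X K hK hX.continuous p.1 p.2 h).choose else 0

lemma sol_spec (p : ℝ × F) (h : |p.1| * K < 1) : eqn X hX (p, sol X hX K hK p) = 0 := by
  unfold sol
  rw [dif_pos h]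
  exact (exists_unique_solution X K hK hX.continuous p.1 p.2 h).choose_spec.1

lemma sol_unique (p : ℝ × F) (h : |p.1| * K < 1) (γ : CC F) (hγ : eqn X hX (p, γ) = 0) :
    γ = sol X hX K hK p := by
  unfold sol
  rw [dif_pos h]
  exact (exists_unique_solution X K hK hX.continuous p.1 p.2 h).choose_spec.2 γ hγ

lemma sol_contDiffAt (p : ℝ × F) (h : |p.1| * K < 1) : ContDiffAt ℝ ∞ (sol X hX K hK) p := by
  set u : (ℝ × F) × CC F := (p, sol X hX K hK p) with hu
  have cdf : ContDiffAt ℝ ∞ (eqn X hX) u := (eqn_contDiff X hX).contDiffAt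
  have pn : (∞ : WithTop ℕ∞) ≠ 0 := by simp
  have if₂ : (fderiv ℝ (eqn X hX) u ∘L ContinuousLinearMap.inr ℝ (ℝ × F) (CC F)).IsInvertible :=
    eqn_partial_invertible X hX K hK p.1 p.2 _ h
  have h1 := cdf.contDiffAt_implicitFunction pn if₂
  have h2 := cdf.eventually_apply_implicitFunction pn if₂
  have h3 : ∀ᶠ q : ℝ × F in 𝓝 p, |q.1| * K < 1 := by
    have : Continuous fun q : ℝ × F => |q.1| * (K : ℝ) := by fun_prop
    exact this.continuousAt.eventually (gt_mem_nhds h)
  have h4 : sol X hX K hK =ᶠ[𝓝 p] cdf.implicitFunction pn if₂ := by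
    filter_upwards [h2, h3] with q hq1 hq2
    have hz : eqn X hX u = 0 := sol_spec X hX K hK p h
    rw [hz] at hq1
    exact (sol_unique X hX K hK q hq2 _ hq1).symm
  exact h1.congr_of_eventuallyEq h4

lemma eqn_zero_iff (p : ℝ × F) (γ : CC F) :
    eqn X hX (p, γ) = 0 ↔
      ∀ t : TI, γ.ev t = p.2 + p.1 • ∫ s in (0 : ℝ)..(t : ℝ), (nem X hX.continuous γ).ext' s := by
  unfold eqn
  constructor
  · intro h t
    have := congrArg (fun δ => CC.ev δ t) h
    simp only [CC.sub_ev, CC.smul_ev, constCLM_ev, voltCLM_ev, CC.zero_ev] at this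
    rw [sub_sub, sub_eq_zero] at this
    exact this
  · intro h
    ext t
    simp only [CC.sub_ev, CC.smul_ev, constCLM_ev, voltCLM_ev, CC.zero_ev]
    rw [sub_sub, sub_eq_zero]
    exact h t

/-- The end point of the time interval. -/
def tOne : TI := ⟨1, by norm_num⟩

/-- The flow. -/
noncomputable def flow (p : ℝ × F) : F := (sol X hX K hK p).ev tOne

lemma flow_contDiffAt (p : ℝ × F) (h : |p.1| * K < 1) : ContDiffAt ℝ ∞ (flow X hX K hK) p :=
  (ContinuousLinearMap.contDiff (evCLM tOne)).contDiffAt.comp p (sol_contDiffAt X hX K hK p h)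

lemma flow_zero (x : F) : flow X hX K hK (0, x) = x := by
  have h0 : |(0, x).1| * (K : ℝ) < 1 := by simp
  have := sol_unique X hX K hK (0, x) h0 (constCLM x) (by
    rw [eqn_zero_iff]
    intro t
    simp)
  unfold flow
  rw [← this]
  rfl

/-- Rescaling: a restriction of a solution to a shorter time interval is again a solution. -/
lemma flow_scale (κ r : ℝ) (x : F) (hκ : |κ| * K < 1) (hr : r ∈ Icc (-1 : ℝ) 1) :
    flow X hX K hK (κ * r, x) = (sol X hX K hK (κ, x)).ev ⟨r, hr⟩ := by
  set γ := sol X hX K hK (κ, x) with hγ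
  have hr' : |r| ≤ 1 := abs_le.2 hr
  have hmem : ∀ s : TI, r * (s : ℝ) ∈ Icc (-1 : ℝ) 1 := by
    intro s
    have hs : |(s : ℝ)| ≤ 1 := abs_le.2 s.2
    rw [Set.mem_Icc, ← abs_le, abs_mul]
    calc |r| * |(s : ℝ)| ≤ 1 * 1 := by gcongr
      _ = 1 := one_mul _
  let β : CC F := CC.mk (fun s => γ.ev ⟨r * s, hmem s⟩) (by
    refine γ.continuous_ev.comp ?_
    refine Continuous.subtype_mk ?_ _
    exact continuous_const.mul continuous_subtype_val)
  have hl : |κ * r| * (K : ℝ) < 1 := by
    rw [abs_mul]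
    calc |κ| * |r| * (K : ℝ) ≤ |κ| * 1 * K := by gcongr
      _ < 1 := by simpa using hκ
  have hβ : eqn X hX ((κ * r, x), β) = 0 := by
    rw [eqn_zero_iff]
    intro s
    have hsol := (eqn_zero_iff X hX (κ, x) γ).1 (sol_spec X hX K hK (κ, x) hκ) ⟨r * s, hmem s⟩
    simp only [β, CC.mk_ev]
    rw [hsol]
    have hint := intervalIntegral.smul_integral_comp_mul_left (a := 0) (b := (s : ℝ))
      (fun v => (nem X hX.continuous γ).ext' v) r
    simp only [mul_zero] at hint
    rw [← hint, smul_smul]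
    congr 2
    refine intervalIntegral.integral_congr ?_
    intro w hw
    have hwI : w ∈ Icc (-1 : ℝ) 1 := by
      rcases le_total 0 (s : ℝ) with h0 | h0
      · rw [uIcc_of_le h0] at hw
        exact ⟨by linarith [hw.1], hw.2.trans s.2.2⟩
      · rw [uIcc_of_ge h0] at hw
        exact ⟨s.2.1.trans hw.1, by linarith [hw.2]⟩
    have hrw : r * w ∈ Icc (-1 : ℝ) 1 := hmem ⟨w, hwI⟩
    simp only [CC.ext'_of_mem _ hwI, CC.ext'_of_mem _ hrw, nem_ev, CC.mk_ev]
  have huniq := sol_unique X hX K hK (κ * r, x) hl β hβ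
  unfold flow
  rw [← huniq]
  simp only [β, CC.mk_ev, tOne]
  congr 1
  exact Subtype.ext (mul_one r)

/-- The flow solves the differential equation. -/
lemma flow_hasDerivAt (x : F) (t : ℝ) (ht : |t| * K < 1) :
    HasDerivAt (fun s => flow X hX K hK (s, x)) (X (flow X hX K hK (t, x))) t := by
  -- choose a slightly longer time
  set δ : ℝ := (1 - |t| * K) / (2 * (K + 1)) with hδ
  have hK0 : (0 : ℝ) ≤ K := K.2
  have hδpos : 0 < δ := by
    apply div_pos (by linarith) (by positivity)
  set κ : ℝ := |t| + δ with hκdef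
  have hκpos : 0 < κ := by positivity
  have hκ : |κ| * (K : ℝ) < 1 := by
    rw [abs_of_pos hκpos, hκdef, add_mul]
    have : δ * K ≤ (1 - |t| * K) / 2 := by
      rw [hδ]
      rw [div_mul_eq_mul_div, div_le_div_iff₀ (by positivity) (by norm_num)]
      nlinarith [sub_pos.2 ht]
    linarith
  set γ := sol X hX K hK (κ, x) with hγ
  set f : ℝ → F := (nem X hX.continuous γ).ext' with hf
  have hfc : Continuous f := (nem X hX.continuous γ).continuous_ext'
  have htlt : |t| < κ := by rw [hκdef]; linarith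
  have hrmem : t / κ ∈ Icc (-1 : ℝ) 1 := by
    rw [Set.mem_Icc, ← abs_le, abs_div, abs_of_pos hκpos, div_le_one hκpos]
    exact htlt.le
  -- the flow near `t` in terms of `γ`
  have hev : (fun s => flow X hX K hK (s, x)) =ᶠ[𝓝 t]
      fun s => x + κ • ∫ v in (0 : ℝ)..(s / κ), f v := by
    have : ∀ᶠ s in 𝓝 t, |s| < κ :=
      (continuous_abs.continuousAt).eventually (gt_mem_nhds htlt)
    filter_upwards [this] with s hs
    have hsmem : s / κ ∈ Icc (-1 : ℝ) 1 := by
      rw [Set.mem_Icc, ← abs_le, abs_div, abs_of_pos hκpos, div_le_one hκpos]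
      exact hs.le
    have h1 := flow_scale X hX K hK κ (s / κ) x hκ hsmem
    rw [mul_div_cancel₀ _ hκpos.ne'] at h1
    rw [h1]
    exact (eqn_zero_iff X hX (κ, x) γ).1 (sol_spec X hX K hK (κ, x) hκ) ⟨s / κ, hsmem⟩
  have hval : flow X hX K hK (t, x) = γ.ev ⟨t / κ, hrmem⟩ := by
    have h1 := flow_scale X hX K hK κ (t / κ) x hκ hrmem
    rwa [mul_div_cancel₀ _ hκpos.ne'] at h1
  have hfval : f (t / κ) = X (flow X hX K hK (t, x)) := by
    rw [hval, hf, CC.ext'_of_mem _ hrmem, nem_ev]
  have hd1 : HasDerivAt (fun r => ∫ v in (0 : ℝ)..r, f v) (f (t / κ)) (t / κ) :=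
    (hfc.integral_hasStrictDerivAt 0 (t / κ)).hasDerivAt
  have hd2 : HasDerivAt (fun s : ℝ => s / κ) (1 / κ) t := (hasDerivAt_id t).div_const κ
  have hd3 : HasDerivAt ((fun r => ∫ v in (0 : ℝ)..r, f v) ∘ (fun s : ℝ => s / κ))
      ((1 / κ) • f (t / κ)) t := HasDerivAt.scomp t hd1 hd2
  have hd4 : HasDerivAt (fun s => x + κ • ∫ v in (0 : ℝ)..(s / κ), f v)
      (κ • ((1 / κ) • f (t / κ))) t := (HasDerivAt.const_smul κ hd3).const_add x
  have hd5 : κ • ((1 / κ) • f (t / κ)) = X (flow X hX K hK (t, x)) := by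
    rw [smul_smul, mul_one_div_cancel hκpos.ne', one_smul, hfval]
  rw [hd5] at hd4
  exact hd4.congr_of_eventuallyEq hev

include hX hK in
/-- Main statement: a Lipschitz smooth vector field has a short-time smooth flow. -/
theorem exists_flow :
    ∃ Φ : ℝ × F → F, (∀ p : ℝ × F, |p.1| * (K : ℝ) < 1 → ContDiffAt ℝ ∞ Φ p) ∧
      (∀ x, Φ (0, x) = x) ∧
      (∀ (x : F) (t : ℝ), |t| * (K : ℝ) < 1 → HasDerivAt (fun s => Φ (s, x)) (X (Φ (t, x))) t) :=
  ⟨flow X hX K hK, flow_contDiffAt X hX K hK, flow_zero X hX K hK, flow_hasDerivAt X hX K hK⟩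

end Flow

end Crest.Agent.Lib.SmoothFlow
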