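import Crest.Prelude.Def_QuadricHamiltonian
import Crest.Agent.Lib.SmoothFlow

/-!
A Hamiltonian diffeomorphism of the quadric threefold with exactly three fixed points:
the composition of the involution `diag(-1,-1,-1,-1,1)` with the short time flow of a function
which on the hyperplane section `Q² = S² × S²` is bi-affine with exactly three critical points.
-/

set_option autoImplicit false

open scoped ContDiff Topology NNReal ComplexConjugate
open Set Crest.GeometryTopology.Quadric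

namespace Crest.Agent.Lib.QuadricThreeFixed

noncomputable section

/-- complex 5-space -/
abbrev E5 : Type := Fin 5 → ℂ

/-- The linear field `∑ s_l A_l x` generated by four plane rotations, with real coefficients. -/
def gen (s01 s03 s12 s23 : ℝ) (x : E5) : E5 :=
  ![-(s01 • x 1) - s03 • x 3, s01 • x 0 - s12 • x 2, s12 • x 1 - s23 • x 3,
    s23 • x 2 + s03 • x 0, 0]

section gen_lemmas
variable (s01 s03 s12 s23 : ℝ) (x : E5)
@[simp] lemma gen_0 : gen s01 s03 s12 s23 x 0 = -(s01 • x 1) - s03 • x 3 := rfl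
@[simp] lemma gen_1 : gen s01 s03 s12 s23 x 1 = s01 • x 0 - s12 • x 2 := rfl
@[simp] lemma gen_2 : gen s01 s03 s12 s23 x 2 = s12 • x 1 - s23 • x 3 := rfl
@[simp] lemma gen_3 : gen s01 s03 s12 s23 x 3 = s23 • x 2 + s03 • x 0 := rfl
@[simp] lemma gen_4 : gen s01 s03 s12 s23 x 4 = 0 := rfl
end gen_lemmas

/-- The moment of the rotation in the plane `j k`: `2 Im (conj x_j x_k)`. -/
def mm (j k : Fin 5) (x : E5) : ℝ := 2 * ((x j).re * (x k).im - (x j).im * (x k).re)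

/-- The differential of `mm j k` at `x` in the direction `w`. -/
def dmm (j k : Fin 5) (x w : E5) : ℝ :=
  2 * ((w j).re * (x k).im + (x j).re * (w k).im - (w j).im * (x k).re - (x j).im * (w k).re)

lemma herm_eq (u w : E5) : herm u w = conj (u 0) * w 0 + conj (u 1) * w 1 + conj (u 2) * w 2
    + conj (u 3) * w 3 + conj (u 4) * w 4 := by
  simp [herm, Fin.sum_univ_five]

lemma gen_symp (s01 s03 s12 s23 : ℝ) (x w : E5) :
    2 * (herm (gen s01 s03 s12 s23 x) w).im =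
      s01 * dmm 0 1 x w + s03 * dmm 0 3 x w + s12 * dmm 1 2 x w + s23 * dmm 2 3 x w := by
  simp only [herm_eq, gen_0, gen_1, gen_2, gen_3, gen_4, dmm]
  simp [Complex.add_im, Complex.mul_im, Complex.add_re, Complex.sub_re, Complex.sub_im]
  ring

lemma gen_herm (s01 s03 s12 s23 : ℝ) (x : E5) :
    herm (gen s01 s03 s12 s23 x) x + herm x (gen s01 s03 s12 s23 x) = 0 := by
  simp only [herm_eq, gen_0, gen_1, gen_2, gen_3, gen_4]
  simp only [Complex.real_smul, map_sub, map_neg, map_add, map_mul, Complex.conj_ofReal, map_zero]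
  ring

lemma gen_iso (s01 s03 s12 s23 : ℝ) (x : E5) :
    ∑ j, x j * gen s01 s03 s12 s23 x j = 0 := by
  simp only [Fin.sum_univ_five, gen_0, gen_1, gen_2, gen_3, gen_4]
  simp only [Complex.real_smul]
  ring

section moments
variable (s01 s03 s12 s23 : ℝ) (x : E5)

lemma dmm01 : dmm 0 1 x (gen s01 s03 s12 s23 x) = s03 * mm 1 3 x - s12 * mm 0 2 x := by
  simp [dmm, mm]; ring
lemma dmm02 : dmm 0 2 x (gen s01 s03 s12 s23 x) =
    -s01 * mm 1 2 x + s03 * mm 2 3 x + s12 * mm 0 1 x - s23 * mm 0 3 x := by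
  simp [dmm, mm]; ring
lemma dmm03 : dmm 0 3 x (gen s01 s03 s12 s23 x) = -s01 * mm 1 3 x + s23 * mm 0 2 x := by
  simp [dmm, mm]; ring
lemma dmm12 : dmm 1 2 x (gen s01 s03 s12 s23 x) = s01 * mm 0 2 x - s23 * mm 1 3 x := by
  simp [dmm, mm]; ring
lemma dmm13 : dmm 1 3 x (gen s01 s03 s12 s23 x) =
    s01 * mm 0 3 x - s12 * mm 2 3 x - s03 * mm 0 1 x + s23 * mm 1 2 x := by
  simp [dmm, mm]; ring
lemma dmm23 : dmm 2 3 x (gen s01 s03 s12 s23 x) = s12 * mm 1 3 x - s03 * mm 0 2 x := by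
  simp [dmm, mm]; ring

end moments

/-! ### The Hamiltonian and its vector field -/

/-- `√2` -/
def r2 : ℝ := Real.sqrt 2

lemma r2_sq : r2 * r2 = 2 := Real.mul_self_sqrt (by norm_num)
lemma r2_pos : 0 < r2 := Real.sqrt_pos.2 (by norm_num)

/-- coefficient of the rotation `A₀₁` -/
def S01 (x : E5) : ℝ := -2 * mm 0 1 x
/-- coefficient of the rotation `A₀₃` -/
def S03 (x : E5) : ℝ := 2 * mm 0 3 x
/-- coefficient of the rotation `A₁₂` -/
def S12 (x : E5) : ℝ := r2 - 2 * mm 1 2 x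
/-- coefficient of the rotation `A₂₃` -/
def S23 (x : E5) : ℝ := r2 + 2 * mm 2 3 x

/-- the Hamiltonian vector field (before cutting off) -/
def X0 (x : E5) : E5 := gen (S01 x) (S03 x) (S12 x) (S23 x) x

/-- the Hamiltonian -/
def FF (x : E5) : ℝ :=
  mm 2 3 x * mm 2 3 x - mm 0 1 x * mm 0 1 x - mm 1 2 x * mm 1 2 x + mm 0 3 x * mm 0 3 x
    + r2 * (mm 2 3 x + mm 1 2 x)

/-- the squared norm -/
def nrm (x : E5) : ℝ := ∑ j, ((x j).re ^ 2 + (x j).im ^ 2)

/-- the cut-off -/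
def chi (x : E5) : ℝ := Real.smoothTransition (3 - nrm x)

/-- the cut-off vector field -/
def XH (x : E5) : E5 := chi x • X0 x

lemma conj_mul_self_eq (z : ℂ) : conj z * z = ((z.re ^ 2 + z.im ^ 2 : ℝ) : ℂ) := by
  rw [← Complex.normSq_eq_conj_mul_self, Complex.normSq_apply]
  congr 1
  ring

lemma nrm_eq_herm (x : E5) : ((nrm x : ℝ) : ℂ) = herm x x := by
  simp only [nrm, herm_eq, Fin.sum_univ_five, conj_mul_self_eq]
  push_cast
  ring

lemma nrm_of_cone {z : E5} (hz : z ∈ unitCone) : nrm z = 1 := by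
  have h := nrm_eq_herm z
  rw [hz.1] at h
  exact_mod_cast h

lemma chi_of_nrm {x : E5} (hx : nrm x = 1) : chi x = 1 := by
  unfold chi
  rw [hx]
  exact Real.smoothTransition.one_of_one_le (by norm_num)

lemma XH_of_nrm {x : E5} (hx : nrm x = 1) : XH x = X0 x := by
  unfold XH
  rw [chi_of_nrm hx, one_smul]

@[fun_prop] lemma contDiff_coord (j : Fin 5) : ContDiff ℝ ∞ (fun x : E5 => x j) :=
  (ContinuousLinearMap.proj (R := ℝ) (φ := fun _ : Fin 5 => ℂ) j).contDiff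

@[fun_prop] lemma contDiff_re (j : Fin 5) : ContDiff ℝ ∞ (fun x : E5 => (x j).re) :=
  Complex.reCLM.contDiff.comp (contDiff_coord j)

@[fun_prop] lemma contDiff_im (j : Fin 5) : ContDiff ℝ ∞ (fun x : E5 => (x j).im) :=
  Complex.imCLM.contDiff.comp (contDiff_coord j)

@[fun_prop] lemma contDiff_mm (j k : Fin 5) : ContDiff ℝ ∞ (mm j k) := by
  unfold mm
  fun_prop

lemma contDiff_X0 : ContDiff ℝ ∞ X0 := by
  refine contDiff_pi.2 fun i => ?_
  have h1 : ContDiff ℝ ∞ S01 := by unfold S01; fun_prop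
  have h2 : ContDiff ℝ ∞ S03 := by unfold S03; fun_prop
  have h3 : ContDiff ℝ ∞ S12 := by unfold S12; fun_prop
  have h4 : ContDiff ℝ ∞ S23 := by unfold S23; fun_prop
  fin_cases i
  · show ContDiff ℝ ∞ (fun x : E5 => -(S01 x • x 1) - S03 x • x 3)
    fun_prop
  · show ContDiff ℝ ∞ (fun x : E5 => S01 x • x 0 - S12 x • x 2)
    fun_prop
  · show ContDiff ℝ ∞ (fun x : E5 => S12 x • x 1 - S23 x • x 3)
    fun_prop
  · show ContDiff ℝ ∞ (fun x : E5 => S23 x • x 2 + S03 x • x 0)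
    fun_prop
  · exact contDiff_const

@[fun_prop] lemma contDiff_nrm : ContDiff ℝ ∞ nrm := by
  unfold nrm
  simp only [Fin.sum_univ_five]
  fun_prop

lemma contDiff_chi : ContDiff ℝ ∞ chi := by
  unfold chi
  exact (Real.smoothTransition.contDiff (n := (⊤ : ℕ∞))).comp (contDiff_const.sub contDiff_nrm)

lemma contDiff_XH : ContDiff ℝ ∞ XH := contDiff_chi.smul contDiff_X0

lemma norm_le_of_nrm_le {x : E5} {R : ℝ} (hR : 0 ≤ R) (h : nrm x ≤ R ^ 2) : ‖x‖ ≤ R := by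
  rw [pi_norm_le_iff_of_nonneg hR]
  intro j
  have hj : (x j).re ^ 2 + (x j).im ^ 2 ≤ nrm x := by
    unfold nrm
    exact Finset.single_le_sum (f := fun j => (x j).re ^ 2 + (x j).im ^ 2)
      (fun i _ => by positivity) (Finset.mem_univ j)
  have hn : ‖x j‖ ^ 2 = (x j).re ^ 2 + (x j).im ^ 2 := by
    rw [Complex.sq_norm, Complex.normSq_apply]; ring
  nlinarith [norm_nonneg (x j), sq_nonneg (‖x j‖ - R)]

lemma hasCompactSupport_XH : HasCompactSupport XH := by
  apply HasCompactSupport.intro (K := Metric.closedBall (0 : E5) 2) (isCompact_closedBall _ _)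
  intro x hx
  have hx' : 4 < nrm x := by
    by_contra hcon
    push Not at hcon
    apply hx
    rw [mem_closedBall_zero_iff]
    exact norm_le_of_nrm_le (by norm_num) (by norm_num; exact hcon)
  unfold XH chi
  rw [Real.smoothTransition.zero_of_nonpos (by linarith), zero_smul]

lemma exists_lipschitz_XH : ∃ K : ℝ≥0, LipschitzWith K XH :=
  ContDiff.lipschitzWith_of_hasCompactSupport (𝕂 := ℝ) hasCompactSupport_XH contDiff_XH (by simp)

/-- Lipschitz constant of `XH`. -/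
def KK : ℝ≥0 := Classical.choose exists_lipschitz_XH

lemma hKK : LipschitzWith KK XH := Classical.choose_spec exists_lipschitz_XH

lemma XH_zero : XH 0 = 0 := by
  unfold XH X0
  ext j
  fin_cases j <;> simp [gen]

/-! ### Derivatives along curves -/

lemma hasDerivAt_coord {y : ℝ → E5} {y' : E5} {t : ℝ} (h : HasDerivAt y y' t) (j : Fin 5) :
    HasDerivAt (fun s => y s j) (y' j) t := hasDerivAt_pi.1 h j

lemma hasDerivAt_re_coord {y : ℝ → E5} {y' : E5} {t : ℝ} (h : HasDerivAt y y' t) (j : Fin 5) :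
    HasDerivAt (fun s => (y s j).re) (y' j).re t :=
  Complex.reCLM.hasFDerivAt.comp_hasDerivAt t (hasDerivAt_coord h j)

lemma hasDerivAt_im_coord {y : ℝ → E5} {y' : E5} {t : ℝ} (h : HasDerivAt y y' t) (j : Fin 5) :
    HasDerivAt (fun s => (y s j).im) (y' j).im t :=
  Complex.imCLM.hasFDerivAt.comp_hasDerivAt t (hasDerivAt_coord h j)

lemma hasDerivAt_mm {y : ℝ → E5} {y' : E5} {t : ℝ} (h : HasDerivAt y y' t) (j k : Fin 5) :
    HasDerivAt (fun s => mm j k (y s)) (dmm j k (y t) y') t := by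
  unfold mm dmm
  have h1 := (hasDerivAt_re_coord h j).fun_mul (hasDerivAt_im_coord h k)
  have h2 := (hasDerivAt_im_coord h j).fun_mul (hasDerivAt_re_coord h k)
  exact ((h1.fun_sub h2).const_mul 2).congr_deriv (by ring)

lemma hasDerivAt_herm {y : ℝ → E5} {y' : E5} {t : ℝ} (h : HasDerivAt y y' t) :
    HasDerivAt (fun s => herm (y s) (y s)) (herm y' (y t) + herm (y t) y') t := by
  have : ∀ j ∈ (Finset.univ : Finset (Fin 5)), HasDerivAt (fun s => conj (y s j) * y s j)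
      (conj (y' j) * y t j + conj (y t j) * y' j) t := by
    intro j _
    exact ((hasDerivAt_coord h j).star).fun_mul (hasDerivAt_coord h j)
  have h2 := HasDerivAt.fun_sum this
  simp only [herm, ← Finset.sum_add_distrib]
  exact h2

lemma hasDerivAt_iso {y : ℝ → E5} {y' : E5} {t : ℝ} (h : HasDerivAt y y' t) :
    HasDerivAt (fun s => ∑ j, y s j ^ 2) (2 * ∑ j, y t j * y' j) t := by
  have : ∀ j ∈ (Finset.univ : Finset (Fin 5)), HasDerivAt (fun s => y s j ^ 2)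
      (2 * (y t j * y' j)) t := by
    intro j _
    have := (hasDerivAt_coord h j).fun_pow 2
    exact this.congr_deriv (by simp; ring)
  have h2 := HasDerivAt.fun_sum this
  rw [Finset.mul_sum]
  exact h2

lemma herm_smul_left (r : ℝ) (u w : E5) : herm (r • u) w = r * herm u w := by
  simp only [herm_eq, Pi.smul_apply, Complex.real_smul, map_mul, Complex.conj_ofReal]
  ring

lemma herm_smul_right (r : ℝ) (u w : E5) : herm u (r • w) = r * herm u w := by
  simp only [herm_eq, Pi.smul_apply, Complex.real_smul]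
  ring

lemma const_on {G : Type} [NormedAddCommGroup G] [NormedSpace ℝ G] {f : ℝ → G} {T : ℝ}
    (h : ∀ s ∈ Icc 0 T, HasDerivAt f 0 s) : ∀ τ ∈ Icc 0 T, f τ = f 0 := by
  apply constant_of_has_deriv_right_zero
  · exact fun s hs => (h s hs).continuousAt.continuousWithinAt
  · exact fun s hs => (h s (Ico_subset_Icc_self hs)).hasDerivWithinAt

/-! ### The flow -/

open Crest.Agent.Lib.SmoothFlow in
/-- The flow of `XH`. -/
def Phi : ℝ × E5 → E5 := flow XH contDiff_XH KK hKK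

open Crest.Agent.Lib.SmoothFlow in
lemma Phi_zero (x : E5) : Phi (0, x) = x := flow_zero XH contDiff_XH KK hKK x

open Crest.Agent.Lib.SmoothFlow in
lemma Phi_deriv (x : E5) (t : ℝ) (ht : |t| * (KK : ℝ) < 1) :
    HasDerivAt (fun s => Phi (s, x)) (XH (Phi (t, x))) t :=
  flow_hasDerivAt XH contDiff_XH KK hKK x t ht

open Crest.Agent.Lib.SmoothFlow in
lemma Phi_contDiffAt (p : ℝ × E5) (h : |p.1| * (KK : ℝ) < 1) : ContDiffAt ℝ ∞ Phi p :=
  flow_contDiffAt XH contDiff_XH KK hKK p h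

/-- Times for which the flow is available. -/
lemma time_small {T τ : ℝ} (hT : T * (KK : ℝ) < 1) (hτ : τ ∈ Icc 0 T) : |τ| * (KK : ℝ) < 1 := by
  rw [abs_of_nonneg hτ.1]
  calc τ * (KK : ℝ) ≤ T * KK := by
        gcongr
        exact hτ.2
    _ < 1 := hT

/-- Uniqueness of solutions. -/
lemma Phi_unique {T : ℝ} (hT : T * (KK : ℝ) < 1) (x : E5) {y : ℝ → E5} (hy0 : y 0 = x)
    (hy : ∀ s ∈ Icc 0 T, HasDerivAt y (XH (y s)) s) :
    ∀ τ ∈ Icc 0 T, y τ = Phi (τ, x) := by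
  have hP : ∀ s ∈ Icc 0 T, HasDerivAt (fun s => Phi (s, x)) (XH (Phi (s, x))) s :=
    fun s hs => Phi_deriv x s (time_small hT hs)
  apply ODE_solution_unique (v := fun _ => XH) (K := KK) (a := 0) (b := T) (fun _ => hKK)
  · exact fun s hs => (hy s hs).continuousAt.continuousWithinAt
  · exact fun s hs => (hy s (Ico_subset_Icc_self hs)).hasDerivWithinAt
  · exact fun s hs => (hP s hs).continuousAt.continuousWithinAt
  · exact fun s hs => (hP s (Ico_subset_Icc_self hs)).hasDerivWithinAt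
  · rw [hy0, Phi_zero]

lemma herm_XH (x : E5) : herm (XH x) x + herm x (XH x) = 0 := by
  unfold XH X0
  rw [herm_smul_left, herm_smul_right, ← mul_add, gen_herm, mul_zero]

lemma iso_XH (x : E5) : ∑ j, x j * XH x j = 0 := by
  have h := gen_iso (S01 x) (S03 x) (S12 x) (S23 x) x
  calc ∑ j, x j * XH x j = (chi x : ℂ) * ∑ j, x j * gen (S01 x) (S03 x) (S12 x) (S23 x) x j := by
        rw [Finset.mul_sum]
        refine Finset.sum_congr rfl fun j _ => ?_
        simp only [XH, X0, Pi.smul_apply, Complex.real_smul]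
        ring
    _ = 0 := by rw [h, mul_zero]

lemma XH_4 (x : E5) : XH x 4 = 0 := by
  simp [XH, X0]

/-- Conservation laws along the flow. -/
lemma Phi_cons {T : ℝ} (hT : T * (KK : ℝ) < 1) (x : E5) {τ : ℝ} (hτ : τ ∈ Icc 0 T) :
    herm (Phi (τ, x)) (Phi (τ, x)) = herm x x ∧ ∑ j, Phi (τ, x) j ^ 2 = ∑ j, x j ^ 2 ∧
      Phi (τ, x) 4 = x 4 := by
  have hP : ∀ s ∈ Icc 0 T, HasDerivAt (fun s => Phi (s, x)) (XH (Phi (s, x))) s :=
    fun s hs => Phi_deriv x s (time_small hT hs)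
  refine ⟨?_, ?_, ?_⟩
  · have := const_on (f := fun s => herm (Phi (s, x)) (Phi (s, x))) (T := T) (fun s hs => by
      have h1 := hasDerivAt_herm (hP s hs)
      rwa [herm_XH] at h1) τ hτ
    simpa [Phi_zero] using this
  · have := const_on (f := fun s => ∑ j, Phi (s, x) j ^ 2) (T := T) (fun s hs => by
      have h1 := hasDerivAt_iso (hP s hs)
      rwa [iso_XH, mul_zero] at h1) τ hτ
    simpa [Phi_zero] using this
  · have := const_on (f := fun s => Phi (s, x) 4) (T := T) (fun s hs => by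
      have h1 := hasDerivAt_coord (hP s hs) 4
      rwa [XH_4] at h1) τ hτ
    simpa [Phi_zero] using this

lemma Phi_mem_cone {T : ℝ} (hT : T * (KK : ℝ) < 1) {z : E5} (hz : z ∈ unitCone) {τ : ℝ}
    (hτ : τ ∈ Icc 0 T) : Phi (τ, z) ∈ unitCone := by
  obtain ⟨h1, h2, _⟩ := Phi_cons hT z hτ
  exact ⟨h1.trans hz.1, h2.trans hz.2⟩

/-! ### Equivariance under unit scalars -/

section Scalars
variable {c : ℂ} (hc : ‖c‖ = 1)
include hc

lemma re_im_sq : c.re ^ 2 + c.im ^ 2 = 1 := by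
  have := Complex.sq_norm c
  rw [hc, Complex.normSq_apply] at this
  nlinarith

lemma mm_smul (j k : Fin 5) (x : E5) : mm j k (c • x) = mm j k x := by
  have h := re_im_sq hc
  simp only [mm, Pi.smul_apply, smul_eq_mul, Complex.mul_re, Complex.mul_im]
  linear_combination (2 * ((x j).re * (x k).im - (x j).im * (x k).re)) * h

lemma nrm_smul (x : E5) : nrm (c • x) = nrm x := by
  have h := re_im_sq hc
  simp only [nrm, Fin.sum_univ_five, Pi.smul_apply, smul_eq_mul, Complex.mul_re, Complex.mul_im]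
  linear_combination (((x 0).re ^ 2 + (x 0).im ^ 2) + ((x 1).re ^ 2 + (x 1).im ^ 2)
    + ((x 2).re ^ 2 + (x 2).im ^ 2) + ((x 3).re ^ 2 + (x 3).im ^ 2)
    + ((x 4).re ^ 2 + (x 4).im ^ 2)) * h

lemma XH_smul (x : E5) : XH (c • x) = c • XH x := by
  have hchi : chi (c • x) = chi x := by simp [chi, nrm_smul hc]
  have h01 : S01 (c • x) = S01 x := by simp [S01, mm_smul hc]
  have h03 : S03 (c • x) = S03 x := by simp [S03, mm_smul hc]
  have h12 : S12 (c • x) = S12 x := by simp [S12, mm_smul hc]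
  have h23 : S23 (c • x) = S23 x := by simp [S23, mm_smul hc]
  unfold XH X0
  rw [hchi, h01, h03, h12, h23]
  ext j
  fin_cases j <;> simp [Complex.real_smul] <;> ring

lemma Phi_smul {T : ℝ} (hT : T * (KK : ℝ) < 1) (x : E5) {τ : ℝ} (hτ : τ ∈ Icc 0 T) :
    Phi (τ, c • x) = c • Phi (τ, x) := by
  refine (Phi_unique hT (c • x) (y := fun s => c • Phi (s, x)) (by simp [Phi_zero]) ?_ τ hτ).symm
  intro s hs
  have h1 := Phi_deriv x s (time_small hT hs)
  have h2 := HasDerivAt.const_smul c h1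
  simp only [XH_smul hc]
  exact h2

end Scalars

/-! ### A periodic orbit of a short period is constant -/

lemma yorke {E : Type} [NormedAddCommGroup E] [NormedSpace ℝ E] [CompleteSpace E]
    (V : E → E) (W : ℝ → E) (S : Set E) (L : ℝ≥0) (hV : LipschitzOnWith L V S) (T : ℝ)
    (hT : 0 < T) (hLT : (L : ℝ) * T < 1)
    (hW : ∀ t ∈ Icc 0 T, HasDerivAt W (V (W t)) t) (hWS : ∀ t ∈ Icc 0 T, W t ∈ S)
    (hper : W 0 = W T) : ∀ t ∈ Icc 0 T, V (W t) = 0 := by
  have hWc : ContinuousOn W (Icc 0 T) := fun s hs => (hW s hs).continuousAt.continuousWithinAt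
  have hVW : ContinuousOn (fun t => V (W t)) (Icc 0 T) :=
    (hV.continuousOn).comp hWc hWS
  obtain ⟨t₀, ht₀, hmax⟩ := (isCompact_Icc (a := (0 : ℝ)) (b := T)).exists_isMaxOn
    ⟨0, ⟨le_rfl, hT.le⟩⟩ hVW.norm
  set M := ‖V (W t₀)‖ with hM
  have hbound : ∀ t ∈ Icc 0 T, ‖V (W t)‖ ≤ M := fun t ht => hmax ht
  have hdist : ∀ t ∈ Icc 0 T, ‖W t - W t₀‖ ≤ M * T := by
    intro t ht
    have h1 := (convex_Icc (0 : ℝ) T).norm_image_sub_le_of_norm_hasDerivWithin_le
      (f := W) (f' := fun t => V (W t)) (C := M)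
      (fun x hx => (hW x hx).hasDerivWithinAt) hbound ht₀ ht
    refine h1.trans ?_
    have hM0 : 0 ≤ M := norm_nonneg _
    gcongr
    rw [Real.norm_eq_abs, abs_le]
    constructor <;> linarith [ht.1, ht.2, ht₀.1, ht₀.2]
  have hint : IntervalIntegrable (fun t => V (W t)) MeasureTheory.volume 0 T := by
    apply ContinuousOn.intervalIntegrable
    rwa [uIcc_of_le hT.le]
  have hftc : ∫ t in (0 : ℝ)..T, V (W t) = W T - W 0 :=
    intervalIntegral.integral_eq_sub_of_hasDerivAt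
      (fun x hx => hW x (by rwa [uIcc_of_le hT.le] at hx)) hint
  have hzero : ∫ t in (0 : ℝ)..T, V (W t) = 0 := by rw [hftc, hper, sub_self]
  have hconst : ∫ t in (0 : ℝ)..T, (V (W t₀) - V (W t)) = T • V (W t₀) := by
    rw [intervalIntegral.integral_sub intervalIntegrable_const hint, hzero, sub_zero,
      intervalIntegral.integral_const, sub_zero]
  have hest : ‖∫ t in (0 : ℝ)..T, (V (W t₀) - V (W t))‖ ≤ ((L : ℝ) * (M * T)) * |T - 0| := by
    apply intervalIntegral.norm_integral_le_of_norm_le_const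
    intro t ht
    rw [uIoc_of_le hT.le] at ht
    have htI : t ∈ Icc 0 T := ⟨ht.1.le, ht.2⟩
    have h1 := hV.dist_le_mul (W t₀) (hWS t₀ ht₀) (W t) (hWS t htI)
    rw [dist_eq_norm, dist_eq_norm] at h1
    refine h1.trans ?_
    gcongr
    rw [norm_sub_rev]
    exact hdist t htI
  rw [hconst, norm_smul, Real.norm_eq_abs, abs_of_pos hT, sub_zero, abs_of_pos hT] at hest
  have hM0 : 0 ≤ M := norm_nonneg _
  have hMz : M = 0 := by
    by_contra hne
    have hMpos : 0 < M := lt_of_le_of_ne hM0 (Ne.symm hne)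
    have : T * M ≤ T * (((L : ℝ) * T) * M) := by
      calc T * M ≤ (L : ℝ) * (M * T) * T := hest
        _ = _ := by ring
    have h2 : M ≤ ((L : ℝ) * T) * M := le_of_mul_le_mul_left this hT
    nlinarith
  intro t ht
  have := hbound t ht
  rw [hMz] at this
  exact norm_le_zero_iff.1 this

/-! ### The reduced system on the six moments -/

/-- the six moments -/
def WW (x : E5) : Fin 6 → ℝ := ![mm 0 1 x, mm 0 2 x, mm 0 3 x, mm 1 2 x, mm 1 3 x, mm 2 3 x]

/-- the reduced vector field -/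
def VV (W : Fin 6 → ℝ) : Fin 6 → ℝ :=
  ![(2 * W 2) * W 4 - (r2 - 2 * W 3) * W 1,
    -(-2 * W 0) * W 3 + (2 * W 2) * W 5 + (r2 - 2 * W 3) * W 0 - (r2 + 2 * W 5) * W 2,
    -(-2 * W 0) * W 4 + (r2 + 2 * W 5) * W 1,
    (-2 * W 0) * W 1 - (r2 + 2 * W 5) * W 4,
    (-2 * W 0) * W 2 - (r2 - 2 * W 3) * W 5 - (2 * W 2) * W 0 + (r2 + 2 * W 5) * W 3,
    (r2 - 2 * W 3) * W 4 - (2 * W 2) * W 1]

lemma contDiff_VV : ContDiff ℝ ∞ VV := by
  refine contDiff_pi.2 fun i => ?_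
  have hc : ∀ j : Fin 6, ContDiff ℝ ∞ (fun W : Fin 6 → ℝ => W j) := fun j => contDiff_apply ℝ ℝ j
  have h0 := hc 0
  have h1 := hc 1
  have h2 := hc 2
  have h3 := hc 3
  have h4 := hc 4
  have h5 := hc 5
  fin_cases i
  · show ContDiff ℝ ∞ (fun W : Fin 6 → ℝ => (2 * W 2) * W 4 - (r2 - 2 * W 3) * W 1)
    fun_prop
  · show ContDiff ℝ ∞ (fun W : Fin 6 → ℝ =>
      -(-2 * W 0) * W 3 + (2 * W 2) * W 5 + (r2 - 2 * W 3) * W 0 - (r2 + 2 * W 5) * W 2)
    fun_prop
  · show ContDiff ℝ ∞ (fun W : Fin 6 → ℝ => -(-2 * W 0) * W 4 + (r2 + 2 * W 5) * W 1)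
    fun_prop
  · show ContDiff ℝ ∞ (fun W : Fin 6 → ℝ => (-2 * W 0) * W 1 - (r2 + 2 * W 5) * W 4)
    fun_prop
  · show ContDiff ℝ ∞ (fun W : Fin 6 → ℝ =>
      (-2 * W 0) * W 2 - (r2 - 2 * W 3) * W 5 - (2 * W 2) * W 0 + (r2 + 2 * W 5) * W 3)
    fun_prop
  · show ContDiff ℝ ∞ (fun W : Fin 6 → ℝ => (r2 - 2 * W 3) * W 4 - (2 * W 2) * W 1)
    fun_prop

lemma exists_lipschitz_VV :
    ∃ L : ℝ≥0, LipschitzOnWith L VV (Metric.closedBall (0 : Fin 6 → ℝ) 1) :=
  (contDiff_VV.contDiffOn (s := Metric.closedBall (0 : Fin 6 → ℝ) 1)).exists_lipschitzOnWith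
    (by simp) (convex_closedBall _ _) (isCompact_closedBall _ _)

/-- Lipschitz constant of the reduced field on the unit ball. -/
def LV : ℝ≥0 := Classical.choose exists_lipschitz_VV

lemma hLV : LipschitzOnWith LV VV (Metric.closedBall (0 : Fin 6 → ℝ) 1) :=
  Classical.choose_spec exists_lipschitz_VV

lemma mm_abs_le (x : E5) (j k : Fin 5) (hjk : j ≠ k) (hx : nrm x = 1) : |mm j k x| ≤ 1 := by
  have hsum : (x j).re ^ 2 + (x j).im ^ 2 + ((x k).re ^ 2 + (x k).im ^ 2) ≤ nrm x := by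
    unfold nrm
    have := Finset.sum_le_sum_of_subset_of_nonneg (s := {j, k}) (t := Finset.univ)
      (f := fun j => (x j).re ^ 2 + (x j).im ^ 2) (Finset.subset_univ _)
      (fun i _ _ => by positivity)
    rwa [Finset.sum_pair hjk] at this
  rw [hx] at hsum
  unfold mm
  rw [abs_le]
  constructor
  · nlinarith [sq_nonneg ((x j).re + (x k).im), sq_nonneg ((x j).im - (x k).re)]
  · nlinarith [sq_nonneg ((x j).re - (x k).im), sq_nonneg ((x j).im + (x k).re)]

lemma WW_mem_ball {x : E5} (hx : nrm x = 1) : WW x ∈ Metric.closedBall (0 : Fin 6 → ℝ) 1 := by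
  rw [mem_closedBall_zero_iff, pi_norm_le_iff_of_nonneg zero_le_one]
  intro i
  fin_cases i
  · exact mm_abs_le x 0 1 (by decide) hx
  · exact mm_abs_le x 0 2 (by decide) hx
  · exact mm_abs_le x 0 3 (by decide) hx
  · exact mm_abs_le x 1 2 (by decide) hx
  · exact mm_abs_le x 1 3 (by decide) hx
  · exact mm_abs_le x 2 3 (by decide) hx

lemma WW_deriv {y : ℝ → E5} {t : ℝ} (h : HasDerivAt y (X0 (y t)) t) :
    HasDerivAt (fun s => WW (y s)) (VV (WW (y t))) t := by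
  refine hasDerivAt_pi.2 fun i => ?_
  fin_cases i
  · have := hasDerivAt_mm h 0 1
    rw [X0, dmm01] at this
    exact this
  · have := hasDerivAt_mm h 0 2
    rw [X0, dmm02] at this
    exact this
  · have := hasDerivAt_mm h 0 3
    rw [X0, dmm03] at this
    exact this
  · have := hasDerivAt_mm h 1 2
    rw [X0, dmm12] at this
    exact this
  · have := hasDerivAt_mm h 1 3
    rw [X0, dmm13] at this
    exact this
  · have := hasDerivAt_mm h 2 3
    rw [X0, dmm23] at this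
    exact this

/-! ### The algebra of the critical points -/

lemma solve_crit (c : ℝ) (hc : c * c = 1 / 2) (hc0 : 0 < c) (a1 a2 a3 b1 b2 b3 : ℝ)
    (ha : a1 ^ 2 + a2 ^ 2 + a3 ^ 2 = 1) (hb : b1 ^ 2 + b2 ^ 2 + b3 ^ 2 = 1)
    (e1 : (c - b3) * a2 = 0) (e2 : (b1 + c) * a2 = 0) (e3 : (c - b3) * a1 = (b1 + c) * a3)
    (f1 : (c - a3) * b2 = 0) (f2 : (a1 + c) * b2 = 0) (f3 : (c - a3) * b1 = (a1 + c) * b3) :
    a2 = 0 ∧ b2 = 0 ∧ b1 = a1 ∧ b3 = a3 ∧
      ((a1 = -c ∧ a3 = c) ∨ (a1 - a3 = c ∧ a1 * a3 = 1 / 4)) := by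
  have hc' : c ≠ 0 := hc0.ne'
  -- a2 = 0
  have ha2 : a2 = 0 := by
    by_contra h
    have h1 : c - b3 = 0 := (mul_eq_zero.1 e1).resolve_right h
    have h2 : b1 + c = 0 := (mul_eq_zero.1 e2).resolve_right h
    have hb3 : b3 = c := by linarith
    have hb1 : b1 = -c := by linarith
    rw [hb3, hb1] at f3
    have h3 : (c - a3) * (-c) = (a1 + c) * c := f3
    have h4 : -(c - a3) = a1 + c := by
      apply mul_right_cancel₀ hc'
      linarith
    have h5 : a3 - a1 = 2 * c := by linarith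
    have h6 : a2 ^ 2 ≤ 0 := by nlinarith [sq_nonneg (a1 + a3)]
    exact h (by nlinarith [sq_nonneg a2])
  have hb2 : b2 = 0 := by
    by_contra h
    have h1 : c - a3 = 0 := (mul_eq_zero.1 f1).resolve_right h
    have h2 : a1 + c = 0 := (mul_eq_zero.1 f2).resolve_right h
    have ha3 : a3 = c := by linarith
    have ha1 : a1 = -c := by linarith
    rw [ha3, ha1] at e3
    have h3 : (c - b3) * (-c) = (b1 + c) * c := e3
    have h4 : -(c - b3) = b1 + c := by
      apply mul_right_cancel₀ hc'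
      linarith
    have h5 : b3 - b1 = 2 * c := by linarith
    have h6 : b2 ^ 2 ≤ 0 := by nlinarith [sq_nonneg (b1 + b3)]
    exact h (by nlinarith [sq_nonneg b2])
  subst ha2 hb2
  have ha' : a1 ^ 2 + a3 ^ 2 = 1 := by linarith
  have hb' : b1 ^ 2 + b3 ^ 2 = 1 := by linarith
  -- the difference relation
  have hdiff : a1 - a3 = b1 - b3 := by
    apply mul_left_cancel₀ hc'
    linear_combination e3 - f3
  have hfac : (a3 - b3) * (a3 + b3 + (a1 - a3)) = 0 := by
    have hb1 : b1 = b3 + (a1 - a3) := by linarith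
    rw [hb1] at hb'
    nlinarith
  have hmonkey : a1 - a3 = -(2 * c) → a1 = -c ∧ a3 = c := by
    intro hd
    have hs : (a1 + a3) ^ 2 = 0 := by
      have : (a1 - a3) ^ 2 = 2 := by rw [hd]; nlinarith
      nlinarith
    have hs' : a1 + a3 = 0 := pow_eq_zero_iff (two_ne_zero) |>.1 hs
    constructor <;> linarith
  rcases mul_eq_zero.1 hfac with h | h
  · -- a = b
    have h3 : b3 = a3 := by linarith
    have h1 : b1 = a1 := by linarith
    refine ⟨rfl, rfl, h1, h3, ?_⟩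
    rw [h3, h1] at e3
    have hd2 : (a1 - a3) ^ 2 = 1 - 2 * (a1 * a3) := by nlinarith
    have hq : (a1 - a3 - c) * (a1 - a3 + 2 * c) = 0 := by
      have : c * (a1 - a3) = 2 * (a1 * a3) := by linarith
      nlinarith
    rcases mul_eq_zero.1 hq with h' | h'
    · right
      have hd : a1 - a3 = c := by linarith
      refine ⟨hd, ?_⟩
      rw [hd] at hd2
      nlinarith
    · left
      exact hmonkey (by linarith)
  · -- the other branch
    have h3 : b3 = -a1 := by linarith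
    have h1 : b1 = -a3 := by linarith
    rw [h3, h1] at e3
    have hd : c * (a1 - a3) = -1 := by nlinarith
    have hd' : a1 - a3 = -(2 * c) := by
      apply mul_left_cancel₀ hc'
      nlinarith
    obtain ⟨ha1, ha3⟩ := hmonkey hd'
    refine ⟨rfl, rfl, ?_, ?_, Or.inl ⟨ha1, ha3⟩⟩
    · rw [h1, ha1, ha3]
    · rw [h3, ha1, ha3]; ring

/-- Lagrange identity on the isotropic unit vectors in `ℝ⁴ ⊗ ℂ`. -/
lemma bivector_unit (p0 p1 p2 p3 q0 q1 q2 q3 : ℝ)
    (h1 : p0 ^ 2 + p1 ^ 2 + p2 ^ 2 + p3 ^ 2 + (q0 ^ 2 + q1 ^ 2 + q2 ^ 2 + q3 ^ 2) = 1)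
    (h2 : p0 ^ 2 + p1 ^ 2 + p2 ^ 2 + p3 ^ 2 - (q0 ^ 2 + q1 ^ 2 + q2 ^ 2 + q3 ^ 2) = 0)
    (h3 : p0 * q0 + p1 * q1 + p2 * q2 + p3 * q3 = 0) (e : ℝ) (he : e = 1 ∨ e = -1) :
    (2 * (p2 * q3 - q2 * p3) + e * (2 * (p0 * q1 - q0 * p1))) ^ 2
    + (-(2 * (p1 * q3 - q1 * p3)) + e * (2 * (p0 * q2 - q0 * p2))) ^ 2
    + (2 * (p1 * q2 - q1 * p2) + e * (2 * (p0 * q3 - q0 * p3))) ^ 2 = 1 := by
  have he2 : e * e = 1 := by rcases he with rfl | rfl <;> norm_num
  set A := p0 ^ 2 + p1 ^ 2 + p2 ^ 2 + p3 ^ 2 with hA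
  set B := q0 ^ 2 + q1 ^ 2 + q2 ^ 2 + q3 ^ 2 with hB
  set C := p0 * q0 + p1 * q1 + p2 * q2 + p3 * q3 with hC
  have key : (2 * (p2 * q3 - q2 * p3) + e * (2 * (p0 * q1 - q0 * p1))) ^ 2
    + (-(2 * (p1 * q3 - q1 * p3)) + e * (2 * (p0 * q2 - q0 * p2))) ^ 2
    + (2 * (p1 * q2 - q1 * p2) + e * (2 * (p0 * q3 - q0 * p3))) ^ 2
    = 4 * (A * B - C * C) + (e * e - 1) * (4 * ((p0 * q1 - q0 * p1) ^ 2 + (p0 * q2 - q0 * p2) ^ 2
        + (p0 * q3 - q0 * p3) ^ 2)) := by
    rw [hA, hB, hC]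
    ring
  rw [key, he2]
  rw [h3]
  have hAB : 4 * (A * B) = 1 := by
    have : A = 1 / 2 := by linarith
    have : B = 1 / 2 := by linarith
    nlinarith
  nlinarith

lemma coord_sq (p0 p1 p2 p3 q0 q1 q2 q3 : ℝ)
    (h1 : p0 ^ 2 + p1 ^ 2 + p2 ^ 2 + p3 ^ 2 + (q0 ^ 2 + q1 ^ 2 + q2 ^ 2 + q3 ^ 2) = 1)
    (h2 : p0 ^ 2 + p1 ^ 2 + p2 ^ 2 + p3 ^ 2 - (q0 ^ 2 + q1 ^ 2 + q2 ^ 2 + q3 ^ 2) = 0)
    (h3 : p0 * q0 + p1 * q1 + p2 * q2 + p3 * q3 = 0) :
    p0 ^ 2 + q0 ^ 2 = (1 / 2) * ((2 * (p0 * q1 - q0 * p1)) ^ 2 + (2 * (p0 * q2 - q0 * p2)) ^ 2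
      + (2 * (p0 * q3 - q0 * p3)) ^ 2) := by
  have hA : p0 ^ 2 + p1 ^ 2 + p2 ^ 2 + p3 ^ 2 = 1 / 2 := by linarith
  have hB : q0 ^ 2 + q1 ^ 2 + q2 ^ 2 + q3 ^ 2 = 1 / 2 := by linarith
  have key : (1 / 2) * ((2 * (p0 * q1 - q0 * p1)) ^ 2 + (2 * (p0 * q2 - q0 * p2)) ^ 2
      + (2 * (p0 * q3 - q0 * p3)) ^ 2)
      = 2 * (p0 ^ 2 * (q0 ^ 2 + q1 ^ 2 + q2 ^ 2 + q3 ^ 2) + q0 ^ 2 * (p0 ^ 2 + p1 ^ 2 + p2 ^ 2 + p3 ^ 2)
        - 2 * p0 * q0 * (p0 * q0 + p1 * q1 + p2 * q2 + p3 * q3)) := by ring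
  rw [key, hA, hB, h3]
  ring

/-! ### The rotation path -/

/-- The rotation by the angle `θ` in the planes `(0,1)` and `(2,3)`. -/
def Rot (θ : ℝ) (x : E5) : E5 :=
  ![Real.cos θ • x 0 - Real.sin θ • x 1, Real.sin θ • x 0 + Real.cos θ • x 1,
    Real.cos θ • x 2 - Real.sin θ • x 3, Real.sin θ • x 2 + Real.cos θ • x 3, x 4]

section Rot_lemmas
variable (θ : ℝ) (x : E5)
@[simp] lemma Rot_0 : Rot θ x 0 = Real.cos θ • x 0 - Real.sin θ • x 1 := rfl
@[simp] lemma Rot_1 : Rot θ x 1 = Real.sin θ • x 0 + Real.cos θ • x 1 := rfl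
@[simp] lemma Rot_2 : Rot θ x 2 = Real.cos θ • x 2 - Real.sin θ • x 3 := rfl
@[simp] lemma Rot_3 : Rot θ x 3 = Real.sin θ • x 2 + Real.cos θ • x 3 := rfl
@[simp] lemma Rot_4 : Rot θ x 4 = x 4 := rfl
end Rot_lemmas

lemma cos_sin_c (θ : ℝ) : ((Real.cos θ : ℝ) : ℂ) * (Real.cos θ : ℝ) +
    ((Real.sin θ : ℝ) : ℂ) * (Real.sin θ : ℝ) = 1 := by
  have := Real.cos_sq_add_sin_sq θ
  norm_cast
  nlinarith

lemma herm_Rot_left (θ : ℝ) (u w : E5) : herm (Rot θ u) w = herm u (Rot (-θ) w) := by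
  simp only [herm_eq, Rot_0, Rot_1, Rot_2, Rot_3, Rot_4, Real.cos_neg, Real.sin_neg, neg_smul,
    Complex.real_smul, map_sub, map_add, map_mul, Complex.conj_ofReal]
  ring

lemma Rot_Rot_neg (θ : ℝ) (x : E5) : Rot θ (Rot (-θ) x) = x := by
  have h := cos_sin_c θ
  ext j
  fin_cases j
  · show Rot θ (Rot (-θ) x) 0 = x 0
    simp only [Rot_0, Rot_1, Real.cos_neg, Real.sin_neg, neg_smul, Complex.real_smul]
    linear_combination (x 0) * h
  · show Rot θ (Rot (-θ) x) 1 = x 1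
    simp only [Rot_0, Rot_1, Real.cos_neg, Real.sin_neg, neg_smul, Complex.real_smul]
    linear_combination (x 1) * h
  · show Rot θ (Rot (-θ) x) 2 = x 2
    simp only [Rot_2, Rot_3, Real.cos_neg, Real.sin_neg, neg_smul, Complex.real_smul]
    linear_combination (x 2) * h
  · show Rot θ (Rot (-θ) x) 3 = x 3
    simp only [Rot_2, Rot_3, Real.cos_neg, Real.sin_neg, neg_smul, Complex.real_smul]
    linear_combination (x 3) * h
  · rfl

lemma Rot_neg_Rot (θ : ℝ) (x : E5) : Rot (-θ) (Rot θ x) = x := by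
  have := Rot_Rot_neg (-θ) x
  rwa [neg_neg] at this

lemma herm_Rot (θ : ℝ) (u w : E5) : herm (Rot θ u) (Rot θ w) = herm u w := by
  rw [herm_Rot_left, Rot_neg_Rot]

lemma iso_Rot (θ : ℝ) (x : E5) : ∑ j, Rot θ x j ^ 2 = ∑ j, x j ^ 2 := by
  have h := cos_sin_c θ
  simp only [Fin.sum_univ_five, Rot_0, Rot_1, Rot_2, Rot_3, Rot_4, Complex.real_smul]
  linear_combination (x 0 ^ 2 + x 1 ^ 2 + x 2 ^ 2 + x 3 ^ 2) * h

lemma Rot_smul (θ : ℝ) (c : ℂ) (x : E5) : Rot θ (c • x) = c • Rot θ x := by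
  ext j
  fin_cases j <;> simp [Complex.real_smul, Rot] <;> ring

lemma Rot_mem_cone (θ : ℝ) {z : E5} (hz : z ∈ unitCone) : Rot θ z ∈ unitCone :=
  ⟨(herm_Rot θ z z).trans hz.1, (iso_Rot θ z).trans hz.2⟩

lemma contDiff_Rot {α : Type} [NormedAddCommGroup α] [NormedSpace ℝ α] {f : α → ℝ} {g : α → E5}
    (hf : ContDiff ℝ ∞ f) (hg : ContDiff ℝ ∞ g) : ContDiff ℝ ∞ (fun a => Rot (f a) (g a)) := by
  refine contDiff_pi.2 fun i => ?_
  have hg' := fun j => contDiff_pi.1 hg j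
  have hc : ContDiff ℝ ∞ (fun a => Real.cos (f a)) := Real.contDiff_cos.comp hf
  have hs : ContDiff ℝ ∞ (fun a => Real.sin (f a)) := Real.contDiff_sin.comp hf
  fin_cases i
  · exact (hc.smul (hg' 0)).sub (hs.smul (hg' 1))
  · exact (hs.smul (hg' 0)).add (hc.smul (hg' 1))
  · exact (hc.smul (hg' 2)).sub (hs.smul (hg' 3))
  · exact (hs.smul (hg' 2)).add (hc.smul (hg' 3))
  · exact hg' 4

/-- The time derivative of a rotated curve. -/
lemma Rot_hasDerivAt {y : ℝ → E5} {y' : E5} {t : ℝ} (h : HasDerivAt y y' t) :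
    HasDerivAt (fun s => Rot (Real.pi * s) (y s))
      (Rot (Real.pi * t) y' + Real.pi • gen 1 0 0 1 (Rot (Real.pi * t) (y t))) t := by
  have hθ : HasDerivAt (fun s : ℝ => Real.pi * s) Real.pi t := by
    simpa using (hasDerivAt_id t).const_mul Real.pi
  have hc : HasDerivAt (fun s : ℝ => Real.cos (Real.pi * s))
      (-Real.sin (Real.pi * t) * Real.pi) t := (Real.hasDerivAt_cos _).comp t hθ
  have hs : HasDerivAt (fun s : ℝ => Real.sin (Real.pi * s))
      (Real.cos (Real.pi * t) * Real.pi) t := (Real.hasDerivAt_sin _).comp t hθ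
  have h0 := hasDerivAt_coord h 0
  have h1 := hasDerivAt_coord h 1
  have h2 := hasDerivAt_coord h 2
  have h3 := hasDerivAt_coord h 3
  have h4 := hasDerivAt_coord h 4
  refine hasDerivAt_pi.2 fun i => ?_
  fin_cases i
  · refine HasDerivAt.congr_deriv ((hc.smul h0).sub (hs.smul h1)) ?_
    simp [Complex.real_smul]
    ring
  · refine HasDerivAt.congr_deriv ((hs.smul h0).add (hc.smul h1)) ?_
    simp [Complex.real_smul]
    ring
  · refine HasDerivAt.congr_deriv ((hc.smul h2).sub (hs.smul h3)) ?_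
    simp [Complex.real_smul]
    ring
  · refine HasDerivAt.congr_deriv ((hs.smul h2).add (hc.smul h3)) ?_
    simp [Complex.real_smul]
    ring
  · refine HasDerivAt.congr_deriv h4 ?_
    simp

/-- Rotation at the angle `π`. -/
lemma Rot_pi (x : E5) : Rot Real.pi x = ![-x 0, -x 1, -x 2, -x 3, x 4] := by
  ext j
  fin_cases j <;> simp [Rot]

/-- `Rot θ` as a continuous linear map. -/
def RotL (θ : ℝ) : E5 →L[ℝ] E5 :=
  LinearMap.toContinuousLinearMap
    { toFun := Rot θ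
      map_add' := by
        intro x y
        ext j
        fin_cases j <;> simp [Rot, Complex.real_smul] <;> ring
      map_smul' := by
        intro c x
        ext j
        fin_cases j <;> simp [Rot, Complex.real_smul] <;> ring }

@[simp] lemma RotL_apply (θ : ℝ) (x : E5) : RotL θ x = Rot θ x := rfl

/-! ### The Fréchet derivatives of the moments and the Hamiltonian -/

/-- real part of a coordinate -/
def rL (j : Fin 5) : E5 →L[ℝ] ℝ :=
  Complex.reCLM.comp (ContinuousLinearMap.proj (R := ℝ) (φ := fun _ : Fin 5 => ℂ) j)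

/-- imaginary part of a coordinate -/
def iL (j : Fin 5) : E5 →L[ℝ] ℝ :=
  Complex.imCLM.comp (ContinuousLinearMap.proj (R := ℝ) (φ := fun _ : Fin 5 => ℂ) j)

@[simp] lemma rL_apply (j : Fin 5) (x : E5) : rL j x = (x j).re := rfl
@[simp] lemma iL_apply (j : Fin 5) (x : E5) : iL j x = (x j).im := rfl

/-- the derivative of `mm j k` -/
def mmL (j k : Fin 5) (x : E5) : E5 →L[ℝ] ℝ :=
  (2 : ℝ) • (((x k).im • rL j + (x j).re • iL k) - ((x k).re • iL j + (x j).im • rL k))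

lemma mmL_apply (j k : Fin 5) (x w : E5) : mmL j k x w = dmm j k x w := by
  simp [mmL, dmm]
  ring

lemma mm_hasFDerivAt (j k : Fin 5) (x : E5) : HasFDerivAt (mm j k) (mmL j k x) x := by
  have h1 := ((rL j).hasFDerivAt (x := x)).mul ((iL k).hasFDerivAt (x := x))
  have h2 := ((iL j).hasFDerivAt (x := x)).mul ((rL k).hasFDerivAt (x := x))
  have h3 := (h1.sub h2).const_mul (2 : ℝ)
  refine HasFDerivAt.congr_fderiv h3 ?_
  ext w
  simp [mmL]
  ring

/-- the derivative of `FF` -/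
def FFL (x : E5) : E5 →L[ℝ] ℝ :=
  S01 x • mmL 0 1 x + S03 x • mmL 0 3 x + S12 x • mmL 1 2 x + S23 x • mmL 2 3 x

lemma FF_hasFDerivAt (x : E5) : HasFDerivAt FF (FFL x) x := by
  have m01 := mm_hasFDerivAt 0 1 x
  have m03 := mm_hasFDerivAt 0 3 x
  have m12 := mm_hasFDerivAt 1 2 x
  have m23 := mm_hasFDerivAt 2 3 x
  have h := (((m23.mul m23).sub (m01.mul m01)).sub (m12.mul m12)).add (m03.mul m03) |>.add
    ((m23.add m12).const_mul r2)
  refine HasFDerivAt.congr_fderiv h ?_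
  ext w
  simp [FFL, S01, S03, S12, S23]
  ring

lemma FFL_apply_eq (x w : E5) : FFL x w = 2 * (herm (X0 x) w).im := by
  rw [X0, gen_symp]
  simp only [FFL, add_apply, smul_apply, smul_eq_mul, mmL_apply]

lemma contDiff_FF : ContDiff ℝ ∞ FF := by
  unfold FF
  fun_prop

lemma FF_smul {c : ℂ} (hc : ‖c‖ = 1) (x : E5) : FF (c • x) = FF x := by
  simp [FF, mm_smul hc]

/-! ### The time scale -/

/-- The small time -/
def eps : ℝ := 1 / (2 * ((KK : ℝ) + LV + 1))

lemma denom_pos : 0 < (KK : ℝ) + LV + 1 := by positivity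

lemma eps_pos : 0 < eps := by
  have := denom_pos
  unfold eps
  positivity

lemma eps_KK : eps * (KK : ℝ) < 1 / 2 := by
  have hd := denom_pos
  have hK : (0 : ℝ) ≤ LV := LV.2
  unfold eps
  rw [one_div, inv_mul_lt_iff₀ (by positivity)]
  linarith

lemma eps_KK1 : eps * (KK : ℝ) < 1 := eps_KK.trans (by norm_num)

lemma LV_eps : (LV : ℝ) * eps < 1 := by
  have hd := denom_pos
  have hK : (0 : ℝ) ≤ KK := KK.2
  unfold eps
  rw [mul_one_div, div_lt_one (by positivity)]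
  linarith

lemma eps_mem : eps ∈ Icc 0 eps := ⟨eps_pos.le, le_rfl⟩

/-! ### Fixed points of the time one map -/

lemma herm_smul_smul (c : ℂ) (u w : E5) : herm (c • u) (c • w) = conj c * c * herm u w := by
  simp only [herm_eq, Pi.smul_apply, smul_eq_mul, map_mul]
  ring

lemma norm_of_fixed {z : E5} (hz : z ∈ unitCone) {c : ℂ}
    (h : Rot Real.pi (Phi (eps, z)) = c • z) : ‖c‖ = 1 := by
  have h1 := herm_smul_smul c z z
  rw [← h, herm_Rot, hz.1, (Phi_mem_cone eps_KK1 hz eps_mem).1, mul_one] at h1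
  have h2 : ((Complex.normSq c : ℝ) : ℂ) = 1 := by
    rw [Complex.normSq_eq_conj_mul_self]
    exact h1.symm
  have h3 : Complex.normSq c = 1 := by exact_mod_cast h2
  have h4 := Complex.sq_norm c
  rw [h3] at h4
  nlinarith [norm_nonneg c, sq_nonneg (‖c‖ - 1)]

lemma fixed_coords {z : E5} {c : ℂ} (h : Rot Real.pi (Phi (eps, z)) = c • z) :
    Phi (eps, z) 0 = (-c) * z 0 ∧ Phi (eps, z) 1 = (-c) * z 1 ∧ Phi (eps, z) 2 = (-c) * z 2 ∧
      Phi (eps, z) 3 = (-c) * z 3 ∧ Phi (eps, z) 4 = c * z 4 := by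
  rw [Rot_pi] at h
  have h0 := congrFun h 0
  have h1 := congrFun h 1
  have h2 := congrFun h 2
  have h3 := congrFun h 3
  have h4 := congrFun h 4
  simp only [Pi.smul_apply, smul_eq_mul] at h0 h1 h2 h3 h4
  refine ⟨?_, ?_, ?_, ?_, h4⟩
  · have : -Phi (eps, z) 0 = c * z 0 := h0
    linear_combination -this
  · have : -Phi (eps, z) 1 = c * z 1 := h1
    linear_combination -this
  · have : -Phi (eps, z) 2 = c * z 2 := h2
    linear_combination -this
  · have : -Phi (eps, z) 3 = c * z 3 := h3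
    linear_combination -this

lemma fixed_moments {z : E5} (hz : z ∈ unitCone) {c : ℂ}
    (h : Rot Real.pi (Phi (eps, z)) = c • z) : WW (Phi (eps, z)) = WW z := by
  have hc := norm_of_fixed hz h
  have hc' : ‖-c‖ = 1 := by rwa [norm_neg]
  obtain ⟨h0, h1, h2, h3, _⟩ := fixed_coords h
  have key : ∀ j k : Fin 5, (j = 0 ∨ j = 1 ∨ j = 2 ∨ j = 3) → (k = 0 ∨ k = 1 ∨ k = 2 ∨ k = 3) →
      mm j k (Phi (eps, z)) = mm j k z := by
    intro j k hj hk
    have hj' : Phi (eps, z) j = ((-c) • z) j := by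
      rcases hj with rfl | rfl | rfl | rfl <;> simp [h0, h1, h2, h3]
    have hk' : Phi (eps, z) k = ((-c) • z) k := by
      rcases hk with rfl | rfl | rfl | rfl <;> simp [h0, h1, h2, h3]
    rw [← mm_smul hc' j k z]
    unfold mm
    rw [hj', hk']
  ext i
  fin_cases i
  · exact key 0 1 (by simp) (by simp)
  · exact key 0 2 (by simp) (by simp)
  · exact key 0 3 (by simp) (by simp)
  · exact key 1 2 (by simp) (by simp)
  · exact key 1 3 (by simp) (by simp)
  · exact key 2 3 (by simp) (by simp)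

/-- The moments of a fixed point form an equilibrium of the reduced system. -/
lemma fixed_equilibrium {z : E5} (hz : z ∈ unitCone) {c : ℂ}
    (h : Rot Real.pi (Phi (eps, z)) = c • z) : VV (WW z) = 0 := by
  have hcone : ∀ s ∈ Icc 0 eps, Phi (s, z) ∈ unitCone := fun s hs => Phi_mem_cone eps_KK1 hz hs
  have hd : ∀ t ∈ Icc 0 eps, HasDerivAt (fun s => WW (Phi (s, z))) (VV (WW (Phi (t, z)))) t := by
    intro t ht
    apply WW_deriv
    have := Phi_deriv z t (time_small eps_KK1 ht)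
    rwa [XH_of_nrm (nrm_of_cone (hcone t ht))] at this
  have hin : ∀ t ∈ Icc 0 eps, WW (Phi (t, z)) ∈ Metric.closedBall (0 : Fin 6 → ℝ) 1 :=
    fun t ht => WW_mem_ball (nrm_of_cone (hcone t ht))
  have hper : WW (Phi (0, z)) = WW (Phi (eps, z)) := by
    rw [fixed_moments hz h, Phi_zero]
  have := yorke VV (fun s => WW (Phi (s, z))) _ LV hLV eps eps_pos LV_eps hd hin hper 0
    ⟨le_rfl, eps_pos.le⟩
  simpa [Phi_zero] using this

lemma norm_le_one_of_cone {z : E5} (hz : z ∈ unitCone) : ‖z‖ ≤ 1 :=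
  norm_le_of_nrm_le zero_le_one (by rw [nrm_of_cone hz]; norm_num)

lemma norm_XH_le {y : E5} (hy : y ∈ unitCone) : ‖XH y‖ ≤ KK := by
  have := hKK.dist_le_mul y 0
  rw [dist_eq_norm, dist_eq_norm, XH_zero, sub_zero, sub_zero] at this
  have h1 := norm_le_one_of_cone hy
  have hK : (0 : ℝ) ≤ KK := KK.2
  nlinarith

lemma Phi_displacement {z : E5} (hz : z ∈ unitCone) : ‖Phi (eps, z) - z‖ ≤ 1 / 2 := by
  have h1 := (convex_Icc (0 : ℝ) eps).norm_image_sub_le_of_norm_hasDerivWithin_le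
    (f := fun s => Phi (s, z)) (f' := fun s => XH (Phi (s, z))) (C := KK)
    (fun x hx => (Phi_deriv z x (time_small eps_KK1 hx)).hasDerivWithinAt)
    (fun x hx => norm_XH_le (Phi_mem_cone eps_KK1 hz hx))
    (x := 0) (y := eps) ⟨le_rfl, eps_pos.le⟩ eps_mem
  simp only [Phi_zero, sub_zero, Real.norm_eq_abs, abs_of_pos eps_pos] at h1
  refine h1.trans ?_
  have := eps_KK
  rw [mul_comm] at this
  exact this.le

/-- The hyperplane section contains all fixed points. -/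
lemma fixed_coord4 {z : E5} (hz : z ∈ unitCone) {c : ℂ}
    (h : Rot Real.pi (Phi (eps, z)) = c • z) : z 4 = 0 := by
  by_contra hz4
  obtain ⟨h0, h1, h2, h3, h4⟩ := fixed_coords h
  have hz4' : Phi (eps, z) 4 = z 4 := (Phi_cons eps_KK1 z eps_mem).2.2
  have hc1 : c = 1 := by
    rw [hz4'] at h4
    have : (1 - c) * z 4 = 0 := by linear_combination h4
    rcases mul_eq_zero.1 this with h' | h'
    · linear_combination -h'
    · exact absurd h' hz4
  subst hc1
  have hdisp := Phi_displacement hz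
  have hbd : ∀ j : Fin 5, ‖(Phi (eps, z) - z) j‖ ≤ 1 / 2 := fun j =>
    (norm_le_pi_norm _ j).trans hdisp
  have hsm : ∀ j : Fin 5, (j = 0 ∨ j = 1 ∨ j = 2 ∨ j = 3) → ‖z j‖ ≤ 1 / 4 := by
    intro j hj
    have h5 := hbd j
    have h6 : (Phi (eps, z) - z) j = (-2 : ℂ) * z j := by
      rcases hj with rfl | rfl | rfl | rfl <;> simp only [Pi.sub_apply, h0, h1, h2, h3] <;> ring
    rw [h6, norm_mul] at h5
    simp only [norm_neg, Complex.norm_ofNat] at h5
    linarith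
  have hnrm : ‖z 0‖ ^ 2 + ‖z 1‖ ^ 2 + ‖z 2‖ ^ 2 + ‖z 3‖ ^ 2 + ‖z 4‖ ^ 2 = 1 := by
    have := nrm_of_cone hz
    simp only [nrm, Fin.sum_univ_five] at this
    simp only [Complex.sq_norm, Complex.normSq_apply]
    nlinarith
  have hiso : z 4 ^ 2 = -(z 0 ^ 2 + z 1 ^ 2 + z 2 ^ 2 + z 3 ^ 2) := by
    have := hz.2
    simp only [Fin.sum_univ_five] at this
    linear_combination this
  have h7 : ‖z 4‖ ^ 2 ≤ ‖z 0‖ ^ 2 + ‖z 1‖ ^ 2 + ‖z 2‖ ^ 2 + ‖z 3‖ ^ 2 := by
    calc ‖z 4‖ ^ 2 = ‖z 4 ^ 2‖ := (norm_pow _ _).symm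
      _ = ‖z 0 ^ 2 + z 1 ^ 2 + z 2 ^ 2 + z 3 ^ 2‖ := by rw [hiso, norm_neg]
      _ ≤ ‖z 0 ^ 2‖ + ‖z 1 ^ 2‖ + ‖z 2 ^ 2‖ + ‖z 3 ^ 2‖ := norm_add₄_le
      _ = _ := by simp only [norm_pow]
  have hs0 := hsm 0 (by simp)
  have hs1 := hsm 1 (by simp)
  have hs2 := hsm 2 (by simp)
  have hs3 := hsm 3 (by simp)
  nlinarith [norm_nonneg (z 0), norm_nonneg (z 1), norm_nonneg (z 2), norm_nonneg (z 3)]

/-! ### The three fixed lines -/

/-- `1/√2` -/
def c0 : ℝ := r2 / 2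

lemma c0_sq : c0 * c0 = 1 / 2 := by
  unfold c0
  have := r2_sq
  nlinarith

lemma c0_pos : 0 < c0 := by
  unfold c0
  have := r2_pos
  positivity

lemma r2_eq : r2 = 2 * c0 := by unfold c0; ring

/-- `√3` -/
def r3 : ℝ := Real.sqrt 3

lemma r3_sq : r3 * r3 = 3 := Real.mul_self_sqrt (by norm_num)
lemma r3_pos : 0 < r3 := Real.sqrt_pos.2 (by norm_num)

/-- A point of the cone attached to a point of the circle. -/
def pt (u v : ℝ) : E5 := ![0, ⟨0, -(c0 * v)⟩, ⟨c0, 0⟩, ⟨0, c0 * u⟩, 0]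

section pt_lemmas
variable (u v : ℝ)
@[simp] lemma pt_0 : pt u v 0 = 0 := rfl
@[simp] lemma pt_1 : pt u v 1 = ⟨0, -(c0 * v)⟩ := rfl
@[simp] lemma pt_2 : pt u v 2 = ⟨c0, 0⟩ := rfl
@[simp] lemma pt_3 : pt u v 3 = ⟨0, c0 * u⟩ := rfl
@[simp] lemma pt_4 : pt u v 4 = 0 := rfl
end pt_lemmas

lemma pt_mem_cone {u v : ℝ} (h : u ^ 2 + v ^ 2 = 1) : pt u v ∈ unitCone := by
  have hc := c0_sq
  constructor
  · rw [← nrm_eq_herm]
    have : nrm (pt u v) = 1 := by
      simp only [nrm, Fin.sum_univ_five, pt_0, pt_1, pt_2, pt_3, pt_4]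
      simp only [Complex.zero_re, Complex.zero_im]
      nlinarith
    rw [this]
    simp
  · apply Complex.ext
    · simp only [Fin.sum_univ_five, pt_0, pt_1, pt_2, pt_3, pt_4, sq, Complex.add_re, Complex.mul_re,
        Complex.zero_re, Complex.zero_im]
      nlinarith
    · simp only [Fin.sum_univ_five, pt_0, pt_1, pt_2, pt_3, pt_4, sq, Complex.add_im, Complex.mul_im,
        Complex.zero_re, Complex.zero_im]
      ring

lemma mm_pt (u v : ℝ) : mm 0 1 (pt u v) = 0 ∧ mm 0 3 (pt u v) = 0 ∧ mm 1 2 (pt u v) = v ∧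
    mm 2 3 (pt u v) = u := by
  have hc := c0_sq
  refine ⟨by simp [mm], by simp [mm], ?_, ?_⟩
  · simp [mm]
    linear_combination (2 * v) * hc
  · simp [mm]
    linear_combination (2 * u) * hc

/-- The phase speed at `pt u v`. -/
def thetaOf (u v : ℝ) : ℝ := -((r2 - 2 * v) * v + (r2 + 2 * u) * u)

lemma X0_pt {u v : ℝ} (h : u ^ 2 + v ^ 2 = 1) (hp : (r2 - 2 * v) * u = (r2 + 2 * u) * v) :
    X0 (pt u v) = (Complex.I * (thetaOf u v : ℝ)) • pt u v := by
  obtain ⟨h01, h03, h12, h23⟩ := mm_pt u v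
  have hS01 : S01 (pt u v) = 0 := by simp [S01, h01]
  have hS03 : S03 (pt u v) = 0 := by simp [S03, h03]
  have hS12 : S12 (pt u v) = r2 - 2 * v := by simp [S12, h12]
  have hS23 : S23 (pt u v) = r2 + 2 * u := by simp [S23, h23]
  unfold X0
  rw [hS01, hS03, hS12, hS23]
  have key1 : thetaOf u v * v = -(r2 - 2 * v) := by
    unfold thetaOf
    linear_combination (-(r2 - 2 * v)) * h + u * hp
  have key2 : thetaOf u v * u = -(r2 + 2 * u) := by
    unfold thetaOf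
    linear_combination (-(r2 + 2 * u)) * h - v * hp
  ext j
  fin_cases j
  · simp
  · apply Complex.ext
    · show (gen 0 0 (r2 - 2 * v) (r2 + 2 * u) (pt u v) 1).re = _
      simp [gen_1, Complex.mul_re, Complex.mul_im]
      linear_combination (-c0) * key1
    · show (gen 0 0 (r2 - 2 * v) (r2 + 2 * u) (pt u v) 1).im = _
      simp [gen_1, Complex.mul_re, Complex.mul_im]
  · apply Complex.ext
    · show (gen 0 0 (r2 - 2 * v) (r2 + 2 * u) (pt u v) 2).re = _
      simp [gen_2, Complex.mul_re, Complex.mul_im]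
    · show (gen 0 0 (r2 - 2 * v) (r2 + 2 * u) (pt u v) 2).im = _
      simp [gen_2, Complex.mul_re, Complex.mul_im]
      unfold thetaOf
      ring
  · apply Complex.ext
    · show (gen 0 0 (r2 - 2 * v) (r2 + 2 * u) (pt u v) 3).re = _
      simp [gen_3, Complex.mul_re, Complex.mul_im]
      linear_combination c0 * key2
    · show (gen 0 0 (r2 - 2 * v) (r2 + 2 * u) (pt u v) 3).im = _
      simp [gen_3, Complex.mul_re, Complex.mul_im]
  · simp

lemma X0_smul {c : ℂ} (hc : ‖c‖ = 1) (x : E5) (hx : nrm x = 1) : X0 (c • x) = c • X0 x := by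
  have h1 : nrm (c • x) = 1 := by rw [nrm_smul hc, hx]
  rw [← XH_of_nrm h1, ← XH_of_nrm hx, XH_smul hc]

/-- The flow through a relative equilibrium is a phase rotation. -/
lemma Phi_pt {u v : ℝ} (h : u ^ 2 + v ^ 2 = 1) (hp : (r2 - 2 * v) * u = (r2 + 2 * u) * v)
    {τ : ℝ} (hτ : τ ∈ Icc 0 eps) :
    Phi (τ, pt u v) = Complex.exp (Complex.I * (thetaOf u v : ℝ) * (τ : ℝ)) • pt u v := by
  have hnorm : ∀ s : ℝ, ‖Complex.exp (Complex.I * (thetaOf u v : ℝ) * (s : ℝ))‖ = 1 := by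
    intro s
    have : Complex.I * (thetaOf u v : ℝ) * (s : ℝ) = ((thetaOf u v * s : ℝ) : ℂ) * Complex.I := by
      push_cast; ring
    rw [this, Complex.norm_exp_ofReal_mul_I]
  have hcone := pt_mem_cone h
  have hn1 := nrm_of_cone hcone
  symm
  refine Phi_unique eps_KK1 (pt u v)
    (y := fun s : ℝ => Complex.exp (Complex.I * (thetaOf u v : ℝ) * (s : ℝ)) • pt u v)
    (by simp) ?_ τ hτ
  intro s _
  have hn2 : nrm (Complex.exp (Complex.I * (thetaOf u v : ℝ) * (s : ℝ)) • pt u v) = 1 := by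
    rw [nrm_smul (hnorm s), hn1]
  rw [XH_of_nrm hn2, X0_smul (hnorm s) _ hn1, X0_pt h hp]
  have hd1 : HasDerivAt (fun s : ℝ => Complex.I * (thetaOf u v : ℝ) * (s : ℝ))
      (Complex.I * (thetaOf u v : ℝ)) s := by
    have := (Complex.ofRealCLM.hasDerivAt (x := s)).const_mul (Complex.I * (thetaOf u v : ℝ))
    simpa using this
  have hd2 := hd1.cexp
  have hd3 := hd2.smul_const (pt u v)
  refine hd3.congr_deriv ?_
  rw [smul_smul]

/-- the equilibrium with vanishing Hessian -/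
def u0 : ℝ := -c0
/-- the equilibrium with vanishing Hessian -/
def v0 : ℝ := c0
/-- the second equilibrium -/
def uP : ℝ := (1 + r3) * c0 / 2
/-- the second equilibrium -/
def vP : ℝ := (r3 - 1) * c0 / 2
/-- the third equilibrium -/
def uM : ℝ := (1 - r3) * c0 / 2
/-- the third equilibrium -/
def vM : ℝ := -(1 + r3) * c0 / 2

lemma circle0 : u0 ^ 2 + v0 ^ 2 = 1 := by
  unfold u0 v0; nlinarith [c0_sq]
lemma circleP : uP ^ 2 + vP ^ 2 = 1 := by
  unfold uP vP
  have h1 := c0_sq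
  have h2 := r3_sq
  have : ((1 + r3) * c0 / 2) ^ 2 + ((r3 - 1) * c0 / 2) ^ 2 = (c0 * c0) * (1 + r3 * r3) / 2 := by ring
  rw [this, h1, h2]
  norm_num
lemma circleM : uM ^ 2 + vM ^ 2 = 1 := by
  unfold uM vM
  have h1 := c0_sq
  have h2 := r3_sq
  have : ((1 - r3) * c0 / 2) ^ 2 + (-(1 + r3) * c0 / 2) ^ 2 = (c0 * c0) * (1 + r3 * r3) / 2 := by ring
  rw [this, h1, h2]
  norm_num

lemma crit0 : (r2 - 2 * v0) * u0 = (r2 + 2 * u0) * v0 := by
  rw [r2_eq]; unfold u0 v0; ring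
lemma critP : (r2 - 2 * vP) * uP = (r2 + 2 * uP) * vP := by
  rw [r2_eq]
  unfold uP vP
  have h1 := c0_sq
  have h2 := r3_sq
  have : (2 * c0 - 2 * ((r3 - 1) * c0 / 2)) * ((1 + r3) * c0 / 2)
      - (2 * c0 + 2 * ((1 + r3) * c0 / 2)) * ((r3 - 1) * c0 / 2)
      = (c0 * c0) * (2 - (r3 * r3 - 1)) := by ring
  rw [h1, h2] at this
  linarith
lemma critM : (r2 - 2 * vM) * uM = (r2 + 2 * uM) * vM := by
  rw [r2_eq]
  unfold uM vM
  have h1 := c0_sq
  have h2 := r3_sq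
  have : (2 * c0 - 2 * (-(1 + r3) * c0 / 2)) * ((1 - r3) * c0 / 2)
      - (2 * c0 + 2 * ((1 - r3) * c0 / 2)) * (-(1 + r3) * c0 / 2)
      = (c0 * c0) * (2 - (r3 * r3 - 1)) := by ring
  rw [h1, h2] at this
  linarith

lemma theta0 : thetaOf u0 v0 = 0 := by
  unfold thetaOf
  rw [r2_eq]
  unfold u0 v0
  ring

/-- Which circle points can occur. -/
lemma circle_cases {u v : ℝ} (h1 : u - v = c0) (h2 : u * v = 1 / 4) :
    (u = uP ∧ v = vP) ∨ (u = uM ∧ v = vM) := by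
  have hc := c0_sq
  have hr := r3_sq
  have hs : (u + v - r3 * c0) * (u + v + r3 * c0) = 0 := by
    have : (u + v) ^ 2 = (u - v) ^ 2 + 4 * (u * v) := by ring
    rw [h1, h2] at this
    have h3 : (r3 * c0) * (r3 * c0) = (r3 * r3) * (c0 * c0) := by ring
    rw [hr, hc] at h3
    nlinarith
  rcases mul_eq_zero.1 hs with h' | h'
  · left
    unfold uP vP
    constructor <;> linarith
  · right
    unfold uM vM
    constructor <;> linarith

/-- The equilibria of the reduced system on the unit level. -/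
lemma moments_solved (m01 m02 m03 m12 m13 m23 : ℝ)
    (hV0 : (2 * m03) * m13 - (r2 - 2 * m12) * m02 = 0)
    (hV1 : -(-2 * m01) * m12 + (2 * m03) * m23 + (r2 - 2 * m12) * m01 - (r2 + 2 * m23) * m03 = 0)
    (hV2 : -(-2 * m01) * m13 + (r2 + 2 * m23) * m02 = 0)
    (hV3 : (-2 * m01) * m02 - (r2 + 2 * m23) * m13 = 0)
    (hV4 : (-2 * m01) * m03 - (r2 - 2 * m12) * m23 - (2 * m03) * m01 + (r2 + 2 * m23) * m12 = 0)
    (hV5 : (r2 - 2 * m12) * m13 - (2 * m03) * m02 = 0)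
    (haa : (m23 + m01) ^ 2 + (-m13 + m02) ^ 2 + (m12 + m03) ^ 2 = 1)
    (hbb : (m23 + -1 * m01) ^ 2 + (-m13 + -1 * m02) ^ 2 + (m12 + -1 * m03) ^ 2 = 1) :
    m01 = 0 ∧ m02 = 0 ∧ m03 = 0 ∧ m13 = 0 ∧
      ((m23 = u0 ∧ m12 = v0) ∨ (m23 = uP ∧ m12 = vP) ∨ (m23 = uM ∧ m12 = vM)) := by
  rw [r2_eq] at hV0 hV1 hV2 hV3 hV4 hV5
  obtain ⟨ha2, hb2, hab1, hab3, hcase⟩ := solve_crit c0 c0_sq c0_pos
    (m23 + m01) (m02 - m13) (m12 + m03) (m23 - m01) (-m13 - m02) (m12 - m03)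
    (by linear_combination haa) (by linear_combination hbb)
    (by linear_combination (-1 / 2) * (hV5 + hV0))
    (by linear_combination (1 / 2) * (hV3 + hV2))
    (by linear_combination (1 / 2) * (hV1 - hV4))
    (by linear_combination (-1 / 2) * (hV5 - hV0))
    (by linear_combination (1 / 2) * (hV3 - hV2))
    (by linear_combination (-1 / 2) * (hV4 + hV1))
  have hm01z : m01 = 0 := by linarith
  have hm03z : m03 = 0 := by linarith
  have hm02z : m02 = 0 := by linarith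
  have hm13z : m13 = 0 := by linarith
  refine ⟨hm01z, hm02z, hm03z, hm13z, ?_⟩
  rcases hcase with ⟨hc1, hc2⟩ | ⟨hc1, hc2⟩
  · left
    constructor
    · unfold u0; linarith
    · unfold v0; linarith
  · right
    rw [hm01z, hm03z] at hc1 hc2
    exact circle_cases (by linarith) (by linarith)

lemma sq_add_sq_zero {a b : ℝ} (h : a ^ 2 + b ^ 2 = 0) : a = 0 ∧ b = 0 := by
  constructor
  · exact pow_eq_zero_iff (two_ne_zero) |>.1 (by nlinarith [sq_nonneg a, sq_nonneg b])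
  · exact pow_eq_zero_iff (two_ne_zero) |>.1 (by nlinarith [sq_nonneg a, sq_nonneg b])

lemma eq_of_coords {x y : E5} (h0 : x 0 = y 0) (h1 : x 1 = y 1) (h2 : x 2 = y 2) (h3 : x 3 = y 3)
    (h4 : x 4 = y 4) : x = y := by
  ext j
  fin_cases j
  · exact h0
  · exact h1
  · exact h2
  · exact h3
  · exact h4

/-- The coordinates of an isotropic unit vector in terms of its moments. -/
lemma moment_rel (p0 p1 p2 p3 q0 q1 q2 q3 u v : ℝ)
    (h1 : p0 ^ 2 + p1 ^ 2 + p2 ^ 2 + p3 ^ 2 + (q0 ^ 2 + q1 ^ 2 + q2 ^ 2 + q3 ^ 2) = 1)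
    (h2 : p0 ^ 2 + p1 ^ 2 + p2 ^ 2 + p3 ^ 2 - (q0 ^ 2 + q1 ^ 2 + q2 ^ 2 + q3 ^ 2) = 0)
    (h3 : p0 * q0 + p1 * q1 + p2 * q2 + p3 * q3 = 0)
    (e01 : 2 * (p0 * q1 - q0 * p1) = 0) (e02 : 2 * (p0 * q2 - q0 * p2) = 0)
    (e03 : 2 * (p0 * q3 - q0 * p3) = 0) (e12 : 2 * (p1 * q2 - q1 * p2) = v)
    (e13 : 2 * (p1 * q3 - q1 * p3) = 0) (e23 : 2 * (p2 * q3 - q2 * p3) = u)
    (huv : u ^ 2 + v ^ 2 = 1) :
    p0 = 0 ∧ q0 = 0 ∧ p2 ^ 2 + q2 ^ 2 = 1 / 2 ∧ p1 = v * q2 ∧ q1 = -(v * p2) ∧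
      p3 = -(u * q2) ∧ q3 = u * p2 := by
  have hs0 := coord_sq p0 p1 p2 p3 q0 q1 q2 q3 h1 h2 h3
  have hs1 := coord_sq p1 p0 p2 p3 q1 q0 q2 q3 (by linear_combination h1)
    (by linear_combination h2) (by linear_combination h3)
  have hs2 := coord_sq p2 p0 p1 p3 q2 q0 q1 q3 (by linear_combination h1)
    (by linear_combination h2) (by linear_combination h3)
  have hs3 := coord_sq p3 p0 p1 p2 q3 q0 q1 q2 (by linear_combination h1)
    (by linear_combination h2) (by linear_combination h3)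
  have e10 : 2 * (p1 * q0 - q1 * p0) = 0 := by linear_combination -e01
  have e20 : 2 * (p2 * q0 - q2 * p0) = 0 := by linear_combination -e02
  have e30 : 2 * (p3 * q0 - q3 * p0) = 0 := by linear_combination -e03
  have e21 : 2 * (p2 * q1 - q2 * p1) = -v := by linear_combination -e12
  have e31 : 2 * (p3 * q1 - q3 * p1) = 0 := by linear_combination -e13
  have e32 : 2 * (p3 * q2 - q3 * p2) = -u := by linear_combination -e23
  rw [e01, e02, e03] at hs0
  rw [e10, e12, e13] at hs1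
  rw [e20, e21, e23] at hs2
  rw [e30, e31, e32] at hs3
  have hz0 : p0 = 0 ∧ q0 = 0 := sq_add_sq_zero (by linear_combination hs0)
  have hn1 : p1 ^ 2 + q1 ^ 2 = v ^ 2 / 2 := by linear_combination hs1
  have hn2 : p2 ^ 2 + q2 ^ 2 = 1 / 2 := by linear_combination hs2 + (1 / 2) * huv
  have hn3 : p3 ^ 2 + q3 ^ 2 = u ^ 2 / 2 := by linear_combination hs3
  have hr1 : (p1 - v * q2) ^ 2 + (q1 + v * p2) ^ 2 = 0 := by
    have : (p1 - v * q2) ^ 2 + (q1 + v * p2) ^ 2 =
        (p1 ^ 2 + q1 ^ 2) + v ^ 2 * (p2 ^ 2 + q2 ^ 2) - v * (2 * (p1 * q2 - q1 * p2)) := by ring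
    rw [this, hn1, hn2, e12]
    ring
  have hr3 : (p3 + u * q2) ^ 2 + (q3 - u * p2) ^ 2 = 0 := by
    have : (p3 + u * q2) ^ 2 + (q3 - u * p2) ^ 2 =
        (p3 ^ 2 + q3 ^ 2) + u ^ 2 * (p2 ^ 2 + q2 ^ 2) - u * (2 * (p2 * q3 - q2 * p3)) := by ring
    rw [this, hn3, hn2, e23]
    ring
  obtain ⟨hp1', hq1'⟩ := sq_add_sq_zero hr1
  obtain ⟨hp3', hq3'⟩ := sq_add_sq_zero hr3
  refine ⟨hz0.1, hz0.2, hn2, ?_, ?_, ?_, ?_⟩
  · linear_combination hp1'
  · linear_combination hq1'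
  · linear_combination hp3'
  · linear_combination hq3'

/-- A fixed point of the time one map lies on one of three lines. -/
lemma line_of_equilibrium {z : E5} (hz : z ∈ unitCone) (h4 : z 4 = 0) (hV : VV (WW z) = 0) :
    ∃ u v : ℝ, ((u = u0 ∧ v = v0) ∨ (u = uP ∧ v = vP) ∨ (u = uM ∧ v = vM)) ∧
      ∃ α : ℂ, α ≠ 0 ∧ z = α • pt u v := by
  have hz4re : (z 4).re = 0 := by rw [h4]; rfl
  have hz4im : (z 4).im = 0 := by rw [h4]; rfl
  have h1 : (z 0).re ^ 2 + (z 1).re ^ 2 + (z 2).re ^ 2 + (z 3).re ^ 2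
      + ((z 0).im ^ 2 + (z 1).im ^ 2 + (z 2).im ^ 2 + (z 3).im ^ 2) = 1 := by
    have := nrm_of_cone hz
    simp only [nrm, Fin.sum_univ_five, hz4re, hz4im] at this
    rw [← this]
    ring
  have hiso := hz.2
  simp only [Fin.sum_univ_five, h4] at hiso
  have h2 : (z 0).re ^ 2 + (z 1).re ^ 2 + (z 2).re ^ 2 + (z 3).re ^ 2
      - ((z 0).im ^ 2 + (z 1).im ^ 2 + (z 2).im ^ 2 + (z 3).im ^ 2) = 0 := by
    have := congrArg Complex.re hiso
    simp only [sq, Complex.add_re, Complex.mul_re, Complex.zero_re,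
      Complex.zero_im] at this
    rw [← this]
    ring
  have h3 : (z 0).re * (z 0).im + (z 1).re * (z 1).im + (z 2).re * (z 2).im
      + (z 3).re * (z 3).im = 0 := by
    have := congrArg Complex.im hiso
    simp only [sq, Complex.add_im, Complex.mul_im, Complex.zero_im, Complex.zero_re] at this
    linear_combination (1 / 2) * this
  have haa := bivector_unit _ _ _ _ _ _ _ _ h1 h2 h3 1 (Or.inl rfl)
  have hbb := bivector_unit _ _ _ _ _ _ _ _ h1 h2 h3 (-1) (Or.inr rfl)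
  have hV0 := congrFun hV 0
  have hV1 := congrFun hV 1
  have hV2 := congrFun hV 2
  have hV3 := congrFun hV 3
  have hV4 := congrFun hV 4
  have hV5 := congrFun hV 5
  obtain ⟨hm01z, hm02z, hm03z, hm13z, hcase⟩ := moments_solved
    (mm 0 1 z) (mm 0 2 z) (mm 0 3 z) (mm 1 2 z) (mm 1 3 z) (mm 2 3 z)
    hV0 hV1 hV2 hV3 hV4 hV5 (by simpa [mm] using haa) (by simpa [mm] using hbb)
  have huv : (mm 2 3 z) ^ 2 + (mm 1 2 z) ^ 2 = 1 := by
    rcases hcase with ⟨h5, h6⟩ | ⟨h5, h6⟩ | ⟨h5, h6⟩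
    · rw [h5, h6]; exact circle0
    · rw [h5, h6]; exact circleP
    · rw [h5, h6]; exact circleM
  obtain ⟨hp0, hq0, hn2, hp1, hq1, hp3, hq3⟩ := moment_rel _ _ _ _ _ _ _ _
    (mm 2 3 z) (mm 1 2 z) h1 h2 h3 hm01z hm02z hm03z rfl hm13z rfl huv
  have hcne : c0 ≠ 0 := c0_pos.ne'
  refine ⟨mm 2 3 z, mm 1 2 z, hcase, ⟨(z 2).re / c0, (z 2).im / c0⟩, ?_, ?_⟩
  · intro h0
    have h5 := congrArg Complex.re h0
    have h6 := congrArg Complex.im h0
    simp only [Complex.zero_re, Complex.zero_im] at h5 h6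
    have h7 : (z 2).re = 0 := by
      rcases div_eq_zero_iff.1 h5 with h' | h'
      · exact h'
      · exact absurd h' hcne
    have h8 : (z 2).im = 0 := by
      rcases div_eq_zero_iff.1 h6 with h' | h'
      · exact h'
      · exact absurd h' hcne
    rw [h7, h8] at hn2
    norm_num at hn2
  · apply eq_of_coords
    · apply Complex.ext
      · simp [hp0]
      · simp [hq0]
    · apply Complex.ext
      · simp only [Pi.smul_apply, smul_eq_mul, pt_1, Complex.mul_re]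
        rw [hp1]
        field_simp
        ring
      · simp only [Pi.smul_apply, smul_eq_mul, pt_1, Complex.mul_im]
        rw [hq1]
        field_simp
        ring
    · apply Complex.ext
      · simp only [Pi.smul_apply, smul_eq_mul, pt_2, Complex.mul_re]
        field_simp
        ring
      · simp only [Pi.smul_apply, smul_eq_mul, pt_2, Complex.mul_im]
        field_simp
        ring
    · apply Complex.ext
      · simp only [Pi.smul_apply, smul_eq_mul, pt_3, Complex.mul_re]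
        rw [hp3]
        field_simp
        ring
      · simp only [Pi.smul_apply, smul_eq_mul, pt_3, Complex.mul_im]
        rw [hq3]
        field_simp
        ring
    · simp [h4]

end

end Crest.Agent.Lib.QuadricThreeFixed
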