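import Crest.Agent.Lib.QuadricThreeFixed

/-!
The final assembly of the Hamiltonian diffeomorphism of the quadric threefold with three fixed
points: the lifted isotopy, its Hamiltonian, Hamilton's equation, the fixed lines and the
degenerate fixed point.
-/

set_option autoImplicit false

open scoped ContDiff Topology NNReal ComplexConjugate
open Set Crest.GeometryTopology.Quadric

namespace Crest.Agent.Lib.QuadricThreeFixed

noncomputable section

local notation "ρ" => Real.smoothTransition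

lemma rho_time (t : ℝ) : eps * ρ t ∈ Icc 0 eps := by
  have h1 := Real.smoothTransition.nonneg t
  have h2 := Real.smoothTransition.le_one t
  have h3 := eps_pos
  exact ⟨by positivity, by nlinarith⟩

/-- The lifted isotopy. -/
def Psi (p : ℝ × E5) : E5 := Rot (Real.pi * p.1) (Phi (eps * ρ p.1, p.2))

/-- The lifted Hamiltonian. -/
def HH (p : ℝ × E5) : ℝ :=
  Real.pi * (mm 0 1 p.2 + mm 2 3 p.2) +
    (eps * deriv ρ p.1) * FF (Rot (-(Real.pi * p.1)) p.2)

lemma contDiff_rho : ContDiff ℝ ∞ ρ := Real.smoothTransition.contDiff (n := (⊤ : ℕ∞))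

lemma contDiff_rho' : ContDiff ℝ ∞ (deriv ρ) := (contDiff_infty_iff_deriv.1 contDiff_rho).2

lemma differentiable_rho : Differentiable ℝ ρ := (contDiff_infty_iff_deriv.1 contDiff_rho).1

lemma contDiff_Psi : ContDiff ℝ ∞ Psi := by
  refine contDiff_Rot (f := fun p : ℝ × E5 => Real.pi * p.1)
    (g := fun p : ℝ × E5 => Phi (eps * ρ p.1, p.2)) ?_ ?_
  · exact contDiff_const.mul contDiff_fst
  · rw [contDiff_iff_contDiffAt]
    intro p
    have h1 : ContDiffAt ℝ ∞ Phi (eps * ρ p.1, p.2) :=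
      Phi_contDiffAt _ (time_small eps_KK1 (rho_time p.1))
    have h2 : ContDiff ℝ ∞ (fun p : ℝ × E5 => (eps * ρ p.1, p.2)) :=
      (contDiff_const.mul (contDiff_rho.comp contDiff_fst)).prodMk contDiff_snd
    exact ContDiffAt.comp p h1 h2.contDiffAt

lemma contDiff_HH : ContDiff ℝ ∞ HH := by
  have h1 : ContDiff ℝ ∞ (fun p : ℝ × E5 => mm 0 1 p.2) := (contDiff_mm 0 1).comp contDiff_snd
  have h2 : ContDiff ℝ ∞ (fun p : ℝ × E5 => mm 2 3 p.2) := (contDiff_mm 2 3).comp contDiff_snd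
  have h3 : ContDiff ℝ ∞ (fun p : ℝ × E5 => deriv ρ p.1) := contDiff_rho'.comp contDiff_fst
  have h4 : ContDiff ℝ ∞ (fun p : ℝ × E5 => Rot (-(Real.pi * p.1)) p.2) :=
    contDiff_Rot ((contDiff_const.mul contDiff_fst).neg) contDiff_snd
  have h5 : ContDiff ℝ ∞ (fun p : ℝ × E5 => FF (Rot (-(Real.pi * p.1)) p.2)) := contDiff_FF.comp h4
  exact (contDiff_const.mul (h1.add h2)).add ((contDiff_const.mul h3).mul h5)

lemma herm_add_left (u v w : E5) : herm (u + v) w = herm u w + herm v w := by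
  simp only [herm_eq, Pi.add_apply, map_add]
  ring

lemma Psi_time_deriv (t : ℝ) (z : E5) : HasDerivAt (fun s : ℝ => Psi (s, z))
    (Rot (Real.pi * t) ((eps * deriv ρ t) • XH (Phi (eps * ρ t, z))) +
      Real.pi • gen 1 0 0 1 (Rot (Real.pi * t) (Phi (eps * ρ t, z)))) t := by
  have h1 : HasDerivAt (fun s => eps * ρ s) (eps * deriv ρ t) t :=
    (differentiable_rho t).hasDerivAt.const_mul eps
  have h2 := Phi_deriv z (eps * ρ t) (time_small eps_KK1 (rho_time t))
  have h3 : HasDerivAt ((fun τ : ℝ => Phi (τ, z)) ∘ fun s => eps * ρ s)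
      ((eps * deriv ρ t) • XH (Phi (eps * ρ t, z))) t := HasDerivAt.scomp t h2 h1
  exact Rot_hasDerivAt h3

lemma HH_hasFDerivAt (t : ℝ) (Y : E5) : HasFDerivAt (fun x : E5 => HH (t, x))
    (Real.pi • (mmL 0 1 Y + mmL 2 3 Y) + (eps * deriv ρ t) •
      (FFL (Rot (-(Real.pi * t)) Y)).comp (RotL (-(Real.pi * t)))) Y := by
  have h1 := ((mm_hasFDerivAt 0 1 Y).add (mm_hasFDerivAt 2 3 Y)).const_mul Real.pi
  have h2 : HasFDerivAt (fun x => FF (Rot (-(Real.pi * t)) x))
      ((FFL (Rot (-(Real.pi * t)) Y)).comp (RotL (-(Real.pi * t)))) Y :=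
    (FF_hasFDerivAt _).comp Y (RotL (-(Real.pi * t))).hasFDerivAt
  exact h1.add (h2.const_mul (eps * deriv ρ t))

/-- Hamilton's equation (for all tangent directions). -/
lemma Psi_hamilton (t : ℝ) {z : E5} (hz : z ∈ unitCone) (w : E5) :
    2 * (herm (deriv (fun s : ℝ => Psi (s, z)) t) w).im =
      fderiv ℝ (fun x : E5 => HH (t, x)) (Psi (t, z)) w := by
  have hQ : Phi (eps * ρ t, z) ∈ unitCone := Phi_mem_cone eps_KK1 hz (rho_time t)
  rw [(Psi_time_deriv t z).deriv, (HH_hasFDerivAt t (Psi (t, z))).fderiv]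
  have hY : Rot (-(Real.pi * t)) (Psi (t, z)) = Phi (eps * ρ t, z) := Rot_neg_Rot _ _
  rw [hY, XH_of_nrm (nrm_of_cone hQ)]
  show 2 * (herm _ w).im = _
  rw [herm_add_left, herm_Rot_left, herm_smul_left, herm_smul_left]
  set Q := Phi (eps * ρ t, z) with hQdef
  have hPsi : Rot (Real.pi * t) Q = Psi (t, z) := rfl
  rw [hPsi]
  have e1 := gen_symp 1 0 0 1 (Psi (t, z)) w
  have e2 := FFL_apply_eq Q (Rot (-(Real.pi * t)) w)
  simp only [add_apply, smul_apply, smul_eq_mul,
    ContinuousLinearMap.comp_apply, mmL_apply, RotL_apply, e2]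
  simp only [Complex.add_im, Complex.mul_im, Complex.ofReal_re, Complex.ofReal_im, zero_mul,
    add_zero]
  linear_combination (Real.pi) * e1

/-- The isotopy as a lift. -/
def theLift : HamiltonianConeLift where
  Ψ := Psi
  H := HH
  smooth_Ψ := contDiff_Psi
  smooth_H := contDiff_HH
  mapsTo_cone := fun t z hz => Rot_mem_cone _ (Phi_mem_cone eps_KK1 hz (rho_time t))
  compatible := fun t z _ c hc => ⟨c, by
    show Rot _ (Phi (_, c • z)) = c • Rot _ (Phi (_, z))
    rw [Phi_smul hc eps_KK1 z (rho_time t), Rot_smul]⟩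
  start := fun z _ => ⟨1, by
    show Rot _ (Phi (_, z)) = _
    simp only [mul_zero, Real.smoothTransition.zero, Phi_zero, one_smul]
    ext j
    fin_cases j <;> simp [Rot]⟩
  invariant := fun t z _ c hc => by
    show Real.pi * (mm 0 1 (c • z) + mm 2 3 (c • z)) + _ * FF (Rot _ (c • z)) =
      Real.pi * (mm 0 1 z + mm 2 3 z) + _ * FF (Rot _ z)
    rw [mm_smul hc, mm_smul hc, Rot_smul, FF_smul hc]
  hamilton := fun t _ z hz w _ => Psi_hamilton t hz w

lemma Psi_one (z : E5) : Psi (1, z) = Rot Real.pi (Phi (eps, z)) := by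
  show Rot (Real.pi * 1) (Phi (eps * ρ 1, z)) = _
  rw [mul_one, Real.smoothTransition.one, mul_one]

lemma Rot_pi_pt (u v : ℝ) : Rot Real.pi (pt u v) = (-1 : ℂ) • pt u v := by
  rw [Rot_pi]
  apply eq_of_coords <;> simp

lemma Psi_one_pt {u v : ℝ} (h : u ^ 2 + v ^ 2 = 1) (hp : (r2 - 2 * v) * u = (r2 + 2 * u) * v) :
    Psi (1, pt u v) ∈ Submodule.span ℂ {pt u v} := by
  rw [Psi_one, Phi_pt h hp eps_mem, Rot_smul, Rot_pi_pt, Submodule.mem_span_singleton]
  exact ⟨_, by rw [smul_smul]⟩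

/-- The fixed lines of the time one map. -/
lemma fixedLines_theLift : fixedLines theLift =
    {Submodule.span ℂ {pt u0 v0}, Submodule.span ℂ {pt uP vP}, Submodule.span ℂ {pt uM vM}} := by
  ext ℓ
  simp only [fixedLines, Set.mem_ofPred_eq, mem_insert_iff, mem_singleton_iff]
  constructor
  · rintro ⟨z, hz, rfl, hΨ⟩
    obtain ⟨c, hc⟩ := Submodule.mem_span_singleton.1 hΨ
    have hc' : Rot Real.pi (Phi (eps, z)) = c • z := by
      rw [hc]
      exact Psi_one z |>.symm
    obtain ⟨u, v, huv, α, hα, hzα⟩ :=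
      line_of_equilibrium hz (fixed_coord4 hz hc') (fixed_equilibrium hz hc')
    have hspan : Submodule.span ℂ {z} = Submodule.span ℂ {pt u v} := by
      rw [hzα]
      exact Submodule.span_singleton_smul_eq (IsUnit.mk0 α hα) _
    rw [hspan]
    rcases huv with ⟨rfl, rfl⟩ | ⟨rfl, rfl⟩ | ⟨rfl, rfl⟩
    · exact Or.inl rfl
    · exact Or.inr (Or.inl rfl)
    · exact Or.inr (Or.inr rfl)
  · rintro (rfl | rfl | rfl)
    · exact ⟨pt u0 v0, pt_mem_cone circle0, rfl, Psi_one_pt circle0 crit0⟩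
    · exact ⟨pt uP vP, pt_mem_cone circleP, rfl, Psi_one_pt circleP critP⟩
    · exact ⟨pt uM vM, pt_mem_cone circleM, rfl, Psi_one_pt circleM critM⟩

/-- Lines through different points of the circle are different. -/
lemma span_pt_ne {u v u' v' : ℝ} (h : u ≠ u') :
    Submodule.span ℂ {pt u v} ≠ Submodule.span ℂ {pt u' v'} := by
  intro hs
  have hm : pt u v ∈ Submodule.span ℂ {pt u' v'} := by
    rw [← hs]
    exact Submodule.mem_span_singleton_self _
  obtain ⟨a, ha⟩ := Submodule.mem_span_singleton.1 hm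
  have h2 : a * (⟨c0, 0⟩ : ℂ) = ⟨c0, 0⟩ := congrFun ha 2
  have h3 : a * (⟨0, c0 * u'⟩ : ℂ) = ⟨0, c0 * u⟩ := congrFun ha 3
  have hc := c0_pos
  have hare : a.re = 1 := by
    have := congrArg Complex.re h2
    simp only [Complex.mul_re, mul_zero, sub_zero] at this
    exact mul_right_cancel₀ hc.ne' (by linarith)
  have haim : a.im = 0 := by
    have := congrArg Complex.im h2
    simp only [Complex.mul_im, mul_zero, zero_add] at this
    exact mul_right_cancel₀ hc.ne' (by linarith)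
  have := congrArg Complex.im h3
  simp only [Complex.mul_im, hare, haim, one_mul, add_zero, mul_zero] at this
  exact h (mul_left_cancel₀ hc.ne' this).symm

lemma u0_ne_uP : u0 ≠ uP := by
  have hc := c0_pos
  have hr := r3_pos
  have : 0 < uP := by unfold uP; positivity
  have : u0 < 0 := by unfold u0; linarith
  linarith

lemma uP_ne_uM : uP ≠ uM := by
  have hc := c0_pos
  have hr := r3_pos
  have : uP - uM = r3 * c0 := by unfold uP uM; ring
  have : 0 < r3 * c0 := by positivity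
  linarith

lemma u0_ne_uM : u0 ≠ uM := by
  have hc := c0_pos
  have hr := r3_sq
  intro h
  unfold u0 uM at h
  have h1 : (3 - r3) * c0 = 0 := by linear_combination (-2) * h
  rcases mul_eq_zero.1 h1 with h2 | h2
  · have : r3 = 3 := by linarith
    rw [this] at hr
    norm_num at hr
  · exact hc.ne' h2

lemma fixedLines_ncard : (fixedLines theLift).ncard = 3 := by
  rw [fixedLines_theLift]
  exact Set.ncard_eq_three.2 ⟨_, _, _, span_pt_ne u0_ne_uP, span_pt_ne u0_ne_uM,
    span_pt_ne uP_ne_uM, rfl⟩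

/-- The tangent direction fixed by the differential at the degenerate point. -/
def wD : E5 := ![Complex.I, 0, 0, 0, 0]

lemma hasDerivAt_line (z w : E5) (σ : ℝ) : HasDerivAt (fun s : ℝ => z + s • w) w σ := by
  simpa using ((hasDerivAt_id σ).smul_const w).const_add z

lemma X0_line (σ : ℝ) : X0 (pt u0 v0 + σ • wD) = 0 := by
  have hc := c0_sq
  have e01 : mm 0 1 (pt u0 v0 + σ • wD) = 0 := by
    simp [mm, wD]
  have e03 : mm 0 3 (pt u0 v0 + σ • wD) = 0 := by
    simp [mm, wD]
  have e12 : mm 1 2 (pt u0 v0 + σ • wD) = v0 := by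
    simp [mm, wD]
    linear_combination (2 * v0) * hc
  have e23 : mm 2 3 (pt u0 v0 + σ • wD) = u0 := by
    simp [mm, wD]
    linear_combination (2 * u0) * hc
  have s01 : S01 (pt u0 v0 + σ • wD) = 0 := by simp [S01, e01]
  have s03 : S03 (pt u0 v0 + σ • wD) = 0 := by simp [S03, e03]
  have s12 : S12 (pt u0 v0 + σ • wD) = 0 := by
    rw [S12, e12, r2_eq]; unfold v0; ring
  have s23 : S23 (pt u0 v0 + σ • wD) = 0 := by
    rw [S23, e23, r2_eq]; unfold u0; ring
  unfold X0
  rw [s01, s03, s12, s23]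
  apply eq_of_coords <;> simp

lemma Phi_line (σ : ℝ) : Phi (eps, pt u0 v0 + σ • wD) = pt u0 v0 + σ • wD := by
  symm
  refine Phi_unique eps_KK1 (pt u0 v0 + σ • wD) (y := fun _ => pt u0 v0 + σ • wD) rfl ?_ eps
    eps_mem
  intro s _
  have : XH (pt u0 v0 + σ • wD) = 0 := by
    rw [XH, X0_line, smul_zero]
  rw [this]
  exact hasDerivAt_const _ _

lemma fderiv_degenerate :
    fderiv ℝ (fun x : E5 => Psi (1, x)) (pt u0 v0) wD = Rot Real.pi wD := by
  have hd : DifferentiableAt ℝ (fun x : E5 => Psi (1, x)) (pt u0 v0) := by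
    have h1 : ContDiff ℝ ∞ (fun x : E5 => Psi (1, x)) :=
      contDiff_Psi.comp (contDiff_const.prodMk contDiff_id)
    exact (h1.differentiable (by simp)) _
  have h0 : HasDerivAt (fun s : ℝ => pt u0 v0 + s • wD) wD 0 := hasDerivAt_line _ _ 0
  have h1 : HasFDerivAt (fun x : E5 => Psi (1, x))
      (fderiv ℝ (fun x : E5 => Psi (1, x)) (pt u0 v0)) (pt u0 v0 + (0 : ℝ) • wD) := by
    rw [zero_smul, add_zero]
    exact hd.hasFDerivAt
  have h2 := h1.comp_hasDerivAt (0 : ℝ) h0
  have h3 : HasDerivAt (fun s : ℝ => Rot Real.pi (pt u0 v0 + s • wD)) (Rot Real.pi wD) 0 :=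
    (RotL Real.pi).hasFDerivAt.comp_hasDerivAt (0 : ℝ) h0
  have h4 : ((fun x : E5 => Psi (1, x)) ∘ fun s : ℝ => pt u0 v0 + s • wD) =
      fun s : ℝ => Rot Real.pi (pt u0 v0 + s • wD) := by
    funext s
    show Psi (1, pt u0 v0 + s • wD) = _
    rw [Psi_one, Phi_line]
  rw [h4] at h2
  exact h2.unique h3

lemma theLift_degenerate : HasDegenerateFixedPoint theLift := by
  have hPhi : Phi (eps, pt u0 v0) = pt u0 v0 := by
    rw [Phi_pt circle0 crit0 eps_mem, theta0]
    simp
  refine ⟨pt u0 v0, pt_mem_cone circle0, -1, ?_, wD, ?_, ?_, 0, ?_⟩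
  · show Psi (1, pt u0 v0) = _
    rw [Psi_one, hPhi, Rot_pi_pt]
  · constructor
    · rw [herm_eq]
      simp [wD]
    · rw [Fin.sum_univ_five]
      simp [wD]
  · intro r h
    have h0 := congrFun h 0
    simp [wD] at h0
  · show fderiv ℝ (fun x : E5 => Psi (1, x)) (pt u0 v0) wD = _
    rw [fderiv_degenerate, Rot_pi]
    apply eq_of_coords <;> simp [wD]

/-- The main theorem. -/
theorem exists_lift_three_fixed :
    ∃ L : HamiltonianConeLift, (fixedLines L).ncard = 3 ∧ HasDegenerateFixedPoint L :=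
  ⟨theLift, fixedLines_ncard, theLift_degenerate⟩

end

end Crest.Agent.Lib.QuadricThreeFixed
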