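import Mathlib
import Crest.Agent.Lib.CylArea

/-!
# Square-tile sheared cylinder covers of ruled sets (row 211, S0326)

Key steps: an exact lattice covering lemma for the lattice `ℤ(1,u)+ℤ(v,1)` (`uv ∈ [0,1)`) by unit
squares; a frame lemma: a traceless `2×2` matrix has zero diagonal in a suitable orthonormal frame.
-/

set_option autoImplicit false

open MeasureTheory Metric Set
open scoped ENNReal RealInnerProductSpace Topology

namespace Crest.Agent.Lib.RuledCover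

open Crest.Agent.Lib.CylArea

/-! ### The lattice lemma -/

lemma lattice_nonneg {u v x y : ℝ} (hu : 0 ≤ u) (hv : 0 ≤ v) (huv : u * v < 1) :
    ∃ m n : ℤ, 0 ≤ x - m - n * v ∧ x - m - n * v ≤ 1 ∧ 0 ≤ y - m * u - n ∧ y - m * u - n ≤ 1 := by
  set g : ℤ → ℤ := fun n => ⌊x - n * v⌋ with hg
  set h : ℤ → ℝ := fun n => y - g n * u - n with hh
  have hκ : 0 < 1 - u * v := by linarith
  have hg1 : ∀ n : ℤ, (g n : ℝ) ≤ x - n * v := fun n => Int.floor_le _
  have hg2 : ∀ n : ℤ, x - n * v < g n + 1 := fun n => Int.lt_floor_add_one _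
  have hlow : ∀ n : ℤ, y - x * u - n * (1 - u * v) ≤ h n := by
    intro n
    have := mul_le_mul_of_nonneg_right (hg1 n) hu
    simp only [hh]; nlinarith
  have hup : ∀ n : ℤ, h n ≤ y - x * u + u - n * (1 - u * v) := by
    intro n
    have := mul_le_mul_of_nonneg_right (hg2 n).le hu
    simp only [hh]; nlinarith
  obtain ⟨nstar, h1, h2⟩ : ∃ ub : ℤ, 0 ≤ h ub ∧ ∀ z : ℤ, 0 ≤ h z → z ≤ ub := by
    apply Int.exists_greatest_of_bdd
    · refine ⟨⌈(y - x * u + u) / (1 - u * v)⌉, fun z hz => ?_⟩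
      have h3 := hup z
      have h4 : (z : ℝ) ≤ (y - x * u + u) / (1 - u * v) := by
        rw [le_div_iff₀ hκ]; linarith
      have := h4.trans (Int.le_ceil _)
      exact_mod_cast this
    · refine ⟨⌊(y - x * u) / (1 - u * v)⌋, ?_⟩
      have h3 := hlow ⌊(y - x * u) / (1 - u * v)⌋
      have h4 : ((⌊(y - x * u) / (1 - u * v)⌋ : ℤ) : ℝ) ≤ (y - x * u) / (1 - u * v) :=
        Int.floor_le _
      rw [le_div_iff₀ hκ] at h4
      linarith
  have h3 : h (nstar + 1) < 0 := by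
    by_contra hcon
    have := h2 _ (not_lt.1 hcon)
    omega
  have hmono : (g (nstar + 1) : ℝ) ≤ g nstar := by
    have : g (nstar + 1) ≤ g nstar := by
      apply Int.floor_le_floor
      push_cast
      nlinarith
    exact_mod_cast this
  have h4 : h nstar ≤ h (nstar + 1) + 1 := by
    simp only [hh]
    push_cast
    nlinarith [mul_le_mul_of_nonneg_right hmono hu]
  refine ⟨g nstar, nstar, ?_, ?_, h1, ?_⟩
  · linarith [hg1 nstar]
  · linarith [hg2 nstar]
  · have : h nstar ≤ 1 := by linarith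
    exact this

/-- Unit squares along the lattice `ℤ(1,u)+ℤ(v,1)` cover the plane when `0 ≤ uv < 1`. -/
lemma lattice_cover {u v x y : ℝ} (huv0 : 0 ≤ u * v) (huv : u * v < 1) :
    ∃ m n : ℤ, 0 ≤ x - m - n * v ∧ x - m - n * v ≤ 1 ∧ 0 ≤ y - m * u - n ∧ y - m * u - n ≤ 1 := by
  rcases mul_nonneg_iff.1 huv0 with ⟨hu, hv⟩ | ⟨hu, hv⟩
  · exact lattice_nonneg hu hv huv
  · obtain ⟨m, n, h1, h2, h3, h4⟩ := lattice_nonneg (u := -u) (v := -v) (x := x) (y := 1 - y)
      (by linarith) (by linarith) (by linarith)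
    refine ⟨m, -n, ?_, ?_, ?_, ?_⟩ <;> push_cast <;> linarith

/-! ### The frame lemma -/

lemma exists_angle (x w : ℝ) : ∃ c s : ℝ, c ^ 2 + s ^ 2 = 1 ∧ x * (c ^ 2 - s ^ 2) + 2 * w * (c * s) = 0 := by
  by_cases h0 : x = 0 ∧ w = 0
  · exact ⟨1, 0, by norm_num, by simp [h0.1, h0.2]⟩
  set ζ : ℂ := ⟨-w, x⟩ with hζ
  have hζ0 : ζ ≠ 0 := by
    intro h
    apply h0
    have h1 := congrArg Complex.re h
    have h2 := congrArg Complex.im h
    simp [hζ] at h1 h2
    exact ⟨h2, h1⟩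
  refine ⟨Real.cos (Complex.arg ζ / 2), Real.sin (Complex.arg ζ / 2), Real.cos_sq_add_sin_sq _, ?_⟩
  have h1 : Real.cos (Complex.arg ζ) = -w / ‖ζ‖ := by rw [Complex.cos_arg hζ0]
  have h2 : Real.sin (Complex.arg ζ) = x / ‖ζ‖ := by rw [Complex.sin_arg]
  have h3 : Real.cos (Complex.arg ζ) =
      Real.cos (Complex.arg ζ / 2) ^ 2 - Real.sin (Complex.arg ζ / 2) ^ 2 := by
    have := Real.cos_two_mul (Complex.arg ζ / 2)
    rw [show 2 * (Complex.arg ζ / 2) = Complex.arg ζ by ring] at this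
    rw [this]
    have := Real.cos_sq_add_sin_sq (Complex.arg ζ / 2)
    nlinarith
  have h4 : Real.sin (Complex.arg ζ) =
      2 * (Real.cos (Complex.arg ζ / 2) * Real.sin (Complex.arg ζ / 2)) := by
    have := Real.sin_two_mul (Complex.arg ζ / 2)
    rw [show 2 * (Complex.arg ζ / 2) = Complex.arg ζ by ring] at this
    rw [this]; ring
  rw [← h3]
  have h5 : x * Real.cos (Complex.arg ζ) + w * Real.sin (Complex.arg ζ) = 0 := by
    rw [h1, h2]; ring
  have h6 : w * Real.sin (Complex.arg ζ) =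
      2 * w * (Real.cos (Complex.arg ζ / 2) * Real.sin (Complex.arg ζ / 2)) := by
    rw [h4]; ring
  linarith

/-- Frame lemma, coordinate form: for a traceless `A` (`t = -x`). -/
lemma exists_frame_coord (x y z : ℝ) : ∃ c s β γ : ℝ, c ^ 2 + s ^ 2 = 1 ∧
    (∀ w0 w1 : ℝ, c * (x * w0 + y * w1) + s * (z * w0 - x * w1) = β * (-s * w0 + c * w1)) ∧
    (∀ w0 w1 : ℝ, -s * (x * w0 + y * w1) + c * (z * w0 - x * w1) = γ * (c * w0 + s * w1)) ∧
    β * γ = x ^ 2 + y * z := by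
  obtain ⟨c, s, hcs, ha⟩ := exists_angle x ((y + z) / 2)
  have ha' : x * (c ^ 2 - s ^ 2) + (y + z) * c * s = 0 := by linarith
  refine ⟨c, s, -2 * x * c * s + y * c ^ 2 - z * s ^ 2, -2 * x * c * s - y * s ^ 2 + z * c ^ 2,
    hcs, ?_, ?_, ?_⟩
  · intro w0 w1
    linear_combination (-(c * (x * w0 + y * w1) + s * (z * w0 - x * w1))) * hcs +
      (c * w0 + s * w1) * ha'
  · intro w0 w1
    linear_combination (-(-s * (x * w0 + y * w1) + c * (z * w0 - x * w1))) * hcs -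
      (-s * w0 + c * w1) * ha'
  · linear_combination ((c ^ 2 + s ^ 2 + 1) * (x ^ 2 + y * z)) * hcs -
      (x * (c ^ 2 - s ^ 2) + (y + z) * c * s) * ha'

/-! ### Frame coordinates -/

/-- First frame coordinate. -/
noncomputable def f1 (c s : ℝ) (w : R2) : ℝ := c * w 0 + s * w 1
/-- Second frame coordinate. -/
noncomputable def f2 (c s : ℝ) (w : R2) : ℝ := -s * w 0 + c * w 1
/-- First frame vector. -/
noncomputable def g1 (c s : ℝ) : R2 := !₂[c, s]
/-- Second frame vector. -/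
noncomputable def g2 (c s : ℝ) : R2 := !₂[-s, c]
/-- Lattice point. -/
noncomputable def lat (c s δ : ℝ) (m n : ℤ) : R2 := !₂[δ * (c * m - s * n), δ * (s * m + c * n)]

lemma normsq2 (w : R2) : ‖w‖ ^ 2 = w 0 ^ 2 + w 1 ^ 2 := by
  rw [EuclideanSpace.norm_sq_eq, Fin.sum_univ_two]; simp

section frame
variable {c s : ℝ} (hcs : c ^ 2 + s ^ 2 = 1)
include hcs

lemma f1_lat (δ : ℝ) (m n : ℤ) : f1 c s (lat c s δ m n) = δ * m := by
  simp only [f1, lat]
  simp
  linear_combination (δ * m) * hcs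

lemma f2_lat (δ : ℝ) (m n : ℤ) : f2 c s (lat c s δ m n) = δ * n := by
  simp only [f2, lat]
  simp
  linear_combination (δ * n) * hcs

lemma normsq_frame (w : R2) : ‖w‖ ^ 2 = f1 c s w ^ 2 + f2 c s w ^ 2 := by
  rw [normsq2]; simp only [f1, f2]
  linear_combination (-(w 0 ^ 2 + w 1 ^ 2)) * hcs

lemma abs_f1_le (w : R2) : |f1 c s w| ≤ ‖w‖ := by
  apply abs_le_of_sq_le_sq _ (norm_nonneg _)
  rw [normsq_frame hcs w]; nlinarith [sq_nonneg (f2 c s w)]

lemma abs_f2_le (w : R2) : |f2 c s w| ≤ ‖w‖ := by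
  apply abs_le_of_sq_le_sq _ (norm_nonneg _)
  rw [normsq_frame hcs w]; nlinarith [sq_nonneg (f1 c s w)]

omit hcs in
lemma f1_sub (a b : R2) : f1 c s (a - b) = f1 c s a - f1 c s b := by
  simp [f1]; ring
omit hcs in
lemma f2_sub (a b : R2) : f2 c s (a - b) = f2 c s a - f2 c s b := by
  simp [f2]; ring
omit hcs in
lemma f1_add (a b : R2) : f1 c s (a + b) = f1 c s a + f1 c s b := by
  simp [f1]; ring
omit hcs in
lemma f2_add (a b : R2) : f2 c s (a + b) = f2 c s a + f2 c s b := by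
  simp [f2]; ring
omit hcs in
lemma f1_smul (r : ℝ) (a : R2) : f1 c s (r • a) = r * f1 c s a := by
  simp [f1]; ring
omit hcs in
lemma f2_smul (r : ℝ) (a : R2) : f2 c s (r • a) = r * f2 c s a := by
  simp [f2]; ring

lemma norm_g1 : ‖g1 c s‖ = 1 := by
  have : ‖g1 c s‖ ^ 2 = 1 := by rw [normsq2]; simpa [g1] using hcs
  exact (pow_eq_one_iff_of_nonneg (norm_nonneg _) (by norm_num)).1 this

lemma norm_g2 : ‖g2 c s‖ = 1 := by
  have : ‖g2 c s‖ ^ 2 = 1 := by rw [normsq2]; simpa [g2, add_comm] using hcs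
  exact (pow_eq_one_iff_of_nonneg (norm_nonneg _) (by norm_num)).1 this

omit hcs in
lemma inner_g1_g2 : ⟪g1 c s, g2 c s⟫ = 0 := by
  simp [g1, g2, PiLp.inner_apply, Fin.sum_univ_two]; ring

end frame

/-! ### The lattice step -/

/-- Step A: the lattice point in the frame. -/
lemma lattice_step {c s β γ L δ τ : ℝ} (hcs : c ^ 2 + s ^ 2 = 1) (hL : 0 < L) (hδ : 0 < δ)
    (hβγ : 0 ≤ β * γ) (hκ : L ^ 2 * (β * γ) < 1) (hτ : |τ| ≤ L) (p : R2) :
    ∃ m n : ℤ,
      0 ≤ f1 c s (p - lat c s δ m n) + τ * (β * f2 c s (p - lat c s δ m n)) ∧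
      f1 c s (p - lat c s δ m n) + τ * (β * f2 c s (p - lat c s δ m n)) ≤ δ ∧
      0 ≤ f2 c s (p - lat c s δ m n) + τ * (γ * f1 c s (p - lat c s δ m n)) ∧
      f2 c s (p - lat c s δ m n) + τ * (γ * f1 c s (p - lat c s δ m n)) ≤ δ ∧
      |f1 c s (p - lat c s δ m n)| ≤ (1 + L * |β| + L * |γ|) / (1 - L ^ 2 * (β * γ)) * δ ∧
      |f2 c s (p - lat c s δ m n)| ≤ (1 + L * |β| + L * |γ|) / (1 - L ^ 2 * (β * γ)) * δ := by
  set y1 := f1 c s p
  set y2 := f2 c s p
  set v := τ * β with hv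
  set u := τ * γ with hu
  have hτ2 : τ ^ 2 ≤ L ^ 2 := sq_le_sq' (by linarith [(abs_le.1 hτ).1]) (abs_le.1 hτ).2
  have huv : u * v = τ ^ 2 * (β * γ) := by simp only [hu, hv]; ring
  have huv0 : 0 ≤ u * v := by rw [huv]; positivity
  have huv1 : u * v ≤ L ^ 2 * (β * γ) := by
    rw [huv]; exact mul_le_mul_of_nonneg_right hτ2 hβγ
  obtain ⟨m, n, h1, h2, h3, h4⟩ := lattice_cover (u := u) (v := v)
    (x := (y1 + v * y2) / δ) (y := (y2 + u * y1) / δ) huv0 (by linarith)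
  refine ⟨m, n, ?_⟩
  have hd1 : f1 c s (p - lat c s δ m n) = y1 - δ * m := by rw [f1_sub, f1_lat hcs]
  have hd2 : f2 c s (p - lat c s δ m n) = y2 - δ * n := by rw [f2_sub, f2_lat hcs]
  rw [hd1, hd2]
  set d1 := y1 - δ * m with hd1def
  set d2 := y2 - δ * n with hd2def
  have e1 : d1 + τ * (β * d2) = δ * ((y1 + v * y2) / δ - m - n * v) := by
    field_simp; simp only [hd1def, hd2def, hv]; ring
  have e2 : d2 + τ * (γ * d1) = δ * ((y2 + u * y1) / δ - m * u - n) := by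
    field_simp; simp only [hd1def, hd2def, hu]; ring
  set w1 := (y1 + v * y2) / δ - m - n * v
  set w2 := (y2 + u * y1) / δ - m * u - n
  have hκ' : 0 < 1 - L ^ 2 * (β * γ) := by linarith
  have hbnd : ∀ (r t a : ℝ), 0 ≤ a → a ≤ 1 → 0 ≤ t → t ≤ 1 →
      |r| ≤ L * |β| + L * |γ| → |a - r * t| ≤ 1 + L * |β| + L * |γ| := by
    intro r t a ha0 ha1 ht0 ht1 hr
    have : |r * t| ≤ L * |β| + L * |γ| := by
      rw [abs_mul, abs_of_nonneg ht0]
      nlinarith [abs_nonneg r]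
    rw [abs_le] at this ⊢
    constructor <;> linarith [this.1, this.2]
  have hvb : |v| ≤ L * |β| + L * |γ| := by
    rw [hv, abs_mul]
    nlinarith [abs_nonneg β, abs_nonneg γ, mul_le_mul_of_nonneg_right hτ (abs_nonneg β),
      mul_nonneg hL.le (abs_nonneg γ)]
  have hub : |u| ≤ L * |β| + L * |γ| := by
    rw [hu, abs_mul]
    nlinarith [abs_nonneg β, abs_nonneg γ, mul_le_mul_of_nonneg_right hτ (abs_nonneg γ),
      mul_nonneg hL.le (abs_nonneg β)]
  have hsol1 : (1 - u * v) * d1 = δ * (w1 - v * w2) := by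
    have h5 : d1 + v * d2 = δ * w1 := by rw [← e1]; simp only [hv]; ring
    have h6 : d2 + u * d1 = δ * w2 := by rw [← e2]; simp only [hu]; ring
    linear_combination h5 - v * h6
  have hsol2 : (1 - u * v) * d2 = δ * (w2 - u * w1) := by
    have h5 : d1 + v * d2 = δ * w1 := by rw [← e1]; simp only [hv]; ring
    have h6 : d2 + u * d1 = δ * w2 := by rw [← e2]; simp only [hu]; ring
    linear_combination h6 - u * h5
  have hfinal : ∀ (d r : ℝ), (1 - u * v) * d = δ * r → |r| ≤ 1 + L * |β| + L * |γ| →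
      |d| ≤ (1 + L * |β| + L * |γ|) / (1 - L ^ 2 * (β * γ)) * δ := by
    intro d r h hr
    have hpos : 0 < 1 - u * v := by linarith
    have hle : 1 - L ^ 2 * (β * γ) ≤ 1 - u * v := by linarith
    have h7 : (1 - L ^ 2 * (β * γ)) * |d| ≤ (1 + L * |β| + L * |γ|) * δ := by
      calc (1 - L ^ 2 * (β * γ)) * |d| ≤ (1 - u * v) * |d| :=
            mul_le_mul_of_nonneg_right hle (abs_nonneg _)
        _ = |(1 - u * v) * d| := by rw [abs_mul, abs_of_pos hpos]
        _ = |δ * r| := by rw [h]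
        _ = δ * |r| := by rw [abs_mul, abs_of_pos hδ]
        _ ≤ δ * (1 + L * |β| + L * |γ|) := mul_le_mul_of_nonneg_left hr hδ.le
        _ = _ := by ring
    rw [div_mul_eq_mul_div, le_div_iff₀ hκ']
    linarith
  refine ⟨?_, ?_, ?_, ?_, ?_, ?_⟩
  · rw [e1]; positivity
  · rw [e1]; nlinarith
  · rw [e2]; positivity
  · rw [e2]; nlinarith
  · exact hfinal d1 _ hsol1 (hbnd v w2 w1 h1 h2 h3 h4 hvb)
  · exact hfinal d2 _ hsol2 (hbnd u w1 w2 h3 h4 h1 h2 hub)

/-! ### One point is covered -/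

/-- The tile containing a point -/
lemma tile_identity {c s μ δ : ℝ} (hcs : c ^ 2 + s ^ 2 = 1) (hμ : 0 < μ) (hδ : 0 < δ)
    (l q z gv : R2) (τ : ℝ) (hz : z = l + q + τ • gv)
    (h1lo : -(μ * δ) ≤ f1 c s q) (h1hi : f1 c s q ≤ (1 + μ) * δ)
    (h2lo : -(μ * δ) ≤ f2 c s q) (h2hi : f2 c s q ≤ (1 + μ) * δ) :
    ∃ x ∈ Icc (0 : ℝ) 1, ∃ y ∈ Icc (0 : ℝ) 1,
      z = (l - (μ * δ) • (g1 c s + g2 c s)) + x • (((1 + 2 * μ) * δ) • g1 c s) +
        y • (((1 + 2 * μ) * δ) • g2 c s) + τ • gv := by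
  have hpos : 0 < (1 + 2 * μ) * δ := by positivity
  have hmem : ∀ t : ℝ, -(μ * δ) ≤ t → t ≤ (1 + μ) * δ →
      (t + μ * δ) / ((1 + 2 * μ) * δ) ∈ Icc (0 : ℝ) 1 := by
    intro t h1 h2
    constructor
    · apply div_nonneg _ hpos.le; linarith
    · rw [div_le_one hpos]; linarith
  refine ⟨_, hmem _ h1lo h1hi, _, hmem _ h2lo h2hi, ?_⟩
  have e1 : ∀ t : ℝ, (t + μ * δ) / ((1 + 2 * μ) * δ) * ((1 + 2 * μ) * δ) = t + μ * δ := by
    intro t; field_simp
  rw [smul_smul, smul_smul, e1, e1, hz]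
  ext i
  fin_cases i
  · simp [g1, g2, f1, f2]
    linear_combination (-(q 0)) * hcs
  · simp [g1, g2, f1, f2]
    linear_combination (-(q 1)) * hcs

/-- Steps A, B, C together: a point of the ruled set is covered by a tile of the lattice. -/
lemma point_cover {c s β γ L δ μ ω C₀ τ : ℝ} (hcs : c ^ 2 + s ^ 2 = 1) (hL : 0 < L) (hδ : 0 < δ)
    (hμ : 0 < μ) (hβγ : 0 ≤ β * γ) (hκ : L ^ 2 * (β * γ) < 1)
    (hC₀ : C₀ = (1 + L * |β| + L * |γ|) / (1 - L ^ 2 * (β * γ)))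
    (hω : L * ω * (2 * C₀) ≤ μ) (hω0 : 0 ≤ ω)
    (A : R2 →ₗ[ℝ] R2) (hA1 : ∀ w, f1 c s (A w) = β * f2 c s w) (hA2 : ∀ w, f2 c s (A w) = γ * f1 c s w)
    (V : R2 → R2) (N : Set R2) (happ : ∀ x ∈ N, ∀ y ∈ N, ‖V x - V y - A (x - y)‖ ≤ ω * ‖x - y‖)
    (p : R2) (hp : p ∈ N) (hN : ∀ y, ‖p - y‖ ≤ 2 * C₀ * δ → y ∈ N) (hτ : |τ| ≤ L) :
    ∃ m n : ℤ, ‖p - lat c s δ m n‖ ≤ 2 * C₀ * δ ∧
      ∃ x ∈ Icc (0 : ℝ) 1, ∃ y ∈ Icc (0 : ℝ) 1,
        p + τ • V p = (lat c s δ m n - (μ * δ) • (g1 c s + g2 c s)) +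
          x • (((1 + 2 * μ) * δ) • g1 c s) + y • (((1 + 2 * μ) * δ) • g2 c s) +
          τ • V (lat c s δ m n) := by
  obtain ⟨m, n, h1, h2, h3, h4, h5, h6⟩ := lattice_step (β := β) (γ := γ) (δ := δ) (τ := τ)
    hcs hL hδ hβγ hκ hτ p
  rw [← hC₀] at h5 h6
  refine ⟨m, n, ?_⟩
  set l := lat c s δ m n with hl
  set d := p - l with hd
  have hC₀nn : 0 ≤ C₀ * δ := (abs_nonneg _).trans h5
  have hdn : ‖d‖ ≤ 2 * C₀ * δ := by
    apply abs_le_of_sq_le_sq' _ (by linarith) |>.2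
    rw [normsq_frame hcs d]
    have e1 := sq_le_sq' (abs_le.1 h5).1 (abs_le.1 h5).2
    have e2 := sq_le_sq' (abs_le.1 h6).1 (abs_le.1 h6).2
    nlinarith
  refine ⟨hdn, ?_⟩
  have hlN := hN l hdn
  set e := V p - V l - A d with he
  have hen : ‖e‖ ≤ ω * ‖d‖ := happ p hp l hlN
  have hen2 : L * ‖e‖ ≤ μ * δ := by
    have h7 : ‖e‖ ≤ ω * (2 * C₀ * δ) := hen.trans (mul_le_mul_of_nonneg_left hdn hω0)
    calc L * ‖e‖ ≤ L * (ω * (2 * C₀ * δ)) := mul_le_mul_of_nonneg_left h7 hL.le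
      _ = (L * ω * (2 * C₀)) * δ := by ring
      _ ≤ μ * δ := mul_le_mul_of_nonneg_right hω hδ.le
  set q := d + τ • (V p - V l) with hq
  have hVdiff : V p - V l = A d + e := by simp [he]
  have hf1 : f1 c s q = f1 c s d + τ * (β * f2 c s d) + τ * f1 c s e := by
    rw [hq, f1_add, f1_smul, hVdiff, f1_add, hA1]; ring
  have hf2 : f2 c s q = f2 c s d + τ * (γ * f1 c s d) + τ * f2 c s e := by
    rw [hq, f2_add, f2_smul, hVdiff, f2_add, hA2]; ring
  have herr : ∀ t : ℝ, |t| ≤ ‖e‖ → |τ * t| ≤ μ * δ := by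
    intro t ht
    rw [abs_mul]
    calc |τ| * |t| ≤ L * ‖e‖ := mul_le_mul hτ ht (abs_nonneg _) hL.le
      _ ≤ μ * δ := hen2
  have e1 := abs_le.1 (herr _ (abs_f1_le hcs e))
  have e2 := abs_le.1 (herr _ (abs_f2_le hcs e))
  apply tile_identity hcs hμ hδ l q (p + τ • V p) (V l) τ
  · rw [hq, hd]; simp only [smul_sub]; abel
  · rw [hf1]; linarith [e1.1]
  · rw [hf1]; linarith [e1.2]
  · rw [hf2]; linarith [e2.1]
  · rw [hf2]; linarith [e2.2]

/-! ### Counting lattice cells -/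

/-- The half-open lattice cell. -/
def cell (c s δ : ℝ) (m n : ℤ) : Set R2 :=
  {x | f1 c s (x - lat c s δ m n) ∈ Ico 0 δ ∧ f2 c s (x - lat c s δ m n) ∈ Ico 0 δ}

lemma measurable_f1 (c s : ℝ) : Continuous (f1 c s) := by
  unfold f1; fun_prop

lemma measurable_f2 (c s : ℝ) : Continuous (f2 c s) := by
  unfold f2; fun_prop

lemma measurableSet_cell (c s δ : ℝ) (m n : ℤ) : MeasurableSet (cell c s δ m n) := by
  have h1 : Continuous fun x : R2 => f1 c s (x - lat c s δ m n) :=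
    (measurable_f1 c s).comp (continuous_id.sub continuous_const)
  have h2 : Continuous fun x : R2 => f2 c s (x - lat c s δ m n) :=
    (measurable_f2 c s).comp (continuous_id.sub continuous_const)
  exact (h1.measurable measurableSet_Ico).inter (h2.measurable measurableSet_Ico)

lemma cell_eq_image {c s δ : ℝ} (hcs : c ^ 2 + s ^ 2 = 1) (hδ : 0 < δ) (m n : ℤ) :
    cell c s δ m n = (fun x : R2 => lat c s δ m n + x 0 • (δ • g1 c s) + x 1 • (δ • g2 c s)) ''
      unitSqIco := by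
  ext y
  constructor
  · rintro ⟨⟨h1, h2⟩, h3, h4⟩
    refine ⟨!₂[f1 c s (y - lat c s δ m n) / δ, f2 c s (y - lat c s δ m n) / δ], ?_, ?_⟩
    · simp only [unitSqIco, mem_setOf_eq, mem_Ico]
      simp
      refine ⟨⟨by positivity, ?_⟩, by positivity, ?_⟩
      · rw [div_lt_one hδ]; exact h2
      · rw [div_lt_one hδ]; exact h4
    · simp only [smul_smul]
      have e1 : ∀ t : ℝ, t / δ * δ = t := by intro t; field_simp
      simp [e1]
      ext i
      fin_cases i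
      · simp [g1, g2, f1, f2]
        linear_combination (y 0 - (lat c s δ m n) 0) * hcs
      · simp [g1, g2, f1, f2]
        linear_combination (y 1 - (lat c s δ m n) 1) * hcs
  · rintro ⟨x, ⟨⟨h1, h2⟩, h3, h4⟩, rfl⟩
    have e1 : f1 c s (lat c s δ m n + x 0 • (δ • g1 c s) + x 1 • (δ • g2 c s) - lat c s δ m n) =
        δ * x 0 := by
      simp [f1, g1, g2]
      linear_combination (δ * x 0) * hcs
    have e2 : f2 c s (lat c s δ m n + x 0 • (δ • g1 c s) + x 1 • (δ • g2 c s) - lat c s δ m n) =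
        δ * x 1 := by
      simp [f2, g1, g2]
      linear_combination (δ * x 1) * hcs
    refine ⟨?_, ?_⟩
    · rw [e1]; exact ⟨by positivity, by nlinarith⟩
    · rw [e2]; exact ⟨by positivity, by nlinarith⟩

lemma volume_cell {c s δ : ℝ} (hcs : c ^ 2 + s ^ 2 = 1) (hδ : 0 < δ) (m n : ℤ) :
    volume (cell c s δ m n) = ENNReal.ofReal (δ ^ 2) := by
  rw [cell_eq_image hcs hδ, ← EuclideanSpace.euclideanHausdorffMeasure_eq_volume 2,
    area_image (by simp), volume_unitSqIco, mul_one]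
  congr 1
  have : ‖δ • g1 c s‖ ^ 2 * ‖δ • g2 c s‖ ^ 2 - ⟪δ • g1 c s, δ • g2 c s⟫ ^ 2 = (δ ^ 2) ^ 2 := by
    rw [norm_smul, norm_smul, norm_g1 hcs, norm_g2 hcs, real_inner_smul_left,
      real_inner_smul_right, inner_g1_g2]
    simp
    ring
  rw [this, Real.sqrt_sq (by positivity)]

lemma cell_disjoint {c s δ : ℝ} (hcs : c ^ 2 + s ^ 2 = 1) (hδ : 0 < δ) {m n m' n' : ℤ}
    (h : (m, n) ≠ (m', n')) : Disjoint (cell c s δ m n) (cell c s δ m' n') := by
  rw [Set.disjoint_left]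
  rintro x ⟨⟨h1, h2⟩, h3, h4⟩ ⟨⟨h5, h6⟩, h7, h8⟩
  apply h
  rw [f1_sub, f1_lat hcs] at h1 h2
  rw [f2_sub, f2_lat hcs] at h3 h4
  rw [f1_sub, f1_lat hcs] at h5 h6
  rw [f2_sub, f2_lat hcs] at h7 h8
  have key : ∀ a b : ℤ, δ * a < δ * b + δ → a ≤ b := by
    intro a b hab
    have : (a : ℝ) < b + 1 := by
      have : δ * a < δ * (b + 1) := by linarith
      exact lt_of_mul_lt_mul_left this hδ.le
    have : a < b + 1 := by exact_mod_cast this
    omega
  have hm : m = m' := le_antisymm (key _ _ (by linarith)) (key _ _ (by linarith))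
  have hn : n = n' := le_antisymm (key _ _ (by linarith)) (key _ _ (by linarith))
  rw [hm, hn]

lemma cell_subset {c s δ ρ : ℝ} (hcs : c ^ 2 + s ^ 2 = 1) (hδ : 0 < δ) (m n : ℤ) (K : Set R2)
    (h : ∃ p ∈ K, ‖p - lat c s δ m n‖ + 2 * δ ≤ ρ) : cell c s δ m n ⊆ cthickening ρ K := by
  obtain ⟨p, hp, hle⟩ := h
  rintro x ⟨⟨h1, h2⟩, h3, h4⟩
  apply Metric.mem_cthickening_of_dist_le x p ρ K hp
  have hx : ‖x - lat c s δ m n‖ ≤ 2 * δ := by
    apply abs_le_of_sq_le_sq' _ (by linarith) |>.2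
    rw [normsq_frame hcs]
    nlinarith
  rw [dist_eq_norm]
  have : x - p = (x - lat c s δ m n) - (p - lat c s δ m n) := by abel
  rw [this]
  calc _ ≤ ‖x - lat c s δ m n‖ + ‖p - lat c s δ m n‖ := norm_sub_le _ _
    _ ≤ ρ := by linarith

/-- Volume count of lattice points close to `K`. -/
lemma card_bound {c s δ ρ B : ℝ} (hcs : c ^ 2 + s ^ 2 = 1) (hδ : 0 < δ) (hB0 : 0 ≤ B) (K : Set R2)
    (T : Finset (ℤ × ℤ)) (hT : ∀ q ∈ T, ∃ p ∈ K, ‖p - lat c s δ q.1 q.2‖ + 2 * δ ≤ ρ)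
    (hB : volume (cthickening ρ K) ≤ ENNReal.ofReal B) :
    (T.card : ℝ) * δ ^ 2 ≤ B := by
  have h1 : volume (⋃ q ∈ T, cell c s δ q.1 q.2) = ∑ q ∈ T, volume (cell c s δ q.1 q.2) := by
    apply measure_biUnion_finset
    · intro q _ q' _ hne
      exact cell_disjoint hcs hδ (by simpa using hne)
    · intro q _
      exact measurableSet_cell _ _ _ _ _
  have h2 : volume (⋃ q ∈ T, cell c s δ q.1 q.2) ≤ ENNReal.ofReal B := by
    refine le_trans (measure_mono ?_) hB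
    exact iUnion₂_subset fun q hq => cell_subset hcs hδ _ _ K (hT q hq)
  rw [h1] at h2
  simp only [volume_cell hcs hδ, Finset.sum_const, nsmul_eq_mul] at h2
  have h3 : ((T.card : ℝ≥0∞)) * ENNReal.ofReal (δ ^ 2) = ENNReal.ofReal ((T.card : ℝ) * δ ^ 2) := by
    rw [ENNReal.ofReal_mul (by positivity)]; simp
  rw [h3] at h2
  exact (ENNReal.ofReal_le_ofReal_iff hB0).1 h2

/-! ### The local lemma -/

/-- The cylinder cost density. -/
noncomputable def Jf (h : ℝ) (g : R2) : ℝ := 1 / Real.sqrt (1 + (g 0) ^ 2 + h ^ 2 * (g 1) ^ 2)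

lemma Jf_nonneg (h : ℝ) (g : R2) : 0 ≤ Jf h g := by
  unfold Jf; positivity

lemma Jf_le_one (h : ℝ) (g : R2) : Jf h g ≤ 1 := by
  unfold Jf
  rw [div_le_one₀ (Real.sqrt_pos.2 (by positivity))]
  rw [Real.one_le_sqrt]
  nlinarith [sq_nonneg (g 0), sq_nonneg (h * g 1), mul_pow h (g 1) 2]

lemma continuous_Jf (h : ℝ) : Continuous (Jf h) := by
  unfold Jf
  refine continuous_const.div ?_ ?_
  · fun_prop
  · intro x
    exact (Real.sqrt_pos.2 (by positivity)).ne'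

/-- Coordinates of a linear map of the plane. -/
lemma map_coord (A : R2 →ₗ[ℝ] R2) (w : R2) :
    A w 0 = A (e2 0) 0 * w 0 + A (e2 1) 0 * w 1 ∧ A w 1 = A (e2 0) 1 * w 0 + A (e2 1) 1 * w 1 := by
  conv_lhs => rw [coords w]
  have := coords w
  constructor
  · conv_lhs => rw [coords w, map_add, map_smul, map_smul]
    simp; ring
  · conv_lhs => rw [coords w, map_add, map_smul, map_smul]
    simp; ring

/-- The frame lemma for linear maps. -/
lemma exists_frame_linear (A : R2 →ₗ[ℝ] R2) (htr : LinearMap.trace ℝ _ A = 0) :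
    ∃ c s β γ : ℝ, c ^ 2 + s ^ 2 = 1 ∧ (∀ w, f1 c s (A w) = β * f2 c s w) ∧
      (∀ w, f2 c s (A w) = γ * f1 c s w) ∧ β * γ = - LinearMap.det A := by
  rw [trace_coord] at htr
  obtain ⟨c, s, β, γ, hcs, h1, h2, h3⟩ := exists_frame_coord (A (e2 0) 0) (A (e2 1) 0) (A (e2 0) 1)
  have ht : A (e2 1) 1 = - A (e2 0) 0 := by linarith
  refine ⟨c, s, β, γ, hcs, ?_, ?_, ?_⟩
  · intro w
    have := h1 (w 0) (w 1)
    simp only [f1, f2]
    rw [(map_coord A w).1, (map_coord A w).2, ht]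
    linarith
  · intro w
    have := h2 (w 0) (w 1)
    simp only [f1, f2]
    rw [(map_coord A w).1, (map_coord A w).2, ht]
    linarith
  · rw [det_coord, ht, h3]; ring

/-- Cover data over `K`, in a general finite index type. -/
def IsCoverOver (V : R2 → R2) (L : ℝ) (K : Set R2) {ι : Type} (c a b g : ι → R2) : Prop :=
  ∀ p ∈ K, ∀ τ : ℝ, |τ| ≤ L → ∃ i, ∃ x ∈ Icc (0 : ℝ) 1, ∃ y ∈ Icc (0 : ℝ) 1,
    p + τ • V p = c i + x • a i + y • b i + τ • g i

/-- The cover statement over `K` with budget. -/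
def GoodCover (V : R2 → R2) (L h : ℝ) (K : Set R2) (B : ℝ) : Prop :=
  ∃ (ι : Type) (_ : Fintype ι) (c a b g : ι → R2),
    (∀ i, a i ≠ 0 ∧ ‖b i‖ = ‖a i‖ ∧ ⟪a i, b i⟫ = 0) ∧ IsCoverOver V L K c a b g ∧
      ∑ i, ‖a i‖ ^ 2 / Real.sqrt (1 + (g i 0) ^ 2 + h ^ 2 * (g i 1) ^ 2) ≤ B

lemma GoodCover.union {V : R2 → R2} {L h : ℝ} {K K' : Set R2} {B B' : ℝ}
    (h1 : GoodCover V L h K B) (h2 : GoodCover V L h K' B') : GoodCover V L h (K ∪ K') (B + B') := by
  obtain ⟨ι, _, c, a, b, g, h1a, h1b, h1c⟩ := h1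
  obtain ⟨ι', _, c', a', b', g', h2a, h2b, h2c⟩ := h2
  refine ⟨ι ⊕ ι', inferInstance, Sum.elim c c', Sum.elim a a', Sum.elim b b', Sum.elim g g',
    ?_, ?_, ?_⟩
  · rintro (i | i)
    · exact h1a i
    · exact h2a i
  · rintro p (hp | hp) τ hτ
    · obtain ⟨i, x, hx, y, hy, he⟩ := h1b p hp τ hτ
      exact ⟨Sum.inl i, x, hx, y, hy, he⟩
    · obtain ⟨i, x, hx, y, hy, he⟩ := h2b p hp τ hτ
      exact ⟨Sum.inr i, x, hx, y, hy, he⟩
  · rw [Fintype.sum_sum_type]
    simp only [Sum.elim_inl, Sum.elim_inr]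
    exact add_le_add h1c h2c

lemma GoodCover.empty (V : R2 → R2) (L h : ℝ) {B : ℝ} (hB : 0 ≤ B) : GoodCover V L h ∅ B := by
  refine ⟨Empty, inferInstance, Empty.elim, Empty.elim, Empty.elim, Empty.elim, ?_, ?_, ?_⟩
  · rintro ⟨⟩
  · rintro p ⟨⟩
  · simpa using hB

/-- The local lemma: near a point where the hypotheses hold, compact sets have good covers. -/
theorem local_lemma {V : R2 → R2} {U : Set R2} (hU : IsOpen U) (hV : ContDiffOn ℝ 1 V U) {L : ℝ}
    (hL : 0 < L) (h : ℝ) (p₀ : R2) (hp₀ : p₀ ∈ U)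
    (htr : LinearMap.trace ℝ _ (fderiv ℝ V p₀).toLinearMap = 0)
    (hdet1 : -(L ^ 2)⁻¹ < LinearMap.det (fderiv ℝ V p₀).toLinearMap)
    (hdet2 : LinearMap.det (fderiv ℝ V p₀).toLinearMap ≤ 0)
    {τ' : ℝ} (hτ' : 0 < τ') :
    ∃ r : ℝ, 0 < r ∧ closedBall p₀ r ⊆ U ∧ ∀ K : Set R2, IsCompact K → K ⊆ closedBall p₀ r →
      ∀ θ : ℝ, 0 < θ → GoodCover V L h K ((∫ p in K, (Jf h (V p) + τ')) + θ) := by
  classical
  set A := fderiv ℝ V p₀ with hAdef
  have hstrict : HasStrictFDerivAt V A p₀ :=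
    (hV.contDiffAt (hU.mem_nhds hp₀)).hasStrictFDerivAt (by norm_num)
  obtain ⟨c, s, β, γ, hcs, hA1, hA2, hβγ⟩ := exists_frame_linear A.toLinearMap htr
  have hβγ0 : 0 ≤ β * γ := by rw [hβγ]; linarith
  have hκ : L ^ 2 * (β * γ) < 1 := by
    rw [hβγ]
    have h1 : - LinearMap.det A.toLinearMap < (L ^ 2)⁻¹ := by linarith
    have hL2 : 0 < L ^ 2 := by positivity
    calc L ^ 2 * (- LinearMap.det A.toLinearMap) < L ^ 2 * (L ^ 2)⁻¹ :=
          mul_lt_mul_of_pos_left h1 hL2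
      _ = 1 := mul_inv_cancel₀ hL2.ne'
  have hκ' : 0 < 1 - L ^ 2 * (β * γ) := by linarith
  set C₀ := (1 + L * |β| + L * |γ|) / (1 - L ^ 2 * (β * γ)) with hC₀
  have hC₀pos : 0 < C₀ := div_pos (by positivity) hκ'
  set J₀ := Jf h (V p₀) with hJ₀
  have hJ₀0 : 0 ≤ J₀ := Jf_nonneg h _
  have hJ₀1 : J₀ ≤ 1 := Jf_le_one h _
  set μ := τ' / (32 * (1 + τ')) with hμdef
  have hμ : 0 < μ := by positivity
  have hμ1 : μ ≤ 1 := by
    rw [hμdef, div_le_one (by positivity)]; linarith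
  have hμ3 : 8 * μ * (1 + τ') = τ' / 4 := by
    rw [hμdef]; field_simp; ring
  have hμ2 : (1 + 2 * μ) ^ 2 * (J₀ + τ' / 4) ≤ J₀ + τ' / 2 := by
    have h1 : (1 + 2 * μ) ^ 2 ≤ 1 + 8 * μ := by nlinarith
    have h2 : 0 ≤ J₀ + τ' / 4 := by positivity
    have h3 : 8 * μ * (J₀ + τ' / 4) ≤ 8 * μ * (1 + τ') :=
      mul_le_mul_of_nonneg_left (by linarith) (by positivity)
    calc (1 + 2 * μ) ^ 2 * (J₀ + τ' / 4) ≤ (1 + 8 * μ) * (J₀ + τ' / 4) :=
          mul_le_mul_of_nonneg_right h1 h2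
      _ = (J₀ + τ' / 4) + 8 * μ * (J₀ + τ' / 4) := by ring
      _ ≤ J₀ + τ' / 2 := by linarith
  set ω := μ / (2 * L * C₀) with hωdef
  have hω : 0 < ω := by positivity
  have hωeq : L * ω * (2 * C₀) = μ := by
    rw [hωdef]; field_simp
  obtain ⟨N, hN, happ⟩ := hstrict.approximates_deriv_on_nhds
    (c := ⟨ω, hω.le⟩) (Or.inr (by exact_mod_cast hω))
  obtain ⟨r₀, hr₀, hr₀N⟩ := Metric.mem_nhds_iff.1 hN
  have hcont : ContinuousAt (fun y => Jf h (V y)) p₀ :=
    (continuous_Jf h).continuousAt.comp (hV.continuousOn.continuousAt (hU.mem_nhds hp₀))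
  obtain ⟨r₁, hr₁, hr₁J⟩ := Metric.continuousAt_iff.1 hcont (τ' / 4) (by positivity)
  obtain ⟨r₂, hr₂, hr₂U⟩ := Metric.isOpen_iff.1 hU p₀ hp₀
  set r := min (min r₀ r₁) r₂ / 3 with hrdef
  have hr : 0 < r := by
    have : 0 < min (min r₀ r₁) r₂ := lt_min (lt_min hr₀ hr₁) hr₂
    positivity
  have hrr₀ : 2 * r < r₀ := by
    have h1 : min (min r₀ r₁) r₂ ≤ r₀ := (min_le_left _ _).trans (min_le_left _ _)
    have h2 : 0 < min (min r₀ r₁) r₂ := lt_min (lt_min hr₀ hr₁) hr₂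
    rw [hrdef]; linarith
  have hrr₁ : 2 * r < r₁ := by
    have h1 : min (min r₀ r₁) r₂ ≤ r₁ := (min_le_left _ _).trans (min_le_right _ _)
    have h2 : 0 < min (min r₀ r₁) r₂ := lt_min (lt_min hr₀ hr₁) hr₂
    rw [hrdef]; linarith
  have hrr₂ : 2 * r < r₂ := by
    have h1 : min (min r₀ r₁) r₂ ≤ r₂ := min_le_right _ _
    have h2 : 0 < min (min r₀ r₁) r₂ := lt_min (lt_min hr₀ hr₁) hr₂
    rw [hrdef]; linarith
  have hballU : closedBall p₀ r ⊆ U := by
    refine Subset.trans (closedBall_subset_ball (by linarith)) hr₂U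
  refine ⟨r, hr, hballU, ?_⟩
  intro K hK hKr θ hθ
  have hψcont : ContinuousOn (fun p => Jf h (V p) + τ') K :=
    ((continuous_Jf h).comp_continuousOn (hV.continuousOn.mono (hKr.trans hballU))).add
      continuousOn_const
  have hψint : IntegrableOn (fun p => Jf h (V p) + τ') K := hψcont.integrableOn_compact hK
  set M := volume.real K with hMdef
  have hM0 : 0 ≤ M := measureReal_nonneg
  have hJτ : 0 < J₀ + τ' / 2 := by positivity
  set ρ' := θ / (J₀ + τ' / 2) with hρ'def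
  have hρ' : 0 < ρ' := by positivity
  have hlt : volume K < ENNReal.ofReal (M + ρ') := by
    have : volume K = ENNReal.ofReal M := by
      rw [hMdef, ofReal_measureReal hK.measure_lt_top.ne]
    rw [this]
    exact (ENNReal.ofReal_lt_ofReal_iff (by positivity)).2 (by linarith)
  have hev := (tendsto_measure_cthickening_of_isCompact (μ := volume) hK).eventually_lt_const hlt
  obtain ⟨ρ₀, hρ₀, hρ₀'⟩ := Metric.eventually_nhds_iff.1 hev
  set δ := min (ρ₀ / (2 * (2 * C₀ + 2))) (r / (2 * C₀)) with hδdef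
  have hδ : 0 < δ := lt_min (by positivity) (by positivity)
  have hδ1 : (2 * C₀ + 2) * δ < ρ₀ := by
    have h1 : δ ≤ ρ₀ / (2 * (2 * C₀ + 2)) := min_le_left _ _
    have h2 : (2 * C₀ + 2) * δ ≤ (2 * C₀ + 2) * (ρ₀ / (2 * (2 * C₀ + 2))) :=
      mul_le_mul_of_nonneg_left h1 (by positivity)
    have h3 : (2 * C₀ + 2) * (ρ₀ / (2 * (2 * C₀ + 2))) = ρ₀ / 2 := by field_simp
    linarith
  have hδ2 : 2 * C₀ * δ ≤ r := by
    have h1 : δ ≤ r / (2 * C₀) := min_le_right _ _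
    have h2 : 2 * C₀ * δ ≤ 2 * C₀ * (r / (2 * C₀)) :=
      mul_le_mul_of_nonneg_left h1 (by positivity)
    have h3 : 2 * C₀ * (r / (2 * C₀)) = r := by field_simp
    linarith
  have hthick : volume (cthickening ((2 * C₀ + 2) * δ) K) ≤ ENNReal.ofReal (M + ρ') := by
    apply le_of_lt
    apply hρ₀'
    rw [Real.dist_eq, sub_zero, abs_of_pos (by positivity)]
    exact hδ1
  -- the finite index set
  set S : Set (ℤ × ℤ) := {q | ∃ p ∈ K, ‖p - lat c s δ q.1 q.2‖ ≤ 2 * C₀ * δ} with hSdef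
  have hSfin : S.Finite := by
    obtain ⟨R, hR⟩ := hK.isBounded.exists_norm_le
    set B : ℤ := ⌈(R + 2 * C₀ * δ) / δ⌉ with hB
    refine ((Set.finite_Icc (-B) B).prod (Set.finite_Icc (-B) B)).subset ?_
    rintro ⟨m, n⟩ ⟨p, hp, hpn⟩
    have hlatn : ‖lat c s δ m n‖ ≤ R + 2 * C₀ * δ := by
      have : lat c s δ m n = p - (p - lat c s δ m n) := by abel
      rw [this]
      exact (norm_sub_le _ _).trans (add_le_add (hR p hp) hpn)
    have hkey : ∀ t : ℤ, |δ * t| ≤ ‖lat c s δ m n‖ → -B ≤ t ∧ t ≤ B := by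
      intro t ht
      have h1 : |δ * t| ≤ R + 2 * C₀ * δ := ht.trans hlatn
      rw [abs_mul, abs_of_pos hδ] at h1
      have h2 : |(t : ℝ)| ≤ (R + 2 * C₀ * δ) / δ := by
        rw [le_div_iff₀ hδ]; linarith
      have h3 : |(t : ℝ)| ≤ (B : ℝ) := h2.trans (Int.le_ceil _)
      have h4 := abs_le.1 h3
      constructor
      · have : ((-B : ℤ) : ℝ) ≤ t := by push_cast; linarith [h4.1]
        exact_mod_cast this
      · exact_mod_cast h4.2
    have h1 := hkey m (by rw [← f1_lat hcs δ m n]; exact abs_f1_le hcs _)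
    have h2 := hkey n (by rw [← f2_lat hcs δ m n]; exact abs_f2_le hcs _)
    exact ⟨h1, h2⟩
  set T : Finset (ℤ × ℤ) := hSfin.toFinset with hTdef
  have hmemT : ∀ q, q ∈ T ↔ q ∈ S := fun q => hSfin.mem_toFinset
  have hcard : (T.card : ℝ) * δ ^ 2 ≤ M + ρ' := by
    apply card_bound hcs hδ (by positivity) K T _ hthick
    intro q hq
    obtain ⟨p, hp, hpn⟩ := (hmemT q).1 hq
    exact ⟨p, hp, by nlinarith⟩
  set ℓ : ℝ := (1 + 2 * μ) * δ with hℓ
  have hℓpos : 0 < ℓ := by positivity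
  have hlatJ : ∀ q ∈ T, Jf h (V (lat c s δ q.1 q.2)) ≤ J₀ + τ' / 4 := by
    intro q hq
    obtain ⟨p, hp, hpn⟩ := (hmemT q).1 hq
    have h1 : dist (lat c s δ q.1 q.2) p₀ < r₁ := by
      have h2 : dist (lat c s δ q.1 q.2) p ≤ 2 * C₀ * δ := by
        rw [dist_comm, dist_eq_norm]; exact hpn
      have h3 : dist p p₀ ≤ r := hKr hp
      have := dist_triangle (lat c s δ q.1 q.2) p p₀
      linarith
    have := hr₁J h1
    rw [Real.dist_eq] at this
    have := (abs_lt.1 this).2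
    linarith
  refine ⟨T, inferInstance, fun q => lat c s δ q.1.1 q.1.2 - (μ * δ) • (g1 c s + g2 c s),
    fun _ => ℓ • g1 c s, fun _ => ℓ • g2 c s, fun q => V (lat c s δ q.1.1 q.1.2), ?_, ?_, ?_⟩
  · intro _
    refine ⟨?_, ?_, ?_⟩
    · rw [Ne, smul_eq_zero, not_or]
      refine ⟨hℓpos.ne', ?_⟩
      intro h0
      have := norm_g1 hcs
      rw [h0] at this
      simp at this
    · rw [norm_smul, norm_smul, norm_g1 hcs, norm_g2 hcs]
    · rw [real_inner_smul_left, real_inner_smul_right, inner_g1_g2]; simp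
  · intro p hp τ hτ
    have hpr : dist p p₀ ≤ r := hKr hp
    obtain ⟨m, n, h1, x, hx, y, hy, he⟩ := point_cover (β := β) (γ := γ) (δ := δ) (μ := μ) (ω := ω)
      (C₀ := C₀) (τ := τ) hcs hL hδ hμ hβγ0 hκ hC₀ hωeq.le hω.le A.toLinearMap hA1 hA2 V
      (ball p₀ r₀) (fun x hx y hy => happ x (hr₀N hx) y (hr₀N hy)) p
      (mem_ball.2 (by linarith)) (fun y hy => by
        rw [mem_ball]
        have h2 : dist y p ≤ 2 * C₀ * δ := by rw [dist_comm, dist_eq_norm]; exact hy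
        have := dist_triangle y p p₀
        linarith) hτ
    exact ⟨⟨(m, n), (hmemT _).2 ⟨p, hp, h1⟩⟩, x, hx, y, hy, he⟩
  · have hterm : ∀ q : T, ‖ℓ • g1 c s‖ ^ 2 / Real.sqrt (1 + (V (lat c s δ q.1.1 q.1.2) 0) ^ 2 +
        h ^ 2 * (V (lat c s δ q.1.1 q.1.2) 1) ^ 2) ≤ ℓ ^ 2 * (J₀ + τ' / 4) := by
      intro q
      rw [norm_smul, norm_g1 hcs, mul_one, Real.norm_of_nonneg hℓpos.le, div_eq_mul_one_div]
      exact mul_le_mul_of_nonneg_left (hlatJ q.1 q.2) (by positivity)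
    have hsum := Finset.sum_le_sum (fun (q : T) (_ : q ∈ Finset.univ) => hterm q)
    refine hsum.trans ?_
    rw [Finset.sum_const, Finset.card_univ, Fintype.card_coe, nsmul_eq_mul]
    have hint : (J₀ + τ' / 2) * M ≤ ∫ p in K, (Jf h (V p) + τ') := by
      apply setIntegral_ge_of_const_le_real hK.measurableSet hK.measure_lt_top.ne _ hψint
      intro x hx
      have h1 : dist x p₀ < r₁ := by
        have : dist x p₀ ≤ r := hKr hx
        linarith
      have := hr₁J h1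
      rw [Real.dist_eq] at this
      have := (abs_lt.1 this).1
      linarith
    have hθeq : (J₀ + τ' / 2) * ρ' = θ := by
      rw [hρ'def]; field_simp
    calc (T.card : ℝ) * (ℓ ^ 2 * (J₀ + τ' / 4))
        = ((1 + 2 * μ) ^ 2 * (J₀ + τ' / 4)) * ((T.card : ℝ) * δ ^ 2) := by rw [hℓ]; ring
      _ ≤ (J₀ + τ' / 2) * ((T.card : ℝ) * δ ^ 2) :=
          mul_le_mul_of_nonneg_right hμ2 (by positivity)
      _ ≤ (J₀ + τ' / 2) * (M + ρ') := mul_le_mul_of_nonneg_left hcard hJτ.le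
      _ = (J₀ + τ' / 2) * M + θ := by rw [mul_add, hθeq]
      _ ≤ _ := by linarith

lemma GoodCover.mono {V : R2 → R2} {L h : ℝ} {K : Set R2} {B B' : ℝ}
    (h1 : GoodCover V L h K B) (hB : B ≤ B') : GoodCover V L h K B' := by
  obtain ⟨ι, i, c, a, b, g, h1a, h1b, h1c⟩ := h1
  exact ⟨ι, i, c, a, b, g, h1a, h1b, h1c.trans hB⟩

/-- The global cover, from the local lemma by compactness. -/
theorem global_cover {D : Set R2} (hD : IsCompact D) {V : R2 → R2} {U : Set R2} (hU : IsOpen U)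
    (hDU : D ⊆ U) (hV : ContDiffOn ℝ 1 V U) {L : ℝ} (hL : 0 < L) (h : ℝ)
    (htr : ∀ p ∈ D, LinearMap.trace ℝ _ (fderiv ℝ V p).toLinearMap = 0)
    (hdet : ∀ p ∈ D, -(L ^ 2)⁻¹ < LinearMap.det (fderiv ℝ V p).toLinearMap ∧
      LinearMap.det (fderiv ℝ V p).toLinearMap ≤ 0)
    {ε : ℝ} (hε : 0 < ε) :
    GoodCover V L h D ((∫ p in D, Jf h (V p)) + ε) := by
  set M := volume.real D with hMdef
  have hM0 : 0 ≤ M := measureReal_nonneg
  set τ' := ε / (2 * (M + 1)) with hτ'def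
  have hτ' : 0 < τ' := by positivity
  have key : ∀ p, p ∈ D → ∃ r : ℝ, 0 < r ∧ closedBall p r ⊆ U ∧ ∀ K : Set R2, IsCompact K →
      K ⊆ closedBall p r → ∀ θ : ℝ, 0 < θ →
        GoodCover V L h K ((∫ p in K, (Jf h (V p) + τ')) + θ) := fun p hp =>
    local_lemma hU hV hL h p (hDU hp) (htr p hp) (hdet p hp).1 (hdet p hp).2 hτ'
  choose! r hr using key
  obtain ⟨t, htD, hDt⟩ := hD.elim_nhds_subcover (fun p => ball p (r p))
    (fun p hp => ball_mem_nhds p (hr p hp).1)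
  have hcontD : ContinuousOn (fun p => Jf h (V p) + τ') D :=
    ((continuous_Jf h).comp_continuousOn (hV.continuousOn.mono hDU)).add continuousOn_const
  have hind : ∀ t : Finset R2, (∀ x ∈ t, x ∈ D) → ∀ K : Set R2, IsCompact K → K ⊆ D →
      K ⊆ (⋃ x ∈ t, ball x (r x)) → ∀ θ : ℝ, 0 < θ →
        GoodCover V L h K ((∫ p in K, (Jf h (V p) + τ')) + θ) := by
    intro t
    classical
    induction t using Finset.induction_on with
    | empty =>
      intro _ K _ _ hK θ hθ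
      have : K = ∅ := by simpa using hK
      subst this
      apply GoodCover.empty
      simpa using hθ.le
    | insert x t' hx ih =>
      intro ht K hK hKD hKt θ hθ
      have hxD : x ∈ D := ht x (Finset.mem_insert_self _ _)
      obtain ⟨hrx, -, hloc⟩ := hr x hxD
      set K₁ := K ∩ closedBall x (r x) with hK₁
      set K₂ := K ∩ (ball x (r x))ᶜ with hK₂
      have hK₁c : IsCompact K₁ := hK.inter_right isClosed_closedBall
      have hK₂c : IsCompact K₂ := hK.inter_right isOpen_ball.isClosed_compl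
      have hunion : K₁ ∪ K₂ = K := by
        ext y
        constructor
        · rintro (hy | hy)
          · exact hy.1
          · exact hy.1
        · intro hy
          by_cases hyb : y ∈ ball x (r x)
          · exact Or.inl ⟨hy, ball_subset_closedBall hyb⟩
          · exact Or.inr ⟨hy, hyb⟩
      have hdisj : AEDisjoint volume K₁ K₂ := by
        refine measure_mono_null ?_ (Measure.addHaar_sphere_of_ne_zero volume x hrx.ne')
        rintro y ⟨⟨_, hy1⟩, _, hy2⟩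
        rw [mem_closedBall] at hy1
        have hy3 : ¬ y ∈ ball x (r x) := hy2
        rw [mem_ball, not_lt] at hy3
        exact mem_sphere.2 (le_antisymm hy1 hy3)
      have hint₁ : IntegrableOn (fun p => Jf h (V p) + τ') K₁ :=
        (hcontD.mono (inter_subset_left.trans hKD)).integrableOn_compact hK₁c
      have hint₂ : IntegrableOn (fun p => Jf h (V p) + τ') K₂ :=
        (hcontD.mono (inter_subset_left.trans hKD)).integrableOn_compact hK₂c
      have h1 := hloc K₁ hK₁c inter_subset_right (θ / 2) (by positivity)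
      have h2 := ih (fun y hy => ht y (Finset.mem_insert_of_mem hy)) K₂ hK₂c
        (inter_subset_left.trans hKD) (by
          rintro y ⟨hy1, hy2⟩
          have := hKt hy1
          simp only [Finset.mem_insert, iUnion_iUnion_eq_or_left, mem_union] at this
          rcases this with h3 | h3
          · exact absurd h3 hy2
          · exact h3) (θ / 2) (by positivity)
      have h3 := h1.union h2
      rw [hunion] at h3
      refine h3.mono (le_of_eq ?_)
      rw [← hunion, setIntegral_union₀ hdisj hK₂c.measurableSet.nullMeasurableSet hint₁ hint₂]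
      ring
  have hfin := hind t htD D hD Subset.rfl hDt (ε / 2) (by positivity)
  refine hfin.mono ?_
  have hintJ : IntegrableOn (fun p => Jf h (V p)) D :=
    ((continuous_Jf h).comp_continuousOn (hV.continuousOn.mono hDU)).integrableOn_compact hD
  have hconst : IntegrableOn (fun _ : R2 => τ') D :=
    integrableOn_const hD.measure_lt_top.ne
  rw [integral_add hintJ hconst, setIntegral_const]
  have hτM : τ' * M ≤ ε / 2 := by
    rw [hτ'def, div_mul_eq_mul_div, div_le_iff₀ (by positivity)]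
    nlinarith
  simp only [smul_eq_mul]
  rw [mul_comm (volume.real D) τ']
  linarith

end Crest.Agent.Lib.RuledCover
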