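import Crest.Prelude.Def_SwitchChain

/-!
# Connectivity of the realizations of a degree vector under switches (row 299, module G)

`IsSwitch E E'`: `E'` arises from `E` by removing two disjoint edges `ab, ce` and adding the two
absent edges `ac, be`. Any two graphs with the same degrees are joined by switches, through graphs
with these degrees.

The induction: let `v` be the smallest vertex whose neighbourhoods in `G` and `H` differ; pick
`x ∈ N_G(v) \ N_H(v)`, `y ∈ N_H(v) \ N_G(v)`. Both exceed `v`. Comparing the degrees of `x` and `y`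
in `G` and `H` yields a vertex `z > v` and a switch in `G` or `H` which moves `N(v)` towards the other
graph and does not touch the vertices below `v`.
-/

set_option autoImplicit false

namespace Crest.Agent.Lib.SwitchConn

open Finset Crest.SwitchChain

variable {n : ℕ}

/-- The edge joining two distinct vertices. -/
def mkE (a b : Fin n) (h : a ≠ b) : Edge n := ⟨s(a, b), by simpa using h⟩

/-- Adjacency in a graph given by its edge set. -/
def Adj (E : Finset (Edge n)) (a b : Fin n) : Prop := ∃ h : a ≠ b, mkE a b h ∈ E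

lemma mkE_comm (a b : Fin n) (h : a ≠ b) : mkE a b h = mkE b a h.symm :=
  Subtype.ext Sym2.eq_swap

lemma Adj.symm {E : Finset (Edge n)} {a b : Fin n} (h : Adj E a b) : Adj E b a := by
  obtain ⟨hab, he⟩ := h
  exact ⟨hab.symm, by rwa [← mkE_comm]⟩

lemma adj_comm {E : Finset (Edge n)} {a b : Fin n} : Adj E a b ↔ Adj E b a := ⟨Adj.symm, Adj.symm⟩

lemma Adj.ne {E : Finset (Edge n)} {a b : Fin n} (h : Adj E a b) : a ≠ b := h.1

lemma not_adj_self (E : Finset (Edge n)) (a : Fin n) : ¬ Adj E a a := fun h => h.1 rfl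

lemma mkE_eq_iff {a b c e : Fin n} {h : a ≠ b} {h' : c ≠ e} :
    mkE a b h = mkE c e h' ↔ (a = c ∧ b = e) ∨ (a = e ∧ b = c) := by
  simp [mkE, Subtype.ext_iff, Sym2.eq_iff]

lemma mem_mkE {v a b : Fin n} {h : a ≠ b} : v ∈ (mkE a b h).1 ↔ v = a ∨ v = b := by
  simp [mkE]

/-- Neighbours. -/
noncomputable def nbr (E : Finset (Edge n)) (v : Fin n) : Finset (Fin n) := by
  classical exact univ.filter (fun w => Adj E v w)

lemma mem_nbr {E : Finset (Edge n)} {v w : Fin n} : w ∈ nbr E v ↔ Adj E v w := by
  classical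
  simp [nbr]

/-- Graphs with the same neighbourhoods are equal. -/
lemma eq_of_nbr_eq {E E' : Finset (Edge n)} (h : ∀ v, nbr E v = nbr E' v) : E = E' := by
  ext ⟨z, hz⟩
  induction z using Sym2.ind with
  | _ a b =>
    have hab : a ≠ b := by simpa using hz
    have h1 : (⟨s(a, b), hz⟩ : Edge n) = mkE a b hab := rfl
    rw [h1]
    have h2 := h a
    have h3 : b ∈ nbr E a ↔ b ∈ nbr E' a := by rw [h2]
    rw [mem_nbr, mem_nbr] at h3
    constructor
    · intro he
      obtain ⟨_, h4⟩ := h3.1 ⟨hab, he⟩
      exact h4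
    · intro he
      obtain ⟨_, h4⟩ := h3.2 ⟨hab, he⟩
      exact h4

/-- The degree is the number of neighbours. -/
lemma deg_eq_card_nbr (E : Finset (Edge n)) (v : Fin n) : deg E v = (nbr E v).card := by
  classical
  unfold deg
  symm
  refine Finset.card_bij (fun w hw => mkE v w (mem_nbr.1 hw).1) ?_ ?_ ?_
  · intro w hw
    obtain ⟨h, he⟩ := mem_nbr.1 hw
    simp only [Finset.mem_filter]
    exact ⟨he, mem_mkE.2 (Or.inl rfl)⟩
  · intro w hw w' hw' heq
    rcases mkE_eq_iff.1 heq with h | h
    · exact h.2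
    · have : v ≠ w := (mem_nbr.1 hw).1
      exact absurd h.1 (mem_nbr.1 hw').1
  · rintro ⟨z, hz⟩ he
    simp only [Finset.mem_filter] at he
    obtain ⟨w, hw⟩ := he.2
    have hvw : v ≠ w := by
      rintro rfl
      exact hz (by simp [hw])
    refine ⟨w, mem_nbr.2 ⟨hvw, ?_⟩, Subtype.ext hw.symm⟩
    have : mkE v w hvw = ⟨z, hz⟩ := Subtype.ext hw.symm
    rw [this]
    exact he.1

/-- The switch. -/
noncomputable def swp (E : Finset (Edge n)) (a b c e : Fin n) (hab : a ≠ b) (hce : c ≠ e)
    (hac : a ≠ c) (hbe : b ≠ e) : Finset (Edge n) := by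
  classical exact (E \ {mkE a b hab, mkE c e hce}) ∪ {mkE a c hac, mkE b e hbe}

/-- `E'` arises from `E` by one switch. -/
def IsSwitch (E E' : Finset (Edge n)) : Prop :=
  ∃ (a b c e : Fin n) (hab : a ≠ b) (hce : c ≠ e) (hac : a ≠ c) (hbe : b ≠ e),
    a ≠ e ∧ b ≠ c ∧ mkE a b hab ∈ E ∧ mkE c e hce ∈ E ∧ mkE a c hac ∉ E ∧ mkE b e hbe ∉ E ∧
      E' = swp E a b c e hab hce hac hbe

lemma mem_swp {E : Finset (Edge n)} {a b c e : Fin n} {hab : a ≠ b} {hce : c ≠ e}
    {hac : a ≠ c} {hbe : b ≠ e} {f : Edge n} :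
    f ∈ swp E a b c e hab hce hac hbe ↔
      (f ∈ E ∧ f ≠ mkE a b hab ∧ f ≠ mkE c e hce) ∨ f = mkE a c hac ∨ f = mkE b e hbe := by
  classical
  simp [swp]
  tauto

/-- The adjacency of the switched graph. -/
lemma adj_swp {E : Finset (Edge n)} {a b c e : Fin n} {hab : a ≠ b} {hce : c ≠ e}
    {hac : a ≠ c} {hbe : b ≠ e} {u w : Fin n} :
    Adj (swp E a b c e hab hce hac hbe) u w ↔
      (Adj E u w ∧ ¬ ((u = a ∧ w = b) ∨ (u = b ∧ w = a)) ∧ ¬ ((u = c ∧ w = e) ∨ (u = e ∧ w = c))) ∨
        ((u = a ∧ w = c) ∨ (u = c ∧ w = a)) ∨ ((u = b ∧ w = e) ∨ (u = e ∧ w = b)) := by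
  constructor
  · rintro ⟨huw, hf⟩
    rcases mem_swp.1 hf with ⟨h1, h2, h3⟩ | h | h
    · left
      refine ⟨⟨huw, h1⟩, ?_, ?_⟩
      · intro hh
        apply h2
        exact mkE_eq_iff.2 (by tauto)
      · intro hh
        apply h3
        exact mkE_eq_iff.2 (by tauto)
    · right; left
      exact mkE_eq_iff.1 h
    · right; right
      exact mkE_eq_iff.1 h
  · intro h
    rcases h with ⟨⟨huw, h1⟩, h2, h3⟩ | h | h
    · refine ⟨huw, mem_swp.2 (Or.inl ⟨h1, ?_, ?_⟩)⟩
      · intro hh
        exact h2 (mkE_eq_iff.1 hh)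
      · intro hh
        exact h3 (mkE_eq_iff.1 hh)
    · have huw : u ≠ w := by
        rcases h with ⟨rfl, rfl⟩ | ⟨rfl, rfl⟩
        · exact hac
        · exact hac.symm
      exact ⟨huw, mem_swp.2 (Or.inr (Or.inl (mkE_eq_iff.2 h)))⟩
    · have huw : u ≠ w := by
        rcases h with ⟨rfl, rfl⟩ | ⟨rfl, rfl⟩
        · exact hbe
        · exact hbe.symm
      exact ⟨huw, mem_swp.2 (Or.inr (Or.inr (mkE_eq_iff.2 h)))⟩

/-- A switch preserves the degrees. -/
lemma deg_swp {E : Finset (Edge n)} {a b c e : Fin n} {hab : a ≠ b} {hce : c ≠ e}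
    {hac : a ≠ c} {hbe : b ≠ e} (hae : a ≠ e) (hbc : b ≠ c) (h1 : mkE a b hab ∈ E)
    (h2 : mkE c e hce ∈ E) (h3 : mkE a c hac ∉ E) (h4 : mkE b e hbe ∉ E) (v : Fin n) :
    deg (swp E a b c e hab hce hac hbe) v = deg E v := by
  classical
  unfold deg swp
  have hF : ({mkE a b hab, mkE c e hce} : Finset (Edge n)) ⊆ E := by
    intro f hf
    simp only [Finset.mem_insert, Finset.mem_singleton] at hf
    rcases hf with rfl | rfl <;> assumption
  have hne1 : mkE a b hab ≠ mkE c e hce := by
    intro h
    rcases mkE_eq_iff.1 h with h | h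
    · exact hac h.1
    · exact hae h.1
  have hne2 : mkE a c hac ≠ mkE b e hbe := by
    intro h
    rcases mkE_eq_iff.1 h with h | h
    · exact hab h.1
    · exact hae h.1
  have hdisj : Disjoint (E \ {mkE a b hab, mkE c e hce}) ({mkE a c hac, mkE b e hbe} : Finset (Edge n)) := by
    rw [Finset.disjoint_left]
    intro f hf hf'
    simp only [Finset.mem_insert, Finset.mem_singleton] at hf'
    have : f ∈ E := (Finset.mem_sdiff.1 hf).1
    rcases hf' with rfl | rfl
    · exact h3 this
    · exact h4 this
  rw [Finset.filter_union, Finset.card_union_of_disjoint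
    (Finset.disjoint_filter_filter hdisj)]
  have hsplit := Finset.card_sdiff_add_card_eq_card
    (Finset.filter_subset_filter (fun f : Edge n => v ∈ f.1) hF)
  have hfs : (E \ {mkE a b hab, mkE c e hce}).filter (fun f : Edge n => v ∈ f.1)
      = E.filter (fun f : Edge n => v ∈ f.1) \
        ({mkE a b hab, mkE c e hce} : Finset (Edge n)).filter (fun f : Edge n => v ∈ f.1) := by
    ext f
    simp only [Finset.mem_filter, Finset.mem_sdiff]
    tauto
  rw [hfs, ← hsplit]
  congr 1
  rw [Finset.card_filter, Finset.card_filter, Finset.sum_pair hne1, Finset.sum_pair hne2]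
  simp only [mem_mkE]
  by_cases hva : v = a
  · subst hva
    simp [hab, hac, hae, hce]
  by_cases hvb : v = b
  · subst hvb
    simp [hab.symm, hbe, hbc, hva]
  by_cases hvc : v = c
  · subst hvc
    simp [hac.symm, hbc.symm, hce, hva, hvb]
  by_cases hve : v = e
  · subst hve
    simp [hae.symm, hbe.symm, hce.symm, hva, hvb, hvc]
  simp [hva, hvb, hvc, hve]

/-- A switched graph is again a realization. -/
lemma IsSwitch.mem_realizations {d : Fin n → ℕ} {E E' : Finset (Edge n)} (hE : E ∈ realizations d)
    (h : IsSwitch E E') : E' ∈ realizations d := by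
  obtain ⟨a, b, c, e, hab, hce, hac, hbe, hae, hbc, h1, h2, h3, h4, rfl⟩ := h
  simp only [realizations, Finset.mem_filter, Finset.mem_univ, true_and] at hE ⊢
  intro v
  rw [deg_swp hae hbc h1 h2 h3 h4, hE]

/-- A switch can be undone. -/
lemma IsSwitch.symm {E E' : Finset (Edge n)} (h : IsSwitch E E') : IsSwitch E' E := by
  classical
  obtain ⟨a, b, c, e, hab, hce, hac, hbe, hae, hbc, h1, h2, h3, h4, rfl⟩ := h
  refine ⟨a, c, b, e, hac, hbe, hab, hce, hae, hbc.symm, ?_, ?_, ?_, ?_, ?_⟩
  · exact mem_swp.2 (Or.inr (Or.inl rfl))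
  · exact mem_swp.2 (Or.inr (Or.inr rfl))
  · intro hh
    rcases mem_swp.1 hh with ⟨_, h5, _⟩ | h5 | h5
    · exact h5 rfl
    · rcases mkE_eq_iff.1 h5 with h6 | h6
      · exact hbc h6.2
      · exact hac h6.1
    · rcases mkE_eq_iff.1 h5 with h6 | h6
      · exact hab h6.1
      · exact hae h6.1
  · intro hh
    rcases mem_swp.1 hh with ⟨_, _, h5⟩ | h5 | h5
    · exact h5 rfl
    · rcases mkE_eq_iff.1 h5 with h6 | h6
      · exact hac h6.1.symm
      · exact hae h6.2.symm
    · rcases mkE_eq_iff.1 h5 with h6 | h6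
      · exact hbc h6.1.symm
      · exact hce h6.1
  · ext f
    simp only [mem_swp]
    by_cases h7 : f = mkE a b hab
    · subst h7
      have : mkE a b hab ≠ mkE a c hac := fun h => hbc (by
        rcases mkE_eq_iff.1 h with h | h
        · exact h.2
        · exact absurd h.1 hac)
      have h8 : mkE a b hab ≠ mkE b e hbe := fun h => hab (by
        rcases mkE_eq_iff.1 h with h | h
        · exact h.1
        · exact absurd h.1 hae)
      simp [h1, this, h8]
    by_cases h8 : f = mkE c e hce
    · subst h8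
      have h9 : mkE c e hce ≠ mkE a c hac := fun h => by
        rcases mkE_eq_iff.1 h with h | h
        · exact hac h.1.symm
        · exact hae h.2.symm
      have h10 : mkE c e hce ≠ mkE b e hbe := fun h => by
        rcases mkE_eq_iff.1 h with h | h
        · exact hbc h.1.symm
        · exact hce (h.1.trans (h.2.symm ▸ rfl) ) |>.elim
      simp [h2, h9, h10]
    by_cases h9 : f = mkE a c hac
    · subst h9
      simp only [h3, h7, h8, not_false_eq_true, true_or, or_true, false_and, or_false, ne_eq, and_self]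
      simp
    by_cases h10 : f = mkE b e hbe
    · subst h10
      simp only [h4, h7, h8, h9, not_false_eq_true, ne_eq, or_true, or_false, false_and, false_or, and_self]
      simp
    simp [h7, h8, h9, h10]

/-- One step of the induction: switching towards `H` at the vertex `v`. -/
lemma step {G H : Finset (Edge n)} {v x y z : Fin n} (hxy : x ≠ y) (hvz : v ≠ z) (hxz : x ≠ z)
    (h1 : Adj G v x) (h2 : ¬ Adj G v y) (h3 : Adj G y z) (h4 : ¬ Adj G x z)
    (h5 : ¬ Adj H v x) (h6 : Adj H v y) :
    ∃ G', IsSwitch G G' ∧ (∀ u, u ≠ v → u ≠ x → u ≠ y → u ≠ z → nbr G' u = nbr G u) ∧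
      (symmDiff (nbr G' v) (nbr H v)).card < (symmDiff (nbr G v) (nbr H v)).card := by
  classical
  obtain ⟨hvx, h1'⟩ := h1
  obtain ⟨hyz, h3'⟩ := h3
  have hvy : v ≠ y := h6.1
  refine ⟨swp G v x y z hvx hyz hvy hxz, ⟨v, x, y, z, hvx, hyz, hvy, hxz, hvz, hxy, h1', h3',
    fun h => h2 ⟨hvy, h⟩, fun h => h4 ⟨hxz, h⟩, rfl⟩, ?_, ?_⟩
  · intro u h7 h8 h9 h10
    ext w
    rw [mem_nbr, mem_nbr, adj_swp]
    simp [h7, h8, h9, h10]
  · have hv' : ∀ w, w ≠ x → w ≠ y →
        (Adj (swp G v x y z hvx hyz hvy hxz) v w ↔ Adj G v w) := by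
      intro w hwx hwy
      rw [adj_swp]
      simp [hwx, hwy, hvx, hvy, hvz]
    have hvx' : ¬ Adj (swp G v x y z hvx hyz hvy hxz) v x := by
      rw [adj_swp]
      simp [hvx, hvy, hvz, hxy, hvx.symm]
    have hvy' : Adj (swp G v x y z hvx hyz hvy hxz) v y := by
      rw [adj_swp]
      simp
    refine Finset.card_lt_card ⟨?_, ?_⟩
    · intro w hw
      rw [Finset.mem_symmDiff, mem_nbr, mem_nbr] at hw ⊢
      have hwx : w ≠ x := by
        rintro rfl
        rcases hw with hw | hw
        · exact hvx' hw.1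
        · exact h5 hw.1
      have hwy : w ≠ y := by
        rintro rfl
        rcases hw with hw | hw
        · exact hw.2 h6
        · exact hw.2 hvy'
      rwa [hv' w hwx hwy] at hw
    · intro hsub
      have hx : x ∈ symmDiff (nbr G v) (nbr H v) := by
        rw [Finset.mem_symmDiff, mem_nbr, mem_nbr]
        exact Or.inl ⟨⟨hvx, h1'⟩, h5⟩
      have := hsub hx
      rw [Finset.mem_symmDiff, mem_nbr, mem_nbr] at this
      rcases this with h | h
      · exact hvx' h.1
      · exact h5 h.1

/-- The relation of one switch inside the realizations of `d`. -/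
def Sw (d : Fin n → ℕ) (E E' : Finset (Edge n)) : Prop :=
  E ∈ realizations d ∧ E' ∈ realizations d ∧ IsSwitch E E'

lemma Sw_symm (d : Fin n → ℕ) {E E' : Finset (Edge n)} (h : Sw d E E') : Sw d E' E :=
  ⟨h.2.1, h.1, h.2.2.symm⟩

/-- Indicator of the adjacency. -/
noncomputable def ind (E : Finset (Edge n)) (u z : Fin n) : ℤ := by
  classical exact if Adj E u z then 1 else 0

lemma deg_eq_sum_ind (E : Finset (Edge n)) (u : Fin n) : (deg E u : ℤ) = ∑ z, ind E u z := by
  classical
  rw [deg_eq_card_nbr]
  simp only [ind, nbr]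
  rw [Finset.card_filter]
  push_cast
  rfl

/-- The counting step. -/
lemma exists_switch_vertex {d : Fin n → ℕ} {G H : Finset (Edge n)} (hG : G ∈ realizations d)
    (hH : H ∈ realizations d) {v x y : Fin n}
    (hagree : ∀ u : Fin n, u < v → nbr G u = nbr H u)
    (hvx : v < x) (hvy : v < y) (hxy : x ≠ y)
    (h1 : Adj G v x) (h2 : ¬ Adj G v y) (h5 : ¬ Adj H v x) (h6 : Adj H v y) :
    ∃ z, v < z ∧ z ≠ x ∧ z ≠ y ∧ ((Adj G y z ∧ ¬ Adj G x z) ∨ (Adj H x z ∧ ¬ Adj H y z)) := by
  classical
  by_contra hcon
  push Not at hcon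
  simp only [realizations, Finset.mem_filter, Finset.mem_univ, true_and] at hG hH
  let t : Fin n → ℤ := fun z => ind G y z - ind G x z - ind H y z + ind H x z
  have hsum : ∑ z, t z = 0 := by
    simp only [t, Finset.sum_add_distrib, Finset.sum_sub_distrib, ← deg_eq_sum_ind, hG, hH]
    ring
  have htv : t v = -2 := by
    simp only [t, ind, adj_comm (a := y) (b := v), adj_comm (a := x) (b := v), h1, h2, h5, h6,
      if_true, if_false]
    norm_num
  have htxy : t x + t y = 0 := by
    simp only [t, ind, adj_comm (a := y) (b := x), not_adj_self, if_false]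
    ring
  have hothers : ∀ z ∈ ((Finset.univ.erase v).erase x).erase y, t z ≤ 0 := by
    intro z hz
    simp only [Finset.mem_erase, Finset.mem_univ, and_true] at hz
    obtain ⟨hzy, hzx, hzv⟩ := hz
    rcases lt_or_gt_of_ne hzv with hlt | hgt
    · have h7 := hagree z hlt
      have h8 : ∀ w, (Adj G w z ↔ Adj H w z) := by
        intro w
        have : w ∈ nbr G z ↔ w ∈ nbr H z := by rw [h7]
        rwa [mem_nbr, mem_nbr, adj_comm, adj_comm (E := H) (a := z)] at this
      simp only [t, ind, h8]
      simp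
    · have h9 := hcon z hgt hzx hzy
      have h10 : ind G y z - ind G x z ≤ 0 := by
        simp only [ind]
        by_cases h11 : Adj G y z
        · simp [h11, h9.1 h11]
        · simp only [h11, if_false]
          split_ifs <;> norm_num
      have h12 : ind H x z - ind H y z ≤ 0 := by
        simp only [ind]
        by_cases h11 : Adj H x z
        · simp [h11, h9.2 h11]
        · simp only [h11, if_false]
          split_ifs <;> norm_num
      simp only [t]
      linarith
  have e1 := Finset.add_sum_erase Finset.univ t (Finset.mem_univ v)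
  have hx1 : x ∈ Finset.univ.erase v := Finset.mem_erase.2 ⟨hvx.ne', Finset.mem_univ _⟩
  have e2 := Finset.add_sum_erase _ t hx1
  have hy1 : y ∈ (Finset.univ.erase v).erase x :=
    Finset.mem_erase.2 ⟨hxy.symm, Finset.mem_erase.2 ⟨hvy.ne', Finset.mem_univ _⟩⟩
  have e3 := Finset.add_sum_erase _ t hy1
  have e4 := Finset.sum_nonpos hothers
  linarith

/-- Any two realizations of `d` are joined by switches inside the realizations. -/
theorem switch_connected {d : Fin n → ℕ} {G H : Finset (Edge n)} (hG : G ∈ realizations d)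
    (hH : H ∈ realizations d) : Relation.ReflTransGen (Sw d) G H := by
  classical
  -- downward induction on the position `k`
  suffices hmain : ∀ m k : ℕ, k + m = n → ∀ G H : Finset (Edge n), G ∈ realizations d →
      H ∈ realizations d → (∀ u : Fin n, u.val < k → nbr G u = nbr H u) →
      Relation.ReflTransGen (Sw d) G H by
    exact hmain n 0 (by omega) G H hG hH (fun u hu => absurd hu (Nat.not_lt_zero _))
  intro m
  induction m with
  | zero =>
    intro k hk G H _ _ hag
    have : G = H := eq_of_nbr_eq fun v => hag v (by have := v.isLt; omega)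
    rw [this]
  | succ m ihm =>
    intro k hk
    have hkn : k < n := by omega
    let v : Fin n := ⟨k, hkn⟩
    suffices hin : ∀ t : ℕ, ∀ G H : Finset (Edge n), G ∈ realizations d →
        H ∈ realizations d → (∀ u : Fin n, u.val < k → nbr G u = nbr H u) →
        (symmDiff (nbr G v) (nbr H v)).card = t → Relation.ReflTransGen (Sw d) G H by
      intro G H hG hH hag
      exact hin _ G H hG hH hag rfl
    intro t
    induction t using Nat.strong_induction_on with
    | _ t ih =>
      intro G H hG hH hag ht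
      by_cases ht0 : symmDiff (nbr G v) (nbr H v) = ∅
      · refine ihm (k + 1) (by omega) G H hG hH ?_
        intro u hu
        rcases Nat.lt_succ_iff_lt_or_eq.1 hu with h | h
        · exact hag u h
        · have huv : u = v := Fin.ext h
          rw [huv]
          have := Finset.symmDiff_eq_empty.1 ht0
          exact this
      -- choose `x`, `y`
      have hdeg : (nbr G v).card = (nbr H v).card := by
        rw [← deg_eq_card_nbr, ← deg_eq_card_nbr]
        simp only [realizations, Finset.mem_filter, Finset.mem_univ, true_and] at hG hH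
        rw [hG, hH]
      have hcards : (nbr G v \ nbr H v).card = (nbr H v \ nbr G v).card :=
        Finset.card_sdiff_comm hdeg
      have hne : (nbr G v \ nbr H v).Nonempty := by
        by_contra hemp
        rw [Finset.not_nonempty_iff_eq_empty] at hemp
        have h2 : (nbr H v \ nbr G v) = ∅ := by
          rw [← Finset.card_eq_zero, ← hcards, hemp, Finset.card_empty]
        apply ht0
        rw [symmDiff_def, Finset.sup_eq_union, hemp, h2, Finset.union_empty]
      have hne' : (nbr H v \ nbr G v).Nonempty := by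
        rw [← Finset.card_pos, ← hcards]
        exact Finset.card_pos.2 hne
      obtain ⟨x, hx⟩ := hne
      obtain ⟨y, hy⟩ := hne'
      rw [Finset.mem_sdiff, mem_nbr, mem_nbr] at hx hy
      have hlow : ∀ w : Fin n, ∀ E E' : Finset (Edge n),
          (∀ u : Fin n, u.val < k → nbr E u = nbr E' u) → Adj E v w → ¬ Adj E' v w → v < w := by
        intro w E E' hE h1 h2
        by_contra hcon
        have hw : w ≠ v := h1.1.symm
        have hlt : w.val < k := by
          have : w < v := lt_of_le_of_ne (not_lt.1 hcon) hw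
          exact this
        have h3 : v ∈ nbr E w := mem_nbr.2 h1.symm
        rw [hE w hlt, mem_nbr] at h3
        exact h2 h3.symm
      have hvx : v < x := hlow x G H hag hx.1 hx.2
      have hvy : v < y := hlow y H G (fun u hu => (hag u hu).symm) hy.1 hy.2
      have hxy : x ≠ y := by
        rintro rfl
        exact hx.2 hy.1
      obtain ⟨z, hvz, hzx, hzy, hz⟩ := exists_switch_vertex hG hH
        (fun u hu => hag u hu) hvx hvy hxy hx.1 hy.2 hx.2 hy.1
      have hlow' : ∀ u : Fin n, u.val < k → u ≠ v ∧ u ≠ x ∧ u ≠ y ∧ u ≠ z := by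
        intro u hu
        have h1 : u < v := hu
        exact ⟨h1.ne, (h1.trans hvx).ne, (h1.trans hvy).ne, (h1.trans hvz).ne⟩
      rcases hz with ⟨h3, h4⟩ | ⟨h3, h4⟩
      · obtain ⟨G', hsw, hag', hlt⟩ := step hxy hvz.ne hzx.symm hx.1 hy.2 h3 h4 hx.2 hy.1
        have hG' := hsw.mem_realizations hG
        have h5 : Relation.ReflTransGen (Sw d) G' H := by
          refine ih _ (by rw [← ht]; exact hlt) G' H hG' hH ?_ rfl
          intro u hu
          obtain ⟨h6, h7, h8, h9⟩ := hlow' u hu
          rw [hag' u h6 h7 h8 h9]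
          exact hag u hu
        exact Relation.ReflTransGen.head ⟨hG, hG', hsw⟩ h5
      · obtain ⟨H', hsw, hag', hlt⟩ := step hxy.symm hvz.ne hzy.symm hy.1 hx.2 h3 h4 hy.2 hx.1
        have hH' := hsw.mem_realizations hH
        have h5 : Relation.ReflTransGen (Sw d) G H' := by
          refine ih _ ?_ G H' hG hH' ?_ rfl
          · rw [← ht, symmDiff_comm (nbr G v) (nbr H' v), symmDiff_comm (nbr G v) (nbr H v)]
            exact hlt
          · intro u hu
            obtain ⟨h6, h7, h8, h9⟩ := hlow' u hu
            rw [hag' u h6 h8 h7 h9]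
            exact hag u hu
        exact h5.tail ⟨hH', hH, hsw.symm⟩

/-- A function constant along the switches is constant on the realizations. -/
theorem eq_of_switch_invariant {α : Type*} {d : Fin n → ℕ} (f : Finset (Edge n) → α)
    (hf : ∀ E ∈ realizations d, ∀ E' ∈ realizations d, IsSwitch E E' → f E = f E')
    {G H : Finset (Edge n)} (hG : G ∈ realizations d) (hH : H ∈ realizations d) : f G = f H := by
  have key : ∀ K, Relation.ReflTransGen (Sw d) G K → f G = f K := by
    intro K hK
    induction hK with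
    | refl => rfl
    | tail _ h ih => exact ih.trans (hf _ h.1 _ h.2.1 h.2.2)
  exact key H (switch_connected hG hH)

end Crest.Agent.Lib.SwitchConn
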