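import Mathlib

/-!
# The covariance bound (J2) on the Johnson scheme (row 299, module B)

For the uniform law on `k`-subsets `S` of `W`, `ξ_cd = 1[exactly one of c,d in S]`,
`ν = P(c ∈ S, d ∉ S) = k(w-k)/(w(w-1))`:
`(1/2) ∑_{c,d} Cov(f, ξ_cd)² ≤ ν (w-2) Var f`.
-/

set_option autoImplicit false

namespace Crest.Agent.Lib.SwitchJ2

open Finset

variable {α : Type*} [DecidableEq α] (W : Finset α)

/-- Membership indicator. -/
noncomputable def chi (c : α) (S : Finset α) : ℝ := if c ∈ S then 1 else 0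

/-- Indicator that exactly one of `c,d` is in `S`. -/
noncomputable def xi (c d : α) (S : Finset α) : ℝ :=
  chi c S * (1 - chi d S) + chi d S * (1 - chi c S)

/-- Average over a finite family. -/
noncomputable def avg (Ω : Finset (Finset α)) (g : Finset α → ℝ) : ℝ := (∑ S ∈ Ω, g S) / Ω.card

/-- Covariance for the uniform law. -/
noncomputable def cov (Ω : Finset (Finset α)) (f g : Finset α → ℝ) : ℝ :=
  avg Ω (fun S => f S * g S) - avg Ω f * avg Ω g

/-- Counting subsets containing `A` and avoiding `B`. -/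
lemma card_filter_incl {A B : Finset α} (hA : A ⊆ W) (hB : B ⊆ W) (hAB : Disjoint A B) (k : ℕ) :
    ((W.powersetCard k).filter (fun S => A ⊆ S ∧ Disjoint S B)).card
      = if A.card ≤ k then (W.card - A.card - B.card).choose (k - A.card) else 0 := by
  split_ifs with h
  · have hcardW : (W \ (A ∪ B)).card = W.card - A.card - B.card := by
      have h1 : A ∪ B ⊆ W := Finset.union_subset hA hB
      rw [Finset.card_sdiff_of_subset h1, Finset.card_union_of_disjoint hAB]
      omega
    rw [← hcardW, ← Finset.card_powersetCard]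
    refine Finset.card_bij' (fun S _ => S \ A) (fun T _ => T ∪ A) ?_ ?_ ?_ ?_
    · intro S hS
      obtain ⟨hS1, hS2, hS3⟩ := by simpa only [Finset.mem_filter] using hS
      obtain ⟨hS4, hS5⟩ := Finset.mem_powersetCard.1 hS1
      refine Finset.mem_powersetCard.2 ⟨?_, ?_⟩
      · intro a ha
        have ha' := Finset.mem_sdiff.1 ha
        refine Finset.mem_sdiff.2 ⟨hS4 ha'.1, ?_⟩
        intro hab
        rcases Finset.mem_union.1 hab with h1 | h1
        · exact ha'.2 h1
        · exact Finset.disjoint_left.1 hS3 ha'.1 h1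
      · rw [Finset.card_sdiff_of_subset hS2, hS5]
    · intro T hT
      obtain ⟨hT1, hT2⟩ := Finset.mem_powersetCard.1 hT
      have hdisjTA : Disjoint T A := by
        rw [Finset.disjoint_left]
        intro a ha ha'
        exact (Finset.mem_sdiff.1 (hT1 ha)).2 (Finset.mem_union_left _ ha')
      simp only [Finset.mem_filter]
      refine ⟨Finset.mem_powersetCard.2 ⟨?_, ?_⟩, Finset.subset_union_right, ?_⟩
      · exact Finset.union_subset (hT1.trans Finset.sdiff_subset) hA
      · rw [Finset.card_union_of_disjoint hdisjTA, hT2]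
        omega
      · rw [Finset.disjoint_union_left]
        refine ⟨?_, hAB⟩
        rw [Finset.disjoint_left]
        intro a ha ha'
        exact (Finset.mem_sdiff.1 (hT1 ha)).2 (Finset.mem_union_right _ ha')
    · intro S hS
      obtain ⟨_, hS2, _⟩ := by simpa only [Finset.mem_filter] using hS
      exact Finset.sdiff_union_of_subset hS2
    · intro T hT
      obtain ⟨hT1, _⟩ := Finset.mem_powersetCard.1 hT
      have hdisjTA : Disjoint T A := by
        rw [Finset.disjoint_left]
        intro a ha ha'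
        exact (Finset.mem_sdiff.1 (hT1 ha)).2 (Finset.mem_union_left _ ha')
      exact Finset.union_sdiff_cancel_right hdisjTA
  · rw [Finset.card_eq_zero, Finset.filter_eq_empty_iff]
    rintro S hS ⟨h1, _⟩
    have := Finset.card_le_card h1
    rw [(Finset.mem_powersetCard.1 hS).2] at this
    exact h this

/-- The sum of a product of two selection indicators. -/
lemma sum_chi_one {c d : α} (hc : c ∈ W) (hd : d ∈ W) (hcd : c ≠ d) {k : ℕ} (hk : 1 ≤ k) :
    ∑ S ∈ W.powersetCard k, chi c S * (1 - chi d S)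
      = ((W.card - 2).choose (k - 1) : ℝ) := by
  have h := card_filter_incl W (A := {c}) (B := {d}) (by simpa using hc) (by simpa using hd)
    (by simpa using hcd) k
  simp only [Finset.card_singleton, hk, if_true] at h
  have e : W.card - 1 - 1 = W.card - 2 := by omega
  rw [e] at h
  rw [← h, Finset.card_filter]
  push_cast
  refine Finset.sum_congr rfl fun S _ => ?_
  simp only [chi, Finset.singleton_subset_iff, Finset.disjoint_singleton_right]
  by_cases h1 : c ∈ S <;> by_cases h2 : d ∈ S <;> simp [h1, h2]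

/-- The four point function. -/
noncomputable def g4 (k : ℕ) (c d c' d' : α) : ℝ :=
  ∑ S ∈ W.powersetCard k, chi c S * (1 - chi d S) * (chi c' S * (1 - chi d' S))

/-- The decomposition of the four point function by coincidences. -/
lemma g4_eq {k : ℕ} (hk : 1 ≤ k) {c d c' d' : α} (hc : c ∈ W) (hd : d ∈ W) (hc' : c' ∈ W)
    (hd' : d' ∈ W) (hcd : c ≠ d) (hcd' : c' ≠ d') (P : ℝ)
    (hP : c ≠ c' → d ≠ d' → c ≠ d' → d ≠ c' →
      g4 W k c d c' d' = P)
    (Q₁ Q₂ : ℝ) (hQ₁ : Q₁ = ((W.card - 3).choose (k - 1) : ℝ))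
    (hQ₂ : Q₂ = (if 2 ≤ k then ((W.card - 3).choose (k - 2) : ℝ) else 0))
    (hQ : Q₁ + Q₂ = ((W.card - 2).choose (k - 1) : ℝ)) :
    g4 W k c d c' d' =
      P * (1 - (if c = c' then 1 else 0) - (if d = d' then 1 else 0) - (if c = d' then 1 else 0)
          - (if d = c' then 1 else 0) + (if c = c' then (if d = d' then 1 else 0) else 0)
          + (if c = d' then (if d = c' then 1 else 0) else 0))
        + Q₁ * (if c = c' then 1 else 0) + Q₂ * (if d = d' then 1 else 0) := by
  by_cases h1 : c = c'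
  · subst h1
    by_cases h2 : d = d'
    · subst h2
      have : g4 W k c d c d = ((W.card - 2).choose (k - 1) : ℝ) := by
        rw [← sum_chi_one W hc hd hcd hk]
        unfold g4
        refine Finset.sum_congr rfl fun S _ => ?_
        simp only [chi]
        by_cases h3 : c ∈ S <;> by_cases h4 : d ∈ S <;> simp [h3, h4]
      rw [this, ← hQ]
      simp [hcd, hcd.symm]
    · have hne : c ≠ d' := hcd'
      have h := card_filter_incl W (A := {c}) (B := {d, d'}) (by simpa using hc)
        (by
          intro a ha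
          simp only [Finset.mem_insert, Finset.mem_singleton] at ha
          rcases ha with rfl | rfl <;> assumption)
        (by simp [hcd, hne]) k
      rw [Finset.card_pair h2] at h
      simp only [Finset.card_singleton, hk, if_true] at h
      have e : W.card - 1 - 2 = W.card - 3 := by omega
      rw [e] at h
      have : g4 W k c d c d' = ((W.card - 3).choose (k - 1) : ℝ) := by
        rw [← h, Finset.card_filter]
        push_cast
        unfold g4
        refine Finset.sum_congr rfl fun S _ => ?_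
        simp only [chi, Finset.singleton_subset_iff, Finset.disjoint_insert_right,
          Finset.disjoint_singleton_right]
        by_cases h3 : c ∈ S <;> by_cases h4 : d ∈ S <;> by_cases h5 : d' ∈ S <;> simp [h3, h4, h5]
      rw [this, ← hQ₁]
      simp [h2, hcd, hne, hcd.symm]
  · by_cases h2 : d = d'
    · subst h2
      have hne : d ≠ c' := hcd'.symm
      have h := card_filter_incl W (A := {c, c'}) (B := {d})
        (by
          intro a ha
          simp only [Finset.mem_insert, Finset.mem_singleton] at ha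
          rcases ha with rfl | rfl <;> assumption)
        (by simpa using hd) (by simp [hcd.symm, hne]) k
      rw [Finset.card_pair h1] at h
      simp only [Finset.card_singleton] at h
      have e : W.card - 2 - 1 = W.card - 3 := by omega
      rw [e] at h
      have : g4 W k c d c' d = Q₂ := by
        rw [hQ₂]
        have h6 : g4 W k c d c' d = ((((W.powersetCard k).filter
            (fun S => {c, c'} ⊆ S ∧ Disjoint S {d})).card : ℕ) : ℝ) := by
          rw [Finset.card_filter]
          push_cast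
          unfold g4
          refine Finset.sum_congr rfl fun S _ => ?_
          simp only [chi, Finset.insert_subset_iff, Finset.singleton_subset_iff,
            Finset.disjoint_singleton_right]
          by_cases h3 : c ∈ S <;> by_cases h4 : d ∈ S <;> by_cases h5 : c' ∈ S <;> simp [h3, h4, h5]
        rw [h6, h]
        split_ifs <;> simp
      rw [this]
      simp [h1, hcd, hne]
    · by_cases h3 : c = d'
      · subst h3
        have : g4 W k c d c' c = 0 := by
          unfold g4
          refine Finset.sum_eq_zero fun S _ => ?_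
          simp only [chi]
          by_cases h3 : c ∈ S <;> simp [h3]
        rw [this]
        by_cases h4 : d = c'
        · simp [h1, h2, h4, hcd']
        · simp [h1, h2, h4, hcd']
      · by_cases h4 : d = c'
        · subst h4
          have : g4 W k c d d d' = 0 := by
            unfold g4
            refine Finset.sum_eq_zero fun S _ => ?_
            simp only [chi]
            by_cases h3 : d ∈ S <;> simp [h3]
          rw [this]
          simp [h1, h2, h3]
        · rw [hP h1 h2 h3 h4]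
          simp [h1, h2, h3, h4]

/-! ### The sum over four indices -/

/-- Sum over four indices in `W`. -/
noncomputable def S4 (h : α → α → α → α → ℝ) : ℝ :=
  ∑ c ∈ W, ∑ d ∈ W, ∑ c' ∈ W, ∑ d' ∈ W, h c d c' d'

lemma S4_add (h₁ h₂ : α → α → α → α → ℝ) :
    S4 W (fun c d c' d' => h₁ c d c' d' + h₂ c d c' d') = S4 W h₁ + S4 W h₂ := by
  simp only [S4, Finset.sum_add_distrib]

lemma S4_sub (h₁ h₂ : α → α → α → α → ℝ) :
    S4 W (fun c d c' d' => h₁ c d c' d' - h₂ c d c' d') = S4 W h₁ - S4 W h₂ := by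
  simp only [S4, Finset.sum_sub_distrib]

lemma S4_mul (a : ℝ) (h : α → α → α → α → ℝ) :
    S4 W (fun c d c' d' => a * h c d c' d') = a * S4 W h := by
  simp only [S4, Finset.mul_sum]

variable (β : α → α → ℝ)

/-- Total weight. -/
noncomputable def TT : ℝ := ∑ c ∈ W, ∑ d ∈ W, β c d
/-- Weighted degree. -/
noncomputable def rr (c : α) : ℝ := ∑ d ∈ W, β c d
/-- Sum of the squares of the weighted degrees. -/
noncomputable def RR : ℝ := ∑ c ∈ W, rr W β c ^ 2
/-- Sum of squares of the weights. -/
noncomputable def BB : ℝ := ∑ c ∈ W, ∑ d ∈ W, β c d ^ 2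
/-- The cut function. -/
noncomputable def Yf (S : Finset α) : ℝ := ∑ c ∈ W, ∑ d ∈ W, β c d * (chi c S * (1 - chi d S))

lemma S4_one : S4 W (fun c d c' d' => β c d * β c' d') = TT W β ^ 2 := by
  unfold S4 TT
  rw [sq, Finset.sum_mul]
  refine Finset.sum_congr rfl fun c _ => ?_
  rw [Finset.sum_mul]
  refine Finset.sum_congr rfl fun d _ => ?_
  rw [Finset.mul_sum]
  refine Finset.sum_congr rfl fun c' _ => ?_
  rw [Finset.mul_sum]

lemma S4_cc : S4 W (fun c d c' d' => β c d * β c' d' * (if c = c' then 1 else 0)) = RR W β := by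
  unfold S4 RR rr
  refine Finset.sum_congr rfl fun c hc => ?_
  rw [sq, Finset.sum_mul]
  refine Finset.sum_congr rfl fun d _ => ?_
  rw [Finset.sum_eq_single c]
  · rw [Finset.mul_sum]
    simp
  · intro b _ hb
    simp [Ne.symm hb]
  · intro h
    exact absurd hc h

lemma S4_dd (hs : ∀ c d, β c d = β d c) :
    S4 W (fun c d c' d' => β c d * β c' d' * (if d = d' then 1 else 0)) = RR W β := by
  unfold S4 RR rr
  rw [Finset.sum_comm]
  refine Finset.sum_congr rfl fun d hd => ?_
  rw [sq, Finset.sum_mul]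
  refine Finset.sum_congr rfl fun c _ => ?_
  rw [hs d c, Finset.mul_sum]
  refine Finset.sum_congr rfl fun c' _ => ?_
  rw [Finset.sum_eq_single d]
  · simp [hs d c']
  · intro b _ hb
    simp [Ne.symm hb]
  · intro h
    exact absurd hd h

lemma S4_cd (hs : ∀ c d, β c d = β d c) :
    S4 W (fun c d c' d' => β c d * β c' d' * (if c = d' then 1 else 0)) = RR W β := by
  unfold S4 RR rr
  refine Finset.sum_congr rfl fun c hc => ?_
  rw [sq, Finset.sum_mul]
  refine Finset.sum_congr rfl fun d _ => ?_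
  rw [Finset.mul_sum]
  refine Finset.sum_congr rfl fun c' _ => ?_
  rw [Finset.sum_eq_single c]
  · simp [hs c c']
  · intro b _ hb
    simp [Ne.symm hb]
  · intro h
    exact absurd hc h

lemma S4_dc (hs : ∀ c d, β c d = β d c) :
    S4 W (fun c d c' d' => β c d * β c' d' * (if d = c' then 1 else 0)) = RR W β := by
  unfold S4 RR rr
  rw [Finset.sum_comm]
  refine Finset.sum_congr rfl fun d hd => ?_
  rw [sq, Finset.sum_mul]
  refine Finset.sum_congr rfl fun c _ => ?_
  rw [Finset.sum_eq_single d]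
  · rw [hs d c, Finset.mul_sum]
    simp
  · intro b _ hb
    simp [Ne.symm hb]
  · intro h
    exact absurd hd h

lemma S4_cc_dd : S4 W (fun c d c' d' => β c d * β c' d' *
    (if c = c' then (if d = d' then 1 else 0) else 0)) = BB W β := by
  unfold S4 BB
  refine Finset.sum_congr rfl fun c hc => Finset.sum_congr rfl fun d hd => ?_
  rw [Finset.sum_eq_single c]
  · rw [Finset.sum_eq_single d]
    · simp [sq]
    · intro b _ hb
      simp [Ne.symm hb]
    · intro h
      exact absurd hd h
  · intro b _ hb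
    simp [Ne.symm hb]
  · intro h
    exact absurd hc h

lemma S4_cd_dc (hs : ∀ c d, β c d = β d c) : S4 W (fun c d c' d' => β c d * β c' d' *
    (if c = d' then (if d = c' then 1 else 0) else 0)) = BB W β := by
  unfold S4 BB
  refine Finset.sum_congr rfl fun c hc => Finset.sum_congr rfl fun d hd => ?_
  rw [Finset.sum_eq_single d]
  · rw [Finset.sum_eq_single c]
    · simp [sq, hs d c]
    · intro b _ hb
      simp [Ne.symm hb]
    · intro h
      exact absurd hc h
  · intro b _ hb
    refine Finset.sum_eq_zero fun a _ => ?_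
    simp [Ne.symm hb]
  · intro h
    exact absurd hd h

/-- The first moment of the cut. -/
lemma sum_Yf {k : ℕ} (hk : 1 ≤ k) (hd : ∀ c, β c c = 0) :
    ∑ S ∈ W.powersetCard k, Yf W β S = ((W.card - 2).choose (k - 1) : ℝ) * TT W β := by
  unfold Yf TT
  rw [Finset.sum_comm, Finset.mul_sum]
  refine Finset.sum_congr rfl fun c hc => ?_
  rw [Finset.sum_comm, Finset.mul_sum]
  refine Finset.sum_congr rfl fun e he => ?_
  rw [← Finset.mul_sum]
  by_cases hce : c = e
  · subst hce
    simp [hd]
  · rw [sum_chi_one W hc he hce hk]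
    ring

/-- The second moment of the cut. -/
lemma sum_Yf_sq {k : ℕ} (hk : 1 ≤ k) (hs : ∀ c d, β c d = β d c) (hd : ∀ c, β c c = 0)
    (P : ℝ) (hP : ∀ c ∈ W, ∀ d ∈ W, ∀ c' ∈ W, ∀ d' ∈ W, c ≠ d → c' ≠ d' → c ≠ c' → d ≠ d' →
      c ≠ d' → d ≠ c' → g4 W k c d c' d' = P) (hw : k + 1 ≤ W.card) :
    ∑ S ∈ W.powersetCard k, Yf W β S ^ 2
      = P * (TT W β ^ 2 - 4 * RR W β + 2 * BB W β) + ((W.card - 2).choose (k - 1) : ℝ) * RR W β := by
  -- Pascal
  set Q₁ : ℝ := ((W.card - 3).choose (k - 1) : ℝ) with hQ₁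
  set Q₂ : ℝ := (if 2 ≤ k then ((W.card - 3).choose (k - 2) : ℝ) else 0) with hQ₂
  have hQ : Q₁ + Q₂ = ((W.card - 2).choose (k - 1) : ℝ) := by
    rw [hQ₁, hQ₂]
    rcases Nat.lt_or_ge k 2 with h2 | h2
    · have hk1 : k = 1 := by omega
      subst hk1
      simp
    · obtain ⟨a, rfl⟩ : ∃ a, k = a + 2 := ⟨k - 2, by omega⟩
      simp only [h2, if_true]
      have h3 : 3 ≤ W.card := by omega
      · obtain ⟨m, hm⟩ : ∃ m, W.card = m + 3 := ⟨W.card - 3, by omega⟩
        rw [hm]
        have e1 : m + 3 - 3 = m := by omega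
        have e2 : m + 3 - 2 = m + 1 := by omega
        have e3 : a + 2 - 1 = a + 1 := by omega
        have e4 : a + 2 - 2 = a := by omega
        rw [e1, e2, e3, e4, Nat.choose_succ_succ]
        push_cast
        ring
  have h1 : ∑ S ∈ W.powersetCard k, Yf W β S ^ 2
      = S4 W (fun c d c' d' => β c d * β c' d' * g4 W k c d c' d') := by
    unfold S4 g4
    have : ∀ S, Yf W β S ^ 2 = ∑ c ∈ W, ∑ d ∈ W, ∑ c' ∈ W, ∑ d' ∈ W,
        β c d * β c' d' * (chi c S * (1 - chi d S) * (chi c' S * (1 - chi d' S))) := by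
      intro S
      unfold Yf
      rw [sq, Finset.sum_mul]
      refine Finset.sum_congr rfl fun c _ => ?_
      rw [Finset.sum_mul]
      refine Finset.sum_congr rfl fun d _ => ?_
      rw [Finset.mul_sum]
      refine Finset.sum_congr rfl fun c' _ => ?_
      rw [Finset.mul_sum]
      refine Finset.sum_congr rfl fun d' _ => ?_
      ring
    simp_rw [this]
    rw [Finset.sum_comm]
    refine Finset.sum_congr rfl fun c _ => ?_
    rw [Finset.sum_comm]
    refine Finset.sum_congr rfl fun d _ => ?_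
    rw [Finset.sum_comm]
    refine Finset.sum_congr rfl fun c' _ => ?_
    rw [Finset.sum_comm]
    refine Finset.sum_congr rfl fun d' _ => ?_
    rw [Finset.mul_sum]
  have h2 : S4 W (fun c d c' d' => β c d * β c' d' * g4 W k c d c' d')
      = S4 W (fun c d c' d' => P * (β c d * β c' d')
          - P * (β c d * β c' d' * (if c = c' then 1 else 0))
          - P * (β c d * β c' d' * (if d = d' then 1 else 0))
          - P * (β c d * β c' d' * (if c = d' then 1 else 0))
          - P * (β c d * β c' d' * (if d = c' then 1 else 0))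
          + P * (β c d * β c' d' * (if c = c' then (if d = d' then 1 else 0) else 0))
          + P * (β c d * β c' d' * (if c = d' then (if d = c' then 1 else 0) else 0))
          + Q₁ * (β c d * β c' d' * (if c = c' then 1 else 0))
          + Q₂ * (β c d * β c' d' * (if d = d' then 1 else 0))) := by
    unfold S4
    refine Finset.sum_congr rfl fun c hc => Finset.sum_congr rfl fun e he =>
      Finset.sum_congr rfl fun c' hc' => Finset.sum_congr rfl fun d' hd' => ?_
    by_cases h5 : c = e
    · subst h5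
      simp [hd]
    by_cases h6 : c' = d'
    · subst h6
      simp [hd]
    beta_reduce
    rw [g4_eq W hk hc he hc' hd' h5 h6 P (fun a b c₁ e₁ => hP c hc e he c' hc' d' hd' h5 h6 a b c₁ e₁)
      Q₁ Q₂ hQ₁ hQ₂ hQ]
    ring
  rw [h1, h2]
  simp only [S4_add, S4_sub, S4_mul]
  rw [S4_one, S4_cc, S4_dd W β hs, S4_cd W β hs, S4_dc W β hs, S4_cc_dd, S4_cd_dc W β hs, ← hQ]
  ring

/-! ### The variance of the cut -/

/-- The degrees are bounded: `∑ (r_c - T/w)² ≤ (w - 2) B / 2`. -/
lemma RR_bound (hs : ∀ c d, β c d = β d c) (hd : ∀ c, β c c = 0) (hw : 2 ≤ W.card) :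
    RR W β - TT W β ^ 2 / W.card ≤ ((W.card : ℝ) - 2) * BB W β / 2 := by
  classical
  have hw0 : (0 : ℝ) < W.card := by
    have : 0 < W.card := by omega
    exact_mod_cast this
  set w : ℝ := (W.card : ℝ) with hwdef
  set T := TT W β with hT
  set u : α → ℝ := fun c => rr W β c - T / w with hu
  set Un := ∑ c ∈ W, u c ^ 2 with hUn
  have hsumr : ∑ c ∈ W, rr W β c = T := rfl
  have hsumu : ∑ c ∈ W, u c = 0 := by
    simp only [hu]
    rw [Finset.sum_sub_distrib, hsumr, Finset.sum_const, nsmul_eq_mul, ← hwdef]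
    field_simp
    ring
  have hU : RR W β - T ^ 2 / w = Un := by
    simp only [hUn, hu, RR]
    have : ∀ c, (rr W β c - T / w) ^ 2 = rr W β c ^ 2 - 2 * (T / w) * rr W β c + (T / w) ^ 2 := by
      intro c; ring
    simp_rw [this]
    rw [Finset.sum_add_distrib, Finset.sum_sub_distrib, ← Finset.mul_sum, hsumr, Finset.sum_const,
      nsmul_eq_mul, ← hwdef]
    field_simp
    ring
  rw [hU]
  -- Un = (1/2) ∑∑ (u c + u d) β c d
  have h1 : Un = (1 / 2) * ∑ c ∈ W, ∑ d ∈ W, (u c + u d) * β c d := by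
    have h2 : Un = ∑ c ∈ W, u c * rr W β c := by
      have : ∑ c ∈ W, u c * rr W β c = ∑ c ∈ W, u c * u c + (T / w) * ∑ c ∈ W, u c := by
        rw [Finset.mul_sum, ← Finset.sum_add_distrib]
        refine Finset.sum_congr rfl fun c _ => ?_
        simp only [hu]
        ring
      rw [this, hsumu]
      simp [hUn, sq]
    have h3 : ∑ c ∈ W, ∑ d ∈ W, u d * β c d = ∑ c ∈ W, ∑ d ∈ W, u c * β c d := by
      rw [Finset.sum_comm]
      refine Finset.sum_congr rfl fun c _ => Finset.sum_congr rfl fun d _ => ?_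
      rw [hs]
    have h4 : ∑ c ∈ W, ∑ d ∈ W, (u c + u d) * β c d
        = ∑ c ∈ W, ∑ d ∈ W, u c * β c d + ∑ c ∈ W, ∑ d ∈ W, u d * β c d := by
      simp only [add_mul, Finset.sum_add_distrib]
    rw [h4, h3, h2]
    have h5 : ∑ c ∈ W, u c * rr W β c = ∑ c ∈ W, ∑ d ∈ W, u c * β c d := by
      refine Finset.sum_congr rfl fun c _ => ?_
      simp only [rr, Finset.mul_sum]
    rw [h5]
    ring
  -- the sum of squares over off-diagonal pairs
  have h6 : ∑ c ∈ W, ∑ d ∈ W.erase c, (u c + u d) ^ 2 = 2 * (w - 2) * Un := by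
    have h7 : ∀ c ∈ W, ∑ d ∈ W.erase c, (u c + u d) ^ 2
        = (w - 4) * u c ^ 2 + Un := by
      intro c hc
      have h8 := Finset.add_sum_erase W (fun d => (u c + u d) ^ 2) hc
      have h9 : ∑ d ∈ W, (u c + u d) ^ 2 = w * u c ^ 2 + 2 * u c * ∑ d ∈ W, u d + Un := by
        have : ∀ d, (u c + u d) ^ 2 = u c ^ 2 + 2 * u c * u d + u d ^ 2 := by
          intro d; ring
        simp_rw [this]
        rw [Finset.sum_add_distrib, Finset.sum_add_distrib, Finset.sum_const, nsmul_eq_mul,
          ← Finset.mul_sum]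
      rw [hsumu] at h9
      have h10 : (u c + u c) ^ 2 = 4 * u c ^ 2 := by ring
      rw [h9, h10] at h8
      linarith
    rw [Finset.sum_congr rfl h7, Finset.sum_add_distrib, ← Finset.mul_sum, Finset.sum_const,
      nsmul_eq_mul, ← hwdef]
    ring
  -- Cauchy–Schwarz over off-diagonal pairs
  have h11 : ∑ c ∈ W, ∑ d ∈ W, (u c + u d) * β c d = ∑ c ∈ W, ∑ d ∈ W.erase c, (u c + u d) * β c d := by
    refine Finset.sum_congr rfl fun c hc => ?_
    rw [← Finset.add_sum_erase W _ hc, hd c]
    simp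
  have h12 : BB W β = ∑ c ∈ W, ∑ d ∈ W.erase c, β c d ^ 2 := by
    unfold BB
    refine Finset.sum_congr rfl fun c hc => ?_
    rw [← Finset.add_sum_erase W _ hc, hd c]
    simp
  have hCS : (∑ c ∈ W, ∑ d ∈ W.erase c, (u c + u d) * β c d) ^ 2
      ≤ (∑ c ∈ W, ∑ d ∈ W.erase c, (u c + u d) ^ 2) * (∑ c ∈ W, ∑ d ∈ W.erase c, β c d ^ 2) := by
    rw [Finset.sum_sigma', Finset.sum_sigma', Finset.sum_sigma']
    exact Finset.sum_mul_sq_le_sq_mul_sq _ _ _
  rw [← h11, h6, ← h12] at hCS
  have hB0 : 0 ≤ BB W β := Finset.sum_nonneg fun _ _ => Finset.sum_nonneg fun _ _ => sq_nonneg _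
  have hUn0 : 0 ≤ Un := Finset.sum_nonneg fun _ _ => sq_nonneg _
  have hw2 : (0 : ℝ) ≤ w - 2 := by
    have : (2 : ℝ) ≤ w := by rw [hwdef]; exact_mod_cast hw
    linarith
  have h13 : ∑ c ∈ W, ∑ d ∈ W, (u c + u d) * β c d = 2 * Un := by
    linarith [h1]
  rw [h13] at hCS
  rcases hUn0.eq_or_lt with h0 | h0
  · rw [← h0]
    positivity
  · have h14 : Un * (4 * Un) ≤ Un * (2 * (w - 2) * BB W β) := by nlinarith
    have h15 := le_of_mul_le_mul_left h14 h0
    linarith

/-- The constant `ν`. -/
noncomputable def nuJ (w k : ℕ) : ℝ := ((k : ℝ) * ((w : ℝ) - k)) / ((w : ℝ) * ((w : ℝ) - 1))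

/-- The weights `1 - δ`. -/
noncomputable def betaOne (c d : α) : ℝ := if c = d then 0 else 1

lemma TT_one : TT W (betaOne (α := α)) = (W.card : ℝ) * ((W.card : ℝ) - 1) := by
  unfold TT
  have : ∀ c ∈ W, ∑ d ∈ W, betaOne c d = (W.card : ℝ) - 1 := by
    intro c hc
    rw [← Finset.add_sum_erase W _ hc]
    have h1 : ∀ d ∈ W.erase c, betaOne c d = (1 : ℝ) := by
      intro d hd
      simp [betaOne, (Finset.mem_erase.1 hd).1.symm]
    rw [Finset.sum_congr rfl h1]
    simp [betaOne, Finset.card_erase_of_mem hc, Nat.cast_sub (Finset.card_pos.2 ⟨c, hc⟩)]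
  rw [Finset.sum_congr rfl this]
  simp
  ring

lemma rr_one {c : α} (hc : c ∈ W) : rr W (betaOne (α := α)) c = (W.card : ℝ) - 1 := by
  unfold rr
  rw [← Finset.add_sum_erase W _ hc]
  have h1 : ∀ d ∈ W.erase c, betaOne c d = (1 : ℝ) := by
    intro d hd
    simp [betaOne, (Finset.mem_erase.1 hd).1.symm]
  rw [Finset.sum_congr rfl h1]
  simp [betaOne, Finset.card_erase_of_mem hc, Nat.cast_sub (Finset.card_pos.2 ⟨c, hc⟩)]

lemma RR_one : RR W (betaOne (α := α)) = (W.card : ℝ) * ((W.card : ℝ) - 1) ^ 2 := by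
  unfold RR
  rw [Finset.sum_congr rfl (fun c hc => by rw [rr_one W hc])]
  simp

lemma BB_one : BB W (betaOne (α := α)) = (W.card : ℝ) * ((W.card : ℝ) - 1) := by
  unfold BB
  have : ∀ c d, betaOne (α := α) c d ^ 2 = betaOne c d := by
    intro c d
    unfold betaOne
    split_ifs <;> norm_num
  simp_rw [this]
  exact TT_one W

/-- The cut function of the weights `1 - δ` is constant on `k`-subsets. -/
lemma Yf_one {k : ℕ} {S : Finset α} (hS : S ∈ W.powersetCard k) :
    Yf W (betaOne (α := α)) S = (k : ℝ) * ((W.card : ℝ) - k) := by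
  unfold Yf
  obtain ⟨hS1, hS2⟩ := Finset.mem_powersetCard.1 hS
  have h1 : ∀ c ∈ W, ∑ d ∈ W, betaOne c d * (chi c S * (1 - chi d S))
      = chi c S * ((W.card : ℝ) - k) := by
    intro c hc
    have h2 : ∀ d ∈ W, betaOne c d * (chi c S * (1 - chi d S)) = chi c S * (1 - chi d S) := by
      intro d _
      unfold betaOne chi
      by_cases h3 : c = d
      · subst h3
        by_cases h4 : c ∈ S <;> simp [h4]
      · simp [h3]
    rw [Finset.sum_congr rfl h2, ← Finset.mul_sum]
    congr 1
    rw [Finset.sum_sub_distrib]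
    simp only [Finset.sum_const, nsmul_eq_mul, mul_one]
    congr 1
    simp only [chi]
    rw [Finset.sum_boole]
    have : W.filter (fun d => d ∈ S) = S := by
      ext a
      simp only [Finset.mem_filter]
      exact ⟨fun h => h.2, fun h => ⟨hS1 h, h⟩⟩
    rw [this, hS2]
  rw [Finset.sum_congr rfl h1, ← Finset.sum_mul]
  congr 1
  simp only [chi]
  rw [Finset.sum_boole]
  have : W.filter (fun d => d ∈ S) = S := by
    ext a
    simp only [Finset.mem_filter]
    exact ⟨fun h => h.2, fun h => ⟨hS1 h, h⟩⟩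
  rw [this, hS2]

lemma betaOne_symm (c d : α) : betaOne c d = betaOne d c := by
  unfold betaOne
  by_cases h : c = d
  · simp [h]
  · simp [h, Ne.symm h]

/-- The value of the four point function on distinct points. -/
lemma g4_distinct {k : ℕ} {c d c' d' : α} (hc : c ∈ W) (hd : d ∈ W) (hc' : c' ∈ W) (hd' : d' ∈ W)
    (h1 : c ≠ d) (h2 : c' ≠ d') (h3 : c ≠ c') (h4 : d ≠ d') (h5 : c ≠ d') (h6 : d ≠ c') :
    g4 W k c d c' d' = (if 2 ≤ k then ((W.card - 4).choose (k - 2) : ℝ) else 0) := by
  have h := card_filter_incl W (A := {c, c'}) (B := {d, d'})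
    (by
      intro a ha
      simp only [Finset.mem_insert, Finset.mem_singleton] at ha
      rcases ha with rfl | rfl <;> assumption)
    (by
      intro a ha
      simp only [Finset.mem_insert, Finset.mem_singleton] at ha
      rcases ha with rfl | rfl <;> assumption)
    (by simp [h1.symm, h5.symm, h2.symm, h6]) k
  rw [Finset.card_pair h3, Finset.card_pair h4] at h
  have e : W.card - 2 - 2 = W.card - 4 := by omega
  rw [e] at h
  have h7 : g4 W k c d c' d' = ((((W.powersetCard k).filter
      (fun S => {c, c'} ⊆ S ∧ Disjoint S {d, d'})).card : ℕ) : ℝ) := by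
    rw [Finset.card_filter]
    push_cast
    unfold g4
    refine Finset.sum_congr rfl fun S _ => ?_
    simp only [chi, Finset.insert_subset_iff, Finset.singleton_subset_iff,
      Finset.disjoint_insert_right, Finset.disjoint_singleton_right]
    by_cases h8 : c ∈ S <;> by_cases h9 : d ∈ S <;> by_cases h10 : c' ∈ S <;>
      by_cases h11 : d' ∈ S <;> simp [h8, h9, h10, h11]
  rw [h7, h]
  split_ifs <;> simp

/-- The abstract inequality behind the variance bound. -/
lemma var_alg {w k K ν p B R T U : ℝ} (hw : 2 ≤ w) (hk : 1 ≤ k) (hk' : k + 1 ≤ w)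
    (hK : K = k * (w - k)) (hν : ν * (w * (w - 1)) = K) (hp0 : 0 ≤ p)
    (hstar : ν * ((k - 1) * (w - k - 1)) = p * ((w - 2) * (w - 3)))
    (hsmall : w < 4 → p = 0) (hw3 : 4 ≤ w ∨ w = 2 ∨ w = 3) (hB : 0 ≤ B)
    (hU : U = R - T ^ 2 / w) (hU0 : 0 ≤ U) (hU1 : U ≤ (w - 2) * B / 2) :
    p * (T ^ 2 - 4 * R + 2 * B) + ν * R - ν ^ 2 * T ^ 2 ≤ ν * (w - 2) * B / 2 := by
  have hw0 : 0 < w := by linarith
  have hw1 : 0 < w - 1 := by linarith
  have hwk : 0 ≤ w - k - 1 := by linarith
  have hν0 : 0 ≤ ν := by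
    have h1 : 0 ≤ K := by rw [hK]; exact mul_nonneg (by linarith) (by linarith)
    rw [← hν] at h1
    have h2 : 0 < w * (w - 1) := by positivity
    by_contra h3
    push Not at h3
    nlinarith
  have hR : R = U + T ^ 2 / w := by rw [hU]; ring
  -- the coefficient of `T²`
  have hc : p * (1 - 4 / w) + ν / w - ν ^ 2 ≤ 0 := by
    have h1 : (p * (1 - 4 / w) + ν / w - ν ^ 2) * (w * (w - 1)) = - 2 * p := by
      have h2 : ν * (K - (w - 1)) = p * ((w - 2) * (w - 3)) := by
        rw [← hstar, hK]
        ring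
      have h3 : (p * (1 - 4 / w) + ν / w - ν ^ 2) * (w * (w - 1))
          = p * (w - 4) * (w - 1) + ν * (w - 1) - ν * (ν * (w * (w - 1))) := by
        field_simp
      rw [h3, hν]
      nlinarith
    have h4 : 0 < w * (w - 1) := by positivity
    by_contra h5
    push Not at h5
    have h6 := mul_pos h5 h4
    rw [h1] at h6
    linarith
  -- (B) and (C)
  have hBp : 4 * p ≤ ν * (w - 2) := by
    rcases hw3 with h4 | h2 | h3
    · have h5 : 0 < w - 2 := by linarith
      have h6 : 0 < w - 3 := by linarith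
      have h7 : 4 * ((k - 1) * (w - k - 1)) ≤ (w - 2) ^ 2 := by
        nlinarith [sq_nonneg ((k - 1) - (w - k - 1))]
      have h8 : 4 * p * (w - 3) * (w - 2) ≤ ν * (w - 2) * (w - 2) := by
        have h9 := mul_le_mul_of_nonneg_left h7 hν0
        nlinarith
      have h10 : 4 * p * (w - 3) ≤ ν * (w - 2) := le_of_mul_le_mul_right h8 h5
      have h11 : 4 * p ≤ 4 * p * (w - 3) := by nlinarith
      linarith
    · rw [hsmall (by linarith)]
      subst h2
      simp
    · rw [hsmall (by linarith)]
      subst h3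
      nlinarith
  have hCp : 0 ≤ (w - 3) * p := by
    rcases hw3 with h4 | h2 | h3
    · exact mul_nonneg (by linarith) hp0
    · rw [hsmall (by linarith)]; simp
    · rw [hsmall (by linarith)]; simp
  have hexp : p * (T ^ 2 - 4 * R + 2 * B) + ν * R - ν ^ 2 * T ^ 2
      = (ν - 4 * p) * U + 2 * p * B + (p * (1 - 4 / w) + ν / w - ν ^ 2) * T ^ 2 := by
    rw [hR]
    field_simp
    ring
  rw [hexp]
  have hcT : (p * (1 - 4 / w) + ν / w - ν ^ 2) * T ^ 2 ≤ 0 :=
    mul_nonpos_of_nonpos_of_nonneg hc (sq_nonneg T)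
  rcases le_total (4 * p) ν with h | h
  · have h1 : (ν - 4 * p) * U ≤ (ν - 4 * p) * ((w - 2) * B / 2) :=
      mul_le_mul_of_nonneg_left hU1 (by linarith)
    have h2 : 0 ≤ (w - 3) * p * B := mul_nonneg hCp hB
    nlinarith
  · have h1 : (ν - 4 * p) * U ≤ 0 := mul_nonpos_of_nonpos_of_nonneg (by linarith) hU0
    have h2 := mul_le_mul_of_nonneg_right hBp hB
    nlinarith

/-- The variance of a cut. -/
theorem var_cut {k : ℕ} (hk : 1 ≤ k) (hk' : k + 1 ≤ W.card) (hs : ∀ c d, β c d = β d c)
    (hd : ∀ c, β c c = 0) :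
    avg (W.powersetCard k) (fun S => Yf W β S ^ 2) - avg (W.powersetCard k) (Yf W β) ^ 2
      ≤ nuJ W.card k * ((W.card : ℝ) - 2) * BB W β / 2 := by
  have hw2 : 2 ≤ W.card := by omega
  set Ω := W.powersetCard k with hΩ
  set N : ℝ := (Ω.card : ℝ) with hN
  have hNpos : 0 < N := by
    rw [hN, hΩ, Finset.card_powersetCard]
    have : 0 < W.card.choose k := Nat.choose_pos (by omega)
    exact_mod_cast this
  set n₁ : ℝ := ((W.card - 2).choose (k - 1) : ℝ) with hn₁
  -- choose `P`
  obtain ⟨P, hP0, hPg, hPsmall⟩ : ∃ P : ℝ, 0 ≤ P ∧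
      (∀ c ∈ W, ∀ d ∈ W, ∀ c' ∈ W, ∀ d' ∈ W, c ≠ d → c' ≠ d' → c ≠ c' → d ≠ d' →
        c ≠ d' → d ≠ c' → g4 W k c d c' d' = P) ∧ (W.card < 4 → P = 0) := by
    by_cases h4 : 4 ≤ W.card
    · refine ⟨(if 2 ≤ k then ((W.card - 4).choose (k - 2) : ℝ) else 0), ?_, ?_, ?_⟩
      · split_ifs <;> positivity
      · intro c hc e he c' hc' d' hd' h1 h2 h3 h5 h6 h7
        exact g4_distinct W hc he hc' hd' h1 h2 h3 h5 h6 h7
      · intro h
        omega
    · refine ⟨0, le_rfl, ?_, fun _ => rfl⟩
      intro c hc e he c' hc' d' hd' h1 h2 h3 h5 h6 h7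
      exfalso
      apply h4
      have hsub : ({c, e, c', d'} : Finset α) ⊆ W := by
        intro a ha
        simp only [Finset.mem_insert, Finset.mem_singleton] at ha
        rcases ha with rfl | rfl | rfl | rfl <;> assumption
      have hcard : ({c, e, c', d'} : Finset α).card = 4 := by
        rw [Finset.card_insert_of_notMem (by simp [h1, h3, h6]),
          Finset.card_insert_of_notMem (by simp [h7, h5]),
          Finset.card_insert_of_notMem (by simp [h2]), Finset.card_singleton]
      rw [← hcard]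
      exact Finset.card_le_card hsub
  -- the constant cut
  set w : ℝ := (W.card : ℝ) with hw
  have hw2' : (2 : ℝ) ≤ w := by rw [hw]; exact_mod_cast hw2
  have hk1 : (1 : ℝ) ≤ k := by exact_mod_cast hk
  have hk2 : (k : ℝ) + 1 ≤ w := by rw [hw]; exact_mod_cast hk'
  set K : ℝ := (k : ℝ) * (w - k) with hK
  have hone := sum_Yf W (betaOne (α := α)) hk (fun c => by simp [betaOne])
  have honeS : ∑ S ∈ W.powersetCard k, Yf W (betaOne (α := α)) S = N * K := by
    rw [Finset.sum_congr rfl (fun S hS => Yf_one W hS)]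
    simp [hN, hΩ, hK, hw]
  rw [honeS, TT_one, ← hw] at hone
  have htwo := sum_Yf_sq W (betaOne (α := α)) hk betaOne_symm (fun c => by simp [betaOne]) P hPg hk'
  have htwoS : ∑ S ∈ W.powersetCard k, Yf W (betaOne (α := α)) S ^ 2 = N * K ^ 2 := by
    rw [Finset.sum_congr rfl (fun S hS => by rw [Yf_one W hS])]
    simp [hN, hΩ, hK, hw]
  rw [htwoS, TT_one, RR_one, BB_one, ← hw] at htwo
  -- the normalised constants
  set ν : ℝ := n₁ / N with hν
  set p : ℝ := P / N with hp
  have hp0 : 0 ≤ p := div_nonneg hP0 hNpos.le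
  have hνw : ν * (w * (w - 1)) = K := by
    rw [hν]
    field_simp
    linarith
  have hν_eq : nuJ W.card k = ν := by
    unfold nuJ
    rw [← hw, ← hK, ← hνw]
    have : 0 < w * (w - 1) := by
      have : 0 < w - 1 := by linarith
      positivity
    exact mul_div_cancel_right₀ _ this.ne'
  have hsecond : K ^ 2 = p * (w * (w - 1) * ((w - 2) * (w - 3))) + ν * (w * (w - 1) ^ 2) := by
    have h1 : N * K ^ 2 = P * (w * (w - 1) * ((w - 2) * (w - 3))) + n₁ * (w * (w - 1) ^ 2) := by
      rw [htwo]
      ring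
    rw [hν, hp]
    field_simp
    linarith
  have hstar : ν * (((k : ℝ) - 1) * (w - k - 1)) = p * ((w - 2) * (w - 3)) := by
    have h0 : 0 < w * (w - 1) := by
      have : 0 < w - 1 := by linarith
      positivity
    have h1 : (w * (w - 1)) * (ν * (((k : ℝ) - 1) * (w - k - 1)))
        = (w * (w - 1)) * (p * ((w - 2) * (w - 3))) := by
      have h2 : K ^ 2 - K * (w - 1) = K * (((k : ℝ) - 1) * (w - k - 1)) := by
        rw [hK]
        ring
      have h3 : ν * (w * (w - 1) ^ 2) = K * (w - 1) := by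
        rw [← hνw]
        ring
      rw [h3] at hsecond
      calc (w * (w - 1)) * (ν * (((k : ℝ) - 1) * (w - k - 1)))
          = (ν * (w * (w - 1))) * (((k : ℝ) - 1) * (w - k - 1)) := by ring
        _ = K * (((k : ℝ) - 1) * (w - k - 1)) := by rw [hνw]
        _ = K ^ 2 - K * (w - 1) := h2.symm
        _ = p * (w * (w - 1) * ((w - 2) * (w - 3))) := by linarith
        _ = _ := by ring
    exact mul_left_cancel₀ h0.ne' h1
  -- the moments of the cut
  have hY1 : avg Ω (Yf W β) = ν * TT W β := by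
    unfold avg
    rw [hΩ, sum_Yf W β hk hd, hν, ← hΩ, ← hN, ← hn₁]
    ring
  have hY2 : avg Ω (fun S => Yf W β S ^ 2)
      = p * (TT W β ^ 2 - 4 * RR W β + 2 * BB W β) + ν * RR W β := by
    unfold avg
    rw [hΩ, sum_Yf_sq W β hk hs hd P hPg hk', hν, hp, ← hΩ, ← hN, ← hn₁]
    field_simp
  rw [hY1, hY2, hν_eq, mul_pow]
  have hB0 : 0 ≤ BB W β := Finset.sum_nonneg fun _ _ => Finset.sum_nonneg fun _ _ => sq_nonneg _
  have hU0 : 0 ≤ RR W β - TT W β ^ 2 / w := by
    have h1 : (TT W β) ^ 2 ≤ w * RR W β := by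
      have h2 : TT W β = ∑ c ∈ W, rr W β c := rfl
      rw [h2, hw]
      exact sq_sum_le_card_mul_sum_sq
    have hw0 : 0 < w := by linarith
    rw [sub_nonneg, div_le_iff₀ hw0]
    linarith
  refine var_alg hw2' hk1 hk2 hK hνw hp0 hstar ?_ ?_ hB0 rfl hU0 (RR_bound W β hs hd hw2)
  · intro h
    have : W.card < 4 := by
      have h1 : ((W.card : ℕ) : ℝ) < ((4 : ℕ) : ℝ) := by rw [← hw]; exact_mod_cast h
      exact_mod_cast h1
    rw [hp, hPsmall this, zero_div]
  · rcases Nat.lt_or_ge W.card 4 with h | h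
    · have : W.card = 2 ∨ W.card = 3 := by omega
      rcases this with h1 | h1
      · right; left
        rw [hw, h1]; norm_num
      · right; right
        rw [hw, h1]; norm_num
    · left
      rw [hw]
      exact_mod_cast h

/-! ### The bound (J2) -/

variable (Ω : Finset (Finset α))

lemma cov_add (f g h : Finset α → ℝ) : cov Ω f (fun S => g S + h S) = cov Ω f g + cov Ω f h := by
  unfold cov avg
  simp only [mul_add, Finset.sum_add_distrib, add_div]
  ring

lemma cov_const_mul (a : ℝ) (f g : Finset α → ℝ) : cov Ω f (fun S => a * g S) = a * cov Ω f g := by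
  unfold cov avg
  have h1 : ∀ S, f S * (a * g S) = a * (f S * g S) := fun S => by ring
  simp only [h1, ← Finset.mul_sum]
  ring

lemma cov_sum {ι : Type*} [DecidableEq ι] (I : Finset ι) (f : Finset α → ℝ) (a : ι → ℝ)
    (h : ι → Finset α → ℝ) :
    cov Ω f (fun S => ∑ i ∈ I, a i * h i S) = ∑ i ∈ I, a i * cov Ω f (h i) := by
  induction I using Finset.induction_on with
  | empty => simp [cov, avg]
  | insert i I hi ih =>
    simp only [Finset.sum_insert hi]
    rw [cov_add, cov_const_mul, ih]

/-- Cauchy–Schwarz for the covariance. -/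
lemma cov_sq_le (hΩ : Ω.Nonempty) (f g : Finset α → ℝ) :
    cov Ω f g ^ 2 ≤ cov Ω f f * cov Ω g g := by
  have hN : (0 : ℝ) < Ω.card := by exact_mod_cast Finset.card_pos.2 hΩ
  set a := avg Ω f with ha
  set b := avg Ω g with hb
  have hsuma : ∑ S ∈ Ω, f S = a * Ω.card := by
    rw [ha]; unfold avg; field_simp
  have hsumb : ∑ S ∈ Ω, g S = b * Ω.card := by
    rw [hb]; unfold avg; field_simp
  have key : ∀ u v : Finset α → ℝ, ∀ a' b' : ℝ, ∑ S ∈ Ω, u S = a' * Ω.card →
      ∑ S ∈ Ω, v S = b' * Ω.card →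
      cov Ω u v = (∑ S ∈ Ω, (u S - a') * (v S - b')) / Ω.card := by
    intro u v a' b' h1 h2
    unfold cov avg
    have h3 : ∀ S, (u S - a') * (v S - b') = u S * v S - b' * u S - a' * v S + a' * b' := by
      intro S; ring
    simp only [h3, Finset.sum_add_distrib, Finset.sum_sub_distrib, Finset.sum_const, nsmul_eq_mul,
      ← Finset.mul_sum, h1, h2]
    field_simp
    ring
  rw [key f g a b hsuma hsumb, key f f a a hsuma hsuma, key g g b b hsumb hsumb]
  have hCS := Finset.sum_mul_sq_le_sq_mul_sq Ω (fun S => f S - a) (fun S => g S - b)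
  simp only [← sq]
  rw [div_pow, div_mul_div_comm, ← sq]
  exact div_le_div_of_nonneg_right hCS (by positivity)

lemma cov_self_nonneg (hΩ : Ω.Nonempty) (f : Finset α → ℝ) : 0 ≤ cov Ω f f := by
  have hN : (0 : ℝ) < Ω.card := by exact_mod_cast Finset.card_pos.2 hΩ
  unfold cov avg
  have h := sq_sum_le_card_mul_sum_sq (s := Ω) (f := f)
  rw [sub_nonneg, div_mul_div_comm, div_le_div_iff₀ (by positivity) hN]
  simp only [← sq]
  nlinarith

/-- **(J2)**: the covariances with the indicators `ξ_cd`. The factor `1/2` counts unordered pairs. -/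
theorem johnson_J2 {k : ℕ} (hk : 1 ≤ k) (hk' : k + 1 ≤ W.card) (f : Finset α → ℝ) :
    (1 / 2) * ∑ c ∈ W, ∑ d ∈ W, cov (W.powersetCard k) f (xi c d) ^ 2
      ≤ nuJ W.card k * ((W.card : ℝ) - 2) * cov (W.powersetCard k) f f := by
  set Ω := W.powersetCard k with hΩ
  have hΩne : Ω.Nonempty := by
    rw [← Finset.card_pos, hΩ, Finset.card_powersetCard]
    exact Nat.choose_pos (by omega)
  set β : α → α → ℝ := fun c d => cov Ω f (xi c d) with hβ
  have hxi_symm : ∀ c d, xi c d = xi (α := α) d c := by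
    intro c d
    funext S
    unfold xi
    ring
  have hs : ∀ c d, β c d = β d c := fun c d => by simp only [hβ, hxi_symm c d]
  have hd : ∀ c, β c c = 0 := by
    intro c
    have : (xi c c : Finset α → ℝ) = fun S => 0 * xi c c S := by
      funext S
      unfold xi chi
      by_cases h : c ∈ S <;> simp [h]
    simp only [hβ]
    rw [this, cov_const_mul, zero_mul]
  -- the covariance with the cut
  set Y := Yf W β with hY
  have hcovY : cov Ω f Y = (1 / 2) * BB W β := by
    have h1 : Y = fun S => ∑ c ∈ W, β c c * 0 + ∑ c ∈ W, (1 / 2 : ℝ) * ∑ d ∈ W, β c d * xi c d S := by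
      funext S
      have h2 : ∑ c ∈ W, ∑ d ∈ W, β c d * (chi d S * (1 - chi c S))
          = ∑ c ∈ W, ∑ d ∈ W, β c d * (chi c S * (1 - chi d S)) := by
        rw [Finset.sum_comm]
        refine Finset.sum_congr rfl fun c _ => Finset.sum_congr rfl fun d _ => ?_
        rw [hs]
      have h3 : ∑ c ∈ W, (1 / 2 : ℝ) * ∑ d ∈ W, β c d * xi c d S
          = (1 / 2) * (∑ c ∈ W, ∑ d ∈ W, β c d * (chi c S * (1 - chi d S))
            + ∑ c ∈ W, ∑ d ∈ W, β c d * (chi d S * (1 - chi c S))) := by
        rw [← Finset.mul_sum, ← Finset.sum_add_distrib]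
        congr 1
        refine Finset.sum_congr rfl fun c _ => ?_
        rw [← Finset.sum_add_distrib]
        refine Finset.sum_congr rfl fun d _ => ?_
        unfold xi
        ring
      rw [h3, h2]
      simp only [hY, Yf, mul_zero, Finset.sum_const_zero, zero_add]
      ring
    rw [h1]
    simp only [mul_zero, Finset.sum_const_zero, zero_add]
    rw [cov_sum Ω W f (fun _ => (1 / 2 : ℝ)) (fun c S => ∑ d ∈ W, β c d * xi c d S), ← Finset.mul_sum]
    congr 1
    unfold BB
    refine Finset.sum_congr rfl fun c _ => ?_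
    rw [cov_sum Ω W f (fun d => β c d) (fun d => xi c d)]
    refine Finset.sum_congr rfl fun d _ => ?_
    rw [sq]
  have hvar : cov Ω Y Y ≤ nuJ W.card k * ((W.card : ℝ) - 2) * BB W β / 2 := by
    have h := var_cut W β hk hk' hs hd
    have h1 : cov Ω Y Y = avg Ω (fun S => Y S ^ 2) - avg Ω Y ^ 2 := by
      unfold cov
      simp only [sq]
    rw [h1]
    exact h
  have hB0 : 0 ≤ BB W β := Finset.sum_nonneg fun _ _ => Finset.sum_nonneg fun _ _ => sq_nonneg _
  have hV0 := cov_self_nonneg Ω hΩne f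
  have hCS := cov_sq_le Ω hΩne f Y
  rw [hcovY] at hCS
  have hw2 : (2 : ℝ) ≤ W.card := by
    have : 2 ≤ W.card := by omega
    exact_mod_cast this
  have hnu : 0 ≤ nuJ W.card k := by
    unfold nuJ
    have h1 : (k : ℝ) + 1 ≤ W.card := by exact_mod_cast hk'
    have h2 : 0 ≤ (W.card : ℝ) - k := by linarith
    have h3 : 0 ≤ (W.card : ℝ) - 1 := by linarith
    positivity
  have hgoal : (1 / 2) * BB W β ≤ nuJ W.card k * ((W.card : ℝ) - 2) * cov Ω f f := by
    rcases hB0.eq_or_lt with h0 | h0
    · rw [← h0]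
      have h1 : 0 ≤ (W.card : ℝ) - 2 := by linarith
      simp only [mul_zero]
      positivity
    · have h1 : 0 < (1 / 2) * BB W β := by positivity
      have h2 : ((1 / 2) * BB W β) * ((1 / 2) * BB W β)
          ≤ ((1 / 2) * BB W β) * (nuJ W.card k * ((W.card : ℝ) - 2) * cov Ω f f) := by
        calc ((1 / 2) * BB W β) * ((1 / 2) * BB W β) = ((1 / 2) * BB W β) ^ 2 := by ring
          _ ≤ cov Ω f f * cov Ω Y Y := hCS
          _ ≤ cov Ω f f * (nuJ W.card k * ((W.card : ℝ) - 2) * BB W β / 2) :=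
            mul_le_mul_of_nonneg_left hvar hV0
          _ = _ := by ring
      exact le_of_mul_le_mul_left h2 h1
  have e : BB W β = ∑ c ∈ W, ∑ d ∈ W, cov Ω f (xi c d) ^ 2 := rfl
  rw [← e]
  exact hgoal

/-- The constant `ν` as a ratio of binomial coefficients. -/
lemma choose_rel {k : ℕ} (hk : 1 ≤ k) :
    ((W.powersetCard k).card : ℝ) * ((k : ℝ) * ((W.card : ℝ) - k))
      = ((W.card - 2).choose (k - 1) : ℝ) * ((W.card : ℝ) * ((W.card : ℝ) - 1)) := by
  have hone := sum_Yf W (betaOne (α := α)) hk (fun c => by simp [betaOne])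
  rw [Finset.sum_congr rfl (fun S hS => Yf_one W hS), TT_one] at hone
  simpa using hone

lemma sum_xi {c d : α} (hc : c ∈ W) (hd : d ∈ W) (hcd : c ≠ d) {k : ℕ} (hk : 1 ≤ k) :
    ∑ S ∈ W.powersetCard k, xi c d S = 2 * ((W.card - 2).choose (k - 1) : ℝ) := by
  unfold xi
  rw [Finset.sum_add_distrib, sum_chi_one W hc hd hcd hk, sum_chi_one W hd hc hcd.symm hk]
  ring

end Crest.Agent.Lib.SwitchJ2
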