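import Crest.Agent.Lib.SwitchConn

/-!
# The fibres of a vertex pair are Johnson slices (row 299, module C)

For two vertices `a ≠ b`, let `pairX a b` be the set of edges touching exactly one of `a, b`.
Two realizations in the same fibre agree off `pairX a b`.  A fibre is in bijection with the
`k`-subsets of the set `W` of vertices adjacent to exactly one of `a, b`.
-/

set_option autoImplicit false

namespace Crest.Agent.Lib.SwitchPair

open Finset Crest.SwitchChain Crest.Agent.Lib.SwitchConn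

variable {n : ℕ}

/-- The edges touching exactly one of `a`, `b`. -/
def pairX (a b : Fin n) : Finset (Edge n) :=
  univ.filter (fun e => (a ∈ e.1 ∧ b ∉ e.1) ∨ (b ∈ e.1 ∧ a ∉ e.1))

lemma mem_pairX {a b : Fin n} {e : Edge n} :
    e ∈ pairX a b ↔ (a ∈ e.1 ∧ b ∉ e.1) ∨ (b ∈ e.1 ∧ a ∉ e.1) := by
  simp [pairX]

lemma pairX_comm (a b : Fin n) : pairX a b = pairX b a := by
  ext e; simp only [mem_pairX]; tauto

/-- The fibre of `G` for the pair `a, b`. -/
noncomputable def fib (d : Fin n → ℕ) (a b : Fin n) (G : Finset (Edge n)) :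
    Finset (Finset (Edge n)) :=
  (realizations d).filter (fun G' => G' \ pairX a b = G \ pairX a b)

lemma mem_fib {d : Fin n → ℕ} {a b : Fin n} {G G' : Finset (Edge n)} :
    G' ∈ fib d a b G ↔ G' ∈ realizations d ∧ G' \ pairX a b = G \ pairX a b := by
  simp [fib]

lemma mem_iff_of_off {a b : Fin n} {G G' : Finset (Edge n)} (h : G' \ pairX a b = G \ pairX a b)
    {e : Edge n} (he : e ∉ pairX a b) : e ∈ G' ↔ e ∈ G := by
  have : e ∈ G' \ pairX a b ↔ e ∈ G \ pairX a b := by rw [h]
  simpa [he] using this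

lemma deg_of_mem {d : Fin n → ℕ} {G : Finset (Edge n)} (hG : G ∈ realizations d) (v : Fin n) :
    (nbr G v).card = d v := by
  rw [← deg_eq_card_nbr]
  simp only [realizations, mem_filter, mem_univ, true_and] at hG
  exact hG v

/-- Adjacency inside `{a,b}` or avoiding it does not see `pairX`. -/
lemma adj_iff_of_off {a b : Fin n} {G G' : Finset (Edge n)} (h : G' \ pairX a b = G \ pairX a b)
    {u v : Fin n} (huv : ¬ (((u = a ∨ v = a) ∧ ¬ (u = b ∨ v = b)) ∨
      ((u = b ∨ v = b) ∧ ¬ (u = a ∨ v = a)))) : Adj G' u v ↔ Adj G u v := by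
  by_cases hne : u = v
  · subst hne
    exact ⟨fun h => absurd h (not_adj_self _ _), fun h => absurd h (not_adj_self _ _)⟩
  have he : mkE u v hne ∉ pairX a b := by
    rw [mem_pairX]
    simpa [mem_mkE, eq_comm] using huv
  constructor
  · rintro ⟨h', hm⟩
    exact ⟨h', (mem_iff_of_off h he).1 hm⟩
  · rintro ⟨h', hm⟩
    exact ⟨h', (mem_iff_of_off h he).2 hm⟩

/-- The number of elements of a finite set, splitting off two elements. -/
lemma card_split {A : Finset (Fin n)} {a b : Fin n} (hab : a ≠ b) :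
    A.card = (A.filter (fun y => y ≠ a ∧ y ≠ b)).card + (if a ∈ A then 1 else 0)
      + (if b ∈ A then 1 else 0) := by
  have h1 : (A.filter (fun y => y ≠ a ∧ y ≠ b)).card + (A.filter (fun y => ¬ (y ≠ a ∧ y ≠ b))).card
      = A.card := card_filter_add_card_filter_not _
  have h2 : (A.filter (fun y => ¬ (y ≠ a ∧ y ≠ b))).card
      = (if a ∈ A then 1 else 0) + (if b ∈ A then 1 else 0) := by
    by_cases ha : a ∈ A <;> by_cases hb : b ∈ A
    · have : A.filter (fun y => ¬ (y ≠ a ∧ y ≠ b)) = {a, b} := by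
        ext y
        simp only [mem_filter, mem_insert, mem_singleton]
        constructor
        · rintro ⟨_, hy⟩
          by_contra hc
          exact hy (by tauto)
        · rintro (rfl | rfl)
          · exact ⟨ha, by simp⟩
          · exact ⟨hb, by simp⟩
      rw [this, card_pair hab, if_pos ha, if_pos hb]
    · have : A.filter (fun y => ¬ (y ≠ a ∧ y ≠ b)) = {a} := by
        ext y
        simp only [mem_filter, mem_singleton]
        constructor
        · rintro ⟨hyA, hy⟩
          by_contra hc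
          apply hy
          refine ⟨hc, fun hyb => hb (hyb ▸ hyA)⟩
        · rintro rfl
          exact ⟨ha, by simp⟩
      rw [this, if_pos ha, if_neg hb]; simp
    · have : A.filter (fun y => ¬ (y ≠ a ∧ y ≠ b)) = {b} := by
        ext y
        simp only [mem_filter, mem_singleton]
        constructor
        · rintro ⟨hyA, hy⟩
          by_contra hc
          apply hy
          refine ⟨fun hya => ha (hya ▸ hyA), hc⟩
        · rintro rfl
          exact ⟨hb, by simp⟩
      rw [this, if_neg ha, if_pos hb]; simp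
    · have : A.filter (fun y => ¬ (y ≠ a ∧ y ≠ b)) = ∅ := by
        rw [filter_eq_empty_iff]
        intro y hyA hy
        apply hy
        exact ⟨fun hya => ha (hya ▸ hyA), fun hyb => hb (hyb ▸ hyA)⟩
      rw [this, if_neg ha, if_neg hb]; simp
  omega

/-- Column sums are preserved inside a fibre. -/
lemma column_sum {d : Fin n → ℕ} {a b : Fin n} (hab : a ≠ b) {G G' : Finset (Edge n)}
    (hG : G ∈ realizations d) (hG' : G' ∈ fib d a b G) {z : Fin n} (hza : z ≠ a) (hzb : z ≠ b) :
    (if a ∈ nbr G' z then 1 else 0) + (if b ∈ nbr G' z then 1 else 0)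
      = (if a ∈ nbr G z then 1 else 0) + (if b ∈ nbr G z then 1 else 0) := by
  obtain ⟨hm, hoff⟩ := mem_fib.1 hG'
  have h1 := deg_of_mem hm z
  have h2 := deg_of_mem hG z
  rw [card_split hab] at h1 h2
  have h3 : (nbr G' z).filter (fun y => y ≠ a ∧ y ≠ b) = (nbr G z).filter (fun y => y ≠ a ∧ y ≠ b) := by
    ext y
    simp only [mem_filter, mem_nbr]
    constructor
    · rintro ⟨h, hy⟩
      refine ⟨(adj_iff_of_off hoff ?_).1 h, hy⟩
      simp [hza, hzb, hy.1, hy.2]
    · rintro ⟨h, hy⟩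
      refine ⟨(adj_iff_of_off hoff ?_).2 h, hy⟩
      simp [hza, hzb, hy.1, hy.2]
  rw [h3] at h1
  omega

/-- The set of vertices adjacent to exactly one of `a`, `b`. -/
noncomputable def W (G : Finset (Edge n)) (a b : Fin n) : Finset (Fin n) :=
  univ.filter (fun z => z ≠ a ∧ z ≠ b ∧ ¬ (z ∈ nbr G a ↔ z ∈ nbr G b))

lemma mem_W {G : Finset (Edge n)} {a b z : Fin n} :
    z ∈ W G a b ↔ z ≠ a ∧ z ≠ b ∧ ¬ (z ∈ nbr G a ↔ z ∈ nbr G b) := by
  simp [W]

/-- Where the neighbourhood sits: `S` records the neighbours of `a` in `W`. -/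
noncomputable def Sof (W₀ : Finset (Fin n)) (H : Finset (Edge n)) (a : Fin n) : Finset (Fin n) :=
  W₀.filter (fun z => z ∈ nbr H a)

lemma mem_nbr_comm {H : Finset (Edge n)} {u v : Fin n} : u ∈ nbr H v ↔ v ∈ nbr H u := by
  simp only [mem_nbr]; exact adj_comm

/-- Inside a fibre, off `W` adjacency to `a` and `b` does not change, on `W` exactly one holds. -/
lemma adj_of_fib {d : Fin n → ℕ} {a b : Fin n} (hab : a ≠ b) {G G' : Finset (Edge n)}
    (hG : G ∈ realizations d) (hG' : G' ∈ fib d a b G) {z : Fin n} (hza : z ≠ a) (hzb : z ≠ b) :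
    (z ∈ W G a b → (z ∈ nbr G' b ↔ z ∉ nbr G' a)) ∧
    (z ∉ W G a b → ((z ∈ nbr G' a ↔ z ∈ nbr G a) ∧ (z ∈ nbr G' b ↔ z ∈ nbr G b))) := by
  have hc := column_sum hab hG hG' hza hzb
  simp only [mem_nbr_comm (u := a) (v := z), mem_nbr_comm (u := b) (v := z)] at hc
  constructor
  · intro hz
    have hz' := (mem_W.1 hz).2.2
    by_cases h1 : z ∈ nbr G a <;> by_cases h2 : z ∈ nbr G b <;>
      by_cases h3 : z ∈ nbr G' a <;> by_cases h4 : z ∈ nbr G' b <;> simp [h1, h2, h3, h4] at hc hz' ⊢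
  · intro hz
    have hz' : (z ∈ nbr G a ↔ z ∈ nbr G b) := by
      by_contra h
      exact hz (mem_W.2 ⟨hza, hzb, h⟩)
    by_cases h1 : z ∈ nbr G a <;> by_cases h2 : z ∈ nbr G b <;>
      by_cases h3 : z ∈ nbr G' a <;> by_cases h4 : z ∈ nbr G' b <;> simp [h1, h2, h3, h4] at hc hz' ⊢

lemma W_of_fib {d : Fin n → ℕ} {a b : Fin n} (hab : a ≠ b) {G G' : Finset (Edge n)}
    (hG : G ∈ realizations d) (hG' : G' ∈ fib d a b G) : W G' a b = W G a b := by
  ext z
  simp only [mem_W]
  by_cases hza : z = a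
  · simp [hza]
  by_cases hzb : z = b
  · simp [hzb]
  obtain ⟨h1, h2⟩ := adj_of_fib hab hG hG' hza hzb
  by_cases hz : z ∈ W G a b
  · have hz' := (mem_W.1 hz).2.2
    have := h1 hz
    simp only [hza, hzb, not_false_eq_true, ne_eq, true_and, hz', iff_true]
    tauto
  · have hz' : ¬ ¬ (z ∈ nbr G a ↔ z ∈ nbr G b) := by
      intro h
      exact hz (mem_W.2 ⟨hza, hzb, h⟩)
    have := h2 hz
    simp only [hza, hzb, not_false_eq_true, ne_eq, true_and, hz', iff_false]
    tauto

/-- The size of `S` is constant on a fibre. -/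
lemma card_Sof_of_fib {d : Fin n → ℕ} {a b : Fin n} (hab : a ≠ b) {G G' : Finset (Edge n)}
    (hG : G ∈ realizations d) (hG' : G' ∈ fib d a b G) :
    (Sof (W G a b) G' a).card = (Sof (W G a b) G a).card := by
  obtain ⟨hm, hoff⟩ := mem_fib.1 hG'
  have h1 := deg_of_mem hm a
  have h2 := deg_of_mem hG a
  have hsplit : ∀ H : Finset (Edge n), (nbr H a).card
      = (Sof (W G a b) H a).card + ((nbr H a).filter (fun z => z ∉ W G a b)).card := by
    intro H
    have := card_filter_add_card_filter_not (s := nbr H a) (fun z => z ∈ W G a b)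
    rw [← this]
    congr 1
    apply congrArg
    ext z
    simp only [Sof, mem_filter]
    tauto
  have h3 : (nbr G' a).filter (fun z => z ∉ W G a b) = (nbr G a).filter (fun z => z ∉ W G a b) := by
    ext z
    simp only [mem_filter]
    by_cases hz : z ∈ W G a b
    · simp [hz]
    simp only [hz, not_false_eq_true, and_true]
    by_cases hza : z = a
    · subst hza
      simp only [mem_nbr]
      exact ⟨fun h => absurd h (not_adj_self _ _), fun h => absurd h (not_adj_self _ _)⟩
    by_cases hzb : z = b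
    · subst hzb
      simp only [mem_nbr]
      exact adj_iff_of_off hoff (by simp [hab, hab.symm])
    exact ((adj_of_fib hab hG hG' hza hzb).2 hz).1
  have e1 := hsplit G'
  have e2 := hsplit G
  rw [h3] at e1
  omega

/-- The graph with prescribed neighbours `S` of `a` in `W₀`. -/
noncomputable def rebuild (G : Finset (Edge n)) (a b : Fin n) (W₀ S : Finset (Fin n)) :
    Finset (Edge n) := by
  classical exact univ.filter (fun e =>
    (e ∈ G ∧ ∀ z ∈ W₀, ¬ ((a ∈ e.1 ∨ b ∈ e.1) ∧ z ∈ e.1)) ∨ (∃ z ∈ S, a ∈ e.1 ∧ z ∈ e.1) ∨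
      (∃ z ∈ W₀ \ S, b ∈ e.1 ∧ z ∈ e.1))

lemma mem_rebuild {G : Finset (Edge n)} {a b : Fin n} {W₀ S : Finset (Fin n)} {e : Edge n} :
    e ∈ rebuild G a b W₀ S ↔ (e ∈ G ∧ ∀ z ∈ W₀, ¬ ((a ∈ e.1 ∨ b ∈ e.1) ∧ z ∈ e.1)) ∨
      (∃ z ∈ S, a ∈ e.1 ∧ z ∈ e.1) ∨ (∃ z ∈ W₀ \ S, b ∈ e.1 ∧ z ∈ e.1) := by
  classical
  simp [rebuild]

section Rebuild

variable {G : Finset (Edge n)} {a b : Fin n} {W₀ S : Finset (Fin n)}

lemma mem_nbr_rebuild_a (hab : a ≠ b) (haW : a ∉ W₀) (hbW : b ∉ W₀) (hS : S ⊆ W₀) (z : Fin n) :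
    z ∈ nbr (rebuild G a b W₀ S) a ↔ (z ∈ S ∨ (z ∉ W₀ ∧ z ∈ nbr G a)) := by
  rw [mem_nbr, mem_nbr]
  by_cases hz : a = z
  · subst hz
    constructor
    · intro h; exact absurd h (not_adj_self _ _)
    · rintro (h | ⟨_, h⟩)
      · exact absurd (hS h) haW
      · exact absurd h (not_adj_self _ _)
  constructor
  · rintro ⟨h, hm⟩
    rw [mem_rebuild] at hm
    simp only [mem_mkE] at hm
    rcases hm with ⟨h1, h2⟩ | ⟨y, hy, _, h3⟩ | ⟨y, hy, h3, h4⟩
    · refine Or.inr ⟨fun hzW => ?_, ⟨h, h1⟩⟩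
      exact h2 z hzW ⟨by simp, by simp⟩
    · rcases h3 with rfl | rfl
      · exact absurd (hS hy) haW
      · exact Or.inl hy
    · have hy' : y ∈ W₀ := (mem_sdiff.1 hy).1
      rcases h3 with rfl | rfl
      · exact absurd rfl hab
      · rcases h4 with rfl | rfl
        · exact absurd hy' haW
        · exact absurd hy' hbW
  · rintro (h | ⟨h1, h, h2⟩)
    · refine ⟨hz, ?_⟩
      rw [mem_rebuild]
      exact Or.inr (Or.inl ⟨z, h, by simp [mem_mkE]⟩)
    · refine ⟨h, ?_⟩
      rw [mem_rebuild]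
      refine Or.inl ⟨h2, fun y hy => ?_⟩
      simp only [mem_mkE]
      rintro ⟨_, rfl | rfl⟩
      · exact haW hy
      · exact h1 hy

lemma mem_nbr_rebuild_b (hab : a ≠ b) (haW : a ∉ W₀) (hbW : b ∉ W₀) (hS : S ⊆ W₀) (z : Fin n) :
    z ∈ nbr (rebuild G a b W₀ S) b ↔ ((z ∈ W₀ ∧ z ∉ S) ∨ (z ∉ W₀ ∧ z ∈ nbr G b)) := by
  rw [mem_nbr, mem_nbr]
  by_cases hz : b = z
  · subst hz
    constructor
    · intro h; exact absurd h (not_adj_self _ _)
    · rintro (⟨h, _⟩ | ⟨_, h⟩)
      · exact absurd h hbW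
      · exact absurd h (not_adj_self _ _)
  constructor
  · rintro ⟨h, hm⟩
    rw [mem_rebuild] at hm
    simp only [mem_mkE] at hm
    rcases hm with ⟨h1, h2⟩ | ⟨y, hy, h3, h4⟩ | ⟨y, hy, _, h4⟩
    · refine Or.inr ⟨fun hzW => ?_, ⟨h, h1⟩⟩
      exact h2 z hzW ⟨by simp, by simp⟩
    · rcases h3 with rfl | rfl
      · exact absurd rfl hab
      · rcases h4 with rfl | rfl
        · exact absurd (hS hy) hbW
        · exact absurd (hS hy) haW
    · have hy' := mem_sdiff.1 hy
      rcases h4 with rfl | rfl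
      · exact absurd hy'.1 hbW
      · exact Or.inl hy'
  · rintro (⟨h1, h2⟩ | ⟨h1, h, h2⟩)
    · refine ⟨hz, ?_⟩
      rw [mem_rebuild]
      exact Or.inr (Or.inr ⟨z, mem_sdiff.2 ⟨h1, h2⟩, by simp [mem_mkE]⟩)
    · refine ⟨h, ?_⟩
      rw [mem_rebuild]
      refine Or.inl ⟨h2, fun y hy => ?_⟩
      simp only [mem_mkE]
      rintro ⟨_, rfl | rfl⟩
      · exact hbW hy
      · exact h1 hy

lemma mem_nbr_rebuild_off {u v : Fin n}
    (hua : u ≠ a) (hub : u ≠ b) (hva : v ≠ a) (hvb : v ≠ b) :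
    v ∈ nbr (rebuild G a b W₀ S) u ↔ v ∈ nbr G u := by
  rw [mem_nbr, mem_nbr]
  by_cases huv : u = v
  · subst huv
    exact ⟨fun h => absurd h (not_adj_self _ _), fun h => absurd h (not_adj_self _ _)⟩
  have h1 : a ∉ (mkE u v huv).1 := by
    rw [mem_mkE]; rintro (h | h)
    · exact hua h.symm
    · exact hva h.symm
  have h2 : b ∉ (mkE u v huv).1 := by
    rw [mem_mkE]; rintro (h | h)
    · exact hub h.symm
    · exact hvb h.symm
  constructor
  · rintro ⟨h, hm⟩
    rw [mem_rebuild] at hm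
    rcases hm with ⟨h3, _⟩ | ⟨y, _, h3, _⟩ | ⟨y, _, h3, _⟩
    · exact ⟨h, h3⟩
    · exact absurd h3 h1
    · exact absurd h3 h2
  · rintro ⟨h, hm⟩
    refine ⟨h, ?_⟩
    rw [mem_rebuild]
    refine Or.inl ⟨hm, fun y _ => ?_⟩
    rintro ⟨h3 | h3, _⟩
    · exact h1 h3
    · exact h2 h3

lemma Sof_rebuild (hab : a ≠ b) (haW : a ∉ W₀) (hbW : b ∉ W₀) (hS : S ⊆ W₀) :
    Sof W₀ (rebuild G a b W₀ S) a = S := by
  ext z
  simp only [Sof, mem_filter, mem_nbr_rebuild_a hab haW hbW hS]
  constructor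
  · rintro ⟨h1, h | ⟨h, _⟩⟩
    · exact h
    · exact absurd h1 h
  · intro h
    exact ⟨hS h, Or.inl h⟩

end Rebuild

lemma a_not_mem_W (G : Finset (Edge n)) (a b : Fin n) : a ∉ W G a b := by
  rw [mem_W]; simp

lemma b_not_mem_W (G : Finset (Edge n)) (a b : Fin n) : b ∉ W G a b := by
  rw [mem_W]; simp

lemma mkE_mem_iff {H : Finset (Edge n)} {u v : Fin n} (huv : u ≠ v) :
    mkE u v huv ∈ H ↔ v ∈ nbr H u := by
  rw [mem_nbr]
  exact ⟨fun h => ⟨huv, h⟩, fun ⟨_, h⟩ => h⟩

lemma exists_mkE (e : Edge n) : ∃ u v, ∃ huv : u ≠ v, e = mkE u v huv := by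
  obtain ⟨e, he⟩ := e
  induction e using Sym2.ind with
  | _ u v =>
    have huv : u ≠ v := by simpa using he
    exact ⟨u, v, huv, rfl⟩

/-- Off `pairX` the rebuilt graph agrees with `G`. -/
lemma rebuild_off {G : Finset (Edge n)} {a b : Fin n} (hab : a ≠ b) {S : Finset (Fin n)}
    (hS : S ⊆ W G a b) :
    rebuild G a b (W G a b) S \ pairX a b = G \ pairX a b := by
  have haW := a_not_mem_W G a b
  have hbW := b_not_mem_W G a b
  have key : ∀ (u v : Fin n) (huv : u ≠ v), mkE u v huv ∉ pairX a b →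
      (mkE u v huv ∈ rebuild G a b (W G a b) S ↔ mkE u v huv ∈ G) := by
    intro u v huv he
    rw [mkE_mem_iff, mkE_mem_iff]
    simp only [mem_pairX, mem_mkE] at he
    by_cases hua : u = a
    · subst hua
      have hvb : v = b := by
        by_contra hc
        apply he
        left
        simp only [true_or, true_and]
        rintro (h | h)
        · exact hab h.symm
        · exact hc h.symm
      subst hvb
      rw [mem_nbr_rebuild_a hab haW hbW hS]
      constructor
      · rintro (h | ⟨_, h⟩)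
        · exact absurd (hS h) hbW
        · exact h
      · intro h; exact Or.inr ⟨hbW, h⟩
    by_cases hub : u = b
    · subst hub
      have hva : v = a := by
        by_contra hc
        apply he
        right
        simp only [true_or, true_and]
        rintro (h | h)
        · exact hab h
        · exact hc h.symm
      subst hva
      rw [mem_nbr_rebuild_b hab haW hbW hS]
      constructor
      · rintro (⟨h, _⟩ | ⟨_, h⟩)
        · exact absurd h haW
        · exact h
      · intro h; exact Or.inr ⟨haW, h⟩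
    have hva : v ≠ a := by
      rintro rfl
      apply he
      left
      simp only [or_true, true_and]
      rintro (h | h)
      · exact hub h.symm
      · exact hab h.symm
    have hvb : v ≠ b := by
      rintro rfl
      apply he
      right
      simp only [or_true, true_and]
      rintro (h | h)
      · exact hua h.symm
      · exact hab h
    exact mem_nbr_rebuild_off hua hub hva hvb
  ext e
  obtain ⟨u, v, huv, rfl⟩ := exists_mkE e
  simp only [mem_sdiff]
  constructor
  · rintro ⟨h1, h2⟩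
    exact ⟨(key u v huv h2).1 h1, h2⟩
  · rintro ⟨h1, h2⟩
    exact ⟨(key u v huv h2).2 h1, h2⟩

/-- `rebuild` gives a realization when the size of `S` is right. -/
lemma rebuild_mem {d : Fin n → ℕ} {G : Finset (Edge n)} {a b : Fin n} (hab : a ≠ b)
    (hG : G ∈ realizations d) {S : Finset (Fin n)} (hS : S ⊆ W G a b)
    (hk : S.card = (Sof (W G a b) G a).card) : rebuild G a b (W G a b) S ∈ realizations d := by
  have haW := a_not_mem_W G a b
  have hbW := b_not_mem_W G a b
  simp only [realizations, mem_filter, mem_univ, true_and]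
  intro v
  rw [deg_eq_card_nbr, ← deg_of_mem hG v]
  set W₀ := W G a b with hW₀
  by_cases hva : v = a
  · subst hva
    have h1 : nbr (rebuild G v b W₀ S) v = S ∪ (nbr G v).filter (fun z => z ∉ W₀) := by
      ext z
      rw [mem_nbr_rebuild_a hab haW hbW hS, mem_union, mem_filter]
      tauto
    have hd : Disjoint S ((nbr G v).filter (fun z => z ∉ W₀)) := by
      rw [Finset.disjoint_left]
      intro z hz hz'
      exact (mem_filter.1 hz').2 (hS hz)
    rw [h1, card_union_of_disjoint hd, hk]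
    have := card_filter_add_card_filter_not (s := nbr G v) (fun z => z ∈ W₀)
    rw [← this]
    congr 2
    ext z
    simp only [Sof, mem_filter]
    tauto
  by_cases hvb : v = b
  · subst hvb
    have h1 : nbr (rebuild G a v W₀ S) v = (W₀ \ S) ∪ (nbr G v).filter (fun z => z ∉ W₀) := by
      ext z
      rw [mem_nbr_rebuild_b hab haW hbW hS, mem_union, mem_filter, mem_sdiff]
      tauto
    have hd : Disjoint (W₀ \ S) ((nbr G v).filter (fun z => z ∉ W₀)) := by
      rw [Finset.disjoint_left]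
      intro z hz hz'
      exact (mem_filter.1 hz').2 (mem_sdiff.1 hz).1
    have h2 : (nbr G v).filter (fun z => z ∈ W₀) = W₀ \ Sof W₀ G a := by
      ext z
      simp only [Sof, mem_filter, mem_sdiff]
      constructor
      · rintro ⟨h1, h2⟩
        refine ⟨h2, ?_⟩
        rintro ⟨_, h3⟩
        exact (mem_W.1 (hW₀ ▸ h2)).2.2 ⟨fun _ => h1, fun _ => h3⟩
      · rintro ⟨h2, h3⟩
        refine ⟨?_, h2⟩
        by_contra h4
        apply (mem_W.1 (hW₀ ▸ h2)).2.2
        constructor
        · intro h5; exact absurd ⟨h2, h5⟩ h3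
        · intro h5; exact absurd h5 h4
    have hSofsub : Sof W₀ G a ⊆ W₀ := filter_subset _ _
    rw [h1, card_union_of_disjoint hd, card_sdiff_of_subset hS]
    have := card_filter_add_card_filter_not (s := nbr G v) (fun z => z ∈ W₀)
    rw [← this, h2, card_sdiff_of_subset hSofsub, hk]
  -- a vertex off `a, b`
  have hf : (nbr (rebuild G a b W₀ S) v).filter (fun y => y ≠ a ∧ y ≠ b)
      = (nbr G v).filter (fun y => y ≠ a ∧ y ≠ b) := by
    ext y
    simp only [mem_filter]
    constructor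
    · rintro ⟨h, hy⟩
      exact ⟨(mem_nbr_rebuild_off hva hvb hy.1 hy.2).1 h, hy⟩
    · rintro ⟨h, hy⟩
      exact ⟨(mem_nbr_rebuild_off hva hvb hy.1 hy.2).2 h, hy⟩
  rw [card_split hab, card_split (A := nbr G v) hab, hf]
  have e1 : a ∈ nbr (rebuild G a b W₀ S) v ↔ (v ∈ S ∨ (v ∉ W₀ ∧ v ∈ nbr G a)) := by
    rw [mem_nbr_comm, mem_nbr_rebuild_a hab haW hbW hS]
  have e2 : b ∈ nbr (rebuild G a b W₀ S) v ↔ ((v ∈ W₀ ∧ v ∉ S) ∨ (v ∉ W₀ ∧ v ∈ nbr G b)) := by
    rw [mem_nbr_comm, mem_nbr_rebuild_b hab haW hbW hS]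
  have e3 : a ∈ nbr G v ↔ v ∈ nbr G a := mem_nbr_comm
  have e4 : b ∈ nbr G v ↔ v ∈ nbr G b := mem_nbr_comm
  simp only [e1, e2, e3, e4]
  by_cases hv : v ∈ W₀
  · have hv' := (mem_W.1 (hW₀ ▸ hv)).2.2
    by_cases h1 : v ∈ nbr G a <;> by_cases h2 : v ∈ nbr G b <;> by_cases h3 : v ∈ S <;>
      simp [h1, h2, h3, hv] at hv' ⊢
  · by_cases h1 : v ∈ nbr G a <;> by_cases h2 : v ∈ nbr G b <;>
      have h3 : v ∉ S := fun h => hv (hS h)
    all_goals simp [h1, h2, h3, hv]

lemma rebuild_mem_fib {d : Fin n → ℕ} {G : Finset (Edge n)} {a b : Fin n} (hab : a ≠ b)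
    (hG : G ∈ realizations d) {S : Finset (Fin n)} (hS : S ⊆ W G a b)
    (hk : S.card = (Sof (W G a b) G a).card) : rebuild G a b (W G a b) S ∈ fib d a b G :=
  mem_fib.2 ⟨rebuild_mem hab hG hS hk, rebuild_off hab hS⟩

/-- `rebuild` inverts `Sof` on a fibre. -/
lemma rebuild_Sof {d : Fin n → ℕ} {G G' : Finset (Edge n)} {a b : Fin n} (hab : a ≠ b)
    (hG : G ∈ realizations d) (hG' : G' ∈ fib d a b G) :
    rebuild G a b (W G a b) (Sof (W G a b) G' a) = G' := by
  have haW := a_not_mem_W G a b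
  have hbW := b_not_mem_W G a b
  set W₀ := W G a b with hW₀
  have hS : Sof W₀ G' a ⊆ W₀ := filter_subset _ _
  obtain ⟨_, hoff⟩ := mem_fib.1 hG'
  have hA : ∀ z, z ∈ nbr (rebuild G a b W₀ (Sof W₀ G' a)) a ↔ z ∈ nbr G' a := by
    intro z
    rw [mem_nbr_rebuild_a hab haW hbW hS]
    simp only [Sof, mem_filter]
    by_cases hz : z ∈ W₀
    · simp [hz]
    simp only [hz, false_and, false_or, not_false_eq_true, true_and]
    by_cases hza : z = a
    · subst hza
      simp only [mem_nbr]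
      exact ⟨fun h => absurd h (not_adj_self _ _), fun h => absurd h (not_adj_self _ _)⟩
    by_cases hzb : z = b
    · subst hzb
      simp only [mem_nbr]
      exact (adj_iff_of_off hoff (by simp [hab, hab.symm])).symm
    exact ((adj_of_fib hab hG hG' hza hzb).2 hz).1.symm
  have hB : ∀ z, z ∈ nbr (rebuild G a b W₀ (Sof W₀ G' a)) b ↔ z ∈ nbr G' b := by
    intro z
    rw [mem_nbr_rebuild_b hab haW hbW hS]
    simp only [Sof, mem_filter]
    by_cases hz : z ∈ W₀
    · have hza : z ≠ a := fun h => haW (h ▸ hz)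
      have hzb : z ≠ b := fun h => hbW (h ▸ hz)
      have := (adj_of_fib hab hG hG' hza hzb).1 hz
      simp only [hz, true_and, not_true_eq_false, false_and, or_false]
      rw [this]
    simp only [hz, false_and, false_or, not_false_eq_true, true_and]
    by_cases hza : z = a
    · subst hza
      simp only [mem_nbr]
      exact (adj_iff_of_off hoff (by simp [hab, hab.symm])).symm
    by_cases hzb : z = b
    · subst hzb
      simp only [mem_nbr]
      exact ⟨fun h => absurd h (not_adj_self _ _), fun h => absurd h (not_adj_self _ _)⟩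
    exact ((adj_of_fib hab hG hG' hza hzb).2 hz).2.symm
  apply eq_of_nbr_eq
  intro v
  ext y
  by_cases hva : v = a
  · subst hva; exact hA y
  by_cases hvb : v = b
  · subst hvb; exact hB y
  by_cases hya : y = a
  · subst hya
    rw [mem_nbr_comm, hA, mem_nbr_comm]
  by_cases hyb : y = b
  · subst hyb
    rw [mem_nbr_comm, hB, mem_nbr_comm]
  rw [mem_nbr_rebuild_off hva hvb hya hyb]
  simp only [mem_nbr]
  exact (adj_iff_of_off hoff (by simp [hva, hvb, hya, hyb])).symm

/-- Sums over a fibre are sums over a Johnson slice. -/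
theorem sum_fib {d : Fin n → ℕ} {G : Finset (Edge n)} {a b : Fin n} (hab : a ≠ b)
    (hG : G ∈ realizations d) (g : Finset (Edge n) → ℝ) :
    ∑ G' ∈ fib d a b G, g G' = ∑ S ∈ (W G a b).powersetCard (Sof (W G a b) G a).card,
      g (rebuild G a b (W G a b) S) := by
  have haW := a_not_mem_W G a b
  have hbW := b_not_mem_W G a b
  refine Finset.sum_nbij' (fun G' => Sof (W G a b) G' a) (fun S => rebuild G a b (W G a b) S)
    ?_ ?_ ?_ ?_ ?_
  · intro G' hG'
    exact mem_powersetCard.2 ⟨filter_subset _ _, card_Sof_of_fib hab hG hG'⟩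
  · intro S hS
    obtain ⟨h1, h2⟩ := mem_powersetCard.1 hS
    exact rebuild_mem_fib hab hG h1 h2
  · intro G' hG'
    exact rebuild_Sof hab hG hG'
  · intro S hS
    exact Sof_rebuild hab haW hbW (mem_powersetCard.1 hS).1
  · intro G' hG'
    rw [rebuild_Sof hab hG hG']

end Crest.Agent.Lib.SwitchPair
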