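import Crest.Prelude.Def_SwitchChain

/-!
Basic facts about the switch chain kernel of `Crest.SwitchChain`: perfect matchings on a four-set,
symmetry of the kernel, stochasticity, preservation of degrees.
-/

set_option autoImplicit false

open Finset

namespace Crest.Agent.Lib.SwitchKernel

open Crest.SwitchChain

variable {n : ℕ}

/-- The edge `s(a,b)` for `a ≠ b`. -/
def ed (a b : Fin n) (h : a ≠ b) : Edge n := ⟨s(a, b), by simpa using h⟩

@[simp] lemma mem_ed {a b v : Fin n} {h : a ≠ b} : v ∈ (ed a b h).1 ↔ v = a ∨ v = b := by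
  simp [ed]

lemma ed_eq_ed {a b c d : Fin n} {h : a ≠ b} {h' : c ≠ d} :
    ed a b h = ed c d h' ↔ (a = c ∧ b = d) ∨ (a = d ∧ b = c) := by
  simp [ed, Subtype.ext_iff]

/-- Every edge containing `a` is `ed a x _`. -/
lemma exists_ed_of_mem {a : Fin n} {e : Edge n} (h : a ∈ e.1) :
    ∃ x, ∃ hx : a ≠ x, e = ed a x hx := by
  obtain ⟨e', he'⟩ := e
  obtain ⟨x, rfl⟩ := Sym2.mem_iff_exists.mp h |>.imp fun _ h => h
  have : a ≠ x := by simpa using he'
  exact ⟨x, this, rfl⟩

/-- The perfect matching `{ab, cd}`. -/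
def pm (a b c d : Fin n) (hab : a ≠ b) (hcd : c ≠ d) : Finset (Edge n) :=
  {ed a b hab, ed c d hcd}

section pm

variable {a b c d : Fin n}

lemma pm_mem_pmSet (hab : a ≠ b) (hac : a ≠ c) (had : a ≠ d) (hbc : b ≠ c) (hbd : b ≠ d)
    (hcd : c ≠ d) : pm a b c d hab hcd ∈ pmSet ({a, b, c, d} : Finset (Fin n)) := by
  have hne : ed a b hab ≠ ed c d hcd := by
    rw [Ne, ed_eq_ed]
    rintro (⟨h, -⟩ | ⟨h, -⟩)
    · exact hac h
    · exact had h
  rw [pmSet, mem_filter, mem_powersetCard]
  refine ⟨⟨subset_univ _, card_pair hne⟩, ?_, ?_⟩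
  · intro e he v hv
    simp only [pm, mem_insert, mem_singleton] at he
    rcases he with rfl | rfl <;> rw [mem_ed] at hv <;> simp only [mem_insert, mem_singleton] <;>
      tauto
  · intro v hv
    simp only [mem_insert, mem_singleton] at hv
    rw [card_eq_one]
    rcases hv with rfl | rfl | rfl | rfl
    · refine ⟨ed _ _ hab, ?_⟩
      ext e; simp only [pm, mem_filter, mem_insert, mem_singleton]
      constructor
      · rintro ⟨rfl | rfl, h⟩
        · rfl
        · rw [mem_ed] at h; rcases h with h | h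
          · exact absurd h hac
          · exact absurd h had
      · rintro rfl; exact ⟨Or.inl rfl, by simp⟩
    · refine ⟨ed _ _ hab, ?_⟩
      ext e; simp only [pm, mem_filter, mem_insert, mem_singleton]
      constructor
      · rintro ⟨rfl | rfl, h⟩
        · rfl
        · rw [mem_ed] at h; rcases h with h | h
          · exact absurd h hbc
          · exact absurd h hbd
      · rintro rfl; exact ⟨Or.inl rfl, by simp⟩
    · refine ⟨ed _ _ hcd, ?_⟩
      ext e; simp only [pm, mem_filter, mem_insert, mem_singleton]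
      constructor
      · rintro ⟨rfl | rfl, h⟩
        · rw [mem_ed] at h; rcases h with h | h
          · exact absurd h.symm hac
          · exact absurd h.symm hbc
        · rfl
      · rintro rfl; exact ⟨Or.inr rfl, by simp⟩
    · refine ⟨ed _ _ hcd, ?_⟩
      ext e; simp only [pm, mem_filter, mem_insert, mem_singleton]
      constructor
      · rintro ⟨rfl | rfl, h⟩
        · rw [mem_ed] at h; rcases h with h | h
          · exact absurd h.symm had
          · exact absurd h.symm hbd
        · rfl
      · rintro rfl; exact ⟨Or.inr rfl, by simp⟩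

/-- A perfect matching on `{a,b,c,d}` containing the edge `ab` is `{ab,cd}`. -/
lemma eq_pm_of_mem (hab : a ≠ b) (hac : a ≠ c) (had : a ≠ d) (hbc : b ≠ c) (hbd : b ≠ d)
    (hcd : c ≠ d) {F : Finset (Edge n)} (hF : F ∈ pmSet ({a, b, c, d} : Finset (Fin n)))
    (h : ed a b hab ∈ F) : F = pm a b c d hab hcd := by
  rw [pmSet, mem_filter, mem_powersetCard] at hF
  obtain ⟨⟨-, hcard⟩, hsub, hcov⟩ := hF
  -- the edge through `c`
  have hc := hcov c (by simp)
  obtain ⟨e, he⟩ := card_eq_one.mp hc
  have hemem : e ∈ F.filter fun e => c ∈ e.1 := by rw [he]; simp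
  rw [mem_filter] at hemem
  obtain ⟨heF, hce⟩ := hemem
  obtain ⟨y, hy, rfl⟩ := exists_ed_of_mem hce
  have hyS := hsub _ heF y (by simp)
  simp only [mem_insert, mem_singleton] at hyS
  -- the unique edge through `a`, `b`
  have huniq : ∀ v, v = a ∨ v = b → ∀ e₁ ∈ F, v ∈ e₁.1 → e₁ = ed a b hab := by
    intro v hv e₁ he₁ hve₁
    have hv' := hcov v (by rcases hv with rfl | rfl <;> simp)
    obtain ⟨e₀, he₀⟩ := card_eq_one.mp hv'
    have h1 : e₁ ∈ F.filter fun e => v ∈ e.1 := mem_filter.mpr ⟨he₁, hve₁⟩
    have h2 : ed a b hab ∈ F.filter fun e => v ∈ e.1 :=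
      mem_filter.mpr ⟨h, by rw [mem_ed]; exact hv⟩
    rw [he₀, mem_singleton] at h1 h2
    rw [h1, h2]
  have hyd : y = d := by
    rcases hyS with rfl | rfl | rfl | rfl
    · have := huniq y (Or.inl rfl) _ heF (by simp)
      rw [ed_eq_ed] at this
      rcases this with ⟨h1, -⟩ | ⟨h1, -⟩
      · exact absurd h1.symm hac
      · exact absurd h1.symm hbc
    · have := huniq y (Or.inr rfl) _ heF (by simp)
      rw [ed_eq_ed] at this
      rcases this with ⟨h1, -⟩ | ⟨h1, -⟩
      · exact absurd h1.symm hac
      · exact absurd h1.symm hbc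
    · exact absurd rfl hy
    · rfl
  subst hyd
  have hsubset : pm a b c y hab hcd ⊆ F := by
    intro e he
    simp only [pm, mem_insert, mem_singleton] at he
    rcases he with rfl | rfl
    · exact h
    · exact heF
  have hne : ed a b hab ≠ ed c y hcd := by
    rw [Ne, ed_eq_ed]
    rintro (⟨h, -⟩ | ⟨h, -⟩)
    · exact hac h
    · exact had h
  have hcardpm : (pm a b c y hab hcd).card = 2 := card_pair hne
  exact (eq_of_subset_of_card_le hsubset (by rw [hcard, hcardpm])).symm

end pm

/-- A perfect matching of a 4-set `{a,b,c,d}` is one of the three obvious ones. -/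
lemma pmSet_eq {a b c d : Fin n} (hab : a ≠ b) (hac : a ≠ c) (had : a ≠ d) (hbc : b ≠ c)
    (hbd : b ≠ d) (hcd : c ≠ d) :
    pmSet ({a, b, c, d} : Finset (Fin n)) =
      {pm a b c d hab hcd, pm a c b d hac hbd, pm a d b c had hbc} := by
  ext F
  simp only [mem_insert, mem_singleton]
  constructor
  · intro hF
    have hF' := hF
    rw [pmSet, mem_filter] at hF'
    have hcov := hF'.2.2 a (by simp)
    obtain ⟨e, he⟩ := card_eq_one.mp hcov
    have hemem : e ∈ F.filter fun e => a ∈ e.1 := by rw [he]; simp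
    rw [mem_filter] at hemem
    obtain ⟨heF, hae⟩ := hemem
    obtain ⟨x, hx, rfl⟩ := exists_ed_of_mem hae
    have hxS := hF'.2.1 _ heF x (by simp)
    simp only [mem_insert, mem_singleton] at hxS
    rcases hxS with rfl | rfl | rfl | rfl
    · exact absurd rfl hx
    · exact Or.inl (eq_pm_of_mem hab hac had hbc hbd hcd hF heF)
    · refine Or.inr (Or.inl ?_)
      have hS : ({a, x, b, d} : Finset (Fin n)) = {a, b, x, d} := by
        ext v; simp only [mem_insert, mem_singleton]; tauto
      exact eq_pm_of_mem hac hab had hbc.symm hcd hbd (by rw [hS]; exact hF) heF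
    · refine Or.inr (Or.inr ?_)
      have hS : ({a, x, b, c} : Finset (Fin n)) = {a, b, c, x} := by
        ext v; simp only [mem_insert, mem_singleton]; tauto
      exact eq_pm_of_mem had hab hac hbd.symm hcd.symm hbc (by rw [hS]; exact hF) heF
  · rintro (rfl | rfl | rfl)
    · exact pm_mem_pmSet hab hac had hbc hbd hcd
    · have hS : ({a, b, c, d} : Finset (Fin n)) = {a, c, b, d} := by
        ext v; simp only [mem_insert, mem_singleton]; tauto
      rw [hS]; exact pm_mem_pmSet hac hab had hbc.symm hcd hbd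
    · have hS : ({a, b, c, d} : Finset (Fin n)) = {a, d, b, c} := by
        ext v; simp only [mem_insert, mem_singleton]; tauto
      rw [hS]; exact pm_mem_pmSet had hab hac hbd.symm hcd.symm hbc

lemma card_four_eq {S : Finset (Fin n)} (hS : S.card = 4) :
    ∃ a b c d : Fin n, ∃ (_ : a ≠ b) (_ : a ≠ c) (_ : a ≠ d) (_ : b ≠ c) (_ : b ≠ d) (_ : c ≠ d),
      S = {a, b, c, d} := by
  obtain ⟨a, S₁, ha, rfl, h₁⟩ := card_eq_succ.mp hS
  obtain ⟨b, S₂, hb, rfl, h₂⟩ := card_eq_succ.mp h₁
  obtain ⟨c, d, hcd, rfl⟩ := card_eq_two.mp h₂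
  simp only [mem_insert, mem_singleton, not_or] at ha hb
  exact ⟨a, b, c, d, ha.1, ha.2.1, ha.2.2, hb.1, hb.2, hcd, rfl⟩

/-- There are exactly three perfect matchings of a four-set. -/
lemma card_pmSet {S : Finset (Fin n)} (hS : S.card = 4) : (pmSet S).card = 3 := by
  obtain ⟨a, b, c, d, hab, hac, had, hbc, hbd, hcd, rfl⟩ := card_four_eq hS
  rw [pmSet_eq hab hac had hbc hbd hcd]
  have h12 : pm a b c d hab hcd ≠ pm a c b d hac hbd := by
    intro h
    have : ed a b hab ∈ pm a c b d hac hbd := by rw [← h]; simp [pm]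
    simp only [pm, mem_insert, mem_singleton, ed_eq_ed] at this
    rcases this with (⟨-, h⟩ | ⟨h, -⟩) | (⟨h, -⟩ | ⟨h, -⟩)
    · exact hbc h
    · exact hac h
    · exact hab h
    · exact had h
  have h13 : pm a b c d hab hcd ≠ pm a d b c had hbc := by
    intro h
    have : ed a b hab ∈ pm a d b c had hbc := by rw [← h]; simp [pm]
    simp only [pm, mem_insert, mem_singleton, ed_eq_ed] at this
    rcases this with (⟨-, h⟩ | ⟨h, -⟩) | (⟨h, -⟩ | ⟨h, -⟩)
    · exact hbd h
    · exact had h
    · exact hab h
    · exact hac h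
  have h23 : pm a c b d hac hbd ≠ pm a d b c had hbc := by
    intro h
    have : ed a c hac ∈ pm a d b c had hbc := by rw [← h]; simp [pm]
    simp only [pm, mem_insert, mem_singleton, ed_eq_ed] at this
    rcases this with (⟨-, h⟩ | ⟨h, -⟩) | (⟨h, -⟩ | ⟨h, -⟩)
    · exact hcd h
    · exact had h
    · exact hab h
    · exact hac h
  rw [card_eq_three]
  exact ⟨_, _, _, h12, h13, h23, rfl⟩


/-- Two members of `pmSet S` (`|S| = 4`) sharing an edge are equal. -/
lemma eq_of_common_edge {S : Finset (Fin n)} (hS : S.card = 4) {F F' : Finset (Edge n)}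
    (hF : F ∈ pmSet S) (hF' : F' ∈ pmSet S) {e : Edge n} (he : e ∈ F) (he' : e ∈ F') : F = F' := by
  obtain ⟨a, b, c, d, hab, hac, had, hbc, hbd, hcd, rfl⟩ := card_four_eq hS
  rw [pmSet_eq hab hac had hbc hbd hcd] at hF hF'
  simp only [mem_insert, mem_singleton] at hF hF'
  rcases hF with rfl | rfl | rfl <;> rcases hF' with rfl | rfl | rfl <;> first
    | rfl
    | (exfalso
       simp only [pm, mem_insert, mem_singleton] at he he'
       rcases he with rfl | rfl <;> rcases he' with h | h <;>
         (rw [ed_eq_ed] at h; rcases h with ⟨h1, h2⟩ | ⟨h1, h2⟩ <;> simp_all))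

lemma disjoint_of_ne {S : Finset (Fin n)} (hS : S.card = 4) {F F' : Finset (Edge n)}
    (hF : F ∈ pmSet S) (hF' : F' ∈ pmSet S) (hne : F ≠ F') : Disjoint F F' := by
  rw [Finset.disjoint_left]
  intro e he he'
  exact hne (eq_of_common_edge hS hF hF' he he')

/-- Endpoints of edges of a perfect matching lie in `S`. -/
lemma mem_of_mem_pmSet {S : Finset (Fin n)} {F : Finset (Edge n)} (hF : F ∈ pmSet S)
    {e : Edge n} (he : e ∈ F) {v : Fin n} (hv : v ∈ e.1) : v ∈ S := by
  rw [pmSet, mem_filter] at hF
  exact hF.2.1 e he v hv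

lemma card_filter_pm {S : Finset (Fin n)} {F : Finset (Edge n)} (hF : F ∈ pmSet S) (v : Fin n) :
    (F.filter fun e => v ∈ e.1).card = if v ∈ S then 1 else 0 := by
  split_ifs with hv
  · rw [pmSet, mem_filter] at hF
    exact hF.2.2 v hv
  · rw [card_eq_zero, filter_eq_empty_iff]
    intro e he hve
    exact hv (mem_of_mem_pmSet hF he hve)

/-- A switch does not change degrees. -/
lemma deg_switchResult {S : Finset (Fin n)} (hS : S.card = 4) {F F' : Finset (Edge n)}
    (hF : F ∈ pmSet S) (hF' : F' ∈ pmSet S) (hne : F ≠ F') (E : Finset (Edge n)) (v : Fin n) :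
    deg (switchResult E F F') v = deg E v := by
  unfold switchResult
  split_ifs with h
  · obtain ⟨hsub, hdisj⟩ := h
    have hd : Disjoint (E \ F) F' := by
      rw [Finset.disjoint_left]
      intro e he he'
      exact (Finset.disjoint_left.mp hdisj he') (mem_sdiff.mp he).1
    unfold deg
    rw [filter_union, card_union_of_disjoint (disjoint_filter_filter hd), card_filter_pm hF']
    have h1 : ((E \ F).filter fun e => v ∈ e.1) ∪ (F.filter fun e => v ∈ e.1)
        = E.filter fun e => v ∈ e.1 := by
      rw [← filter_union, sdiff_union_of_subset hsub]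
    have h2 : Disjoint ((E \ F).filter fun e => v ∈ e.1) (F.filter fun e => v ∈ e.1) :=
      disjoint_filter_filter sdiff_disjoint
    have h3 := card_union_of_disjoint h2
    rw [h1, card_filter_pm hF] at h3
    omega
  · rfl


/-- Outcome is a realization if the start is. -/
lemma mem_realizations_of_proposalCount_ne_zero {d : Fin n → ℕ} {E E' : Finset (Edge n)}
    (hE : E ∈ realizations d) (h : proposalCount E E' ≠ 0) : E' ∈ realizations d := by
  unfold proposalCount at h
  obtain ⟨S, hS, h⟩ := exists_ne_zero_of_sum_ne_zero h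
  obtain ⟨F, hF, h⟩ := exists_ne_zero_of_sum_ne_zero h
  obtain ⟨F', hF', h⟩ := exists_ne_zero_of_sum_ne_zero h
  have hE' : switchResult E F F' = E' := by
    by_contra hc; simp [hc] at h
  rw [mem_powersetCard] at hS
  rw [mem_erase] at hF'
  rw [realizations, mem_filter] at hE ⊢
  refine ⟨mem_univ _, fun v => ?_⟩
  rw [← hE', deg_switchResult hS.2 hF hF'.2 (Ne.symm hF'.1)]
  exact hE.2 v

/-- The proposals from `E` to `E'` and from `E'` to `E` are in bijection. -/
lemma switchResult_reverse {S : Finset (Fin n)} (hS : S.card = 4) {F F' : Finset (Edge n)}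
    (hF : F ∈ pmSet S) (hF' : F' ∈ pmSet S) (hne : F ≠ F') {E E' : Finset (Edge n)} (hEE : E ≠ E') :
    (switchResult E F F' = E') ↔ (switchResult E' F' F = E) := by
  have hdFF := disjoint_of_ne hS hF hF' hne
  have key : ∀ {E E' F F' : Finset (Edge n)}, Disjoint F F' → E ≠ E' → switchResult E F F' = E' →
      switchResult E' F' F = E := by
    intro E E' F F' hdFF hEE h
    unfold switchResult at h
    split_ifs at h with hc
    · obtain ⟨hsub, hdisj⟩ := hc
      subst h
      unfold switchResult
      have h1 : F' ⊆ E \ F ∪ F' := subset_union_right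
      have h2 : Disjoint F (E \ F ∪ F') := by
        rw [disjoint_union_right]
        exact ⟨disjoint_sdiff, hdFF⟩
      rw [if_pos ⟨h1, h2⟩]
      ext e
      simp only [mem_union, mem_sdiff]
      constructor
      · rintro (⟨h | h, h'⟩ | h)
        · exact h.1
        · exact absurd h h'
        · exact hsub h
      · intro he
        by_cases hF : e ∈ F
        · exact Or.inr hF
        · refine Or.inl ⟨Or.inl ⟨he, hF⟩, ?_⟩
          intro hF'
          exact (Finset.disjoint_left.mp hdisj hF') he
    · exact absurd h hEE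
  exact ⟨key hdFF hEE, key hdFF.symm hEE.symm⟩

lemma proposalCount_symm (E E' : Finset (Edge n)) : proposalCount E E' = proposalCount E' E := by
  by_cases hEE : E = E'
  · rw [hEE]
  unfold proposalCount
  refine sum_congr rfl fun S hS => ?_
  rw [mem_powersetCard] at hS
  -- rewrite both sides as sums over ordered pairs
  have h1 : ∀ E₁ E₂ : Finset (Edge n), (∑ F ∈ pmSet S, ∑ F' ∈ (pmSet S).erase F,
      if switchResult E₁ F F' = E₂ then 1 else 0) =
      ∑ F ∈ pmSet S, ∑ F' ∈ pmSet S, if F' ≠ F ∧ switchResult E₁ F F' = E₂ then 1 else 0 := by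
    intro E₁ E₂
    refine sum_congr rfl fun F _ => ?_
    rw [← Finset.filter_ne' (pmSet S) F, sum_filter]
    refine sum_congr rfl fun F' _ => ?_
    by_cases h : F' ≠ F <;> simp [h]
  rw [h1, h1, sum_comm]
  refine sum_congr rfl fun F hF => sum_congr rfl fun F' hF' => ?_
  by_cases hne : F = F'
  · subst hne; simp
  · have := switchResult_reverse hS.2 hF' hF (Ne.symm hne) hEE
    by_cases hc : switchResult E F' F = E'
    · have hc' := this.mp hc
      simp [hne, Ne.symm hne, hc, hc']
    · have hc' : ¬ switchResult E' F F' = E := fun h => hc (this.mpr h)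
      simp [hc, hc']

lemma sum_proposalCount (hn : True) (E : Finset (Edge n)) :
    ∑ E', proposalCount E E' = 6 * n.choose 4 := by
  unfold proposalCount
  rw [sum_comm]
  have : ∀ S ∈ (univ : Finset (Fin n)).powersetCard 4, (∑ E' : Finset (Edge n),
      ∑ F ∈ pmSet S, ∑ F' ∈ (pmSet S).erase F, if switchResult E F F' = E' then 1 else 0) = 6 := by
    intro S hS
    rw [mem_powersetCard] at hS
    rw [sum_comm]
    have : ∀ F ∈ pmSet S, (∑ E' : Finset (Edge n), ∑ F' ∈ (pmSet S).erase F,
        if switchResult E F F' = E' then 1 else 0) = 2 := by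
      intro F hF
      rw [sum_comm]
      have : ∀ F' ∈ (pmSet S).erase F, (∑ E' : Finset (Edge n),
          if switchResult E F F' = E' then 1 else 0) = 1 := by
        intro F' _
        rw [sum_ite_eq]; simp
      rw [sum_congr rfl this, sum_const, card_erase_of_mem hF, card_pmSet hS.2]
      simp
    rw [sum_congr rfl this, sum_const, card_pmSet hS.2]
    simp
  rw [sum_congr rfl this, sum_const, card_powersetCard]
  simp [mul_comm]

lemma kernel_symm (E E' : Finset (Edge n)) : kernel n E E' = kernel n E' E := by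
  unfold kernel
  rw [proposalCount_symm E E']
  by_cases h : E = E'
  · rw [h]
  · rw [if_neg h, if_neg (Ne.symm h)]

lemma kernel_nonneg (E E' : Finset (Edge n)) : 0 ≤ kernel n E E' := by
  unfold kernel
  have : (0 : ℝ) ≤ (proposalCount E E' : ℝ) / (12 * (n.choose 4 : ℝ)) := by positivity
  split_ifs <;> linarith

lemma half_le_kernel_self (E : Finset (Edge n)) : 1 / 2 ≤ kernel n E E := by
  unfold kernel
  have : (0 : ℝ) ≤ (proposalCount E E : ℝ) / (12 * (n.choose 4 : ℝ)) := by positivity
  simp only [if_true]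
  linarith

lemma kernel_of_ne {E E' : Finset (Edge n)} (h : E ≠ E') :
    kernel n E E' = (proposalCount E E' : ℝ) / (12 * (n.choose 4 : ℝ)) := by
  simp [kernel, h]

lemma choose_pos_of_le {n : ℕ} (hn : 4 ≤ n) : (0 : ℝ) < n.choose 4 := by
  exact_mod_cast Nat.choose_pos hn

lemma sum_kernel (hn : 4 ≤ n) (E : Finset (Edge n)) : ∑ E', kernel n E E' = 1 := by
  unfold kernel
  rw [sum_add_distrib, sum_ite_eq]
  simp only [mem_univ, if_true]
  rw [← sum_div, ← Nat.cast_sum, sum_proposalCount trivial E]
  have := choose_pos_of_le hn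
  push_cast
  field_simp
  norm_num

lemma kernel_eq_zero_of_mem_of_not_mem {d : Fin n → ℕ} {E E' : Finset (Edge n)}
    (hE : E ∈ realizations d) (hE' : E' ∉ realizations d) : kernel n E E' = 0 := by
  have hne : E ≠ E' := fun h => hE' (h ▸ hE)
  rw [kernel_of_ne hne]
  have : proposalCount E E' = 0 := by
    by_contra h
    exact hE' (mem_realizations_of_proposalCount_ne_zero hE h)
  simp [this]

end Crest.Agent.Lib.SwitchKernel
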