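import Crest.Prelude.Def_SwitchChain

set_option autoImplicit false
open Finset

namespace Crest.Agent.Lib.SwitchMix
open Crest.SwitchChain

variable {n : ℕ}

/-! ### Basic facts on `switchResult` -/

lemma switchResult_eq_iff_of_ne {E E' F F' : Finset (Edge n)} (h : E ≠ E') :
    switchResult E F F' = E' ↔ (F ⊆ E ∧ Disjoint F' E ∧ E \ F ∪ F' = E') := by
  unfold switchResult
  split_ifs with hc
  · constructor
    · intro h'; exact ⟨hc.1, hc.2, h'⟩
    · intro h'; exact h'.2.2
  · constructor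
    · intro h'; exact absurd h' h
    · intro h'; exact absurd ⟨h'.1, h'.2.1⟩ hc

lemma switchResult_symm {E E' F F' : Finset (Edge n)} (h : E ≠ E')
    (hr : switchResult E F F' = E') : switchResult E' F' F = E := by
  rw [switchResult_eq_iff_of_ne h] at hr
  obtain ⟨h1, h2, rfl⟩ := hr
  rw [switchResult_eq_iff_of_ne h.symm]
  refine ⟨subset_union_right, ?_, ?_⟩
  · rw [Finset.disjoint_left]
    intro e heF he
    rw [mem_union, mem_sdiff] at he
    rcases he with he | he
    · exact he.2 heF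
    · exact (Finset.disjoint_left.mp h2 he) (h1 heF)
  · ext e
    simp only [mem_union, mem_sdiff]
    constructor
    · rintro (⟨he | he, hn⟩ | he)
      · exact he.1
      · exact absurd he hn
      · exact h1 he
    · intro he
      by_cases hF : e ∈ F
      · exact Or.inr hF
      · refine Or.inl ⟨Or.inl ⟨he, hF⟩, ?_⟩
        intro hF'
        exact (Finset.disjoint_left.mp h2 hF') he

lemma proposalCount_symm {E E' : Finset (Edge n)} (h : E ≠ E') :
    proposalCount E E' = proposalCount E' E := by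
  unfold proposalCount
  refine Finset.sum_congr rfl fun S _ => ?_
  have : ∑ F ∈ pmSet S, ∑ F' ∈ (pmSet S).erase F, (if switchResult E F F' = E' then 1 else 0)
      = ∑ F' ∈ pmSet S, ∑ F ∈ (pmSet S).erase F', (if switchResult E F F' = E' then 1 else 0) := by
    apply Finset.sum_comm'
    intro x y
    simp only [mem_erase]
    constructor
    · rintro ⟨hx, hy, hne⟩; exact ⟨⟨fun h' => hy (h' ▸ rfl), hx⟩, hne⟩
    · rintro ⟨⟨hne, hx⟩, hy⟩; exact ⟨hx, fun h' => hne (h' ▸ rfl), hy⟩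
  rw [this]
  refine Finset.sum_congr rfl fun F _ => Finset.sum_congr rfl fun F' _ => ?_
  have hiff : switchResult E F' F = E' ↔ switchResult E' F F' = E :=
    ⟨switchResult_symm h, switchResult_symm h.symm⟩
  simp only [hiff]

theorem kernel_symm (E E' : Finset (Edge n)) : kernel n E E' = kernel n E' E := by
  unfold kernel
  by_cases h : E = E'
  · rw [h]
  · rw [proposalCount_symm h, if_neg h, if_neg (Ne.symm h)]


/-! ### Degrees -/

lemma card_filter_pm_eq {S : Finset (Fin n)} {F F' : Finset (Edge n)}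
    (hF : F ∈ pmSet S) (hF' : F' ∈ pmSet S) (v : Fin n) :
    (F.filter fun e => v ∈ e.1).card = (F'.filter fun e => v ∈ e.1).card := by
  unfold pmSet at hF hF'
  rw [mem_filter] at hF hF'
  by_cases hv : v ∈ S
  · rw [hF.2.2 v hv, hF'.2.2 v hv]
  · have h0 : ∀ G : Finset (Edge n), (∀ e ∈ G, ∀ v : Fin n, v ∈ e.1 → v ∈ S) →
        (G.filter fun e => v ∈ e.1).card = 0 := by
      intro G hG
      rw [card_eq_zero, filter_eq_empty_iff]
      intro e he hve
      exact hv (hG e he v hve)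
    rw [h0 F hF.2.1, h0 F' hF'.2.1]

lemma deg_switchResult {S : Finset (Fin n)} {E F F' : Finset (Edge n)}
    (hF : F ∈ pmSet S) (hF' : F' ∈ pmSet S) (v : Fin n) :
    deg (switchResult E F F') v = deg E v := by
  unfold switchResult
  split_ifs with hc
  · unfold deg
    have hd : Disjoint (E \ F) F' := by
      rw [Finset.disjoint_left]
      intro e he heF'
      exact (Finset.disjoint_left.mp hc.2 heF') (mem_sdiff.mp he).1
    have h1 : ((E \ F ∪ F').filter fun e => v ∈ e.1).card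
        = ((E \ F).filter fun e => v ∈ e.1).card + (F'.filter fun e => v ∈ e.1).card := by
      rw [filter_union, card_union_of_disjoint (disjoint_filter_filter hd)]
    have h2 : (E.filter fun e => v ∈ e.1).card
        = ((E \ F).filter fun e => v ∈ e.1).card + (F.filter fun e => v ∈ e.1).card := by
      have : E = (E \ F) ∪ F := (sdiff_union_of_subset hc.1).symm
      conv_lhs => rw [this]
      rw [filter_union, card_union_of_disjoint (disjoint_filter_filter sdiff_disjoint)]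
    rw [h1, h2, card_filter_pm_eq hF hF' v]
  · rfl

lemma proposalCount_eq_zero_of_mem_not_mem {d : Fin n → ℕ} {E E' : Finset (Edge n)}
    (hE : E ∈ realizations d) (hE' : E' ∉ realizations d) : proposalCount E E' = 0 := by
  unfold proposalCount
  refine Finset.sum_eq_zero fun S _ => Finset.sum_eq_zero fun F hF =>
    Finset.sum_eq_zero fun F' hF' => ?_
  rw [if_neg]
  intro h
  apply hE'
  rw [← h]
  unfold realizations at hE ⊢
  rw [mem_filter] at hE ⊢
  refine ⟨mem_univ _, fun v => ?_⟩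
  rw [deg_switchResult hF (mem_of_mem_erase hF') v]
  exact hE.2 v

theorem kernel_eq_zero_of_mem_not_mem {d : Fin n → ℕ} {E E' : Finset (Edge n)}
    (hE : E ∈ realizations d) (hE' : E' ∉ realizations d) : kernel n E E' = 0 := by
  unfold kernel
  have hne : E ≠ E' := fun h => hE' (h ▸ hE)
  rw [proposalCount_eq_zero_of_mem_not_mem hE hE', if_neg hne]
  simp

/-! ### Counting perfect matchings -/

/-- The edge on two distinct vertices. -/
def ed {a b : Fin n} (h : a ≠ b) : Edge n := ⟨s(a, b), by simpa using h⟩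

lemma mem_ed {a b v : Fin n} (h : a ≠ b) : v ∈ (ed h).1 ↔ v = a ∨ v = b := by
  simp [ed]

lemma ed_eq_iff {a b c d : Fin n} (h : a ≠ b) (h' : c ≠ d) :
    ed h = ed h' ↔ (a = c ∧ b = d) ∨ (a = d ∧ b = c) := by
  simp [ed, Subtype.ext_iff]

/-- Any edge is `ed` of something. -/
lemma exists_ed (e : Edge n) : ∃ (a b : Fin n) (h : a ≠ b), e = ed h := by
  obtain ⟨e, he⟩ := e
  induction e using Sym2.ind with
  | _ a b =>
    have hab : a ≠ b := by simpa using he
    exact ⟨a, b, hab, by simp [ed]⟩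

lemma pm_mem {a b c d : Fin n} (hab : a ≠ b) (hac : a ≠ c) (had : a ≠ d) (hbc : b ≠ c)
    (hbd : b ≠ d) (hcd : c ≠ d) {S : Finset (Fin n)} (hS : S = {a, b, c, d}) :
    ({ed hab, ed hcd} : Finset (Edge n)) ∈ pmSet S := by
  subst hS
  have hne : ed hab ≠ ed hcd := by
    rw [Ne, ed_eq_iff]
    rintro (⟨h, _⟩ | ⟨h, _⟩)
    · exact hac h
    · exact had h
  unfold pmSet
  rw [mem_filter, mem_powersetCard]
  refine ⟨⟨subset_univ _, card_pair hne⟩, ?_, ?_⟩
  · intro e he v hv
    rw [mem_insert, mem_singleton] at he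
    rcases he with rfl | rfl
    · rw [mem_ed] at hv; simp only [mem_insert, mem_singleton]; tauto
    · rw [mem_ed] at hv; simp only [mem_insert, mem_singleton]; tauto
  · intro v hv
    simp only [mem_insert, mem_singleton] at hv
    rw [filter_insert, filter_singleton]
    rcases hv with rfl | rfl | rfl | rfl
    · rw [if_pos ((mem_ed hab).2 (Or.inl rfl)), if_neg (by rw [mem_ed]; tauto)]; simp
    · rw [if_pos ((mem_ed hab).2 (Or.inr rfl)), if_neg (by rw [mem_ed]; tauto)]; simp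
    · rw [if_neg (by rw [mem_ed]; intro h; rcases h with h | h; exact hac h.symm; exact hbc h.symm),
        if_pos ((mem_ed hcd).2 (Or.inl rfl))]; simp
    · rw [if_neg (by rw [mem_ed]; intro h; rcases h with h | h; exact had h.symm; exact hbd h.symm),
        if_pos ((mem_ed hcd).2 (Or.inr rfl))]; simp

lemma card_pmSet {S : Finset (Fin n)} (hS : S.card = 4) : (pmSet S).card = 3 := by
  -- names of the four vertices
  obtain ⟨a, S₁, ha, rfl, h1⟩ := Finset.card_eq_succ.mp hS
  obtain ⟨b, c, d, hbc, hbd, hcd, rfl⟩ := Finset.card_eq_three.mp h1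
  simp only [mem_insert, mem_singleton, not_or] at ha
  have hab : a ≠ b := ha.1
  have hac : a ≠ c := ha.2.1
  have had : a ≠ d := ha.2.2
  set S : Finset (Fin n) := insert a {b, c, d} with hSdef
  have hS1 : S = {a, b, c, d} := rfl
  have hS2 : S = {a, c, b, d} := by
    ext x; simp only [hSdef, mem_insert, mem_singleton]; tauto
  have hS3 : S = {a, d, b, c} := by
    ext x; simp only [hSdef, mem_insert, mem_singleton]; tauto
  have m1 := pm_mem hab hac had hbc hbd hcd hS1
  have m2 := pm_mem hac hab had (Ne.symm hbc) hcd hbd hS2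
  have m3 := pm_mem had hab hac (Ne.symm hbd) (Ne.symm hcd) hbc hS3
  have hne12 : ({ed hab, ed hcd} : Finset (Edge n)) ≠ {ed hac, ed hbd} := by
    intro h
    have : ed hab ∈ ({ed hac, ed hbd} : Finset (Edge n)) := h ▸ (by simp)
    rw [mem_insert, mem_singleton, ed_eq_iff, ed_eq_iff] at this
    rcases this with (⟨_, h⟩ | ⟨h, _⟩) | (⟨h, _⟩ | ⟨h, _⟩)
    · exact hbc h
    · exact hac h
    · exact hab h
    · exact had h
  have hne13 : ({ed hab, ed hcd} : Finset (Edge n)) ≠ {ed had, ed hbc} := by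
    intro h
    have : ed hab ∈ ({ed had, ed hbc} : Finset (Edge n)) := h ▸ (by simp)
    rw [mem_insert, mem_singleton, ed_eq_iff, ed_eq_iff] at this
    rcases this with (⟨_, h⟩ | ⟨h, _⟩) | (⟨h, _⟩ | ⟨h, _⟩)
    · exact hbd h
    · exact had h
    · exact hab h
    · exact hac h
  have hne23 : ({ed hac, ed hbd} : Finset (Edge n)) ≠ {ed had, ed hbc} := by
    intro h
    have : ed hac ∈ ({ed had, ed hbc} : Finset (Edge n)) := h ▸ (by simp)
    rw [mem_insert, mem_singleton, ed_eq_iff, ed_eq_iff] at this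
    rcases this with (⟨_, h⟩ | ⟨h, _⟩) | (⟨h, _⟩ | ⟨h, _⟩)
    · exact hcd h
    · exact had h
    · exact hab h
    · exact hac h
  rw [card_eq_three]
  refine ⟨_, _, _, hne12, hne13, hne23, ?_⟩
  ext F
  simp only [mem_insert, mem_singleton]
  constructor
  swap
  · rintro (rfl | rfl | rfl)
    · exact m1
    · exact m2
    · exact m3
  intro hF
  unfold pmSet at hF
  rw [mem_filter, mem_powersetCard] at hF
  obtain ⟨⟨_, hF2⟩, hFS, hFc⟩ := hF
  obtain ⟨e₁, e₂, hne, rfl⟩ := card_eq_two.mp hF2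
  obtain ⟨x₁, y₁, hxy₁, rfl⟩ := exists_ed e₁
  obtain ⟨x₂, y₂, hxy₂, rfl⟩ := exists_ed e₂
  have inS : ∀ v, v ∈ S ↔ (v = a ∨ v = b ∨ v = c ∨ v = d) := by
    intro v; simp only [hSdef, mem_insert, mem_singleton]
  have hx₁ := (inS _).1 (hFS (ed hxy₁) (by simp) x₁ ((mem_ed hxy₁).2 (Or.inl rfl)))
  have hy₁ := (inS _).1 (hFS (ed hxy₁) (by simp) y₁ ((mem_ed hxy₁).2 (Or.inr rfl)))
  have hx₂ := (inS _).1 (hFS (ed hxy₂) (by simp) x₂ ((mem_ed hxy₂).2 (Or.inl rfl)))
  have hy₂ := (inS _).1 (hFS (ed hxy₂) (by simp) y₂ ((mem_ed hxy₂).2 (Or.inr rfl)))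
  -- the two edges are vertex disjoint and cover S
  have hcover : ∀ v, (v = a ∨ v = b ∨ v = c ∨ v = d) →
      ((v = x₁ ∨ v = y₁) ∧ ¬ (v = x₂ ∨ v = y₂)) ∨ (¬ (v = x₁ ∨ v = y₁) ∧ (v = x₂ ∨ v = y₂)) := by
    intro v hv
    have := hFc v ((inS v).2 hv)
    rw [filter_insert, filter_singleton] at this
    simp only [mem_ed] at this
    by_cases h1 : v = x₁ ∨ v = y₁ <;> by_cases h2 : v = x₂ ∨ v = y₂
    · rw [if_pos h1, if_pos h2, card_pair hne] at this; omega
    · exact Or.inl ⟨h1, h2⟩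
    · exact Or.inr ⟨h1, h2⟩
    · rw [if_neg h1, if_neg h2] at this; simp at this
  have ca := hcover a (Or.inl rfl)
  have cb := hcover b (Or.inr (Or.inl rfl))
  have cc := hcover c (Or.inr (Or.inr (Or.inl rfl)))
  have cd := hcover d (Or.inr (Or.inr (Or.inr rfl)))
  -- identify the edges
  have key : ∀ {p q r s : Fin n} (hpq : p ≠ q) (hrs : r ≠ s),
      ((x₁ = p ∧ y₁ = q) ∨ (x₁ = q ∧ y₁ = p)) → ((x₂ = r ∧ y₂ = s) ∨ (x₂ = s ∧ y₂ = r)) →
      ({ed hxy₁, ed hxy₂} : Finset (Edge n)) = {ed hpq, ed hrs} := by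
    intro p q r s hpq hrs h1 h2
    have e1 : ed hxy₁ = ed hpq := by rw [ed_eq_iff]; exact h1
    have e2 : ed hxy₂ = ed hrs := by rw [ed_eq_iff]; exact h2
    rw [e1, e2]
  have key' : ∀ {p q r s : Fin n} (hpq : p ≠ q) (hrs : r ≠ s),
      ((x₂ = p ∧ y₂ = q) ∨ (x₂ = q ∧ y₂ = p)) → ((x₁ = r ∧ y₁ = s) ∨ (x₁ = s ∧ y₁ = r)) →
      ({ed hxy₁, ed hxy₂} : Finset (Edge n)) = {ed hpq, ed hrs} := by
    intro p q r s hpq hrs h1 h2
    have e1 : ed hxy₂ = ed hpq := by rw [ed_eq_iff]; exact h1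
    have e2 : ed hxy₁ = ed hrs := by rw [ed_eq_iff]; exact h2
    rw [e1, e2, pair_comm]
  have step : ∀ {p q r s : Fin n}, r ≠ s → p ≠ r → p ≠ s → q ≠ r → q ≠ s →
      (r = a ∨ r = b ∨ r = c ∨ r = d) → (s = a ∨ s = b ∨ s = c ∨ s = d) →
      ((x₁ = p ∧ y₁ = q) ∨ (x₁ = q ∧ y₁ = p)) → ((x₂ = r ∧ y₂ = s) ∨ (x₂ = s ∧ y₂ = r)) := by
    intro p q r s hrs hpr hps hqr hqs hr hs h
    have hnot : ∀ v, v ≠ p → v ≠ q → ¬ (v = x₁ ∨ v = y₁) := by
      intro v hvp hvq hv
      rcases h with ⟨h1, h2⟩ | ⟨h1, h2⟩ <;> rcases hv with hv | hv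
      · exact hvp (hv.trans h1)
      · exact hvq (hv.trans h2)
      · exact hvq (hv.trans h1)
      · exact hvp (hv.trans h2)
    have hr' : r = x₂ ∨ r = y₂ := by
      rcases hcover r hr with ⟨h1, _⟩ | ⟨_, h2⟩
      · exact absurd h1 (hnot r hpr.symm hqr.symm)
      · exact h2
    have hs' : s = x₂ ∨ s = y₂ := by
      rcases hcover s hs with ⟨h1, _⟩ | ⟨_, h2⟩
      · exact absurd h1 (hnot s hps.symm hqs.symm)
      · exact h2
    rcases hr' with hr' | hr' <;> rcases hs' with hs' | hs'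
    · exact absurd (hr'.trans hs'.symm) hrs
    · exact Or.inl ⟨hr'.symm, hs'.symm⟩
    · exact Or.inr ⟨hs'.symm, hr'.symm⟩
    · exact absurd (hr'.trans hs'.symm) hrs
  have A : a = a ∨ a = b ∨ a = c ∨ a = d := Or.inl rfl
  have B : b = a ∨ b = b ∨ b = c ∨ b = d := Or.inr (Or.inl rfl)
  have C : c = a ∨ c = b ∨ c = c ∨ c = d := Or.inr (Or.inr (Or.inl rfl))
  have D : d = a ∨ d = b ∨ d = c ∨ d = d := Or.inr (Or.inr (Or.inr rfl))
  rcases hx₁ with h | h | h | h <;> rcases hy₁ with h' | h' | h' | h'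
  · exact absurd (h.trans h'.symm) hxy₁
  · exact Or.inl (key hab hcd (Or.inl ⟨h, h'⟩)
      (step hcd hac had hbc hbd C D (Or.inl ⟨h, h'⟩)))
  · exact Or.inr (Or.inl (key hac hbd (Or.inl ⟨h, h'⟩)
      (step hbd hab had hbc.symm hcd B D (Or.inl ⟨h, h'⟩))))
  · exact Or.inr (Or.inr (key had hbc (Or.inl ⟨h, h'⟩)
      (step hbc hab hac hbd.symm hcd.symm B C (Or.inl ⟨h, h'⟩))))
  · exact Or.inl (key hab hcd (Or.inr ⟨h, h'⟩)
      (step hcd hac had hbc hbd C D (Or.inr ⟨h, h'⟩)))
  · exact absurd (h.trans h'.symm) hxy₁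
  · exact Or.inr (Or.inr (key' had hbc
      (step had hab.symm hbd hac.symm hcd A D (Or.inl ⟨h, h'⟩)) (Or.inl ⟨h, h'⟩)))
  · exact Or.inr (Or.inl (key' hac hbd
      (step hac hab.symm hbc had.symm hcd.symm A C (Or.inl ⟨h, h'⟩)) (Or.inl ⟨h, h'⟩)))
  · exact Or.inr (Or.inl (key hac hbd (Or.inr ⟨h, h'⟩)
      (step hbd hab had hbc.symm hcd B D (Or.inr ⟨h, h'⟩))))
  · exact Or.inr (Or.inr (key' had hbc
      (step had hab.symm hbd hac.symm hcd A D (Or.inr ⟨h, h'⟩)) (Or.inr ⟨h, h'⟩)))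
  · exact absurd (h.trans h'.symm) hxy₁
  · exact Or.inl (key' hab hcd
      (step hab hac.symm hbc.symm had.symm hbd.symm A B (Or.inl ⟨h, h'⟩)) (Or.inl ⟨h, h'⟩))
  · exact Or.inr (Or.inr (key had hbc (Or.inr ⟨h, h'⟩)
      (step hbc hab hac hbd.symm hcd.symm B C (Or.inr ⟨h, h'⟩))))
  · exact Or.inr (Or.inl (key' hac hbd
      (step hac hab.symm hbc had.symm hcd.symm A C (Or.inr ⟨h, h'⟩)) (Or.inr ⟨h, h'⟩)))
  · exact Or.inl (key' hab hcd
      (step hab hac.symm hbc.symm had.symm hbd.symm A B (Or.inr ⟨h, h'⟩)) (Or.inr ⟨h, h'⟩))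
  · exact absurd (h.trans h'.symm) hxy₁


/-! ### Row sums -/

lemma sum_proposalCount (E : Finset (Edge n)) :
    ∑ E', proposalCount E E' = 6 * n.choose 4 := by
  unfold proposalCount
  rw [Finset.sum_comm]
  have h1 : ∀ S ∈ (univ : Finset (Fin n)).powersetCard 4,
      ∑ E', ∑ F ∈ pmSet S, ∑ F' ∈ (pmSet S).erase F,
        (if switchResult E F F' = E' then 1 else 0) = 6 := by
    intro S hS
    rw [Finset.sum_comm]
    have hc3 : (pmSet S).card = 3 := card_pmSet (mem_powersetCard.mp hS).2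
    have h2 : ∀ F ∈ pmSet S, ∑ E', ∑ F' ∈ (pmSet S).erase F,
        (if switchResult E F F' = E' then 1 else 0) = 2 := by
      intro F hF
      rw [Finset.sum_comm]
      have h3 : ∀ F' ∈ (pmSet S).erase F,
          ∑ E', (if switchResult E F F' = E' then 1 else 0) = 1 := by
        intro F' _
        rw [Finset.sum_ite_eq]
        simp
      rw [Finset.sum_congr rfl h3, Finset.sum_const, card_erase_of_mem hF, hc3]
      rfl
    rw [Finset.sum_congr rfl h2, Finset.sum_const, hc3]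
    rfl
  rw [Finset.sum_congr rfl h1, Finset.sum_const, card_powersetCard, card_univ, Fintype.card_fin,
    smul_eq_mul, mul_comm]

lemma choose_pos_real (hn : 4 ≤ n) : (0 : ℝ) < (n.choose 4 : ℝ) := by
  exact_mod_cast Nat.choose_pos hn

theorem kernel_row_sum (hn : 4 ≤ n) (E : Finset (Edge n)) : ∑ E', kernel n E E' = 1 := by
  unfold kernel
  rw [Finset.sum_add_distrib, Finset.sum_ite_eq, ← Finset.sum_div, ← Nat.cast_sum,
    sum_proposalCount, if_pos (mem_univ _)]
  have := choose_pos_real hn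
  push_cast
  field_simp
  norm_num

theorem kernel_nonneg_off (E E' : Finset (Edge n)) :
    0 ≤ 2 * kernel n E E' - (if E = E' then 1 else 0) := by
  unfold kernel
  have h0 : (0:ℝ) ≤ (proposalCount E E' : ℝ) / (12 * (n.choose 4 : ℝ)) := by positivity
  split_ifs <;> linarith

/-! ### An abstract mixing bound -/

section Abstract

variable {α : Type*} [Fintype α] [DecidableEq α] (P : Matrix α α ℝ)

/-- Jensen for a nonnegative weight vector with sum one. -/
lemma jensen_sq (w f : α → ℝ) (hw : ∀ a, 0 ≤ w a) (hs : ∑ a, w a = 1) :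
    (∑ a, w a * f a) ^ 2 ≤ ∑ a, w a * f a ^ 2 := by
  set m := ∑ a, w a * f a with hm
  have h : 0 ≤ ∑ a, w a * (f a - m) ^ 2 :=
    Finset.sum_nonneg fun a _ => mul_nonneg (hw a) (sq_nonneg _)
  have h2 : ∑ a, w a * (f a - m) ^ 2
      = ∑ a, w a * f a ^ 2 - 2 * m * ∑ a, w a * f a + m ^ 2 * ∑ a, w a := by
    have : ∀ a, w a * (f a - m) ^ 2 = w a * f a ^ 2 - 2 * m * (w a * f a) + m ^ 2 * w a := by
      intro a; ring
    rw [Finset.sum_congr rfl (fun a _ => this a), Finset.sum_add_distrib, Finset.sum_sub_distrib,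
      ← Finset.mul_sum, ← Finset.mul_sum]
  rw [h2, ← hm, hs] at h
  nlinarith

lemma dot_mulVec_symm (hsymm : ∀ a b, P a b = P b a) (f g : α → ℝ) :
    f ⬝ᵥ (P.mulVec g) = (P.mulVec f) ⬝ᵥ g := by
  simp only [dotProduct, Matrix.mulVec, Finset.mul_sum, Finset.sum_mul]
  rw [Finset.sum_comm]
  refine Finset.sum_congr rfl fun a _ => Finset.sum_congr rfl fun b _ => ?_
  rw [hsymm b a]; ring

/-- For a symmetric "lazy" stochastic matrix, `‖P f‖² ≤ ⟨f, P f⟩`. -/
lemma norm_mulVec_le_dot (hsymm : ∀ a b, P a b = P b a)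
    (hnn : ∀ a b, 0 ≤ 2 * P a b - (if a = b then 1 else 0))
    (hrow : ∀ a, ∑ b, P a b = 1) (f : α → ℝ) :
    (P.mulVec f) ⬝ᵥ (P.mulVec f) ≤ f ⬝ᵥ (P.mulVec f) := by
  set g : α → ℝ := fun a => 2 * P.mulVec f a - f a with hg
  have hgw : ∀ a, g a = ∑ b, (2 * P a b - (if a = b then 1 else 0)) * f b := by
    intro a
    simp only [hg, Matrix.mulVec, dotProduct, sub_mul, Finset.sum_sub_distrib, Finset.mul_sum,
      ite_mul, one_mul, zero_mul, Finset.sum_ite_eq, mem_univ, if_true, mul_assoc]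
  have hgle : ∑ a, g a ^ 2 ≤ ∑ a, f a ^ 2 := by
    calc ∑ a, g a ^ 2 ≤ ∑ a, ∑ b, (2 * P a b - (if a = b then 1 else 0)) * f b ^ 2 := by
          refine Finset.sum_le_sum fun a _ => ?_
          rw [hgw a]
          refine jensen_sq _ _ (hnn a) ?_
          rw [Finset.sum_sub_distrib, ← Finset.mul_sum, hrow a, Finset.sum_ite_eq]
          simp
          norm_num
      _ = ∑ b, ∑ a, (2 * P a b - (if a = b then 1 else 0)) * f b ^ 2 := Finset.sum_comm
      _ = ∑ b, f b ^ 2 := by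
          refine Finset.sum_congr rfl fun b _ => ?_
          rw [← Finset.sum_mul]
          have : ∑ a, (2 * P a b - (if a = b then (1:ℝ) else 0)) = 1 := by
            rw [Finset.sum_sub_distrib, ← Finset.mul_sum]
            have h1 : ∑ a, P a b = 1 := by
              rw [← hrow b]; exact Finset.sum_congr rfl fun a _ => hsymm a b
            rw [h1, Finset.sum_ite_eq']
            simp
            norm_num
          rw [this, one_mul]
  -- algebra
  have hP : ∀ a, P.mulVec f a = (f a + g a) / 2 := by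
    intro a; simp only [hg]; ring
  simp only [dotProduct]
  have e1 : ∑ a, P.mulVec f a * P.mulVec f a
      = (∑ a, f a ^ 2 + 2 * ∑ a, f a * g a + ∑ a, g a ^ 2) / 4 := by
    rw [Finset.mul_sum, ← Finset.sum_add_distrib, ← Finset.sum_add_distrib, Finset.sum_div]
    refine Finset.sum_congr rfl fun a _ => ?_
    rw [hP a]; ring
  have e2 : ∑ a, f a * P.mulVec f a = (∑ a, f a ^ 2 + ∑ a, f a * g a) / 2 := by
    rw [← Finset.sum_add_distrib, Finset.sum_div]
    refine Finset.sum_congr rfl fun a _ => ?_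
    rw [hP a]; ring
  rw [e1, e2]
  linarith

lemma mulVec_unifOn (Ω : Finset α) (hsymm : ∀ a b, P a b = P b a)
    (hrow : ∀ a, ∑ b, P a b = 1) (hclosed : ∀ a b, a ∈ Ω → b ∉ Ω → P a b = 0) :
    P.mulVec (unifOn Ω) = unifOn Ω := by
  funext a
  simp only [Matrix.mulVec, dotProduct, unifOn]
  by_cases ha : a ∈ Ω
  · rw [if_pos ha]
    have : ∀ b, P a b * (if b ∈ Ω then 1 / (Ω.card : ℝ) else 0) = P a b * (1 / (Ω.card : ℝ)) := by
      intro b
      by_cases hb : b ∈ Ω
      · rw [if_pos hb]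
      · rw [if_neg hb, hclosed a b ha hb]; simp
    rw [Finset.sum_congr rfl (fun b _ => this b), ← Finset.sum_mul, hrow a, one_mul]
  · rw [if_neg ha]
    refine Finset.sum_eq_zero fun b _ => ?_
    by_cases hb : b ∈ Ω
    · rw [hsymm a b, hclosed b a hb ha]; simp
    · rw [if_neg hb]; simp

lemma pow_mulVec_unifOn (Ω : Finset α) (hsymm : ∀ a b, P a b = P b a)
    (hrow : ∀ a, ∑ b, P a b = 1) (hclosed : ∀ a b, a ∈ Ω → b ∉ Ω → P a b = 0) (t : ℕ) :
    (P ^ t).mulVec (unifOn Ω) = unifOn Ω := by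
  induction t with
  | zero => simp
  | succ t ih =>
    rw [pow_succ', ← Matrix.mulVec_mulVec, ih, mulVec_unifOn P Ω hsymm hrow hclosed]

lemma pow_symm (hsymm : ∀ a b, P a b = P b a) (t : ℕ) (a b : α) : (P ^ t) a b = (P ^ t) b a := by
  have h : P.IsSymm := by
    ext a b; exact hsymm b a
  have h2 : (P ^ t).IsSymm := Matrix.IsSymm.pow h t
  exact (congrFun (congrFun h2 b) a)

lemma support_mulVec (Ω : Finset α) (hsymm : ∀ a b, P a b = P b a)
    (hclosed : ∀ a b, a ∈ Ω → b ∉ Ω → P a b = 0) (f : α → ℝ) (hf : ∀ a, a ∉ Ω → f a = 0) :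
    ∀ a, a ∉ Ω → P.mulVec f a = 0 := by
  intro a ha
  simp only [Matrix.mulVec, dotProduct]
  refine Finset.sum_eq_zero fun b _ => ?_
  by_cases hb : b ∈ Ω
  · rw [hsymm a b, hclosed b a hb ha]; simp
  · rw [hf b hb]; simp

lemma sum_mulVec (hsymm : ∀ a b, P a b = P b a) (hrow : ∀ a, ∑ b, P a b = 1) (f : α → ℝ) :
    ∑ a, P.mulVec f a = ∑ a, f a := by
  simp only [Matrix.mulVec, dotProduct]
  rw [Finset.sum_comm]
  refine Finset.sum_congr rfl fun b _ => ?_
  rw [← Finset.sum_mul]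
  have : ∑ a, P a b = 1 := by
    rw [← hrow b]; exact Finset.sum_congr rfl fun a _ => hsymm a b
  rw [this, one_mul]

/-- The abstract `L¹` mixing bound. -/
theorem abstract_mix (Ω : Finset α) (hsymm : ∀ a b, P a b = P b a)
    (hnn : ∀ a b, 0 ≤ 2 * P a b - (if a = b then 1 else 0))
    (hrow : ∀ a, ∑ b, P a b = 1) (hclosed : ∀ a b, a ∈ Ω → b ∉ Ω → P a b = 0)
    (γ : ℝ) (hγ1 : γ ≤ 1)
    (hgap : ∀ f : α → ℝ, (∀ a, a ∉ Ω → f a = 0) → ∑ a, f a = 0 →
      γ * (f ⬝ᵥ f) ≤ f ⬝ᵥ f - f ⬝ᵥ P.mulVec f)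
    (t : ℕ) (G : α) (hG : G ∈ Ω) :
    (∑ a, |(P ^ t) G a - unifOn Ω a|) ^ 2 ≤ (Ω.card : ℝ) * (1 - γ) ^ t := by
  classical
  have hNpos : (0:ℝ) < (Ω.card : ℝ) := by exact_mod_cast Finset.card_pos.mpr ⟨G, hG⟩
  set f₀ : α → ℝ := fun a => (if a = G then 1 else 0) - unifOn Ω a with hf₀
  have hf₀s : ∀ a, a ∉ Ω → f₀ a = 0 := by
    intro a ha
    have : a ≠ G := fun h => ha (h ▸ hG)
    simp [hf₀, unifOn, ha, this]
  have hsumunif : ∑ a, unifOn Ω a = 1 := by
    simp only [unifOn]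
    rw [Finset.sum_ite_mem, univ_inter, Finset.sum_const, nsmul_eq_mul]
    field_simp
  have hf₀sum : ∑ a, f₀ a = 0 := by
    simp only [hf₀]
    rw [Finset.sum_sub_distrib, Finset.sum_ite_eq', hsumunif]
    simp
  have hf₀norm : f₀ ⬝ᵥ f₀ ≤ 1 := by
    have e : ∀ a, f₀ a * f₀ a = (if a = G then 1 else 0)
        - 2 * ((if a = G then 1 else 0) * unifOn Ω a) + unifOn Ω a * unifOn Ω a := by
      intro a
      simp only [hf₀]
      split_ifs <;> ring
    simp only [dotProduct]
    rw [Finset.sum_congr rfl (fun a _ => e a), Finset.sum_add_distrib, Finset.sum_sub_distrib,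
      ← Finset.mul_sum, Finset.sum_ite_eq']
    have e2 : ∑ a, (if a = G then (1:ℝ) else 0) * unifOn Ω a = 1 / (Ω.card : ℝ) := by
      simp [unifOn, hG]
    have e3 : ∑ a, unifOn Ω a * unifOn Ω a = 1 / (Ω.card : ℝ) := by
      have : ∀ a, unifOn Ω a * unifOn Ω a
          = if a ∈ Ω then 1 / (Ω.card : ℝ) * (1 / (Ω.card : ℝ)) else 0 := by
        intro a
        simp only [unifOn]
        split_ifs <;> simp
      rw [Finset.sum_congr rfl (fun a _ => this a), Finset.sum_ite_mem, univ_inter,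
        Finset.sum_const, nsmul_eq_mul]
      field_simp
    rw [e2, e3]
    simp only [mem_univ, if_true]
    have : 0 < 1 / (Ω.card : ℝ) := by positivity
    linarith
  -- the sequence
  set g : ℕ → α → ℝ := fun t => (P ^ t).mulVec f₀ with hg
  have hgs : ∀ t, g (t + 1) = P.mulVec (g t) := by
    intro t
    simp only [hg]
    rw [pow_succ', Matrix.mulVec_mulVec]
  have hg0 : g 0 = f₀ := by simp [hg]
  have hgsupp : ∀ t a, a ∉ Ω → g t a = 0 := by
    intro t
    induction t with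
    | zero => rw [hg0]; exact hf₀s
    | succ t ih =>
      rw [hgs]
      exact support_mulVec P Ω hsymm hclosed _ ih
  have hgsum : ∀ t, ∑ a, g t a = 0 := by
    intro t
    induction t with
    | zero => rw [hg0]; exact hf₀sum
    | succ t ih => rw [hgs, sum_mulVec P hsymm hrow, ih]
  have hgnorm : ∀ t, g t ⬝ᵥ g t ≤ (1 - γ) ^ t := by
    intro t
    induction t with
    | zero => rw [hg0]; simpa using hf₀norm
    | succ t ih =>
      rw [hgs]
      have h1 := norm_mulVec_le_dot P hsymm hnn hrow (g t)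
      have h2 := hgap (g t) (hgsupp t) (hgsum t)
      have hγ : 0 ≤ 1 - γ := by linarith
      have h3 : (P.mulVec (g t)) ⬝ᵥ (P.mulVec (g t)) ≤ (1 - γ) * (g t ⬝ᵥ g t) := by
        nlinarith
      calc _ ≤ (1 - γ) * (g t ⬝ᵥ g t) := h3
        _ ≤ (1 - γ) * (1 - γ) ^ t := mul_le_mul_of_nonneg_left ih hγ
        _ = (1 - γ) ^ (t + 1) := by ring
  -- identification
  have hgid : ∀ a, g t a = (P ^ t) G a - unifOn Ω a := by
    intro a
    simp only [hg, hf₀]
    have : (fun a => (if a = G then (1:ℝ) else 0) - unifOn Ω a)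
        = (fun a => (if a = G then (1:ℝ) else 0)) - unifOn Ω := by
      funext a; simp
    rw [this, Matrix.mulVec_sub, pow_mulVec_unifOn P Ω hsymm hrow hclosed]
    simp only [Pi.sub_apply]
    congr 1
    simp only [Matrix.mulVec, dotProduct]
    rw [pow_symm P hsymm t G a]
    simp
  have hsum1 : ∑ a, |(P ^ t) G a - unifOn Ω a| = ∑ a ∈ Ω, |g t a| := by
    rw [← Finset.sum_subset (subset_univ Ω)]
    · exact Finset.sum_congr rfl fun a _ => by rw [hgid]
    · intro a _ ha
      rw [← hgid, hgsupp t a ha]; simp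
  rw [hsum1]
  calc (∑ a ∈ Ω, |g t a|) ^ 2 ≤ (Ω.card : ℝ) * ∑ a ∈ Ω, |g t a| ^ 2 := sq_sum_le_card_mul_sum_sq
    _ ≤ (Ω.card : ℝ) * (1 - γ) ^ t := by
      refine mul_le_mul_of_nonneg_left ?_ hNpos.le
      calc ∑ a ∈ Ω, |g t a| ^ 2 ≤ ∑ a, |g t a| ^ 2 :=
            Finset.sum_le_sum_of_subset_of_nonneg (subset_univ Ω) (fun _ _ _ => sq_nonneg _)
        _ = g t ⬝ᵥ g t := by
            simp only [dotProduct]
            refine Finset.sum_congr rfl fun a _ => ?_
            rw [sq_abs, sq]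
        _ ≤ _ := hgnorm t

end Abstract

/-! ### The kernel -/

lemma card_edge_le (n : ℕ) : Fintype.card (Edge n) ≤ n ^ 2 := by
  have h1 : Fintype.card (Edge n) ≤ Fintype.card (Sym2 (Fin n)) := Fintype.card_subtype_le _
  have h2 : Fintype.card (Sym2 (Fin n)) ≤ Fintype.card (Fin n × Fin n) :=
    Fintype.card_le_of_surjective (fun p : Fin n × Fin n => s(p.1, p.2)) (by
      intro e
      induction e using Sym2.ind with
      | _ a b => exact ⟨(a, b), rfl⟩)
  simp only [Fintype.card_prod, Fintype.card_fin] at h2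
  calc _ ≤ _ := h1
    _ ≤ n * n := h2
    _ = n ^ 2 := by ring

lemma card_realizations_le (d : Fin n → ℕ) : ((realizations d).card : ℝ) ≤ Real.exp ((n : ℝ) ^ 2) := by
  have h1 : (realizations d).card ≤ 2 ^ (n ^ 2) := by
    calc (realizations d).card ≤ (univ : Finset (Finset (Edge n))).card := card_le_card (subset_univ _)
      _ = 2 ^ Fintype.card (Edge n) := by rw [card_univ, Fintype.card_finset]
      _ ≤ 2 ^ (n ^ 2) := Nat.pow_le_pow_right (by norm_num) (card_edge_le n)
  have h2 : ((realizations d).card : ℝ) ≤ (2:ℝ) ^ (n ^ 2) := by exact_mod_cast h1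
  refine h2.trans ?_
  have h3 : (2:ℝ) ≤ Real.exp 1 := by
    have := Real.add_one_le_exp (1:ℝ); linarith
  calc (2:ℝ) ^ (n ^ 2) ≤ (Real.exp 1) ^ (n ^ 2) := pow_le_pow_left₀ (by norm_num) h3 _
    _ = Real.exp ((n : ℝ) ^ 2) := by
      rw [← Real.exp_nat_mul]; push_cast; ring_nf

/-- Numeric part: the decay beats the number of states. -/
lemma numeric_bound (hn : 4 ≤ n) (d : Fin n → ℕ) :
    ((realizations d).card : ℝ) *
      (1 - 1 / (24 * (n : ℝ) ^ 2 * (n.choose 4 : ℝ))) ^ (2 * n ^ 8) ≤ 1 / 4 := by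
  have hn4 : (4:ℝ) ≤ (n:ℝ) := by exact_mod_cast hn
  have hC := choose_pos_real hn
  have hC1 : (1:ℝ) ≤ (n.choose 4 : ℝ) := by
    exact_mod_cast Nat.choose_pos hn
  have hC2 : 24 * (n.choose 4 : ℝ) ≤ (n : ℝ) ^ 4 := by
    have := Nat.choose_le_pow_div (α := ℝ) 4 n
    have h24 : ((Nat.factorial 4 : ℕ) : ℝ) = 24 := by norm_num [Nat.factorial]
    rw [h24] at this
    linarith
  set γ : ℝ := 1 / (24 * (n : ℝ) ^ 2 * (n.choose 4 : ℝ)) with hγ
  have hnpos : (0:ℝ) < n := by linarith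
  have hγpos : 0 < γ := by positivity
  have hγlow : 1 / (n:ℝ) ^ 6 ≤ γ := by
    rw [hγ]
    apply one_div_le_one_div_of_le (by positivity)
    calc 24 * (n : ℝ) ^ 2 * (n.choose 4 : ℝ) = (n:ℝ) ^ 2 * (24 * (n.choose 4 : ℝ)) := by ring
      _ ≤ (n:ℝ) ^ 2 * (n:ℝ) ^ 4 := mul_le_mul_of_nonneg_left hC2 (by positivity)
      _ = (n:ℝ) ^ 6 := by ring
  have hγle1 : γ ≤ 1 := by
    rw [hγ, div_le_one (by positivity)]
    have : (1:ℝ) ≤ (n:ℝ) ^ 2 := by nlinarith
    nlinarith
  have h1 : (1 - γ) ≤ Real.exp (-γ) := by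
    have := Real.add_one_le_exp (-γ); linarith
  have h2 : (1 - γ) ^ (2 * n ^ 8) ≤ Real.exp (-(2 * (n:ℝ) ^ 2)) := by
    calc (1 - γ) ^ (2 * n ^ 8) ≤ (Real.exp (-γ)) ^ (2 * n ^ 8) :=
          pow_le_pow_left₀ (by linarith) h1 _
      _ = Real.exp (-(γ * (2 * (n:ℝ) ^ 8))) := by
          rw [← Real.exp_nat_mul]; push_cast; ring_nf
      _ ≤ Real.exp (-(2 * (n:ℝ) ^ 2)) := by
          apply Real.exp_le_exp.mpr
          have : 2 * (n:ℝ) ^ 2 ≤ γ * (2 * (n:ℝ) ^ 8) := by
            calc 2 * (n:ℝ) ^ 2 = 1 / (n:ℝ) ^ 6 * (2 * (n:ℝ) ^ 8) := by field_simp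
              _ ≤ γ * (2 * (n:ℝ) ^ 8) := mul_le_mul_of_nonneg_right hγlow (by positivity)
          linarith
  have h3 := card_realizations_le d
  have h4 : (0:ℝ) ≤ ((realizations d).card : ℝ) := by positivity
  have h5 : (0:ℝ) ≤ (1 - γ) ^ (2 * n ^ 8) := pow_nonneg (by linarith) _
  calc ((realizations d).card : ℝ) * (1 - γ) ^ (2 * n ^ 8)
      ≤ Real.exp ((n : ℝ) ^ 2) * Real.exp (-(2 * (n:ℝ) ^ 2)) :=
        mul_le_mul h3 h2 h5 (Real.exp_pos _).le
    _ = Real.exp (-((n:ℝ) ^ 2)) := by rw [← Real.exp_add]; ring_nf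
    _ ≤ 1 / 4 := by
      rw [Real.exp_neg, one_div]
      apply inv_anti₀ (by norm_num)
      have := Real.add_one_le_exp ((n:ℝ) ^ 2)
      nlinarith

/-- The Dirichlet form of the chain in terms of the proposal counts. -/
theorem kernel_dirichlet (hn : 4 ≤ n) (d : Fin n → ℕ) (f : Finset (Edge n) → ℝ) :
    ∑ G ∈ realizations d, f G * (f G - ∑ G' ∈ realizations d, kernel n G G' * f G')
      = (1 / (24 * (n.choose 4 : ℝ))) *
        ∑ G ∈ realizations d, ∑ G' ∈ realizations d,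
          (proposalCount G G' : ℝ) * (f G - f G') ^ 2 := by
  have hC := choose_pos_real hn
  -- row sums restricted to realizations
  have hrow : ∀ G ∈ realizations d, ∑ G' ∈ realizations d, kernel n G G' = 1 := by
    intro G hG
    rw [← kernel_row_sum hn G]
    exact Finset.sum_subset (subset_univ _) (fun b _ hb => kernel_eq_zero_of_mem_not_mem hG hb)
  set Ω := realizations d
  set A : ℝ := ∑ G ∈ Ω, ∑ G' ∈ Ω, kernel n G G' * (f G * f G - f G * f G') with hA
  have h1 : ∑ G ∈ Ω, f G * (f G - ∑ G' ∈ Ω, kernel n G G' * f G') = A := by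
    refine Finset.sum_congr rfl fun G hG => ?_
    have : f G = ∑ G' ∈ Ω, kernel n G G' * f G := by
      rw [← Finset.sum_mul, hrow G hG, one_mul]
    calc f G * (f G - ∑ G' ∈ Ω, kernel n G G' * f G')
        = f G * ((∑ G' ∈ Ω, kernel n G G' * f G) - ∑ G' ∈ Ω, kernel n G G' * f G') := by
          rw [← this]
      _ = _ := by
          rw [← Finset.sum_sub_distrib, Finset.mul_sum]
          refine Finset.sum_congr rfl fun G' _ => ?_
          ring
  have h2 : A = ∑ G ∈ Ω, ∑ G' ∈ Ω, kernel n G G' * (f G' * f G' - f G' * f G) := by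
    rw [hA, Finset.sum_comm]
    refine Finset.sum_congr rfl fun G _ => Finset.sum_congr rfl fun G' _ => ?_
    rw [kernel_symm]
  have h3 : 2 * A = ∑ G ∈ Ω, ∑ G' ∈ Ω, kernel n G G' * (f G - f G') ^ 2 := by
    have : 2 * A = A + A := by ring
    rw [this]
    nth_rewrite 2 [h2]
    rw [hA, ← Finset.sum_add_distrib]
    refine Finset.sum_congr rfl fun G _ => ?_
    rw [← Finset.sum_add_distrib]
    refine Finset.sum_congr rfl fun G' _ => ?_
    ring
  have h4 : ∀ G G', kernel n G G' * (f G - f G') ^ 2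
      = (proposalCount G G' : ℝ) / (12 * (n.choose 4 : ℝ)) * (f G - f G') ^ 2 := by
    intro G G'
    unfold kernel
    by_cases h : G = G'
    · subst h; simp
    · rw [if_neg h]; simp
  rw [h1]
  have h5 : A = (1 / 2) * ∑ G ∈ Ω, ∑ G' ∈ Ω, kernel n G G' * (f G - f G') ^ 2 := by
    rw [← h3]; ring
  rw [h5, Finset.mul_sum, Finset.mul_sum]
  refine Finset.sum_congr rfl fun G _ => ?_
  rw [Finset.mul_sum, Finset.mul_sum]
  refine Finset.sum_congr rfl fun G' _ => ?_
  rw [h4]
  field_simp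
  ring

/-- A genuine switch from `G` is a proposal: if `ab, cd` are present and `ac, bd` absent
(`a,b,c,d` distinct), the graph obtained by switching has at least one proposal from `G`. -/
theorem proposalCount_pos_of_switch {a b c d : Fin n} (hab : a ≠ b) (hac : a ≠ c) (had : a ≠ d)
    (hbc : b ≠ c) (hbd : b ≠ d) (hcd : c ≠ d) (G : Finset (Edge n))
    (h1 : ed hab ∈ G) (h2 : ed hcd ∈ G) (h3 : ed hac ∉ G) (h4 : ed hbd ∉ G) :
    1 ≤ proposalCount G (G \ {ed hab, ed hcd} ∪ {ed hac, ed hbd}) := by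
  set S : Finset (Fin n) := {a, b, c, d} with hS
  have hScard : S.card = 4 := by
    rw [hS, card_insert_of_notMem, card_insert_of_notMem, card_pair hcd] <;> simp [*]
  have hS2 : S = {a, c, b, d} := by
    ext x; simp only [hS, mem_insert, mem_singleton]; tauto
  have m1 := pm_mem hab hac had hbc hbd hcd (S := S) rfl
  have m2 := pm_mem hac hab had (Ne.symm hbc) hcd hbd hS2
  have hne : ({ed hab, ed hcd} : Finset (Edge n)) ≠ {ed hac, ed hbd} := by
    intro h
    have : ed hab ∈ ({ed hac, ed hbd} : Finset (Edge n)) := h ▸ (by simp)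
    rw [mem_insert, mem_singleton, ed_eq_iff, ed_eq_iff] at this
    rcases this with (⟨_, h⟩ | ⟨h, _⟩) | (⟨h, _⟩ | ⟨h, _⟩)
    · exact hbc h
    · exact hac h
    · exact hab h
    · exact had h
  unfold proposalCount
  have hSmem : S ∈ (univ : Finset (Fin n)).powersetCard 4 :=
    mem_powersetCard.mpr ⟨subset_univ _, hScard⟩
  calc 1 = (if switchResult G {ed hab, ed hcd} {ed hac, ed hbd}
          = (G \ {ed hab, ed hcd} ∪ {ed hac, ed hbd}) then 1 else 0) := by
        rw [if_pos]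
        unfold switchResult
        rw [if_pos]
        constructor
        · intro e he
          rw [mem_insert, mem_singleton] at he
          rcases he with rfl | rfl <;> assumption
        · rw [Finset.disjoint_left]
          intro e he
          rw [mem_insert, mem_singleton] at he
          rcases he with rfl | rfl <;> assumption
    _ ≤ ∑ F' ∈ (pmSet S).erase {ed hab, ed hcd}, (if switchResult G {ed hab, ed hcd} F'
          = (G \ {ed hab, ed hcd} ∪ {ed hac, ed hbd}) then 1 else 0) :=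
        Finset.single_le_sum (f := fun F' => if switchResult G {ed hab, ed hcd} F'
          = (G \ {ed hab, ed hcd} ∪ {ed hac, ed hbd}) then 1 else 0)
          (fun _ _ => Nat.zero_le _) (mem_erase.mpr ⟨hne.symm, m2⟩)
    _ ≤ ∑ F ∈ pmSet S, ∑ F' ∈ (pmSet S).erase F, (if switchResult G F F'
          = (G \ {ed hab, ed hcd} ∪ {ed hac, ed hbd}) then 1 else 0) :=
        Finset.single_le_sum (f := fun F => ∑ F' ∈ (pmSet S).erase F, (if switchResult G F F'
          = (G \ {ed hab, ed hcd} ∪ {ed hac, ed hbd}) then 1 else 0))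
          (fun _ _ => Nat.zero_le _) m1
    _ ≤ _ := Finset.single_le_sum (f := fun S => ∑ F ∈ pmSet S, ∑ F' ∈ (pmSet S).erase F,
          (if switchResult G F F' = (G \ {ed hab, ed hcd} ∪ {ed hac, ed hbd}) then 1 else 0))
          (fun _ _ => Nat.zero_le _) hSmem

/-- The mixing statement follows from the Poincaré inequality. -/
theorem mixing_of_poincare (hn : 4 ≤ n) (d : Fin n → ℕ) (hd : (realizations d).Nonempty)
    (hP : ∀ f : Finset (Edge n) → ℝ,
        ((realizations d).card : ℝ) * (∑ G ∈ realizations d, f G ^ 2) -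
            (∑ G ∈ realizations d, f G) ^ 2 ≤
          24 * (n : ℝ) ^ 2 * (n.choose 4 : ℝ) * (realizations d).card *
            ∑ G ∈ realizations d,
              f G * (f G - ∑ G' ∈ realizations d, kernel n G G' * f G')) :
    ∃ t : ℕ, t ≤ 2 * n ^ 8 ∧ ∀ G ∈ realizations d,
        tvDist (fun G' => (kernel n ^ t) G G') (unifOn (realizations d)) ≤ 1 / 4 := by
  have hn4 : (4:ℝ) ≤ (n:ℝ) := by exact_mod_cast hn
  have hC := choose_pos_real hn
  have hC1 : (1:ℝ) ≤ (n.choose 4 : ℝ) := by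
    exact_mod_cast Nat.choose_pos hn
  have hNpos : (0:ℝ) < ((realizations d).card : ℝ) := by exact_mod_cast card_pos.mpr hd
  set γ : ℝ := 1 / (24 * (n : ℝ) ^ 2 * (n.choose 4 : ℝ)) with hγ
  have hγle1 : γ ≤ 1 := by
    rw [hγ, div_le_one (by positivity)]
    have : (1:ℝ) ≤ (n:ℝ) ^ 2 := by nlinarith
    nlinarith
  refine ⟨2 * n ^ 8, le_rfl, fun G hG => ?_⟩
  have hmix := abstract_mix (kernel n) (realizations d) kernel_symm kernel_nonneg_off
    (kernel_row_sum hn) (fun a b ha hb => kernel_eq_zero_of_mem_not_mem ha hb) γ hγle1 ?_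
    (2 * n ^ 8) G hG
  · have hnum := numeric_bound hn d
    rw [← hγ] at hnum
    have hsq := hmix.trans hnum
    unfold tvDist
    have h0 : 0 ≤ ∑ a, |(kernel n ^ (2 * n ^ 8)) G a - unifOn (realizations d) a| :=
      Finset.sum_nonneg fun _ _ => abs_nonneg _
    have : ∑ a, |(kernel n ^ (2 * n ^ 8)) G a - unifOn (realizations d) a| ≤ 1 / 2 := by
      nlinarith
    linarith
  · intro f hfs hf0
    have hsub : ∀ h : Finset (Edge n) → ℝ, (∀ a, a ∉ realizations d → h a = 0) →
        ∑ a ∈ realizations d, h a = ∑ a, h a := by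
      intro h hh
      exact Finset.sum_subset (subset_univ _) (fun a _ ha => hh a ha)
    have hmv : ∀ a, (kernel n).mulVec f a = ∑ b ∈ realizations d, kernel n a b * f b := by
      intro a
      simp only [Matrix.mulVec, dotProduct]
      rw [hsub (fun b => kernel n a b * f b)]
      intro b hb
      simp [hfs b hb]
    have hPf := hP f
    rw [hsub f hfs, hf0, hsub (fun a => f a ^ 2) (fun a ha => by simp [hfs a ha]),
      hsub (fun a => f a * (f a - ∑ b ∈ realizations d, kernel n a b * f b))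
        (fun a ha => by simp [hfs a ha])] at hPf
    have e1 : ∑ a, f a ^ 2 = f ⬝ᵥ f := by
      simp only [dotProduct]
      exact Finset.sum_congr rfl fun a _ => sq _
    have e2 : ∑ a, f a * (f a - ∑ b ∈ realizations d, kernel n a b * f b)
        = f ⬝ᵥ f - f ⬝ᵥ (kernel n).mulVec f := by
      simp only [dotProduct]
      rw [← Finset.sum_sub_distrib]
      refine Finset.sum_congr rfl fun a _ => ?_
      rw [hmv a]; ring
    rw [e1, e2] at hPf
    set X := f ⬝ᵥ f
    set Y := X - f ⬝ᵥ (kernel n).mulVec f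
    set K := 24 * (n : ℝ) ^ 2 * (n.choose 4 : ℝ) with hK
    have hKpos : 0 < K := by positivity
    have h1 : X ≤ K * Y := by
      have : ((realizations d).card : ℝ) * X ≤ ((realizations d).card : ℝ) * (K * Y) := by
        have h0 : ((realizations d).card : ℝ) * X - 0 ^ 2 = ((realizations d).card : ℝ) * X := by
          ring
        rw [h0] at hPf
        calc _ ≤ _ := hPf
          _ = _ := by ring
      exact le_of_mul_le_mul_left this hNpos
    rw [hγ, div_mul_eq_mul_div, one_mul, div_le_iff₀ hKpos]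
    linarith

end Crest.Agent.Lib.SwitchMix
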