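import Mathlib

/-!
# Abstract triple lemma on labelings (S0453, Module E)

`C` is a finite set of columns, each of type `typ c : Bool`, and `Lab typ e` is the set of
labelings `ℓ : C → Fin 3` with prescribed differences (number of label `i` on columns of type true)
minus (number of label `i` on columns of type false).  `P i` is the conditional expectation given
the preimage of `i` under the uniform law on `Lab typ e`.

Main result: `triple_lemma`, `0 ≤ ∑_{i ≠ j} ⟨f - P i f, f - P j f⟩`.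
-/

set_option autoImplicit false
set_option linter.unusedSectionVars false

open Finset

namespace Crest.Agent.Lib.SwitchTriple

/-! ### Generic averaging operators -/

section Avg

variable {α κ : Type*} [DecidableEq κ]

/-- The class of `x` inside `X` under `key`. -/
def cls (X : Finset α) (key : α → κ) (x : α) : Finset α := X.filter fun y => key y = key x

/-- Average of `f` over the class of `x`. -/
noncomputable def avg (X : Finset α) (key : α → κ) (f : α → ℝ) (x : α) : ℝ :=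
  (∑ y ∈ cls X key x, f y) / (cls X key x).card

variable {X : Finset α} {key : α → κ}

lemma cls_congr {x y : α} (h : key x = key y) : cls X key x = cls X key y := by
  unfold cls; rw [h]

lemma mem_cls {x y : α} : y ∈ cls X key x ↔ y ∈ X ∧ key y = key x := by
  simp [cls]

lemma self_mem_cls {x : α} (hx : x ∈ X) : x ∈ cls X key x := mem_cls.2 ⟨hx, rfl⟩

lemma cls_card_pos {x : α} (hx : x ∈ X) : 0 < (cls X key x).card :=
  Finset.card_pos.2 ⟨x, self_mem_cls hx⟩

lemma avg_congr_key (f : α → ℝ) {x y : α} (h : key x = key y) : avg X key f x = avg X key f y := by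
  unfold avg; rw [cls_congr h]

lemma avg_congr_on {f g : α → ℝ} (h : ∀ y ∈ X, f y = g y) (x : α) :
    avg X key f x = avg X key g x := by
  unfold avg
  congr 1
  exact Finset.sum_congr rfl fun y hy => h y (mem_cls.1 hy).1

lemma avg_const (c : ℝ) {x : α} (hx : x ∈ X) : avg X key (fun _ => c) x = c := by
  unfold avg
  have := cls_card_pos (key := key) hx
  simp only [sum_const, nsmul_eq_mul]
  field_simp

lemma avg_add (f g : α → ℝ) (x : α) :
    avg X key (fun y => f y + g y) x = avg X key f x + avg X key g x := by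
  unfold avg; rw [Finset.sum_add_distrib, add_div]

lemma avg_sub (f g : α → ℝ) (x : α) :
    avg X key (fun y => f y - g y) x = avg X key f x - avg X key g x := by
  unfold avg; rw [Finset.sum_sub_distrib, sub_div]

lemma avg_mul_left (c : ℝ) (f : α → ℝ) (x : α) :
    avg X key (fun y => c * f y) x = c * avg X key f x := by
  unfold avg; rw [← Finset.mul_sum, mul_div_assoc]

lemma avg_neg (f : α → ℝ) (x : α) :
    avg X key (fun y => - f y) x = - avg X key f x := by
  unfold avg; rw [Finset.sum_neg_distrib, neg_div]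

lemma avg_sum {ι : Type*} (s : Finset ι) (f : ι → α → ℝ) (x : α) :
    avg X key (fun y => ∑ i ∈ s, f i y) x = ∑ i ∈ s, avg X key (f i) x := by
  classical
  unfold avg
  rw [Finset.sum_comm, Finset.sum_div]

/-- `avg` of a function that is constant on the class. -/
lemma avg_of_const_on_cls {f : α → ℝ} {x : α} (hx : x ∈ X)
    (h : ∀ y ∈ X, key y = key x → f y = f x) : avg X key f x = f x := by
  have h1 : avg X key f x = avg X key (fun _ => f x) x := by
    unfold avg
    congr 1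
    exact Finset.sum_congr rfl fun y hy => h y (mem_cls.1 hy).1 (mem_cls.1 hy).2
  rw [h1, avg_const _ hx]

lemma avg_idem (f : α → ℝ) {x : α} (hx : x ∈ X) :
    avg X key (avg X key f) x = avg X key f x :=
  avg_of_const_on_cls hx fun _ _ hk => avg_congr_key f hk

lemma avg_symm (f g : α → ℝ) :
    ∑ x ∈ X, avg X key f x * g x = ∑ x ∈ X, f x * avg X key g x := by
  classical
  have h1 : ∀ x ∈ X, avg X key f x * g x =
      ∑ y ∈ X, if key y = key x then f y * g x / (cls X key x).card else 0 := by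
    intro x _
    unfold avg cls
    rw [Finset.sum_filter, Finset.sum_div, Finset.sum_mul]
    refine Finset.sum_congr rfl fun y _ => ?_
    split_ifs <;> simp [div_mul_eq_mul_div]
  have h2 : ∀ x ∈ X, f x * avg X key g x =
      ∑ y ∈ X, if key y = key x then f x * g y / (cls X key x).card else 0 := by
    intro x _
    unfold avg cls
    rw [Finset.sum_filter, Finset.sum_div, Finset.mul_sum]
    refine Finset.sum_congr rfl fun y _ => ?_
    split_ifs <;> simp [mul_div_assoc]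
  rw [Finset.sum_congr rfl h1, Finset.sum_congr rfl h2, Finset.sum_comm]
  refine Finset.sum_congr rfl fun x _ => Finset.sum_congr rfl fun y _ => ?_
  by_cases hk : key x = key y
  · rw [if_pos hk, if_pos hk.symm, cls_congr hk]
  · rw [if_neg hk, if_neg fun h => hk h.symm]

lemma avg_sq (f : α → ℝ) :
    ∑ x ∈ X, (avg X key f x) ^ 2 = ∑ x ∈ X, f x * avg X key f x := by
  have h := avg_symm (X := X) (key := key) f (avg X key f)
  rw [show ∑ x ∈ X, (avg X key f x) ^ 2 = ∑ x ∈ X, avg X key f x * avg X key f x from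
    Finset.sum_congr rfl fun x _ => sq _, h]
  exact Finset.sum_congr rfl fun x hx => by rw [avg_idem f hx]

/-- Reindexing along an involution that respects `X` and `key`. -/
lemma avg_comp_invol (ψ : α → α) (hψ : ∀ x, ψ (ψ x) = x) (hX : ∀ x, ψ x ∈ X ↔ x ∈ X)
    (hkey : ∀ x y, key (ψ x) = key (ψ y) ↔ key x = key y) (f : α → ℝ) (x : α) :
    avg X key (fun y => f (ψ y)) x = avg X key f (ψ x) := by
  have hcard : (cls X key x).card = (cls X key (ψ x)).card := by
    apply Finset.card_nbij' ψ ψ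
    · intro y hy
      have hy' := mem_cls.1 (Finset.mem_coe.1 hy)
      exact Finset.mem_coe.2 (mem_cls.2 ⟨(hX y).2 hy'.1, (hkey y x).2 hy'.2⟩)
    · intro y hy
      have hy' := mem_cls.1 (Finset.mem_coe.1 hy)
      refine Finset.mem_coe.2 (mem_cls.2 ⟨(hX y).2 hy'.1, ?_⟩)
      have := (hkey (ψ y) x)
      rw [hψ] at this
      exact this.1 hy'.2
    · intro y _; exact hψ y
    · intro y _; exact hψ y
  have hsum : ∑ y ∈ cls X key x, f (ψ y) = ∑ y ∈ cls X key (ψ x), f y := by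
    apply Finset.sum_nbij' ψ ψ
    · intro y hy
      have hy' := mem_cls.1 hy
      exact mem_cls.2 ⟨(hX y).2 hy'.1, (hkey y x).2 hy'.2⟩
    · intro y hy
      have hy' := mem_cls.1 hy
      refine mem_cls.2 ⟨(hX y).2 hy'.1, ?_⟩
      have := (hkey (ψ y) x)
      rw [hψ] at this
      exact this.1 hy'.2
    · intro y _; exact hψ y
    · intro y _; exact hψ y
    · intro y _; rfl
  unfold avg
  rw [hsum, hcard]

end Avg

/-! ### Spectral lemma -/

section Spectral

open scoped InnerProductSpace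

theorem quad_nonneg_of_eig {E : Type*} [NormedAddCommGroup E] [InnerProductSpace ℝ E]
    [FiniteDimensional ℝ E] (T : E →ₗ[ℝ] E) (hT : T.IsSymmetric)
    (hno : ∀ (μ : ℝ) (v : E), v ≠ 0 → T v = μ • v → 0 ≤ (3 - μ) * (2 - μ)) (f : E) :
    0 ≤ inner ℝ ((3 : ℝ) • f - T f) ((2 : ℝ) • f - T f) := by
  set b := hT.eigenvectorBasis rfl with hb
  rw [← b.sum_inner_mul_inner]
  refine Finset.sum_nonneg fun n _ => ?_
  have hr : ∀ x : E, inner ℝ (b n) (T x) = hT.eigenvalues rfl n * inner ℝ (b n) x := by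
    intro x
    have := hT.eigenvectorBasis_apply_self_apply rfl x n
    simpa [OrthonormalBasis.repr_apply_apply] using this
  have h1 : inner ℝ ((3 : ℝ) • f - T f) (b n) =
      (3 - hT.eigenvalues rfl n) * inner ℝ (b n) f := by
    rw [real_inner_comm, inner_sub_right, inner_smul_right, hr]
    ring
  have h2 : inner ℝ (b n) ((2 : ℝ) • f - T f) =
      (2 - hT.eigenvalues rfl n) * inner ℝ (b n) f := by
    rw [inner_sub_right, inner_smul_right, hr]
    ring
  rw [h1, h2]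
  have hne : b n ≠ 0 := b.orthonormal.ne_zero n
  have hev := hno (hT.eigenvalues rfl n) (b n) hne (by
    have := hT.apply_eigenvectorBasis rfl n
    simp only [RCLike.ofReal_real_eq_id, id] at this
    exact this)
  nlinarith [mul_nonneg hev (sq_nonneg (inner ℝ (b n) f))]

/-- Spectral lemma for operators on `ι → ℝ`, phrased with sums. -/
theorem quad_nonneg_of_eig_fun {ι : Type*} [Fintype ι] [DecidableEq ι]
    (T : (ι → ℝ) →ₗ[ℝ] (ι → ℝ))
    (hsymm : ∀ f g : ι → ℝ, ∑ i, T f i * g i = ∑ i, f i * T g i)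
    (hno : ∀ (μ : ℝ) (v : ι → ℝ), v ≠ 0 → T v = μ • v → 0 ≤ (3 - μ) * (2 - μ)) (f : ι → ℝ) :
    0 ≤ ∑ i, (3 * f i - T f i) * (2 * f i - T f i) := by
  let e : EuclideanSpace ℝ ι ≃ₗ[ℝ] (ι → ℝ) := (WithLp.linearEquiv 2 ℝ (ι → ℝ))
  let T' : EuclideanSpace ℝ ι →ₗ[ℝ] EuclideanSpace ℝ ι :=
    e.symm.toLinearMap ∘ₗ T ∘ₗ e.toLinearMap
  have hinner : ∀ x y : EuclideanSpace ℝ ι, inner ℝ x y = ∑ i, e x i * e y i := by
    intro x y
    simp only [PiLp.inner_apply, RCLike.inner_apply, conj_trivial]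
    refine Finset.sum_congr rfl fun i _ => ?_
    simp [e, mul_comm]
  have hT' : T'.IsSymmetric := by
    intro x y
    rw [hinner, hinner]
    simp only [T', LinearMap.comp_apply, LinearEquiv.coe_coe, LinearEquiv.apply_symm_apply]
    exact hsymm _ _
  have key := quad_nonneg_of_eig T' hT' (fun μ v hv hTv => by
    refine hno μ (e v) (by simpa using hv) ?_
    have := congrArg e hTv
    simpa [T'] using this) (e.symm f)
  rw [hinner] at key
  simpa [T', mul_comm] using key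

end Spectral

/-! ### Likelihood ratio order -/

lemma lr_order (S : Finset ℕ) (N₁ N₂ : ℕ → ℝ)
    (hlr : ∀ y z, y ≤ z → N₁ y * N₂ z ≤ N₂ y * N₁ z)
    (F : ℕ → ℝ)
    (hF : ∀ y z, y ≤ z → (N₁ y ≠ 0 ∨ N₂ y ≠ 0) → (N₁ z ≠ 0 ∨ N₂ z ≠ 0) → F y ≤ F z) :
    (∑ y ∈ S, F y * N₂ y) * (∑ z ∈ S, N₁ z) ≤ (∑ y ∈ S, F y * N₁ y) * (∑ z ∈ S, N₂ z) := by
  set W : ℕ → ℕ → ℝ := fun y z => N₁ y * N₂ z - N₂ y * N₁ z with hW
  have hD : (∑ y ∈ S, F y * N₁ y) * (∑ z ∈ S, N₂ z) - (∑ y ∈ S, F y * N₂ y) * (∑ z ∈ S, N₁ z)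
      = ∑ y ∈ S, ∑ z ∈ S, F y * W y z := by
    rw [Finset.sum_mul_sum, Finset.sum_mul_sum, ← Finset.sum_sub_distrib]
    refine Finset.sum_congr rfl fun y _ => ?_
    rw [← Finset.sum_sub_distrib]
    refine Finset.sum_congr rfl fun z _ => ?_
    simp only [hW]; ring
  have hD2 : ∑ y ∈ S, ∑ z ∈ S, F y * W y z = - ∑ y ∈ S, ∑ z ∈ S, F z * W y z := by
    rw [Finset.sum_comm, ← Finset.sum_neg_distrib]
    refine Finset.sum_congr rfl fun y _ => ?_
    rw [← Finset.sum_neg_distrib]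
    refine Finset.sum_congr rfl fun z _ => ?_
    simp only [hW]; ring
  have hpos : 0 ≤ ∑ y ∈ S, ∑ z ∈ S, (F y - F z) * W y z := by
    refine Finset.sum_nonneg fun y _ => Finset.sum_nonneg fun z _ => ?_
    by_cases h0 : W y z = 0
    · simp [h0]
    have hy : N₁ y ≠ 0 ∨ N₂ y ≠ 0 := by
      by_contra hcon
      push Not at hcon
      apply h0
      simp [hW, hcon.1, hcon.2]
    have hz : N₁ z ≠ 0 ∨ N₂ z ≠ 0 := by
      by_contra hcon
      push Not at hcon
      apply h0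
      simp [hW, hcon.1, hcon.2]
    rcases le_total y z with h | h
    · have h1 := hF y z h hy hz
      have h2 := hlr y z h
      have : W y z ≤ 0 := by simp only [hW]; linarith
      nlinarith
    · have h1 := hF z y h hz hy
      have h2 := hlr z y h
      have : 0 ≤ W y z := by simp only [hW]; linarith
      nlinarith
  have hsplit : ∑ y ∈ S, ∑ z ∈ S, (F y - F z) * W y z =
      ∑ y ∈ S, ∑ z ∈ S, F y * W y z - ∑ y ∈ S, ∑ z ∈ S, F z * W y z := by
    rw [← Finset.sum_sub_distrib]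
    refine Finset.sum_congr rfl fun y _ => ?_
    rw [← Finset.sum_sub_distrib]
    refine Finset.sum_congr rfl fun z _ => ?_
    ring
  have : 0 ≤ ∑ y ∈ S, ∑ z ∈ S, F y * W y z := by
    rw [hsplit] at hpos
    linarith
  linarith

/-- The identity `C(c,y) C(c-y,r) = C(c,r) C(c-r,y)`. -/
lemma choose_swap (c y r : ℕ) : c.choose y * (c - y).choose r = c.choose r * (c - r).choose y := by
  have h1 := Nat.choose_mul (n := c) (k := y + r) (s := y) (Nat.le_add_right _ _)
  have h2 := Nat.choose_mul (n := c) (k := y + r) (s := r) (Nat.le_add_left _ _)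
  rw [Nat.add_sub_cancel_left] at h1
  rw [Nat.add_sub_cancel] at h2
  rw [← h1, ← h2, Nat.choose_symm_add]

/-- Binomials are likelihood-ratio ordered. -/
lemma choose_lr {c r y z : ℕ} (hr : r ≤ c) (hyz : y ≤ z) :
    c.choose y * (c - r).choose z ≤ (c - r).choose y * c.choose z := by
  have hpos : 0 < c.choose r := Nat.choose_pos hr
  refine Nat.le_of_mul_le_mul_left ?_ hpos
  have e1 : c.choose r * (c.choose y * (c - r).choose z) =
      c.choose y * (c.choose z * (c - z).choose r) := by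
    rw [choose_swap c z r]; ring
  have e2 : c.choose r * ((c - r).choose y * c.choose z) =
      c.choose z * (c.choose y * (c - y).choose r) := by
    rw [choose_swap c y r]; ring
  rw [e1, e2]
  have h3 : (c - z).choose r ≤ (c - y).choose r := Nat.choose_le_choose r (by omega)
  calc c.choose y * (c.choose z * (c - z).choose r)
      ≤ c.choose y * (c.choose z * (c - y).choose r) := by gcongr
    _ = c.choose z * (c.choose y * (c - y).choose r) := by ring

/-! ### Labelings -/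

lemma fin3_cases {i j k : Fin 3} (hij : i ≠ j) (hik : i ≠ k) (hjk : j ≠ k) (l : Fin 3) :
    l = i ∨ l = j ∨ l = k := by
  revert i j k l; decide

lemma fin3_third {i j : Fin 3} (_hij : i ≠ j) : ∃ k, i ≠ k ∧ j ≠ k := by
  revert i j; decide

lemma fin3_univ {i j k : Fin 3} (hij : i ≠ j) (hik : i ≠ k) (hjk : j ≠ k) :
    (univ : Finset (Fin 3)) = {i, j, k} := by
  revert i j k; decide

lemma sum_fin3 {β : Type*} [AddCommMonoid β] {i j k : Fin 3} (hij : i ≠ j) (hik : i ≠ k)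
    (hjk : j ≠ k) (F : Fin 3 → β) : ∑ l, F l = F i + (F j + F k) := by
  rw [fin3_univ hij hik hjk, Finset.sum_insert (by simp [hij, hik]),
    Finset.sum_insert (by simp [hjk]), Finset.sum_singleton]

section Lab

variable {C : Type*} [Fintype C] [DecidableEq C] (typ : C → Bool) (e : Fin 3 → ℤ)

/-- Number of columns of type `b` with label `i`. -/
def cnt (ℓ : C → Fin 3) (i : Fin 3) (b : Bool) : ℕ :=
  (univ.filter fun c => ℓ c = i ∧ typ c = b).card

/-- Labelings with prescribed differences. -/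
def Lab : Finset (C → Fin 3) :=
  univ.filter fun ℓ => ∀ i, (cnt typ ℓ i true : ℤ) - cnt typ ℓ i false = e i

/-- The preimage of a label. -/
def key (i : Fin 3) (ℓ : C → Fin 3) : Finset C := univ.filter fun c => ℓ c = i

/-- Conditional expectation given the preimage of `i`, for the uniform law on `Lab typ e`. -/
noncomputable def P (i : Fin 3) (f : (C → Fin 3) → ℝ) (ℓ : C → Fin 3) : ℝ :=
  avg (Lab typ e) (key i) f ℓ

/-- Number of columns of type `b`. -/
def tot (b : Bool) : ℕ := (univ.filter fun c => typ c = b).card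

variable {typ e}

lemma mem_Lab {ℓ : C → Fin 3} :
    ℓ ∈ Lab typ e ↔ ∀ i, (cnt typ ℓ i true : ℤ) - cnt typ ℓ i false = e i := by
  simp [Lab]

lemma key_eq_iff {i : Fin 3} {ℓ ℓ' : C → Fin 3} : key i ℓ = key i ℓ' ↔ ∀ c, ℓ c = i ↔ ℓ' c = i := by
  simp [key, Finset.ext_iff]

lemma cnt_add {i j k : Fin 3} (hij : i ≠ j) (hik : i ≠ k) (hjk : j ≠ k)
    (ℓ : C → Fin 3) (b : Bool) :
    cnt typ ℓ i b + (cnt typ ℓ j b + cnt typ ℓ k b) = tot typ b := by
  have h := Finset.card_eq_sum_card_fiberwise (s := univ.filter fun c => typ c = b)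
    (t := (univ : Finset (Fin 3))) (f := ℓ) (fun _ _ => Finset.mem_coe.2 (mem_univ _))
  rw [sum_fin3 hij hik hjk] at h
  simp only [Finset.filter_filter] at h
  unfold tot cnt
  rw [h]
  simp only [and_comm]

lemma cnt_le_tot (ℓ : C → Fin 3) (i : Fin 3) (b : Bool) : cnt typ ℓ i b ≤ tot typ b := by
  unfold cnt tot
  apply Finset.card_le_card
  intro c hc
  simp only [mem_filter, mem_univ, true_and] at hc ⊢
  exact hc.2

lemma card_key (i : Fin 3) (ℓ : C → Fin 3) :
    (key i ℓ).card = cnt typ ℓ i true + cnt typ ℓ i false := by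
  unfold key cnt
  rw [← Finset.card_union_of_disjoint]
  · congr 1
    ext c
    cases h : typ c <;> simp [h]
  · rw [Finset.disjoint_left]
    intro c hc hc'
    simp only [mem_filter, mem_univ, true_and] at hc hc'
    rw [hc.2] at hc'
    simp at hc'

lemma cnt_comp (τ : Equiv.Perm C) (hτ : ∀ x, typ (τ x) = typ x) (ℓ : C → Fin 3) (i : Fin 3)
    (b : Bool) : cnt typ (ℓ ∘ τ) i b = cnt typ ℓ i b := by
  unfold cnt
  apply Finset.card_equiv τ
  intro c
  simp [hτ]

lemma mem_Lab_comp (τ : Equiv.Perm C) (hτ : ∀ x, typ (τ x) = typ x) (ℓ : C → Fin 3) :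
    ℓ ∘ τ ∈ Lab typ e ↔ ℓ ∈ Lab typ e := by
  simp only [mem_Lab, cnt_comp τ hτ]

lemma typ_swap {c c' : C} (h : typ c = typ c') (x : C) : typ (Equiv.swap c c' x) = typ x := by
  by_cases hx1 : x = c
  · subst hx1; simp [h]
  by_cases hx2 : x = c'
  · subst hx2; simp [h]
  rw [Equiv.swap_apply_of_ne_of_ne hx1 hx2]

lemma swap_swap_comp (c c' : C) (ℓ : C → Fin 3) :
    (ℓ ∘ Equiv.swap c c') ∘ Equiv.swap c c' = ℓ := by
  funext x; simp

lemma P_comp_swap {c c' : C} (h : typ c = typ c') (i : Fin 3) (f : (C → Fin 3) → ℝ)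
    (ℓ : C → Fin 3) :
    P typ e i (fun ℓ' => f (ℓ' ∘ Equiv.swap c c')) ℓ = P typ e i f (ℓ ∘ Equiv.swap c c') := by
  unfold P
  apply avg_comp_invol (fun ℓ' : C → Fin 3 => ℓ' ∘ Equiv.swap c c') (swap_swap_comp c c')
    (mem_Lab_comp _ (typ_swap h))
  intro x y
  simp only [key_eq_iff, Function.comp]
  constructor
  · intro hh z
    have := hh (Equiv.swap c c' z)
    simpa using this
  · intro hh z
    exact hh _

variable (typ e) in
lemma P_add (i : Fin 3) (f g : (C → Fin 3) → ℝ) (ℓ : C → Fin 3) :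
    P typ e i (fun y => f y + g y) ℓ = P typ e i f ℓ + P typ e i g ℓ := avg_add f g ℓ

section Eig

variable {v : (C → Fin 3) → ℝ} {μ : ℝ}

/-- Invariance of eigenvectors with eigenvalue `> 2` under type-preserving transpositions. -/
theorem eig_swap (hμ : 2 < μ) (hv : ∀ ℓ ∈ Lab typ e, ∑ i, P typ e i v ℓ = μ * v ℓ)
    {c c' : C} (hc : typ c = typ c') : ∀ ℓ ∈ Lab typ e, v (ℓ ∘ Equiv.swap c c') = v ℓ := by
  set X := Lab typ e with hX
  set ψ : (C → Fin 3) → (C → Fin 3) := fun ℓ => ℓ ∘ Equiv.swap c c' with hψ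
  set w : (C → Fin 3) → ℝ := fun ℓ => v ℓ - v (ψ ℓ) with hw
  have hψψ : ∀ ℓ, ψ (ψ ℓ) = ℓ := swap_swap_comp c c'
  have hψX : ∀ ℓ, ψ ℓ ∈ X ↔ ℓ ∈ X := mem_Lab_comp _ (typ_swap hc)
  have hPψ : ∀ i f ℓ, P typ e i (fun ℓ' => f (ψ ℓ')) ℓ = P typ e i f (ψ ℓ) :=
    fun i f ℓ => P_comp_swap hc i f ℓ
  have hwP : ∀ i ℓ, P typ e i w ℓ = P typ e i v ℓ - P typ e i v (ψ ℓ) := by
    intro i ℓ
    have := avg_sub (X := Lab typ e) (key := key i) v (fun y => v (ψ y)) ℓ
    rw [show avg (Lab typ e) (key i) (fun y => v (ψ y)) ℓ = P typ e i v (ψ ℓ) from hPψ i v ℓ] at this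
    exact this
  have hw_eig : ∀ ℓ ∈ X, ∑ i, P typ e i w ℓ = μ * w ℓ := by
    intro ℓ hℓ
    simp only [hwP, Finset.sum_sub_distrib]
    rw [hv ℓ hℓ, hv (ψ ℓ) ((hψX ℓ).2 hℓ)]
    simp only [hw]; ring
  have hanti : ∀ ℓ, w (ψ ℓ) = - w ℓ := by
    intro ℓ
    simp only [hw, hψψ]; ring
  have hzero : ∀ ℓ ∈ X, ∀ k, ℓ c ≠ k → ℓ c' ≠ k → P typ e k w ℓ = 0 := by
    intro ℓ _ k h1 h2
    have hk : key k (ψ ℓ) = key k ℓ := by
      rw [key_eq_iff]
      intro x
      simp only [hψ, Function.comp]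
      by_cases hx1 : x = c
      · subst hx1; simp [h1, h2]
      by_cases hx2 : x = c'
      · subst hx2; simp [h1, h2]
      rw [Equiv.swap_apply_of_ne_of_ne hx1 hx2]
    have h3 : P typ e k w ℓ = P typ e k w (ψ ℓ) := avg_congr_key _ hk.symm
    have h4 : P typ e k w (ψ ℓ) = - P typ e k w ℓ := by
      rw [← hPψ]
      have : (fun ℓ' => w (ψ ℓ')) = fun ℓ' => - w ℓ' := by funext ℓ'; exact hanti ℓ'
      rw [this]
      exact avg_neg w ℓ
    linarith
  have hpt : ∀ ℓ ∈ X, (μ * w ℓ) ^ 2 ≤ 2 * ∑ i, (P typ e i w ℓ) ^ 2 := by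
    intro ℓ hℓ
    by_cases heq : ℓ c = ℓ c'
    · have hfix : ψ ℓ = ℓ := by
        funext x
        simp only [hψ, Function.comp]
        by_cases hx1 : x = c
        · subst hx1; simp [heq]
        by_cases hx2 : x = c'
        · subst hx2; simp [heq]
        rw [Equiv.swap_apply_of_ne_of_ne hx1 hx2]
      have : w ℓ = 0 := by simp only [hw, hfix]; ring
      rw [this]
      have : 0 ≤ ∑ i, (P typ e i w ℓ) ^ 2 := Finset.sum_nonneg fun i _ => sq_nonneg _
      simp only [mul_zero]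
      nlinarith
    · obtain ⟨k, hk1, hk2⟩ := fin3_third heq
      have h0 := hzero ℓ hℓ k hk1 hk2
      have hs := hw_eig ℓ hℓ
      rw [sum_fin3 heq hk1 hk2, h0, add_zero] at hs
      rw [sum_fin3 heq hk1 hk2, h0, ← hs]
      nlinarith [sq_nonneg (P typ e (ℓ c) w ℓ - P typ e (ℓ c') w ℓ)]
  have hsum : ∑ ℓ ∈ X, (μ * w ℓ) ^ 2 ≤ 2 * ∑ ℓ ∈ X, μ * w ℓ ^ 2 := by
    have h1 : ∑ ℓ ∈ X, (μ * w ℓ) ^ 2 ≤ ∑ ℓ ∈ X, 2 * ∑ i, (P typ e i w ℓ) ^ 2 :=
      Finset.sum_le_sum hpt
    have h2 : ∑ ℓ ∈ X, 2 * ∑ i, (P typ e i w ℓ) ^ 2 = 2 * ∑ i, ∑ ℓ ∈ X, (P typ e i w ℓ) ^ 2 := by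
      rw [← Finset.mul_sum, Finset.sum_comm]
    have h3 : ∑ i, ∑ ℓ ∈ X, (P typ e i w ℓ) ^ 2 = ∑ ℓ ∈ X, μ * w ℓ ^ 2 := by
      have : ∀ i, ∑ ℓ ∈ X, (P typ e i w ℓ) ^ 2 = ∑ ℓ ∈ X, w ℓ * P typ e i w ℓ := fun i => avg_sq w
      simp only [this]
      rw [Finset.sum_comm]
      refine Finset.sum_congr rfl fun ℓ hℓ => ?_
      rw [← Finset.mul_sum, hw_eig ℓ hℓ]
      ring
    rw [h2, h3] at h1
    exact h1
  have hQ : ∑ ℓ ∈ X, w ℓ ^ 2 ≤ 0 := by
    have h1 : ∑ ℓ ∈ X, (μ * w ℓ) ^ 2 = μ ^ 2 * ∑ ℓ ∈ X, w ℓ ^ 2 := by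
      rw [Finset.mul_sum]
      exact Finset.sum_congr rfl fun ℓ _ => by ring
    have h2 : ∑ ℓ ∈ X, μ * w ℓ ^ 2 = μ * ∑ ℓ ∈ X, w ℓ ^ 2 := by
      rw [Finset.mul_sum]
    rw [h1, h2] at hsum
    have hQ0 : 0 ≤ ∑ ℓ ∈ X, w ℓ ^ 2 := Finset.sum_nonneg fun _ _ => sq_nonneg _
    by_contra hcon
    push Not at hcon
    nlinarith [mul_pos (by linarith : (0 : ℝ) < μ) (by linarith : (0 : ℝ) < μ - 2)]
  intro ℓ hℓ
  have hall := (Finset.sum_eq_zero_iff_of_nonneg (fun _ _ => sq_nonneg _)).1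
    (le_antisymm hQ (Finset.sum_nonneg fun _ _ => sq_nonneg (w _))) ℓ hℓ
  have hwz : w ℓ = 0 := by simpa using hall
  simp only [hw] at hwz
  linarith

/-- On `Lab`, all type counts agree as soon as the false-type counts agree. -/
lemma cnt_eq_of_false {ℓ ℓ' : C → Fin 3} (hℓ : ℓ ∈ Lab typ e) (hℓ' : ℓ' ∈ Lab typ e) {i : Fin 3}
    (h : cnt typ ℓ i false = cnt typ ℓ' i false) (b : Bool) : cnt typ ℓ i b = cnt typ ℓ' i b := by
  cases b
  · exact h
  · have h1 := mem_Lab.1 hℓ i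
    have h2 := mem_Lab.1 hℓ' i
    omega

/-- `P i v` depends only on the number of `i` labels of false type. -/
theorem P_of_cnt (hμ : 2 < μ) (hv : ∀ ℓ ∈ Lab typ e, ∑ i, P typ e i v ℓ = μ * v ℓ) (i : Fin 3) :
    ∀ (n : ℕ) (ℓ ℓ' : C → Fin 3), ℓ ∈ Lab typ e → ℓ' ∈ Lab typ e →
      cnt typ ℓ i false = cnt typ ℓ' i false → (key i ℓ \ key i ℓ').card = n →
      P typ e i v ℓ = P typ e i v ℓ' := by
  intro n
  induction n using Nat.strong_induction_on with
  | _ n ih =>
    intro ℓ ℓ' hℓ hℓ' hcnt hn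
    rcases Nat.eq_zero_or_pos n with h0 | hpos
    · -- keys coincide
      subst h0
      have hsub : key i ℓ ⊆ key i ℓ' := by
        rw [← Finset.sdiff_eq_empty_iff_subset]
        exact Finset.card_eq_zero.1 hn
      have hcard : (key i ℓ').card ≤ (key i ℓ).card := by
        rw [card_key (typ := typ) i ℓ, card_key (typ := typ) i ℓ',
          cnt_eq_of_false hℓ hℓ' hcnt true, cnt_eq_of_false hℓ hℓ' hcnt false]
      exact avg_congr_key v (Finset.eq_of_subset_of_card_le hsub hcard)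
    · obtain ⟨c, hc⟩ : (key i ℓ \ key i ℓ').Nonempty := by
        rw [← Finset.card_pos, hn]; exact hpos
      have hc1 : ℓ c = i := by
        have := (Finset.mem_sdiff.1 hc).1
        simpa [key] using this
      have hc2 : ℓ' c ≠ i := by
        have := (Finset.mem_sdiff.1 hc).2
        simpa [key] using this
      -- find `c'`
      obtain ⟨c', hc'1, hc'2, hc'3⟩ : ∃ c', ℓ' c' = i ∧ typ c' = typ c ∧ ℓ c' ≠ i := by
        by_contra hcon
        push Not at hcon
        have hsub : (univ.filter fun x => ℓ' x = i ∧ typ x = typ c) ⊆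
            (univ.filter fun x => ℓ x = i ∧ typ x = typ c) := by
          intro x hx
          simp only [mem_filter, mem_univ, true_and] at hx ⊢
          exact ⟨hcon x hx.1 hx.2, hx.2⟩
        have hcard : (univ.filter fun x => ℓ x = i ∧ typ x = typ c).card ≤
            (univ.filter fun x => ℓ' x = i ∧ typ x = typ c).card :=
          le_of_eq (cnt_eq_of_false hℓ hℓ' hcnt (typ c))
        have := Finset.eq_of_subset_of_card_le hsub hcard
        have hcm : c ∈ (univ.filter fun x => ℓ x = i ∧ typ x = typ c) := by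
          simp [hc1]
        rw [← this] at hcm
        simp only [mem_filter, mem_univ, true_and] at hcm
        exact hc2 hcm.1
      have htyp : typ c = typ c' := hc'2.symm
      have hcc' : c ≠ c' := by
        rintro rfl; exact hc'3 hc1
      set ℓ₂ := ℓ ∘ Equiv.swap c c' with hℓ₂
      have hℓ₂X : ℓ₂ ∈ Lab typ e := (mem_Lab_comp _ (typ_swap htyp) ℓ).2 hℓ
      have hcnt₂ : cnt typ ℓ₂ i false = cnt typ ℓ' i false := by
        rw [hℓ₂, cnt_comp _ (typ_swap htyp)]; exact hcnt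
      have hP : P typ e i v ℓ₂ = P typ e i v ℓ := by
        rw [hℓ₂, ← P_comp_swap htyp]
        exact avg_congr_on (fun y hy => eig_swap hμ hv htyp y hy) ℓ
      have hsd : key i ℓ₂ \ key i ℓ' = (key i ℓ \ key i ℓ').erase c := by
        ext x
        simp only [key, mem_sdiff, mem_filter, mem_univ, true_and, mem_erase, hℓ₂, Function.comp]
        by_cases hx1 : x = c
        · subst hx1
          simp [hc'3]
        by_cases hx2 : x = c'
        · subst hx2
          simp [hc'1, hx1]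
        rw [Equiv.swap_apply_of_ne_of_ne hx1 hx2]
        simp [hx1]
      have hlt : (key i ℓ₂ \ key i ℓ').card < n := by
        rw [hsd, Finset.card_erase_of_mem hc, hn]; omega
      rw [← hP]
      exact ih _ hlt ℓ₂ ℓ' hℓ₂X hℓ' hcnt₂ rfl

end Eig

/-! ### Counting fibers -/

/-- The number of fillings with `y` false columns labeled `j`. -/
def Nc (a b : ℕ) (e : ℤ) (y : ℕ) : ℕ :=
  if 0 ≤ (y : ℤ) + e then a.choose y * b.choose ((y : ℤ) + e).toNat else 0

lemma Nc_lr {a b r : ℕ} (hra : r ≤ a) (hrb : r ≤ b) (e : ℤ) {y z : ℕ} (hyz : y ≤ z) :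
    Nc a b e y * Nc (a - r) (b - r) e z ≤ Nc (a - r) (b - r) e y * Nc a b e z := by
  unfold Nc
  by_cases hy : 0 ≤ (y : ℤ) + e
  · have hz : 0 ≤ (z : ℤ) + e := by
      have : (y : ℤ) ≤ z := by exact_mod_cast hyz
      omega
    rw [if_pos hy, if_pos hz, if_pos hy, if_pos hz]
    have h1 := choose_lr hra hyz
    have h2 : b.choose ((y : ℤ) + e).toNat * (b - r).choose ((z : ℤ) + e).toNat ≤
        (b - r).choose ((y : ℤ) + e).toNat * b.choose ((z : ℤ) + e).toNat := by
      apply choose_lr hrb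
      have : (y : ℤ) ≤ z := by exact_mod_cast hyz
      omega
    calc a.choose y * b.choose ((y : ℤ) + e).toNat *
          ((a - r).choose z * (b - r).choose ((z : ℤ) + e).toNat)
        = (a.choose y * (a - r).choose z) *
            (b.choose ((y : ℤ) + e).toNat * (b - r).choose ((z : ℤ) + e).toNat) := by ring
      _ ≤ ((a - r).choose y * a.choose z) *
            ((b - r).choose ((y : ℤ) + e).toNat * b.choose ((z : ℤ) + e).toNat) :=
          Nat.mul_le_mul h1 h2
      _ = (a - r).choose y * (b - r).choose ((y : ℤ) + e).toNat *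
            (a.choose z * b.choose ((z : ℤ) + e).toNat) := by ring
  · rw [if_neg hy]; simp

theorem card_fiber {i j k : Fin 3} (hij : i ≠ j) (hik : i ≠ k) (hjk : j ≠ k) {ℓ : C → Fin 3}
    (hℓ : ℓ ∈ Lab typ e) (y : ℕ) :
    ((cls (Lab typ e) (key i) ℓ).filter fun ℓ' => cnt typ ℓ' j false = y).card =
      Nc (tot typ false - cnt typ ℓ i false) (tot typ true - cnt typ ℓ i true) (e j) y := by
  classical
  set S := (cls (Lab typ e) (key i) ℓ).filter fun ℓ' => cnt typ ℓ' j false = y with hS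
  have hSmem : ∀ ℓ', ℓ' ∈ S ↔ ℓ' ∈ Lab typ e ∧ key i ℓ' = key i ℓ ∧ cnt typ ℓ' j false = y := by
    intro ℓ'
    simp only [hS, mem_filter, mem_cls, and_assoc]
  unfold Nc
  by_cases hy : 0 ≤ (y : ℤ) + e j
  swap
  · rw [if_neg hy]
    apply Finset.card_eq_zero.2
    apply Finset.eq_empty_of_forall_notMem
    intro ℓ' hℓ'
    obtain ⟨h1, _, h3⟩ := (hSmem ℓ').1 hℓ'
    have := mem_Lab.1 h1 j
    omega
  rw [if_pos hy]
  set y' := ((y : ℤ) + e j).toNat with hy'
  have hy'z : (y' : ℤ) = (y : ℤ) + e j := Int.toNat_of_nonneg hy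
  set U : Bool → Finset C := fun b => univ.filter fun c => typ c = b ∧ ℓ c ≠ i with hU
  have hUcard : ∀ b, (U b).card = tot typ b - cnt typ ℓ i b := by
    intro b
    have h1 : (univ.filter fun c => typ c = b) =
        (univ.filter fun c => ℓ c = i ∧ typ c = b) ∪ U b := by
      ext c
      simp only [hU, mem_filter, mem_univ, true_and, mem_union]
      tauto
    have h2 : Disjoint (univ.filter fun c => ℓ c = i ∧ typ c = b) (U b) := by
      rw [Finset.disjoint_left]
      intro c hc hc'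
      simp only [hU, mem_filter, mem_univ, true_and] at hc hc'
      exact hc'.2 hc.1
    have h3 : tot typ b = cnt typ ℓ i b + (U b).card := by
      unfold tot cnt
      rw [h1, Finset.card_union_of_disjoint h2]
    omega
  rw [← hUcard, ← hUcard]
  rw [← Finset.card_powersetCard y (U false), ← Finset.card_powersetCard y' (U true),
    ← Finset.card_product]
  set back : Finset C × Finset C → C → Fin 3 := fun p c =>
    if ℓ c = i then i else if c ∈ p.1 ∨ c ∈ p.2 then j else k with hback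
  have hfilter : ∀ ℓ', key i ℓ' = key i ℓ → ∀ b,
      ((U b).filter fun c => ℓ' c = j).card = cnt typ ℓ' j b := by
    intro ℓ' hk b
    unfold cnt
    congr 1
    ext c
    simp only [hU, mem_filter, mem_univ, true_and]
    have hkc := (key_eq_iff.1 hk) c
    constructor
    · rintro ⟨⟨h1, _⟩, h3⟩; exact ⟨h3, h1⟩
    · rintro ⟨h1, h2⟩
      refine ⟨⟨h2, ?_⟩, h1⟩
      intro hci
      have := hkc.2 hci
      rw [h1] at this
      exact hij this.symm
  apply Finset.card_nbij' (fun ℓ' => ((U false).filter fun c => ℓ' c = j,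
      (U true).filter fun c => ℓ' c = j)) back
  · -- forward map lands in the product
    intro ℓ' hℓ'
    obtain ⟨h1, h2, h3⟩ := (hSmem ℓ').1 (Finset.mem_coe.1 hℓ')
    refine Finset.mem_coe.2 ?_
    simp only [mem_product, mem_powersetCard]
    refine ⟨⟨Finset.filter_subset _ _, ?_⟩, ⟨Finset.filter_subset _ _, ?_⟩⟩
    · rw [hfilter ℓ' h2 false, h3]
    · rw [hfilter ℓ' h2 true]
      have := mem_Lab.1 h1 j
      omega
  · -- backward map lands in the fiber
    intro p hp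
    have hp' := Finset.mem_coe.1 hp
    simp only [mem_product, mem_powersetCard] at hp'
    obtain ⟨⟨hA, hAc⟩, ⟨hB, hBc⟩⟩ := hp'
    refine Finset.mem_coe.2 ((hSmem _).2 ?_)
    have hAi : ∀ c ∈ p.1, typ c = false ∧ ℓ c ≠ i := by
      intro c hc
      have := hA hc
      simpa [hU] using this
    have hBi : ∀ c ∈ p.2, typ c = true ∧ ℓ c ≠ i := by
      intro c hc
      have := hB hc
      simpa [hU] using this
    have hbi : ∀ c, back p c = i ↔ ℓ c = i := by
      intro c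
      simp only [hback]
      by_cases hc : ℓ c = i
      · simp [hc]
      · rw [if_neg hc]
        split_ifs
        · exact ⟨fun h => absurd h.symm hij, fun h => absurd h hc⟩
        · exact ⟨fun h => absurd h.symm hik, fun h => absurd h hc⟩
    have hbj : ∀ c, back p c = j ↔ c ∈ p.1 ∨ c ∈ p.2 := by
      intro c
      simp only [hback]
      by_cases hc : ℓ c = i
      · rw [if_pos hc]
        constructor
        · intro h; exact absurd h hij
        · rintro (h | h)
          · exact absurd hc (hAi c h).2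
          · exact absurd hc (hBi c h).2
      · rw [if_neg hc]
        split_ifs with h
        · simp [h]
        · simp only [h, iff_false]; exact fun h' => hjk h'.symm
    have hcnti : ∀ b, cnt typ (back p) i b = cnt typ ℓ i b := by
      intro b
      unfold cnt
      congr 1
      ext c
      simp only [mem_filter, mem_univ, true_and, hbi]
    have hcntjf : cnt typ (back p) j false = y := by
      rw [← hAc]
      unfold cnt
      congr 1
      ext c
      simp only [mem_filter, mem_univ, true_and, hbj]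
      constructor
      · rintro ⟨h | h, h2⟩
        · exact h
        · have := (hBi c h).1
          rw [h2] at this
          simp at this
      · intro h; exact ⟨Or.inl h, (hAi c h).1⟩
    have hcntjt : cnt typ (back p) j true = y' := by
      rw [← hBc]
      unfold cnt
      congr 1
      ext c
      simp only [mem_filter, mem_univ, true_and, hbj]
      constructor
      · rintro ⟨h | h, h2⟩
        · have := (hAi c h).1
          rw [h2] at this
          simp at this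
        · exact h
      · intro h; exact ⟨Or.inr h, (hBi c h).1⟩
    refine ⟨?_, key_eq_iff.2 hbi, hcntjf⟩
    rw [mem_Lab]
    have hℓ_ := mem_Lab.1 hℓ
    have hi1 := hℓ_ i
    have hj1 := hℓ_ j
    have hk1 := hℓ_ k
    have ht := cnt_add (typ := typ) hij hik hjk ℓ true
    have hf := cnt_add (typ := typ) hij hik hjk ℓ false
    have ht' := cnt_add (typ := typ) hij hik hjk (back p) true
    have hf' := cnt_add (typ := typ) hij hik hjk (back p) false
    rw [hcnti] at ht' hf'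
    rw [hcntjt] at ht'
    rw [hcntjf] at hf'
    intro l
    rcases fin3_cases hij hik hjk l with rfl | rfl | rfl
    · rw [hcnti, hcnti]; exact hi1
    · rw [hcntjt, hcntjf]; omega
    · omega
  · -- left inverse
    intro ℓ' hℓ'
    obtain ⟨_, h2, _⟩ := (hSmem ℓ').1 (Finset.mem_coe.1 hℓ')
    have hkc := key_eq_iff.1 h2
    funext c
    simp only [hback]
    by_cases hc : ℓ c = i
    · rw [if_pos hc, (hkc c).2 hc]
    · rw [if_neg hc]
      have hc' : ℓ' c ≠ i := fun h => hc ((hkc c).1 h)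
      by_cases hj : ℓ' c = j
      · rw [if_pos, hj]
        cases h : typ c
        · left
          simp [hU, h, hc, hj]
        · right
          simp [hU, h, hc, hj]
      · rw [if_neg]
        · rcases fin3_cases hij hik hjk (ℓ' c) with h | h | h
          · exact absurd h hc'
          · exact absurd h hj
          · exact h.symm
        · simp [hU, hj]
  · -- right inverse
    intro p hp
    have hp' := Finset.mem_coe.1 hp
    simp only [mem_product, mem_powersetCard] at hp'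
    obtain ⟨⟨hA, _⟩, ⟨hB, _⟩⟩ := hp'
    have hAi : ∀ c ∈ p.1, typ c = false ∧ ℓ c ≠ i := by
      intro c hc
      have := hA hc
      simpa [hU] using this
    have hBi : ∀ c ∈ p.2, typ c = true ∧ ℓ c ≠ i := by
      intro c hc
      have := hB hc
      simpa [hU] using this
    have hbj : ∀ c, ℓ c ≠ i → (back p c = j ↔ c ∈ p.1 ∨ c ∈ p.2) := by
      intro c hc
      simp only [hback]
      rw [if_neg hc]
      split_ifs with h
      · simp [h]
      · simp only [h, iff_false]; exact fun h' => hjk h'.symm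
    ext c
    · simp only [mem_filter, hU, mem_univ, true_and]
      constructor
      · rintro ⟨⟨h1, h2⟩, h3⟩
        rcases (hbj c h2).1 h3 with h | h
        · exact h
        · have := (hBi c h).1
          rw [h1] at this
          simp at this
      · intro h
        have h1 := hAi c h
        exact ⟨h1, (hbj c h1.2).2 (Or.inl h)⟩
    · simp only [mem_filter, hU, mem_univ, true_and]
      constructor
      · rintro ⟨⟨h1, h2⟩, h3⟩
        rcases (hbj c h2).1 h3 with h | h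
        · have := (hAi c h).1
          rw [h1] at this
          simp at this
        · exact h
      · intro h
        have h1 := hBi c h
        exact ⟨h1, (hbj c h1.2).2 (Or.inr h)⟩

/-- Sum over the class of a function of the count `cnt ℓ' j false`. -/
theorem sum_cls {i j k : Fin 3} (hij : i ≠ j) (hik : i ≠ k) (hjk : j ≠ k) {ℓ : C → Fin 3}
    (hℓ : ℓ ∈ Lab typ e) (F : ℕ → ℝ) :
    ∑ ℓ' ∈ cls (Lab typ e) (key i) ℓ, F (cnt typ ℓ' j false) =
      ∑ y ∈ range (tot typ false + 1), F y *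
        (Nc (tot typ false - cnt typ ℓ i false) (tot typ true - cnt typ ℓ i true) (e j) y : ℝ) := by
  have hmaps : ∀ ℓ' ∈ cls (Lab typ e) (key i) ℓ,
      cnt typ ℓ' j false ∈ range (tot typ false + 1) := by
    intro ℓ' _
    rw [Finset.mem_range]
    have := cnt_le_tot (typ := typ) ℓ' j false
    omega
  rw [← Finset.sum_fiberwise_of_maps_to hmaps]
  refine Finset.sum_congr rfl fun y _ => ?_
  rw [← card_fiber hij hik hjk hℓ y]
  rw [Finset.sum_congr rfl (g := fun _ => F y) (fun ℓ' hℓ' => by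
    rw [(Finset.mem_filter.1 hℓ').2])]
  rw [Finset.sum_const, nsmul_eq_mul, mul_comm]

/-- Formula for `P i` of a function of the count of `j`. -/
theorem P_formula {i j k : Fin 3} (hij : i ≠ j) (hik : i ≠ k) (hjk : j ≠ k) {ℓ : C → Fin 3}
    (hℓ : ℓ ∈ Lab typ e) (F : ℕ → ℝ) :
    P typ e i (fun ℓ' => F (cnt typ ℓ' j false)) ℓ =
      (∑ y ∈ range (tot typ false + 1), F y *
        (Nc (tot typ false - cnt typ ℓ i false) (tot typ true - cnt typ ℓ i true) (e j) y : ℝ)) /
      (∑ y ∈ range (tot typ false + 1),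
        (Nc (tot typ false - cnt typ ℓ i false) (tot typ true - cnt typ ℓ i true) (e j) y : ℝ)) := by
  have h1 := sum_cls (e := e) hij hik hjk hℓ (fun _ => (1 : ℝ))
  simp only [Finset.sum_const, nsmul_eq_mul, mul_one, one_mul] at h1
  unfold P avg
  rw [sum_cls hij hik hjk hℓ F, h1]

/-- Comparison of conditional laws. -/
theorem compare {i j k : Fin 3} (hij : i ≠ j) (hik : i ≠ k) (hjk : j ≠ k) {ℓ₁ ℓ₂ : C → Fin 3}
    (h₁ : ℓ₁ ∈ Lab typ e) (h₂ : ℓ₂ ∈ Lab typ e) (hle : cnt typ ℓ₁ i false ≤ cnt typ ℓ₂ i false)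
    (F : ℕ → ℝ)
    (hF : ∀ y z, y ≤ z → (∃ ℓ' ∈ Lab typ e, cnt typ ℓ' j false = y) →
      (∃ ℓ' ∈ Lab typ e, cnt typ ℓ' j false = z) → F y ≤ F z) :
    P typ e i (fun ℓ' => F (cnt typ ℓ' j false)) ℓ₂ ≤
      P typ e i (fun ℓ' => F (cnt typ ℓ' j false)) ℓ₁ := by
  set a₁ := tot typ false - cnt typ ℓ₁ i false with ha₁
  set b₁ := tot typ true - cnt typ ℓ₁ i true with hb₁
  set a₂ := tot typ false - cnt typ ℓ₂ i false with ha₂
  set b₂ := tot typ true - cnt typ ℓ₂ i true with hb₂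
  set r := cnt typ ℓ₂ i false - cnt typ ℓ₁ i false with hr
  have hc1 := mem_Lab.1 h₁ i
  have hc2 := mem_Lab.1 h₂ i
  have hle1 := cnt_le_tot (typ := typ) ℓ₂ i false
  have hle2 := cnt_le_tot (typ := typ) ℓ₂ i true
  have hrta : cnt typ ℓ₂ i true = cnt typ ℓ₁ i true + r := by omega
  have hra : r ≤ a₁ := by omega
  have hrb : r ≤ b₁ := by omega
  have ha : a₂ = a₁ - r := by omega
  have hb : b₂ = b₁ - r := by omega
  set N₁ : ℕ → ℝ := fun y => (Nc a₁ b₁ (e j) y : ℝ) with hN₁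
  set N₂ : ℕ → ℝ := fun y => (Nc a₂ b₂ (e j) y : ℝ) with hN₂
  have hlr : ∀ y z, y ≤ z → N₁ y * N₂ z ≤ N₂ y * N₁ z := by
    intro y z hyz
    simp only [hN₁, hN₂, ha, hb]
    exact_mod_cast Nc_lr hra hrb (e j) hyz
  have hsupp : ∀ (ℓ : C → Fin 3), ℓ ∈ Lab typ e → ∀ y,
      Nc (tot typ false - cnt typ ℓ i false) (tot typ true - cnt typ ℓ i true) (e j) y ≠ 0 →
      ∃ ℓ' ∈ Lab typ e, cnt typ ℓ' j false = y := by
    intro ℓ hℓ y hy
    rw [← card_fiber hij hik hjk hℓ y, Finset.card_ne_zero] at hy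
    obtain ⟨ℓ', hℓ'⟩ := hy
    simp only [mem_filter, mem_cls] at hℓ'
    exact ⟨ℓ', hℓ'.1.1, hℓ'.2⟩
  have hsupp' : ∀ y, (N₁ y ≠ 0 ∨ N₂ y ≠ 0) → ∃ ℓ' ∈ Lab typ e, cnt typ ℓ' j false = y := by
    rintro y (h | h)
    · exact hsupp ℓ₁ h₁ y (by simpa [hN₁] using h)
    · exact hsupp ℓ₂ h₂ y (by simpa [hN₂] using h)
  have hmain := lr_order (range (tot typ false + 1)) N₁ N₂ hlr F
    (fun y z hyz hy hz => hF y z hyz (hsupp' y hy) (hsupp' z hz))
  rw [P_formula hij hik hjk h₁, P_formula hij hik hjk h₂]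
  have hZ : ∀ (ℓ : C → Fin 3), ℓ ∈ Lab typ e → 0 < ∑ y ∈ range (tot typ false + 1),
      (Nc (tot typ false - cnt typ ℓ i false) (tot typ true - cnt typ ℓ i true) (e j) y : ℝ) := by
    intro ℓ hℓ
    have h1 := sum_cls (e := e) hij hik hjk hℓ (fun _ => (1 : ℝ))
    simp only [Finset.sum_const, nsmul_eq_mul, mul_one, one_mul] at h1
    rw [← h1]
    exact_mod_cast cls_card_pos hℓ
  rw [div_le_div_iff₀ (hZ ℓ₂ h₂) (hZ ℓ₁ h₁)]
  exact hmain

section Eig

variable {v : (C → Fin 3) → ℝ} {μ : ℝ}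

/-- Eigenvectors with eigenvalue `> 2`: all `P i v` are constant. -/
theorem eig_const (hμ : 2 < μ) (hv : ∀ ℓ ∈ Lab typ e, ∑ i, P typ e i v ℓ = μ * v ℓ) (i : Fin 3)
    {ℓ₁ ℓ₂ : C → Fin 3} (h₁ : ℓ₁ ∈ Lab typ e) (h₂ : ℓ₂ ∈ Lab typ e) :
    P typ e i v ℓ₂ - P typ e i v ℓ₁ ≤ 0 := by
  set X := Lab typ e with hX
  have hμ0 : 0 < μ := by linarith
  set G : Fin 3 → (C → Fin 3) → ℝ := fun i ℓ => P typ e i v ℓ / μ with hG
  set t := μ - 1 with ht
  have ht1 : 1 < t := by linarith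
  have ht0 : 0 < t := by linarith
  have hGsum : ∀ ℓ ∈ X, v ℓ = ∑ i, G i ℓ := by
    intro ℓ hℓ
    simp only [hG]
    rw [← Finset.sum_div, hv ℓ hℓ]
    field_simp
  -- `G i` as a function of the count
  have hGcnt : ∀ i, ∀ ℓ ∈ X, ∀ ℓ' ∈ X, cnt typ ℓ i false = cnt typ ℓ' i false → G i ℓ = G i ℓ' := by
    intro i ℓ hℓ ℓ' hℓ' hc
    simp only [hG]
    rw [P_of_cnt hμ hv i _ ℓ ℓ' hℓ hℓ' hc rfl]
  -- The idempotent-relation
  have hrel : ∀ {i j k : Fin 3}, i ≠ j → i ≠ k → j ≠ k → ∀ ℓ ∈ X,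
      P typ e i (G j) ℓ + P typ e i (G k) ℓ = t * G i ℓ := by
    intro i j k hij hik hjk ℓ hℓ
    have h1 : P typ e i v ℓ = ∑ l, P typ e i (G l) ℓ := by
      unfold P
      rw [avg_congr_on hGsum ℓ, avg_sum]
    have h2 : P typ e i (G i) ℓ = G i ℓ := by
      have h3 : G i = fun ℓ' => μ⁻¹ * P typ e i v ℓ' := by
        funext ℓ'; simp only [hG]; rw [div_eq_inv_mul]
      rw [h3]
      unfold P
      rw [avg_mul_left, avg_idem v hℓ]
    rw [sum_fin3 hij hik hjk, h2] at h1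
    have h4 : P typ e i v ℓ = μ * G i ℓ := by
      simp only [hG]; field_simp
    rw [h4] at h1
    simp only [ht]
    linarith
  -- Lipschitz improvement
  have hsum_m : ∀ {i j k : Fin 3}, i ≠ j → i ≠ k → j ≠ k → ∀ ℓ ∈ X,
      P typ e i (fun ℓ' => (cnt typ ℓ' j false : ℝ)) ℓ +
        P typ e i (fun ℓ' => (cnt typ ℓ' k false : ℝ)) ℓ =
        (tot typ false : ℝ) - cnt typ ℓ i false := by
    intro i j k hij hik hjk ℓ hℓ
    have h1 : ∀ ℓ' ∈ X, (fun ℓ' => (cnt typ ℓ' j false : ℝ) + (cnt typ ℓ' k false : ℝ)) ℓ' =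
        (tot typ false : ℝ) - cnt typ ℓ' i false := by
      intro ℓ' _
      have := cnt_add (typ := typ) hij hik hjk ℓ' false
      simp only
      rw [← this]
      push_cast
      ring
    unfold P
    rw [← avg_add, avg_congr_on h1, avg_sub, avg_const _ hℓ]
    congr 1
    exact avg_of_const_on_cls hℓ fun y hy hk => by
      have h2 : cnt typ y i false = cnt typ ℓ i false := by
        unfold cnt
        congr 1
        ext c
        have := key_eq_iff.1 hk c
        simp only [mem_filter, mem_univ, true_and, this]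
      rw [h2]
  have hstep : ∀ L : ℝ, 0 ≤ L →
      (∀ i, ∀ ℓ₁ ∈ X, ∀ ℓ₂ ∈ X, G i ℓ₂ - G i ℓ₁ ≤
        L * |(cnt typ ℓ₂ i false : ℝ) - cnt typ ℓ₁ i false|) →
      (∀ i, ∀ ℓ₁ ∈ X, ∀ ℓ₂ ∈ X, G i ℓ₂ - G i ℓ₁ ≤
        (L / t) * |(cnt typ ℓ₂ i false : ℝ) - cnt typ ℓ₁ i false|) := by
    intro L hL0 hL
    -- core comparison for both signs
    have hcore : ∀ ε : ℝ, (ε = 1 ∨ ε = -1) → ∀ {i j k : Fin 3}, i ≠ j → i ≠ k → j ≠ k →
        ∀ ℓl ∈ X, ∀ ℓh ∈ X, cnt typ ℓl i false ≤ cnt typ ℓh i false →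
        ε * t * (G i ℓh - G i ℓl) ≤ L * ((cnt typ ℓh i false : ℝ) - cnt typ ℓl i false) := by
      intro ε hε i j k hij hik hjk ℓl hl ℓh hh hle
      have hone : ∀ {j k : Fin 3}, i ≠ j → i ≠ k → j ≠ k →
          L * P typ e i (fun ℓ' => (cnt typ ℓ' j false : ℝ)) ℓh + ε * P typ e i (G j) ℓh ≤
          L * P typ e i (fun ℓ' => (cnt typ ℓ' j false : ℝ)) ℓl + ε * P typ e i (G j) ℓl := by
        intro j k hij hik hjk
        classical
        -- the function of the count
        set H : ℕ → ℝ := fun y => if h : ∃ ℓ' ∈ X, cnt typ ℓ' j false = y then G j h.choose else 0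
          with hH
        have hHG : ∀ ℓ' ∈ X, H (cnt typ ℓ' j false) = G j ℓ' := by
          intro ℓ' hℓ'
          have hex : ∃ ℓ'' ∈ X, cnt typ ℓ'' j false = cnt typ ℓ' j false := ⟨ℓ', hℓ', rfl⟩
          simp only [hH]
          rw [dif_pos hex]
          exact hGcnt j _ hex.choose_spec.1 _ hℓ' hex.choose_spec.2
        set F : ℕ → ℝ := fun y => L * (y : ℝ) + ε * H y with hF
        have hFmono : ∀ y z, y ≤ z → (∃ ℓ' ∈ X, cnt typ ℓ' j false = y) →
            (∃ ℓ' ∈ X, cnt typ ℓ' j false = z) → F y ≤ F z := by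
          rintro y z hyz ⟨ℓy, hℓy, rfl⟩ ⟨ℓz, hℓz, rfl⟩
          simp only [hF]
          rw [hHG ℓy hℓy, hHG ℓz hℓz]
          have h1 := hL j ℓy hℓy ℓz hℓz
          have h2 := hL j ℓz hℓz ℓy hℓy
          have hcast : (cnt typ ℓy j false : ℝ) ≤ cnt typ ℓz j false := by exact_mod_cast hyz
          rw [abs_of_nonneg (by linarith)] at h1
          rw [abs_of_nonpos (by linarith)] at h2
          rcases hε with rfl | rfl <;> nlinarith
        have hcmp := compare hij hik hjk hl hh hle F hFmono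
        have hPF : ∀ ℓ, P typ e i (fun ℓ' => F (cnt typ ℓ' j false)) ℓ =
            L * P typ e i (fun ℓ' => (cnt typ ℓ' j false : ℝ)) ℓ + ε * P typ e i (G j) ℓ := by
          intro ℓ
          have h1 : ∀ ℓ' ∈ X, (fun ℓ' => F (cnt typ ℓ' j false)) ℓ' =
              (fun ℓ' => L * (cnt typ ℓ' j false : ℝ) + ε * G j ℓ') ℓ' := by
            intro ℓ' hℓ'
            simp only [hF]
            rw [hHG ℓ' hℓ']
          unfold P
          rw [avg_congr_on h1, avg_add, avg_mul_left, avg_mul_left]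
        rw [hPF, hPF] at hcmp
        exact hcmp
      have hj := hone hij hik hjk
      have hk := hone hik hij hjk.symm
      have h1 := hrel hij hik hjk ℓh hh
      have h2 := hrel hij hik hjk ℓl hl
      have h3 := hsum_m hij hik hjk ℓh hh
      have h4 := hsum_m hij hik hjk ℓl hl
      have e1 : L * ((tot typ false : ℝ) - cnt typ ℓh i false) + ε * (t * G i ℓh) ≤
          L * ((tot typ false : ℝ) - cnt typ ℓl i false) + ε * (t * G i ℓl) := by
        rw [← h1, ← h2, ← h3, ← h4]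
        nlinarith
      nlinarith
    intro i ℓ₁ h₁ ℓ₂ h₂
    obtain ⟨j, hij, k, hik, hjk⟩ : ∃ j, i ≠ j ∧ ∃ k, i ≠ k ∧ j ≠ k := by
      revert i; decide
    rw [div_mul_eq_mul_div, le_div_iff₀ ht0]
    rcases le_total (cnt typ ℓ₁ i false) (cnt typ ℓ₂ i false) with hle | hle
    · have := hcore 1 (Or.inl rfl) hij hik hjk ℓ₁ h₁ ℓ₂ h₂ hle
      have hcast : (cnt typ ℓ₁ i false : ℝ) ≤ cnt typ ℓ₂ i false := by exact_mod_cast hle
      rw [abs_of_nonneg (by linarith)]
      linarith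
    · have := hcore (-1) (Or.inr rfl) hij hik hjk ℓ₂ h₂ ℓ₁ h₁ hle
      have hcast : (cnt typ ℓ₂ i false : ℝ) ≤ cnt typ ℓ₁ i false := by exact_mod_cast hle
      rw [abs_of_nonpos (by linarith)]
      linarith
  -- base case
  set M : ℝ := ∑ i, ∑ ℓ ∈ X, |G i ℓ| with hM
  have hMle : ∀ i, ∀ ℓ ∈ X, |G i ℓ| ≤ M := by
    intro i ℓ hℓ
    calc |G i ℓ| ≤ ∑ ℓ ∈ X, |G i ℓ| :=
          Finset.single_le_sum (f := fun ℓ => |G i ℓ|) (fun _ _ => abs_nonneg _) hℓ
      _ ≤ M := Finset.single_le_sum (f := fun i => ∑ ℓ ∈ X, |G i ℓ|)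
          (fun _ _ => Finset.sum_nonneg fun _ _ => abs_nonneg _) (mem_univ i)
  have hM0 : 0 ≤ M := Finset.sum_nonneg fun _ _ => Finset.sum_nonneg fun _ _ => abs_nonneg _
  have hbase : ∀ i, ∀ ℓ₁ ∈ X, ∀ ℓ₂ ∈ X, G i ℓ₂ - G i ℓ₁ ≤
      (2 * M) * |(cnt typ ℓ₂ i false : ℝ) - cnt typ ℓ₁ i false| := by
    intro i ℓ₁ h₁ ℓ₂ h₂
    by_cases hc : cnt typ ℓ₂ i false = cnt typ ℓ₁ i false
    · rw [hGcnt i ℓ₂ h₂ ℓ₁ h₁ hc, hc]; simp
    · have h1 : (1 : ℝ) ≤ |(cnt typ ℓ₂ i false : ℝ) - cnt typ ℓ₁ i false| := by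
        have h2 : (1 : ℤ) ≤ |(cnt typ ℓ₂ i false : ℤ) - cnt typ ℓ₁ i false| :=
          Int.one_le_abs (by omega)
        exact_mod_cast h2
      have h3 := hMle i ℓ₁ h₁
      have h4 := hMle i ℓ₂ h₂
      have h5 := le_abs_self (G i ℓ₂)
      have h6 := neg_abs_le (G i ℓ₁)
      nlinarith
  have hiter : ∀ n : ℕ, ∀ i, ∀ ℓ₁ ∈ X, ∀ ℓ₂ ∈ X, G i ℓ₂ - G i ℓ₁ ≤
      ((2 * M) / t ^ n) * |(cnt typ ℓ₂ i false : ℝ) - cnt typ ℓ₁ i false| := by
    intro n
    induction n with
    | zero => simpa using hbase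
    | succ n ih =>
      have := hstep _ (by positivity) ih
      intro i ℓ₁ h₁ ℓ₂ h₂
      have h3 := this i ℓ₁ h₁ ℓ₂ h₂
      rwa [div_div, ← pow_succ] at h3
  -- conclude
  have hfinal : G i ℓ₂ - G i ℓ₁ ≤ 0 := by
    by_contra hcon
    push Not at hcon
    set K := |(cnt typ ℓ₂ i false : ℝ) - cnt typ ℓ₁ i false| with hK
    have hK0 : 0 ≤ K := abs_nonneg _
    obtain ⟨n, hn⟩ := pow_unbounded_of_one_lt (2 * M * K / (G i ℓ₂ - G i ℓ₁)) ht1
    have h1 := hiter n i ℓ₁ h₁ ℓ₂ h₂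
    rw [div_lt_iff₀ hcon] at hn
    have hpos : 0 < t ^ n := by positivity
    rw [div_mul_eq_mul_div, le_div_iff₀ hpos] at h1
    nlinarith
  have h7 : P typ e i v ℓ₂ - P typ e i v ℓ₁ = μ * (G i ℓ₂ - G i ℓ₁) := by
    simp only [hG]; field_simp
  rw [h7]
  nlinarith

end Eig

/-- The operator used for the spectral argument on all functions. -/
noncomputable def T (typ : C → Bool) (e : Fin 3 → ℤ) : ((C → Fin 3) → ℝ) →ₗ[ℝ] ((C → Fin 3) → ℝ) where
  toFun f ℓ := if ℓ ∈ Lab typ e then ∑ i, P typ e i f ℓ else 3 * f ℓ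
  map_add' f g := by
    funext ℓ
    simp only [Pi.add_apply]
    split_ifs
    · rw [← Finset.sum_add_distrib]
      exact Finset.sum_congr rfl fun i _ => avg_add f g ℓ
    · ring
  map_smul' c f := by
    funext ℓ
    simp only [Pi.smul_apply, RingHom.id_apply, smul_eq_mul]
    split_ifs
    · rw [Finset.mul_sum]
      exact Finset.sum_congr rfl fun i _ => avg_mul_left c f ℓ
    · ring

lemma T_apply_mem (f : (C → Fin 3) → ℝ) {ℓ : C → Fin 3} (h : ℓ ∈ Lab typ e) :
    T typ e f ℓ = ∑ i, P typ e i f ℓ := if_pos h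

lemma T_apply_not_mem (f : (C → Fin 3) → ℝ) {ℓ : C → Fin 3} (h : ℓ ∉ Lab typ e) :
    T typ e f ℓ = 3 * f ℓ := if_neg h

lemma T_symm (f g : (C → Fin 3) → ℝ) :
    ∑ ℓ, T typ e f ℓ * g ℓ = ∑ ℓ, f ℓ * T typ e g ℓ := by
  rw [← Finset.sum_add_sum_compl (Lab typ e),
    ← Finset.sum_add_sum_compl (Lab typ e) (fun ℓ => f ℓ * T typ e g ℓ)]
  congr 1
  · have h1 : ∑ ℓ ∈ Lab typ e, T typ e f ℓ * g ℓ =
        ∑ i, ∑ ℓ ∈ Lab typ e, P typ e i f ℓ * g ℓ := by
      rw [Finset.sum_comm]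
      refine Finset.sum_congr rfl fun ℓ hℓ => ?_
      rw [T_apply_mem f hℓ, Finset.sum_mul]
    have h2 : ∑ ℓ ∈ Lab typ e, f ℓ * T typ e g ℓ =
        ∑ i, ∑ ℓ ∈ Lab typ e, f ℓ * P typ e i g ℓ := by
      rw [Finset.sum_comm]
      refine Finset.sum_congr rfl fun ℓ hℓ => ?_
      rw [T_apply_mem g hℓ, Finset.mul_sum]
    rw [h1, h2]
    exact Finset.sum_congr rfl fun i _ => avg_symm f g
  · refine Finset.sum_congr rfl fun ℓ hℓ => ?_
    have hℓ' : ℓ ∉ Lab typ e := Finset.mem_compl.1 hℓ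
    rw [T_apply_not_mem f hℓ', T_apply_not_mem g hℓ']
    ring

/-- **Triple lemma.** -/
theorem triple_lemma (typ : C → Bool) (e : Fin 3 → ℤ) (f : (C → Fin 3) → ℝ) :
    0 ≤ ∑ i, ∑ j ∈ univ.erase i, ∑ ℓ ∈ Lab typ e,
      (f ℓ - P typ e i f ℓ) * (f ℓ - P typ e j f ℓ) := by
  have hno : ∀ (μ : ℝ) (v : (C → Fin 3) → ℝ), v ≠ 0 → T typ e v = μ • v →
      0 ≤ (3 - μ) * (2 - μ) := by
    intro μ v hv0 hTv
    by_contra hcon
    push Not at hcon
    have hμ2 : 2 < μ := by
      by_contra h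
      push Not at h
      have : 0 ≤ 3 - μ := by linarith
      have : 0 ≤ 2 - μ := by linarith
      nlinarith [mul_nonneg ‹0 ≤ 3 - μ› ‹0 ≤ 2 - μ›]
    have hμ3 : μ ≠ 3 := by
      rintro rfl
      norm_num at hcon
    have hvX : ∀ ℓ ∈ Lab typ e, ∑ i, P typ e i v ℓ = μ * v ℓ := by
      intro ℓ hℓ
      have := congrFun hTv ℓ
      rwa [T_apply_mem v hℓ, Pi.smul_apply, smul_eq_mul] at this
    have hv_out : ∀ ℓ, ℓ ∉ Lab typ e → v ℓ = 0 := by
      intro ℓ hℓ
      have := congrFun hTv ℓ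
      rw [T_apply_not_mem v hℓ, Pi.smul_apply, smul_eq_mul] at this
      have h3 : (3 - μ) * v ℓ = 0 := by linarith
      rcases mul_eq_zero.1 h3 with h | h
      · exact absurd (by linarith) hμ3
      · exact h
    obtain ⟨ℓ₀, hℓ₀⟩ : ∃ ℓ, v ℓ ≠ 0 := by
      by_contra hall
      push Not at hall
      exact hv0 (funext hall)
    have hℓ₀X : ℓ₀ ∈ Lab typ e := by
      by_contra h
      exact hℓ₀ (hv_out ℓ₀ h)
    have hμ0 : μ ≠ 0 := by linarith
    have hconst : ∀ ℓ ∈ Lab typ e, v ℓ = v ℓ₀ := by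
      intro ℓ hℓ
      have h1 : ∀ i, P typ e i v ℓ = P typ e i v ℓ₀ := by
        intro i
        have h2 := eig_const hμ2 hvX i hℓ₀X hℓ
        have h3 := eig_const hμ2 hvX i hℓ hℓ₀X
        linarith
      have h4 := hvX ℓ hℓ
      have h5 := hvX ℓ₀ hℓ₀X
      simp only [h1] at h4
      rw [h5] at h4
      exact (mul_left_cancel₀ hμ0 h4).symm
    have h6 : ∀ i, P typ e i v ℓ₀ = v ℓ₀ := by
      intro i
      exact avg_of_const_on_cls hℓ₀X fun y hy _ => hconst y hy
    have h7 := hvX ℓ₀ hℓ₀X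
    simp only [h6, Finset.sum_const, Finset.card_univ, Fintype.card_fin, nsmul_eq_mul] at h7
    have h8 : ((3 : ℕ) : ℝ) * v ℓ₀ = μ * v ℓ₀ := h7
    have h9 := mul_right_cancel₀ hℓ₀ h8
    push_cast at h9
    exact hμ3 h9.symm
  have hmain := quad_nonneg_of_eig_fun (T typ e) T_symm hno f
  -- rewrite the sum
  rw [← Finset.sum_add_sum_compl (Lab typ e)] at hmain
  have hout : ∑ ℓ ∈ (Lab typ e)ᶜ, (3 * f ℓ - T typ e f ℓ) * (2 * f ℓ - T typ e f ℓ) = 0 := by
    refine Finset.sum_eq_zero fun ℓ hℓ => ?_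
    rw [T_apply_not_mem f (Finset.mem_compl.1 hℓ)]
    ring
  rw [hout, add_zero] at hmain
  set Q : Fin 3 → (C → Fin 3) → ℝ := fun i ℓ => f ℓ - P typ e i f ℓ with hQ
  have hin : ∑ ℓ ∈ Lab typ e, (3 * f ℓ - T typ e f ℓ) * (2 * f ℓ - T typ e f ℓ) =
      ∑ ℓ ∈ Lab typ e, ((∑ i, Q i ℓ) * (∑ j, Q j ℓ) - ∑ i, f ℓ * Q i ℓ) := by
    refine Finset.sum_congr rfl fun ℓ hℓ => ?_
    rw [T_apply_mem f hℓ]
    simp only [hQ, Finset.sum_sub_distrib, Finset.sum_const, Finset.card_univ, Fintype.card_fin,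
      nsmul_eq_mul, Finset.mul_sum, mul_sub]
    simp only [Fin.sum_univ_three]
    push_cast
    ring
  rw [hin] at hmain
  have hproj : ∀ i, ∑ ℓ ∈ Lab typ e, f ℓ * Q i ℓ = ∑ ℓ ∈ Lab typ e, Q i ℓ * Q i ℓ := by
    intro i
    have h1 := avg_sq (X := Lab typ e) (key := key i) f
    simp only [hQ]
    have h2 : ∑ ℓ ∈ Lab typ e, (f ℓ - P typ e i f ℓ) * (f ℓ - P typ e i f ℓ) =
        ∑ ℓ ∈ Lab typ e, f ℓ * f ℓ - 2 * ∑ ℓ ∈ Lab typ e, f ℓ * P typ e i f ℓ +
          ∑ ℓ ∈ Lab typ e, (P typ e i f ℓ) ^ 2 := by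
      rw [Finset.mul_sum, ← Finset.sum_sub_distrib, ← Finset.sum_add_distrib]
      exact Finset.sum_congr rfl fun ℓ _ => by ring
    have h3 : ∑ ℓ ∈ Lab typ e, f ℓ * (f ℓ - P typ e i f ℓ) =
        ∑ ℓ ∈ Lab typ e, f ℓ * f ℓ - ∑ ℓ ∈ Lab typ e, f ℓ * P typ e i f ℓ := by
      rw [← Finset.sum_sub_distrib]
      exact Finset.sum_congr rfl fun ℓ _ => by ring
    have h4 : ∑ ℓ ∈ Lab typ e, (P typ e i f ℓ) ^ 2 = ∑ ℓ ∈ Lab typ e, f ℓ * P typ e i f ℓ := h1
    rw [h2, h3, h4]
    ring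
  have hgoal : ∑ i, ∑ j ∈ univ.erase i, ∑ ℓ ∈ Lab typ e, Q i ℓ * Q j ℓ =
      ∑ ℓ ∈ Lab typ e, ((∑ i, Q i ℓ) * (∑ j, Q j ℓ) - ∑ i, f ℓ * Q i ℓ) := by
    rw [Finset.sum_sub_distrib]
    rw [show ∑ ℓ ∈ Lab typ e, ∑ i, f ℓ * Q i ℓ = ∑ i, ∑ ℓ ∈ Lab typ e, f ℓ * Q i ℓ from
      Finset.sum_comm]
    simp only [hproj]
    simp only [Finset.sum_mul_sum]
    rw [Finset.sum_comm (s := Lab typ e), ← Finset.sum_sub_distrib]
    refine Finset.sum_congr rfl fun i _ => ?_
    rw [Finset.sum_comm (s := Lab typ e)]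
    rw [Finset.sum_erase_eq_sub (mem_univ i)]
  rw [← hgoal] at hmain
  exact hmain

end Lab

end Crest.Agent.Lib.SwitchTriple
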