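import Mathlib
import Crest.Agent.Lib.CylArea

/-!
# Triangular cylinders for radial sweeps (row 211, S0328)

Single-piece geometry: projections along `e + w`, area of projected triangles in `e^⊥`,
covering of a sweep piece by a triangle, inscribed triangle, Riemann sums.
-/

set_option autoImplicit false

open MeasureTheory
open scoped ENNReal RealInnerProductSpace

namespace Crest.Agent.Lib.SweepCyl

open Crest.Agent.Lib.CylArea (R3 inner3 normsq3 area_triangle3 convexHull_triple_eq stdTri)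

/-- Orthogonal projection along `u` onto `u^⊥`. -/
noncomputable def prj (u y : R3) : R3 := y - (⟪y, u⟫ / ‖u‖ ^ 2) • u

lemma prj_add (u x y : R3) : prj u (x + y) = prj u x + prj u y := by
  simp only [prj, inner_add_left, add_div, add_smul]; abel

lemma prj_sub (u x y : R3) : prj u (x - y) = prj u x - prj u y := by
  simp only [prj, inner_sub_left, sub_div, sub_smul]; abel

lemma prj_smul (u : R3) (c : ℝ) (x : R3) : prj u (c • x) = c • prj u x := by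
  simp only [prj, real_inner_smul_left, smul_sub, mul_div_assoc, mul_smul]

lemma inner_prj {u : R3} (hu : u ≠ 0) (y : R3) : ⟪prj u y, u⟫ = 0 := by
  have h : ‖u‖ ^ 2 ≠ 0 := pow_ne_zero _ (norm_ne_zero_iff.2 hu)
  simp only [prj, inner_sub_left, real_inner_smul_left, real_inner_self_eq_norm_sq]
  field_simp
  ring

lemma prj_add_smul_self {u : R3} (hu : u ≠ 0) (y : R3) (σ : ℝ) :
    prj u (y + σ • u) = prj u y := by
  have h : ‖u‖ ^ 2 ≠ 0 := pow_ne_zero _ (norm_ne_zero_iff.2 hu)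
  have h1 : prj u (σ • u) = 0 := by
    rw [prj_smul]
    simp only [prj, real_inner_self_eq_norm_sq, div_self h, one_smul, sub_self, smul_zero]
  rw [prj_add, h1, add_zero]

lemma eq_prj_add (u x : R3) : x = prj u x + (⟪x, u⟫ / ‖u‖ ^ 2) • u := by
  simp [prj]

lemma inner_prj_prj {u : R3} (hu : u ≠ 0) (x y : R3) :
    ⟪prj u x, prj u y⟫ = ⟪x, y⟫ - ⟪x, u⟫ * ⟪y, u⟫ / ‖u‖ ^ 2 := by
  have h : ‖u‖ ^ 2 ≠ 0 := pow_ne_zero _ (norm_ne_zero_iff.2 hu)
  simp only [prj, inner_sub_left, inner_sub_right, real_inner_smul_left, real_inner_smul_right,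
    real_inner_self_eq_norm_sq, real_inner_comm x u, real_inner_comm y u]
  field_simp
  ring

/-- The Gram determinant of three vectors of a plane vanishes. -/
lemma gram3_eq_zero {e x y w : R3} (he : ‖e‖ = 1) (hx : ⟪x, e⟫ = 0) (hy : ⟪y, e⟫ = 0)
    (hw : ⟪w, e⟫ = 0) :
    ‖x‖ ^ 2 * ‖y‖ ^ 2 * ‖w‖ ^ 2 + 2 * ⟪x, y⟫ * ⟪y, w⟫ * ⟪x, w⟫ - ‖x‖ ^ 2 * ⟪y, w⟫ ^ 2
      - ‖y‖ ^ 2 * ⟪x, w⟫ ^ 2 - ‖w‖ ^ 2 * ⟪x, y⟫ ^ 2 = 0 := by
  have he2 : e 0 ^ 2 + e 1 ^ 2 + e 2 ^ 2 = 1 := by rw [← normsq3, he]; norm_num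
  simp only [inner3] at hx hy hw ⊢
  simp only [normsq3]
  generalize e 0 = e0 at *
  generalize e 1 = e1 at *
  generalize e 2 = e2 at *
  generalize x 0 = x0 at *
  generalize x 1 = x1 at *
  generalize x 2 = x2 at *
  generalize y 0 = y0 at *
  generalize y 1 = y1 at *
  generalize y 2 = y2 at *
  generalize w 0 = w0 at *
  generalize w 1 = w1 at *
  generalize w 2 = w2 at *
  have h0 : (x0 * (y1 * w2 - y2 * w1) - x1 * (y0 * w2 - y2 * w0) + x2 * (y0 * w1 - y1 * w0)) * e0 = 0 := by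
    linear_combination (y1 * w2 - y2 * w1) * hx - (x1 * w2 - x2 * w1) * hy + (x1 * y2 - x2 * y1) * hw
  have h1 : (x0 * (y1 * w2 - y2 * w1) - x1 * (y0 * w2 - y2 * w0) + x2 * (y0 * w1 - y1 * w0)) * e1 = 0 := by
    linear_combination (-(y0 * w2 - y2 * w0)) * hx + (x0 * w2 - x2 * w0) * hy - (x0 * y2 - x2 * y0) * hw
  have h2 : (x0 * (y1 * w2 - y2 * w1) - x1 * (y0 * w2 - y2 * w0) + x2 * (y0 * w1 - y1 * w0)) * e2 = 0 := by
    linear_combination (y0 * w1 - y1 * w0) * hx - (x0 * w1 - x1 * w0) * hy + (x0 * y1 - x1 * y0) * hw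
  have hd : x0 * (y1 * w2 - y2 * w1) - x1 * (y0 * w2 - y2 * w0) + x2 * (y0 * w1 - y1 * w0) = 0 := by
    set d := x0 * (y1 * w2 - y2 * w1) - x1 * (y0 * w2 - y2 * w0) + x2 * (y0 * w1 - y1 * w0)
    have : d ^ 2 = 0 := by
      have : d ^ 2 = (d * e0) ^ 2 + (d * e1) ^ 2 + (d * e2) ^ 2 := by
        linear_combination (-d ^ 2) * he2
      rw [this, h0, h1, h2]; ring
    exact pow_eq_zero_iff (by norm_num) |>.1 this
  have : (x0 ^ 2 + x1 ^ 2 + x2 ^ 2) * (y0 ^ 2 + y1 ^ 2 + y2 ^ 2) * (w0 ^ 2 + w1 ^ 2 + w2 ^ 2)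
      + 2 * (x0 * y0 + x1 * y1 + x2 * y2) * (y0 * w0 + y1 * w1 + y2 * w2) * (x0 * w0 + x1 * w1 + x2 * w2)
      - (x0 ^ 2 + x1 ^ 2 + x2 ^ 2) * (y0 * w0 + y1 * w1 + y2 * w2) ^ 2
      - (y0 ^ 2 + y1 ^ 2 + y2 ^ 2) * (x0 * w0 + x1 * w1 + x2 * w2) ^ 2
      - (w0 ^ 2 + w1 ^ 2 + w2 ^ 2) * (x0 * y0 + x1 * y1 + x2 * y2) ^ 2
      = (x0 * (y1 * w2 - y2 * w1) - x1 * (y0 * w2 - y2 * w0) + x2 * (y0 * w1 - y1 * w0)) ^ 2 := by ring
  rw [this, hd]; ring

/-- The Gram determinant of two vectors. -/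
noncomputable def grm (x y : R3) : ℝ := ‖x‖ ^ 2 * ‖y‖ ^ 2 - ⟪x, y⟫ ^ 2

lemma norm_sq_add_of_perp {e w : R3} (he : ‖e‖ = 1) (hw : ⟪w, e⟫ = 0) :
    ‖e + w‖ ^ 2 = 1 + ‖w‖ ^ 2 := by
  rw [@norm_add_sq_real, he, real_inner_comm, hw]; ring

lemma add_ne_zero_of_perp {e w : R3} (he : ‖e‖ = 1) (hw : ⟪w, e⟫ = 0) : e + w ≠ 0 := by
  intro h
  have := norm_sq_add_of_perp he hw
  rw [h] at this
  simp at this
  nlinarith [sq_nonneg ‖w‖]

/-- Gram determinant under projection along `e + w` of vectors of `e^⊥`. -/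
lemma grm_prj {e x y w : R3} (he : ‖e‖ = 1) (hx : ⟪x, e⟫ = 0) (hy : ⟪y, e⟫ = 0)
    (hw : ⟪w, e⟫ = 0) :
    grm (prj (e + w) x) (prj (e + w) y) = grm x y / (1 + ‖w‖ ^ 2) := by
  have hu := add_ne_zero_of_perp he hw
  have hU := norm_sq_add_of_perp he hw
  have h3 := gram3_eq_zero he hx hy hw
  have hU0 : (1 + ‖w‖ ^ 2) ≠ 0 := by positivity
  have hxu : ⟪x, e + w⟫ = ⟪x, w⟫ := by rw [inner_add_right, hx, zero_add]
  have hyu : ⟪y, e + w⟫ = ⟪y, w⟫ := by rw [inner_add_right, hy, zero_add]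
  unfold grm
  rw [← real_inner_self_eq_norm_sq (prj (e + w) x), ← real_inner_self_eq_norm_sq (prj (e + w) y),
    inner_prj_prj hu, inner_prj_prj hu, inner_prj_prj hu, hU, hxu, hyu,
    real_inner_self_eq_norm_sq, real_inner_self_eq_norm_sq]
  field_simp
  linear_combination (1 + ‖w‖ ^ 2) * h3

lemma grm_combo (a b : R3) (m α₁ α₂ : ℝ) :
    grm (m • (a + α₁ • b)) (m • (a + α₂ • b)) = (m ^ 2 * (α₂ - α₁)) ^ 2 * grm a b := by
  unfold grm
  rw [← real_inner_self_eq_norm_sq (m • (a + α₁ • b)), ← real_inner_self_eq_norm_sq (m • (a + α₂ • b)),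
    ← real_inner_self_eq_norm_sq a, ← real_inner_self_eq_norm_sq b]
  simp only [inner_add_left, inner_add_right, real_inner_smul_left, real_inner_smul_right,
    real_inner_comm a b]
  ring

lemma grm_nonneg (x y : R3) : 0 ≤ grm x y := by
  have := real_inner_mul_inner_self_le x y
  unfold grm
  rw [real_inner_self_eq_norm_sq, real_inner_self_eq_norm_sq] at this
  nlinarith

lemma grm_pos_of_li {a b : R3} (hab : LinearIndependent ℝ ![a, b]) : 0 < grm a b := by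
  rw [LinearIndependent.pair_iff] at hab
  have hb : b ≠ 0 := by
    intro h
    have := hab 0 1 (by simp [h])
    simp at this
  have hb2 : 0 < ‖b‖ ^ 2 := by positivity
  by_contra hcon
  have h0 : grm a b = 0 := le_antisymm (not_lt.1 hcon) (grm_nonneg a b)
  have hv : ‖‖b‖ ^ 2 • a - ⟪a, b⟫ • b‖ ^ 2 = ‖b‖ ^ 2 * grm a b := by
    unfold grm
    have haa : ⟪a, a⟫ = ‖a‖ ^ 2 := real_inner_self_eq_norm_sq a
    have hbb : ⟪b, b⟫ = ‖b‖ ^ 2 := real_inner_self_eq_norm_sq b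
    rw [← real_inner_self_eq_norm_sq (‖b‖ ^ 2 • a - ⟪a, b⟫ • b)]
    simp only [inner_sub_left, inner_sub_right, real_inner_smul_left, real_inner_smul_right,
      real_inner_comm a b, haa, hbb]
    ring
  rw [h0, mul_zero] at hv
  have hv0 : ‖b‖ ^ 2 • a - ⟪a, b⟫ • b = 0 := by
    have := pow_eq_zero_iff (n := 2) (by norm_num) |>.1 hv
    exact norm_eq_zero.1 this
  have := hab (‖b‖ ^ 2) (-⟪a, b⟫) (by rw [neg_smul, ← sub_eq_add_neg]; exact hv0)
  exact absurd this.1 hb2.ne'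

lemma affInd_of_grm_pos {p q r : R3} (h : 0 < grm (q - p) (r - p)) :
    AffineIndependent ℝ ![p, q, r] := by
  rw [affineIndependent_iff_not_collinear_set]
  intro hc
  obtain ⟨v, hv⟩ := (collinear_iff_of_mem (p₀ := p) (by simp)).1 hc
  obtain ⟨r1, h1⟩ := hv q (by simp)
  obtain ⟨r2, h2⟩ := hv r (by simp)
  have h1' : q - p = r1 • v := by rw [h1]; simp
  have h2' : r - p = r2 • v := by rw [h2]; simp
  rw [h1', h2'] at h
  unfold grm at h
  rw [← real_inner_self_eq_norm_sq (r1 • v), ← real_inner_self_eq_norm_sq (r2 • v)] at h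
  simp only [real_inner_smul_left, real_inner_smul_right] at h
  have h0 : (0 : ℝ) < 0 := by
    convert h using 1
    ring
  exact lt_irrefl _ h0

/-- Area of a projected triangle of the plane `e^⊥` (vertices in a fan). -/
lemma area_tri {e a b w : R3} (he : ‖e‖ = 1) (ha : ⟪a, e⟫ = 0) (hb : ⟪b, e⟫ = 0)
    (hw : ⟪w, e⟫ = 0) (P : R3) (m α₁ α₂ : ℝ) (hα : α₁ ≤ α₂) :
    μHE[2] (convexHull ℝ {prj (e + w) P, prj (e + w) (P + m • (a + α₁ • b)),
        prj (e + w) (P + m • (a + α₂ • b))}) =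
      ENNReal.ofReal (1 / 2 * (m ^ 2 * (α₂ - α₁) * (√(grm a b) / √(1 + ‖w‖ ^ 2)))) := by
  rw [area_triangle3]
  congr 2
  have h1 : prj (e + w) (P + m • (a + α₁ • b)) - prj (e + w) P = prj (e + w) (m • (a + α₁ • b)) := by
    rw [prj_add]; abel
  have h2 : prj (e + w) (P + m • (a + α₂ • b)) - prj (e + w) P = prj (e + w) (m • (a + α₂ • b)) := by
    rw [prj_add]; abel
  rw [h1, h2]
  have hx : ∀ α : ℝ, ⟪m • (a + α • b), e⟫ = 0 := by
    intro α
    simp only [real_inner_smul_left, inner_add_left, ha, hb]; ring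
  have := grm_prj he (hx α₁) (hx α₂) hw
  unfold grm at this
  rw [this]
  have h3 := grm_combo a b m α₁ α₂
  unfold grm at h3
  rw [h3]
  have hnn : 0 ≤ m ^ 2 * (α₂ - α₁) := by
    have : 0 ≤ α₂ - α₁ := by linarith
    positivity
  rw [mul_div_assoc, Real.sqrt_mul (sq_nonneg _), Real.sqrt_sq hnn,
    Real.sqrt_div (by have := grm_nonneg a b; unfold grm at this; exact this)]
  rfl

lemma mem_conv_bary (p q r : R3) (l₁ l₂ : ℝ) (h₁ : 0 ≤ l₁) (h₂ : 0 ≤ l₂) (h : l₁ + l₂ ≤ 1) :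
    p + l₁ • (q - p) + l₂ • (r - p) ∈ convexHull ℝ {p, q, r} := by
  rw [convexHull_triple_eq]
  exact ⟨!₂[l₁, l₂], by simpa [stdTri] using ⟨h₁, h₂, h⟩, by simp⟩

/-- A point of the sweep piece projects into the triangle. -/
lemma cover_piece {e a b wc wτ p₀ : R3} (hu : e + wc ≠ 0)
    {c τ ρ s W₁ W₃ ε m α₁ α₂ : ℝ} (hm : 0 < m) (hα : α₁ < α₂)
    (hτ : wτ - wc = W₁ • a + (W₃ + c * W₁) • b)
    (hρ : ρ + s * W₁ + ε ≤ m)
    (h1 : 0 ≤ ρ * (τ - α₁) + s * W₃ + (s * W₁ + ε) * (c - α₁))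
    (h2 : 0 ≤ ρ * (α₂ - τ) + (s * W₁ + ε) * (α₂ - c) - s * W₃) :
    prj (e + wc) (p₀ + ρ • (a + τ • b) + s • (e + wτ)) ∈
      convexHull ℝ {prj (e + wc) (p₀ - ε • (a + c • b)),
        prj (e + wc) (p₀ - ε • (a + c • b) + m • (a + α₁ • b)),
        prj (e + wc) (p₀ - ε • (a + c • b) + m • (a + α₂ • b))} := by
  set D := m * (α₂ - α₁) with hD
  have hD0 : 0 < D := mul_pos hm (by linarith)
  set l₁ := (ρ * (α₂ - τ) + (s * W₁ + ε) * (α₂ - c) - s * W₃) / D with hl₁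
  set l₂ := (ρ * (τ - α₁) + s * W₃ + (s * W₁ + ε) * (c - α₁)) / D with hl₂
  have hl₁0 : 0 ≤ l₁ := div_nonneg h2 hD0.le
  have hl₂0 : 0 ≤ l₂ := div_nonneg h1 hD0.le
  have hαne : α₂ - α₁ ≠ 0 := by linarith [hα] |> ne_of_gt
  have hA : l₁ * m + l₂ * m = ρ + s * W₁ + ε := by
    rw [hl₁, hl₂, hD]; field_simp; ring
  have hB : l₁ * m * α₁ + l₂ * m * α₂ = ρ * τ + s * (W₃ + c * W₁) + ε * c := by
    rw [hl₁, hl₂, hD]; field_simp; ring
  have hsum : l₁ + l₂ ≤ 1 := by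
    have : (l₁ + l₂) * m ≤ 1 * m := by nlinarith
    exact le_of_mul_le_mul_right this hm
  have hwτ : wτ = wc + W₁ • a + (W₃ + c * W₁) • b := by
    rw [add_assoc, ← hτ]; abel
  set P := p₀ - ε • (a + c • b) with hP
  have hx : p₀ + ρ • (a + τ • b) + s • (e + wτ)
      = (P + l₁ • (m • (a + α₁ • b)) + l₂ • (m • (a + α₂ • b))) + s • (e + wc) := by
    have h3 : P + l₁ • (m • (a + α₁ • b)) + l₂ • (m • (a + α₂ • b))
        = p₀ + (l₁ * m + l₂ * m - ε) • a + (l₁ * m * α₁ + l₂ * m * α₂ - ε * c) • b := by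
      rw [hP]; module
    rw [h3, hA, hB, hwτ]
    module
  rw [hx, prj_add_smul_self hu]
  have h4 : prj (e + wc) (P + l₁ • (m • (a + α₁ • b)) + l₂ • (m • (a + α₂ • b)))
      = prj (e + wc) P + l₁ • (prj (e + wc) (P + m • (a + α₁ • b)) - prj (e + wc) P)
        + l₂ • (prj (e + wc) (P + m • (a + α₂ • b)) - prj (e + wc) P) := by
    simp only [prj_add, prj_smul]
    abel_nf
  rw [h4]
  exact mem_conv_bary _ _ _ _ _ hl₁0 hl₂0 hsum

/-- The inscribed triangle: the slice `s = 0` of a sweep piece. -/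
lemma inscribed_piece {a b p₀ u : R3} {t₁ t₂ m : ℝ} (ht : t₁ ≤ t₂) (hm : 0 ≤ m)
    (S : Set R3)
    (hS : ∀ τ ∈ Set.Icc t₁ t₂, ∀ ρ ∈ Set.Icc 0 m, p₀ + ρ • (a + τ • b) ∈ S) :
    convexHull ℝ {prj u p₀, prj u (p₀ + m • (a + t₁ • b)), prj u (p₀ + m • (a + t₂ • b))}
      ⊆ prj u '' S := by
  rw [convexHull_triple_eq]
  rintro _ ⟨x, ⟨h0, h1, h2⟩, rfl⟩
  beta_reduce
  generalize x 0 = l₁ at *
  generalize x 1 = l₂ at *
  by_cases hl : l₁ + l₂ = 0
  · have h3 : l₁ = 0 := by linarith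
    have h4 : l₂ = 0 := by linarith
    refine ⟨p₀ + (0 : ℝ) • (a + t₁ • b), hS t₁ ⟨le_refl _, ht⟩ 0 ⟨le_refl _, hm⟩, ?_⟩
    simp [h3, h4]
  · have hpos : 0 < l₁ + l₂ := lt_of_le_of_ne (by linarith) (Ne.symm hl)
    set τ := (l₁ * t₁ + l₂ * t₂) / (l₁ + l₂) with hτ
    have hτ1 : t₁ ≤ τ := by
      rw [hτ, le_div_iff₀ hpos]; nlinarith
    have hτ2 : τ ≤ t₂ := by
      rw [hτ, div_le_iff₀ hpos]; nlinarith
    refine ⟨p₀ + ((l₁ + l₂) * m) • (a + τ • b), hS τ ⟨hτ1, hτ2⟩ _ ⟨by positivity, ?_⟩, ?_⟩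
    · nlinarith
    · have h5 : (l₁ + l₂) * τ = l₁ * t₁ + l₂ * t₂ := by
        rw [hτ]; field_simp
      have h6 : ((l₁ + l₂) * m) • (a + τ • b)
          = l₁ • (m • (a + t₁ • b)) + l₂ • (m • (a + t₂ • b)) := by
        have : ((l₁ + l₂) * m) • (a + τ • b)
            = ((l₁ + l₂) * m) • a + (m * ((l₁ + l₂) * τ)) • b := by module
        rw [this, h5]
        module
      rw [h6]
      simp only [prj_add, prj_smul]
      abel_nf

/-- Coordinates of increments of `w`. -/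
lemma w_diff {a b : R3} (hG : 0 < grm a b) {w : ℝ → R3} {lam : ℝ → ℝ} {α β Λ : ℝ}
    (hw' : ∀ t ∈ Set.Icc α β, HasDerivWithinAt w (lam t • (a + t • b)) (Set.Icc α β) t)
    (hΛ : ∀ t ∈ Set.Icc α β, |lam t| ≤ Λ) {t₁ t₂ c τ : ℝ} (h₁ : α ≤ t₁) (h₂ : t₂ ≤ β)
    (hc : c ∈ Set.Icc t₁ t₂) (hτ : τ ∈ Set.Icc t₁ t₂) :
    ∃ W₁ W₃ : ℝ, w τ - w c = W₁ • a + (W₃ + c * W₁) • b ∧ |W₁| ≤ Λ * (t₂ - t₁) ∧
      |W₃| ≤ Λ * (t₂ - t₁) ^ 2 := by
  have hΛ0 : 0 ≤ Λ := (abs_nonneg _).trans (hΛ c ⟨h₁.trans hc.1, hc.2.trans h₂⟩)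
  have hsub : Set.Icc t₁ t₂ ⊆ Set.Icc α β := Set.Icc_subset_Icc h₁ h₂
  have hconv : Convex ℝ (Set.Icc t₁ t₂) := convex_Icc _ _
  have hΔ : 0 ≤ t₂ - t₁ := by linarith [hc.1, hc.2]
  have hGne : grm a b ≠ 0 := hG.ne'
  -- dual vectors
  set A : R3 := (1 / grm a b) • (‖b‖ ^ 2 • a - ⟪a, b⟫ • b) with hA
  set B : R3 := (1 / grm a b) • (‖a‖ ^ 2 • b - ⟪a, b⟫ • a) with hB
  have haA : ⟪a, A⟫ = 1 := by
    rw [hA]
    simp only [real_inner_smul_right, inner_sub_right, real_inner_self_eq_norm_sq]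
    unfold grm
    unfold grm at hGne
    field_simp
  have hbA : ⟪b, A⟫ = 0 := by
    rw [hA]
    simp only [real_inner_smul_right, inner_sub_right, real_inner_self_eq_norm_sq,
      real_inner_comm a b]
    ring
  have haB : ⟪a, B⟫ = 0 := by
    rw [hB]
    simp only [real_inner_smul_right, inner_sub_right, real_inner_self_eq_norm_sq]
    ring
  have hbB : ⟪b, B⟫ = 1 := by
    rw [hB]
    simp only [real_inner_smul_right, inner_sub_right, real_inner_self_eq_norm_sq,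
      real_inner_comm a b]
    unfold grm
    unfold grm at hGne
    field_simp
  have hinner : ∀ (V : R3) (t : ℝ), t ∈ Set.Icc t₁ t₂ →
      HasDerivWithinAt (fun x => ⟪w x, V⟫) (⟪lam t • (a + t • b), V⟫) (Set.Icc t₁ t₂) t := by
    intro V t ht
    have h := (hw' t (hsub ht)).mono hsub
    have := h.inner ℝ (hasDerivWithinAt_const t (Set.Icc t₁ t₂) V)
    simpa using this
  have hf₁ : ∀ t ∈ Set.Icc t₁ t₂, HasDerivWithinAt (fun x => ⟪w x, A⟫) (lam t) (Set.Icc t₁ t₂) t := by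
    intro t ht
    have := hinner A t ht
    have h2 : ⟪lam t • (a + t • b), A⟫ = lam t := by
      simp only [real_inner_smul_left, inner_add_left, haA, hbA]; ring
    rwa [h2] at this
  have hf₂ : ∀ t ∈ Set.Icc t₁ t₂, HasDerivWithinAt (fun x => ⟪w x, B⟫) (t * lam t) (Set.Icc t₁ t₂) t := by
    intro t ht
    have := hinner B t ht
    have h2 : ⟪lam t • (a + t • b), B⟫ = t * lam t := by
      simp only [real_inner_smul_left, inner_add_left, haB, hbB]; ring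
    rwa [h2] at this
  have hf₃ : ∀ t ∈ Set.Icc t₁ t₂, HasDerivWithinAt (fun x => ⟪w x, B⟫ - c * ⟪w x, A⟫)
      ((t - c) * lam t) (Set.Icc t₁ t₂) t := by
    intro t ht
    have := (hf₂ t ht).sub ((hf₁ t ht).const_mul c)
    have h2 : t * lam t - c * lam t = (t - c) * lam t := by ring
    rwa [h2] at this
  have hg : ∀ t ∈ Set.Icc t₁ t₂, HasDerivWithinAt (fun x => w x - ⟪w x, A⟫ • a - ⟪w x, B⟫ • b)
      (0 : R3) (Set.Icc t₁ t₂) t := by
    intro t ht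
    have h := ((hw' t (hsub ht)).mono hsub).sub ((hf₁ t ht).smul_const a)
    have h2 := h.sub ((hf₂ t ht).smul_const b)
    have h3 : lam t • (a + t • b) - lam t • a - (t * lam t) • b = 0 := by module
    rwa [h3] at h2
  have hg0 := hconv.norm_image_sub_le_of_norm_hasDerivWithin_le (C := 0) hg
    (by intro x _; simp) hc hτ
  rw [zero_mul] at hg0
  have hg1 : w τ - ⟪w τ, A⟫ • a - ⟪w τ, B⟫ • b - (w c - ⟪w c, A⟫ • a - ⟪w c, B⟫ • b) = 0 :=
    norm_le_zero_iff.1 hg0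
  have hτc : |τ - c| ≤ t₂ - t₁ := by
    rw [abs_le]; constructor <;> linarith [hc.1, hc.2, hτ.1, hτ.2]
  refine ⟨⟪w τ, A⟫ - ⟪w c, A⟫, (⟪w τ, B⟫ - c * ⟪w τ, A⟫) - (⟪w c, B⟫ - c * ⟪w c, A⟫), ?_, ?_, ?_⟩
  · have h5 : w τ - w c = (⟪w τ, A⟫ - ⟪w c, A⟫) • a + (⟪w τ, B⟫ - ⟪w c, B⟫) • b := by
      have : w τ - w c = (w τ - ⟪w τ, A⟫ • a - ⟪w τ, B⟫ • b - (w c - ⟪w c, A⟫ • a - ⟪w c, B⟫ • b))
          + (⟪w τ, A⟫ - ⟪w c, A⟫) • a + (⟪w τ, B⟫ - ⟪w c, B⟫) • b := by module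
      rw [this, hg1, zero_add]
    rw [h5]
    congr 2
    ring
  · have := hconv.norm_image_sub_le_of_norm_hasDerivWithin_le (C := Λ) hf₁
      (by intro x hx; exact hΛ x (hsub hx)) hc hτ
    rw [Real.norm_eq_abs, Real.norm_eq_abs] at this
    exact this.trans (mul_le_mul_of_nonneg_left hτc hΛ0)
  · have := hconv.norm_image_sub_le_of_norm_hasDerivWithin_le (C := Λ * (t₂ - t₁)) hf₃
      (by
        intro x hx
        rw [Real.norm_eq_abs, abs_mul, mul_comm]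
        apply mul_le_mul (hΛ x (hsub hx)) _ (abs_nonneg _) hΛ0
        rw [abs_le]; constructor <;> linarith [hc.1, hc.2, hx.1, hx.2]) hc hτ
    rw [Real.norm_eq_abs, Real.norm_eq_abs] at this
    calc _ ≤ _ := this
      _ ≤ Λ * (t₂ - t₁) * (t₂ - t₁) := mul_le_mul_of_nonneg_left hτc (by positivity)
      _ = _ := by ring

/-- Every point of the parameter interval lies in a piece of the partition. -/
lemma exists_piece : ∀ (N : ℕ) (t : Fin (N + 2) → ℝ) (τ : ℝ), t 0 ≤ τ → τ ≤ t (Fin.last _) →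
    ∃ i : Fin (N + 1), t i.castSucc ≤ τ ∧ τ ≤ t i.succ := by
  intro N
  induction N with
  | zero =>
    intro t τ h0 h1
    exact ⟨0, h0, h1⟩
  | succ n ih =>
    intro t τ h0 h1
    by_cases h : τ ≤ t (Fin.last (n + 1)).castSucc
    · obtain ⟨i, hi1, hi2⟩ := ih (fun j => t j.castSucc) τ h0 h
      exact ⟨i.castSucc, hi1, hi2⟩
    · exact ⟨Fin.last (n + 1), (not_le.1 h).le, by simpa using h1⟩

/-- Riemann sums against the integral. -/
lemma riemann : ∀ (N : ℕ) (t : Fin (N + 1) → ℝ) (_ : Monotone t) (g : ℝ → ℝ)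
    (_ : ContinuousOn g (Set.Icc (t 0) (t (Fin.last N)))) (G : Fin N → ℝ) (C : ℝ)
    (_ : ∀ i : Fin N, ∀ τ ∈ Set.Icc (t i.castSucc) (t i.succ), |g τ - G i| ≤ C),
    |∑ i, (t i.succ - t i.castSucc) * G i - ∫ τ in (t 0)..(t (Fin.last N)), g τ|
      ≤ C * (t (Fin.last N) - t 0) := by
  intro N
  induction N with
  | zero =>
    intro t _ g _ G C _
    simp
  | succ n ih =>
    intro t hmono g hg G C hC
    have h01 : t 0 ≤ t (Fin.last n).castSucc := hmono (Fin.zero_le _)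
    have h12 : t (Fin.last n).castSucc ≤ t (Fin.last (n + 1)) := hmono (Fin.le_last _)
    have hsub1 : Set.Icc (t 0) (t (Fin.last n).castSucc) ⊆ Set.Icc (t 0) (t (Fin.last (n + 1))) :=
      Set.Icc_subset_Icc_right h12
    have hsub2 : Set.Icc (t (Fin.last n).castSucc) (t (Fin.last (n + 1)))
        ⊆ Set.Icc (t 0) (t (Fin.last (n + 1))) := Set.Icc_subset_Icc_left h01
    have hih : |∑ i : Fin n, (t i.succ.castSucc - t i.castSucc.castSucc) * G i.castSucc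
        - ∫ τ in (t 0)..(t (Fin.last n).castSucc), g τ| ≤ C * (t (Fin.last n).castSucc - t 0) :=
      ih (fun j => t j.castSucc) (fun i j hij => hmono (Fin.castSucc_le_castSucc_iff.2 hij))
      g (hg.mono hsub1) (fun i => G i.castSucc) C (by
        intro i τ hτ
        exact hC i.castSucc τ hτ)
    rw [Fin.sum_univ_castSucc]
    have hi1 : IntervalIntegrable g volume (t 0) (t (Fin.last n).castSucc) :=
      (hg.mono (by rw [Set.uIcc_of_le h01]; exact hsub1)).intervalIntegrable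
    have hi2 : IntervalIntegrable g volume (t (Fin.last n).castSucc) (t (Fin.last (n + 1))) :=
      (hg.mono (by rw [Set.uIcc_of_le h12]; exact hsub2)).intervalIntegrable
    rw [← intervalIntegral.integral_add_adjacent_intervals hi1 hi2]
    have hlast : |(t (Fin.last (n + 1)) - t (Fin.last n).castSucc) * G (Fin.last n)
        - ∫ τ in (t (Fin.last n).castSucc)..(t (Fin.last (n + 1))), g τ|
        ≤ C * (t (Fin.last (n + 1)) - t (Fin.last n).castSucc) := by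
      have h3 : ∫ τ in (t (Fin.last n).castSucc)..(t (Fin.last (n + 1))), (g τ - G (Fin.last n))
          = (∫ τ in (t (Fin.last n).castSucc)..(t (Fin.last (n + 1))), g τ)
            - (t (Fin.last (n + 1)) - t (Fin.last n).castSucc) * G (Fin.last n) := by
        rw [intervalIntegral.integral_sub hi2 intervalIntegrable_const,
          intervalIntegral.integral_const, smul_eq_mul]
      have h4 := intervalIntegral.norm_integral_le_of_norm_le_const (a := t (Fin.last n).castSucc)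
        (b := t (Fin.last (n + 1))) (f := fun τ => g τ - G (Fin.last n)) (C := C) (by
          intro x hx
          rw [Set.uIoc_of_le h12] at hx
          rw [Real.norm_eq_abs]
          have := hC (Fin.last n) x ⟨hx.1.le, by simpa using hx.2⟩
          exact this)
      rw [h3, Real.norm_eq_abs, abs_of_nonneg (by linarith : 0 ≤ t (Fin.last (n + 1)) - t (Fin.last n).castSucc)] at h4
      rw [abs_sub_comm]
      exact h4
    have hsplit : ∑ i : Fin n, (t i.castSucc.succ - t i.castSucc.castSucc) * G i.castSucc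
        + (t (Fin.last n).succ - t (Fin.last n).castSucc) * G (Fin.last n)
        - ((∫ τ in (t 0)..(t (Fin.last n).castSucc), g τ)
          + ∫ τ in (t (Fin.last n).castSucc)..(t (Fin.last (n + 1))), g τ)
        = (∑ i : Fin n, (t i.succ.castSucc - t i.castSucc.castSucc) * G i.castSucc
            - ∫ τ in (t 0)..(t (Fin.last n).castSucc), g τ)
          + ((t (Fin.last (n + 1)) - t (Fin.last n).castSucc) * G (Fin.last n)
            - ∫ τ in (t (Fin.last n).castSucc)..(t (Fin.last (n + 1))), g τ) := by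
      simp only [Fin.succ_last, Fin.succ_castSucc]
      ring
    rw [hsplit]
    refine (abs_add_le _ _).trans ?_
    calc _ ≤ C * (t (Fin.last n).castSucc - t 0) + C * (t (Fin.last (n + 1)) - t (Fin.last n).castSucc) :=
          add_le_add hih hlast
      _ = _ := by ring

/-- Nondegeneracy of the projected triangles. -/
lemma affInd_tri {e a b w : R3} (he : ‖e‖ = 1) (ha : ⟪a, e⟫ = 0) (hb : ⟪b, e⟫ = 0)
    (hw : ⟪w, e⟫ = 0) (hG : 0 < grm a b) (P : R3) {m α₁ α₂ : ℝ} (hm : 0 < m) (hα : α₁ < α₂) :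
    AffineIndependent ℝ ![prj (e + w) P, prj (e + w) (P + m • (a + α₁ • b)),
        prj (e + w) (P + m • (a + α₂ • b))] := by
  apply affInd_of_grm_pos
  have h1 : prj (e + w) (P + m • (a + α₁ • b)) - prj (e + w) P = prj (e + w) (m • (a + α₁ • b)) := by
    rw [prj_add]; abel
  have h2 : prj (e + w) (P + m • (a + α₂ • b)) - prj (e + w) P = prj (e + w) (m • (a + α₂ • b)) := by
    rw [prj_add]; abel
  rw [h1, h2]
  have hx : ∀ α : ℝ, ⟪m • (a + α • b), e⟫ = 0 := by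
    intro α
    simp only [real_inner_smul_left, inner_add_left, ha, hb]; ring
  rw [grm_prj he (hx α₁) (hx α₂) hw, grm_combo]
  have : 0 < α₂ - α₁ := by linarith
  positivity

/-- The point of a sweep piece projects into the enlarged triangle. -/
lemma piece_cover {e a b p₀ : R3} {w : ℝ → R3} {lam : ℝ → ℝ} {α β Λ L : ℝ}
    (hG : 0 < grm a b)
    (hw' : ∀ t ∈ Set.Icc α β, HasDerivWithinAt w (lam t • (a + t • b)) (Set.Icc α β) t)
    (hΛ : ∀ t ∈ Set.Icc α β, |lam t| ≤ Λ) {t₁ t₂ c τ ρ s ε rc : ℝ} (h₁ : α ≤ t₁) (h₂ : t₂ ≤ β)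
    (ht : t₁ < t₂) (hu : e + w c ≠ 0)
    (hc : c ∈ Set.Icc t₁ t₂) (hτ : τ ∈ Set.Icc t₁ t₂) (hρ0 : 0 ≤ ρ) (hρ : ρ ≤ rc + ε / 2)
    (hs : |s| ≤ L) (hε : 0 < ε) (hε1 : ε ≤ 1) (hsmall : L * Λ * (t₂ - t₁) ≤ ε ^ 2 / 2) :
    prj (e + w c) (p₀ + ρ • (a + τ • b) + s • (e + w τ)) ∈
      convexHull ℝ {prj (e + w c) (p₀ - ε • (a + c • b)),
        prj (e + w c) (p₀ - ε • (a + c • b) + (rc + 2 * ε) • (a + (t₁ - ε * (t₂ - t₁)) • b)),
        prj (e + w c) (p₀ - ε • (a + c • b) + (rc + 2 * ε) • (a + (t₂ + ε * (t₂ - t₁)) • b))} := by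
  have hΛ0 : 0 ≤ Λ := (abs_nonneg _).trans (hΛ c ⟨h₁.trans hc.1, hc.2.trans h₂⟩)
  have hL0 : 0 ≤ L := (abs_nonneg _).trans hs
  obtain ⟨W₁, W₃, hW, hW₁, hW₃⟩ := w_diff hG hw' hΛ h₁ h₂ hc hτ
  set Δ := t₂ - t₁ with hΔ
  have hΔ0 : 0 < Δ := by rw [hΔ]; linarith
  have hsW₁ : |s * W₁| ≤ ε ^ 2 / 2 := by
    rw [abs_mul]
    calc |s| * |W₁| ≤ L * (Λ * Δ) := mul_le_mul hs hW₁ (abs_nonneg _) hL0
      _ = L * Λ * Δ := by ring
      _ ≤ _ := hsmall
  have hsW₃ : |s * W₃| ≤ ε ^ 2 / 2 * Δ := by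
    rw [abs_mul]
    calc |s| * |W₃| ≤ L * (Λ * Δ ^ 2) := mul_le_mul hs hW₃ (abs_nonneg _) hL0
      _ = (L * Λ * Δ) * Δ := by ring
      _ ≤ _ := mul_le_mul_of_nonneg_right hsmall hΔ0.le
  have hε2 : ε ^ 2 ≤ ε := by nlinarith
  obtain ⟨h1a, h1b⟩ := abs_le.1 hsW₁
  obtain ⟨h3a, h3b⟩ := abs_le.1 hsW₃
  have hmpos' : 0 ≤ s * W₁ + ε - ε / 2 := by linarith
  obtain ⟨hc1, hc2⟩ := hc
  obtain ⟨hτ1, hτ2⟩ := hτ
  have hεΔ : 0 < ε * Δ := mul_pos hε hΔ0
  by_cases hm : 0 < rc + 2 * ε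
  · apply cover_piece hu hm
    · have : t₂ - t₁ = Δ := rfl
      nlinarith
    · exact hW
    · linarith
    · have h1 : 0 ≤ ρ * (τ - (t₁ - ε * Δ)) := mul_nonneg hρ0 (by linarith)
      have h2 : (ε / 2) * (ε * Δ) ≤ (s * W₁ + ε) * (c - (t₁ - ε * Δ)) :=
        mul_le_mul (by linarith) (by linarith) hεΔ.le (by linarith)
      nlinarith
    · have h1 : 0 ≤ ρ * ((t₂ + ε * Δ) - τ) := mul_nonneg hρ0 (by linarith)
      have h2 : (ε / 2) * (ε * Δ) ≤ (s * W₁ + ε) * ((t₂ + ε * Δ) - c) :=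
        mul_le_mul (by linarith) (by linarith) hεΔ.le (by linarith)
      nlinarith
  · exfalso
    linarith

/-- `1/√(1+x²)` is at most one. -/
lemma inv_sqrt_le_one (x : ℝ) : 1 / √(1 + x ^ 2) ≤ 1 := by
  have h : 1 ≤ √(1 + x ^ 2) := by
    rw [Real.one_le_sqrt]; nlinarith [sq_nonneg x]
  rw [div_le_one (by linarith)]
  exact h

/-! ### real-variable estimates -/

lemma bound_up {r r' f f' ε Rm : ℝ} (hr : 0 ≤ r) (hr' : 0 ≤ r') (hrm' : r' ≤ Rm)
    (hf : 0 ≤ f) (hf1 : f ≤ 1) (hff : |f - f'| ≤ ε) (hrr : |r - r'| ≤ ε)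
    (hε : 0 < ε) (hε1 : ε ≤ 1) :
    |r' ^ 2 * f' / 2 - (1 / 2 * ((r + 2 * ε) ^ 2 * (1 + 2 * ε) * f))| ≤ 2 * (Rm + 3) ^ 2 * ε := by
  have hr1 := abs_le.1 hrr
  have hf2 := abs_le.1 hff
  have hRm : 0 ≤ Rm := hr'.trans hrm'
  set A := (r + 2 * ε) ^ 2 * (1 + 2 * ε) with hA
  have hA1 : r' ^ 2 ≤ A := by
    have h1 : r' ≤ r + 2 * ε := by linarith
    have h2 : r' ^ 2 ≤ (r + 2 * ε) ^ 2 := by nlinarith
    have h3 : 0 ≤ (r + 2 * ε) ^ 2 := sq_nonneg _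
    rw [hA]; nlinarith
  have hA2 : A ≤ r' ^ 2 + ε * (3 * (Rm + 3) ^ 2) := by
    have h1 : r + 2 * ε ≤ r' + 3 * ε := by linarith
    have h2 : (r + 2 * ε) ^ 2 ≤ (r' + 3 * ε) ^ 2 := by
      apply pow_le_pow_left₀ (by positivity) h1
    have h3 : A ≤ (r' + 3 * ε) ^ 2 * (1 + 2 * ε) := by
      rw [hA]; exact mul_le_mul_of_nonneg_right h2 (by positivity)
    have h4 : (r' + 3 * ε) ^ 2 * (1 + 2 * ε) = r' ^ 2 + ε * (2 * r' ^ 2 + 6 * r' * (1 + 2 * ε) + 9 * ε * (1 + 2 * ε)) := by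
      ring
    have h5 : 2 * r' ^ 2 + 6 * r' * (1 + 2 * ε) + 9 * ε * (1 + 2 * ε) ≤ 3 * (Rm + 3) ^ 2 := by
      have h6 : r' * (1 + 2 * ε) ≤ Rm * 3 := by
        apply mul_le_mul hrm' (by linarith) (by positivity) hRm
      have h7 : ε * (1 + 2 * ε) ≤ 1 * 3 := by
        apply mul_le_mul hε1 (by linarith) (by positivity) (by norm_num)
      have h8 : r' ^ 2 ≤ Rm ^ 2 := by nlinarith
      nlinarith
    calc A ≤ _ := h3
      _ = _ := h4
      _ ≤ _ := by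
        have := mul_le_mul_of_nonneg_left h5 hε.le
        linarith
  have hr'2 : r' ^ 2 ≤ (Rm + 3) ^ 2 := by nlinarith
  have hk : r' ^ 2 * f' / 2 - (1 / 2 * (A * f))
      = (r' ^ 2 * (f' - f) + (r' ^ 2 - A) * f) / 2 := by ring
  rw [hk, abs_le]
  have hE : 0 ≤ ε * (Rm + 3) ^ 2 := by positivity
  have b0 : |r' ^ 2 * (f' - f)| ≤ (Rm + 3) ^ 2 * ε := by
    rw [abs_mul, abs_of_nonneg (sq_nonneg r')]
    exact mul_le_mul hr'2 (by rwa [abs_sub_comm]) (abs_nonneg _) (by positivity)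
  have b1 := (abs_le.1 b0).2
  have b2 := (abs_le.1 b0).1
  have b3 : (r' ^ 2 - A) * f ≤ 0 := by
    apply mul_nonpos_of_nonpos_of_nonneg (by linarith) hf
  have b4 : -(ε * (3 * (Rm + 3) ^ 2)) ≤ (r' ^ 2 - A) * f := by
    have h1 : (A - r' ^ 2) * f ≤ (ε * (3 * (Rm + 3) ^ 2)) * 1 := by
      apply mul_le_mul (by linarith) hf1 hf (by positivity)
    linarith
  constructor <;> nlinarith

lemma bound_low {r r' f f' ε Rm : ℝ} (hr' : 0 ≤ r') (hrm' : r' ≤ Rm)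
    (hf : 0 ≤ f) (hf1 : f ≤ 1) (hff : |f - f'| ≤ ε) (hrr : |r - r'| ≤ ε)
    (hε : 0 < ε) :
    |r' ^ 2 * f' / 2 - (1 / 2 * ((max (r - ε) 0) ^ 2 * f))| ≤ 2 * (Rm + 3) ^ 2 * ε := by
  have hr1 := abs_le.1 hrr
  have hf2 := abs_le.1 hff
  have hRm : 0 ≤ Rm := hr'.trans hrm'
  set m := max (r - ε) 0 with hm
  have hm0 : 0 ≤ m := le_max_right _ _
  have hm1 : m ≤ r' := max_le (by linarith) hr'
  have hm2 : r' - 2 * ε ≤ m := (by linarith : r' - 2 * ε ≤ r - ε).trans (le_max_left _ _)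
  have hA1 : m ^ 2 ≤ r' ^ 2 := by nlinarith
  have hA2 : r' ^ 2 - m ^ 2 ≤ ε * (4 * Rm) := by nlinarith
  have hr'2 : r' ^ 2 ≤ (Rm + 3) ^ 2 := by nlinarith
  have hk : r' ^ 2 * f' / 2 - (1 / 2 * (m ^ 2 * f))
      = (r' ^ 2 * (f' - f) + (r' ^ 2 - m ^ 2) * f) / 2 := by ring
  rw [hk, abs_le]
  have hE : 0 ≤ ε * (Rm + 3) ^ 2 := by positivity
  have b0 : |r' ^ 2 * (f' - f)| ≤ (Rm + 3) ^ 2 * ε := by
    rw [abs_mul, abs_of_nonneg (sq_nonneg r')]
    exact mul_le_mul hr'2 (by rwa [abs_sub_comm]) (abs_nonneg _) (by positivity)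
  have b1 := (abs_le.1 b0).2
  have b2 := (abs_le.1 b0).1
  have b3 : 0 ≤ (r' ^ 2 - m ^ 2) * f := mul_nonneg (by linarith) hf
  have b4 : (r' ^ 2 - m ^ 2) * f ≤ (ε * (4 * Rm)) * 1 := by
    apply mul_le_mul hA2 hf1 hf (by positivity)
  have b5 : ε * (4 * Rm) ≤ ε * (4 * (Rm + 3) ^ 2) := by
    apply mul_le_mul_of_nonneg_left _ hε.le
    nlinarith
  constructor <;> nlinarith

end Crest.Agent.Lib.SweepCyl
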