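import Mathlib

set_option autoImplicit false
open Finset

namespace Crest.Agent.Lib.SwitchJohnson

section Glue

variable {ι : Type*} [Fintype ι]

/-- Abstract spectral glue ("Bochner ⇒ gap"): a symmetric positive semidefinite operator `T` on
`ι → ℝ` with `‖T f‖² ≥ c ⟨f, T f⟩` whose kernel is the constants has
`⟨f, T f⟩ ≥ c (Σ f² − (Σ f)²/|ι|)`. -/
theorem gap_of_bochner [Nonempty ι] (T : (ι → ℝ) →ₗ[ℝ] (ι → ℝ)) (c : ℝ) (hc : 0 < c)
    (hsymm : ∀ f g, ∑ i, T f i * g i = ∑ i, f i * T g i)
    (hpos : ∀ f, 0 ≤ ∑ i, f i * T f i)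
    (hboch : ∀ f, c * ∑ i, f i * T f i ≤ ∑ i, T f i ^ 2)
    (hconst : T (fun _ => 1) = 0)
    (hker : ∀ f, T f = 0 → ∀ i j, f i = f j) (f : ι → ℝ) :
    c * (∑ i, f i ^ 2 - (∑ i, f i) ^ 2 / Fintype.card ι) ≤ ∑ i, f i * T f i := by
  classical
  have hcard : (Fintype.card ι : ℝ) ≠ 0 := by
    exact_mod_cast Fintype.card_ne_zero
  -- the sum functional
  let σ : (ι → ℝ) →ₗ[ℝ] ℝ :=
    { toFun := fun g => ∑ i, g i
      map_add' := fun g h => by simp [Finset.sum_add_distrib]
      map_smul' := fun s g => by simp [Finset.mul_sum] }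
  have hσ_range : LinearMap.range σ = ⊤ := by
    rw [LinearMap.range_eq_top]
    intro s
    refine ⟨fun _ => s / Fintype.card ι, ?_⟩
    simp [σ, Finset.sum_const, Finset.card_univ]
    field_simp
  have hZ : Module.finrank ℝ (LinearMap.ker σ) + 1 = Fintype.card ι := by
    have := LinearMap.finrank_range_add_finrank_ker σ
    rw [hσ_range, finrank_top, Module.finrank_self, Module.finrank_fintype_fun_eq_card] at this
    omega
  -- the kernel of T is one dimensional
  have hker1 : LinearMap.ker T = Submodule.span ℝ {(fun _ => 1 : ι → ℝ)} := by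
    ext g
    rw [LinearMap.mem_ker, Submodule.mem_span_singleton]
    constructor
    · intro hg
      obtain ⟨i₀⟩ := ‹Nonempty ι›
      refine ⟨g i₀, ?_⟩
      ext j
      simpa using hker g hg i₀ j
    · rintro ⟨s, rfl⟩
      rw [map_smul, hconst, smul_zero]
  have hkerdim : Module.finrank ℝ (LinearMap.ker T) = 1 := by
    rw [hker1]
    apply finrank_span_singleton
    intro h
    obtain ⟨i₀⟩ := ‹Nonempty ι›
    have := congrFun h i₀
    simp at this
  have hrangele : LinearMap.range T ≤ LinearMap.ker σ := by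
    rintro _ ⟨u, rfl⟩
    rw [LinearMap.mem_ker]
    have h1 := hsymm u (fun _ => 1)
    rw [hconst] at h1
    simpa [σ] using h1
  have hrangedim : Module.finrank ℝ (LinearMap.range T) + 1 = Fintype.card ι := by
    have := LinearMap.finrank_range_add_finrank_ker T
    rw [hkerdim, Module.finrank_fintype_fun_eq_card] at this
    exact this
  have hrange : LinearMap.range T = LinearMap.ker σ :=
    Submodule.eq_of_le_of_finrank_eq hrangele (by omega)
  -- decompose
  set m : ℝ := (∑ i, f i) / Fintype.card ι with hm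
  set x : ι → ℝ := fun i => f i - m with hx
  have hxsum : σ x = 0 := by
    simp only [σ, hx, LinearMap.coe_mk, AddHom.coe_mk, Finset.sum_sub_distrib, Finset.sum_const,
      Finset.card_univ, nsmul_eq_mul, hm]
    field_simp
    ring
  obtain ⟨u, hu⟩ : x ∈ LinearMap.range T := by
    rw [hrange]; exact hxsum
  have hfx : f = x + m • (fun _ => 1 : ι → ℝ) := by
    ext i; simp [hx]
  have hTf : T f = T x := by
    rw [hfx, map_add, map_smul, hconst, smul_zero, add_zero]
  have hvalue : ∑ i, f i * T f i = ∑ i, x i * T x i := by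
    rw [hTf]
    have h1 : ∑ i, (1 : ℝ) * T x i = 0 := by
      have := hsymm (fun _ => 1) x
      rw [hconst] at this
      simpa using this.symm
    have : ∀ i, f i * T x i = x i * T x i + m * (1 * T x i) := by
      intro i; simp only [hx]; ring
    simp only [this, Finset.sum_add_distrib, ← Finset.mul_sum, h1, mul_zero, add_zero]
  have hnorm : ∑ i, f i ^ 2 - (∑ i, f i) ^ 2 / Fintype.card ι = ∑ i, x i ^ 2 := by
    have h1 : ∑ i, x i = 0 := hxsum
    simp only [hx, sub_sq, Finset.sum_add_distrib, Finset.sum_sub_distrib, Finset.sum_const,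
      Finset.card_univ, nsmul_eq_mul, ← Finset.mul_sum, ← Finset.sum_mul]
    simp only [hm]
    field_simp
    ring
  rw [hnorm, hvalue]
  -- Cauchy-Schwarz for the PSD form
  set p := ∑ i, u i * T u i with hp
  set q := ∑ i, u i * T x i with hq
  set r := ∑ i, x i * T x i with hr
  set n := ∑ i, x i ^ 2 with hn
  have hqn : q = n := by
    have := hsymm u x
    rw [hu] at this
    rw [hq, ← this, hn]
    exact Finset.sum_congr rfl fun i _ => by ring
  have hpn : c * p ≤ n := by
    have h1 := hboch u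
    have e : ∑ i, T u i ^ 2 = n := by rw [hu]
    exact h1.trans_eq e
  have hCS : q ^ 2 ≤ p * r := by
    have key : ∀ s : ℝ, 0 ≤ r * (s * s) + (2 * q) * s + p := by
      intro s
      have h := hpos (u + s • x)
      have e1 : T (u + s • x) = T u + s • T x := by rw [map_add, map_smul]
      rw [e1] at h
      have e2 : ∑ i, (u + s • x) i * (T u + s • T x) i
          = p + s * ∑ i, u i * T x i + s * ∑ i, x i * T u i + s * s * r := by
        simp only [hp, hr, Finset.mul_sum, ← Finset.sum_add_distrib]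
        refine Finset.sum_congr rfl fun i _ => ?_
        simp only [Pi.add_apply, Pi.smul_apply, smul_eq_mul]
        ring
      rw [e2] at h
      have e3 : ∑ i, x i * T u i = q := by
        have := hsymm u x
        rw [hq, ← this]
        exact Finset.sum_congr rfl fun i _ => by ring
      rw [e3, ← hq] at h
      nlinarith
    have := discrim_le_zero key
    unfold discrim at this
    nlinarith
  have hn0 : 0 ≤ n := Finset.sum_nonneg fun i _ => sq_nonneg _
  have hr0 : 0 ≤ r := hpos x
  rcases hn0.eq_or_lt with h0 | hnpos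
  · rw [← h0]; simpa using hr0
  · -- n^2 ≤ p r ≤ (n/c) r
    have hpr : c * (p * r) ≤ n * r := by nlinarith
    have : c * n ^ 2 ≤ n * r := by
      have : q ^ 2 = n ^ 2 := by rw [hqn]
      nlinarith
    have h2 : n * (c * n) ≤ n * r := by nlinarith
    exact le_of_mul_le_mul_left h2 hnpos

end Glue

section Action

variable {α : Type*}

/-- Action of a permutation on finite sets. -/
def act (g : Equiv.Perm α) (S : Finset α) : Finset α := S.map g.toEmbedding

@[simp] lemma mem_act (g : Equiv.Perm α) (S : Finset α) (a : α) :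
    a ∈ act g S ↔ g.symm a ∈ S := by
  simp [act, Finset.mem_map_equiv]

@[simp] lemma act_one (S : Finset α) : act 1 S = S := by
  ext a; rw [mem_act]; rfl

variable [DecidableEq α]

lemma act_mul (g h : Equiv.Perm α) (S : Finset α) : act (g * h) S = act g (act h S) := by
  ext a; simp [Equiv.Perm.mul_def]

omit [DecidableEq α] in
@[simp] lemma card_act (g : Equiv.Perm α) (S : Finset α) : (act g S).card = S.card := by
  simp [act]

/-- `g` preserves the finite set `W`. -/
def Pres (W : Finset α) (g : Equiv.Perm α) : Prop := ∀ a, g a ∈ W ↔ a ∈ W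

omit [DecidableEq α] in
lemma Pres.inv {W : Finset α} {g : Equiv.Perm α} (h : Pres W g) : Pres W g⁻¹ := by
  intro a
  have := h (g⁻¹ a)
  simpa using this.symm

lemma pres_swap {W : Finset α} {x y : α} (hx : x ∈ W) (hy : y ∈ W) :
    Pres W (Equiv.swap x y) := by
  intro a
  by_cases h1 : a = x
  · subst h1; simp [hx, hy]
  by_cases h2 : a = y
  · subst h2; simp [hx, hy]
  rw [Equiv.swap_apply_of_ne_of_ne h1 h2]

lemma act_mem {W : Finset α} {g : Equiv.Perm α} (h : Pres W g) {k : ℕ} {S : Finset α}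
    (hS : S ∈ W.powersetCard k) : act g S ∈ W.powersetCard k := by
  rw [Finset.mem_powersetCard] at hS ⊢
  refine ⟨?_, by simp [hS.2]⟩
  intro a ha
  rw [mem_act] at ha
  have := hS.1 ha
  have h2 := h (g.symm a)
  simp only [Equiv.apply_symm_apply] at h2
  exact h2.2 this

/-- Change of variables in a sum over the `k`-subsets. -/
lemma sum_act {W : Finset α} {g : Equiv.Perm α} (h : Pres W g) (k : ℕ) (φ : Finset α → ℝ) :
    ∑ S ∈ W.powersetCard k, φ (act g S) = ∑ S ∈ W.powersetCard k, φ S := by
  refine Finset.sum_nbij' (act g) (act g⁻¹) ?_ ?_ ?_ ?_ ?_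
  · intro S hS; exact act_mem h hS
  · intro S hS; exact act_mem h.inv hS
  · intro S _; rw [← act_mul]; simp
  · intro S _; rw [← act_mul]; simp
  · intro S _; rfl

lemma act_swap_eq_self {x y : α} {S : Finset α} (h : x ∈ S ↔ y ∈ S) :
    act (Equiv.swap x y) S = S := by
  ext a
  rw [mem_act, Equiv.symm_swap]
  by_cases h1 : a = x
  · subst h1; simp [h]
  by_cases h2 : a = y
  · subst h2; simp [h]
  rw [Equiv.swap_apply_of_ne_of_ne h1 h2]

/-- The pointwise antisymmetrizer identity on subsets: the sign representation does not occur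
in functions on subsets, because every subset is fixed by a transposition of any triple. -/
lemma antisym_pointwise {x y z : α} (hxy : x ≠ y) (hxz : x ≠ z) (hyz : y ≠ z)
    (f : Finset α → ℝ) (S : Finset α) :
    f S + f (act (Equiv.swap x z * Equiv.swap x y) S) + f (act (Equiv.swap x y * Equiv.swap x z) S)
      = f (act (Equiv.swap x y) S) + f (act (Equiv.swap x z) S) + f (act (Equiv.swap y z) S) := by
  have r1 : Equiv.swap y z = Equiv.swap x y * Equiv.swap x z * Equiv.swap x y := by
    have := Equiv.swap_mul_swap_mul_swap (x := z) (y := x) (z := y) hxz.symm hyz.symm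
    rw [Equiv.swap_comm z x] at this
    exact this.symm
  have r2 : Equiv.swap y z = Equiv.swap x z * Equiv.swap x y * Equiv.swap x z := by
    have := Equiv.swap_mul_swap_mul_swap (x := y) (y := x) (z := z) hxy.symm hyz
    rw [Equiv.swap_comm y x, Equiv.swap_comm z y] at this
    exact this.symm
  have r3 : Equiv.swap x y * Equiv.swap x z = Equiv.swap x z * Equiv.swap y z := by
    rw [r2, ← mul_assoc, ← mul_assoc, Equiv.swap_mul_self, one_mul]
  have r4 : Equiv.swap x z * Equiv.swap x y = Equiv.swap x y * Equiv.swap y z := by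
    rw [r1, ← mul_assoc, ← mul_assoc, Equiv.swap_mul_self, one_mul]
  by_cases c1 : x ∈ S ↔ y ∈ S
  · have h := act_swap_eq_self c1
    have e1 : act (Equiv.swap x z * Equiv.swap x y) S = act (Equiv.swap x z) S := by
      rw [act_mul, h]
    have e2 : act (Equiv.swap y z) S = act (Equiv.swap x y * Equiv.swap x z) S := by
      rw [r1, act_mul, h]
    rw [e1, e2, h]
  by_cases c2 : x ∈ S ↔ z ∈ S
  · have h := act_swap_eq_self c2
    have e1 : act (Equiv.swap x y * Equiv.swap x z) S = act (Equiv.swap x y) S := by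
      rw [act_mul, h]
    have e2 : act (Equiv.swap y z) S = act (Equiv.swap x z * Equiv.swap x y) S := by
      rw [r2, act_mul, h]
    rw [e1, e2, h]
    ring
  have c3 : y ∈ S ↔ z ∈ S := by tauto
  have h := act_swap_eq_self c3
  have e1 : act (Equiv.swap x y * Equiv.swap x z) S = act (Equiv.swap x z) S := by
    rw [r3, act_mul, h]
  have e2 : act (Equiv.swap x z * Equiv.swap x y) S = act (Equiv.swap x y) S := by
    rw [r4, act_mul, h]
  rw [e1, e2, h]
  ring

end Action

section Bochner

variable {α : Type*} [DecidableEq α] (W : Finset α) (k : ℕ) (f : Finset α → ℝ)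

/-- `c(g) = Σ_S f(S) f(gS)`. -/
noncomputable def cc (g : Equiv.Perm α) : ℝ := ∑ S ∈ W.powersetCard k, f S * f (act g S)

lemma cc_one : cc W k f 1 = ∑ S ∈ W.powersetCard k, f S ^ 2 := by
  unfold cc; exact Finset.sum_congr rfl fun S _ => by rw [act_one, sq]

variable {W}

lemma cc_inv {g : Equiv.Perm α} (h : Pres W g) : cc W k f g⁻¹ = cc W k f g := by
  unfold cc
  rw [← sum_act h k (fun S => f S * f (act g⁻¹ S))]
  refine Finset.sum_congr rfl fun S _ => ?_
  rw [← act_mul]; simp [mul_comm]

lemma cross {g h : Equiv.Perm α} (hg : Pres W g) :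
    ∑ S ∈ W.powersetCard k, f (act g S) * f (act h S) = cc W k f (h * g⁻¹) := by
  unfold cc
  rw [← sum_act hg k (fun S => f S * f (act (h * g⁻¹) S))]
  refine Finset.sum_congr rfl fun S _ => ?_
  rw [← act_mul]; simp

lemma sq_act {g : Equiv.Perm α} (hg : Pres W g) :
    ∑ S ∈ W.powersetCard k, f (act g S) ^ 2 = cc W k f 1 := by
  rw [cc_one]; exact sum_act hg k (fun S => f S ^ 2)

/-- The term `⟨(1-g) f, (1-h) f⟩`. -/
lemma term_eq {g h : Equiv.Perm α} (hg : Pres W g) :
    ∑ S ∈ W.powersetCard k, (f S - f (act g S)) * (f S - f (act h S))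
      = cc W k f 1 - cc W k f g - cc W k f h + cc W k f (h * g⁻¹) := by
  have e : ∀ S, (f S - f (act g S)) * (f S - f (act h S))
      = f S ^ 2 - f S * f (act g S) - f S * f (act h S) + f (act g S) * f (act h S) := by
    intro S; ring
  simp only [e, Finset.sum_add_distrib, Finset.sum_sub_distrib]
  rw [cross k f hg, cc_one]
  rfl

/-- For commuting involutions the term is a square. -/
lemma term_nonneg {g h : Equiv.Perm α} (hg : Pres W g) (hh : Pres W h)
    (hg2 : g * g = 1) (hh2 : h * h = 1) (hgh : g * h = h * g) :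
    0 ≤ ∑ S ∈ W.powersetCard k, (f S - f (act g S)) * (f S - f (act h S)) := by
  have hginv : g⁻¹ = g := inv_eq_of_mul_eq_one_left hg2
  have hhinv : h⁻¹ = h := inv_eq_of_mul_eq_one_left hh2
  have hpgh : Pres W (g * h) := by
    intro a; rw [Equiv.Perm.mul_apply, hg (h a), hh a]
  have key : ∑ S ∈ W.powersetCard k,
      (f S - f (act g S) - f (act h S) + f (act (g * h) S)) ^ 2
      = 4 * ∑ S ∈ W.powersetCard k, (f S - f (act g S)) * (f S - f (act h S)) := by
    rw [term_eq k f hg, hginv]
    have e : ∀ S, (f S - f (act g S) - f (act h S) + f (act (g * h) S)) ^ 2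
        = f S ^ 2 + f (act g S) ^ 2 + f (act h S) ^ 2 + f (act (g * h) S) ^ 2
          - 2 * (f S * f (act g S)) - 2 * (f S * f (act h S)) + 2 * (f S * f (act (g * h) S))
          + 2 * (f (act g S) * f (act h S)) - 2 * (f (act g S) * f (act (g * h) S))
          - 2 * (f (act h S) * f (act (g * h) S)) := by
      intro S; ring
    simp only [e, Finset.sum_add_distrib, Finset.sum_sub_distrib, ← Finset.mul_sum]
    rw [sq_act k f hg, sq_act k f hh, sq_act k f hpgh, ← cc_one, cross k f hg, cross k f hg,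
      cross k f hh]
    change cc W k f 1 + cc W k f 1 + cc W k f 1 + cc W k f 1 - 2 * cc W k f g - 2 * cc W k f h
      + 2 * cc W k f (g * h) + 2 * cc W k f (h * g⁻¹) - 2 * cc W k f (g * h * g⁻¹)
      - 2 * cc W k f (g * h * h⁻¹) = 4 * (cc W k f 1 - cc W k f g - cc W k f h + cc W k f (h * g))
    rw [hginv, hhinv]
    have b1 : h * g = g * h := hgh.symm
    have b2 : g * h * g = h := by rw [mul_assoc, ← hgh, ← mul_assoc, hg2, one_mul]
    have b3 : g * h * h = g := by rw [mul_assoc, hh2, mul_one]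
    rw [b1, b2, b3]
    ring
  have h0 : 0 ≤ ∑ S ∈ W.powersetCard k,
      (f S - f (act g S) - f (act h S) + f (act (g * h) S)) ^ 2 :=
    Finset.sum_nonneg fun S _ => sq_nonneg _
  rw [key] at h0
  linarith

/-- The sign representation vanishes, summed form. -/
lemma cc_three {x y z : α} (hx : x ∈ W) (hy : y ∈ W) (hz : z ∈ W)
    (hxy : x ≠ y) (hxz : x ≠ z) (hyz : y ≠ z) :
    cc W k f 1 + 2 * cc W k f (Equiv.swap x z * Equiv.swap x y)
      = cc W k f (Equiv.swap x y) + cc W k f (Equiv.swap x z) + cc W k f (Equiv.swap y z) := by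
  have hinv : cc W k f (Equiv.swap x y * Equiv.swap x z)
      = cc W k f (Equiv.swap x z * Equiv.swap x y) := by
    have hp : Pres W (Equiv.swap x z * Equiv.swap x y) := by
      intro a; rw [Equiv.Perm.mul_apply, pres_swap hx hz, pres_swap hx hy]
    have : (Equiv.swap x z * Equiv.swap x y)⁻¹ = Equiv.swap x y * Equiv.swap x z := by
      simp [mul_inv_rev]
    rw [← this, cc_inv k f hp]
  have := Finset.sum_congr (rfl : W.powersetCard k = W.powersetCard k)
    (fun S _ => congrArg (fun t => f S * t) (antisym_pointwise hxy hxz hyz f S))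
  simp only [mul_add, Finset.sum_add_distrib] at this
  have a0 : ∑ S ∈ W.powersetCard k, f S * f S = cc W k f 1 := by rw [cc_one]; simp [sq]
  rw [a0] at this
  change cc W k f 1 + cc W k f (Equiv.swap x z * Equiv.swap x y) +
    cc W k f (Equiv.swap x y * Equiv.swap x z) = cc W k f (Equiv.swap x y) +
    cc W k f (Equiv.swap x z) + cc W k f (Equiv.swap y z) at this
  rw [hinv] at this
  linarith

/-- The pair term `t(xy,uv)`. -/
noncomputable def tt (x y u v : α) : ℝ :=
  ∑ S ∈ W.powersetCard k, (f S - f (act (Equiv.swap x y) S)) * (f S - f (act (Equiv.swap u v) S))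

/-- `a(x,y) = c(1) - c(τ_xy)`. -/
noncomputable def aa (W : Finset α) (k : ℕ) (f : Finset α → ℝ) (x y : α) : ℝ :=
  cc W k f 1 - cc W k f (Equiv.swap x y)

lemma tt_same {x y : α} (hx : x ∈ W) (hy : y ∈ W) :
    tt (W := W) k f x y x y = 2 * aa W k f x y := by
  unfold tt aa
  rw [term_eq k f (pres_swap hx hy)]
  rw [Equiv.swap_inv, Equiv.swap_mul_self]
  ring

lemma tt_swap (x y u v : α) : tt (W := W) k f x y v u = tt (W := W) k f x y u v := by
  unfold tt; rw [Equiv.swap_comm v u]

lemma tt_swap' (x y u v : α) : tt (W := W) k f y x u v = tt (W := W) k f x y u v := by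
  unfold tt; rw [Equiv.swap_comm y x]

lemma aa_swap (x y : α) : aa W k f y x = aa W k f x y := by
  unfold aa; rw [Equiv.swap_comm y x]

/-- overlap term, first form. -/
lemma tt_overlap {x y z : α} (hx : x ∈ W) (hy : y ∈ W) (hz : z ∈ W)
    (hxy : x ≠ y) (hxz : x ≠ z) (hyz : y ≠ z) :
    tt (W := W) k f x y x z = (aa W k f x y + aa W k f x z - aa W k f y z) / 2 := by
  unfold tt aa
  rw [term_eq k f (pres_swap hx hy), Equiv.swap_inv]
  have := cc_three k f hx hy hz hxy hxz hyz
  linarith

lemma tt_disjoint {x y u v : α} (hx : x ∈ W) (hy : y ∈ W) (hu : u ∈ W) (hv : v ∈ W)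
    (hxy : x ≠ y) (huv : u ≠ v)
    (hxu : x ≠ u) (hxv : x ≠ v) (hyu : y ≠ u) (hyv : y ≠ v) :
    0 ≤ tt (W := W) k f x y u v := by
  refine term_nonneg k f (pres_swap hx hy) (pres_swap hu hv) (Equiv.swap_mul_self _ _)
    (Equiv.swap_mul_self _ _) ?_
  exact (Equiv.Perm.disjoint_swap_swap (by simp [*])).commute

/-- Splitting of the inner double sum according to the position of `(u,v)` relative to `(x,y)`. -/
lemma split_pairs {β : Type*} [DecidableEq β] (W : Finset β) (t : β → β → ℝ)
    (hsymm : ∀ u v, t v u = t u v) {x y : β} (hx : x ∈ W) (hy : y ∈ W) (hxy : x ≠ y) :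
    ∑ u ∈ W, ∑ v ∈ W.erase u, t u v
      = 2 * t x y + 2 * ∑ z ∈ (W.erase x).erase y, (t x z + t y z)
        + ∑ u ∈ (W.erase x).erase y, ∑ v ∈ ((W.erase x).erase y).erase u, t u v := by
  set R := (W.erase x).erase y with hR
  have hxR : x ∉ R := by simp [hR]
  have hyR : y ∉ R := by simp [hR]
  have hW : W = insert x (insert y R) := by
    ext a
    simp only [hR, Finset.mem_insert, Finset.mem_erase]
    by_cases h1 : a = x
    · subst h1; simp [hx]
    by_cases h2 : a = y
    · subst h2; simp [hy]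
    simp [h1, h2]
  have hWx : W.erase x = insert y R := by
    rw [hW, Finset.erase_insert]
    simp [hxy, hxR]
  have hWy : W.erase y = insert x R := by
    rw [hW, Finset.insert_comm, Finset.erase_insert]
    simp [hxy.symm, hyR]
  have hWu : ∀ u ∈ R, W.erase u = insert x (insert y (R.erase u)) := by
    intro u hu
    have hux : u ≠ x := fun h => hxR (h ▸ hu)
    have huy : u ≠ y := fun h => hyR (h ▸ hu)
    rw [hW, Finset.erase_insert_of_ne hux.symm, Finset.erase_insert_of_ne huy.symm]
  have hout : ∑ u ∈ W, ∑ v ∈ W.erase u, t u v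
      = ∑ v ∈ W.erase x, t x v + (∑ v ∈ W.erase y, t y v + ∑ u ∈ R, ∑ v ∈ W.erase u, t u v) := by
    conv_lhs => rw [hW]
    rw [Finset.sum_insert (by simp [hxy, hxR]), Finset.sum_insert hyR, ← hW]
  rw [hout, hWx, hWy, Finset.sum_insert hyR, Finset.sum_insert hxR]
  have hin : ∑ u ∈ R, ∑ v ∈ W.erase u, t u v
      = ∑ z ∈ R, (t x z + t y z) + ∑ u ∈ R, ∑ v ∈ R.erase u, t u v := by
    rw [← Finset.sum_add_distrib]
    refine Finset.sum_congr rfl fun u hu => ?_
    have hux : u ≠ x := fun h => hxR (h ▸ hu)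
    have huy : u ≠ y := fun h => hyR (h ▸ hu)
    rw [hWu u hu, Finset.sum_insert, Finset.sum_insert]
    · rw [hsymm x u, hsymm y u]; ring
    · simp [huy.symm, hyR]
    · simp [hxy, hux.symm, hxR]
  rw [hin, hsymm x y, ← Finset.sum_add_distrib] 
  simp only [Finset.sum_add_distrib, two_mul]
  ring

/-- The Bochner inequality at the level of the pair terms. -/
lemma bochner_tt :
    2 * (W.card : ℝ) * ∑ x ∈ W, ∑ y ∈ W.erase x, aa W k f x y
      ≤ ∑ x ∈ W, ∑ y ∈ W.erase x, ∑ u ∈ W, ∑ v ∈ W.erase u, tt (W := W) k f x y u v := by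
  rw [Finset.mul_sum]
  refine Finset.sum_le_sum fun x hx => ?_
  rw [Finset.mul_sum]
  refine Finset.sum_le_sum fun y hy => ?_
  have hxy : y ≠ x := (Finset.mem_erase.mp hy).1
  have hyW : y ∈ W := (Finset.mem_erase.mp hy).2
  rw [split_pairs W (fun u v => tt (W := W) k f x y u v) (fun u v => tt_swap k f x y u v) hx hyW
    hxy.symm]
  have h1 : tt (W := W) k f x y x y = 2 * aa W k f x y := tt_same k f hx hyW
  have h2 : ∑ z ∈ (W.erase x).erase y, (tt (W := W) k f x y x z + tt (W := W) k f x y y z)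
      = ((W.card : ℝ) - 2) * aa W k f x y := by
    have : ∀ z ∈ (W.erase x).erase y, tt (W := W) k f x y x z + tt (W := W) k f x y y z
        = aa W k f x y := by
      intro z hz
      have hzy : z ≠ y := (Finset.mem_erase.mp hz).1
      have hzx : z ≠ x := (Finset.mem_erase.mp (Finset.mem_erase.mp hz).2).1
      have hzW : z ∈ W := (Finset.mem_erase.mp (Finset.mem_erase.mp hz).2).2
      rw [tt_overlap k f hx hyW hzW hxy.symm hzx.symm hzy.symm, ← tt_swap' k f x y y z,
        tt_overlap k f hyW hx hzW hxy hzy.symm hzx.symm, aa_swap k f y x]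
      ring
    rw [Finset.sum_congr rfl this, Finset.sum_const, nsmul_eq_mul]
    congr 1
    rw [Finset.card_erase_of_mem (Finset.mem_erase.mpr ⟨hxy, hyW⟩),
      Finset.card_erase_of_mem hx]
    have hc : 2 ≤ W.card := by
      have : ({x, y} : Finset α) ⊆ W := by
        intro a ha
        simp only [Finset.mem_insert, Finset.mem_singleton] at ha
        rcases ha with rfl | rfl <;> assumption
      have h3 := Finset.card_le_card this
      rwa [Finset.card_pair hxy.symm] at h3
    have : W.card - 1 - 1 + 2 = W.card := by omega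
    have h4 : ((W.card - 1 - 1 : ℕ) : ℝ) + 2 = W.card := by exact_mod_cast this
    linarith
  have h3 : 0 ≤ ∑ u ∈ (W.erase x).erase y, ∑ v ∈ ((W.erase x).erase y).erase u,
      tt (W := W) k f x y u v := by
    refine Finset.sum_nonneg fun u hu => Finset.sum_nonneg fun v hv => ?_
    have huy : u ≠ y := (Finset.mem_erase.mp hu).1
    have hux : u ≠ x := (Finset.mem_erase.mp (Finset.mem_erase.mp hu).2).1
    have huW : u ∈ W := (Finset.mem_erase.mp (Finset.mem_erase.mp hu).2).2
    have hvu : v ≠ u := (Finset.mem_erase.mp hv).1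
    have hv2 := (Finset.mem_erase.mp hv).2
    have hvy : v ≠ y := (Finset.mem_erase.mp hv2).1
    have hvx : v ≠ x := (Finset.mem_erase.mp (Finset.mem_erase.mp hv2).2).1
    have hvW : v ∈ W := (Finset.mem_erase.mp (Finset.mem_erase.mp hv2).2).2
    exact tt_disjoint k f hx hyW huW hvW hxy.symm hvu.symm hux.symm hvx.symm huy.symm hvy.symm
  rw [h1, h2]
  nlinarith

/-- The operator `LL f S = Σ_{x,y} (f S - f (τ_xy S))`. -/
noncomputable def LLf (W : Finset α) (f : Finset α → ℝ) (S : Finset α) : ℝ :=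
  ∑ x ∈ W, ∑ y ∈ W.erase x, (f S - f (act (Equiv.swap x y) S))

lemma sum_LLf_sq : ∑ S ∈ W.powersetCard k, LLf W f S ^ 2
    = ∑ x ∈ W, ∑ y ∈ W.erase x, ∑ u ∈ W, ∑ v ∈ W.erase u, tt (W := W) k f x y u v := by
  unfold LLf tt
  have e : ∀ S, (∑ x ∈ W, ∑ y ∈ W.erase x, (f S - f (act (Equiv.swap x y) S))) ^ 2
      = ∑ x ∈ W, ∑ y ∈ W.erase x, ∑ u ∈ W, ∑ v ∈ W.erase u,
          (f S - f (act (Equiv.swap x y) S)) * (f S - f (act (Equiv.swap u v) S)) := by
    intro S
    rw [sq, Finset.sum_mul]
    refine Finset.sum_congr rfl fun x _ => ?_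
    rw [Finset.sum_mul]
    refine Finset.sum_congr rfl fun y _ => ?_
    rw [Finset.mul_sum]
    refine Finset.sum_congr rfl fun u _ => ?_
    rw [Finset.mul_sum]
  simp only [e]
  rw [Finset.sum_comm]
  refine Finset.sum_congr rfl fun x _ => ?_
  rw [Finset.sum_comm]
  refine Finset.sum_congr rfl fun y _ => ?_
  rw [Finset.sum_comm]
  refine Finset.sum_congr rfl fun u _ => ?_
  rw [Finset.sum_comm]

lemma sum_f_LLf : ∑ S ∈ W.powersetCard k, f S * LLf W f S
    = ∑ x ∈ W, ∑ y ∈ W.erase x, aa W k f x y := by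
  unfold LLf aa
  simp only [Finset.mul_sum]
  rw [Finset.sum_comm]
  refine Finset.sum_congr rfl fun x _ => ?_
  rw [Finset.sum_comm]
  refine Finset.sum_congr rfl fun y _ => ?_
  rw [cc_one]
  unfold cc
  rw [← Finset.sum_sub_distrib]
  exact Finset.sum_congr rfl fun S _ => by ring

/-- Half the energy form. -/
lemma aa_eq_half {x y : α} (hx : x ∈ W) (hy : y ∈ W) :
    aa W k f x y = (1 / 2) * ∑ S ∈ W.powersetCard k, (f S - f (act (Equiv.swap x y) S)) ^ 2 := by
  have h := tt_same k f hx hy
  unfold tt at h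
  simp only [← sq] at h
  rw [h]; ring

/-- Bochner for `LL`. -/
theorem bochner_LL :
    2 * (W.card : ℝ) * ∑ S ∈ W.powersetCard k, f S * LLf W f S
      ≤ ∑ S ∈ W.powersetCard k, LLf W f S ^ 2 := by
  rw [sum_f_LLf, sum_LLf_sq]
  exact bochner_tt k f

/-- PSD-ness of `LL`. -/
lemma LL_nonneg : 0 ≤ ∑ S ∈ W.powersetCard k, f S * LLf W f S := by
  rw [sum_f_LLf]
  refine Finset.sum_nonneg fun x hx => Finset.sum_nonneg fun y hy => ?_
  rw [aa_eq_half k f hx (Finset.mem_erase.mp hy).2]
  have : 0 ≤ ∑ S ∈ W.powersetCard k, (f S - f (act (Equiv.swap x y) S)) ^ 2 :=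
    Finset.sum_nonneg fun S _ => sq_nonneg _
  linarith

end Bochner

section Gap

variable {α : Type*} [DecidableEq α]

/-- Two `k`-subsets of `W` are connected by transpositions: invariant functions are constant. -/
lemma const_of_swap_invariant (W : Finset α) (k : ℕ) (f : Finset α → ℝ)
    (hf : ∀ x ∈ W, ∀ y ∈ W, ∀ S ∈ W.powersetCard k, f (act (Equiv.swap x y) S) = f S)
    (S T : Finset α) (hS : S ∈ W.powersetCard k) (hT : T ∈ W.powersetCard k) : f S = f T := by
  -- induction on |S \ T|
  induction' hn : (S \ T).card using Nat.strong_induction_on with n ih generalizing S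
  rcases n.eq_zero_or_pos with rfl | hpos
  · have h1 : S ⊆ T := by
      rw [Finset.card_eq_zero, Finset.sdiff_eq_empty_iff_subset] at hn
      exact hn
    have hcard : S.card = T.card := by
      rw [(Finset.mem_powersetCard.mp hS).2, (Finset.mem_powersetCard.mp hT).2]
    rw [Finset.eq_of_subset_of_card_le h1 hcard.ge]
  · obtain ⟨x, hx⟩ : (S \ T).Nonempty := Finset.card_pos.mp (by omega)
    have hcard : S.card = T.card := by
      rw [(Finset.mem_powersetCard.mp hS).2, (Finset.mem_powersetCard.mp hT).2]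
    have hpos2 : 0 < (T \ S).card := by
      have : (T \ S).card = (S \ T).card := by
        have := Finset.card_sdiff_add_card_inter S T
        have h2 := Finset.card_sdiff_add_card_inter T S
        rw [Finset.inter_comm] at h2
        omega
      omega
    obtain ⟨y, hy⟩ : (T \ S).Nonempty := Finset.card_pos.mp hpos2
    rw [Finset.mem_sdiff] at hx hy
    have hxW : x ∈ W := (Finset.mem_powersetCard.mp hS).1 hx.1
    have hyW : y ∈ W := (Finset.mem_powersetCard.mp hT).1 hy.1
    have hS' := act_mem (pres_swap hxW hyW) hS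
    have e1 := hf x hxW y hyW S hS
    rw [← e1]
    refine ih _ ?_ _ hS' rfl
    rw [← hn]
    -- the new set differs less
    have hxy : x ≠ y := fun h => hx.2 (h ▸ hy.1)
    have hsub : act (Equiv.swap x y) S \ T ⊆ (S \ T).erase x := by
      intro a ha
      rw [Finset.mem_sdiff, mem_act] at ha
      rw [Finset.mem_erase, Finset.mem_sdiff]
      rw [Equiv.symm_swap] at ha
      by_cases h1 : a = x
      · subst h1
        rw [Equiv.swap_apply_left] at ha
        exact absurd ha.1 hy.2
      by_cases h2 : a = y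
      · subst h2
        exact absurd hy.1 ha.2
      rw [Equiv.swap_apply_of_ne_of_ne h1 h2] at ha
      exact ⟨h1, ha⟩
    have hx' : x ∈ S \ T := Finset.mem_sdiff.mpr hx
    calc _ ≤ ((S \ T).erase x).card := Finset.card_le_card hsub
      _ < (S \ T).card := Finset.card_erase_lt_of_mem hx'

/-- The value of the transposition at an exchanged pair. -/
lemma act_swap_of_mem {x y : α} {S : Finset α} (hx : x ∈ S) (hy : y ∉ S) :
    act (Equiv.swap x y) S = insert y (S.erase x) := by
  ext a
  rw [mem_act, Equiv.symm_swap, Finset.mem_insert, Finset.mem_erase]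
  by_cases h1 : a = x
  · subst h1
    have hne : a ≠ y := fun h => hy (h ▸ hx)
    simp [hy, hne]
  by_cases h2 : a = y
  · subst h2
    simp [hx]
  rw [Equiv.swap_apply_of_ne_of_ne h1 h2]
  simp [h1, h2]

/-- Sum form of `LLf` over ordered pairs equals twice the edge sum over `x ∈ S`, `y ∈ W \ S`. -/
lemma energy_eq (W : Finset α) (f : Finset α → ℝ) {S : Finset α} (hS : S ⊆ W) :
    ∑ x ∈ W, ∑ y ∈ W.erase x, (f S - f (act (Equiv.swap x y) S)) ^ 2
      = 2 * ∑ x ∈ S, ∑ y ∈ W \ S, (f S - f (insert y (S.erase x))) ^ 2 := by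
  -- decompose `W = S ⊔ (W \ S)`
  have hW : W = S ∪ (W \ S) := (Finset.union_sdiff_of_subset hS).symm
  have hdisj : Disjoint S (W \ S) := Finset.disjoint_sdiff
  -- general: inner sum restricted
  have in1 : ∀ x ∈ S, ∑ y ∈ W.erase x, (f S - f (act (Equiv.swap x y) S)) ^ 2
      = ∑ y ∈ W \ S, (f S - f (insert y (S.erase x))) ^ 2 := by
    intro x hx
    have hsub : W \ S ⊆ W.erase x := by
      intro a ha
      rw [Finset.mem_sdiff] at ha
      exact Finset.mem_erase.mpr ⟨fun h => ha.2 (h ▸ hx), ha.1⟩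
    rw [← Finset.sum_subset hsub]
    · refine Finset.sum_congr rfl fun y hy => ?_
      rw [act_swap_of_mem hx (Finset.mem_sdiff.mp hy).2]
    · intro y hy hy2
      have hyW := (Finset.mem_erase.mp hy).2
      have hyS : y ∈ S := by
        by_contra h
        exact hy2 (Finset.mem_sdiff.mpr ⟨hyW, h⟩)
      rw [act_swap_eq_self (by simp [hx, hyS])]
      simp
  have in2 : ∀ y ∈ W \ S, ∑ x ∈ W.erase y, (f S - f (act (Equiv.swap y x) S)) ^ 2
      = ∑ x ∈ S, (f S - f (insert y (S.erase x))) ^ 2 := by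
    intro y hy
    have hy' := Finset.mem_sdiff.mp hy
    have hsub : S ⊆ W.erase y := by
      intro a ha
      exact Finset.mem_erase.mpr ⟨fun h => hy'.2 (h ▸ ha), hS ha⟩
    rw [← Finset.sum_subset hsub]
    · refine Finset.sum_congr rfl fun x hx => ?_
      rw [Equiv.swap_comm, act_swap_of_mem hx hy'.2]
    · intro x hx hx2
      rw [act_swap_eq_self (by simp [hx2, hy'.2])]
      simp
  conv_lhs => rw [hW]
  rw [Finset.sum_union hdisj, ← hW]
  rw [Finset.sum_congr rfl in1, Finset.sum_congr rfl in2, Finset.sum_comm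
    (s := W \ S) (t := S), two_mul]

/-- `⟨f, LL f⟩` is the edge sum. -/
lemma sum_f_LLf_eq_energy (W : Finset α) (k : ℕ) (f : Finset α → ℝ) :
    ∑ S ∈ W.powersetCard k, f S * LLf W f S
      = ∑ S ∈ W.powersetCard k, ∑ x ∈ S, ∑ y ∈ W \ S, (f S - f (insert y (S.erase x))) ^ 2 := by
  rw [sum_f_LLf]
  have h1 : ∑ x ∈ W, ∑ y ∈ W.erase x, aa W k f x y
      = (1 / 2) * ∑ S ∈ W.powersetCard k, ∑ x ∈ W, ∑ y ∈ W.erase x,
          (f S - f (act (Equiv.swap x y) S)) ^ 2 := by
    rw [Finset.sum_comm, Finset.mul_sum]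
    refine Finset.sum_congr rfl fun x hx => ?_
    rw [Finset.sum_comm, Finset.mul_sum]
    refine Finset.sum_congr rfl fun y hy => ?_
    exact aa_eq_half k f hx (Finset.mem_erase.mp hy).2
  rw [h1, Finset.mul_sum]
  refine Finset.sum_congr rfl fun S hS => ?_
  rw [energy_eq W f (Finset.mem_powersetCard.mp hS).1]
  ring

lemma LL_symm (W : Finset α) (k : ℕ) (φ ψ : Finset α → ℝ) :
    ∑ S ∈ W.powersetCard k, LLf W φ S * ψ S = ∑ S ∈ W.powersetCard k, φ S * LLf W ψ S := by
  unfold LLf
  simp only [Finset.sum_mul, Finset.mul_sum]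
  rw [Finset.sum_comm]
  conv_rhs => rw [Finset.sum_comm]
  refine Finset.sum_congr rfl fun x hx => ?_
  rw [Finset.sum_comm]
  conv_rhs => rw [Finset.sum_comm]
  refine Finset.sum_congr rfl fun y hy => ?_
  have hp := pres_swap (x := x) (y := y) hx (Finset.mem_erase.mp hy).2
  have h := sum_act hp k (fun S => φ S * ψ (act (Equiv.swap x y) S))
  simp only [← act_mul, Equiv.swap_mul_self, act_one] at h
  simp only [sub_mul, mul_sub, Finset.sum_sub_distrib]
  rw [h]

lemma LLf_congr {W : Finset α} {k : ℕ} {φ ψ : Finset α → ℝ}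
    (h : ∀ S ∈ W.powersetCard k, φ S = ψ S) {S : Finset α} (hS : S ∈ W.powersetCard k) :
    LLf W φ S = LLf W ψ S := by
  unfold LLf
  refine Finset.sum_congr rfl fun x hx => Finset.sum_congr rfl fun y hy => ?_
  have hp := pres_swap (x := x) (y := y) hx (Finset.mem_erase.mp hy).2
  rw [h S hS, h _ (act_mem hp hS)]

/-- Extension by zero of a function on the `k`-subsets. -/
noncomputable def extF (W : Finset α) (k : ℕ) (g : ↥(W.powersetCard k) → ℝ) (S : Finset α) : ℝ :=
  if h : S ∈ W.powersetCard k then g ⟨S, h⟩ else 0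

lemma extF_mem {W : Finset α} {k : ℕ} (g : ↥(W.powersetCard k) → ℝ) {S : Finset α}
    (h : S ∈ W.powersetCard k) : extF W k g S = g ⟨S, h⟩ := dif_pos h

/-- **Johnson gap**, sum form: `⟨f, L f⟩ ≥ w Var f`, with the edge sum counted over ordered
pairs `(S, x, y)`, `x ∈ S`, `y ∈ W \ S`. -/
theorem johnson_gap (W : Finset α) (k : ℕ) (f : Finset α → ℝ) :
    2 * (W.card : ℝ) * (∑ S ∈ W.powersetCard k, f S ^ 2
        - (∑ S ∈ W.powersetCard k, f S) ^ 2 / ((W.powersetCard k).card : ℝ))
      ≤ ∑ S ∈ W.powersetCard k, ∑ x ∈ S, ∑ y ∈ W \ S, (f S - f (insert y (S.erase x))) ^ 2 := by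
  classical
  have hRHS : 0 ≤ ∑ S ∈ W.powersetCard k, ∑ x ∈ S, ∑ y ∈ W \ S,
      (f S - f (insert y (S.erase x))) ^ 2 :=
    Finset.sum_nonneg fun S _ => Finset.sum_nonneg fun x _ =>
      Finset.sum_nonneg fun y _ => sq_nonneg _
  rcases (W.powersetCard k).eq_empty_or_nonempty with hemp | hne
  · simp [hemp]
  have hnonempty : Nonempty ↥(W.powersetCard k) := hne.to_subtype
  by_cases hw : W.card = 0
  · rw [hw]; simpa using hRHS
  have hc : (0 : ℝ) < 2 * (W.card : ℝ) := by
    have : 0 < W.card := Nat.pos_of_ne_zero hw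
    positivity
  have sum_sub : ∀ φ : Finset α → ℝ, ∑ S : ↥(W.powersetCard k), φ S
      = ∑ S ∈ W.powersetCard k, φ S := fun φ => Finset.sum_coe_sort _ φ
  -- the operator
  let T : (↥(W.powersetCard k) → ℝ) →ₗ[ℝ] (↥(W.powersetCard k) → ℝ) :=
    { toFun := fun g S => LLf W (extF W k g) S
      map_add' := by
        intro g h
        ext S
        simp only [LLf, Pi.add_apply, ← Finset.sum_add_distrib]
        refine Finset.sum_congr rfl fun x hx => Finset.sum_congr rfl fun y hy => ?_
        have hp := pres_swap (x := x) (y := y) hx (Finset.mem_erase.mp hy).2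
        rw [extF_mem _ S.2, extF_mem _ S.2, extF_mem _ S.2, extF_mem _ (act_mem hp S.2),
          extF_mem _ (act_mem hp S.2), extF_mem _ (act_mem hp S.2)]
        simp only [Pi.add_apply]
        ring
      map_smul' := by
        intro s g
        ext S
        simp only [LLf, Pi.smul_apply, smul_eq_mul, RingHom.id_apply, Finset.mul_sum]
        refine Finset.sum_congr rfl fun x hx => Finset.sum_congr rfl fun y hy => ?_
        have hp := pres_swap (x := x) (y := y) hx (Finset.mem_erase.mp hy).2
        rw [extF_mem _ S.2, extF_mem _ S.2, extF_mem _ (act_mem hp S.2),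
          extF_mem _ (act_mem hp S.2)]
        simp only [Pi.smul_apply, smul_eq_mul]
        ring }
  have hT : ∀ g S, T g S = LLf W (extF W k g) S := fun g S => rfl
  have hval : ∀ (g : ↥(W.powersetCard k) → ℝ) (S : ↥(W.powersetCard k)),
      g S = extF W k g S := fun g S => (extF_mem g S.2).symm
  have hsymm : ∀ g h : ↥(W.powersetCard k) → ℝ,
      ∑ i, T g i * h i = ∑ i, g i * T h i := by
    intro g h
    have e1 : ∑ i, T g i * h i = ∑ S ∈ W.powersetCard k, LLf W (extF W k g) S * extF W k h S := by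
      rw [← sum_sub]
      exact Finset.sum_congr rfl fun i _ => by rw [hT, hval h i]
    have e2 : ∑ i, g i * T h i = ∑ S ∈ W.powersetCard k, extF W k g S * LLf W (extF W k h) S := by
      rw [← sum_sub]
      exact Finset.sum_congr rfl fun i _ => by rw [hT, hval g i]
    rw [e1, e2, LL_symm]
  have hform : ∀ g : ↥(W.powersetCard k) → ℝ, ∑ i, g i * T g i
      = ∑ S ∈ W.powersetCard k, extF W k g S * LLf W (extF W k g) S := by
    intro g
    rw [← sum_sub]
    exact Finset.sum_congr rfl fun i _ => by rw [hT, hval g i]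
  have hpos : ∀ g : ↥(W.powersetCard k) → ℝ, 0 ≤ ∑ i, g i * T g i := by
    intro g; rw [hform]; exact LL_nonneg k _
  have hboch : ∀ g : ↥(W.powersetCard k) → ℝ,
      (2 * (W.card : ℝ)) * ∑ i, g i * T g i ≤ ∑ i, T g i ^ 2 := by
    intro g
    rw [hform]
    have e : ∑ i, T g i ^ 2 = ∑ S ∈ W.powersetCard k, LLf W (extF W k g) S ^ 2 := by
      rw [← sum_sub]
      exact Finset.sum_congr rfl fun i _ => by rw [hT]
    rw [e]
    exact bochner_LL k _
  have hconst : T (fun _ => 1) = 0 := by
    ext S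
    rw [hT]
    simp only [LLf, Pi.zero_apply]
    refine Finset.sum_eq_zero fun x hx => Finset.sum_eq_zero fun y hy => ?_
    have hp := pres_swap (x := x) (y := y) hx (Finset.mem_erase.mp hy).2
    rw [extF_mem _ S.2, extF_mem _ (act_mem hp S.2)]
    simp
  have hker : ∀ g : ↥(W.powersetCard k) → ℝ, T g = 0 → ∀ i j, g i = g j := by
    intro g hg i j
    have h0 : ∑ i, g i * T g i = 0 := by rw [hg]; simp
    rw [hform, sum_f_LLf] at h0
    have hnn : ∀ x ∈ W, ∀ y ∈ W.erase x, 0 ≤ aa W k (extF W k g) x y := by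
      intro x hx y hy
      rw [aa_eq_half k _ hx (Finset.mem_erase.mp hy).2]
      have : 0 ≤ ∑ S ∈ W.powersetCard k,
          (extF W k g S - extF W k g (act (Equiv.swap x y) S)) ^ 2 :=
        Finset.sum_nonneg fun S _ => sq_nonneg _
      linarith
    have h1 := (Finset.sum_eq_zero_iff_of_nonneg fun x hx =>
      Finset.sum_nonneg (hnn x hx)).mp h0
    have hinv : ∀ x ∈ W, ∀ y ∈ W, ∀ S ∈ W.powersetCard k,
        extF W k g (act (Equiv.swap x y) S) = extF W k g S := by
      intro x hx y hy S hS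
      by_cases hxy : x = y
      · subst hxy
        rw [Equiv.swap_self]
        change extF W k g (act 1 S) = extF W k g S
        rw [act_one]
      have h2 := (Finset.sum_eq_zero_iff_of_nonneg (hnn x hx)).mp (h1 x hx) y
        (Finset.mem_erase.mpr ⟨fun h => hxy h.symm, hy⟩)
      rw [aa_eq_half k _ hx hy] at h2
      have h3 : ∑ S ∈ W.powersetCard k,
          (extF W k g S - extF W k g (act (Equiv.swap x y) S)) ^ 2 = 0 := by linarith
      have h4 := (Finset.sum_eq_zero_iff_of_nonneg fun S _ => sq_nonneg _).mp h3 S hS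
      have h5 := pow_eq_zero_iff (two_ne_zero) |>.mp h4
      linarith
    have := const_of_swap_invariant W k (extF W k g) hinv i j i.2 j.2
    rwa [← hval g i, ← hval g j] at this
  have main := gap_of_bochner T (2 * (W.card : ℝ)) hc hsymm hpos hboch hconst hker
    (fun S => f S)
  rw [sum_sub (fun S => f S ^ 2), sum_sub (fun S => f S), Fintype.card_coe] at main
  refine main.trans_eq ?_
  rw [← sum_f_LLf_eq_energy, ← sum_sub (fun S => f S * LLf W f S)]
  refine Finset.sum_congr rfl fun i _ => ?_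
  rw [hT]
  congr 1
  refine LLf_congr (k := k) ?_ i.2
  intro S hS
  rw [extF_mem _ hS]

end Gap

end Crest.Agent.Lib.SwitchJohnson
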