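import Mathlib

/-!
Areas of triangles and parallelograms in a Euclidean space, measured by the Euclidean
Hausdorff measure `μHE[2]`.
-/

open MeasureTheory Module
open scoped RealInnerProductSpace

namespace Crest.Agent.Lib.TetraFan

/-- the plane -/
abbrev E2 := EuclideanSpace ℝ (Fin 2)

variable {V : Type*} [NormedAddCommGroup V] [InnerProductSpace ℝ V]

/-- the linear map `(z₀, z₁) ↦ z₀ x + z₁ y` -/
noncomputable def planeMap (x y : V) : E2 →ₗ[ℝ] V where
  toFun z := z 0 • x + z 1 • y
  map_add' z w := by
    simp only [PiLp.add_apply, add_smul]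
    abel
  map_smul' r z := by
    simp only [PiLp.smul_apply, smul_eq_mul, RingHom.id_apply, smul_add, smul_smul]

@[simp] lemma planeMap_apply (x y : V) (z : E2) : planeMap x y z = z 0 • x + z 1 • y := rfl

/-- Gram determinant of two vectors. -/
noncomputable def gram2 (x y : V) : ℝ := ‖x‖ ^ 2 * ‖y‖ ^ 2 - ⟪x, y⟫ ^ 2

lemma gram2_nonneg (x y : V) : 0 ≤ gram2 x y := by
  unfold gram2
  have := abs_real_inner_le_norm x y
  have h2 : ⟪x, y⟫ ^ 2 ≤ (‖x‖ * ‖y‖) ^ 2 := by
    rw [← sq_abs]
    exact pow_le_pow_left₀ (abs_nonneg _) this 2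
  nlinarith

lemma normDet_planeMap_sq (x y : V) : (planeMap x y).normDet ^ 2 = gram2 x y := by
  have h := LinearMap.normDet_sq_eq_det_gram (𝕜 := ℝ) (planeMap x y)
    (EuclideanSpace.basisFun (Fin 2) ℝ)
  have hb0 : planeMap x y (EuclideanSpace.basisFun (Fin 2) ℝ 0) = x := by
    simp [EuclideanSpace.basisFun_apply]
  have hb1 : planeMap x y (EuclideanSpace.basisFun (Fin 2) ℝ 1) = y := by
    simp [EuclideanSpace.basisFun_apply]
  simp only [RCLike.ofReal_real_eq_id, id_eq] at h
  rw [h, Matrix.det_fin_two]
  simp only [Matrix.gram, Matrix.of_apply, hb0, hb1]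
  unfold gram2
  rw [real_inner_self_eq_norm_sq, real_inner_self_eq_norm_sq, real_inner_comm x y]
  ring

lemma normDet_planeMap (x y : V) : (planeMap x y).normDet = Real.sqrt (gram2 x y) := by
  rw [← normDet_planeMap_sq, Real.sqrt_sq (LinearMap.normDet_nonneg _)]

/-- coordinates of the plane -/
def toProd (z : E2) : ℝ × ℝ := (z 0, z 1)

lemma measurePreserving_toProd : MeasurePreserving toProd volume volume := by
  have h1 := PiLp.volume_preserving_ofLp (Fin 2)
  have h2 := volume_preserving_finTwoArrow ℝ
  exact h2.comp h1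

/-- the standard triangle -/
def stdTri : Set E2 := {z | 0 ≤ z 0 ∧ 0 ≤ z 1 ∧ z 0 + z 1 ≤ 1}

/-- its image in the product -/
def prodTri : Set (ℝ × ℝ) := {p | 0 ≤ p.1 ∧ 0 ≤ p.2 ∧ p.1 + p.2 ≤ 1}

lemma measurableSet_prodTri : MeasurableSet prodTri := by
  have h1 : IsClosed prodTri := by
    have c1 : Continuous fun p : ℝ × ℝ => p.1 := continuous_fst
    have c2 : Continuous fun p : ℝ × ℝ => p.2 := continuous_snd
    exact (isClosed_le continuous_const c1).inter
      ((isClosed_le continuous_const c2).inter (isClosed_le (c1.add c2) continuous_const))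
  exact h1.measurableSet

lemma volume_prodTri : volume prodTri = ENNReal.ofReal (1 / 2) := by
  rw [Measure.volume_eq_prod, Measure.prod_apply measurableSet_prodTri]
  have hslice : ∀ x : ℝ, volume (Prod.mk x ⁻¹' prodTri)
      = (Set.Icc (0 : ℝ) 1).indicator (fun x => ENNReal.ofReal (1 - x)) x := by
    intro x
    by_cases hx : x ∈ Set.Icc (0 : ℝ) 1
    · rw [Set.indicator_of_mem hx]
      have : Prod.mk x ⁻¹' prodTri = Set.Icc 0 (1 - x) := by
        ext y
        simp only [prodTri, Set.mem_preimage, Set.mem_ofPred_eq, Set.mem_Icc]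
        constructor
        · rintro ⟨_, h2, h3⟩
          exact ⟨h2, by linarith⟩
        · rintro ⟨h2, h3⟩
          exact ⟨hx.1, h2, by linarith⟩
      rw [this, Real.volume_Icc]
      congr 1
      ring
    · rw [Set.indicator_of_notMem hx]
      have : Prod.mk x ⁻¹' prodTri = ∅ := by
        ext y
        simp only [prodTri, Set.mem_preimage, Set.mem_ofPred_eq, Set.mem_empty_iff_false,
          iff_false]
        rintro ⟨h1, h2, h3⟩
        exact hx ⟨h1, by linarith⟩
      rw [this, measure_empty]
  simp_rw [hslice]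
  rw [lintegral_indicator measurableSet_Icc]
  rw [← ofReal_integral_eq_lintegral_ofReal]
  · congr 1
    rw [integral_Icc_eq_integral_Ioc, ← intervalIntegral.integral_of_le zero_le_one,
      intervalIntegral.integral_sub (by simp) (by simp)]
    simp
    norm_num
  · exact (Continuous.integrableOn_Icc (by fun_prop))
  · filter_upwards [ae_restrict_mem measurableSet_Icc] with x hx
    simpa using hx.2

lemma volume_stdTri : volume stdTri = ENNReal.ofReal (1 / 2) := by
  have : stdTri = toProd ⁻¹' prodTri := rfl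
  rw [this, measurePreserving_toProd.measure_preimage measurableSet_prodTri.nullMeasurableSet,
    volume_prodTri]

lemma convex_stdTri : Convex ℝ stdTri := by
  intro z hz w hw a b ha hb hab
  obtain ⟨h1, h2, h3⟩ := hz
  obtain ⟨h4, h5, h6⟩ := hw
  simp only [stdTri, Set.mem_ofPred_eq, PiLp.add_apply, PiLp.smul_apply, smul_eq_mul]
  refine ⟨by positivity, by positivity, ?_⟩
  nlinarith

/-- a convex combination of three points -/
lemma convex3_mem {S : Set V} (hS : Convex ℝ S) {p q r : V} (hp : p ∈ S) (hq : q ∈ S) (hr : r ∈ S)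
    {a b c : ℝ} (ha : 0 ≤ a) (hb : 0 ≤ b) (hc : 0 ≤ c) (h : a + b + c = 1) :
    a • p + b • q + c • r ∈ S := by
  by_cases hs : b + c = 0
  · have hb0 : b = 0 := by linarith
    have hc0 : c = 0 := by linarith
    have ha1 : a = 1 := by linarith
    simpa [hb0, hc0, ha1] using hp
  · have hspos : 0 < b + c := lt_of_le_of_ne (by positivity) (Ne.symm hs)
    have h1 : (b / (b + c)) • q + (c / (b + c)) • r ∈ S :=
      hS hq hr (by positivity) (by positivity) (by field_simp)
    have h2 : a • p + (b + c) • ((b / (b + c)) • q + (c / (b + c)) • r) ∈ S :=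
      hS hp h1 ha hspos.le (by linarith)
    have h3 : a • p + (b + c) • ((b / (b + c)) • q + (c / (b + c)) • r)
        = a • p + b • q + c • r := by
      rw [smul_add, smul_smul, smul_smul, mul_div_cancel₀ _ hs, mul_div_cancel₀ _ hs, add_assoc]
    rwa [h3] at h2

lemma mem_hull3 (p q r : V) {a b c : ℝ} (ha : 0 ≤ a) (hb : 0 ≤ b) (hc : 0 ≤ c)
    (h : a + b + c = 1) : a • p + b • q + c • r ∈ convexHull ℝ {p, q, r} :=
  convex3_mem (convex_convexHull ℝ _)
    (subset_convexHull ℝ _ (by simp)) (subset_convexHull ℝ _ (by simp))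
    (subset_convexHull ℝ _ (by simp)) ha hb hc h

/-- The triangle as an affine image of the standard triangle. -/
lemma hull3_eq_image (p q r : V) :
    convexHull ℝ {p, q, r} = (fun w => p + w) '' (planeMap (q - p) (r - p) '' stdTri) := by
  apply Set.Subset.antisymm
  · apply convexHull_min
    · intro x hx
      simp only [Set.mem_insert_iff, Set.mem_singleton_iff] at hx
      rcases hx with h | h | h <;> rw [h]
      · refine ⟨0, ⟨0, ?_, ?_⟩, ?_⟩
        · simp [stdTri]
        · simp
        · simp
      · refine ⟨q - p, ⟨!₂[1, 0], ?_, ?_⟩, ?_⟩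
        · simp [stdTri]
        · simp
        · simp
      · refine ⟨r - p, ⟨!₂[0, 1], ?_, ?_⟩, ?_⟩
        · simp [stdTri]
        · simp
        · simp
    · exact (convex_stdTri.linear_image _).translate p
  · rintro _ ⟨_, ⟨z, ⟨h1, h2, h3⟩, rfl⟩, rfl⟩
    have := mem_hull3 p q r (a := 1 - z 0 - z 1) (b := z 0) (c := z 1) (by linarith) h1 h2
      (by ring)
    convert this using 1
    simp only [planeMap_apply, smul_sub, sub_smul, one_smul]
    abel

variable [MeasurableSpace V] [BorelSpace V]

/-- area of a triangle -/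
theorem area_triangle (p q r : V) :
    μHE[2] (convexHull ℝ {p, q, r})
      = ENNReal.ofReal (1 / 2 * Real.sqrt (gram2 (q - p) (r - p))) := by
  have hi : Isometry (fun w : V => p + w) := (IsometryEquiv.addLeft p).isometry
  rw [hull3_eq_image, hi.euclideanHausdorffMeasure_image]
  have h := LinearMap.euclideanHausdorffMeasure_image_eq_normDet_mul_volume
    (planeMap (q - p) (r - p)) stdTri
  rw [finrank_euclideanSpace_fin] at h
  rw [h, volume_stdTri, normDet_planeMap, ← ENNReal.ofReal_mul (Real.sqrt_nonneg _)]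
  congr 1
  ring

/-- a segment has zero area -/
theorem area_segment (p q : V) : μHE[2] (convexHull ℝ {p, q, q}) = 0 := by
  rw [area_triangle]
  have : gram2 (q - p) (q - p) = 0 := by
    unfold gram2
    rw [real_inner_self_eq_norm_sq]
    ring
  rw [this]
  simp

end Crest.Agent.Lib.TetraFan
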