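import Mathlib

/-!
Pure real arithmetic behind the two-fan cylinder cover of the regular tetrahedron.
Coordinates `(a, b, t)`: the tetrahedron is `|a| ≤ (1+t)/2`, `|b| ≤ (1-t)/2`.
-/

namespace Crest.Agent.Lib.TetraFan

/-- the quadratic `h(τ) = (c/2)(τ² - 1/4)` -/
noncomputable def hh (c τ : ℝ) : ℝ := (c / 2) * (τ ^ 2 - 1 / 4)

/-- discretisation constant -/
noncomputable def xi0 (c Δ : ℝ) : ℝ := (Δ / 2) * (1 + c) + (c / 8) * Δ ^ 2

/-- bound for the deviations `α, β` -/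
noncomputable def B0 (c Δ : ℝ) : ℝ := (5 / 16) * c + c ^ 2 / 32 + xi0 c Δ

/-- uniform margin -/
noncomputable def E0 (c Δ : ℝ) : ℝ := ((3 * c ^ 2 / 8) * B0 c Δ + c * xi0 c Δ) / 2

/-- radial excess of the fan at a wedge of mid-parameter `y` -/
noncomputable def ee (c Δ y : ℝ) : ℝ := E0 c Δ + c ^ 2 * (y ^ 4 / 2 + y ^ 2 / 8)

lemma abs_mul_le_mul' {x y A B : ℝ} (hx : |x| ≤ A) (hy : |y| ≤ B) : |x * y| ≤ A * B := by
  rw [abs_mul]
  exact mul_le_mul hx hy (abs_nonneg _) ((abs_nonneg _).trans hx)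

lemma hh_abs_le {c y : ℝ} (hc : 0 < c) (hy : |y| ≤ 1 / 2) : |hh c y| ≤ c / 8 := by
  unfold hh
  have h1 : y ^ 2 ≤ 1 / 4 := by
    have := abs_le.mp hy
    nlinarith
  have h2 : 0 ≤ y ^ 2 := sq_nonneg y
  rw [abs_le]
  constructor <;> nlinarith

lemma xi0_nonneg {c Δ : ℝ} (hc : 0 < c) (hΔ : 0 < Δ) : 0 ≤ xi0 c Δ := by
  unfold xi0; positivity

lemma B0_nonneg {c Δ : ℝ} (hc : 0 < c) (hΔ : 0 < Δ) : 0 ≤ B0 c Δ := by
  have := xi0_nonneg hc hΔ
  unfold B0; positivity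

lemma E0_nonneg {c Δ : ℝ} (hc : 0 < c) (hΔ : 0 < Δ) : 0 ≤ E0 c Δ := by
  have := xi0_nonneg hc hΔ
  have := B0_nonneg hc hΔ
  unfold E0; positivity

lemma ee_nonneg {c Δ y : ℝ} (hc : 0 < c) (hΔ : 0 < Δ) : 0 ≤ ee c Δ y := by
  have := E0_nonneg hc hΔ
  unfold ee; positivity

lemma sq_mul_sq_le (y z : ℝ) : y ^ 2 * z ^ 2 ≤ (y ^ 4 + z ^ 4) / 2 := by
  nlinarith [sq_nonneg (y ^ 2 - z ^ 2)]

/-- The core inequality: a point of the tetrahedron in wedge `y` of fan 1 and wedge `z` of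
fan 2 lies within the far side of one of the two wedges. -/
theorem core (c Δ y z a b t : ℝ) (hc : 0 < c) (hΔ : 0 < Δ)
    (hy : |y| ≤ 1 / 2) (hz : |z| ≤ 1 / 2)
    (ha : |a| ≤ (1 + t) / 2) (hb : |b| ≤ (1 - t) / 2)
    (W1 : 0 ≤ b - (y - Δ / 2) * (1 - t) - hh c (y - Δ / 2) * a)
    (W2 : b - (y + Δ / 2) * (1 - t) - hh c (y + Δ / 2) * a ≤ 0)
    (W3 : a + (z - Δ / 2) * (1 + t) + hh c (z - Δ / 2) * b ≤ 0)
    (W4 : 0 ≤ a + (z + Δ / 2) * (1 + t) + hh c (z + Δ / 2) * b) :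
    - ee c Δ y ≤ t - c * y * a ∨ - ee c Δ z ≤ - t - c * z * b := by
  by_contra hcon
  push Not at hcon
  obtain ⟨F1, F2⟩ := hcon
  have hey := ee_nonneg (y := y) hc hΔ
  have hez := ee_nonneg (y := z) hc hΔ
  have hx0 := xi0_nonneg hc hΔ
  have hB := B0_nonneg hc hΔ
  -- basic bounds on t, a, b
  have ht1 : -1 ≤ t := by have := abs_nonneg a; linarith
  have ht2 : t ≤ 1 := by have := abs_nonneg b; linarith
  have ha1 : |a| ≤ 1 := by linarith
  have hb1 : |b| ≤ 1 := by linarith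
  have hya : |y * a| ≤ 1 / 2 * 1 := abs_mul_le_mul' hy ha1
  have hzb : |z * b| ≤ 1 / 2 * 1 := abs_mul_le_mul' hz hb1
  have hya' := abs_le.mp hya
  have hzb' := abs_le.mp hzb
  have hcya : c * y * a ≤ c / 2 := by
    have := mul_le_mul_of_nonneg_left hya'.2 hc.le; linarith
  have hcya' : - (c / 2) ≤ c * y * a := by
    have := mul_le_mul_of_nonneg_left hya'.1 hc.le; linarith
  have hczb : c * z * b ≤ c / 2 := by
    have := mul_le_mul_of_nonneg_left hzb'.2 hc.le; linarith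
  have hczb' : - (c / 2) ≤ c * z * b := by
    have := mul_le_mul_of_nonneg_left hzb'.1 hc.le; linarith
  have ht3 : t ≤ c / 2 := by linarith
  have ht4 : - (c / 2) ≤ t := by linarith
  have htabs : |t| ≤ c / 2 := abs_le.mpr ⟨ht4, ht3⟩
  have ha2 : |a| ≤ 1 / 2 + c / 4 := by linarith
  have hb2 : |b| ≤ 1 / 2 + c / 4 := by linarith
  -- the deviations xi, eta
  have hexp1 : hh c (y - Δ / 2) = hh c y - (c / 2) * y * Δ + (c / 8) * Δ ^ 2 := by
    unfold hh; ring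
  have hexp2 : hh c (y + Δ / 2) = hh c y + (c / 2) * y * Δ + (c / 8) * Δ ^ 2 := by
    unfold hh; ring
  have hexp3 : hh c (z - Δ / 2) = hh c z - (c / 2) * z * Δ + (c / 8) * Δ ^ 2 := by
    unfold hh; ring
  have hexp4 : hh c (z + Δ / 2) = hh c z + (c / 2) * z * Δ + (c / 8) * Δ ^ 2 := by
    unfold hh; ring
  rw [hexp1] at W1
  rw [hexp2] at W2
  rw [hexp3] at W3
  rw [hexp4] at W4
  set ξ := b - y + y * t - hh c y * a with hξ
  set η := a + z + z * t + hh c z * b with hη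
  have hD2 : 0 < Δ ^ 2 := by positivity
  have ha1' := abs_le.mp ha1
  have hb1' := abs_le.mp hb1
  have hcc : 0 ≤ (c / 8) * Δ ^ 2 := by positivity
  have hcD : (c / 8) * Δ ^ 2 * a ≤ (c / 8) * Δ ^ 2 := by
    have := mul_le_mul_of_nonneg_left ha1'.2 hcc; linarith
  have hcD' : - ((c / 8) * Δ ^ 2) ≤ (c / 8) * Δ ^ 2 * a := by
    have := mul_le_mul_of_nonneg_left ha1'.1 hcc; linarith
  have hcDb : (c / 8) * Δ ^ 2 * b ≤ (c / 8) * Δ ^ 2 := by
    have := mul_le_mul_of_nonneg_left hb1'.2 hcc; linarith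
  have hcDb' : - ((c / 8) * Δ ^ 2) ≤ (c / 8) * Δ ^ 2 * b := by
    have := mul_le_mul_of_nonneg_left hb1'.1 hcc; linarith
  have hD1 : (Δ / 2) * (1 - t + c * y * a) ≤ (Δ / 2) * (1 + c) := by
    apply mul_le_mul_of_nonneg_left _ (by positivity); linarith
  have hD3 : (Δ / 2) * (1 + t + c * z * b) ≤ (Δ / 2) * (1 + c) := by
    apply mul_le_mul_of_nonneg_left _ (by positivity); linarith
  have hξ1 : ξ ≤ xi0 c Δ := by
    have : ξ = (b - (y + Δ / 2) * (1 - t) - (hh c y + c / 2 * y * Δ + c / 8 * Δ ^ 2) * a)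
        + (Δ / 2) * (1 - t + c * y * a) + (c / 8) * Δ ^ 2 * a := by
      rw [hξ]; ring
    rw [this]; unfold xi0; linarith
  have hξ2 : - xi0 c Δ ≤ ξ := by
    have : ξ = (b - (y - Δ / 2) * (1 - t) - (hh c y - c / 2 * y * Δ + c / 8 * Δ ^ 2) * a)
        - (Δ / 2) * (1 - t + c * y * a) + (c / 8) * Δ ^ 2 * a := by
      rw [hξ]; ring
    rw [this]; unfold xi0; linarith
  have hη1 : η ≤ xi0 c Δ := by
    have : η = (a + (z - Δ / 2) * (1 + t) + (hh c z - c / 2 * z * Δ + c / 8 * Δ ^ 2) * b)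
        + (Δ / 2) * (1 + t + c * z * b) - (c / 8) * Δ ^ 2 * b := by
      rw [hη]; ring
    rw [this]; unfold xi0; linarith
  have hη2 : - xi0 c Δ ≤ η := by
    have : η = (a + (z + Δ / 2) * (1 + t) + (hh c z + c / 2 * z * Δ + c / 8 * Δ ^ 2) * b)
        - (Δ / 2) * (1 + t + c * z * b) - (c / 8) * Δ ^ 2 * b := by
      rw [hη]; ring
    rw [this]; unfold xi0; linarith
  have hξabs : |ξ| ≤ xi0 c Δ := abs_le.mpr ⟨hξ2, hξ1⟩
  have hηabs : |η| ≤ xi0 c Δ := abs_le.mpr ⟨hη2, hη1⟩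
  -- alpha, beta
  set β := b - y with hβ
  set α := a + z with hα
  have hhy := hh_abs_le hc hy
  have hhz := hh_abs_le hc hz
  have hβ' : β = ξ - y * t + hh c y * a := by rw [hξ, hβ]; ring
  have hα' : α = η - z * t - hh c z * b := by rw [hη, hα]; ring
  have hyt : |y * t| ≤ 1 / 2 * (c / 2) := abs_mul_le_mul' hy htabs
  have hzt : |z * t| ≤ 1 / 2 * (c / 2) := abs_mul_le_mul' hz htabs
  have hhya : |hh c y * a| ≤ c / 8 * (1 / 2 + c / 4) := abs_mul_le_mul' hhy ha2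
  have hhzb : |hh c z * b| ≤ c / 8 * (1 / 2 + c / 4) := abs_mul_le_mul' hhz hb2
  have hβabs : |β| ≤ B0 c Δ := by
    rw [hβ']
    unfold B0
    have h1 := abs_le.mp hξabs
    have h2 := abs_le.mp hyt
    have h3 := abs_le.mp hhya
    rw [abs_le]; constructor <;> linarith [h1.1, h1.2, h2.1, h2.2, h3.1, h3.2]
  have hαabs : |α| ≤ B0 c Δ := by
    rw [hα']
    unfold B0
    have h1 := abs_le.mp hηabs
    have h2 := abs_le.mp hzt
    have h3 := abs_le.mp hhzb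
    rw [abs_le]; constructor <;> linarith [h1.1, h1.2, h2.1, h2.2, h3.1, h3.2]
  -- the t-term
  have hyz1 : |y * z| ≤ 1 / 2 * (1 / 2) := abs_mul_le_mul' hy hz
  have hterm1 : |y * z * z * β| ≤ 1 / 2 * (1 / 2) * (1 / 2) * B0 c Δ :=
    abs_mul_le_mul' (abs_mul_le_mul' hyz1 hz) hβabs
  have hterm2 : |y * y * z * α| ≤ 1 / 2 * (1 / 2) * (1 / 2) * B0 c Δ :=
    abs_mul_le_mul' (abs_mul_le_mul' (abs_mul_le_mul' hy hy) hz) hαabs
  have hterm1' := abs_le.mp hterm1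
  have hterm2' := abs_le.mp hterm2
  have htterm : - (2 * (y * z) * t) ≤ 2 * c * (y ^ 2 * z ^ 2) + (c / 4) * B0 c Δ := by
    rcases le_or_gt 0 (y * z) with hyz | hyz
    · have h1 : - (c * z * b) ≤ t := by linarith
      have h2 : - (2 * (y * z) * t) ≤ 2 * (y * z) * (c * z * b) := by
        have := mul_le_mul_of_nonneg_left h1 (by linarith : 0 ≤ 2 * (y * z)); linarith
      have h3 : 2 * (y * z) * (c * z * b) = 2 * c * (y ^ 2 * z ^ 2) + 2 * c * (y * z * z * β) := by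
        rw [hβ]; ring
      have h4 := mul_le_mul_of_nonneg_left hterm1'.2 (by positivity : 0 ≤ 2 * c)
      linarith
    · have h1 : t ≤ c * y * a := by linarith
      have h2 : - (2 * (y * z) * t) ≤ - (2 * (y * z)) * (c * y * a) := by
        have := mul_le_mul_of_nonneg_left h1 (by linarith : 0 ≤ - (2 * (y * z))); linarith
      have h3 : - (2 * (y * z)) * (c * y * a)
          = 2 * c * (y ^ 2 * z ^ 2) - 2 * c * (y * y * z * α) := by
        rw [hα]; ring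
      have h4 := mul_le_mul_of_nonneg_left hterm2'.1 (by positivity : 0 ≤ 2 * c)
      linarith
  -- remaining terms
  have hterm3 : |y * hh c z * β| ≤ 1 / 2 * (c / 8) * B0 c Δ :=
    abs_mul_le_mul' (abs_mul_le_mul' hy hhz) hβabs
  have hterm4 : |z * hh c y * α| ≤ 1 / 2 * (c / 8) * B0 c Δ :=
    abs_mul_le_mul' (abs_mul_le_mul' hz hhy) hαabs
  have hterm5 : |y * η| ≤ 1 / 2 * xi0 c Δ := abs_mul_le_mul' hy hηabs
  have hterm6 : |z * ξ| ≤ 1 / 2 * xi0 c Δ := abs_mul_le_mul' hz hξabs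
  have h3' := abs_le.mp hterm3
  have h4' := abs_le.mp hterm4
  have h5' := abs_le.mp hterm5
  have h6' := abs_le.mp hterm6
  have hid : y * α + z * β = (y * η + z * ξ) - 2 * (y * z) * t
      - (y ^ 2 * hh c z + z ^ 2 * hh c y) - y * hh c z * β + z * hh c y * α := by
    have e1 : y * α = y * η - y * z * t - y * hh c z * b := by rw [hα']; ring
    have e2 : z * β = z * ξ - y * z * t + z * hh c y * a := by rw [hβ']; ring
    have e3 : b = y + β := by rw [hβ]; ring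
    have e4 : a = α - z := by rw [hα]; ring
    rw [e1, e2, e3, e4]; ring
  have hW : - (y ^ 2 * hh c z + z ^ 2 * hh c y)
      = (c / 2) * ((y ^ 2 + z ^ 2) / 4 - 2 * (y ^ 2 * z ^ 2)) := by
    unfold hh; ring
  have hmain : y * α + z * β ≤ c * (y ^ 2 * z ^ 2 + (y ^ 2 + z ^ 2) / 8)
      + (3 * c / 8) * B0 c Δ + xi0 c Δ := by
    rw [hid]
    linarith [h3'.1, h3'.2, h4'.1, h4'.2, h5'.2, h6'.2, htterm, hW]
  have hprod : c * y * a + c * z * b = c * (y * α + z * β) := by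
    rw [hα, hβ]; ring
  have hfinal : c * y * a + c * z * b ≤ c * (c * (y ^ 2 * z ^ 2 + (y ^ 2 + z ^ 2) / 8)
      + (3 * c / 8) * B0 c Δ + xi0 c Δ) := by
    rw [hprod]
    exact mul_le_mul_of_nonneg_left hmain hc.le
  have hsum : ee c Δ y + ee c Δ z = 2 * E0 c Δ +
      c ^ 2 * ((y ^ 4 + z ^ 4) / 2 + (y ^ 2 + z ^ 2) / 8) := by
    unfold ee; ring
  have h2E : 2 * E0 c Δ = (3 * c ^ 2 / 8) * B0 c Δ + c * xi0 c Δ := by
    unfold E0; ring
  have hyz4 : y ^ 2 * z ^ 2 ≤ (y ^ 4 + z ^ 4) / 2 := sq_mul_sq_le y z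
  have hc2 : 0 < c ^ 2 := by positivity
  have : c * (c * (y ^ 2 * z ^ 2 + (y ^ 2 + z ^ 2) / 8) + (3 * c / 8) * B0 c Δ + xi0 c Δ)
      ≤ ee c Δ y + ee c Δ z := by
    rw [hsum, h2E]
    linarith [mul_le_mul_of_nonneg_left hyz4 hc2.le]
  linarith

end Crest.Agent.Lib.TetraFan
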