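import Crest.Agent.Lib.TetraFrame

/-!
The cover as indexed families, and the frame attached to four equidistant points.
-/

open MeasureTheory Module
open scoped RealInnerProductSpace

namespace Crest.Agent.Lib.TetraFan

section Family

variable (e₁ e₂ e₃ m : E3) (s : ℝ)

/-- first base point of the `i`-th cylinder of a fan -/
noncomputable def bP (e₁ e₂ e₃ m : E3) (s y : ℝ) : E3 :=
  proj (uu e₁ e₂ e₃ cc dd y) (V0 e₁ e₂ e₃ m s)

/-- second base point -/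
noncomputable def bQ (e₁ e₂ e₃ m : E3) (s y : ℝ) : E3 :=
  proj (uu e₁ e₂ e₃ cc dd y) (V1 e₁ e₂ e₃ m s cc dd y)

/-- third base point -/
noncomputable def bR (e₁ e₂ e₃ m : E3) (s y : ℝ) : E3 :=
  proj (uu e₁ e₂ e₃ cc dd y) (V2 e₁ e₂ e₃ m s cc dd y)

/-- axes of all the cylinders -/
noncomputable def famU (i : ℕ) : E3 :=
  if i < nn then uu e₁ e₂ e₃ cc dd (mid dd i) else uu e₂ (-e₁) (-e₃) cc dd (mid dd (i - nn))

/-- first base points of all the cylinders -/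
noncomputable def famP (i : ℕ) : E3 :=
  if i < nn then bP e₁ e₂ e₃ m s (mid dd i) else bP e₂ (-e₁) (-e₃) m s (mid dd (i - nn))

/-- second base points of all the cylinders -/
noncomputable def famQ (i : ℕ) : E3 :=
  if i < nn then bQ e₁ e₂ e₃ m s (mid dd i) else bQ e₂ (-e₁) (-e₃) m s (mid dd (i - nn))

/-- third base points of all the cylinders -/
noncomputable def famR (i : ℕ) : E3 :=
  if i < nn then bR e₁ e₂ e₃ m s (mid dd i) else bR e₂ (-e₁) (-e₃) m s (mid dd (i - nn))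

variable {e₁ e₂ e₃}

lemma famU_inner (hF : IsFrame e₁ e₂ e₃) (i : ℕ) : ⟪famU e₁ e₂ e₃ i, famU e₁ e₂ e₃ i⟫ = 1 := by
  unfold famU
  split_ifs
  · exact inner_uu hF _ _ _
  · exact inner_uu hF.rot _ _ _

lemma famU_norm (hF : IsFrame e₁ e₂ e₃) (i : ℕ) : ‖famU e₁ e₂ e₃ i‖ = 1 := by
  have h := famU_inner hF i
  rw [real_inner_self_eq_norm_sq] at h
  have h2 : 0 ≤ ‖famU e₁ e₂ e₃ i‖ := norm_nonneg _
  nlinarith

lemma famP_inner (hF : IsFrame e₁ e₂ e₃) (i : ℕ) :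
    ⟪famP e₁ e₂ e₃ m s i, famU e₁ e₂ e₃ i⟫ = 0 := by
  unfold famU famP bP
  split_ifs
  · exact inner_proj_self (inner_uu hF _ _ _) _
  · exact inner_proj_self (inner_uu hF.rot _ _ _) _

lemma famQ_inner (hF : IsFrame e₁ e₂ e₃) (i : ℕ) :
    ⟪famQ e₁ e₂ e₃ m s i, famU e₁ e₂ e₃ i⟫ = 0 := by
  unfold famU famQ bQ
  split_ifs
  · exact inner_proj_self (inner_uu hF _ _ _) _
  · exact inner_proj_self (inner_uu hF.rot _ _ _) _

lemma famR_inner (hF : IsFrame e₁ e₂ e₃) (i : ℕ) :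
    ⟪famR e₁ e₂ e₃ m s i, famU e₁ e₂ e₃ i⟫ = 0 := by
  unfold famU famR bR
  split_ifs
  · exact inner_proj_self (inner_uu hF _ _ _) _
  · exact inner_proj_self (inner_uu hF.rot _ _ _) _

/-- the triangle of a cylinder -/
noncomputable def famT (e₁ e₂ e₃ m : E3) (s : ℝ) (i : ℕ) : Set E3 :=
  convexHull ℝ {famP e₁ e₂ e₃ m s i, famQ e₁ e₂ e₃ m s i, famR e₁ e₂ e₃ m s i}

lemma famT_lt {i : ℕ} (hi : i < nn) :
    famT e₁ e₂ e₃ m s i = baseTri e₁ e₂ e₃ m s cc dd (mid dd i) := by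
  unfold famT famP famQ famR bP bQ bR baseTri
  simp only [if_pos hi]

lemma famT_ge {i : ℕ} (hi : ¬ i < nn) :
    famT e₁ e₂ e₃ m s i = baseTri e₂ (-e₁) (-e₃) m s cc dd (mid dd (i - nn)) := by
  unfold famT famP famQ famR bP bQ bR baseTri
  simp only [if_neg hi]

/-- the triangles are not degenerate -/
lemma fam_gram (hF : IsFrame e₁ e₂ e₃) (hs : 0 < s) (i : ℕ) :
    0 < gram2 (famQ e₁ e₂ e₃ m s i - famP e₁ e₂ e₃ m s i)
      (famR e₁ e₂ e₃ m s i - famP e₁ e₂ e₃ m s i) := by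
  have hd := dd_pos
  have hc := cc_pos
  have key : ∀ {f₁ f₂ f₃ : E3} (_ : IsFrame f₁ f₂ f₃) (y : ℝ),
      0 < gram2 (bQ f₁ f₂ f₃ m s y - bP f₁ f₂ f₃ m s y) (bR f₁ f₂ f₃ m s y - bP f₁ f₂ f₃ m s y) := by
    intro f₁ f₂ f₃ hG y
    unfold bP bQ bR
    rw [gram_baseTri hG m s cc dd y dd_pos]
    have h1 := ee_nonneg (y := y) hc hd
    have h2 := NN_pos cc dd y
    positivity
  unfold famP famQ famR
  split_ifs
  · exact key hF _
  · exact key hF.rot _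

/-- The total area of the triangles. -/
theorem fam_area (hF : IsFrame e₁ e₂ e₃) (hs : 0 < s) :
    ∑ i ∈ Finset.range (2 * nn), (μHE[2] (famT e₁ e₂ e₃ m s i)).toReal
      ≤ s ^ 2 * Real.sqrt 2 * (1 / 2 - 3 / 10 ^ 8) := by
  have hG := GG_pos
  have hterm : ∀ {f₁ f₂ f₃ : E3} (_ : IsFrame f₁ f₂ f₃) (y : ℝ),
      (μHE[2] (baseTri f₁ f₂ f₃ m s cc dd y)).toReal = s ^ 2 * GG * (1 / 2 * (1 + ee cc dd y) ^ 2 * dd *
          (1 / Real.sqrt (1 + ww cc dd y))) := by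
    intro f₁ f₂ f₃ hF' y
    rw [area_baseTri hF' m s cc dd y hs.le dd_pos, ENNReal.toReal_ofReal]
    have := dd_pos
    positivity
  rw [two_mul, Finset.sum_range_add]
  have h1 : ∑ i ∈ Finset.range nn, (μHE[2] (famT e₁ e₂ e₃ m s i)).toReal
      = s ^ 2 * GG * ∑ i ∈ Finset.range nn, (1 / 2 * (1 + ee cc dd (mid dd i)) ^ 2 * dd *
        (1 / Real.sqrt (1 + ww cc dd (mid dd i)))) := by
    rw [Finset.mul_sum]
    refine Finset.sum_congr rfl (fun i hi => ?_)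
    rw [famT_lt m s (Finset.mem_range.mp hi), hterm hF]
  have h2 : ∑ i ∈ Finset.range nn, (μHE[2] (famT e₁ e₂ e₃ m s (nn + i))).toReal
      = s ^ 2 * GG * ∑ i ∈ Finset.range nn, (1 / 2 * (1 + ee cc dd (mid dd i)) ^ 2 * dd *
        (1 / Real.sqrt (1 + ww cc dd (mid dd i)))) := by
    rw [Finset.mul_sum]
    refine Finset.sum_congr rfl (fun i hi => ?_)
    rw [famT_ge m s (by omega), hterm hF.rot, Nat.add_sub_cancel_left]
  rw [h1, h2]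
  have hsum := sum_cost
  have hpos : 0 ≤ s ^ 2 * GG := by positivity
  have := mul_le_mul_of_nonneg_left hsum hpos
  have e : s ^ 2 * Real.sqrt 2 * (1 / 2 - 3 / 10 ^ 8) = 2 * (s ^ 2 * GG * (1 / 2 - 3 / 10 ^ 8)) := by
    unfold GG
    ring
  rw [e]
  linarith

/-- The cylinders cover the tetrahedron. -/
theorem fam_cover (hF : IsFrame e₁ e₂ e₃) (a b t : ℝ)
    (ha : |a| ≤ (1 + t) / 2) (hb : |b| ≤ (1 - t) / 2) :
    ∃ i < 2 * nn, ∃ w ∈ famT e₁ e₂ e₃ m s i, ∃ r : ℝ,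
      ptt e₁ e₂ e₃ m s a b t = w + r • famU e₁ e₂ e₃ i := by
  obtain ⟨i, hi, h | h⟩ := cover_point hF m s a b t ha hb
  · refine ⟨i, by omega, ?_⟩
    rw [famT_lt m s hi]
    unfold famU
    rw [if_pos hi]
    exact h
  · refine ⟨nn + i, by omega, ?_⟩
    have hn : ¬ nn + i < nn := by omega
    rw [famT_ge m s hn]
    unfold famU
    rw [if_neg hn, Nat.add_sub_cancel_left]
    exact h

end Family

section Setup

/-- The region of the `(a, b, t)`-coordinates. -/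
def Kc (e₁ e₂ e₃ m : E3) (s : ℝ) : Set E3 :=
  {x | ∃ a b t : ℝ, |a| ≤ (1 + t) / 2 ∧ |b| ≤ (1 - t) / 2 ∧ x = ptt e₁ e₂ e₃ m s a b t}

lemma Kc_convex (e₁ e₂ e₃ m : E3) (s : ℝ) : Convex ℝ (Kc e₁ e₂ e₃ m s) := by
  rintro x ⟨a, b, t, ha, hb, rfl⟩ y ⟨a', b', t', ha', hb', rfl⟩ α β hα hβ hαβ
  refine ⟨α * a + β * a', α * b + β * b', α * t + β * t', ?_, ?_, ?_⟩
  · have h1 := abs_add_le (α * a) (β * a')
    rw [abs_mul, abs_mul, abs_of_nonneg hα, abs_of_nonneg hβ] at h1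
    have h2 := mul_le_mul_of_nonneg_left ha hα
    have h3 := mul_le_mul_of_nonneg_left ha' hβ
    have h4 : α * ((1 + t) / 2) + β * ((1 + t') / 2) = (1 + (α * t + β * t')) / 2 := by
      have : β = 1 - α := by linarith
      subst this
      ring
    linarith
  · have h1 := abs_add_le (α * b) (β * b')
    rw [abs_mul, abs_mul, abs_of_nonneg hα, abs_of_nonneg hβ] at h1
    have h2 := mul_le_mul_of_nonneg_left hb hα
    have h3 := mul_le_mul_of_nonneg_left hb' hβ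
    have h4 : α * ((1 - t) / 2) + β * ((1 - t') / 2) = (1 - (α * t + β * t')) / 2 := by
      have : β = 1 - α := by linarith
      subst this
      ring
    linarith
  · have : β = 1 - α := by linarith
    subst this
    unfold ptt vec
    module

variable (w : Fin 4 → E3) (ℓ : ℝ)

/-- first vector of the frame of four points -/
noncomputable def fe₁ : E3 := (1 / ℓ) • (w 1 - w 0)
/-- second vector of the frame of four points -/
noncomputable def fe₂ : E3 := (1 / ℓ) • (w 3 - w 2)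
/-- third vector of the frame of four points -/
noncomputable def fe₃ : E3 := (1 / (Real.sqrt 2 * ℓ)) • (w 0 + w 1 - w 2 - w 3)
/-- the centroid -/
noncomputable def fm : E3 := (1 / 4 : ℝ) • (w 0 + w 1 + w 2 + w 3)

variable {w ℓ}

lemma inner_differences (hw : ∀ i j, i ≠ j → dist (w i) (w j) = ℓ) :
    ⟪w 1 - w 0, w 1 - w 0⟫ = ℓ ^ 2 ∧ ⟪w 2 - w 0, w 2 - w 0⟫ = ℓ ^ 2 ∧ ⟪w 3 - w 0, w 3 - w 0⟫ = ℓ ^ 2 ∧
    ⟪w 1 - w 0, w 2 - w 0⟫ = ℓ ^ 2 / 2 ∧ ⟪w 1 - w 0, w 3 - w 0⟫ = ℓ ^ 2 / 2 ∧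
    ⟪w 2 - w 0, w 3 - w 0⟫ = ℓ ^ 2 / 2 := by
  have hd : ∀ i j, i ≠ j → ⟪w i - w j, w i - w j⟫ = ℓ ^ 2 := by
    intro i j hij
    rw [real_inner_self_eq_norm_sq, ← dist_eq_norm, hw i j hij]
  have h10 := hd 1 0 (by decide)
  have h20 := hd 2 0 (by decide)
  have h30 := hd 3 0 (by decide)
  have h12 := hd 1 2 (by decide)
  have h13 := hd 1 3 (by decide)
  have h23 := hd 2 3 (by decide)
  have pol : ∀ x y z : E3, ⟪x - y, x - y⟫ = ⟪x - z, x - z⟫ + ⟪y - z, y - z⟫ - 2 * ⟪x - z, y - z⟫ := by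
    intro x y z
    have : x - y = (x - z) - (y - z) := by abel
    rw [this]
    generalize x - z = X
    generalize y - z = Y
    rw [inner_sub_left, inner_sub_right, inner_sub_right, real_inner_comm Y X]
    ring
  refine ⟨h10, h20, h30, ?_, ?_, ?_⟩
  · have := pol (w 1) (w 2) (w 0)
    rw [h12, h10, h20] at this
    linarith
  · have := pol (w 1) (w 3) (w 0)
    rw [h13, h10, h30] at this
    linarith
  · have := pol (w 2) (w 3) (w 0)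
    rw [h23, h20, h30] at this
    linarith

lemma isFrame_abc {ℓ : ℝ} (hℓ : 0 < ℓ) (a b c : E3) (haa : ⟪a, a⟫ = ℓ ^ 2) (hbb : ⟪b, b⟫ = ℓ ^ 2)
    (hcc : ⟪c, c⟫ = ℓ ^ 2) (hab : ⟪a, b⟫ = ℓ ^ 2 / 2) (hac : ⟪a, c⟫ = ℓ ^ 2 / 2)
    (hbc : ⟪b, c⟫ = ℓ ^ 2 / 2) :
    IsFrame ((1 / ℓ) • a) ((1 / ℓ) • (c - b)) ((1 / (Real.sqrt 2 * ℓ)) • (a - b - c)) := by
  have hr0 : 0 < Real.sqrt 2 := by positivity
  have hr2 : Real.sqrt 2 ^ 2 = 2 := Real.sq_sqrt (by norm_num)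
  have hba : ⟪b, a⟫ = ℓ ^ 2 / 2 := by rw [real_inner_comm]; exact hab
  have hca : ⟪c, a⟫ = ℓ ^ 2 / 2 := by rw [real_inner_comm]; exact hac
  have hcb : ⟪c, b⟫ = ℓ ^ 2 / 2 := by rw [real_inner_comm]; exact hbc
  constructor <;>
  · simp only [inner_smul_left, inner_smul_right, inner_sub_left, inner_sub_right, conj_trivial,
      haa, hbb, hcc, hab, hac, hbc, hba, hca, hcb]
    field_simp
    try rw [hr2]
    try ring

theorem isFrame_of_equidistant (hℓ : 0 < ℓ) (hw : ∀ i j, i ≠ j → dist (w i) (w j) = ℓ) :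
    IsFrame (fe₁ w ℓ) (fe₂ w ℓ) (fe₃ w ℓ) := by
  obtain ⟨haa, hbb, hcc, hab, hac, hbc⟩ := inner_differences hw
  have e2 : w 3 - w 2 = (w 3 - w 0) - (w 2 - w 0) := by abel
  have e3 : w 0 + w 1 - w 2 - w 3 = (w 1 - w 0) - (w 2 - w 0) - (w 3 - w 0) := by abel
  unfold fe₁ fe₂ fe₃
  rw [e2, e3]
  exact isFrame_abc hℓ _ _ _ haa hbb hcc hab hac hbc

lemma vertex_eq (hℓ : 0 < ℓ) :
    ptt (fe₁ w ℓ) (fe₂ w ℓ) (fe₃ w ℓ) (fm w) (ℓ / 2) (-1) 0 1 = w 0 ∧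
    ptt (fe₁ w ℓ) (fe₂ w ℓ) (fe₃ w ℓ) (fm w) (ℓ / 2) 1 0 1 = w 1 ∧
    ptt (fe₁ w ℓ) (fe₂ w ℓ) (fe₃ w ℓ) (fm w) (ℓ / 2) 0 (-1) (-1) = w 2 ∧
    ptt (fe₁ w ℓ) (fe₂ w ℓ) (fe₃ w ℓ) (fm w) (ℓ / 2) 0 1 (-1) = w 3 := by
  have hr0 : Real.sqrt 2 ≠ 0 := by positivity
  have hl0 : ℓ ≠ 0 := hℓ.ne'
  have h1 : ℓ / 2 * (1 / ℓ) = 1 / 2 := by field_simp
  have h2 : ℓ / 2 * GG * (1 / (Real.sqrt 2 * ℓ)) = 1 / 4 := by
    unfold GG
    field_simp
    norm_num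
  have key : ∀ a b t : ℝ, ptt (fe₁ w ℓ) (fe₂ w ℓ) (fe₃ w ℓ) (fm w) (ℓ / 2) a b t
      = fm w + (a * (ℓ / 2 * (1 / ℓ))) • (w 1 - w 0) + (b * (ℓ / 2 * (1 / ℓ))) • (w 3 - w 2)
        + (t * (ℓ / 2 * GG * (1 / (Real.sqrt 2 * ℓ)))) • (w 0 + w 1 - w 2 - w 3) := by
    intro a b t
    unfold ptt vec fe₁ fe₂ fe₃
    module
  rw [key, key, key, key, h1, h2]
  unfold fm
  refine ⟨?_, ?_, ?_, ?_⟩ <;> module

/-- The tetrahedron lies in the region of the coordinates. -/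
theorem hull_subset_Kc (hℓ : 0 < ℓ) :
    convexHull ℝ (Set.range w) ⊆ Kc (fe₁ w ℓ) (fe₂ w ℓ) (fe₃ w ℓ) (fm w) (ℓ / 2) := by
  apply convexHull_min _ (Kc_convex _ _ _ _ _)
  rintro _ ⟨i, rfl⟩
  obtain ⟨h0, h1, h2, h3⟩ := vertex_eq (w := w) hℓ
  fin_cases i
  · exact ⟨-1, 0, 1, by norm_num, by norm_num, h0.symm⟩
  · exact ⟨1, 0, 1, by norm_num, by norm_num, h1.symm⟩
  · exact ⟨0, -1, -1, by norm_num, by norm_num, h2.symm⟩
  · exact ⟨0, 1, -1, by norm_num, by norm_num, h3.symm⟩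

end Setup

end Crest.Agent.Lib.TetraFan
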