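import Crest.Agent.Lib.TetraSum
import Crest.Agent.Lib.TetraArea

/-!
The cylinders of the two-fan cover, in an arbitrary orthonormal frame of three-space.
-/

open MeasureTheory Module
open scoped RealInnerProductSpace

namespace Crest.Agent.Lib.TetraFan

/-- three-space -/
abbrev E3 := EuclideanSpace ℝ (Fin 3)

/-- an orthonormal frame -/
structure IsFrame (e₁ e₂ e₃ : E3) : Prop where
  h11 : ⟪e₁, e₁⟫ = 1
  h22 : ⟪e₂, e₂⟫ = 1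
  h33 : ⟪e₃, e₃⟫ = 1
  h12 : ⟪e₁, e₂⟫ = 0
  h13 : ⟪e₁, e₃⟫ = 0
  h23 : ⟪e₂, e₃⟫ = 0

/-- a vector in frame coordinates -/
noncomputable def vec (e₁ e₂ e₃ : E3) (x y z : ℝ) : E3 := x • e₁ + y • e₂ + z • e₃

lemma inner_vec {e₁ e₂ e₃ : E3} (hF : IsFrame e₁ e₂ e₃) (x y z x' y' z' : ℝ) :
    ⟪vec e₁ e₂ e₃ x y z, vec e₁ e₂ e₃ x' y' z'⟫ = x * x' + y * y' + z * z' := by
  have h21 : ⟪e₂, e₁⟫ = 0 := by rw [real_inner_comm]; exact hF.h12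
  have h31 : ⟪e₃, e₁⟫ = 0 := by rw [real_inner_comm]; exact hF.h13
  have h32 : ⟪e₃, e₂⟫ = 0 := by rw [real_inner_comm]; exact hF.h23
  unfold vec
  simp only [inner_add_left, inner_add_right, inner_smul_left, inner_smul_right, hF.h11, hF.h22,
    hF.h33, hF.h12, hF.h13, hF.h23, h21, h31, h32, conj_trivial]
  ring

lemma vec_add (e₁ e₂ e₃ : E3) (x y z x' y' z' : ℝ) :
    vec e₁ e₂ e₃ x y z + vec e₁ e₂ e₃ x' y' z' = vec e₁ e₂ e₃ (x + x') (y + y') (z + z') := by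
  unfold vec
  simp only [add_smul]
  abel

lemma smul_vec (e₁ e₂ e₃ : E3) (r x y z : ℝ) :
    r • vec e₁ e₂ e₃ x y z = vec e₁ e₂ e₃ (r * x) (r * y) (r * z) := by
  unfold vec
  simp only [smul_add, smul_smul]

/-- `G = 1/√2` -/
noncomputable def GG : ℝ := Real.sqrt 2 / 2

lemma GG_sq : GG ^ 2 = 1 / 2 := by
  unfold GG
  rw [div_pow, Real.sq_sqrt (by norm_num)]
  norm_num

lemma GG_pos : 0 < GG := by
  unfold GG
  positivity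

/-- a point in the `(a, b, t)` coordinates -/
noncomputable def ptt (e₁ e₂ e₃ m : E3) (s a b t : ℝ) : E3 := m + s • vec e₁ e₂ e₃ a b (GG * t)

/-- projection along a vector -/
noncomputable def proj (U Y : E3) : E3 := Y - ⟪Y, U⟫ • U

lemma proj_sub (U X Y : E3) : proj U X - proj U Y = proj U (X - Y) := by
  unfold proj
  rw [inner_sub_left, sub_smul]
  abel

lemma inner_proj_self {U : E3} (hU : ⟪U, U⟫ = 1) (Y : E3) : ⟪proj U Y, U⟫ = 0 := by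
  unfold proj
  rw [inner_sub_left, inner_smul_left, hU]
  simp

lemma inner_proj_proj {U : E3} (hU : ⟪U, U⟫ = 1) (X Y : E3) :
    ⟪proj U X, proj U Y⟫ = ⟪X, Y⟫ - ⟪X, U⟫ * ⟪Y, U⟫ := by
  unfold proj
  simp only [inner_sub_left, inner_sub_right, inner_smul_left, inner_smul_right, hU,
    conj_trivial, real_inner_comm U X]
  rw [real_inner_comm Y U]
  ring

lemma gram_identity (τ τ' p q N : ℝ) (hN : N = 1 + p ^ 2 + q ^ 2 / 2) (hNpos : 0 < N) :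
    ((τ ^ 2 + 1 / 2) - (τ * p - q / 2) ^ 2 / N) * ((τ' ^ 2 + 1 / 2) - (τ' * p - q / 2) ^ 2 / N)
      - ((τ * τ' + 1 / 2) - (τ * p - q / 2) * (τ' * p - q / 2) / N) ^ 2
      = (τ' - τ) ^ 2 / (2 * N) := by
  have hN0 : N ≠ 0 := hNpos.ne'
  subst hN
  field_simp
  ring

section Wedge

variable {e₁ e₂ e₃ : E3} (hF : IsFrame e₁ e₂ e₃) (m : E3) (s c Δ y : ℝ)

/-- the axis of the cylinder of a wedge with mid-parameter `y`, not normalised -/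
noncomputable def dirV (e₁ e₂ e₃ : E3) (c Δ y : ℝ) : E3 :=
  vec e₁ e₂ e₃ 1 (pp c Δ y) (GG * (c * y))

/-- the normalisation of the axis -/
noncomputable def NN (c Δ y : ℝ) : ℝ := 1 + ww c Δ y

lemma NN_pos (c Δ y : ℝ) : 0 < NN c Δ y := by
  have := ww_nonneg c Δ y
  unfold NN
  linarith

include hF in
lemma inner_dirV : ⟪dirV e₁ e₂ e₃ c Δ y, dirV e₁ e₂ e₃ c Δ y⟫ = NN c Δ y := by
  unfold dirV NN ww
  rw [inner_vec hF]
  have := GG_sq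
  have e : GG * (c * y) * (GG * (c * y)) = GG ^ 2 * (c * y) ^ 2 := by ring
  rw [e, this]
  ring

/-- the unit axis -/
noncomputable def uu (e₁ e₂ e₃ : E3) (c Δ y : ℝ) : E3 :=
  (1 / Real.sqrt (NN c Δ y)) • dirV e₁ e₂ e₃ c Δ y

include hF in
lemma inner_uu : ⟪uu e₁ e₂ e₃ c Δ y, uu e₁ e₂ e₃ c Δ y⟫ = 1 := by
  unfold uu
  rw [inner_smul_left, inner_smul_right, inner_dirV hF]
  have h := NN_pos c Δ y
  have hs : Real.sqrt (NN c Δ y) ^ 2 = NN c Δ y := Real.sq_sqrt h.le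
  have hs0 : Real.sqrt (NN c Δ y) ≠ 0 := (Real.sqrt_pos.mpr h).ne'
  simp only [conj_trivial]
  field_simp
  exact hs.symm ▸ rfl

include hF in
lemma norm_uu : ‖uu e₁ e₂ e₃ c Δ y‖ = 1 := by
  have h := inner_uu hF c Δ y
  rw [real_inner_self_eq_norm_sq] at h
  have h2 : 0 ≤ ‖uu e₁ e₂ e₃ c Δ y‖ := norm_nonneg _
  nlinarith

/-- apex of the base triangle -/
noncomputable def V0 (e₁ e₂ e₃ m : E3) (s : ℝ) : E3 := ptt e₁ e₂ e₃ m s 0 0 1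

/-- first far vertex -/
noncomputable def V1 (e₁ e₂ e₃ m : E3) (s c Δ y : ℝ) : E3 :=
  ptt e₁ e₂ e₃ m s 0 ((1 + ee c Δ y) * (y - Δ / 2)) (1 - (1 + ee c Δ y))

/-- second far vertex -/
noncomputable def V2 (e₁ e₂ e₃ m : E3) (s c Δ y : ℝ) : E3 :=
  ptt e₁ e₂ e₃ m s 0 ((1 + ee c Δ y) * (y + Δ / 2)) (1 - (1 + ee c Δ y))

/-- the triangular base in the plane orthogonal to the axis -/
noncomputable def baseTri (e₁ e₂ e₃ m : E3) (s c Δ y : ℝ) : Set E3 :=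
  convexHull ℝ {proj (uu e₁ e₂ e₃ c Δ y) (V0 e₁ e₂ e₃ m s),
    proj (uu e₁ e₂ e₃ c Δ y) (V1 e₁ e₂ e₃ m s c Δ y),
    proj (uu e₁ e₂ e₃ c Δ y) (V2 e₁ e₂ e₃ m s c Δ y)}

/-- the relation between the direction and the wedge planes -/
lemma pp_add (c Δ y : ℝ) : pp c Δ y + (y - Δ / 2) * (c * y) = hh c (y - Δ / 2) := by
  unfold pp hh; ring

lemma pp_add' (c Δ y : ℝ) : pp c Δ y + (y + Δ / 2) * (c * y) = hh c (y + Δ / 2) := by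
  unfold pp hh; ring

lemma ptt_comb (e₁ e₂ e₃ m : E3) (s l₀ l₁ l₂ a₀ b₀ t₀ a₁ b₁ t₁ a₂ b₂ t₂ : ℝ)
    (hl : l₀ + l₁ + l₂ = 1) :
    l₀ • ptt e₁ e₂ e₃ m s a₀ b₀ t₀ + l₁ • ptt e₁ e₂ e₃ m s a₁ b₁ t₁ + l₂ • ptt e₁ e₂ e₃ m s a₂ b₂ t₂
      = ptt e₁ e₂ e₃ m s (l₀ * a₀ + l₁ * a₁ + l₂ * a₂) (l₀ * b₀ + l₁ * b₁ + l₂ * b₂)
          (l₀ * t₀ + l₁ * t₁ + l₂ * t₂) := by
  obtain rfl : l₀ = 1 - l₁ - l₂ := by linarith
  unfold ptt vec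
  module

lemma ptt_eq_add_dir (e₁ e₂ e₃ m : E3) (s a b t p q : ℝ) :
    ptt e₁ e₂ e₃ m s a b t
      = ptt e₁ e₂ e₃ m s 0 (b - p * a) (t - q * a) + (s * a) • vec e₁ e₂ e₃ 1 p (GG * q) := by
  unfold ptt vec
  module

lemma proj_comb (U X Y Z : E3) (l₀ l₁ l₂ : ℝ) :
    proj U (l₀ • X + l₁ • Y + l₂ • Z) = l₀ • proj U X + l₁ • proj U Y + l₂ • proj U Z := by
  unfold proj
  simp only [inner_add_left, inner_smul_left, conj_trivial]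
  module

/-- A point in the wedge and on the near side of the far plane lies in the cylinder. -/
theorem mem_cyl (hc : 0 < c) (hΔ : 0 < Δ) (a b t : ℝ)
    (W1 : 0 ≤ b - (y - Δ / 2) * (1 - t) - hh c (y - Δ / 2) * a)
    (W2 : b - (y + Δ / 2) * (1 - t) - hh c (y + Δ / 2) * a ≤ 0)
    (hfar : - ee c Δ y ≤ t - c * y * a) :
    ∃ w ∈ baseTri e₁ e₂ e₃ m s c Δ y, ∃ r : ℝ,
      ptt e₁ e₂ e₃ m s a b t = w + r • uu e₁ e₂ e₃ c Δ y := by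
  have hee := ee_nonneg (y := y) hc hΔ
  obtain ⟨ρ, hρ⟩ : ∃ ρ, ρ = 1 + ee c Δ y := ⟨_, rfl⟩
  have hρpos : 0 < ρ := by linarith
  obtain ⟨τ, hτ⟩ : ∃ τ, τ = y - Δ / 2 := ⟨_, rfl⟩
  obtain ⟨τ', hτ'⟩ : ∃ τ', τ' = y + Δ / 2 := ⟨_, rfl⟩
  have hττ : τ' - τ = Δ := by rw [hτ, hτ']; ring
  obtain ⟨B, hB⟩ : ∃ B, B = b - pp c Δ y * a := ⟨_, rfl⟩
  obtain ⟨T, hT⟩ : ∃ T, T = t - (c * y) * a := ⟨_, rfl⟩
  obtain ⟨r₀, hr₀⟩ : ∃ r₀, r₀ = 1 - T := ⟨_, rfl⟩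
  have e1 : b - (y - Δ / 2) * (1 - t) - hh c (y - Δ / 2) * a = B - τ * r₀ := by
    rw [← pp_add, hB, hr₀, hT, hτ]; ring
  have e2 : b - (y + Δ / 2) * (1 - t) - hh c (y + Δ / 2) * a = B - τ' * r₀ := by
    rw [← pp_add', hB, hr₀, hT, hτ']; ring
  rw [e1] at W1
  rw [e2] at W2
  have hr₀ρ : r₀ ≤ ρ := by
    rw [hr₀, hT, hρ]; linarith
  have hD : 0 < Δ * ρ := by positivity
  obtain ⟨l₂, hl₂⟩ : ∃ l₂, l₂ = (B - τ * r₀) / (Δ * ρ) := ⟨_, rfl⟩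
  obtain ⟨l₁, hl₁⟩ : ∃ l₁, l₁ = (τ' * r₀ - B) / (Δ * ρ) := ⟨_, rfl⟩
  obtain ⟨l₀, hl₀⟩ : ∃ l₀, l₀ = 1 - r₀ / ρ := ⟨_, rfl⟩
  have hl₂n : 0 ≤ l₂ := by rw [hl₂]; exact div_nonneg W1 hD.le
  have hl₁n : 0 ≤ l₁ := by rw [hl₁]; exact div_nonneg (by linarith) hD.le
  have hl₀n : 0 ≤ l₀ := by
    rw [hl₀, sub_nonneg, div_le_one hρpos]; exact hr₀ρ
  have h12 : l₁ + l₂ = r₀ / ρ := by
    rw [hl₁, hl₂, ← add_div]
    have : τ' * r₀ - B + (B - τ * r₀) = Δ * r₀ := by rw [← hττ]; ring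
    rw [this]
    field_simp
  have hsum : l₀ + l₁ + l₂ = 1 := by
    rw [add_assoc, h12, hl₀]; ring
  have hb : l₁ * (ρ * τ) + l₂ * (ρ * τ') = B := by
    rw [hl₁, hl₂]
    have hτ'' : τ' = τ + Δ := by linarith
    rw [hτ'']
    field_simp
    ring
  have ht : l₀ * 1 + l₁ * (1 - ρ) + l₂ * (1 - ρ) = T := by
    have : l₀ * 1 + l₁ * (1 - ρ) + l₂ * (1 - ρ) = l₀ + (l₁ + l₂) * (1 - ρ) := by ring
    rw [this, h12, hl₀, hr₀]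
    field_simp
    ring
  obtain ⟨U, hU⟩ : ∃ U, U = uu e₁ e₂ e₃ c Δ y := ⟨_, rfl⟩
  have hcomb : l₀ • V0 e₁ e₂ e₃ m s + l₁ • V1 e₁ e₂ e₃ m s c Δ y + l₂ • V2 e₁ e₂ e₃ m s c Δ y
      = ptt e₁ e₂ e₃ m s 0 B T := by
    unfold V0 V1 V2
    rw [ptt_comb (hl := hsum), ← hρ, ← hτ, ← hτ']
    congr 1
    · ring
    · rw [← hb]; ring
  have hdir : ptt e₁ e₂ e₃ m s a b t
      = ptt e₁ e₂ e₃ m s 0 B T + (s * a) • dirV e₁ e₂ e₃ c Δ y := by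
    rw [hB, hT]
    exact ptt_eq_add_dir _ _ _ _ _ _ _ _ _ _
  have hV : dirV e₁ e₂ e₃ c Δ y = Real.sqrt (NN c Δ y) • U := by
    rw [hU]
    unfold uu
    rw [smul_smul]
    have h := NN_pos c Δ y
    have hs0 : Real.sqrt (NN c Δ y) ≠ 0 := (Real.sqrt_pos.mpr h).ne'
    rw [mul_one_div_cancel hs0, one_smul]
  refine ⟨l₀ • proj U (V0 e₁ e₂ e₃ m s) + l₁ • proj U (V1 e₁ e₂ e₃ m s c Δ y)
      + l₂ • proj U (V2 e₁ e₂ e₃ m s c Δ y), ?_, ?_⟩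
  · unfold baseTri
    rw [← hU]
    exact mem_hull3 _ _ _ hl₀n hl₁n (by linarith) hsum
  · rw [← proj_comb, hcomb, ← hU]
    refine ⟨⟪ptt e₁ e₂ e₃ m s 0 B T, U⟫ + (s * a) * Real.sqrt (NN c Δ y), ?_⟩
    rw [hdir, hV]
    unfold proj
    module

/-- Gram determinant of a projected pair. -/
lemma gram2_proj {U : E3} (hU : ⟪U, U⟫ = 1) (X Y : E3) :
    gram2 (proj U X) (proj U Y)
      = (⟪X, X⟫ - ⟪X, U⟫ * ⟪X, U⟫) * (⟪Y, Y⟫ - ⟪Y, U⟫ * ⟪Y, U⟫)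
        - (⟪X, Y⟫ - ⟪X, U⟫ * ⟪Y, U⟫) ^ 2 := by
  unfold gram2
  rw [← real_inner_self_eq_norm_sq, ← real_inner_self_eq_norm_sq, inner_proj_proj hU,
    inner_proj_proj hU, inner_proj_proj hU]

lemma V1_sub (e₁ e₂ e₃ m : E3) (s ρ τ : ℝ) :
    ptt e₁ e₂ e₃ m s 0 (ρ * τ) (1 - ρ) - ptt e₁ e₂ e₃ m s 0 0 1
      = s • vec e₁ e₂ e₃ 0 (ρ * τ) (- (GG * ρ)) := by
  unfold ptt vec
  module

include hF in
lemma gram_baseTri (hΔ : 0 < Δ) :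
    gram2 (proj (uu e₁ e₂ e₃ c Δ y) (V1 e₁ e₂ e₃ m s c Δ y) - proj (uu e₁ e₂ e₃ c Δ y) (V0 e₁ e₂ e₃ m s))
        (proj (uu e₁ e₂ e₃ c Δ y) (V2 e₁ e₂ e₃ m s c Δ y) - proj (uu e₁ e₂ e₃ c Δ y) (V0 e₁ e₂ e₃ m s))
      = (s ^ 2 * (1 + ee c Δ y) ^ 2) ^ 2 * (Δ ^ 2 / (2 * NN c Δ y)) := by
  have hU := inner_uu hF c Δ y
  obtain ⟨ρ, hρ⟩ : ∃ ρ, ρ = 1 + ee c Δ y := ⟨_, rfl⟩
  rw [← hρ]
  obtain ⟨τ, hτ⟩ : ∃ τ, τ = y - Δ / 2 := ⟨_, rfl⟩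
  obtain ⟨τ', hτ'⟩ : ∃ τ', τ' = y + Δ / 2 := ⟨_, rfl⟩
  have hττ : τ' - τ = Δ := by rw [hτ, hτ']; ring
  rw [proj_sub, proj_sub, gram2_proj hU]
  unfold V0 V1 V2
  rw [← hρ, ← hτ, ← hτ', V1_sub, V1_sub]
  obtain ⟨N, hN⟩ : ∃ N, N = NN c Δ y := ⟨_, rfl⟩
  have hNpos : 0 < N := hN ▸ NN_pos c Δ y
  obtain ⟨p, hp⟩ : ∃ p, p = pp c Δ y := ⟨_, rfl⟩
  obtain ⟨q, hq⟩ : ∃ q, q = c * y := ⟨_, rfl⟩
  have hN' : N = 1 + p ^ 2 + q ^ 2 / 2 := by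
    rw [hN, hp, hq]
    unfold NN ww
    ring
  have hG := GG_sq
  have hdir : ∀ r : ℝ, ⟪s • vec e₁ e₂ e₃ 0 (ρ * r) (- (GG * ρ)), uu e₁ e₂ e₃ c Δ y⟫
      = (s * ρ) * (r * p - q / 2) * (1 / Real.sqrt N) := by
    intro r
    unfold uu dirV
    rw [inner_smul_left, inner_smul_right, inner_vec hF, ← hN, ← hp, ← hq]
    simp only [conj_trivial]
    have : - (GG * ρ) * (GG * q) = - (GG ^ 2 * ρ * q) := by ring
    rw [this, hG]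
    ring
  have hin : ∀ r r' : ℝ, ⟪s • vec e₁ e₂ e₃ 0 (ρ * r) (- (GG * ρ)),
      s • vec e₁ e₂ e₃ 0 (ρ * r') (- (GG * ρ))⟫ = (s * ρ) ^ 2 * (r * r' + 1 / 2) := by
    intro r r'
    rw [inner_smul_left, inner_smul_right, inner_vec hF]
    simp only [conj_trivial]
    have : - (GG * ρ) * - (GG * ρ) = GG ^ 2 * ρ ^ 2 := by ring
    rw [mul_zero, zero_add, this, hG]
    ring
  rw [hin, hin, hin, hdir, hdir]
  have hsN : (1 / Real.sqrt N) * (1 / Real.sqrt N) = 1 / N := by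
    rw [one_div_mul_one_div, Real.mul_self_sqrt hNpos.le]
  have key := gram_identity τ τ' p q N hN' hNpos
  rw [hττ] at key
  have e1 : ∀ A B : ℝ, (s * ρ) * A * (1 / Real.sqrt N) * ((s * ρ) * B * (1 / Real.sqrt N))
      = (s * ρ) ^ 2 * (A * B / N) := by
    intro A B
    calc _ = (s * ρ) ^ 2 * (A * B) * ((1 / Real.sqrt N) * (1 / Real.sqrt N)) := by ring
      _ = _ := by rw [hsN]; ring
  rw [e1, e1, e1]
  have e2 : (τ * τ + 1 / 2) = τ ^ 2 + 1 / 2 := by ring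
  have e3 : (τ' * τ' + 1 / 2) = τ' ^ 2 + 1 / 2 := by ring
  have e4 : ∀ A : ℝ, A * A / N = A ^ 2 / N := by intro A; ring
  rw [e2, e3, e4, e4]
  calc _ = ((s * ρ) ^ 2) ^ 2 * (((τ ^ 2 + 1 / 2) - (τ * p - q / 2) ^ 2 / N) *
        ((τ' ^ 2 + 1 / 2) - (τ' * p - q / 2) ^ 2 / N)
      - ((τ * τ' + 1 / 2) - (τ * p - q / 2) * (τ' * p - q / 2) / N) ^ 2) := by ring
    _ = _ := by rw [key, hN]; ring

include hF in
/-- The area of the base triangle of a cylinder. -/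
theorem area_baseTri (hs : 0 ≤ s) (hΔ : 0 < Δ) :
    μHE[2] (baseTri e₁ e₂ e₃ m s c Δ y)
      = ENNReal.ofReal (s ^ 2 * GG * (1 / 2 * (1 + ee c Δ y) ^ 2 * Δ *
          (1 / Real.sqrt (1 + ww c Δ y)))) := by
  unfold baseTri
  rw [area_triangle, gram_baseTri hF m s c Δ y hΔ]
  congr 1
  have hN := NN_pos c Δ y
  have e : (s ^ 2 * (1 + ee c Δ y) ^ 2) ^ 2 * (Δ ^ 2 / (2 * NN c Δ y))
      = (s ^ 2 * (1 + ee c Δ y) ^ 2 * Δ * GG * (1 / Real.sqrt (NN c Δ y))) ^ 2 := by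
    rw [mul_pow, mul_pow, mul_pow, GG_sq, div_pow, Real.sq_sqrt hN.le]
    field_simp
  rw [e, Real.sqrt_sq]
  · unfold NN
    ring
  · have := GG_pos
    positivity

end Wedge

/-! The second fan is the first fan of the frame `(e₂, -e₁, -e₃)`. -/

lemma IsFrame.rot {e₁ e₂ e₃ : E3} (hF : IsFrame e₁ e₂ e₃) : IsFrame e₂ (-e₁) (-e₃) where
  h11 := hF.h22
  h22 := by simpa using hF.h11
  h33 := by simpa using hF.h33
  h12 := by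
    rw [inner_neg_right, real_inner_comm]
    simp [hF.h12]
  h13 := by
    rw [inner_neg_right]
    simp [hF.h23]
  h23 := by
    simp [hF.h13]

lemma ptt_rot (e₁ e₂ e₃ m : E3) (s a b t : ℝ) :
    ptt e₂ (-e₁) (-e₃) m s b (-a) (-t) = ptt e₁ e₂ e₃ m s a b t := by
  unfold ptt vec
  module

/-- discrete intermediate value theorem -/
lemma discrete_ivt (f : ℕ → ℝ) (n : ℕ) (h0 : 0 ≤ f 0) (hn : f n ≤ 0) (hn0 : 0 < n) :
    ∃ i < n, 0 ≤ f i ∧ f (i + 1) ≤ 0 := by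
  by_contra hcon
  push Not at hcon
  have : ∀ i ≤ n, 0 ≤ f i := by
    intro i
    induction i with
    | zero => intro _; exact h0
    | succ k ih =>
      intro hk
      exact (hcon k (by omega) (ih (by omega))).le
  have hlast := hcon (n - 1) (by omega) (this _ (by omega))
  rw [Nat.sub_add_cancel hn0] at hlast
  linarith

lemma mid_sub (Δ : ℝ) (i : ℕ) : mid Δ i - Δ / 2 = -1 / 2 + i * Δ := by
  unfold mid; ring

lemma mid_add (Δ : ℝ) (i : ℕ) : mid Δ i + Δ / 2 = -1 / 2 + ((i + 1 : ℕ) : ℝ) * Δ := by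
  unfold mid; push_cast; ring

lemma hh_half (c : ℝ) : hh c (-1 / 2) = 0 := by unfold hh; ring

lemma hh_half' (c : ℝ) : hh c (1 / 2) = 0 := by unfold hh; ring

/-- Every point of the tetrahedron lies in a cylinder of one of the two fans. -/
theorem cover_point {e₁ e₂ e₃ : E3} (hF : IsFrame e₁ e₂ e₃) (m : E3) (s a b t : ℝ)
    (ha : |a| ≤ (1 + t) / 2) (hb : |b| ≤ (1 - t) / 2) :
    ∃ i < nn, (∃ w ∈ baseTri e₁ e₂ e₃ m s cc dd (mid dd i), ∃ r : ℝ,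
        ptt e₁ e₂ e₃ m s a b t = w + r • uu e₁ e₂ e₃ cc dd (mid dd i)) ∨
      (∃ w ∈ baseTri e₂ (-e₁) (-e₃) m s cc dd (mid dd i), ∃ r : ℝ,
        ptt e₁ e₂ e₃ m s a b t = w + r • uu e₂ (-e₁) (-e₃) cc dd (mid dd i)) := by
  have hnΔ := nn_dd
  have hend : -1 / 2 + (nn : ℝ) * dd = 1 / 2 := by rw [hnΔ]; norm_num
  have ha' := abs_le.mp ha
  have hb' := abs_le.mp hb
  -- the wedge of fan 1
  obtain ⟨i, hi, hi1, hi2⟩ := discrete_ivt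
    (fun i : ℕ => b - (-1 / 2 + i * dd) * (1 - t) - hh cc (-1 / 2 + i * dd) * a) nn
    (by
      simp only [Nat.cast_zero, zero_mul, add_zero, hh_half]
      linarith)
    (by
      simp only [hend, hh_half']
      linarith)
    nn_pos
  -- the wedge of fan 2
  obtain ⟨j, hj, hj1, hj2⟩ := discrete_ivt
    (fun i : ℕ => - (a + (-1 / 2 + i * dd) * (1 + t) + hh cc (-1 / 2 + i * dd) * b)) nn
    (by
      simp only [Nat.cast_zero, zero_mul, add_zero, hh_half]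
      linarith)
    (by
      simp only [hend, hh_half']
      linarith)
    nn_pos
  rw [← mid_sub] at hi1 hj1
  rw [← mid_add] at hi2 hj2
  have hy := abs_mid_le nn_dd hi
  have hz := abs_mid_le nn_dd hj
  rcases core cc dd (mid dd i) (mid dd j) a b t cc_pos dd_pos hy hz ha hb hi1 hi2
      (by linarith) (by linarith) with h | h
  · exact ⟨i, hi, Or.inl (mem_cyl m s cc dd (mid dd i) cc_pos dd_pos a b t hi1 hi2 h)⟩
  · refine ⟨j, hj, Or.inr ?_⟩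
    rw [← ptt_rot]
    refine mem_cyl m s cc dd (mid dd j) cc_pos dd_pos b (-a) (-t) ?_ ?_ ?_
    · linarith
    · linarith
    · linarith

end Crest.Agent.Lib.TetraFan
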