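import Crest.Agent.Lib.TetraProj

/-!
The cover and the projections for a regular tetrahedron given by four equidistant points.
-/

open MeasureTheory Module
open scoped RealInnerProductSpace

namespace Crest.Agent.Lib.TetraFan

section Main

variable {w : Fin 4 → E3} {ℓ : ℝ}

/-- The projection of the tetrahedron has area at least `√2 (ℓ/2)²`. -/
theorem K_min_proj (hℓ : 0 < ℓ) (hw : ∀ i j, i ≠ j → dist (w i) (w j) = ℓ) (v : E3) (hv : ‖v‖ = 1) :
    ENNReal.ofReal (Real.sqrt 2 * (ℓ / 2) ^ 2) ≤ μHE[2] (proj v '' convexHull ℝ (Set.range w)) := by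
  obtain ⟨h0, h1, h2, h3⟩ := vertex_eq (w := w) hℓ
  have hm : ∀ i, w i ∈ convexHull ℝ (Set.range w) :=
    fun i => subset_convexHull ℝ _ (Set.mem_range_self i)
  exact min_proj (isFrame_of_equidistant hℓ hw) (fm w) (ℓ / 2) (convex_convexHull ℝ _)
    (h0 ▸ hm 0) (h1 ▸ hm 1) (h2 ▸ hm 2) (h3 ▸ hm 3) v hv

/-- The projection of the tetrahedron has finite area. -/
theorem K_proj_finite (v : E3) (hv : ‖v‖ = 1) :
    μHE[2] (proj v '' convexHull ℝ (Set.range w)) < ⊤ :=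
  proj_finite (isBounded_convexHull.mpr (Set.finite_range w).isBounded) v hv

/-- real-valued version of the minimal projection -/
theorem K_min_proj_toReal (hℓ : 0 < ℓ) (hw : ∀ i j, i ≠ j → dist (w i) (w j) = ℓ) (v : E3)
    (hv : ‖v‖ = 1) :
    Real.sqrt 2 * (ℓ / 2) ^ 2 ≤ (μHE[2] (proj v '' convexHull ℝ (Set.range w))).toReal := by
  have h := K_min_proj hℓ hw v hv
  have h2 := ENNReal.toReal_mono (K_proj_finite v hv).ne h
  rwa [ENNReal.toReal_ofReal (by positivity)] at h2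

/-- The cylinders cover the tetrahedron. -/
theorem K_cover (hℓ : 0 < ℓ) (hw : ∀ i j, i ≠ j → dist (w i) (w j) = ℓ) {x : E3}
    (hx : x ∈ convexHull ℝ (Set.range w)) :
    ∃ i < 2 * nn, ∃ y ∈ famT (fe₁ w ℓ) (fe₂ w ℓ) (fe₃ w ℓ) (fm w) (ℓ / 2) i, ∃ r : ℝ,
      x = y + r • famU (fe₁ w ℓ) (fe₂ w ℓ) (fe₃ w ℓ) i := by
  obtain ⟨a, b, t, ha, hb, rfl⟩ := hull_subset_Kc hℓ hx
  exact fam_cover _ _ (isFrame_of_equidistant hℓ hw) _ _ _ ha hb

/-- The projection along an edge has area exactly `√2 (ℓ/2)²`. -/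
theorem K_edge (hℓ : 0 < ℓ) (hw : ∀ i j, i ≠ j → dist (w i) (w j) = ℓ) :
    μHE[2] (proj (fe₁ w ℓ) '' convexHull ℝ (Set.range w))
      = ENNReal.ofReal (Real.sqrt 2 * (ℓ / 2) ^ 2) := by
  have hF := isFrame_of_equidistant hℓ hw
  obtain ⟨h0, h1, h2, h3⟩ := vertex_eq (w := w) hℓ
  obtain ⟨s, hs⟩ : ∃ s, s = ℓ / 2 := ⟨_, rfl⟩
  rw [← hs] at h0 h1 h2 h3 ⊢
  have hV : fe₁ w ℓ = vec (fe₁ w ℓ) (fe₂ w ℓ) (fe₃ w ℓ) 1 0 0 := by
    unfold vec
    simp
  have himg : proj (fe₁ w ℓ) '' convexHull ℝ (Set.range w)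
      = convexHull ℝ {proj (fe₁ w ℓ) (w 0), proj (fe₁ w ℓ) (w 2), proj (fe₁ w ℓ) (w 3)} := by
    have : proj (fe₁ w ℓ) = projL (fe₁ w ℓ) := rfl
    rw [this, (projL (fe₁ w ℓ)).image_convexHull, ← this]
    congr 1
    have h10 : proj (fe₁ w ℓ) (w 1) = proj (fe₁ w ℓ) (w 0) := by
      rw [← sub_eq_zero, proj_sub]
      have e : w 1 - w 0 = ℓ • fe₁ w ℓ := by
        unfold fe₁
        rw [smul_smul, mul_one_div_cancel hℓ.ne', one_smul]
      rw [e]
      unfold proj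
      rw [inner_smul_left, hF.h11]
      simp
    ext y
    simp only [Set.mem_image, Set.mem_range, exists_exists_eq_and, Set.mem_insert_iff,
      Set.mem_singleton_iff]
    constructor
    · rintro ⟨i, rfl⟩
      fin_cases i
      · exact Or.inl rfl
      · exact Or.inl h10
      · exact Or.inr (Or.inl rfl)
      · exact Or.inr (Or.inr rfl)
    · rintro (rfl | rfl | rfl)
      · exact ⟨0, rfl⟩
      · exact ⟨2, rfl⟩
      · exact ⟨3, rfl⟩
  have G2 : 2 * GG = Real.sqrt 2 := by unfold GG; ring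
  have dBA : w 2 - w 0 = vec (fe₁ w ℓ) (fe₂ w ℓ) (fe₃ w ℓ) s (-s) (- (Real.sqrt 2 * s)) := by
    rw [← h2, ← h0]
    exact ptt_sub _ _ _ _ _ _ _ _ _ _ _ _ _ _ (by ring) (by ring) (by rw [← G2]; ring)
  have dDA : w 3 - w 0 = vec (fe₁ w ℓ) (fe₂ w ℓ) (fe₃ w ℓ) s s (- (Real.sqrt 2 * s)) := by
    rw [← h3, ← h0]
    exact ptt_sub _ _ _ _ _ _ _ _ _ _ _ _ _ _ (by ring) (by ring) (by rw [← G2]; ring)
  rw [himg]
  have := area_proj_tri hF (w 0) (w 2) (w 3) _ _ _ _ _ _ 1 0 0 dBA dDA (by norm_num)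
  rw [← hV] at this
  rw [this]
  congr 1
  have e : det3f s (-s) (-(Real.sqrt 2 * s)) s s (-(Real.sqrt 2 * s)) 1 0 0
      = 2 * (Real.sqrt 2 * s ^ 2) := by
    unfold det3f
    ring
  rw [e, abs_of_nonneg (by positivity)]
  ring

/-- a triangle in a plane of the frame -/
lemma extra_area {e₂ e₃ : E3} (h22 : ⟪e₂, e₂⟫ = 1) (h33 : ⟪e₃, e₃⟫ = 1) (h23 : ⟪e₂, e₃⟫ = 0)
    (lam : ℝ) :
    μHE[2] (convexHull ℝ {(0 : E3), lam • e₂, lam • e₃}) = ENNReal.ofReal (1 / 2 * lam ^ 2) := by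
  rw [area_triangle, sub_zero, sub_zero]
  congr 2
  unfold gram2
  rw [← real_inner_self_eq_norm_sq, ← real_inner_self_eq_norm_sq]
  simp only [inner_smul_left, inner_smul_right, h22, h33, h23, conj_trivial]
  have : lam * (lam * 1) * (lam * (lam * 1)) - (lam * (lam * 0)) ^ 2 = (lam ^ 2) ^ 2 := by ring
  rw [this, Real.sqrt_sq (sq_nonneg lam)]

lemma zero_area : μHE[2] (convexHull ℝ {(0 : E3), (0 : E3), (0 : E3)}) = 0 :=
  area_segment 0 0

/-- Padding: the cover with any number of triangles and any larger total area. -/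
theorem padded_cover (hℓ : 0 < ℓ) (hw : ∀ i j, i ≠ j → dist (w i) (w j) = ℓ) (M : ℕ)
    (hM : 2 * nn + 1 ≤ M) (A : ℝ) (hA : (ℓ / 2) ^ 2 * Real.sqrt 2 * (1 / 2 - 3 / 10 ^ 8) ≤ A) :
    ∃ u p q r : Fin M → E3,
      (∀ i, ‖u i‖ = 1) ∧
      (∀ i, inner ℝ (p i) (u i) = 0 ∧ inner ℝ (q i) (u i) = 0 ∧ inner ℝ (r i) (u i) = 0) ∧
      convexHull ℝ (Set.range w) ⊆
        ⋃ i, {x : E3 | ∃ b ∈ convexHull ℝ {p i, q i, r i}, ∃ t : ℝ, x = b + t • u i} ∧
      ∑ i, (μHE[2] (convexHull ℝ ({p i, q i, r i} : Set E3))).toReal = A := by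
  have hF := isFrame_of_equidistant hℓ hw
  obtain ⟨e₁, he₁⟩ : ∃ e, e = fe₁ w ℓ := ⟨_, rfl⟩
  obtain ⟨e₂, he₂⟩ : ∃ e, e = fe₂ w ℓ := ⟨_, rfl⟩
  obtain ⟨e₃, he₃⟩ : ∃ e, e = fe₃ w ℓ := ⟨_, rfl⟩
  obtain ⟨m, hm⟩ : ∃ m, m = fm w := ⟨_, rfl⟩
  obtain ⟨s, hs⟩ : ∃ s, s = ℓ / 2 := ⟨_, rfl⟩
  have hspos : 0 < s := by rw [hs]; positivity
  rw [← he₁, ← he₂, ← he₃] at hF
  have hcov := fun {x : E3} (hx : x ∈ convexHull ℝ (Set.range w)) => K_cover (w := w) (ℓ := ℓ) hℓ hw hx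
  simp only [← he₁, ← he₂, ← he₃, ← hm, ← hs] at hcov
  rw [← hs] at hA
  have hsum := fam_area (e₁ := e₁) (e₂ := e₂) (e₃ := e₃) m s hF hspos
  obtain ⟨S₀, hS₀⟩ : ∃ S₀, S₀ = ∑ i ∈ Finset.range (2 * nn), (μHE[2] (famT e₁ e₂ e₃ m s i)).toReal :=
    ⟨_, rfl⟩
  rw [← hS₀] at hsum
  have hS₀A : 0 ≤ A - S₀ := by linarith
  obtain ⟨lam, hlam⟩ : ∃ lam, lam = Real.sqrt (2 * (A - S₀)) := ⟨_, rfl⟩
  have hlam2 : 1 / 2 * lam ^ 2 = A - S₀ := by
    rw [hlam, Real.sq_sqrt (by linarith)]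
    ring
  have hU₁ : ‖e₁‖ = 1 := by
    have := hF.h11
    rw [real_inner_self_eq_norm_sq] at this
    nlinarith [norm_nonneg e₁]
  let u' : ℕ → E3 := fun i => if i < 2 * nn then famU e₁ e₂ e₃ i else e₁
  let p' : ℕ → E3 := fun i => if i < 2 * nn then famP e₁ e₂ e₃ m s i else 0
  let q' : ℕ → E3 := fun i => if i < 2 * nn then famQ e₁ e₂ e₃ m s i else
    if i = 2 * nn then lam • e₂ else 0
  let r' : ℕ → E3 := fun i => if i < 2 * nn then famR e₁ e₂ e₃ m s i else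
    if i = 2 * nn then lam • e₃ else 0
  refine ⟨fun i => u' i, fun i => p' i, fun i => q' i, fun i => r' i, ?_, ?_, ?_, ?_⟩
  · intro i
    simp only [u']
    split_ifs
    · exact famU_norm hF _
    · exact hU₁
  · intro i
    simp only [u', p', q', r']
    split_ifs
    · exact ⟨famP_inner _ _ hF _, famQ_inner _ _ hF _, famR_inner _ _ hF _⟩
    · have h21 : ⟪e₂, e₁⟫ = 0 := by rw [real_inner_comm]; exact hF.h12
      have h31 : ⟪e₃, e₁⟫ = 0 := by rw [real_inner_comm]; exact hF.h13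
      simp [inner_smul_left, h21, h31]
    · simp
  · intro x hx
    obtain ⟨i, hi, y, hy, r, rfl⟩ := hcov hx
    simp only [Set.mem_iUnion]
    refine ⟨⟨i, by omega⟩, y, ?_, r, ?_⟩
    · simp only [p', q', r', if_pos hi]
      exact hy
    · simp only [u', if_pos hi]
  · have hT : ∀ i : ℕ, (μHE[2] (convexHull ℝ ({p' i, q' i, r' i} : Set E3))).toReal
        = if i < 2 * nn then (μHE[2] (famT e₁ e₂ e₃ m s i)).toReal else
          if i = 2 * nn then A - S₀ else 0 := by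
      intro i
      simp only [p', q', r']
      split_ifs with h1 h2
      · rfl
      · rw [extra_area hF.h22 hF.h33 hF.h23,
          ENNReal.toReal_ofReal (mul_nonneg (by norm_num : (0 : ℝ) ≤ 1 / 2) (sq_nonneg lam)), hlam2]
      · rw [zero_area]; rfl
    rw [Fin.sum_univ_eq_sum_range (fun i => (μHE[2] (convexHull ℝ ({p' i, q' i, r' i} : Set E3))).toReal) M]
    rw [Finset.sum_congr rfl (fun i _ => hT i)]
    have hsub : Finset.range (2 * nn + 1) ⊆ Finset.range M := by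
      intro i hi
      rw [Finset.mem_range] at hi ⊢
      omega
    rw [← Finset.sum_subset hsub]
    · rw [Finset.sum_range_succ, if_neg (lt_irrefl _), if_pos rfl]
      have : ∑ i ∈ Finset.range (2 * nn), (if i < 2 * nn then (μHE[2] (famT e₁ e₂ e₃ m s i)).toReal else
          if i = 2 * nn then A - S₀ else 0) = S₀ := by
        rw [hS₀]
        refine Finset.sum_congr rfl (fun i hi => ?_)
        rw [if_pos (Finset.mem_range.mp hi)]
      rw [this]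
      ring
    · intro i _ hi
      rw [Finset.mem_range] at hi
      rw [if_neg (by omega), if_neg (by omega)]

end Main

/-! The canonical tetrahedron. -/

/-- the canonical vertices -/
noncomputable def wc : Fin 4 → E3 :=
  ![!₂[1, 0, 0], !₂[0, 1, Real.sqrt 2], !₂[-1, 0, 0], !₂[0, -1, Real.sqrt 2]]

lemma dist_two (x y : E3) (h : (x 0 - y 0) ^ 2 + (x 1 - y 1) ^ 2 + (x 2 - y 2) ^ 2 = 4) :
    dist x y = 2 := by
  rw [EuclideanSpace.dist_eq, Fin.sum_univ_three, Real.dist_eq, Real.dist_eq, Real.dist_eq,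
    sq_abs, sq_abs, sq_abs, h]
  rw [show (4 : ℝ) = 2 ^ 2 by norm_num]
  exact Real.sqrt_sq (by norm_num)

lemma wc_dist (i j : Fin 4) (hij : i ≠ j) : dist (wc i) (wc j) = 2 := by
  apply dist_two
  have hr2 : Real.sqrt 2 ^ 2 = 2 := Real.sq_sqrt (by norm_num)
  fin_cases i <;> fin_cases j <;> first
    | exact absurd rfl hij
    | (simp [wc]; try nlinarith [hr2])

lemma wc_range : Set.range wc = {!₂[1, 0, 0], !₂[-1, 0, 0], !₂[0, 1, Real.sqrt 2], !₂[0, -1, Real.sqrt 2]} := by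
  ext x
  simp only [Set.mem_range, Set.mem_insert_iff, Set.mem_singleton_iff]
  constructor
  · rintro ⟨i, rfl⟩
    fin_cases i
    · exact Or.inl rfl
    · exact Or.inr (Or.inr (Or.inl rfl))
    · exact Or.inr (Or.inl rfl)
    · exact Or.inr (Or.inr (Or.inr rfl))
  · rintro (rfl | rfl | rfl | rfl)
    · exact ⟨0, rfl⟩
    · exact ⟨2, rfl⟩
    · exact ⟨1, rfl⟩
    · exact ⟨3, rfl⟩

end Crest.Agent.Lib.TetraFan
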