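import Crest.Agent.Lib.TetraMain
import Crest.Agent.Lib.CylArea

/-!
From triangles to parallelograms and to relatively open bases.
-/

open MeasureTheory Module
open scoped RealInnerProductSpace

namespace Crest.Agent.Lib.TetraFan

/-- Scaling of the Gram determinant. -/
lemma gram2_smul (α β : ℝ) (x y : E3) : gram2 (α • x) (β • y) = (α * β) ^ 2 * gram2 x y := by
  unfold gram2
  rw [norm_smul, norm_smul, inner_smul_left, inner_smul_right, mul_pow, mul_pow, Real.norm_eq_abs,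
    Real.norm_eq_abs, sq_abs, sq_abs]
  simp only [conj_trivial]
  ring

/-! ### strips -/

/-- one-dimensional part of the strip decomposition -/
lemma real_strip (M : ℕ) (hM : 0 < M) (α : ℝ) (h0 : 0 ≤ α) (h1 : α ≤ 1) :
    ∃ l : ℕ, l < M ∧ (l : ℝ) / M ≤ α ∧ ∃ σ : ℝ, 0 ≤ σ ∧ σ ≤ 1 ∧ α = (l : ℝ) / M + σ * (1 / M) := by
  have hM' : (0 : ℝ) < M := by exact_mod_cast hM
  rcases lt_or_eq_of_le h1 with h | h
  · refine ⟨⌊α * M⌋₊, ?_, ?_, α * M - ⌊α * M⌋₊, ?_, ?_, ?_⟩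
    · rw [Nat.floor_lt (by positivity)]
      nlinarith
    · rw [div_le_iff₀ hM']
      exact Nat.floor_le (by positivity)
    · have := Nat.floor_le (show 0 ≤ α * M by positivity)
      linarith
    · have := Nat.lt_floor_add_one (α * M)
      linarith
    · field_simp
      ring
  · subst h
    refine ⟨M - 1, by omega, ?_, 1, by norm_num, le_rfl, ?_⟩
    · rw [div_le_one hM']
      exact_mod_cast Nat.sub_le M 1
    · rw [Nat.cast_sub hM]
      field_simp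
      simp

/-- A triangle is covered by strips. -/
lemma tri_subset_strips (P Q R : E3) (M : ℕ) (hM : 0 < M) {z : E3} (hz : z ∈ convexHull ℝ {P, Q, R}) :
    ∃ l : ℕ, l < M ∧ ∃ σ ∈ Set.Icc (0 : ℝ) 1, ∃ τ ∈ Set.Icc (0 : ℝ) 1,
      z = (P + ((l : ℝ) / M) • (Q - P)) + σ • ((1 / (M : ℝ)) • (Q - P))
        + τ • ((1 - (l : ℝ) / M) • (R - P)) := by
  rw [hull3_eq_image] at hz
  obtain ⟨_, ⟨t, ⟨ht0, ht1, ht2⟩, rfl⟩, rfl⟩ := hz
  simp only [planeMap_apply]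
  obtain ⟨l, hl, hlα, σ, hσ0, hσ1, hα⟩ := real_strip M hM (t 0) ht0 (by linarith)
  have hM' : (0 : ℝ) < M := by exact_mod_cast hM
  have hl' : (l : ℝ) < M := by exact_mod_cast hl
  have hpos : 0 < 1 - (l : ℝ) / M := by
    rw [sub_pos, div_lt_one hM']
    exact hl'
  refine ⟨l, hl, σ, ⟨hσ0, hσ1⟩, t 1 / (1 - (l : ℝ) / M), ⟨by positivity, ?_⟩, ?_⟩
  · rw [div_le_one hpos]
    linarith
  · have e : t 1 / (1 - (l : ℝ) / M) * (1 - (l : ℝ) / M) = t 1 := div_mul_cancel₀ _ hpos.ne'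
    rw [smul_smul, smul_smul, e, mul_one_div, hα]
    have e2 : σ / M = σ * (1 / M) := by ring
    rw [e2]
    module

lemma sum_gauss (M : ℕ) : ∑ l ∈ Finset.range M, (l : ℝ) = (M : ℝ) * (M - 1) / 2 := by
  induction M with
  | zero => simp
  | succ k ih =>
    rw [Finset.sum_range_succ, ih]
    push_cast
    ring

/-- The parallelogram of a strip -/
def stripSet (c a b : E3) : Set E3 :=
  {x : E3 | ∃ s ∈ Set.Icc (0 : ℝ) 1, ∃ t ∈ Set.Icc (0 : ℝ) 1, x = c + s • a + t • b}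

lemma gram2_eq (a b : E3) : ‖a‖ ^ 2 * ‖b‖ ^ 2 - ⟪a, b⟫ ^ 2 = gram2 a b := rfl

/-- Total area of the strips. -/
theorem strips_area (P Q R : E3) (M : ℕ) (hM : 0 < M) :
    ∑ l ∈ Finset.range M, (μHE[2] (stripSet (P + ((l : ℝ) / M) • (Q - P)) ((1 / (M : ℝ)) • (Q - P))
        ((1 - (l : ℝ) / M) • (R - P)))).toReal
      = (1 + 1 / (M : ℝ)) * (μHE[2] (convexHull ℝ {P, Q, R})).toReal := by
  have hM' : (0 : ℝ) < M := by exact_mod_cast hM
  have hG := gram2_nonneg (Q - P) (R - P)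
  rw [area_triangle, ENNReal.toReal_ofReal (by positivity)]
  have hterm : ∀ l ∈ Finset.range M,
      (μHE[2] (stripSet (P + ((l : ℝ) / M) • (Q - P)) ((1 / (M : ℝ)) • (Q - P))
        ((1 - (l : ℝ) / M) • (R - P)))).toReal
      = (1 / (M : ℝ) - (l : ℝ) * (1 / (M : ℝ)) ^ 2) * Real.sqrt (gram2 (Q - P) (R - P)) := by
    intro l hl
    have hl' : (l : ℝ) < M := by exact_mod_cast Finset.mem_range.mp hl
    have hpos : 0 < 1 - (l : ℝ) / M := by
      rw [sub_pos, div_lt_one hM']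
      exact hl'
    unfold stripSet
    rw [CylArea.area_parallelogram3, gram2_eq, gram2_smul, Real.sqrt_mul (sq_nonneg _),
      Real.sqrt_sq (by positivity), ENNReal.toReal_ofReal (by positivity)]
    congr 1
    field_simp
  rw [Finset.sum_congr rfl hterm, ← Finset.sum_mul, Finset.sum_sub_distrib, ← Finset.sum_mul,
    sum_gauss, Finset.sum_const, Finset.card_range, nsmul_eq_mul]
  field_simp
  ring

/-! ### relatively open enlargements -/

/-- dual vector of the first vector of a pair -/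
noncomputable def dualA (x y : E3) : E3 := (1 / gram2 x y) • (‖y‖ ^ 2 • x - ⟪x, y⟫ • y)

/-- dual vector of the second vector of a pair -/
noncomputable def dualB (x y : E3) : E3 := (1 / gram2 x y) • (‖x‖ ^ 2 • y - ⟪x, y⟫ • x)

lemma dual_props {x y : E3} (hG : 0 < gram2 x y) :
    ⟪x, dualA x y⟫ = 1 ∧ ⟪y, dualA x y⟫ = 0 ∧ ⟪x, dualB x y⟫ = 0 ∧ ⟪y, dualB x y⟫ = 1 := by
  have hG0 := hG.ne'
  have hxx : ⟪x, x⟫ = ‖x‖ ^ 2 := real_inner_self_eq_norm_sq x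
  have hyy : ⟪y, y⟫ = ‖y‖ ^ 2 := real_inner_self_eq_norm_sq y
  have hyx : ⟪y, x⟫ = ⟪x, y⟫ := real_inner_comm x y
  unfold dualA dualB
  simp only [inner_smul_right, inner_sub_right, hxx, hyy, hyx]
  unfold gram2 at hG0 ⊢
  refine ⟨?_, ?_, ?_, ?_⟩ <;> field_simp <;> ring

/-- In the plane orthogonal to a unit vector, two independent vectors span. -/
lemma span_pair {U x y : E3} (hU : ⟪U, U⟫ = 1) (hx : ⟪x, U⟫ = 0) (hy : ⟪y, U⟫ = 0)
    (hG : 0 < gram2 x y) {z : E3} (hz : ⟪z, U⟫ = 0) :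
    z = ⟪z, dualA x y⟫ • x + ⟪z, dualB x y⟫ • y := by
  obtain ⟨h1, h2, h3, h4⟩ := dual_props hG
  -- Gram-Schmidt
  have hxpos : 0 < ‖x‖ := by
    rw [norm_pos_iff]
    rintro rfl
    unfold gram2 at hG
    simp at hG
  have hxx : ⟪x, x⟫ = ‖x‖ ^ 2 := real_inner_self_eq_norm_sq x
  have hyy : ⟪y, y⟫ = ‖y‖ ^ 2 := real_inner_self_eq_norm_sq y
  have hyx : ⟪y, x⟫ = ⟪x, y⟫ := real_inner_comm x y
  obtain ⟨h, hh⟩ : ∃ h, h = y - (⟪x, y⟫ / ‖x‖ ^ 2) • x := ⟨_, rfl⟩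
  have hhx : ⟪h, x⟫ = 0 := by
    rw [hh, inner_sub_left, inner_smul_left, hxx, hyx]
    simp only [conj_trivial]
    field_simp
    ring
  have hhh : ⟪h, h⟫ = gram2 x y / ‖x‖ ^ 2 := by
    unfold gram2
    rw [hh]
    simp only [inner_sub_left, inner_sub_right, inner_smul_left, inner_smul_right, hxx, hyy, hyx,
      conj_trivial]
    field_simp
    ring
  have hhpos : 0 < ⟪h, h⟫ := by rw [hhh]; positivity
  have hnh : 0 < ‖h‖ := by
    rw [real_inner_self_eq_norm_sq] at hhpos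
    by_contra hcon
    have : ‖h‖ = 0 := le_antisymm (not_lt.mp hcon) (norm_nonneg _)
    rw [this] at hhpos
    norm_num at hhpos
  have hhU : ⟪h, U⟫ = 0 := by
    rw [hh, inner_sub_left, inner_smul_left, hx, hy]
    simp
  have hF : IsFrame ((1 / ‖x‖) • x) ((1 / ‖h‖) • h) U := by
    constructor
    · rw [inner_smul_left, inner_smul_right, hxx]
      simp only [conj_trivial]
      field_simp
    · rw [inner_smul_left, inner_smul_right, real_inner_self_eq_norm_sq]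
      simp only [conj_trivial]
      field_simp
    · exact hU
    · rw [inner_smul_left, inner_smul_right, real_inner_comm, hhx]
      simp
    · rw [inner_smul_left, hx]
      simp
    · rw [inner_smul_left, hhU]
      simp
  have hexp := frame_expand hF z
  rw [hz] at hexp
  -- so `z` is a combination of `x` and `y`
  obtain ⟨α, β, hαβ⟩ : ∃ α β : ℝ, z = α • x + β • y := by
    refine ⟨⟪z, (1 / ‖x‖) • x⟫ * (1 / ‖x‖)
      - ⟪z, (1 / ‖h‖) • h⟫ * (1 / ‖h‖) * (⟪x, y⟫ / ‖x‖ ^ 2), ⟪z, (1 / ‖h‖) • h⟫ * (1 / ‖h‖), ?_⟩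
    conv_lhs => rw [hexp]
    unfold vec
    rw [hh]
    module
  have hA : ⟪z, dualA x y⟫ = α := by
    rw [hαβ, inner_add_left, inner_smul_left, inner_smul_left, h1, h2]
    simp
  have hB : ⟪z, dualB x y⟫ = β := by
    rw [hαβ, inner_add_left, inner_smul_left, inner_smul_left, h3, h4]
    simp
  rw [hA, hB]
  exact hαβ

/-- A nondegenerate triangle in a plane has a bounded relatively open neighbourhood of nearly the
same area. -/
theorem open_base {U P Q R : E3} (hU : ⟪U, U⟫ = 1) (hP : ⟪P, U⟫ = 0) (hQ : ⟪Q, U⟫ = 0)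
    (hR : ⟪R, U⟫ = 0) (hG : 0 < gram2 (Q - P) (R - P)) (η : ℝ) (hη : 0 < η) :
    ∃ B : Set E3, Bornology.IsBounded B ∧ (∃ O : Set E3, IsOpen O ∧ B = O ∩ {x | inner ℝ x U = 0}) ∧
      convexHull ℝ {P, Q, R} ⊆ B ∧
      (μHE[2] B).toReal ≤ (1 + 3 * η) ^ 2 * (μHE[2] (convexHull ℝ {P, Q, R})).toReal := by
  obtain ⟨x, hx⟩ : ∃ x, x = Q - P := ⟨_, rfl⟩
  obtain ⟨y, hy⟩ : ∃ y, y = R - P := ⟨_, rfl⟩
  rw [← hx, ← hy] at hG
  have hxU : ⟪x, U⟫ = 0 := by rw [hx, inner_sub_left, hQ, hP, sub_zero]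
  have hyU : ⟪y, U⟫ = 0 := by rw [hy, inner_sub_left, hR, hP, sub_zero]
  obtain ⟨d1, d2, d3, d4⟩ := dual_props hG
  let l₁ : E3 → ℝ := fun z => ⟪z - P, dualA x y⟫
  let l₂ : E3 → ℝ := fun z => ⟪z - P, dualB x y⟫
  have hl₁ : Continuous l₁ := by fun_prop
  have hl₂ : Continuous l₂ := by fun_prop
  let O : Set E3 := {z | -η < l₁ z} ∩ {z | -η < l₂ z} ∩ {z | -η < 1 - l₁ z - l₂ z}
  have hO : IsOpen O :=
    ((isOpen_lt continuous_const hl₁).inter (isOpen_lt continuous_const hl₂)).inter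
      (isOpen_lt continuous_const ((continuous_const.sub hl₁).sub hl₂))
  obtain ⟨C, hC⟩ : ∃ C, C = convexHull ℝ {P - η • (x + y), P + (1 + 2 * η) • x - η • y,
      P - η • x + (1 + 2 * η) • y} := ⟨_, rfl⟩
  have h3η : 0 < 1 + 3 * η := by linarith
  have hBC : O ∩ {z | inner ℝ z U = 0} ⊆ C := by
    rintro z ⟨⟨⟨h1, h2⟩, h3⟩, hz⟩
    simp only [Set.mem_setOf_eq] at h1 h2 h3 hz
    have hzU : ⟪z - P, U⟫ = 0 := by
      rw [inner_sub_left, hP, sub_zero]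
      exact hz
    have hspan := span_pair hU hxU hyU hG hzU
    obtain ⟨a, ha⟩ : ∃ a, a = l₁ z := ⟨_, rfl⟩
    obtain ⟨b, hb⟩ : ∃ b, b = l₂ z := ⟨_, rfl⟩
    rw [← ha] at h1 h3
    rw [← hb] at h2 h3
    change z - P = (l₁ z) • x + (l₂ z) • y at hspan
    rw [← ha, ← hb] at hspan
    have hz' : z = P + a • x + b • y := by
      rw [add_assoc, ← hspan]
      abel
    rw [hC]
    have := mem_hull3 (P - η • (x + y)) (P + (1 + 2 * η) • x - η • y) (P - η • x + (1 + 2 * η) • y)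
      (a := (1 - a - b + η) / (1 + 3 * η)) (b := (a + η) / (1 + 3 * η))
      (c := (b + η) / (1 + 3 * η)) (by apply div_nonneg <;> linarith) (by apply div_nonneg <;> linarith)
      (by apply div_nonneg <;> linarith) (by field_simp; ring)
    convert this using 1
    rw [hz']
    have e1 : (1 - a - b + η) / (1 + 3 * η) = (1 - a - b + η) * (1 / (1 + 3 * η)) := by ring
    have e2 : (a + η) / (1 + 3 * η) = (a + η) * (1 / (1 + 3 * η)) := by ring
    have e3 : (b + η) / (1 + 3 * η) = (b + η) * (1 / (1 + 3 * η)) := by ring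
    rw [e1, e2, e3]
    obtain ⟨κ, hκ⟩ : ∃ κ, κ = 1 / (1 + 3 * η) := ⟨_, rfl⟩
    rw [← hκ]
    have hκ1 : κ * (1 + 3 * η) = 1 := by rw [hκ]; field_simp
    have hκ' : κ = 1 - 3 * η * κ := by linarith
    -- collect the coefficients of `P`, `x`, `y`
    have key : ((1 - a - b + η) * κ) • (P - η • (x + y)) + ((a + η) * κ) • (P + (1 + 2 * η) • x - η • y)
        + ((b + η) * κ) • (P - η • x + (1 + 2 * η) • y)
        = ((1 + 3 * η) * κ) • P + (a * ((1 + 3 * η) * κ)) • x + (b * ((1 + 3 * η) * κ)) • y := by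
      module
    rw [key]
    have : (1 + 3 * η) * κ = 1 := by rw [mul_comm]; exact hκ1
    rw [this]
    simp
  refine ⟨O ∩ {z | inner ℝ z U = 0}, ?_, ⟨O, hO, rfl⟩, ?_, ?_⟩
  · apply Bornology.IsBounded.subset _ hBC
    rw [hC]
    exact isBounded_convexHull.mpr (Set.toFinite _).isBounded
  · intro z hz
    rw [hull3_eq_image, ← hx, ← hy] at hz
    obtain ⟨_, ⟨t, ⟨ht0, ht1, ht2⟩, rfl⟩, rfl⟩ := hz
    simp only [planeMap_apply]
    have h1 : l₁ (P + (t 0 • x + t 1 • y)) = t 0 := by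
      simp only [l₁, add_sub_cancel_left, inner_add_left, inner_smul_left, d1, d2, conj_trivial]
      ring
    have h2 : l₂ (P + (t 0 • x + t 1 • y)) = t 1 := by
      simp only [l₂, add_sub_cancel_left, inner_add_left, inner_smul_left, d3, d4, conj_trivial]
      ring
    refine ⟨⟨⟨?_, ?_⟩, ?_⟩, ?_⟩
    · simp only [Set.mem_setOf_eq, h1]
      linarith
    · simp only [Set.mem_setOf_eq, h2]
      linarith
    · simp only [Set.mem_setOf_eq, h1, h2]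
      linarith
    · simp only [Set.mem_setOf_eq]
      change ⟪P + (t 0 • x + t 1 • y), U⟫ = 0
      rw [inner_add_left, inner_add_left, inner_smul_left, inner_smul_left, hP, hxU, hyU]
      simp
  · have hCa : μHE[2] C = ENNReal.ofReal ((1 + 3 * η) ^ 2 * (1 / 2 * Real.sqrt (gram2 x y))) := by
      rw [hC, area_triangle]
      have e1 : P + (1 + 2 * η) • x - η • y - (P - η • (x + y)) = (1 + 3 * η) • x := by module
      have e2 : P - η • x + (1 + 2 * η) • y - (P - η • (x + y)) = (1 + 3 * η) • y := by module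
      rw [e1, e2, gram2_smul, Real.sqrt_mul (sq_nonneg _), Real.sqrt_sq (by positivity)]
      congr 1
      ring
    have hT : (μHE[2] (convexHull ℝ {P, Q, R})).toReal = 1 / 2 * Real.sqrt (gram2 x y) := by
      rw [area_triangle, ← hx, ← hy, ENNReal.toReal_ofReal (by positivity)]
    rw [hT]
    have hle : μHE[2] (O ∩ {z | inner ℝ z U = 0}) ≤ μHE[2] C := measure_mono hBC
    have := ENNReal.toReal_mono (by rw [hCa]; exact ENNReal.ofReal_ne_top) hle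
    rwa [hCa, ENNReal.toReal_ofReal (by positivity)] at this

/-! ### the final inequalities -/

lemma final_clauses {ι : Type*} [Fintype ι] (A : ι → ℝ) (hA : ∀ i, 0 ≤ A i) (S κ : ℝ) (hS : 0 < S)
    (hsum : ∑ i, A i ≤ S * (1 / 2 - κ)) (hκ : 0 < κ) :
    (∀ X, S ≤ X → ∑ i, A i + S * κ ≤ X / 2) ∧
      (∀ D : ι → ℝ, (∀ i, S ≤ D i) → ∑ i, A i / D i < 1 / 2) := by
  constructor
  · intro X hX
    nlinarith
  · intro D hD
    have h1 : ∑ i, A i / D i ≤ ∑ i, A i / S := by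
      apply Finset.sum_le_sum
      intro i _
      exact div_le_div_of_nonneg_left (hA i) hS (hD i)
    rw [← Finset.sum_div] at h1
    have h2 : (∑ i, A i) / S ≤ 1 / 2 - κ := by
      rw [div_le_iff₀ hS]
      linarith
    linarith

/-- number of strips per triangle -/
def MM : ℕ := 10 ^ 8

lemma MM_pos : 0 < MM := by unfold MM; norm_num

section Final

variable {w : Fin 4 → E3} {ℓ : ℝ}

/-- Part (1) of the parallelogram theorem. -/
theorem par_part (hℓ : 0 < ℓ) (hw : ∀ i j, i ≠ j → dist (w i) (w j) = ℓ) :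
    ∃ (k : ℕ) (u c a b : Fin k → EuclideanSpace ℝ (Fin 3)),
      (∀ i, ‖u i‖ = 1) ∧
      (∀ i, inner ℝ (c i) (u i) = 0 ∧ inner ℝ (a i) (u i) = 0 ∧ inner ℝ (b i) (u i) = 0) ∧
      convexHull ℝ (Set.range w) ⊆ ⋃ i, {x : EuclideanSpace ℝ (Fin 3) |
        ∃ s ∈ Set.Icc (0 : ℝ) 1, ∃ t ∈ Set.Icc (0 : ℝ) 1, ∃ τ : ℝ, x = c i + s • a i + t • b i + τ • u i} ∧
      (∃ δ : ℝ, 0 < δ ∧ ∀ v : EuclideanSpace ℝ (Fin 3), ‖v‖ = 1 →
        (∑ i, (μHE[2] {x : EuclideanSpace ℝ (Fin 3) |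
            ∃ s ∈ Set.Icc (0 : ℝ) 1, ∃ t ∈ Set.Icc (0 : ℝ) 1, x = c i + s • a i + t • b i}).toReal) + δ ≤
          (μHE[2] ((fun y => y - inner ℝ y v • v) '' convexHull ℝ (Set.range w))).toReal / 2) ∧
      ∑ i, (μHE[2] {x : EuclideanSpace ℝ (Fin 3) |
            ∃ s ∈ Set.Icc (0 : ℝ) 1, ∃ t ∈ Set.Icc (0 : ℝ) 1, x = c i + s • a i + t • b i}).toReal /
          (μHE[2] ((fun y => y - inner ℝ y (u i) • u i) '' convexHull ℝ (Set.range w))).toReal < 1 / 2 := by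
  have hF := isFrame_of_equidistant hℓ hw
  obtain ⟨e₁, he₁⟩ : ∃ e, e = fe₁ w ℓ := ⟨_, rfl⟩
  obtain ⟨e₂, he₂⟩ : ∃ e, e = fe₂ w ℓ := ⟨_, rfl⟩
  obtain ⟨e₃, he₃⟩ : ∃ e, e = fe₃ w ℓ := ⟨_, rfl⟩
  obtain ⟨m, hm⟩ : ∃ m, m = fm w := ⟨_, rfl⟩
  obtain ⟨s, hs⟩ : ∃ s, s = ℓ / 2 := ⟨_, rfl⟩
  have hspos : 0 < s := by rw [hs]; positivity
  rw [← he₁, ← he₂, ← he₃] at hF
  have hcov := fun {x : E3} (hx : x ∈ convexHull ℝ (Set.range w)) => K_cover (w := w) (ℓ := ℓ) hℓ hw hx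
  simp only [← he₁, ← he₂, ← he₃, ← hm, ← hs] at hcov
  have hmin := fun (v : E3) (hv : ‖v‖ = 1) => K_min_proj_toReal (w := w) (ℓ := ℓ) hℓ hw v hv
  rw [← hs] at hmin
  have harea := fam_area (e₁ := e₁) (e₂ := e₂) (e₃ := e₃) m s hF hspos
  have hMpos : (0 : ℝ) < MM := by exact_mod_cast MM_pos
  let g : Fin (2 * nn) × Fin MM → Fin (2 * nn * MM) := finProdFinEquiv
  let e : Fin (2 * nn * MM) ≃ Fin (2 * nn) × Fin MM := finProdFinEquiv.symm
  let U : ℕ → E3 := famU e₁ e₂ e₃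
  let P : ℕ → E3 := famP e₁ e₂ e₃ m s
  let Q : ℕ → E3 := famQ e₁ e₂ e₃ m s
  let R : ℕ → E3 := famR e₁ e₂ e₃ m s
  have hPU : ∀ i, ⟪P i, U i⟫ = 0 := famP_inner m s hF
  have hQU : ∀ i, ⟪Q i, U i⟫ = 0 := famQ_inner m s hF
  have hRU : ∀ i, ⟪R i, U i⟫ = 0 := famR_inner m s hF
  let uf : Fin (2 * nn) × Fin MM → E3 := fun p => U p.1
  let cf : Fin (2 * nn) × Fin MM → E3 := fun p =>
    P p.1 + (((p.2 : ℕ) : ℝ) / MM) • (Q p.1 - P p.1)
  let af : Fin (2 * nn) × Fin MM → E3 := fun p => (1 / (MM : ℝ)) • (Q p.1 - P p.1)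
  let bf : Fin (2 * nn) × Fin MM → E3 := fun p =>
    (1 - ((p.2 : ℕ) : ℝ) / MM) • (R p.1 - P p.1)
  have hsumA : ∑ i : Fin (2 * nn * MM), (μHE[2] {x : EuclideanSpace ℝ (Fin 3) |
        ∃ s ∈ Set.Icc (0 : ℝ) 1, ∃ t ∈ Set.Icc (0 : ℝ) 1,
          x = cf (e i) + s • af (e i) + t • bf (e i)}).toReal
      ≤ (Real.sqrt 2 * s ^ 2) * (1 / 2 - 2 / 10 ^ 8) := by
    rw [Equiv.sum_comp e (fun p => (μHE[2] {x : EuclideanSpace ℝ (Fin 3) |
        ∃ s ∈ Set.Icc (0 : ℝ) 1, ∃ t ∈ Set.Icc (0 : ℝ) 1,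
          x = cf p + s • af p + t • bf p}).toReal), Fintype.sum_prod_type]
    have hrow : ∀ i : Fin (2 * nn), ∑ l : Fin MM, (μHE[2] {x : EuclideanSpace ℝ (Fin 3) |
        ∃ s ∈ Set.Icc (0 : ℝ) 1, ∃ t ∈ Set.Icc (0 : ℝ) 1,
          x = cf (i, l) + s • af (i, l) + t • bf (i, l)}).toReal
        = (1 + 1 / (MM : ℝ)) * (μHE[2] (famT e₁ e₂ e₃ m s i)).toReal := by
      intro i
      have := strips_area (P i) (Q i) (R i) MM MM_pos
      rw [← Fin.sum_univ_eq_sum_range (fun l : ℕ => (μHE[2] (stripSet (P i + ((l : ℝ) / MM) • (Q i - P i))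
        ((1 / (MM : ℝ)) • (Q i - P i)) ((1 - (l : ℝ) / MM) • (R i - P i)))).toReal) MM] at this
      exact this
    rw [Finset.sum_congr rfl (fun i _ => hrow i), ← Finset.mul_sum,
      Fin.sum_univ_eq_sum_range (fun i : ℕ => (μHE[2] (famT e₁ e₂ e₃ m s i)).toReal) (2 * nn)]
    have hr : 0 < Real.sqrt 2 := by positivity
    have hM1 : 1 / (MM : ℝ) = 1 / 10 ^ 8 := by
      unfold MM
      norm_num
    rw [hM1]
    calc (1 + 1 / 10 ^ 8) * ∑ i ∈ Finset.range (2 * nn), (μHE[2] (famT e₁ e₂ e₃ m s i)).toReal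
        ≤ (1 + 1 / 10 ^ 8) * (s ^ 2 * Real.sqrt 2 * (1 / 2 - 3 / 10 ^ 8)) :=
          mul_le_mul_of_nonneg_left harea (by norm_num)
      _ ≤ _ := by
          have h0 : 0 ≤ s ^ 2 * Real.sqrt 2 := by positivity
          have h1 : (1 + 1 / 10 ^ 8 : ℝ) * (1 / 2 - 3 / 10 ^ 8) ≤ 1 / 2 - 2 / 10 ^ 8 := by norm_num
          have := mul_le_mul_of_nonneg_left h1 h0
          nlinarith
  have hS : 0 < Real.sqrt 2 * s ^ 2 := by positivity
  obtain ⟨h1, h2⟩ := final_clauses _ (fun i => ENNReal.toReal_nonneg) (Real.sqrt 2 * s ^ 2) (2 / 10 ^ 8) hS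
    hsumA (by norm_num)
  refine ⟨2 * nn * MM, fun i => uf (e i), fun i => cf (e i), fun i => af (e i), fun i => bf (e i),
    ?_, ?_, ?_, ⟨_, by positivity, fun v hv => h1 _ (hmin v hv)⟩,
    h2 _ (fun i => hmin _ (famU_norm hF _))⟩
  · intro i
    exact famU_norm hF _
  · intro i
    refine ⟨?_, ?_, ?_⟩
    · simp only [cf, uf]
      rw [inner_add_left, inner_smul_left, inner_sub_left, hPU, hQU]
      simp
    · simp only [af, uf]
      rw [inner_smul_left, inner_sub_left, hPU, hQU]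
      simp
    · simp only [bf, uf]
      rw [inner_smul_left, inner_sub_left, hPU, hRU]
      simp
  · intro x hx
    obtain ⟨i, hi, y, hy, r, rfl⟩ := hcov hx
    obtain ⟨l, hl, σ, hσ, τ, hτ, hz⟩ := tri_subset_strips _ _ _ MM MM_pos hy
    simp only [Set.mem_iUnion]
    refine ⟨e.symm (⟨i, hi⟩, ⟨l, hl⟩), σ, hσ, τ, hτ, r, ?_⟩
    rw [Equiv.apply_symm_apply]
    simp only [cf, af, bf, uf]
    rw [hz]

/-- Part (2) of the theorem. -/
theorem open_part (hℓ : 0 < ℓ) (hw : ∀ i j, i ≠ j → dist (w i) (w j) = ℓ) :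
    ∃ (k : ℕ) (u : Fin k → EuclideanSpace ℝ (Fin 3)) (B : Fin k → Set (EuclideanSpace ℝ (Fin 3))),
      (∀ i, ‖u i‖ = 1) ∧
      (∀ i, Bornology.IsBounded (B i) ∧ ∃ O : Set (EuclideanSpace ℝ (Fin 3)), IsOpen O ∧
        B i = O ∩ {x | inner ℝ x (u i) = 0}) ∧
      convexHull ℝ (Set.range w) ⊆
        ⋃ i, {x : EuclideanSpace ℝ (Fin 3) | ∃ y ∈ B i, ∃ τ : ℝ, x = y + τ • u i} ∧
      (∃ δ : ℝ, 0 < δ ∧ ∀ v : EuclideanSpace ℝ (Fin 3), ‖v‖ = 1 →
        (∑ i, (μHE[2] (B i)).toReal) + δ ≤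
          (μHE[2] ((fun y => y - inner ℝ y v • v) '' convexHull ℝ (Set.range w))).toReal / 2) ∧
      ∑ i, (μHE[2] (B i)).toReal /
          (μHE[2] ((fun y => y - inner ℝ y (u i) • u i) '' convexHull ℝ (Set.range w))).toReal < 1 / 2 := by
  have hF := isFrame_of_equidistant hℓ hw
  obtain ⟨e₁, he₁⟩ : ∃ e, e = fe₁ w ℓ := ⟨_, rfl⟩
  obtain ⟨e₂, he₂⟩ : ∃ e, e = fe₂ w ℓ := ⟨_, rfl⟩
  obtain ⟨e₃, he₃⟩ : ∃ e, e = fe₃ w ℓ := ⟨_, rfl⟩
  obtain ⟨m, hm⟩ : ∃ m, m = fm w := ⟨_, rfl⟩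
  obtain ⟨s, hs⟩ : ∃ s, s = ℓ / 2 := ⟨_, rfl⟩
  have hspos : 0 < s := by rw [hs]; positivity
  rw [← he₁, ← he₂, ← he₃] at hF
  have hcov := fun {x : E3} (hx : x ∈ convexHull ℝ (Set.range w)) => K_cover (w := w) (ℓ := ℓ) hℓ hw hx
  simp only [← he₁, ← he₂, ← he₃, ← hm, ← hs] at hcov
  have hmin := fun (v : E3) (hv : ‖v‖ = 1) => K_min_proj_toReal (w := w) (ℓ := ℓ) hℓ hw v hv
  rw [← hs] at hmin
  have harea := fam_area (e₁ := e₁) (e₂ := e₂) (e₃ := e₃) m s hF hspos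
  obtain ⟨η, hη⟩ : ∃ η : ℝ, η = 1 / 10 ^ 9 := ⟨_, rfl⟩
  have hηpos : 0 < η := by rw [hη]; norm_num
  have hbase : ∀ i : ℕ, ∃ B : Set E3, Bornology.IsBounded B ∧
      (∃ O : Set E3, IsOpen O ∧ B = O ∩ {x | inner ℝ x (famU e₁ e₂ e₃ i) = 0}) ∧
      famT e₁ e₂ e₃ m s i ⊆ B ∧
      (μHE[2] B).toReal ≤ (1 + 3 * η) ^ 2 * (μHE[2] (famT e₁ e₂ e₃ m s i)).toReal := fun i =>
    open_base (famU_inner hF i) (famP_inner m s hF i) (famQ_inner m s hF i) (famR_inner m s hF i)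
      (fam_gram m s hF hspos i) η hηpos
  choose B hB1 hB2 hB3 hB4 using hbase
  have hsumA : ∑ i : Fin (2 * nn), (μHE[2] (B i)).toReal
      ≤ (Real.sqrt 2 * s ^ 2) * (1 / 2 - 2 / 10 ^ 8) := by
    rw [Fin.sum_univ_eq_sum_range (fun i : ℕ => (μHE[2] (B i)).toReal) (2 * nn)]
    calc ∑ i ∈ Finset.range (2 * nn), (μHE[2] (B i)).toReal
        ≤ ∑ i ∈ Finset.range (2 * nn), (1 + 3 * η) ^ 2 * (μHE[2] (famT e₁ e₂ e₃ m s i)).toReal :=
          Finset.sum_le_sum (fun i _ => hB4 i)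
      _ = (1 + 3 * η) ^ 2 * ∑ i ∈ Finset.range (2 * nn), (μHE[2] (famT e₁ e₂ e₃ m s i)).toReal := by
          rw [Finset.mul_sum]
      _ ≤ (1 + 3 * η) ^ 2 * (s ^ 2 * Real.sqrt 2 * (1 / 2 - 3 / 10 ^ 8)) :=
          mul_le_mul_of_nonneg_left harea (sq_nonneg _)
      _ ≤ _ := by
          have h0 : 0 ≤ s ^ 2 * Real.sqrt 2 := by positivity
          have h1 : (1 + 3 * η) ^ 2 * (1 / 2 - 3 / 10 ^ 8) ≤ 1 / 2 - 2 / 10 ^ 8 := by
            rw [hη]; norm_num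
          have := mul_le_mul_of_nonneg_left h1 h0
          nlinarith
  have hS : 0 < Real.sqrt 2 * s ^ 2 := by positivity
  obtain ⟨h1, h2⟩ := final_clauses _ (fun i => ENNReal.toReal_nonneg) (Real.sqrt 2 * s ^ 2) (2 / 10 ^ 8) hS
    hsumA (by norm_num)
  refine ⟨2 * nn, fun i => famU e₁ e₂ e₃ i, fun i => B i, ?_, ?_, ?_,
    ⟨_, by positivity, fun v hv => h1 _ (hmin v hv)⟩,
    h2 _ (fun i => hmin _ (famU_norm hF _))⟩
  · intro i
    exact famU_norm hF _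
  · intro i
    exact ⟨hB1 i, hB2 i⟩
  · intro x hx
    obtain ⟨i, hi, y, hy, r, rfl⟩ := hcov hx
    simp only [Set.mem_iUnion]
    exact ⟨⟨i, hi⟩, y, hB3 i hy, r, rfl⟩

end Final

end Crest.Agent.Lib.TetraFan
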