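import Crest.Agent.Lib.TetraCover

/-!
Lower bound for the area of the orthogonal projections of the regular tetrahedron, by the faces
and the quadrilaterals of pairs of opposite edges.
-/

open MeasureTheory Module
open scoped RealInnerProductSpace

namespace Crest.Agent.Lib.TetraFan

/-- Three orthonormal vectors span three-space. -/
lemma frame_expand {e₁ e₂ e₃ : E3} (hF : IsFrame e₁ e₂ e₃) (v : E3) :
    v = vec e₁ e₂ e₃ ⟪v, e₁⟫ ⟪v, e₂⟫ ⟪v, e₃⟫ := by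
  let f : Fin 3 → E3 := ![e₁, e₂, e₃]
  have h21 : ⟪e₂, e₁⟫ = 0 := by rw [real_inner_comm]; exact hF.h12
  have h31 : ⟪e₃, e₁⟫ = 0 := by rw [real_inner_comm]; exact hF.h13
  have h32 : ⟪e₃, e₂⟫ = 0 := by rw [real_inner_comm]; exact hF.h23
  have n1 : ‖e₁‖ = 1 := by
    have := hF.h11
    rw [real_inner_self_eq_norm_sq] at this
    nlinarith [norm_nonneg e₁]
  have n2 : ‖e₂‖ = 1 := by
    have := hF.h22
    rw [real_inner_self_eq_norm_sq] at this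
    nlinarith [norm_nonneg e₂]
  have n3 : ‖e₃‖ = 1 := by
    have := hF.h33
    rw [real_inner_self_eq_norm_sq] at this
    nlinarith [norm_nonneg e₃]
  have hf : Orthonormal ℝ f := by
    rw [orthonormal_iff_ite]
    intro i j
    fin_cases i <;> fin_cases j <;>
      simp [f, n1, n2, n3, hF.h12, hF.h13, hF.h23, h21, h31, h32]
  have hsp : ⊤ ≤ Submodule.span ℝ (Set.range f) := by
    rw [top_le_iff]
    exact hf.linearIndependent.span_eq_top_of_card_eq_finrank' (by simp)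
  have h := (OrthonormalBasis.mk hf hsp).sum_repr' v
  rw [Fin.sum_univ_three] at h
  simp only [OrthonormalBasis.coe_mk] at h
  simp only [f, Matrix.cons_val_zero, Matrix.cons_val_one, Matrix.cons_val] at h
  unfold vec
  rw [real_inner_comm e₁ v, real_inner_comm e₂ v, real_inner_comm e₃ v]
  exact h.symm

/-- the coordinate determinant -/
def det3f (x₁ x₂ x₃ y₁ y₂ y₃ v₁ v₂ v₃ : ℝ) : ℝ :=
  x₁ * (y₂ * v₃ - y₃ * v₂) - x₂ * (y₁ * v₃ - y₃ * v₁) + x₃ * (y₁ * v₂ - y₂ * v₁)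

section Proj

variable {e₁ e₂ e₃ : E3} (hF : IsFrame e₁ e₂ e₃)

include hF in
lemma gram_proj_vec (x₁ x₂ x₃ y₁ y₂ y₃ v₁ v₂ v₃ : ℝ) (hv : v₁ ^ 2 + v₂ ^ 2 + v₃ ^ 2 = 1) :
    gram2 (proj (vec e₁ e₂ e₃ v₁ v₂ v₃) (vec e₁ e₂ e₃ x₁ x₂ x₃))
        (proj (vec e₁ e₂ e₃ v₁ v₂ v₃) (vec e₁ e₂ e₃ y₁ y₂ y₃))
      = det3f x₁ x₂ x₃ y₁ y₂ y₃ v₁ v₂ v₃ ^ 2 := by
  have hU : ⟪vec e₁ e₂ e₃ v₁ v₂ v₃, vec e₁ e₂ e₃ v₁ v₂ v₃⟫ = 1 := by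
    rw [inner_vec hF]
    linarith
  rw [gram2_proj hU]
  simp only [inner_vec hF]
  unfold det3f
  linear_combination (-( (x₁ ^ 2 + x₂ ^ 2 + x₃ ^ 2) * (y₁ ^ 2 + y₂ ^ 2 + y₃ ^ 2)
    - (x₁ * y₁ + x₂ * y₂ + x₃ * y₃) ^ 2)) * hv

include hF in
/-- The area of a projected triangle. -/
lemma area_proj_tri (p₁ p₂ p₃ : E3) (x₁ x₂ x₃ y₁ y₂ y₃ v₁ v₂ v₃ : ℝ)
    (hx : p₂ - p₁ = vec e₁ e₂ e₃ x₁ x₂ x₃) (hy : p₃ - p₁ = vec e₁ e₂ e₃ y₁ y₂ y₃)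
    (hv : v₁ ^ 2 + v₂ ^ 2 + v₃ ^ 2 = 1) :
    μHE[2] (convexHull ℝ {proj (vec e₁ e₂ e₃ v₁ v₂ v₃) p₁, proj (vec e₁ e₂ e₃ v₁ v₂ v₃) p₂,
        proj (vec e₁ e₂ e₃ v₁ v₂ v₃) p₃})
      = ENNReal.ofReal (1 / 2 * |det3f x₁ x₂ x₃ y₁ y₂ y₃ v₁ v₂ v₃|) := by
  rw [area_triangle, proj_sub, proj_sub, hx, hy, gram_proj_vec hF _ _ _ _ _ _ _ _ _ hv,
    Real.sqrt_sq_eq_abs]

/-- Two triangles on either side of a common edge have disjoint interiors. -/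
lemma area_add_le (p₁ p₂ p₃ p₄ n : E3) (h : ⟪p₂ - p₁, n⟫ = 0) (h3 : 0 < ⟪p₃ - p₁, n⟫)
    (h4 : ⟪p₄ - p₁, n⟫ < 0) {S : Set E3} (hS : Convex ℝ S) (m1 : p₁ ∈ S) (m2 : p₂ ∈ S)
    (m3 : p₃ ∈ S) (m4 : p₄ ∈ S) :
    μHE[2] (convexHull ℝ {p₁, p₂, p₃}) + μHE[2] (convexHull ℝ {p₁, p₂, p₄}) ≤ μHE[2] S := by
  have hsub3 : convexHull ℝ {p₁, p₂, p₃} ⊆ S := by
    apply convexHull_min _ hS
    intro x hx
    simp only [Set.mem_insert_iff, Set.mem_singleton_iff] at hx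
    rcases hx with rfl | rfl | rfl <;> assumption
  have hsub4 : convexHull ℝ {p₁, p₂, p₄} ⊆ S := by
    apply convexHull_min _ hS
    intro x hx
    simp only [Set.mem_insert_iff, Set.mem_singleton_iff] at hx
    rcases hx with rfl | rfl | rfl <;> assumption
  have hmeas : MeasurableSet (convexHull ℝ {p₁, p₂, p₄}) :=
    ((Set.toFinite _).isCompact_convexHull (𝕜 := ℝ)).isClosed.measurableSet
  have hinter : μHE[2] (convexHull ℝ {p₁, p₂, p₃} ∩ convexHull ℝ {p₁, p₂, p₄}) = 0 := by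
    apply measure_mono_null _ (area_segment p₁ p₂)
    rintro x ⟨hx3, hx4⟩
    rw [hull3_eq_image] at hx3 hx4
    obtain ⟨_, ⟨z, hz, rfl⟩, rfl⟩ := hx3
    obtain ⟨_, ⟨z', hz', rfl⟩, hzz⟩ := hx4
    obtain ⟨hz0, hz1, hz2⟩ := hz
    obtain ⟨hz0', hz1', hz2'⟩ := hz'
    simp only [planeMap_apply] at hzz ⊢
    have hval : z' 1 * ⟪p₄ - p₁, n⟫ = z 1 * ⟪p₃ - p₁, n⟫ := by
      have e := congrArg (fun y => ⟪y - p₁, n⟫) hzz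
      simp only [add_sub_cancel_left, inner_add_left, inner_smul_left, h, conj_trivial,
        mul_zero, zero_add] at e
      exact e
    have h1 : 0 ≤ z 1 * ⟪p₃ - p₁, n⟫ := mul_nonneg hz1 h3.le
    have h2 : z' 1 * ⟪p₄ - p₁, n⟫ ≤ 0 := mul_nonpos_of_nonneg_of_nonpos hz1' h4.le
    have h0 : z 1 * ⟪p₃ - p₁, n⟫ = 0 := by linarith
    have hz10 : z 1 = 0 := by
      rcases mul_eq_zero.mp h0 with h' | h'
      · exact h'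
      · exact absurd h' h3.ne'
    rw [hz10, zero_smul, add_zero]
    have := mem_hull3 p₁ p₂ p₂ (a := 1 - z 0) (b := z 0) (c := 0) (by linarith) hz0 le_rfl (by ring)
    convert this using 1
    module
  calc μHE[2] (convexHull ℝ {p₁, p₂, p₃}) + μHE[2] (convexHull ℝ {p₁, p₂, p₄})
      = μHE[2] (convexHull ℝ {p₁, p₂, p₃} ∪ convexHull ℝ {p₁, p₂, p₄})
        + μHE[2] (convexHull ℝ {p₁, p₂, p₃} ∩ convexHull ℝ {p₁, p₂, p₄}) :=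
        (measure_union_add_inter _ hmeas).symm
    _ ≤ μHE[2] S := by
        rw [hinter, add_zero]
        exact measure_mono (Set.union_subset hsub3 hsub4)

include hF in
/-- The quadrilateral bound, when the two opposite vertices are on different sides. -/
lemma area_quad_aux (p₁ p₂ p₃ p₄ : E3) (x₁ x₂ x₃ y₁ y₂ y₃ z₁ z₂ z₃ v₁ v₂ v₃ : ℝ)
    (hx : p₂ - p₁ = vec e₁ e₂ e₃ x₁ x₂ x₃) (hy : p₃ - p₁ = vec e₁ e₂ e₃ y₁ y₂ y₃)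
    (hz : p₄ - p₁ = vec e₁ e₂ e₃ z₁ z₂ z₃) (hv : v₁ ^ 2 + v₂ ^ 2 + v₃ ^ 2 = 1)
    {S : Set E3} (hS : Convex ℝ S)
    (m1 : proj (vec e₁ e₂ e₃ v₁ v₂ v₃) p₁ ∈ S) (m2 : proj (vec e₁ e₂ e₃ v₁ v₂ v₃) p₂ ∈ S)
    (m3 : proj (vec e₁ e₂ e₃ v₁ v₂ v₃) p₃ ∈ S) (m4 : proj (vec e₁ e₂ e₃ v₁ v₂ v₃) p₄ ∈ S)
    (h3 : 0 < det3f x₁ x₂ x₃ y₁ y₂ y₃ v₁ v₂ v₃) (h4 : det3f x₁ x₂ x₃ z₁ z₂ z₃ v₁ v₂ v₃ < 0) :
    ENNReal.ofReal (1 / 2 * |det3f x₁ x₂ x₃ (y₁ - z₁) (y₂ - z₂) (y₃ - z₃) v₁ v₂ v₃|) ≤ μHE[2] S := by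
  have hU : ⟪vec e₁ e₂ e₃ v₁ v₂ v₃, vec e₁ e₂ e₃ v₁ v₂ v₃⟫ = 1 := by
    rw [inner_vec hF]
    linarith
  obtain ⟨n, hn⟩ : ∃ n, n = vec e₁ e₂ e₃ (x₃ * v₂ - x₂ * v₃) (x₁ * v₃ - x₃ * v₁)
      (x₂ * v₁ - x₁ * v₂) := ⟨_, rfl⟩
  have hvn : ⟪vec e₁ e₂ e₃ v₁ v₂ v₃, n⟫ = 0 := by
    rw [hn, inner_vec hF]
    ring
  have hval : ∀ (p : E3) (a b c : ℝ), p - p₁ = vec e₁ e₂ e₃ a b c →
      ⟪proj (vec e₁ e₂ e₃ v₁ v₂ v₃) p - proj (vec e₁ e₂ e₃ v₁ v₂ v₃) p₁, n⟫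
        = det3f x₁ x₂ x₃ a b c v₁ v₂ v₃ := by
    intro p a b c h
    rw [proj_sub, h]
    unfold proj
    rw [inner_sub_left, inner_smul_left, hvn, hn, inner_vec hF]
    simp only [conj_trivial, mul_zero, sub_zero]
    unfold det3f
    ring
  have h0 : det3f x₁ x₂ x₃ x₁ x₂ x₃ v₁ v₂ v₃ = 0 := by unfold det3f; ring
  have := area_add_le _ _ _ _ n (by rw [hval _ _ _ _ hx, h0])
    (by rw [hval _ _ _ _ hy]; exact h3) (by rw [hval _ _ _ _ hz]; exact h4) hS m1 m2 m3 m4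
  rw [area_proj_tri hF _ _ _ _ _ _ _ _ _ _ _ _ hx hy hv,
    area_proj_tri hF _ _ _ _ _ _ _ _ _ _ _ _ hx hz hv,
    ← ENNReal.ofReal_add (by positivity) (by positivity)] at this
  refine le_trans (le_of_eq ?_) this
  congr 1
  rw [abs_of_pos h3, abs_of_neg h4]
  have e : det3f x₁ x₂ x₃ (y₁ - z₁) (y₂ - z₂) (y₃ - z₃) v₁ v₂ v₃
      = det3f x₁ x₂ x₃ y₁ y₂ y₃ v₁ v₂ v₃ - det3f x₁ x₂ x₃ z₁ z₂ z₃ v₁ v₂ v₃ := by
    unfold det3f; ring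
  rw [e, abs_of_pos (by linarith)]
  ring

include hF in
/-- The quadrilateral bound. -/
lemma area_quad (p₁ p₂ p₃ p₄ : E3) (x₁ x₂ x₃ y₁ y₂ y₃ z₁ z₂ z₃ v₁ v₂ v₃ : ℝ)
    (hx : p₂ - p₁ = vec e₁ e₂ e₃ x₁ x₂ x₃) (hy : p₃ - p₁ = vec e₁ e₂ e₃ y₁ y₂ y₃)
    (hz : p₄ - p₁ = vec e₁ e₂ e₃ z₁ z₂ z₃) (hv : v₁ ^ 2 + v₂ ^ 2 + v₃ ^ 2 = 1)
    {S : Set E3} (hS : Convex ℝ S)
    (m1 : proj (vec e₁ e₂ e₃ v₁ v₂ v₃) p₁ ∈ S) (m2 : proj (vec e₁ e₂ e₃ v₁ v₂ v₃) p₂ ∈ S)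
    (m3 : proj (vec e₁ e₂ e₃ v₁ v₂ v₃) p₃ ∈ S) (m4 : proj (vec e₁ e₂ e₃ v₁ v₂ v₃) p₄ ∈ S) :
    ENNReal.ofReal (1 / 2 * |det3f x₁ x₂ x₃ (y₁ - z₁) (y₂ - z₂) (y₃ - z₃) v₁ v₂ v₃|) ≤ μHE[2] S := by
  have e : det3f x₁ x₂ x₃ (y₁ - z₁) (y₂ - z₂) (y₃ - z₃) v₁ v₂ v₃
      = det3f x₁ x₂ x₃ y₁ y₂ y₃ v₁ v₂ v₃ - det3f x₁ x₂ x₃ z₁ z₂ z₃ v₁ v₂ v₃ := by
    unfold det3f; ring
  have e' : det3f x₁ x₂ x₃ (z₁ - y₁) (z₂ - y₂) (z₃ - y₃) v₁ v₂ v₃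
      = - det3f x₁ x₂ x₃ (y₁ - z₁) (y₂ - z₂) (y₃ - z₃) v₁ v₂ v₃ := by
    unfold det3f; ring
  have hsub : ∀ r : E3, r ∈ ({proj (vec e₁ e₂ e₃ v₁ v₂ v₃) p₁, proj (vec e₁ e₂ e₃ v₁ v₂ v₃) p₂,
      proj (vec e₁ e₂ e₃ v₁ v₂ v₃) p₃} : Set E3) → r ∈ S := by
    intro r hr
    simp only [Set.mem_insert_iff, Set.mem_singleton_iff] at hr
    rcases hr with rfl | rfl | rfl <;> assumption
  have hsub' : ∀ r : E3, r ∈ ({proj (vec e₁ e₂ e₃ v₁ v₂ v₃) p₁, proj (vec e₁ e₂ e₃ v₁ v₂ v₃) p₂,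
      proj (vec e₁ e₂ e₃ v₁ v₂ v₃) p₄} : Set E3) → r ∈ S := by
    intro r hr
    simp only [Set.mem_insert_iff, Set.mem_singleton_iff] at hr
    rcases hr with rfl | rfl | rfl <;> assumption
  have T3 := (measure_mono (μ := μHE[2]) (convexHull_min hsub hS))
  have T4 := (measure_mono (μ := μHE[2]) (convexHull_min hsub' hS))
  rw [area_proj_tri hF _ _ _ _ _ _ _ _ _ _ _ _ hx hy hv] at T3
  rw [area_proj_tri hF _ _ _ _ _ _ _ _ _ _ _ _ hx hz hv] at T4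
  rcases lt_trichotomy (det3f x₁ x₂ x₃ y₁ y₂ y₃ v₁ v₂ v₃) 0 with h3 | h3 | h3 <;>
  rcases lt_trichotomy (det3f x₁ x₂ x₃ z₁ z₂ z₃ v₁ v₂ v₃) 0 with h4 | h4 | h4
  · -- same sign
    rw [e]
    rcases le_total (det3f x₁ x₂ x₃ y₁ y₂ y₃ v₁ v₂ v₃) (det3f x₁ x₂ x₃ z₁ z₂ z₃ v₁ v₂ v₃) with h | h
    · refine le_trans (ENNReal.ofReal_le_ofReal ?_) T3
      rw [abs_of_nonpos (by linarith), abs_of_neg h3]
      linarith
    · refine le_trans (ENNReal.ofReal_le_ofReal ?_) T4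
      rw [abs_of_nonneg (by linarith), abs_of_neg h4]
      linarith
  · rw [e, h4, sub_zero]
    exact T3
  · -- opposite signs, swap
    have := area_quad_aux hF p₁ p₂ p₄ p₃ x₁ x₂ x₃ z₁ z₂ z₃ y₁ y₂ y₃ v₁ v₂ v₃ hx hz hy hv hS m1 m2 m4 m3
      h4 h3
    rw [e', abs_neg] at this
    exact this
  · rw [e, h3, zero_sub, abs_neg]
    exact T4
  · rw [e, h3, h4, sub_zero, abs_zero]
    simp
  · rw [e, h3, zero_sub, abs_neg]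
    exact T4
  · exact area_quad_aux hF p₁ p₂ p₃ p₄ x₁ x₂ x₃ y₁ y₂ y₃ z₁ z₂ z₃ v₁ v₂ v₃ hx hy hz hv hS m1 m2 m3 m4
      h3 h4
  · rw [e, h4, sub_zero]
    exact T3
  · -- same sign
    rw [e]
    rcases le_total (det3f x₁ x₂ x₃ y₁ y₂ y₃ v₁ v₂ v₃) (det3f x₁ x₂ x₃ z₁ z₂ z₃ v₁ v₂ v₃) with h | h
    · refine le_trans (ENNReal.ofReal_le_ofReal ?_) T4
      rw [abs_of_nonpos (by linarith), abs_of_pos h4]
      linarith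
    · refine le_trans (ENNReal.ofReal_le_ofReal ?_) T3
      rw [abs_of_nonneg (by linarith), abs_of_pos h3]
      linarith

end Proj

/-- The real inequality behind the minimal projection. -/
lemma real_min (v₁ v₂ v₃ r : ℝ) (hr : r ^ 2 = 2) (hr0 : 0 < r) (hv : v₁ ^ 2 + v₂ ^ 2 + v₃ ^ 2 = 1) :
    r ≤ |2 * v₃| ∨ r ≤ |r * (v₁ + v₂)| ∨ r ≤ |r * (v₁ - v₂)| ∨ r ≤ |v₃ - r * v₂| ∨ r ≤ |v₃ + r * v₂| ∨
      r ≤ |v₃ + r * v₁| ∨ r ≤ |v₃ - r * v₁| := by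
  by_contra hcon
  push Not at hcon
  obtain ⟨h1, h2, h3, h4, h5, h6, h7⟩ := hcon
  rw [abs_mul, abs_of_pos (by norm_num : (0 : ℝ) < 2)] at h1
  rw [abs_mul, abs_of_pos hr0] at h2 h3
  have hz := abs_nonneg v₃
  have hA := abs_nonneg (v₁ + v₂)
  have hB := abs_nonneg (v₁ - v₂)
  have hA1 : |v₁ + v₂| < 1 := by nlinarith
  have hB1 : |v₁ - v₂| < 1 := by nlinarith
  have hz1 : |v₃| < r / 2 := by linarith
  have hzz : |v₃| ^ 2 = v₃ ^ 2 := sq_abs v₃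
  have hAA : |v₁ + v₂| ^ 2 = (v₁ + v₂) ^ 2 := sq_abs _
  have hBB : |v₁ - v₂| ^ 2 = (v₁ - v₂) ^ 2 := sq_abs _
  have hsum : |v₁ + v₂| + |v₁ - v₂| + r * |v₃| ≥ 2 := by
    have h8 : |v₁ + v₂| ^ 2 ≤ |v₁ + v₂| := by nlinarith
    have h9 : |v₁ - v₂| ^ 2 ≤ |v₁ - v₂| := by nlinarith
    have h10 : 2 * |v₃| ^ 2 ≤ r * |v₃| := by nlinarith
    nlinarith
  -- face bounds
  have hf : ∀ u : ℝ, |v₃ + r * u| < r → |v₃ - r * u| < r → r * |v₃| + 2 * |u| < 2 := by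
    intro u h h'
    have e1 := abs_lt.mp h
    have e2 := abs_lt.mp h'
    have : |v₃| + r * |u| < r := by
      rcases abs_cases v₃ with ⟨a, _⟩ | ⟨a, _⟩ <;> rcases abs_cases u with ⟨b, _⟩ | ⟨b, _⟩ <;>
        rw [a, b] <;> linarith [e1.1, e1.2, e2.1, e2.2]
    nlinarith
  have hf1 := hf v₁ h6 h7
  have hf2 := hf v₂ (by rw [abs_lt] at h5 ⊢; exact h5) h4
  rcases le_total |v₂| |v₁| with h | h
  · have : |v₁ + v₂| + |v₁ - v₂| ≤ 2 * |v₁| := by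
      rcases abs_cases v₁ with ⟨a, _⟩ | ⟨a, _⟩ <;> rcases abs_cases v₂ with ⟨b, _⟩ | ⟨b, _⟩ <;>
      rcases abs_cases (v₁ + v₂) with ⟨c, _⟩ | ⟨c, _⟩ <;>
      rcases abs_cases (v₁ - v₂) with ⟨d, _⟩ | ⟨d, _⟩ <;>
      rw [a, b] at h <;> rw [a, c, d] <;> linarith
    linarith
  · have : |v₁ + v₂| + |v₁ - v₂| ≤ 2 * |v₂| := by
      rcases abs_cases v₁ with ⟨a, _⟩ | ⟨a, _⟩ <;> rcases abs_cases v₂ with ⟨b, _⟩ | ⟨b, _⟩ <;>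
      rcases abs_cases (v₁ + v₂) with ⟨c, _⟩ | ⟨c, _⟩ <;>
      rcases abs_cases (v₁ - v₂) with ⟨d, _⟩ | ⟨d, _⟩ <;>
      rw [a, b] at h <;> rw [b, c, d] <;> linarith
    linarith

section Main

variable {e₁ e₂ e₃ : E3} (hF : IsFrame e₁ e₂ e₃)

lemma ptt_sub (e₁ e₂ e₃ m : E3) (s a b t a' b' t' x y z : ℝ) (hx : x = s * (a - a'))
    (hy : y = s * (b - b')) (hz : z = s * (GG * (t - t'))) :
    ptt e₁ e₂ e₃ m s a b t - ptt e₁ e₂ e₃ m s a' b' t' = vec e₁ e₂ e₃ x y z := by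
  subst hx hy hz
  unfold ptt vec
  module

/-- the linear map of projection -/
noncomputable def projL (v : E3) : E3 →ₗ[ℝ] E3 where
  toFun := proj v
  map_add' x y := by
    unfold proj
    rw [inner_add_left]
    module
  map_smul' c x := by
    unfold proj
    rw [inner_smul_left]
    simp only [conj_trivial, RingHom.id_apply]
    module

lemma half_abs {s D D' r : ℝ} (hD : D ^ 2 = (2 * s ^ 2 * D') ^ 2) (h : r ≤ |D'|) :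
    r * s ^ 2 ≤ 1 / 2 * |D| := by
  have h1 : |D| = |2 * s ^ 2 * D'| := (sq_eq_sq_iff_abs_eq_abs _ _).mp hD
  rw [h1, abs_mul, abs_mul, abs_of_pos (by norm_num : (0 : ℝ) < 2), abs_of_nonneg (sq_nonneg s)]
  nlinarith [sq_nonneg s]

include hF in
/-- The minimal projection. -/
theorem min_proj (m : E3) (s : ℝ) {K : Set E3} (hK : Convex ℝ K)
    (hA : ptt e₁ e₂ e₃ m s (-1) 0 1 ∈ K) (hC : ptt e₁ e₂ e₃ m s 1 0 1 ∈ K)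
    (hB : ptt e₁ e₂ e₃ m s 0 (-1) (-1) ∈ K) (hD : ptt e₁ e₂ e₃ m s 0 1 (-1) ∈ K)
    (v : E3) (hv : ‖v‖ = 1) :
    ENNReal.ofReal (Real.sqrt 2 * s ^ 2) ≤ μHE[2] (proj v '' K) := by
  have hvv := frame_expand hF v
  obtain ⟨v₁, hv₁⟩ : ∃ v₁, v₁ = ⟪v, e₁⟫ := ⟨_, rfl⟩
  obtain ⟨v₂, hv₂⟩ : ∃ v₂, v₂ = ⟪v, e₂⟫ := ⟨_, rfl⟩
  obtain ⟨v₃, hv₃⟩ : ∃ v₃, v₃ = ⟪v, e₃⟫ := ⟨_, rfl⟩
  rw [← hv₁, ← hv₂, ← hv₃] at hvv
  have hsum : v₁ ^ 2 + v₂ ^ 2 + v₃ ^ 2 = 1 := by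
    have h1 : ⟪v, v⟫ = 1 := by rw [real_inner_self_eq_norm_sq, hv]; norm_num
    rw [hvv, inner_vec hF] at h1
    linarith
  rw [hvv]
  obtain ⟨V, hV⟩ : ∃ V, V = vec e₁ e₂ e₃ v₁ v₂ v₃ := ⟨_, rfl⟩
  rw [← hV]
  have hS : Convex ℝ (proj V '' K) := by
    have := hK.linear_image (projL V)
    exact this
  have mem : ∀ {p : E3}, p ∈ K → proj V p ∈ proj V '' K := fun hp => ⟨_, hp, rfl⟩
  have hr2 : Real.sqrt 2 ^ 2 = 2 := Real.sq_sqrt (by norm_num)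
  have hr0 : 0 < Real.sqrt 2 := by positivity
  have hface : ∀ {p₁ p₂ p₃ : E3} {x₁ x₂ x₃ y₁ y₂ y₃ : ℝ}, p₁ ∈ K → p₂ ∈ K → p₃ ∈ K →
      p₂ - p₁ = vec e₁ e₂ e₃ x₁ x₂ x₃ → p₃ - p₁ = vec e₁ e₂ e₃ y₁ y₂ y₃ →
      ENNReal.ofReal (1 / 2 * |det3f x₁ x₂ x₃ y₁ y₂ y₃ v₁ v₂ v₃|) ≤ μHE[2] (proj V '' K) := by
    intro p₁ p₂ p₃ x₁ x₂ x₃ y₁ y₂ y₃ h1 h2 h3 hx hy
    rw [← area_proj_tri hF p₁ p₂ p₃ _ _ _ _ _ _ _ _ _ hx hy hsum, ← hV]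
    apply measure_mono
    apply convexHull_min _ hS
    intro r hr
    simp only [Set.mem_insert_iff, Set.mem_singleton_iff] at hr
    rcases hr with rfl | rfl | rfl
    · exact mem h1
    · exact mem h2
    · exact mem h3
  have hquad : ∀ {p₁ p₂ p₃ p₄ : E3} {x₁ x₂ x₃ y₁ y₂ y₃ z₁ z₂ z₃ : ℝ}, p₁ ∈ K → p₂ ∈ K → p₃ ∈ K →
      p₄ ∈ K → p₂ - p₁ = vec e₁ e₂ e₃ x₁ x₂ x₃ → p₃ - p₁ = vec e₁ e₂ e₃ y₁ y₂ y₃ →
      p₄ - p₁ = vec e₁ e₂ e₃ z₁ z₂ z₃ →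
      ENNReal.ofReal (1 / 2 * |det3f x₁ x₂ x₃ (y₁ - z₁) (y₂ - z₂) (y₃ - z₃) v₁ v₂ v₃|)
        ≤ μHE[2] (proj V '' K) := by
    intro p₁ p₂ p₃ p₄ x₁ x₂ x₃ y₁ y₂ y₃ z₁ z₂ z₃ h1 h2 h3 h4 hx hy hz
    exact area_quad hF p₁ p₂ p₃ p₄ _ _ _ _ _ _ _ _ _ _ _ _ hx hy hz hsum hS
      (hV ▸ mem h1) (hV ▸ mem h2) (hV ▸ mem h3) (hV ▸ mem h4)
  have G2 : 2 * GG = Real.sqrt 2 := by unfold GG; ring
  -- the differences of vertices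
  have dCA := ptt_sub e₁ e₂ e₃ m s 1 0 1 (-1) 0 1 (2 * s) 0 0 (by ring) (by ring) (by ring)
  have dBA := ptt_sub e₁ e₂ e₃ m s 0 (-1) (-1) (-1) 0 1 s (-s) (- (Real.sqrt 2 * s)) (by ring) (by ring)
    (by rw [← G2]; ring)
  have dDA := ptt_sub e₁ e₂ e₃ m s 0 1 (-1) (-1) 0 1 s s (- (Real.sqrt 2 * s)) (by ring) (by ring)
    (by rw [← G2]; ring)
  have dDB := ptt_sub e₁ e₂ e₃ m s 0 1 (-1) 0 (-1) (-1) 0 (2 * s) 0 (by ring) (by ring) (by ring)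
  have dAB := ptt_sub e₁ e₂ e₃ m s (-1) 0 1 0 (-1) (-1) (-s) s (Real.sqrt 2 * s) (by ring) (by ring)
    (by rw [← G2]; ring)
  have dCB := ptt_sub e₁ e₂ e₃ m s 1 0 1 0 (-1) (-1) s s (Real.sqrt 2 * s) (by ring) (by ring)
    (by rw [← G2]; ring)
  rcases real_min v₁ v₂ v₃ (Real.sqrt 2) hr2 hr0 hsum with h | h | h | h | h | h | h
  · refine le_trans (ENNReal.ofReal_le_ofReal (half_abs (D' := 2 * v₃) ?_ h)) (hquad hA hC hB hD dCA dBA dDA)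
    unfold det3f; ring
  · refine le_trans (ENNReal.ofReal_le_ofReal (half_abs (D' := Real.sqrt 2 * (v₁ + v₂)) ?_ h))
      (hquad hA hB hC hD dBA dCA dDA)
    unfold det3f; ring
  · refine le_trans (ENNReal.ofReal_le_ofReal (half_abs (D' := Real.sqrt 2 * (v₁ - v₂)) ?_ h))
      (hquad hA hD hC hB dDA dCA dBA)
    unfold det3f; ring
  · refine le_trans (ENNReal.ofReal_le_ofReal (half_abs (D' := v₃ - Real.sqrt 2 * v₂) ?_ h))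
      (hface hA hC hB dCA dBA)
    unfold det3f; ring
  · refine le_trans (ENNReal.ofReal_le_ofReal (half_abs (D' := v₃ + Real.sqrt 2 * v₂) ?_ h))
      (hface hA hC hD dCA dDA)
    unfold det3f; ring
  · refine le_trans (ENNReal.ofReal_le_ofReal (half_abs (D' := v₃ + Real.sqrt 2 * v₁) ?_ h))
      (hface hB hD hA dDB dAB)
    unfold det3f; ring
  · refine le_trans (ENNReal.ofReal_le_ofReal (half_abs (D' := v₃ - Real.sqrt 2 * v₁) ?_ h))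
      (hface hB hD hC dDB dCB)
    unfold det3f; ring

/-- The projections of a bounded set have finite area. -/
theorem proj_finite {K : Set E3} (hK : Bornology.IsBounded K) (v : E3) (hv : ‖v‖ = 1) :
    μHE[2] (proj v '' K) < ⊤ := by
  have hv0 : v ≠ 0 := by
    intro h
    rw [h, norm_zero] at hv
    norm_num at hv
  have hfact : Fact (finrank ℝ E3 = 2 + 1) := ⟨by simp⟩
  have hfin : finrank ℝ (ℝ ∙ v)ᗮ = 2 := Submodule.finrank_orthogonal_span_singleton hv0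
  have hvol : (μHE[2] : Measure ((ℝ ∙ v)ᗮ : Submodule ℝ E3)) = volume := by
    have := InnerProductSpace.euclideanHausdorffMeasure_eq_volume (V := ((ℝ ∙ v)ᗮ : Submodule ℝ E3))
    rwa [hfin] at this
  have hU : ⟪v, v⟫ = 1 := by rw [real_inner_self_eq_norm_sq, hv]; norm_num
  have hι : Isometry (Submodule.subtype (ℝ ∙ v)ᗮ) := (Submodule.subtypeₗᵢ (ℝ ∙ v)ᗮ).isometry
  have himage : proj v '' K = (Submodule.subtype (ℝ ∙ v)ᗮ) '' ((Submodule.subtype (ℝ ∙ v)ᗮ) ⁻¹' (proj v '' K)) := by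
    rw [Set.image_preimage_eq_of_subset]
    rintro _ ⟨y, _, rfl⟩
    refine ⟨⟨proj v y, ?_⟩, rfl⟩
    rw [Submodule.mem_orthogonal_singleton_iff_inner_left]
    exact inner_proj_self hU y
  rw [himage, hι.euclideanHausdorffMeasure_image, hvol]
  apply Bornology.IsBounded.measure_lt_top
  have hbd : Bornology.IsBounded (proj v '' K) := by
    have : proj v = projL v := rfl
    rw [this]
    exact (projL v).toContinuousLinearMap.lipschitz.isBounded_image hK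
  rw [isBounded_iff_forall_norm_le] at hbd ⊢
  obtain ⟨C, hC⟩ := hbd
  exact ⟨C, fun y hy => by simpa using hC _ hy⟩

end Main

end Crest.Agent.Lib.TetraFan
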