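import Crest.Agent.Lib.TetraArith

/-!
The total cost of one fan of the tetrahedron cover with `c = 1/100`, `n = 10^6`.
-/

namespace Crest.Agent.Lib.TetraFan

/-- second direction component `p` of a wedge of mid-parameter `y` -/
noncomputable def pp (c Δ y : ℝ) : ℝ := - (c / 2) * (1 / 4 + y ^ 2 - Δ ^ 2 / 4)

/-- squared slope of the cylinder axis of a wedge of mid-parameter `y` -/
noncomputable def ww (c Δ y : ℝ) : ℝ := pp c Δ y ^ 2 + (c * y) ^ 2 / 2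

lemma inv_sqrt_le {w : ℝ} (h0 : 0 ≤ w) (h1 : w ≤ 1 / 1000) :
    1 / Real.sqrt (1 + w) ≤ 1 - (999 / 2000) * w := by
  have hpos : 0 < 1 + w := by linarith
  have hs : 0 < Real.sqrt (1 + w) := Real.sqrt_pos.mpr hpos
  rw [div_le_iff₀ hs]
  have hk : 0 < 1 - (999 / 2000) * w := by linarith
  -- (1 - κ w)^2 (1+w) ≥ 1
  have hsq : 1 ≤ ((1 - (999 / 2000) * w) * Real.sqrt (1 + w)) ^ 2 := by
    rw [mul_pow, Real.sq_sqrt hpos.le]
    nlinarith [mul_nonneg h0 h0, mul_nonneg (mul_nonneg h0 h0) h0]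
  have hnn : 0 ≤ (1 - (999 / 2000) * w) * Real.sqrt (1 + w) := by positivity
  nlinarith

/-- bound of a single term -/
lemma term_le {e w Δ : ℝ} (hΔ : 0 ≤ Δ) (he0 : 0 ≤ e) (he1 : e ≤ 1 / 1000) (hw0 : 0 ≤ w)
    (hw1 : w ≤ 1 / 1000) :
    1 / 2 * (1 + e) ^ 2 * Δ * (1 / Real.sqrt (1 + w))
      ≤ Δ * (1 / 2 + (2001 / 2000) * e - (999 / 4000) * w) := by
  have h1 := inv_sqrt_le hw0 hw1
  have h2 : (1 + e) ^ 2 ≤ 1 + (2001 / 1000) * e := by nlinarith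
  have h3 : 0 ≤ 1 / Real.sqrt (1 + w) := by positivity
  have h4 : (1 + e) ^ 2 * (1 / Real.sqrt (1 + w))
      ≤ (1 + (2001 / 1000) * e) * (1 - (999 / 2000) * w) := by
    apply mul_le_mul h2 h1 h3
    positivity
  have h5 : (1 + (2001 / 1000) * e) * (1 - (999 / 2000) * w)
      ≤ 1 + (2001 / 1000) * e - (999 / 2000) * w := by
    nlinarith [mul_nonneg he0 hw0]
  have h6 := h4.trans h5
  have : 1 / 2 * (1 + e) ^ 2 * Δ * (1 / Real.sqrt (1 + w))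
      = Δ * (1 / 2 * ((1 + e) ^ 2 * (1 / Real.sqrt (1 + w)))) := by ring
  rw [this]
  apply mul_le_mul_of_nonneg_left _ hΔ
  linarith

/-- power sums over an arithmetic progression -/
lemma sum_sq (x d : ℝ) (m : ℕ) :
    ∑ i ∈ Finset.range m, (x + i * d) ^ 2
      = m * x ^ 2 + x * d * (m * (m - 1)) + d ^ 2 * (m * (m - 1) * (2 * m - 1) / 6) := by
  induction m with
  | zero => simp
  | succ k ih =>
    rw [Finset.sum_range_succ, ih]
    push_cast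
    ring

lemma sum_four (x d : ℝ) (m : ℕ) :
    ∑ i ∈ Finset.range m, (x + i * d) ^ 4
      = m * x ^ 4 + 4 * x ^ 3 * d * (m * (m - 1) / 2)
        + 6 * x ^ 2 * d ^ 2 * (m * (m - 1) * (2 * m - 1) / 6)
        + 4 * x * d ^ 3 * (m * (m - 1) / 2) ^ 2
        + d ^ 4 * (m * (m - 1) * (2 * m - 1) * (3 * m ^ 2 - 3 * m - 1) / 30) := by
  induction m with
  | zero => simp
  | succ k ih =>
    rw [Finset.sum_range_succ, ih]
    push_cast
    ring

/-- the mid-parameter of wedge `i` -/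
noncomputable def mid (Δ : ℝ) (i : ℕ) : ℝ := (-1 / 2 + Δ / 2) + i * Δ

lemma abs_mid_le {n : ℕ} {Δ : ℝ} (hΔ : (n : ℝ) * Δ = 1)
    {i : ℕ} (hi : i < n) : |mid Δ i| ≤ 1 / 2 := by
  have h1 : ((i : ℝ) + 1) ≤ n := by exact_mod_cast hi
  have h2 : (0 : ℝ) ≤ i := Nat.cast_nonneg i
  unfold mid
  rw [abs_le]
  constructor
  · nlinarith
  · nlinarith

lemma bound_ee {c Δ y : ℝ} (hy : |y| ≤ 1 / 2) :
    ee c Δ y ≤ E0 c Δ + c ^ 2 / 16 := by
  unfold ee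
  have h1 : y ^ 2 ≤ 1 / 4 := by
    have := abs_le.mp hy
    nlinarith
  have h0 : 0 ≤ y ^ 2 := sq_nonneg y
  have h2 : y ^ 4 ≤ 1 / 16 := by nlinarith
  have : y ^ 4 / 2 + y ^ 2 / 8 ≤ 1 / 16 := by linarith
  have hc : 0 ≤ c ^ 2 := sq_nonneg c
  nlinarith [mul_le_mul_of_nonneg_left this hc]

lemma bound_ww {c Δ y : ℝ} (hy : |y| ≤ 1 / 2) (hΔ : Δ ^ 2 ≤ 1) :
    ww c Δ y ≤ (3 / 16) * c ^ 2 := by
  unfold ww pp
  have h1 : y ^ 2 ≤ 1 / 4 := by
    have := abs_le.mp hy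
    nlinarith
  have h0 : 0 ≤ y ^ 2 := sq_nonneg y
  have hd : 0 ≤ Δ ^ 2 := sq_nonneg Δ
  have h2 : (1 / 4 + y ^ 2 - Δ ^ 2 / 4) ^ 2 ≤ 1 / 4 := by
    have h3 : 0 ≤ 1 / 4 + y ^ 2 - Δ ^ 2 / 4 := by linarith
    have h4 : 1 / 4 + y ^ 2 - Δ ^ 2 / 4 ≤ 1 / 2 := by linarith
    nlinarith
  have hc : 0 ≤ c ^ 2 := sq_nonneg c
  have e : (-(c / 2) * (1 / 4 + y ^ 2 - Δ ^ 2 / 4)) ^ 2 + (c * y) ^ 2 / 2
      = c ^ 2 * ((1 / 4 + y ^ 2 - Δ ^ 2 / 4) ^ 2 / 4 + y ^ 2 / 2) := by ring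
  rw [e]
  have : (1 / 4 + y ^ 2 - Δ ^ 2 / 4) ^ 2 / 4 + y ^ 2 / 2 ≤ 3 / 16 := by linarith
  nlinarith [mul_le_mul_of_nonneg_left this hc]

lemma ww_nonneg (c Δ y : ℝ) : 0 ≤ ww c Δ y := by
  unfold ww; positivity

/-- numerical parameters -/
noncomputable def cc : ℝ := 1 / 100
noncomputable def dd : ℝ := 1 / 10 ^ 6
def nn : ℕ := 10 ^ 6

lemma E0_val : E0 cc dd ≤ 7 / 10 ^ 8 := by
  unfold E0 B0 xi0 cc dd
  norm_num

lemma cc_pos : 0 < cc := by unfold cc; norm_num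
lemma dd_pos : 0 < dd := by unfold dd; norm_num
lemma nn_pos : 0 < nn := by unfold nn; norm_num
lemma nn_dd : (nn : ℝ) * dd = 1 := by unfold nn dd; norm_num

/-- total cost of one fan -/
theorem sum_cost :
    ∑ i ∈ Finset.range nn, (1 / 2 * (1 + ee cc dd (mid dd i)) ^ 2 * dd *
        (1 / Real.sqrt (1 + ww cc dd (mid dd i)))) ≤ 1 / 2 - 3 / 10 ^ 8 := by
  have hterm : ∀ i ∈ Finset.range nn, (1 / 2 * (1 + ee cc dd (mid dd i)) ^ 2 * dd *
        (1 / Real.sqrt (1 + ww cc dd (mid dd i))))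
      ≤ dd * (1 / 2 + (2001 / 2000) * ee cc dd (mid dd i)
          - (999 / 4000) * ww cc dd (mid dd i)) := by
    intro i hi
    have hy := abs_mid_le nn_dd (Finset.mem_range.mp hi)
    apply term_le dd_pos.le (ee_nonneg cc_pos dd_pos)
    · have := bound_ee (c := cc) (Δ := dd) hy
      have h2 := E0_val
      have h3 : cc ^ 2 / 16 ≤ 1 / 10 ^ 4 := by unfold cc; norm_num
      norm_num at *
      linarith
    · exact ww_nonneg _ _ _
    · have := bound_ww (c := cc) (Δ := dd) hy (by unfold dd; norm_num)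
      have h3 : (3 / 16) * cc ^ 2 ≤ 1 / 1000 := by unfold cc; norm_num
      linarith
  refine (Finset.sum_le_sum hterm).trans ?_
  -- expand the summand in powers of the mid-parameter
  have hexp : ∀ i ∈ Finset.range nn, dd * (1 / 2 + (2001 / 2000) * ee cc dd (mid dd i)
          - (999 / 4000) * ww cc dd (mid dd i))
      = dd * (1 / 2 + (2001 / 2000) * E0 cc dd
          - (999 / 4000) * (cc ^ 2 * (1 / 4 - dd ^ 2 / 4) ^ 2 / 4))
        + dd * ((2001 / 2000) * (cc ^ 2 / 8)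
          - (999 / 4000) * (cc ^ 2 * (2 * (1 / 4 - dd ^ 2 / 4)) / 4 + cc ^ 2 / 2)) * (mid dd i) ^ 2
        + dd * ((2001 / 2000) * (cc ^ 2 / 2) - (999 / 4000) * (cc ^ 2 / 4)) * (mid dd i) ^ 4 := by
    intro i _
    unfold ee ww pp
    ring
  rw [Finset.sum_congr rfl hexp, Finset.sum_add_distrib, Finset.sum_add_distrib,
    Finset.sum_const, Finset.card_range, ← Finset.mul_sum, ← Finset.mul_sum]
  have hM2 : ∑ i ∈ Finset.range nn, (mid dd i) ^ 2 = 10 ^ 6 * (1 / 12 - 1 / (12 * 10 ^ 12)) := by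
    unfold mid
    rw [sum_sq]
    unfold nn dd
    norm_num
  have hM4 : ∑ i ∈ Finset.range nn, (mid dd i) ^ 4
      = 10 ^ 6 * (1 / 80 - 1 / (24 * 10 ^ 12) + 7 / (240 * 10 ^ 24)) := by
    unfold mid
    rw [sum_four]
    unfold nn dd
    norm_num
  rw [hM2, hM4]
  have hE := E0_val
  generalize E0 cc dd = X at hE ⊢
  rw [nsmul_eq_mul]
  unfold cc dd nn
  norm_num
  norm_num at hE
  linarith

end Crest.Agent.Lib.TetraFan
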