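import Crest.Agent.S0168
import Crest.Agent.Lib.LpSum

/-!
Finite-height blocks of the global tree potential model, represented on the Hilbert space of the
vertices of height at most `h`.
-/

set_option autoImplicit false
set_option linter.unusedSectionVars false
set_option linter.style.haveILetI false

namespace Crest.Agent.Lib.TreeBlock

open Crest.AnalysisR.TreePotential Crest.Agent.S0168 Filter Topology
open scoped RealInnerProductSpace

/-- Tests of height `h`. -/
def IsBT (h : ℕ) (f : List ℕ → ℝ) : Prop :=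
  IsTest .global f ∧ ∀ v, h < v.length → f v = 0

/-- The type of tests of height `h`. -/
def BT (h : ℕ) : Type := {f : List ℕ → ℝ // IsBT h f}

/-- Vertices of height at most `h`. -/
abbrev V (h : ℕ) : Type := {v : List ℕ // v.length ≤ h}

/-- The Hilbert space on the vertices of height at most `h`. -/
abbrev Hil (h : ℕ) : Type := lp (fun _ : V h => ℝ) 2

/-- The bounded functions on the tests of height `h`. -/
abbrev LinfB (h : ℕ) : Type := lp (fun _ : BT h => ℝ) ⊤

variable {h : ℕ}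

theorem two_toReal_pos : 0 < (2 : ENNReal).toReal := by norm_num

theorem sum_sq_le_of_test {f : List ℕ → ℝ} (hf : IsTest .global f) (A : Finset (V h)) :
    ∑ v ∈ A, f v.1 ^ 2 ≤ 1 := by
  have := hf.2 (A.map (Function.Embedding.subtype _))
  simpa using this

theorem memℓp_restrict {f : List ℕ → ℝ} (hf : IsTest .global f) :
    Memℓp (fun v : V h => f v.1) 2 := by
  apply memℓp_gen
  refine summable_of_sum_le (fun _ => by positivity) (c := 1) fun A => ?_
  have := sum_sq_le_of_test (h := h) hf A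
  simpa using this

/-- A test as a vector of the Hilbert space. -/
noncomputable def hat (T : BT h) : Hil h := ⟨fun v => T.1 v.1, memℓp_restrict T.2.1⟩

@[simp] theorem hat_apply (T : BT h) (v : V h) : hat T v = T.1 v.1 := rfl

theorem norm_hat_le (T : BT h) : ‖hat T‖ ≤ 1 := by
  refine lp.norm_le_of_forall_sum_le two_toReal_pos zero_le_one fun s => ?_
  have := sum_sq_le_of_test (h := h) T.2.1 s
  simpa using this

/-- The pairing of a test with a vector. -/
noncomputable def pair (T : BT h) (ξ : Hil h) : ℝ := inner ℝ (hat T) ξ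

theorem abs_pair_le (T : BT h) (ξ : Hil h) : |pair T ξ| ≤ ‖ξ‖ := by
  refine (abs_real_inner_le_norm _ _).trans ?_
  nlinarith [norm_hat_le T, norm_nonneg ξ]

theorem pair_add (T : BT h) (ξ υ : Hil h) : pair T (ξ + υ) = pair T ξ + pair T υ :=
  inner_add_right _ _ _

theorem pair_sub (T : BT h) (ξ υ : Hil h) : pair T (ξ - υ) = pair T ξ - pair T υ :=
  inner_sub_right _ _ _

theorem pair_smul (T : BT h) (c : ℝ) (ξ : Hil h) : pair T (c • ξ) = c * pair T ξ :=
  real_inner_smul_right _ _ _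

theorem pair_zero (T : BT h) : pair T (0 : Hil h) = 0 := inner_zero_right _

theorem pair_sum {ι : Type*} (T : BT h) (A : Finset ι) (ξ : ι → Hil h) :
    pair T (∑ i ∈ A, ξ i) = ∑ i ∈ A, pair T (ξ i) :=
  inner_sum _ _ _

/-- The embedding of the Hilbert space into the bounded functions on tests. -/
noncomputable def J (h : ℕ) : Hil h →L[ℝ] LinfB h :=
  LinearMap.mkContinuous
    { toFun := fun ξ => ⟨fun T => pair T ξ, memℓp_infty ⟨‖ξ‖, by
        rintro _ ⟨T, rfl⟩
        exact abs_pair_le T ξ⟩⟩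
      map_add' := fun ξ υ => by
        ext T
        simp [pair_add]
      map_smul' := fun c ξ => by
        ext T
        simp [pair_smul] } 1 (fun ξ => by
      rw [one_mul]
      exact lp.norm_le_of_forall_le (norm_nonneg _) fun T => abs_pair_le T ξ)

@[simp] theorem J_apply (ξ : Hil h) (T : BT h) : J h ξ T = pair T ξ := rfl

theorem top_ne_zero' : (⊤ : ENNReal) ≠ 0 := by simp

theorem abs_pair_le_norm (T : BT h) (ξ : Hil h) : |pair T ξ| ≤ ‖J h ξ‖ :=
  lp.norm_apply_le_norm top_ne_zero' (J h ξ) T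

theorem pair_le_norm (T : BT h) (ξ : Hil h) : pair T ξ ≤ ‖J h ξ‖ :=
  (le_abs_self _).trans (abs_pair_le_norm T ξ)

theorem norm_J_le_norm (ξ : Hil h) : ‖J h ξ‖ ≤ ‖ξ‖ :=
  lp.norm_le_of_forall_le (norm_nonneg _) fun T => abs_pair_le T ξ

theorem norm_J_le {ξ : Hil h} {C : ℝ} (hC : 0 ≤ C) (hb : ∀ T : BT h, |pair T ξ| ≤ C) :
    ‖J h ξ‖ ≤ C :=
  lp.norm_le_of_forall_le hC hb

/-- The negative of a test. -/
def negB (T : BT h) : BT h :=
  ⟨fun v => - T.1 v, neg_isTest T.2.1, fun v hv => by simp [T.2.2 v hv]⟩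

theorem hat_negB (T : BT h) : hat (negB T) = - hat T := by
  ext v
  simp [negB]

theorem pair_negB (T : BT h) (ξ : Hil h) : pair (negB T) ξ = - pair T ξ := by
  simp [pair, hat_negB]

theorem zero_isBT (h : ℕ) : IsBT h (fun _ => 0) := ⟨zero_isTest _, fun _ _ => rfl⟩

theorem exists_near_norm (ξ : Hil h) {ε : ℝ} (hε : 0 < ε) : ∃ T : BT h, ‖J h ξ‖ - ε ≤ pair T ξ := by
  by_contra hcon
  push Not at hcon
  have h0 : BT h := ⟨_, zero_isBT h⟩
  have hpos : 0 < ‖J h ξ‖ - ε := by
    have h1 := hcon h0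
    have h2 := hcon (negB h0)
    rw [pair_negB] at h2
    linarith
  have : ‖J h ξ‖ ≤ ‖J h ξ‖ - ε := by
    refine norm_J_le hpos.le fun T => ?_
    rw [abs_le]
    have h1 := hcon T
    have h2 := hcon (negB T)
    rw [pair_negB] at h2
    constructor <;> linarith
  linarith

/-! ### The lower estimate -/

open Classical in
/-- The normalized extension of a vector. -/
noncomputable def nt (ξ : Hil h) (c : ℝ) (v : List ℕ) : ℝ :=
  if hv : v.length ≤ h then ξ ⟨v, hv⟩ * c else 0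

theorem abs_apply_le (ξ : Hil h) (v : V h) : |ξ v| ≤ ‖ξ‖ :=
  lp.norm_apply_le_norm (by norm_num) ξ v

theorem abs_nt_le (ξ : Hil h) {c : ℝ} (hc : 0 ≤ c) (v : List ℕ) : |nt ξ c v| ≤ ‖ξ‖ * c := by
  unfold nt
  split_ifs with hv
  · rw [abs_mul, abs_of_nonneg hc]
    exact mul_le_mul_of_nonneg_right (abs_apply_le ξ _) hc
  · rw [abs_zero]
    positivity

theorem abs_pot_nt_le (ξ : Hil h) {c : ℝ} (hc : 0 ≤ c) (v : List ℕ) :
    |pathPotential (nt ξ c) v| ≤ ((min v.length h : ℕ) + 1) * (‖ξ‖ * c) := by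
  have hκ : 0 ≤ ‖ξ‖ * c := by positivity
  induction v with
  | nil =>
    simp only [pathPotential, List.length_nil]
    rw [Nat.zero_min]
    simpa using abs_nt_le ξ hc []
  | cons a v ih =>
    simp only [pathPotential, List.length_cons]
    refine (abs_add_le _ _).trans ?_
    by_cases hv : v.length + 1 ≤ h
    · have e1 : min (v.length + 1) h = v.length + 1 := min_eq_left hv
      have e2 : min v.length h = v.length := min_eq_left (by omega)
      rw [e1]
      rw [e2] at ih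
      have := abs_nt_le ξ hc (a :: v)
      push_cast
      nlinarith
    · have e1 : min (v.length + 1) h = h := min_eq_right (by omega)
      have e2 : min v.length h = h := min_eq_right (by omega)
      rw [e1]
      rw [e2] at ih
      have : nt ξ c (a :: v) = 0 := by
        simp only [nt]
        rw [dif_neg]
        simpa using hv
      rw [this, abs_zero, add_zero]
      exact ih

theorem sum_sq_nt_le (ξ : Hil h) {c : ℝ} (hc1 : ‖ξ‖ * c ≤ 1) (hc : 0 ≤ c) (A : Finset (List ℕ)) :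
    ∑ u ∈ A, nt ξ c u ^ 2 ≤ 1 := by
  classical
  have e : ∑ u ∈ A, nt ξ c u ^ 2 =
      ∑ u ∈ A.filter (fun u => u.length ≤ h), nt ξ c u ^ 2 := by
    refine (Finset.sum_filter_of_ne fun u _ hu => ?_).symm
    by_contra hlen
    apply hu
    simp [nt, hlen]
  rw [e, ← Finset.sum_subtype_eq_sum_filter (fun u => nt ξ c u ^ 2)]
  have h1 : ∀ u ∈ A.subtype (fun u : List ℕ => u.length ≤ h), nt ξ c u.1 ^ 2 = ξ u ^ 2 * c ^ 2 := by
    intro u _
    have : u.1.length ≤ h := u.2
    simp only [nt, this, dite_true, Subtype.coe_eta]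
    ring
  rw [Finset.sum_congr rfl h1, ← Finset.sum_mul]
  have h2 := lp.sum_rpow_le_norm_rpow two_toReal_pos ξ (A.subtype (fun u : List ℕ => u.length ≤ h))
  have h3 : ∑ i ∈ A.subtype (fun u : List ℕ => u.length ≤ h), ξ i ^ 2 ≤ ‖ξ‖ ^ 2 := by
    simpa using h2
  calc _ ≤ ‖ξ‖ ^ 2 * c ^ 2 := mul_le_mul_of_nonneg_right h3 (by positivity)
    _ = (‖ξ‖ * c) ^ 2 := by ring
    _ ≤ 1 := by
      have : 0 ≤ ‖ξ‖ * c := by positivity
      nlinarith

theorem nt_isBT (ξ : Hil h) (hξ : ξ ≠ 0) :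
    IsBT h (nt ξ (1 / ((h + 1) * ‖ξ‖))) := by
  have hn : 0 < ‖ξ‖ := norm_pos_iff.mpr hξ
  have hh : (0 : ℝ) < h + 1 := by positivity
  set c : ℝ := 1 / ((h + 1) * ‖ξ‖) with hc
  have hc0 : 0 ≤ c := by positivity
  have hκ : ‖ξ‖ * c = 1 / (h + 1) := by
    rw [hc]
    field_simp
  have hκ1 : ‖ξ‖ * c ≤ 1 := by
    rw [hκ, div_le_one hh]
    have : (0 : ℝ) ≤ h := by positivity
    linarith
  refine ⟨⟨fun v => ?_, sum_sq_nt_le ξ hκ1 hc0⟩, fun v hv => ?_⟩
  · refine (abs_pot_nt_le ξ hc0 v).trans ?_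
    rw [hκ]
    have h1 : ((min v.length h : ℕ) : ℝ) ≤ h := by
      exact_mod_cast min_le_right _ _
    rw [mul_one_div, div_le_one hh]
    linarith
  · simp only [nt]
    rw [dif_neg]
    omega

theorem le_norm_J (ξ : Hil h) : ‖ξ‖ ≤ (h + 1) * ‖J h ξ‖ := by
  by_cases hξ : ξ = 0
  · subst hξ
    simp
  have hn : 0 < ‖ξ‖ := norm_pos_iff.mpr hξ
  have hh : (0 : ℝ) < h + 1 := by positivity
  set c : ℝ := 1 / ((h + 1) * ‖ξ‖) with hc
  let T : BT h := ⟨_, nt_isBT ξ hξ⟩
  have e : hat T = c • ξ := by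
    ext v
    have hv : v.1.length ≤ h := v.2
    have e1 : T.1 v.1 = ξ v * c := by simp only [T, nt, hv, dite_true, Subtype.coe_eta, hc]
    simp only [hat_apply, lp.coeFn_smul, Pi.smul_apply, smul_eq_mul, e1]
    ring
  have h1 : pair T ξ = c * ‖ξ‖ ^ 2 := by
    rw [pair, e, real_inner_smul_left, real_inner_self_eq_norm_sq]
  have h2 := pair_le_norm T ξ
  rw [h1, hc] at h2
  have h3 : 1 / ((h + 1) * ‖ξ‖) * ‖ξ‖ ^ 2 = ‖ξ‖ / (h + 1) := by
    field_simp
  rw [h3, div_le_iff₀ hh] at h2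
  linarith

/-! ### The block space -/

/-- The block space of height `h`. -/
abbrev X (h : ℕ) : Type := ↥(LinearMap.range (J h : Hil h →ₗ[ℝ] LinfB h))

theorem J_injective (h : ℕ) : Function.Injective (J h : Hil h →ₗ[ℝ] LinfB h) := by
  intro ξ υ e
  have e' : J h ξ = J h υ := e
  have : J h (ξ - υ) = 0 := by rw [map_sub, e', sub_self]
  have h1 := le_norm_J (ξ - υ)
  rw [this, norm_zero, mul_zero] at h1
  exact sub_eq_zero.mp (norm_le_zero_iff.mp h1)

/-- The bijection of the Hilbert space and the block. -/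
noncomputable def Jlin (h : ℕ) : Hil h ≃ₗ[ℝ] X h :=
  LinearEquiv.ofInjective (J h : Hil h →ₗ[ℝ] LinfB h) (J_injective h)

@[simp] theorem coe_Jlin (ξ : Hil h) : ((Jlin h ξ : X h) : LinfB h) = J h ξ := rfl

theorem norm_Jlin (ξ : Hil h) : ‖(Jlin h ξ : X h)‖ = ‖J h ξ‖ := rfl

/-- The block is isomorphic to the Hilbert space. -/
noncomputable def Je (h : ℕ) : Hil h ≃L[ℝ] X h :=
  (Jlin h).toContinuousLinearEquivOfBounds 1 (h + 1)
    (fun ξ => by
      rw [norm_Jlin, one_mul]
      exact norm_J_le_norm ξ)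
    (fun x => by
      obtain ⟨ξ, rfl⟩ := (Jlin h).surjective x
      rw [LinearEquiv.symm_apply_apply, norm_Jlin]
      exact le_norm_J ξ)

@[simp] theorem Je_apply (ξ : Hil h) : Je h ξ = Jlin h ξ := rfl

theorem norm_Je (ξ : Hil h) : ‖Je h ξ‖ = ‖J h ξ‖ := rfl

theorem isClosed_range_J (h : ℕ) :
    IsClosed ((LinearMap.range (J h : Hil h →ₗ[ℝ] LinfB h) : Submodule ℝ (LinfB h)) : Set (LinfB h)) := by
  have anti : AntilipschitzWith (h + 1 : NNReal) (J h) :=
    AddMonoidHomClass.antilipschitz_of_bound (J h) fun ξ => by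
      have := le_norm_J ξ
      simpa using this
  exact anti.isClosed_range (J h).uniformContinuous

instance instCompleteX (h : ℕ) : CompleteSpace (X h) :=
  (isClosed_range_J h).completeSpace_coe

/-! ### Combination of block tests -/

theorem isBT_combined {f g : List ℕ → ℝ} (hf : IsBT h f) (hg : IsBT h g) {a b : ℝ} (ha : 0 ≤ a)
    (hb : 0 ≤ b) (hab : a ^ 2 + b ^ 2 ≤ 1) {R : Finset (List ℕ)} (hR0 : [] ∈ R)
    (hR : ∀ (c : ℕ) (w : List ℕ), c :: w ∈ R → w ∈ R) {s : ℝ} (hs : |s| = 1) :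
    IsBT h (ofPot (Pot f g a b R s)) := by
  have ha1 : a ≤ 1 := by nlinarith [sq_nonneg b]
  have hb1 : b ≤ 1 := by nlinarith [sq_nonneg a]
  refine ⟨⟨fun v => ?_, ?_⟩, fun v hv => ?_⟩
  · rw [pathPotential_ofPot]
    exact abs_Pot_le hf.1.1 hg.1.1 ha ha1 hb hb1 hs v
  · exact extra_combine ha hb hab hf.1.2 hg.1.2 hR0 (fun v hv => ofPot_of_mem hR hv)
      (fun v hv => abs_ofPot_of_notMem hb hs hv hR0)
  · by_cases hvR : v ∈ R
    · rw [ofPot_of_mem hR hvR, hf.2 v hv, mul_zero]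
    · have := abs_ofPot_of_notMem (f := f) (g := g) (a := a) hb hs hvR hR0
      rw [hg.2 v hv] at this
      simpa using this

theorem inner_eq_zero_of_pointwise (u w : Hil h) (hyp : ∀ v, u v = 0 ∨ w v = 0) :
    inner ℝ u w = 0 := by
  rw [lp.inner_eq_tsum]
  have : ∀ v, inner ℝ (u v) (w v) = 0 := by
    intro v
    rcases hyp v with h1 | h1 <;> simp [h1]
  rw [tsum_congr this, tsum_zero]

/-- The midpoint estimate in a block. -/
theorem block_midpoint (ξ : Hil h) {ε : ℝ} (hε : 0 < ε) :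
    ∃ R : Finset (V h), ∀ υ : Hil h, (∀ r ∈ R, υ r = 0) → ∀ a b : ℝ, 0 ≤ a → 0 ≤ b →
      a ^ 2 + b ^ 2 ≤ 1 →
      a * ‖J h ξ‖ + b / 2 * ‖J h υ‖ - ε ≤ (‖J h (ξ + υ)‖ + ‖J h (ξ - υ)‖) / 2 := by
  classical
  set ε₁ := ε / 4 with hε₁
  have hε₁pos : 0 < ε₁ := by positivity
  -- finite approximation
  have hs := lp.hasSum_single (E := fun _ : V h => ℝ) (p := 2) (by simp) ξ
  obtain ⟨A, hA⟩ := (hs.eventually (Metric.ball_mem_nhds ξ hε₁pos)).exists
  set ξ' : Hil h := ∑ v ∈ A, lp.single 2 v (ξ v) with hξ'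
  have hξ'off : ∀ v, v ∉ A → ξ' v = 0 := by
    intro v hv
    rw [hξ', lp.coeFn_sum, Finset.sum_apply]
    refine Finset.sum_eq_zero fun u hu => ?_
    exact lp.single_apply_ne _ _ _ (fun e => hv (e ▸ hu))
  have hclose : ‖ξ - ξ'‖ < ε₁ := by
    have := Metric.mem_ball.mp hA
    rwa [dist_comm, dist_eq_norm] at this
  -- the finite set
  set R' : Finset (List ℕ) := insert [] (A.biUnion fun s => s.1.tails.toFinset) with hR'
  have hR0 : ([] : List ℕ) ∈ R' := Finset.mem_insert_self _ _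
  have hRsuff : ∀ (d : ℕ) (w : List ℕ), d :: w ∈ R' → w ∈ R' := by
    intro d w hmem
    rw [hR', Finset.mem_insert] at hmem
    rcases hmem with hmem | hmem
    · cases hmem
    · obtain ⟨s, hs, hd⟩ := Finset.mem_biUnion.mp hmem
      rw [hR']
      refine Finset.mem_insert_of_mem (Finset.mem_biUnion.mpr ⟨s, hs, ?_⟩)
      rw [List.mem_toFinset, List.mem_tails] at hd ⊢
      exact (List.suffix_cons d w).trans hd
  have hRA : ∀ s ∈ A, s.1 ∈ R' := by
    intro s hs
    rw [hR']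
    refine Finset.mem_insert_of_mem (Finset.mem_biUnion.mpr ⟨s, hs, ?_⟩)
    rw [List.mem_toFinset, List.mem_tails]
  refine ⟨R'.subtype (fun u : List ℕ => u.length ≤ h), fun υ hυ a b ha hb hab => ?_⟩
  have hυ' : ∀ v : V h, v.1 ∈ R' → υ v = 0 := fun v hv => hυ v (Finset.mem_subtype.mpr hv)
  have ha1 : a ≤ 1 := by nlinarith [sq_nonneg b]
  have hb1 : b ≤ 1 := by nlinarith [sq_nonneg a]
  obtain ⟨f, hf⟩ := exists_near_norm ξ' hε₁pos
  obtain ⟨g, hg⟩ := exists_near_norm υ hε₁pos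
  let T₁ : BT h := ⟨_, isBT_combined f.2 g.2 ha hb hab hR0 hRsuff (s := 1) (by simp)⟩
  let T₂ : BT h := ⟨_, isBT_combined f.2 g.2 ha hb hab hR0 hRsuff (s := -1) (by simp)⟩
  have hT₁ : ∀ v ∈ R', T₁.1 v = a * f.1 v := fun v hv => ofPot_of_mem hRsuff hv
  have hT₂ : ∀ v ∈ R', T₂.1 v = a * f.1 v := fun v hv => ofPot_of_mem hRsuff hv
  have hT₁₂ : ∀ v, v ∉ R' → T₁.1 v - T₂.1 v = b * g.1 v := fun v hv => ofPot_sub_of_notMem hv hR0
  -- the relation on `υ`
  have hrel : pair T₁ υ - pair T₂ υ = b * pair g υ := by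
    have : inner ℝ (hat T₁ - hat T₂ - b • hat g) υ = 0 := by
      refine inner_eq_zero_of_pointwise _ _ fun v => ?_
      by_cases hv : v.1 ∈ R'
      · exact Or.inr (hυ' v hv)
      · refine Or.inl ?_
        have := hT₁₂ v.1 hv
        simp only [lp.coeFn_sub, lp.coeFn_smul, Pi.sub_apply, Pi.smul_apply, hat_apply, smul_eq_mul]
        linarith
    rw [inner_sub_left, inner_sub_left, real_inner_smul_left] at this
    simp only [pair]
    linarith
  -- the values on `ξ'`
  have hval : ∀ T : BT h, (∀ v ∈ R', T.1 v = a * f.1 v) → pair T ξ' = a * pair f ξ' := by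
    intro T hT
    have : inner ℝ (hat T - a • hat f) ξ' = 0 := by
      refine inner_eq_zero_of_pointwise _ _ fun v => ?_
      by_cases hv : v.1 ∈ R'
      · refine Or.inl ?_
        have := hT v.1 hv
        simp only [lp.coeFn_sub, lp.coeFn_smul, Pi.sub_apply, Pi.smul_apply, hat_apply, smul_eq_mul]
        linarith
      · exact Or.inr (hξ'off v fun hvA => hv (hRA v hvA))
    rw [inner_sub_left, real_inner_smul_left] at this
    simp only [pair]
    linarith
  have hnormξ' : ‖J h ξ‖ - ε₁ ≤ ‖J h ξ'‖ := by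
    have h1 : ‖J h ξ‖ ≤ ‖J h ξ'‖ + ‖J h (ξ - ξ')‖ := by
      have := norm_add_le (J h ξ') (J h (ξ - ξ'))
      rw [← map_add] at this
      simpa using this
    have h2 := norm_J_le_norm (ξ - ξ')
    linarith
  have hval2 : ∀ T : BT h, (∀ v ∈ R', T.1 v = a * f.1 v) →
      a * (‖J h ξ‖ - 2 * ε₁) - ε₁ ≤ pair T ξ := by
    intro T hT
    have h1 := hval T hT
    have h2 : pair T ξ' - pair T ξ ≤ ε₁ := by
      have e : pair T ξ' - pair T ξ = - pair T (ξ - ξ') := by
        rw [pair_sub]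
        ring
      rw [e]
      have := abs_pair_le T (ξ - ξ')
      have h3 := neg_abs_le (pair T (ξ - ξ'))
      linarith
    have h3 : a * (‖J h ξ‖ - 2 * ε₁) ≤ a * pair f ξ' :=
      mul_le_mul_of_nonneg_left (by linarith) ha
    linarith
  have hv1 := hval2 T₁ hT₁
  have hv2 := hval2 T₂ hT₂
  have hn1 : pair T₁ ξ + pair T₁ υ ≤ ‖J h (ξ + υ)‖ := by
    rw [← pair_add]
    exact pair_le_norm _ _
  have hn2 : pair T₂ ξ - pair T₂ υ ≤ ‖J h (ξ - υ)‖ := by
    rw [← pair_sub]
    exact pair_le_norm _ _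
  have hbg : b * (‖J h υ‖ - ε₁) ≤ b * pair g υ := mul_le_mul_of_nonneg_left hg hb
  have e1 : a * ε₁ ≤ ε₁ := by nlinarith
  have e2 : b * ε₁ ≤ ε₁ := by nlinarith
  have e3 : ε = 4 * ε₁ := by
    rw [hε₁]
    ring
  nlinarith

theorem blockMid_X (h : ℕ) : Crest.Agent.Lib.LpSum.BlockMid (X h) := by
  classical
  intro x ε hε
  obtain ⟨ξ, rfl⟩ := (Je h).surjective x
  obtain ⟨R, hR⟩ := block_midpoint ξ hε
  refine ⟨R.image fun r => (lp.evalCLM ℝ (fun _ : V h => ℝ) 2 r).comp ((Je h).symm : X h →L[ℝ] Hil h),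
    fun y hy a b ha hb hab => ?_⟩
  obtain ⟨υ, rfl⟩ := (Je h).surjective y
  have hυ : ∀ r ∈ R, υ r = 0 := by
    intro r hr
    have := hy _ (Finset.mem_image_of_mem _ hr)
    change lp.evalCLM ℝ (fun _ : V h => ℝ) 2 r ((Je h).symm (Je h υ)) = 0 at this
    rw [(Je h).symm_apply_apply] at this
    exact this
  have := hR υ hυ a b ha hb hab
  rw [← map_add, ← map_sub, norm_Je, norm_Je, norm_Je, norm_Je]
  exact this

/-! ### Reflexivity and separability of a block -/

theorem reflexive_X (h : ℕ) :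
    Function.Surjective (NormedSpace.inclusionInDoubleDual ℝ (X h)) :=
  Crest.Agent.Lib.LpSum.reflexive_of_equiv (Je h) (Crest.Agent.Lib.LpSum.hilbert_reflexive _)

instance instSepHil (h : ℕ) : TopologicalSpace.SeparableSpace (Hil h) :=
  Crest.Agent.Lib.LpSum.lp_separable

instance instSepX (h : ℕ) : TopologicalSpace.SeparableSpace (X h) :=
  (Je h).surjective.denseRange.separableSpace (Je h).continuous

/-! ### Chains -/

open Classical in
/-- The coordinate vector of a vertex. -/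
noncomputable def coordH (h : ℕ) (s : List ℕ) : Hil h :=
  if hs : s.length ≤ h then lp.single 2 ⟨s, hs⟩ 1 else 0

theorem pair_coordH (T : BT h) (s : List ℕ) : pair T (coordH h s) = T.1 s := by
  classical
  unfold coordH
  split_ifs with hs
  · simp [pair, lp.inner_single_right]
  · rw [pair_zero, T.2.2 s (not_le.mp hs)]

/-- The potential vector of a vertex. -/
noncomputable def zeta (h : ℕ) : List ℕ → Hil h
  | [] => coordH h []
  | a :: v => zeta h v + coordH h (a :: v)

theorem pair_zeta (T : BT h) (v : List ℕ) : pair T (zeta h v) = pathPotential T.1 v := by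
  induction v with
  | nil => exact pair_coordH T []
  | cons a v ih => rw [zeta, pair_add, ih, pair_coordH, pathPotential]

theorem norm_J_zeta_le (h : ℕ) (v : List ℕ) : ‖J h (zeta h v)‖ ≤ 1 :=
  norm_J_le zero_le_one fun T => by
    rw [pair_zeta]
    exact T.2.1.1 v

/-- The test of a single vertex. -/
noncomputable def deltaB {s : List ℕ} (hs : s.length ≤ h) : BT h :=
  ⟨delta s, delta_isTest (m := .global) (fun h' => nomatch h'), fun v hv => by
    have : v ≠ s := by
      rintro rfl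
      omega
    simp [delta, this]⟩

theorem one_le_norm_J_zeta {v : List ℕ} (hv : v.length ≤ h) : 1 ≤ ‖J h (zeta h v)‖ := by
  have := pair_le_norm (deltaB hv) (zeta h v)
  rw [pair_zeta] at this
  have e : pathPotential (deltaB hv).1 v = 1 := by
    change pathPotential (delta v) v = 1
    rw [pathPotential_delta]
    simp
  rwa [e] at this

theorem one_le_norm_J_coordH {s : List ℕ} (hs : s.length ≤ h) : 1 ≤ ‖J h (coordH h s)‖ := by
  have := pair_le_norm (deltaB hs) (coordH h s)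
  rw [pair_coordH] at this
  have e : (deltaB hs).1 s = 1 := by
    change delta s s = 1
    simp [delta]
  rwa [e] at this

theorem zeta_cons_sub (h a : ℕ) (v : List ℕ) : zeta h (a :: v) - zeta h v = coordH h (a :: v) := by
  simp [zeta]

theorem norm_J_coordH_cons_le (h a : ℕ) (v : List ℕ) : ‖J h (coordH h (a :: v))‖ ≤ 2 := by
  rw [← zeta_cons_sub, map_sub]
  have h1 := norm_sub_le (J h (zeta h (a :: v))) (J h (zeta h v))
  have h2 := norm_J_zeta_le h (a :: v)
  have h3 := norm_J_zeta_le h v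
  linarith

/-- The Cesàro estimate for the coordinates of the children of a vertex. -/
theorem norm_J_avg_le (h : ℕ) (v : List ℕ) (φ : ℕ → ℕ) (hφ : Function.Injective φ) (n : ℕ) :
    ‖J h ((n : ℝ)⁻¹ • ∑ i ∈ Finset.range n, coordH h (φ i :: v))‖ ≤ (Real.sqrt n)⁻¹ := by
  refine norm_J_le (by positivity) fun T => ?_
  have e : pair T ((n : ℝ)⁻¹ • ∑ i ∈ Finset.range n, coordH h (φ i :: v)) =
      (n : ℝ)⁻¹ * ∑ i ∈ Finset.range n, T.1 (φ i :: v) := by
    rw [pair_smul, pair_sum]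
    simp only [pair_coordH]
  rw [e, abs_mul]
  rcases Nat.eq_zero_or_pos n with rfl | hn
  · simp
  have hnpos : (0 : ℝ) < n := by exact_mod_cast hn
  have hs : 0 < Real.sqrt n := Real.sqrt_pos.mpr hnpos
  have h1 : (∑ i ∈ Finset.range n, T.1 (φ i :: v)) ^ 2 ≤ n := by
    have h2 := sq_sum_le_card_mul_sum_sq (s := Finset.range n) (f := fun i => T.1 (φ i :: v))
    have h3 := children_sq_le T.2.1 v φ hφ n
    rw [Finset.card_range] at h2
    nlinarith
  have h4 : |∑ i ∈ Finset.range n, T.1 (φ i :: v)| ≤ Real.sqrt n := Real.abs_le_sqrt h1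
  rw [abs_of_pos (by positivity : (0 : ℝ) < (n : ℝ)⁻¹)]
  calc (n : ℝ)⁻¹ * |∑ i ∈ Finset.range n, T.1 (φ i :: v)| ≤ (n : ℝ)⁻¹ * Real.sqrt n :=
        mul_le_mul_of_nonneg_left h4 (by positivity)
    _ = (Real.sqrt n)⁻¹ := by
        have h5 : (Real.sqrt n) ^ 2 = n := Real.sq_sqrt hnpos.le
        field_simp
        linarith

end Crest.Agent.Lib.TreeBlock
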