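import Crest.Prelude.Def_TreePotentials
import Crest.Agent.Lib.AUCTree

/-! Combinatorics of bounded tree potentials: mixing two tests. -/

set_option autoImplicit false

namespace Crest.Agent.Lib.TreePot

open Crest.AnalysisR Crest.AnalysisR.TreePotential

/-- Increments of a potential. -/
def incr (Q : List ℕ → ℝ) : List ℕ → ℝ
  | [] => Q []
  | a :: v => Q (a :: v) - Q v

lemma pot_incr (Q : List ℕ → ℝ) (v : List ℕ) : pathPotential (incr Q) v = Q v := by
  induction v with
  | nil => rfl
  | cons a v ih => simp [pathPotential, incr, ih]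

variable (S : Finset (List ℕ))

/-- Restriction of a coefficient family to `S`. -/
noncomputable def restr (f : List ℕ → ℝ) : List ℕ → ℝ := fun u => by
  classical exact if u ∈ S then f u else 0

/-- Restriction of a coefficient family to the complement of `S`. -/
noncomputable def corestr (g : List ℕ → ℝ) : List ℕ → ℝ := fun u => by
  classical exact if u ∈ S then 0 else g u

lemma restr_mem {f : List ℕ → ℝ} {u : List ℕ} (h : u ∈ S) : restr S f u = f u := by
  simp [restr, h]

lemma restr_not {f : List ℕ → ℝ} {u : List ℕ} (h : u ∉ S) : restr S f u = 0 := by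
  simp [restr, h]

lemma corestr_mem {f : List ℕ → ℝ} {u : List ℕ} (h : u ∈ S) : corestr S f u = 0 := by
  simp [corestr, h]

lemma corestr_not {f : List ℕ → ℝ} {u : List ℕ} (h : u ∉ S) : corestr S f u = f u := by
  simp [corestr, h]

variable {S}

lemma pot_restr_mem (hS0 : [] ∈ S) (hSc : ∀ a v, a :: v ∈ S → v ∈ S) (f : List ℕ → ℝ) {v : List ℕ}
    (hv : v ∈ S) : pathPotential (restr S f) v = pathPotential f v := by
  induction v with
  | nil => simp [pathPotential, restr_mem S hS0]
  | cons a v ih =>
    simp only [pathPotential]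
    rw [ih (hSc _ _ hv), restr_mem S hv]

lemma pot_restr_bound (hS0 : [] ∈ S) (hSc : ∀ a v, a :: v ∈ S → v ∈ S) {f : List ℕ → ℝ}
    (hf : ∀ s, |pathPotential f s| ≤ 1) (v : List ℕ) : |pathPotential (restr S f) v| ≤ 1 := by
  induction v with
  | nil => rw [pot_restr_mem hS0 hSc f hS0]; exact hf _
  | cons a v ih =>
    by_cases hv : a :: v ∈ S
    · rw [pot_restr_mem hS0 hSc f hv]; exact hf _
    · simp only [pathPotential]
      rw [restr_not S hv, add_zero]
      exact ih

lemma pot_corestr_mem (hS0 : [] ∈ S) (hSc : ∀ a v, a :: v ∈ S → v ∈ S) (f : List ℕ → ℝ) {v : List ℕ}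
    (hv : v ∈ S) : pathPotential (corestr S f) v = 0 := by
  induction v with
  | nil => simp [pathPotential, corestr_mem S hS0]
  | cons a v ih =>
    simp only [pathPotential]
    rw [ih (hSc _ _ hv), corestr_mem S hv, add_zero]

lemma pot_add_restr (f : List ℕ → ℝ) (v : List ℕ) :
    pathPotential (restr S f) v + pathPotential (corestr S f) v = pathPotential f v := by
  induction v with
  | nil =>
    simp only [pathPotential]
    by_cases h : [] ∈ S
    · rw [restr_mem S h, corestr_mem S h, add_zero]
    · rw [restr_not S h, corestr_not S h, zero_add]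
  | cons a v ih =>
    simp only [pathPotential]
    rw [← ih]
    by_cases h : a :: v ∈ S
    · rw [restr_mem S h, corestr_mem S h]; ring
    · rw [restr_not S h, corestr_not S h]; ring

lemma pot_corestr_bound (hS0 : [] ∈ S) (hSc : ∀ a v, a :: v ∈ S → v ∈ S) {f : List ℕ → ℝ}
    (hf : ∀ s, |pathPotential f s| ≤ 1) (v : List ℕ) : |pathPotential (corestr S f) v| ≤ 2 := by
  have h1 := pot_restr_bound hS0 hSc hf v
  have h2 := hf v
  rw [← pot_add_restr (S := S) f v] at h2
  rw [abs_le] at h1 h2 ⊢
  constructor <;> linarith [h1.1, h1.2, h2.1, h2.2]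

/-- The part of the exit-potential correction going to the first test. -/
noncomputable def psiP (p r : ℝ) : ℝ := if 0 ≤ p then min r 0 else max r 0

/-- The part of the exit-potential correction going to the second test. -/
noncomputable def psiM (p r : ℝ) : ℝ := if 0 ≤ p then max r 0 else min r 0

lemma psi_add (p r : ℝ) : psiP p r + psiM p r = r := by
  unfold psiP psiM
  split_ifs
  · rw [min_add_max]; ring
  · rw [add_comm, min_add_max]; ring

lemma min0_lip (r r' : ℝ) : |min r 0 - min r' 0| ≤ |r - r'| := by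
  rcases le_total r 0 with h | h <;> rcases le_total r' 0 with h' | h' <;>
    simp only [min_eq_left, min_eq_right, h, h', sub_self, abs_zero, abs_nonneg, sub_zero, zero_sub,
      abs_neg, le_refl]
  · rw [abs_le]
    constructor <;> cases abs_cases (r - r') <;> cases abs_cases r <;> linarith
  · rw [abs_le]
    constructor <;> cases abs_cases (r - r') <;> cases abs_cases r' <;> linarith

lemma max0_lip (r r' : ℝ) : |max r 0 - max r' 0| ≤ |r - r'| := by
  rcases le_total r 0 with h | h <;> rcases le_total r' 0 with h' | h' <;>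
    simp only [max_eq_left, max_eq_right, h, h', sub_self, abs_zero, abs_nonneg, sub_zero, zero_sub,
      abs_neg, le_refl]
  · rw [abs_le]
    constructor <;> cases abs_cases (r - r') <;> cases abs_cases r' <;> linarith
  · rw [abs_le]
    constructor <;> cases abs_cases (r - r') <;> cases abs_cases r <;> linarith

lemma psiP_lip (p r r' : ℝ) : |psiP p r - psiP p r'| ≤ |r - r'| := by
  unfold psiP
  split_ifs
  · exact min0_lip _ _
  · exact max0_lip _ _

lemma psiM_lip (p r r' : ℝ) : |psiM p r - psiM p r'| ≤ |r - r'| := by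
  unfold psiM
  split_ifs
  · exact max0_lip _ _
  · exact min0_lip _ _

lemma psiP_zero (p : ℝ) : psiP p 0 = 0 := by
  unfold psiP
  split_ifs <;> simp

lemma psiM_zero (p : ℝ) : psiM p 0 = 0 := by
  unfold psiM
  split_ifs <;> simp

variable (S)

/-- First mixed potential. -/
noncomputable def Qp (a b : ℝ) (f g : List ℕ → ℝ) (v : List ℕ) : ℝ :=
  a * pathPotential (restr S f) v
    + b * psiP (pathPotential (restr S f) v) (pathPotential (corestr S g) v)

/-- Second mixed potential. -/
noncomputable def Qm (a b : ℝ) (f g : List ℕ → ℝ) (v : List ℕ) : ℝ :=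
  a * pathPotential (restr S f) v
    - b * psiM (pathPotential (restr S f) v) (pathPotential (corestr S g) v)

variable {S}

lemma Q_bound (hS0 : [] ∈ S) (hSc : ∀ a v, a :: v ∈ S → v ∈ S) {f g : List ℕ → ℝ}
    (hf : ∀ s, |pathPotential f s| ≤ 1) (hg : ∀ s, |pathPotential g s| ≤ 1)
    {a b : ℝ} (ha0 : 0 ≤ a) (ha1 : a ≤ 1) (hb0 : 0 ≤ b) (hb1 : b ≤ 1 / 2) (v : List ℕ) :
    |Qp S a b f g v| ≤ 1 ∧ |Qm S a b f g v| ≤ 1 := by
  have hp := pot_restr_bound hS0 hSc hf v
  have hr := pot_corestr_bound hS0 hSc hg v
  unfold Qp Qm psiP psiM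
  set p := pathPotential (restr S f) v
  set r := pathPotential (corestr S g) v
  rw [abs_le] at hp hr
  obtain ⟨hp1, hp2⟩ := hp
  obtain ⟨hr1, hr2⟩ := hr
  have hmin1 : -2 ≤ min r 0 := le_min hr1 (by norm_num)
  have hmin2 : min r 0 ≤ 0 := min_le_right _ _
  have hmax1 : 0 ≤ max r 0 := le_max_right _ _
  have hmax2 : max r 0 ≤ 2 := max_le hr2 (by norm_num)
  have hbm1 : -1 ≤ b * min r 0 := by nlinarith
  have hbm2 : b * min r 0 ≤ 0 := mul_nonpos_of_nonneg_of_nonpos hb0 hmin2
  have hbM1 : 0 ≤ b * max r 0 := mul_nonneg hb0 hmax1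
  have hbM2 : b * max r 0 ≤ 1 := by nlinarith
  have hap1 : a * p ≤ 1 := by nlinarith
  have hap2 : -1 ≤ a * p := by nlinarith
  split_ifs with hp0
  · have : 0 ≤ a * p := mul_nonneg ha0 hp0
    rw [abs_le, abs_le]
    refine ⟨⟨?_, ?_⟩, ?_, ?_⟩ <;> linarith
  · push Not at hp0
    have : a * p ≤ 0 := mul_nonpos_of_nonneg_of_nonpos ha0 hp0.le
    rw [abs_le, abs_le]
    refine ⟨⟨?_, ?_⟩, ?_, ?_⟩ <;> linarith

lemma incr_on_S (hS0 : [] ∈ S) (hSc : ∀ a v, a :: v ∈ S → v ∈ S) (f g : List ℕ → ℝ) (a b : ℝ)
    {v : List ℕ} (hv : v ∈ S) :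
    incr (Qp S a b f g) v = a * f v ∧ incr (Qm S a b f g) v = a * f v := by
  cases v with
  | nil =>
    simp only [incr, Qp, Qm]
    rw [pot_corestr_mem hS0 hSc g hS0, psiP_zero, psiM_zero]
    simp [pathPotential, restr_mem S hS0]
  | cons n u =>
    have hu := hSc _ _ hv
    simp only [incr, Qp, Qm]
    rw [pot_corestr_mem hS0 hSc g hv, pot_corestr_mem hS0 hSc g hu]
    simp only [psiP_zero, psiM_zero, pathPotential, restr_mem S hv]
    constructor <;> ring

lemma incr_off_S (hS0 : [] ∈ S) (f g : List ℕ → ℝ) (a b : ℝ) (hb0 : 0 ≤ b)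
    {v : List ℕ} (hv : v ∉ S) :
    |incr (Qp S a b f g) v| ≤ b * |g v| ∧ |incr (Qm S a b f g) v| ≤ b * |g v| ∧
      incr (Qp S a b f g) v - incr (Qm S a b f g) v = b * g v := by
  cases v with
  | nil => exact absurd hS0 hv
  | cons n u =>
    simp only [incr, Qp, Qm]
    have h1 : pathPotential (restr S f) (n :: u) = pathPotential (restr S f) u := by
      simp only [pathPotential]
      rw [restr_not S hv, add_zero]
    have h2 : pathPotential (corestr S g) (n :: u)
        = pathPotential (corestr S g) u + g (n :: u) := by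
      simp only [pathPotential]
      rw [corestr_not S hv]
    rw [h1, h2]
    set p := pathPotential (restr S f) u
    set r := pathPotential (corestr S g) u
    set w := g (n :: u)
    have hl1 := psiP_lip p (r + w) r
    have hl2 := psiM_lip p (r + w) r
    have e : r + w - r = w := by ring
    rw [e] at hl1 hl2
    refine ⟨?_, ?_, ?_⟩
    · have : a * p + b * psiP p (r + w) - (a * p + b * psiP p r)
          = b * (psiP p (r + w) - psiP p r) := by ring
      rw [this, abs_mul, abs_of_nonneg hb0]
      exact mul_le_mul_of_nonneg_left hl1 hb0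
    · have : a * p - b * psiM p (r + w) - (a * p - b * psiM p r)
          = - (b * (psiM p (r + w) - psiM p r)) := by ring
      rw [this, abs_neg, abs_mul, abs_of_nonneg hb0]
      exact mul_le_mul_of_nonneg_left hl2 hb0
    · have h3 := psi_add p (r + w)
      have h4 := psi_add p r
      have : a * p + b * psiP p (r + w) - (a * p + b * psiP p r)
          - (a * p - b * psiM p (r + w) - (a * p - b * psiM p r))
          = b * ((psiP p (r + w) + psiM p (r + w)) - (psiP p r + psiM p r)) := by ring
      rw [this, h3, h4, e]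

/-- Splitting a sum of squares over `S` and its complement. -/
lemma split_sum {ι : Type*} (A : Finset ι) (w : ι → List ℕ) {f g h : List ℕ → ℝ} {a b : ℝ}
    (hb0 : 0 ≤ b) (hab : a ^ 2 + b ^ 2 ≤ 1)
    (hdomS : ∀ v ∈ S, h v = a * f v) (hdomN : ∀ v, v ∉ S → |h v| ≤ b * |g v|)
    (hf : ∑ i ∈ A.filter (fun i => w i ∈ S), f (w i) ^ 2 ≤ 1)
    (hg : ∑ i ∈ A.filter (fun i => ¬ w i ∈ S), g (w i) ^ 2 ≤ 1) :
    ∑ i ∈ A, h (w i) ^ 2 ≤ 1 := by
  classical
  rw [← Finset.sum_filter_add_sum_filter_not A (fun i => w i ∈ S)]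
  have h1 : ∑ i ∈ A.filter (fun i => w i ∈ S), h (w i) ^ 2 ≤ a ^ 2 := by
    have e : ∑ i ∈ A.filter (fun i => w i ∈ S), h (w i) ^ 2
        = a ^ 2 * ∑ i ∈ A.filter (fun i => w i ∈ S), f (w i) ^ 2 := by
      rw [Finset.mul_sum]
      refine Finset.sum_congr rfl fun i hi => ?_
      rw [hdomS _ (Finset.mem_filter.mp hi).2]
      ring
    rw [e]
    have := sq_nonneg a
    nlinarith
  have h2 : ∑ i ∈ A.filter (fun i => ¬ w i ∈ S), h (w i) ^ 2 ≤ b ^ 2 := by
    have e : ∑ i ∈ A.filter (fun i => ¬ w i ∈ S), h (w i) ^ 2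
        ≤ b ^ 2 * ∑ i ∈ A.filter (fun i => ¬ w i ∈ S), g (w i) ^ 2 := by
      rw [Finset.mul_sum]
      refine Finset.sum_le_sum fun i hi => ?_
      have h3 := hdomN _ (Finset.mem_filter.mp hi).2
      have h4 : h (w i) ^ 2 = |h (w i)| ^ 2 := (sq_abs _).symm
      have h5 : g (w i) ^ 2 = |g (w i)| ^ 2 := (sq_abs _).symm
      rw [h4, h5, ← mul_pow]
      exact pow_le_pow_left₀ (abs_nonneg _) h3 2
    refine e.trans ?_
    have := sq_nonneg b
    nlinarith
  linarith

lemma extra_of_dom (m : PotentialModel) {f g h : List ℕ → ℝ} (hf : ExtraCondition m f)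
    (hg : ExtraCondition m g) {a b : ℝ} (hb0 : 0 ≤ b) (hab : a ^ 2 + b ^ 2 ≤ 1) (hS0 : [] ∈ S)
    (hdomS : ∀ v ∈ S, h v = a * f v) (hdomN : ∀ v, v ∉ S → |h v| ≤ b * |g v|) :
    ExtraCondition m h := by
  cases m with
  | rootlessSibling =>
    refine ⟨?_, fun r A => ?_⟩
    · rw [hdomS _ hS0, hf.1, mul_zero]
    · exact split_sum A (fun n => n :: r) hb0 hab hdomS hdomN (hf.2 r _) (hg.2 r _)
  | rootedSibling =>
    intro r A
    exact split_sum A (fun n => n :: r) hb0 hab hdomS hdomN (hf r _) (hg r _)
  | antichain =>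
    refine ⟨?_, fun A hA => ?_⟩
    · refine (S.finite_toSet.union hg.1).subset fun v hv => ?_
      by_cases hvS : v ∈ S
      · exact Or.inl hvS
      · right
        intro hgv
        apply hv
        have := hdomN v hvS
        rw [show g v = 0 from hgv, abs_zero, mul_zero] at this
        exact abs_nonpos_iff.mp this
    · refine split_sum A id hb0 hab hdomS hdomN (hf.2 _ ?_) (hg.2 _ ?_)
      · exact fun u hu v hv => hA u (Finset.mem_filter.mp hu).1 v (Finset.mem_filter.mp hv).1
      · exact fun u hu v hv => hA u (Finset.mem_filter.mp hu).1 v (Finset.mem_filter.mp hv).1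
  | global =>
    intro A
    exact split_sum A id hb0 hab hdomS hdomN (hf _) (hg _)

/-- Mixing two tests: the key combinatorial step. -/
theorem mix_test (m : PotentialModel) (hS0 : [] ∈ S) (hSc : ∀ a v, a :: v ∈ S → v ∈ S)
    {f g : List ℕ → ℝ} (hf : IsTest m f) (hg : IsTest m g) {a b : ℝ} (ha0 : 0 ≤ a) (ha1 : a ≤ 1)
    (hb0 : 0 ≤ b) (hb1 : b ≤ 1 / 2) (hab : a ^ 2 + b ^ 2 ≤ 1) :
    ∃ hp hm : List ℕ → ℝ, IsTest m hp ∧ IsTest m hm ∧ (∀ v ∈ S, hp v = a * f v ∧ hm v = a * f v) ∧
      ∀ v, v ∉ S → hp v - hm v = b * g v := by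
  refine ⟨incr (Qp S a b f g), incr (Qm S a b f g), ⟨?_, ?_⟩, ⟨?_, ?_⟩, ?_, ?_⟩
  · intro s
    rw [pot_incr]
    exact (Q_bound hS0 hSc hf.1 hg.1 ha0 ha1 hb0 hb1 s).1
  · exact extra_of_dom m hf.2 hg.2 hb0 hab hS0 (fun v hv => (incr_on_S hS0 hSc f g a b hv).1)
      (fun v hv => (incr_off_S hS0 f g a b hb0 hv).1)
  · intro s
    rw [pot_incr]
    exact (Q_bound hS0 hSc hf.1 hg.1 ha0 ha1 hb0 hb1 s).2
  · exact extra_of_dom m hf.2 hg.2 hb0 hab hS0 (fun v hv => (incr_on_S hS0 hSc f g a b hv).2)
      (fun v hv => (incr_off_S hS0 f g a b hb0 hv).2.1)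
  · exact fun v hv => incr_on_S hS0 hSc f g a b hv
  · exact fun v hv => (incr_off_S hS0 f g a b hb0 hv).2.2

/-! Simple tests. -/

/-- The coordinate coefficient family. -/
noncomputable def ind (s : List ℕ) : List ℕ → ℝ := fun u => by
  classical exact if u = s then 1 else 0

lemma ind_self (s : List ℕ) : ind s s = 1 := by simp [ind]

lemma ind_ne {s u : List ℕ} (h : u ≠ s) : ind s u = 0 := by simp [ind, h]

lemma pot_ind (s v : List ℕ) : pathPotential (ind s) v = by
    classical exact if s <:+ v then 1 else 0 := by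
  induction v with
  | nil =>
    simp only [pathPotential, ind, List.suffix_nil]
    by_cases h : s = []
    · subst h; simp
    · simp [h, Ne.symm h]
  | cons a v ih =>
    simp only [pathPotential]
    rw [ih]
    by_cases h : a :: v = s
    · subst h
      have : ¬ (a :: v) <:+ v := by
        intro h2
        have := h2.length_le
        simp at this
      simp [this, ind_self]
    · rw [ind_ne h]
      have h2 : s <:+ a :: v ↔ s <:+ v := by
        rw [List.suffix_cons_iff]
        constructor
        · rintro (h3 | h3)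
          · exact absurd h3.symm h
          · exact h3
        · exact Or.inr
      simp [h2]

lemma ind_sq_sum {ι : Type*} (A : Finset ι) (w : ι → List ℕ) (hw : Function.Injective w)
    (s : List ℕ) : ∑ i ∈ A, ind s (w i) ^ 2 ≤ 1 := by
  classical
  have e : ∀ i, ind s (w i) ^ 2 = if w i = s then 1 else 0 := by
    intro i
    by_cases h : w i = s
    · simp [h, ind_self]
    · simp [h, ind_ne h]
  simp_rw [e]
  rw [← Finset.sum_filter, Finset.sum_const, nsmul_eq_mul, mul_one]
  have : (A.filter fun i => w i = s).card ≤ 1 := by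
    rw [Finset.card_le_one]
    intro i hi j hj
    apply hw
    rw [(Finset.mem_filter.mp hi).2, (Finset.mem_filter.mp hj).2]
  exact_mod_cast this

lemma cons_injective (r : List ℕ) : Function.Injective (fun n : ℕ => n :: r) := by
  intro a b h
  simpa using h

lemma isTest_ind (m : PotentialModel) (s : List ℕ) (hs : s ≠ [] ∨ m ≠ .rootlessSibling) :
    IsTest m (ind s) := by
  constructor
  · intro v
    rw [pot_ind]
    split_ifs <;> simp
  · cases m with
    | rootlessSibling =>
      have hs' : s ≠ [] := by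
        rcases hs with h | h
        · exact h
        · exact absurd rfl h
      exact ⟨ind_ne (Ne.symm hs'), fun r A => ind_sq_sum A _ (cons_injective r) s⟩
    | rootedSibling => exact fun r A => ind_sq_sum A _ (cons_injective r) s
    | antichain =>
      refine ⟨?_, fun A _ => ind_sq_sum A id Function.injective_id s⟩
      refine (Set.finite_singleton s).subset fun v hv => ?_
      by_contra h
      exact hv (ind_ne h)
    | global => exact fun A => ind_sq_sum A id Function.injective_id s

lemma isTest_zero (m : PotentialModel) : IsTest m (fun _ => 0) := by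
  have hp : ∀ v, pathPotential (fun _ => (0 : ℝ)) v = 0 := by
    intro v
    induction v with
    | nil => rfl
    | cons a v ih => simp [pathPotential, ih]
  constructor
  · intro v
    rw [hp]
    simp
  · cases m with
    | rootlessSibling => exact ⟨rfl, fun r A => by simp⟩
    | rootedSibling => exact fun r A => by simp
    | antichain => exact ⟨by simp, fun A _ => by simp⟩
    | global => exact fun A => by simp

lemma pot_neg (f : List ℕ → ℝ) (v : List ℕ) :
    pathPotential (fun u => - f u) v = - pathPotential f v := by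
  induction v with
  | nil => rfl
  | cons a v ih =>
    simp only [pathPotential, ih]
    ring

lemma isTest_neg {m : PotentialModel} {f : List ℕ → ℝ} (hf : IsTest m f) :
    IsTest m (fun u => - f u) := by
  constructor
  · intro v
    rw [pot_neg, abs_neg]
    exact hf.1 v
  · cases m with
    | rootlessSibling =>
      refine ⟨?_, fun r A => ?_⟩
      · show - f [] = 0
        rw [hf.2.1, neg_zero]
      · simpa using hf.2.2 r A
    | rootedSibling => exact fun r A => by simpa using hf.2 r A
    | antichain =>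
      refine ⟨?_, fun A hA => by simpa using hf.2.2 A hA⟩
      refine hf.2.1.subset fun v hv h => hv ?_
      show - f v = 0
      rw [show f v = 0 from h, neg_zero]
    | global => exact fun A => by simpa using hf.2 A

/-- Square sums over siblings are bounded in all models. -/
lemma sibling_sq {m : PotentialModel} {f : List ℕ → ℝ} (hf : IsTest m f) (r : List ℕ)
    (A : Finset ℕ) : ∑ n ∈ A, f (n :: r) ^ 2 ≤ 1 := by
  classical
  cases m with
  | rootlessSibling => exact hf.2.2 r A
  | rootedSibling => exact hf.2 r A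
  | antichain =>
    have h := hf.2.2 (A.image fun n => n :: r) (by
      intro u hu v hv huv hs
      obtain ⟨n, -, rfl⟩ := Finset.mem_image.mp hu
      obtain ⟨k, -, rfl⟩ := Finset.mem_image.mp hv
      exact huv (hs.eq_of_length (by simp)))
    rwa [Finset.sum_image (fun a _ b _ hab => cons_injective r hab)] at h
  | global =>
    have h := hf.2 (A.image fun n => n :: r)
    rwa [Finset.sum_image (fun a _ b _ hab => cons_injective r hab)] at h

/-- Root of a rootless test. -/
lemma rootless_root {f : List ℕ → ℝ} (hf : IsTest .rootlessSibling f) : f [] = 0 := hf.2.1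

end Crest.Agent.Lib.TreePot
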