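import Crest.Agent.Lib.TreePot

/-! The Banach space of a tree potential model. -/

set_option autoImplicit false

namespace Crest.Agent.Lib.TreePot

open Crest.AnalysisR Crest.AnalysisR.TreePotential

variable (m : PotentialModel)

/-- The ambient space. -/
abbrev Amb := lp (fun _ : PotentialTest m => ℝ) ⊤

/-- Evaluation at a test. -/
noncomputable def ev (f : PotentialTest m) : Amb m →L[ℝ] ℝ :=
  lp.evalCLM (𝕜 := ℝ) (E := fun _ : PotentialTest m => ℝ) (p := ⊤) f

variable {m}

lemma ev_apply (f : PotentialTest m) (y : Amb m) : ev m f y = y f := rfl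

lemma ev_coord (f : PotentialTest m) (s : List ℕ) : ev m f (coordVector m s) = f.1 s := rfl

lemma abs_ev_le (f : PotentialTest m) (y : Amb m) : |ev m f y| ≤ ‖y‖ :=
  lp.norm_apply_le_norm ENNReal.top_ne_zero y f

variable (m) in
/-- A continuous functional vanishing on coordinate vectors vanishes on the model space. -/
lemma clm_vanish (L : Amb m →L[ℝ] ℝ) (hL : ∀ s, L (coordVector m s) = 0) (y : Amb m)
    (hy : y ∈ modelSpace m) : L y = 0 := by
  have h1 : Submodule.span ℝ (Set.range (coordVector m)) ≤ LinearMap.ker L.toLinearMap := by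
    rw [Submodule.span_le]
    rintro _ ⟨s, rfl⟩
    exact hL s
  have h2 := Submodule.topologicalClosure_minimal _ h1 L.isClosed_ker
  exact h2 hy

instance : Nonempty (PotentialTest m) := ⟨⟨fun _ => 0, isTest_zero m⟩⟩

/-- The negative of a test. -/
noncomputable def negT (f : PotentialTest m) : PotentialTest m := ⟨fun u => - f.1 u, isTest_neg f.2⟩

lemma ev_negT (f : PotentialTest m) (y : Amb m) (hy : y ∈ modelSpace m) :
    ev m (negT f) y = - ev m f y := by
  have := clm_vanish m (ev m (negT f) + ev m f) (by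
    intro s
    simp only [add_apply, ev_coord]
    show - f.1 s + f.1 s = 0
    ring) y hy
  simp only [add_apply] at this
  linarith

/-- A near norming test. -/
lemma exists_test_near (y : Amb m) (hy : y ∈ modelSpace m) (ε : ℝ) (hε : 0 < ε) :
    ∃ f : PotentialTest m, ‖y‖ - ε ≤ ev m f y := by
  by_contra hcon
  push Not at hcon
  have h : ∀ f : PotentialTest m, ‖y f‖ ≤ ‖y‖ - ε := by
    intro f
    rw [Real.norm_eq_abs, abs_le]
    constructor
    · have := hcon (negT f)
      rw [ev_negT f y hy] at this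
      rw [ev_apply] at this
      linarith
    · exact (hcon f).le
  have := lp.norm_le_of_forall_le' (‖y‖ - ε) h
  linarith

variable (m) in
/-- Tests for coordinates. -/
noncomputable def delta (s : List ℕ) : PotentialTest m := by
  classical exact
  if h : s ≠ [] ∨ m ≠ .rootlessSibling then ⟨ind s, isTest_ind m s h⟩
  else ⟨fun _ => 0, isTest_zero m⟩

lemma delta_spec (s u : List ℕ) (g : PotentialTest m) :
    g.1 s * (delta m s).1 u = by classical exact if u = s then g.1 s else 0 := by
  classical
  by_cases h : s ≠ [] ∨ m ≠ .rootlessSibling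
  · have e : (delta m s).1 = ind s := by
      simp only [delta, h, dite_true]
    rw [e]
    by_cases hu : u = s
    · subst hu
      simp [ind_self]
    · simp [ind_ne hu, hu]
  · have e : (delta m s).1 = fun _ => 0 := by
      simp only [delta, h, dite_false]
    rw [e]
    push Not at h
    obtain ⟨rfl, rfl⟩ := h
    have := rootless_root g.2
    simp [this]

/-- The core estimate for the average. -/
theorem core (t : ℝ) (ht0 : 0 < t) (ht1 : t < 1) (x : Amb m) (hxm : x ∈ modelSpace m)
    (hx1 : ‖x‖ = 1) (ε : ℝ) (hε : 0 < ε) :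
    ∃ S : Finset (List ℕ), ∀ y ∈ modelSpace m, (∀ s ∈ S, ev m (delta m s) y = 0) → ‖y‖ = 1 →
      Real.sqrt (1 + t ^ 2 / 4) - 4 * ε ≤ (‖x + t • y‖ + ‖x - t • y‖) / 2 := by
  classical
  set c := Real.sqrt (1 + t ^ 2 / 4) with hc
  have hc2 : c ^ 2 = 1 + t ^ 2 / 4 := Real.sq_sqrt (by positivity)
  have hc1 : 1 ≤ c := by
    rw [hc]
    apply Real.le_sqrt_of_sq_le
    nlinarith [sq_nonneg t]
  have hc0 : 0 < c := by linarith
  set a := 1 / c with ha
  set b := t / (2 * c) with hb
  have ha0 : 0 ≤ a := by positivity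
  have ha1 : a ≤ 1 := by
    rw [ha, div_le_one hc0]
    exact hc1
  have hb0 : 0 ≤ b := by positivity
  have hb1 : b ≤ 1 / 2 := by
    rw [hb, div_le_iff₀ (by positivity)]
    nlinarith
  have hab : a ^ 2 + b ^ 2 = 1 := by
    rw [ha, hb]
    field_simp
    rw [hc2]
    ring
  have hac : a + t * b / 2 = c := by
    rw [ha, hb]
    field_simp
    nlinarith
  have hxm' := hxm
  rw [modelSpace, ← SetLike.mem_coe, Submodule.topologicalClosure_coe, Metric.mem_closure_iff] at hxm'
  obtain ⟨x', hx'span, hxx'⟩ := hxm' ε hε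
  rw [dist_eq_norm] at hxx'
  have hx'mem : x' ∈ modelSpace m := Submodule.le_topologicalClosure _ hx'span
  obtain ⟨c', hc'⟩ := Finsupp.mem_span_range_iff_exists_finsupp.mp hx'span
  set S : Finset (List ℕ) := insert [] (c'.support.biUnion fun v => v.tails.toFinset) with hSdef
  have hS0 : [] ∈ S := Finset.mem_insert_self _ _
  have hSc : ∀ a v, a :: v ∈ S → v ∈ S := by
    intro a v h
    rw [hSdef, Finset.mem_insert] at h
    rcases h with h | h
    · simp at h
    · obtain ⟨w, hw, hv⟩ := Finset.mem_biUnion.mp h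
      refine Finset.mem_insert_of_mem (Finset.mem_biUnion.mpr ⟨w, hw, ?_⟩)
      simp only [List.mem_toFinset, List.mem_tails] at hv ⊢
      exact (List.suffix_cons a v).trans hv
  have hsupp : ∀ v ∈ c'.support, v ∈ S := by
    intro v hv
    refine Finset.mem_insert_of_mem (Finset.mem_biUnion.mpr ⟨v, hv, ?_⟩)
    simp
  have hval : ∀ f : PotentialTest m, ev m f x' = ∑ s ∈ c'.support, c' s * f.1 s := by
    intro f
    rw [← hc', Finsupp.sum, map_sum]
    refine Finset.sum_congr rfl fun s _ => ?_
    rw [map_smul, smul_eq_mul, ev_coord]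
  obtain ⟨f, hf⟩ := exists_test_near x' hx'mem ε hε
  refine ⟨S, fun y hym hyF hy1 => ?_⟩
  obtain ⟨g, hg⟩ := exists_test_near y hym ε hε
  obtain ⟨hp, hm, hpT, hmT, hon, hoff⟩ := mix_test m hS0 hSc f.2 g.2 ha0 ha1 hb0 hb1 hab.le
  let Hp : PotentialTest m := ⟨hp, hpT⟩
  let Hm : PotentialTest m := ⟨hm, hmT⟩
  have hyid : ev m Hp y - ev m Hm y = b * ev m g y := by
    let L : Amb m →L[ℝ] ℝ := ev m Hp - ev m Hm - b • ev m g
      + b • ∑ s ∈ S, (g.1 s) • ev m (delta m s)
    have hL : L y = 0 := by
      refine clm_vanish m L (fun u => ?_) y hym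
      simp only [L, add_apply, sub_apply,
        smul_apply, sum_apply, smul_eq_mul, ev_coord]
      have h1 : ∑ s ∈ S, g.1 s * (delta m s).1 u = if u ∈ S then g.1 u else 0 := by
        simp_rw [delta_spec]
        exact Finset.sum_ite_eq S u g.1
      rw [h1]
      by_cases hu : u ∈ S
      · have h2 := hon u hu
        show hp u - hm u - b * g.1 u + b * (if u ∈ S then g.1 u else 0) = 0
        rw [if_pos hu, h2.1, h2.2]
        ring
      · have h2 := hoff u hu
        show hp u - hm u - b * g.1 u + b * (if u ∈ S then g.1 u else 0) = 0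
        rw [if_neg hu, h2]
        ring
    simp only [L, add_apply, sub_apply,
      smul_apply, sum_apply, smul_eq_mul] at hL
    have h3 : ∑ s ∈ S, g.1 s * ev m (delta m s) y = 0 :=
      Finset.sum_eq_zero fun s hs => by rw [hyF s hs, mul_zero]
    rw [h3, mul_zero, add_zero] at hL
    linarith
  have hx'p : ev m Hp x' = a * ev m f x' := by
    rw [hval, hval, Finset.mul_sum]
    refine Finset.sum_congr rfl fun s hs => ?_
    show c' s * hp s = a * (c' s * f.1 s)
    rw [(hon s (hsupp s hs)).1]
    ring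
  have hx'm : ev m Hm x' = a * ev m f x' := by
    rw [hval, hval, Finset.mul_sum]
    refine Finset.sum_congr rfl fun s hs => ?_
    show c' s * hm s = a * (c' s * f.1 s)
    rw [(hon s (hsupp s hs)).2]
    ring
  have h1 : ev m Hp (x + t • y) ≤ ‖x + t • y‖ := (le_abs_self _).trans (abs_ev_le _ _)
  have h2 : ev m Hm (x - t • y) ≤ ‖x - t • y‖ := (le_abs_self _).trans (abs_ev_le _ _)
  rw [map_add, map_smul, smul_eq_mul] at h1
  rw [map_sub, map_smul, smul_eq_mul] at h2
  have h3 : ev m Hp x' - ε ≤ ev m Hp x := by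
    have h4 := abs_ev_le Hp (x - x')
    rw [map_sub, abs_le] at h4
    linarith [h4.1, h4.2]
  have h5 : ev m Hm x' - ε ≤ ev m Hm x := by
    have h4 := abs_ev_le Hm (x - x')
    rw [map_sub, abs_le] at h4
    linarith [h4.1, h4.2]
  have hx'norm : 1 - ε ≤ ‖x'‖ := by
    have : ‖x‖ ≤ ‖x - x'‖ + ‖x'‖ := by
      have := norm_add_le (x - x') x'
      simpa using this
    linarith
  have hfx' : 1 - 2 * ε ≤ ev m f x' := by linarith
  have hgy : 1 - ε ≤ ev m g y := by linarith
  have h6 : a * (1 - 2 * ε) ≤ a * ev m f x' := mul_le_mul_of_nonneg_left hfx' ha0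
  have h7 : t * b * (1 - ε) ≤ t * b * ev m g y :=
    mul_le_mul_of_nonneg_left hgy (by positivity)
  have h8 : t * b ≤ 1 := by nlinarith
  have h9 : t * (ev m Hp y - ev m Hm y) = t * b * ev m g y := by rw [hyid]; ring
  have h10 : a * ε ≤ ε := by nlinarith
  have h11 : t * b * ε ≤ ε := by nlinarith
  rw [hx'p] at h3
  rw [hx'm] at h5
  nlinarith


/-! The potential vectors and the upper `ℓ₂` estimate. -/

variable (m) in
/-- The potential vector: sum of coordinate vectors along the root path. -/
noncomputable def potVec : List ℕ → Amb m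
  | [] => coordVector m []
  | a :: v => potVec v + coordVector m (a :: v)

lemma ev_potVec (f : PotentialTest m) (v : List ℕ) :
    ev m f (potVec m v) = pathPotential f.1 v := by
  induction v with
  | nil => rfl
  | cons a v ih =>
    simp only [potVec, map_add, ih, ev_coord, pathPotential]

lemma coord_mem (s : List ℕ) : coordVector m s ∈ modelSpace m :=
  Submodule.le_topologicalClosure _ (Submodule.subset_span ⟨s, rfl⟩)

lemma potVec_mem (v : List ℕ) : potVec m v ∈ modelSpace m := by
  induction v with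
  | nil => exact coord_mem _
  | cons a v ih => exact (modelSpace m).add_mem ih (coord_mem _)

lemma norm_potVec_le (v : List ℕ) : ‖potVec m v‖ ≤ 1 := by
  refine lp.norm_le_of_forall_le zero_le_one fun f => ?_
  rw [Real.norm_eq_abs]
  have := ev_potVec f v
  rw [ev_apply] at this
  rw [this]
  exact f.2.1 v

lemma one_le_norm_coord {s : List ℕ} (hs : s ≠ []) : 1 ≤ ‖coordVector m s‖ := by
  have h := abs_ev_le (⟨ind s, isTest_ind m s (Or.inl hs)⟩ : PotentialTest m) (coordVector m s)
  rw [ev_coord] at h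
  simpa [ind_self] using h

lemma one_le_norm_potVec {v : List ℕ} (hv : v ≠ []) : 1 ≤ ‖potVec m v‖ := by
  have h := abs_ev_le (⟨ind v, isTest_ind m v (Or.inl hv)⟩ : PotentialTest m) (potVec m v)
  rw [ev_potVec, pot_ind] at h
  simpa using h

lemma norm_sum_siblings_le (r : List ℕ) (A : Finset ℕ) :
    ‖∑ n ∈ A, coordVector m (n :: r)‖ ≤ Real.sqrt A.card := by
  refine lp.norm_le_of_forall_le (Real.sqrt_nonneg _) fun f => ?_
  rw [Real.norm_eq_abs]
  have h1 : (∑ n ∈ A, coordVector m (n :: r) : Amb m) f = ∑ n ∈ A, f.1 (n :: r) := by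
    have : ev m f (∑ n ∈ A, coordVector m (n :: r)) = ∑ n ∈ A, f.1 (n :: r) := by
      rw [map_sum]
      rfl
    exact this
  rw [h1]
  apply Real.abs_le_sqrt
  refine (sq_sum_le_card_mul_sum_sq).trans ?_
  have h2 := sibling_sq f.2 r A
  have h3 : (0 : ℝ) ≤ A.card := by positivity
  nlinarith

end Crest.Agent.Lib.TreePot
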