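import Crest.Prelude.Def_TreeProducts
import Crest.Agent.Lib.AUCTree

/-! Path products of independent multipliers: the facts needed for the tree obstruction. -/

set_option autoImplicit false

namespace Crest.Agent.Lib.TreeProd

open MeasureTheory ProbabilityTheory Crest.AnalysisR Crest.AnalysisR.TreeProduct

variable {Ω : Type} [MeasurableSpace Ω] {μ : Measure Ω} [IsProbabilityMeasure μ]
  {W : List ℕ → Ω → ℝ}

lemma pathProduct_factor (S : Finset (List ℕ)) (v : List ℕ)
    (hS : ∀ u, u <:+ v → u ∈ S) :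
    ∃ F : (S → ℝ) → ℝ, Measurable F ∧ ∀ ω, pathProduct W v ω = F (fun i => W i ω) := by
  induction v with
  | nil => exact ⟨fun _ => 1, measurable_const, fun ω => rfl⟩
  | cons a v ih =>
    obtain ⟨F, hF, hFe⟩ := ih (fun u hu => hS u (hu.trans (List.suffix_cons a v)))
    refine ⟨fun c => F c * c ⟨a :: v, hS _ List.suffix_rfl⟩, ?_, fun ω => ?_⟩
    · exact hF.mul (measurable_pi_apply _)
    · simp only [pathProduct]
      rw [hFe]

lemma measurable_pathProduct (hm : ∀ v, Measurable (W v)) (v : List ℕ) :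
    Measurable (pathProduct W v) := by
  induction v with
  | nil => exact measurable_const
  | cons a v ih => exact ih.mul (hm _)

lemma indep_path_other (hm : ∀ v, Measurable (W v)) (hW : iIndepFun W μ) (v : List ℕ)
    (T : Finset (List ℕ)) (hT : ∀ u ∈ T, ¬ u <:+ v) (G : (T → ℝ) → ℝ) (hG : Measurable G) :
    IndepFun (pathProduct W v) (fun ω => G (fun i : T => W i ω)) μ := by
  classical
  set S : Finset (List ℕ) := v.tails.toFinset with hSdef
  have hS : ∀ u, u <:+ v → u ∈ S := by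
    intro u hu
    simpa [hSdef] using hu
  have hdisj : Disjoint S T := by
    rw [Finset.disjoint_left]
    intro u hu huT
    apply hT u huT
    simpa [hSdef] using hu
  obtain ⟨F, hF, hFe⟩ := pathProduct_factor (W := W) S v hS
  have h := (iIndepFun.indepFun_finset S T hdisj hW hm).comp hF hG
  have e : pathProduct W v = F ∘ fun a (i : S) => W i a := by
    funext ω
    exact hFe ω
  rw [e]
  exact h

lemma indep_path_child (hm : ∀ v, Measurable (W v)) (hW : iIndepFun W μ) (a : ℕ) (v : List ℕ) :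
    IndepFun (pathProduct W v) (W (a :: v)) μ := by
  have h := indep_path_other hm hW v {a :: v} (by
    intro u hu hsuf
    rw [Finset.mem_singleton] at hu
    subst hu
    have := hsuf.length_le
    simp at this) (fun c => c ⟨a :: v, Finset.mem_singleton_self _⟩) (measurable_pi_apply _)
  exact h

lemma integral_abs_path (ν : Measure ℝ) (hm : ∀ v, Measurable (W v)) (hW : iIndepFun W μ)
    (hlaw : ∀ v, v ≠ [] → Measure.map (W v) μ = ν) (hint : Integrable (fun x : ℝ => x) ν)
    (habs : ∫ x, |x| ∂ν = 1) (v : List ℕ) :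
    Integrable (pathProduct W v) μ ∧ ∫ ω, |pathProduct W v ω| ∂μ = 1 := by
  induction v with
  | nil =>
    refine ⟨integrable_const _, ?_⟩
    simp [pathProduct]
  | cons a v ih =>
    have hlawa := hlaw (a :: v) (by simp)
    have hmeas := hm (a :: v)
    have hWint : Integrable (W (a :: v)) μ := by
      have : Integrable (fun x : ℝ => x) (Measure.map (W (a :: v)) μ) := by rwa [hlawa]
      exact (integrable_map_measure (by fun_prop) hmeas.aemeasurable).mp this
    have hind := indep_path_child hm hW a v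
    refine ⟨hind.integrable_mul ih.1 hWint, ?_⟩
    have hind2 : IndepFun (fun ω => |pathProduct W v ω|) (fun ω => |W (a :: v) ω|) μ :=
      hind.comp (φ := fun x => |x|) (ψ := fun x => |x|) (by fun_prop) (by fun_prop)
    have e : ∀ ω, |pathProduct W (a :: v) ω| = |pathProduct W v ω| * |W (a :: v) ω| := by
      intro ω
      simp only [pathProduct]
      exact abs_mul _ _
    simp_rw [e]
    rw [hind2.integral_fun_mul_eq_mul_integral ih.1.abs.aestronglyMeasurable
      hWint.abs.aestronglyMeasurable]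
    have h1 : ∫ ω, |W (a :: v) ω| ∂μ = ∫ x, |x| ∂ν := by
      rw [← hlawa, integral_map hmeas.aemeasurable (by fun_prop)]
    rw [h1, habs, ih.2]
    norm_num

/-- `E|f| ≤ √(E f²)`. -/
lemma integral_abs_le_sqrt {f : Ω → ℝ} (hf : MemLp f 2 μ) :
    ∫ ω, |f ω| ∂μ ≤ Real.sqrt (∫ ω, f ω ^ 2 ∂μ) := by
  have h1 : MemLp (fun ω => |f ω|) 2 μ := hf.abs
  have h2 := variance_eq_sub h1
  have h3 : 0 ≤ variance (fun ω => |f ω|) μ := variance_nonneg _ _
  rw [h2] at h3
  have h4 : μ[(fun ω => |f ω|) ^ 2] = ∫ ω, f ω ^ 2 ∂μ := by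
    refine integral_congr_ae (Filter.Eventually.of_forall fun ω => ?_)
    simp [sq_abs]
  rw [h4] at h3
  apply Real.le_sqrt_of_sq_le
  linarith

lemma coeFn_finset_sum {ι : Type*} (g : ι → Lp ℝ 1 μ) (A : Finset ι) :
    (⇑(∑ i ∈ A, g i) : Ω → ℝ) =ᵐ[μ] fun ω => ∑ i ∈ A, (g i : Ω → ℝ) ω := by
  classical
  induction A using Finset.induction_on with
  | empty =>
    simp only [Finset.sum_empty]
    exact Lp.coeFn_zero _ _ _
  | insert i A hi ih =>
    rw [Finset.sum_insert hi]
    filter_upwards [Lp.coeFn_add (g i) (∑ j ∈ A, g j), ih] with ω h1 h2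
    rw [Finset.sum_insert hi, h1, Pi.add_apply, h2]

lemma norm_of_ae {a : Lp ℝ 1 μ} {b : Ω → ℝ} (h : (a : Ω → ℝ) =ᵐ[μ] b) :
    ‖a‖ = ∫ ω, |b ω| ∂μ := by
  rw [L1.norm_eq_integral_norm]
  refine integral_congr_ae ?_
  filter_upwards [h] with ω hω
  rw [hω, Real.norm_eq_abs]


section main

variable (ν : Measure ℝ) [IsProbabilityMeasure ν]

/-- Second moment computation for the sum of centred siblings. -/
lemma sum_sq (hm : ∀ v, Measurable (W v)) (hW : iIndepFun W μ)
    (hlaw : ∀ v, v ≠ [] → Measure.map (W v) μ = ν) (hm2 : Integrable (fun x : ℝ => x ^ 2) ν)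
    (hmean : ∫ x, x ∂ν = 1) (v : List ℕ) (A : Finset ℕ) :
    MemLp (fun ω => ∑ n ∈ A, (W (n :: v) ω - 1)) 2 μ ∧
    ∫ ω, (∑ n ∈ A, (W (n :: v) ω - 1)) ^ 2 ∂μ = A.card * ∫ x, (x - 1) ^ 2 ∂ν := by
  classical
  have hmemν : MemLp (fun x : ℝ => x) 2 ν :=
    (memLp_two_iff_integrable_sq (by fun_prop)).2 hm2
  have hintν : Integrable (fun x : ℝ => x) ν := hmemν.integrable one_le_two
  have hU : ∀ n : ℕ, MemLp (fun ω => W (n :: v) ω - 1) 2 μ := by
    intro n
    have hlawn := hlaw (n :: v) (by simp)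
    have h1 : MemLp (fun x : ℝ => x - 1) 2 (Measure.map (W (n :: v)) μ) := by
      rw [hlawn]
      exact hmemν.sub (memLp_const 1)
    exact (memLp_map_measure_iff (by fun_prop) (hm _).aemeasurable).mp h1
  have hmean0 : ∀ n : ℕ, ∫ ω, (W (n :: v) ω - 1) ∂μ = 0 := by
    intro n
    have hlawn := hlaw (n :: v) (by simp)
    have h1 : ∫ ω, (W (n :: v) ω - 1) ∂μ = ∫ x, (x - 1) ∂ν := by
      rw [← hlawn, integral_map (hm _).aemeasurable (by fun_prop)]
    rw [h1, integral_sub hintν (integrable_const _), hmean]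
    simp
  have hsq : ∀ n : ℕ, ∫ ω, (W (n :: v) ω - 1) ^ 2 ∂μ = ∫ x, (x - 1) ^ 2 ∂ν := by
    intro n
    have hlawn := hlaw (n :: v) (by simp)
    rw [← hlawn, integral_map (hm _).aemeasurable (by fun_prop)]
  have hvar : ∀ n : ℕ, variance (fun ω => W (n :: v) ω - 1) μ = ∫ x, (x - 1) ^ 2 ∂ν := by
    intro n
    rw [variance_eq_sub (hU n)]
    have h1 : μ[fun ω => W (n :: v) ω - 1] = 0 := hmean0 n
    rw [h1, ← hsq n]
    simp
  have hS : MemLp (fun ω => ∑ n ∈ A, (W (n :: v) ω - 1)) 2 μ := by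
    have := memLp_finsetSum' (s := A) (f := fun n ω => W (n :: v) ω - 1) (fun n _ => hU n)
    convert this using 1
    funext ω
    simp
  refine ⟨hS, ?_⟩
  have hvarS : variance (∑ n ∈ A, fun ω => W (n :: v) ω - 1) μ
      = ∑ n ∈ A, variance (fun ω => W (n :: v) ω - 1) μ := by
    apply IndepFun.variance_sum (fun n _ => hU n)
    intro i _ j _ hij
    have hne : (i :: v) ≠ (j :: v) := by simpa using hij
    have := (hW.indepFun hne).comp (φ := fun x => x - 1) (ψ := fun x => x - 1)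
      (by fun_prop) (by fun_prop)
    exact this
  have e : (∑ n ∈ A, fun ω => W (n :: v) ω - 1) = fun ω => ∑ n ∈ A, (W (n :: v) ω - 1) := by
    funext ω
    simp
  rw [e, variance_eq_sub hS] at hvarS
  have h0 : μ[fun ω => ∑ n ∈ A, (W (n :: v) ω - 1)] = 0 := by
    show ∫ ω, ∑ n ∈ A, (W (n :: v) ω - 1) ∂μ = 0
    rw [integral_finsetSum _ (fun n _ => (hU n).integrable one_le_two)]
    exact Finset.sum_eq_zero fun n _ => hmean0 n
  rw [h0] at hvarS
  simp only [ne_eq, OfNat.ofNat_ne_zero, not_false_eq_true, zero_pow, sub_zero] at hvarS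
  simp_rw [hvar] at hvarS
  simp only [Finset.sum_const, nsmul_eq_mul] at hvarS
  exact hvarS

/-- The `L¹` norm of a sibling-sum. -/
lemma norm_sum_siblings (hm : ∀ v, Measurable (W v)) (hW : iIndepFun W μ)
    (hlaw : ∀ v, v ≠ [] → Measure.map (W v) μ = ν) (hm2 : Integrable (fun x : ℝ => x ^ 2) ν)
    (hmean : ∫ x, x ∂ν = 1) (habs : ∫ x, |x| ∂ν = 1)
    (x : List ℕ → Lp ℝ 1 μ) (hx : ∀ v, (x v : Ω → ℝ) =ᵐ[μ] pathProduct W v) (v : List ℕ)
    (A : Finset ℕ) :
    ‖∑ n ∈ A, (x (n :: v) - x v)‖ ≤ Real.sqrt (∫ x, (x - 1) ^ 2 ∂ν) * Real.sqrt A.card := by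
  classical
  have hmemν : MemLp (fun x : ℝ => x) 2 ν :=
    (memLp_two_iff_integrable_sq (by fun_prop)).2 hm2
  have hintν : Integrable (fun x : ℝ => x) ν := hmemν.integrable one_le_two
  obtain ⟨hY, hY1⟩ := integral_abs_path ν hm hW hlaw hintν habs v
  obtain ⟨hS, hS2⟩ := sum_sq ν hm hW hlaw hm2 hmean v A
  set S : Ω → ℝ := fun ω => ∑ n ∈ A, (W (n :: v) ω - 1) with hSdef
  have hae : (⇑(∑ n ∈ A, (x (n :: v) - x v)) : Ω → ℝ) =ᵐ[μ]
      fun ω => pathProduct W v ω * S ω := by
    have h1 := coeFn_finset_sum (μ := μ) (fun n : ℕ => x (n :: v) - x v) A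
    have h2 : ∀ᵐ ω ∂μ, ∀ n : ℕ, ((x (n :: v) - x v : Lp ℝ 1 μ) : Ω → ℝ) ω
        = pathProduct W v ω * (W (n :: v) ω - 1) := by
      rw [ae_all_iff]
      intro n
      filter_upwards [Lp.coeFn_sub (x (n :: v)) (x v), hx (n :: v), hx v] with ω h3 h4 h5
      rw [h3, Pi.sub_apply, h4, h5]
      simp only [pathProduct]
      ring
    filter_upwards [h1, h2] with ω h3 h4
    rw [h3, hSdef]
    simp only [h4]
    rw [Finset.mul_sum]
  rw [norm_of_ae hae]
  -- independence
  set T : Finset (List ℕ) := A.image (fun n => n :: v) with hT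
  have hTmem : ∀ n ∈ A, (n :: v) ∈ T := fun n hn => Finset.mem_image_of_mem _ hn
  have hind : IndepFun (pathProduct W v) S μ := by
    have := indep_path_other hm hW v T (by
      intro u hu hsuf
      rw [hT, Finset.mem_image] at hu
      obtain ⟨n, -, rfl⟩ := hu
      have := hsuf.length_le
      simp at this)
      (fun c => ∑ n : A, (c ⟨n.1 :: v, hTmem n.1 n.2⟩ - 1)) (by
        refine Finset.measurable_sum _ fun n _ => ?_
        exact (measurable_pi_apply _).sub measurable_const)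
    convert this using 1
    funext ω
    rw [hSdef]
    exact (Finset.sum_coe_sort A (fun n => W (n :: v) ω - 1)).symm
  have hind2 : IndepFun (fun ω => |pathProduct W v ω|) (fun ω => |S ω|) μ :=
    hind.comp (φ := fun x => |x|) (ψ := fun x => |x|) (by fun_prop) (by fun_prop)
  have e : ∀ ω, |pathProduct W v ω * S ω| = |pathProduct W v ω| * |S ω| := fun ω => abs_mul _ _
  simp_rw [e]
  rw [hind2.integral_fun_mul_eq_mul_integral hY.abs.aestronglyMeasurable
    (hS.integrable one_le_two).abs.aestronglyMeasurable]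
  rw [hY1, one_mul]
  refine (integral_abs_le_sqrt hS).trans ?_
  rw [hS2, mul_comm, Real.sqrt_mul (by positivity)]

/-- The `L¹` norm of one step. -/
lemma norm_step (hm : ∀ v, Measurable (W v)) (hW : iIndepFun W μ)
    (hlaw : ∀ v, v ≠ [] → Measure.map (W v) μ = ν) (hint : Integrable (fun x : ℝ => x) ν)
    (habs : ∫ x, |x| ∂ν = 1)
    (x : List ℕ → Lp ℝ 1 μ) (hx : ∀ v, (x v : Ω → ℝ) =ᵐ[μ] pathProduct W v) (v : List ℕ)
    (n : ℕ) :
    ‖x (n :: v) - x v‖ = ∫ x, |x - 1| ∂ν := by
  obtain ⟨hY, hY1⟩ := integral_abs_path ν hm hW hlaw hint habs v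
  have hae : (⇑(x (n :: v) - x v) : Ω → ℝ) =ᵐ[μ]
      fun ω => pathProduct W v ω * (W (n :: v) ω - 1) := by
    filter_upwards [Lp.coeFn_sub (x (n :: v)) (x v), hx (n :: v), hx v] with ω h3 h4 h5
    rw [h3, Pi.sub_apply, h4, h5]
    simp only [pathProduct]
    ring
  rw [norm_of_ae hae]
  have hlawn := hlaw (n :: v) (by simp)
  have hUint : Integrable (fun ω => |W (n :: v) ω - 1|) μ := by
    have h1 : Integrable (fun x : ℝ => |x - 1|) (Measure.map (W (n :: v)) μ) := by
      rw [hlawn]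
      exact (hint.sub (integrable_const 1)).abs
    exact (integrable_map_measure (by fun_prop) (hm _).aemeasurable).mp h1
  have hind : IndepFun (fun ω => |pathProduct W v ω|) (fun ω => |W (n :: v) ω - 1|) μ :=
    (indep_path_child hm hW n v).comp (φ := fun x => |x|) (ψ := fun x => |x - 1|)
      (by fun_prop) (by fun_prop)
  have e : ∀ ω, |pathProduct W v ω * (W (n :: v) ω - 1)|
      = |pathProduct W v ω| * |W (n :: v) ω - 1| := fun ω => abs_mul _ _
  simp_rw [e]
  rw [hind.integral_fun_mul_eq_mul_integral hY.abs.aestronglyMeasurable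
    hUint.aestronglyMeasurable, hY1, one_mul]
  rw [← hlawn, integral_map (hm _).aemeasurable (by fun_prop)]

end main

/-- Non-degeneracy of the law. -/
lemma step_pos (ν : Measure ℝ) [IsProbabilityMeasure ν] (hnc : ∀ c : ℝ, ν ≠ Measure.dirac c)
    (hint : Integrable (fun x : ℝ => x) ν) : 0 < ∫ x, |x - 1| ∂ν := by
  have h0 : 0 ≤ ∫ x, |x - 1| ∂ν := integral_nonneg fun x => abs_nonneg _
  refine lt_of_le_of_ne h0 fun h => ?_
  have hi : Integrable (fun x : ℝ => |x - 1|) ν := (hint.sub (integrable_const 1)).abs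
  have hae := (integral_eq_zero_iff_of_nonneg (fun x => abs_nonneg _) hi).mp h.symm
  apply hnc 1
  have h2 : (fun x : ℝ => x) =ᵐ[ν] fun _ => (1 : ℝ) := by
    filter_upwards [hae] with x hx
    have : |x - 1| = 0 := hx
    have := abs_eq_zero.mp this
    linarith
  have h3 : Measure.map (fun x : ℝ => x) ν = Measure.map (fun _ : ℝ => (1 : ℝ)) ν :=
    Measure.map_congr h2
  rw [Measure.map_const, measure_univ, one_smul] at h3
  rwa [show (fun x : ℝ => x) = id from rfl, Measure.map_id] at h3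

end Crest.Agent.Lib.TreeProd
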